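import Vale.Agent.P161c.Proc

namespace Vale.Agent.P161c

open MeasureTheory SimpleGraph Vale.Agent.H13.P161 Filter Topology

lemma ak_bounds (n : ℕ) : 0 ≤ ak n ∧ ak n < 1 := by
  have h : (1 : ℝ) ≤ 3 ^ n := one_le_pow₀ (by norm_num)
  unfold ak
  constructor
  · apply div_nonneg <;> linarith
  · rw [div_lt_one (by linarith)]
    linarith

lemma prods_pos (n : ℕ) (z : ℕ → ℝ) (hz : ∀ l, |z l| ≤ 1 / 2) :
    0 < ∏ l ∈ Finset.range n, (1 + z l) ∧ 0 < ∏ l ∈ Finset.range n, (1 - z l) := by
  constructor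
  · apply Finset.prod_pos
    intro l _
    have := abs_le.mp (hz l)
    linarith
  · apply Finset.prod_pos
    intro l _
    have := abs_le.mp (hz l)
    linarith

/-- if all `|z l| ≤ 1/2` then `|ow n z| ≤ ak n`, and the denominator is positive -/
lemma abs_ow_le (n : ℕ) (z : ℕ → ℝ) (hz : ∀ l, |z l| ≤ 1 / 2) :
    |ow n z| ≤ ak n ∧ 0 < ∏ l ∈ Finset.range n, (1 + z l) + ∏ l ∈ Finset.range n, (1 - z l) := by
  obtain ⟨hA, hB⟩ := prods_pos n z hz
  have h1 : ∏ l ∈ Finset.range n, (1 + z l) ≤ 3 ^ n * ∏ l ∈ Finset.range n, (1 - z l) := by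
    calc ∏ l ∈ Finset.range n, (1 + z l) ≤ ∏ l ∈ Finset.range n, (3 * (1 - z l)) := by
          apply Finset.prod_le_prod
          · intro l _
            have := abs_le.mp (hz l)
            linarith
          · intro l _
            have := abs_le.mp (hz l)
            linarith
      _ = 3 ^ n * ∏ l ∈ Finset.range n, (1 - z l) := by
          rw [Finset.prod_mul_distrib, Finset.prod_const, Finset.card_range]
  have h2 : ∏ l ∈ Finset.range n, (1 - z l) ≤ 3 ^ n * ∏ l ∈ Finset.range n, (1 + z l) := by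
    calc ∏ l ∈ Finset.range n, (1 - z l) ≤ ∏ l ∈ Finset.range n, (3 * (1 + z l)) := by
          apply Finset.prod_le_prod
          · intro l _
            have := abs_le.mp (hz l)
            linarith
          · intro l _
            have := abs_le.mp (hz l)
            linarith
      _ = 3 ^ n * ∏ l ∈ Finset.range n, (1 + z l) := by
          rw [Finset.prod_mul_distrib, Finset.prod_const, Finset.card_range]
  refine ⟨?_, by linarith⟩
  have h3 : (1 : ℝ) ≤ 3 ^ n := one_le_pow₀ (by norm_num)
  unfold ow ak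
  set A := ∏ l ∈ Finset.range n, (1 + z l)
  set B := ∏ l ∈ Finset.range n, (1 - z l)
  set q : ℝ := 3 ^ n
  rw [abs_div, abs_of_pos (by linarith : 0 < A + B), div_le_div_iff₀ (by linarith) (by linarith)]
  rcases le_total A B with h | h
  · rw [abs_of_nonpos (by linarith)]
    nlinarith
  · rw [abs_of_nonneg (by linarith)]
    nlinarith

lemma ow_congr (n : ℕ) {z z' : ℕ → ℝ} (h : ∀ l < n, z l = z' l) : ow n z = ow n z' := by
  have h1 : ∏ l ∈ Finset.range n, (1 + z l) = ∏ l ∈ Finset.range n, (1 + z' l) := by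
    apply Finset.prod_congr rfl
    intro l hl
    rw [h l (Finset.mem_range.mp hl)]
  have h2 : ∏ l ∈ Finset.range n, (1 - z l) = ∏ l ∈ Finset.range n, (1 - z' l) := by
    apply Finset.prod_congr rfl
    intro l hl
    rw [h l (Finset.mem_range.mp hl)]
  unfold ow
  rw [h1, h2]

/-- trailing zeros do not matter -/
lemma ow_succ_zero (n : ℕ) {z : ℕ → ℝ} (h : z n = 0) : ow (n + 1) z = ow n z := by
  unfold ow
  rw [Finset.prod_range_succ, Finset.prod_range_succ, h]
  simp

/-- one more observation -/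
lemma ow_update (n : ℕ) (z : ℕ → ℝ) (hz : ∀ l, |z l| ≤ 1 / 2) {l : ℕ} (hl : l < n) (h0 : z l = 0)
    (x : ℝ) (hx : |x| ≤ 1 / 2) : ow n (Function.update z l x) = comb (ow n z) x := by
  have hm : l ∈ Finset.range n := Finset.mem_range.mpr hl
  have e1 : ∏ j ∈ Finset.range n, (1 + Function.update z l x j)
      = (1 + x) * ∏ j ∈ Finset.range n, (1 + z j) := by
    rw [← Finset.mul_prod_erase _ _ hm, ← Finset.mul_prod_erase (Finset.range n) (fun j => 1 + z j) hm]
    have : ∏ j ∈ (Finset.range n).erase l, (1 + Function.update z l x j)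
        = ∏ j ∈ (Finset.range n).erase l, (1 + z j) := by
      apply Finset.prod_congr rfl
      intro j hj
      rw [Function.update_of_ne (Finset.ne_of_mem_erase hj)]
    rw [this]
    simp only [Function.update_self, h0]
    ring
  have e2 : ∏ j ∈ Finset.range n, (1 - Function.update z l x j)
      = (1 - x) * ∏ j ∈ Finset.range n, (1 - z j) := by
    rw [← Finset.mul_prod_erase _ _ hm, ← Finset.mul_prod_erase (Finset.range n) (fun j => 1 - z j) hm]
    have : ∏ j ∈ (Finset.range n).erase l, (1 - Function.update z l x j)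
        = ∏ j ∈ (Finset.range n).erase l, (1 - z j) := by
      apply Finset.prod_congr rfl
      intro j hj
      rw [Function.update_of_ne (Finset.ne_of_mem_erase hj)]
    rw [this]
    simp only [Function.update_self, h0]
    ring
  obtain ⟨hA, hB⟩ := prods_pos n z hz
  have hx' := abs_le.mp hx
  unfold ow comb
  rw [e1, e2]
  set A := ∏ l ∈ Finset.range n, (1 + z l)
  set B := ∏ l ∈ Finset.range n, (1 - z l)
  have h1 : A + B ≠ 0 := by linarith
  have h2 : 0 < (1 + x) * A + (1 - x) * B := by
    have : 0 < 1 + x := by linarith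
    have : 0 < 1 - x := by linarith
    positivity
  have h3 : 1 + (A - B) / (A + B) * x ≠ 0 := by
    have : 1 + (A - B) / (A + B) * x = ((1 + x) * A + (1 - x) * B) / (A + B) := by
      field_simp
      ring
    rw [this]
    have : 0 < A + B := by linarith
    positivity
  rw [div_eq_div_iff h2.ne' h3]
  field_simp
  ring

lemma measurable_ow (n : ℕ) : Measurable (ow n) := by
  unfold ow; fun_prop

/-! ### auxiliary facts -/

lemma Qc_zero (x : ℝ) : Qc 0 x = 2 * x - 1 := by
  unfold Qc
  simp
  ring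

lemma abs_cmul_lt {c : ℝ} (hc : |c| ≤ 1 / 2) (s : ℤˣ) : |c * spinVal s| < 1 := by
  rw [abs_mul, abs_spinVal, mul_one]
  linarith

lemma abs_chY_le {c : ℕ → ℝ} (hc : ∀ l, |c l| ≤ 1 / 2) (S : Set ℕ) (s : ℤˣ)
    (x : ℕ → unitInterval) (l : ℕ) : |chY c S s x l| ≤ 1 := by
  unfold chY
  split_ifs
  · exact abs_Qc_le (abs_cmul_lt (hc l) s) (x l).2.1 (x l).2.2
  · simp

lemma measurable_chY (c : ℕ → ℝ) (S : Set ℕ) (s : ℤˣ) : Measurable (chY c S s) := by
  rw [measurable_pi_iff]
  intro l
  unfold chY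
  by_cases hl : l ∈ S
  · simp only [if_pos hl]
    exact measurable_Qc.comp (measurable_const.prodMk
      (measurable_coe_unit.comp (measurable_pi_apply l)))
  · simp only [if_neg hl]
    exact measurable_const

lemma chY_off {c : ℕ → ℝ} {S : Set ℕ} {s : ℤˣ} {x : ℕ → unitInterval} {l : ℕ} (hl : l ∉ S) :
    chY c S s x l = 0 := by
  unfold chY
  rw [if_neg hl]

lemma chY_insert_update (c : ℕ → ℝ) (F : Finset ℕ) (i : ℕ) (s : ℤˣ) (x : ℕ → unitInterval)
    (u : unitInterval) :
    chY c ((insert i F : Finset ℕ) : Set ℕ) s (Function.update x i u)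
      = Function.update (chY c (F : Set ℕ) s x) i (Qc (c i * spinVal s) u) := by
  ext j
  by_cases hj : j = i
  · subst hj; simp [chY]
  · simp [chY, hj]

lemma measurable_updN (i : ℕ) :
    Measurable (fun p : (ℕ → ℝ) × unitInterval =>
      Function.update p.1 i (2 * (p.2 : ℝ) - 1)) := by
  have h1 : Measurable (fun p : (ℕ → ℝ) × unitInterval => (p.1, 2 * (p.2 : ℝ) - 1)) :=
    measurable_fst.prodMk
      (((measurable_coe_unit.comp measurable_snd).const_mul 2).sub_const 1)
  exact (measurable_update_pair (X := fun _ : ℕ => ℝ) i).comp h1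

lemma nice_addN {k : (ℕ → ℝ) → ℝ} (hk : Nice k) (i : ℕ) (c : ℝ) :
    Nice (fun y : ℕ → ℝ => ∫ x : unitInterval,
      k (Function.update y i (2 * (x : ℝ) - 1)) * (1 + c * (2 * (x : ℝ) - 1))) := by
  have h : Nice (fun p : (ℕ → ℝ) × unitInterval =>
      k (Function.update p.1 i (2 * (p.2 : ℝ) - 1)) * (1 + c * (2 * (p.2 : ℝ) - 1))) :=
    (hk.comp (measurable_updN i)).mul ((nice_centered c).comp measurable_snd)
  exact h.integral_right volume

lemma nice_chY_weight (c : ℕ → ℝ) (r : ℝ) (S : Set ℕ) (F : Finset ℕ) :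
    Nice (fun x : ℕ → unitInterval =>
      ∏ l ∈ F, (1 + c l * r * chY (fun _ => 0) S 1 x l)) := by
  apply Nice.prod
  intro l _
  have h : Nice (fun x : ℕ → unitInterval => chY (fun _ => 0) S 1 x l) :=
    ⟨(measurable_pi_apply l).comp (measurable_chY (fun _ => 0) S 1), 1, fun x =>
      abs_chY_le (fun _ => by simp) S 1 x l⟩
  exact (Nice.const 1).add ((Nice.const _).mul h)

lemma integral_chY_fin (c : ℕ → ℝ) (hc : ∀ l, |c l| ≤ 1 / 2) (s : ℤˣ) (F : Finset ℕ) :
    ∀ {f : (ℕ → ℝ) → ℝ}, Nice f →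
    ∫ x, f (chY c (F : Set ℕ) s x) ∂(iidLabels ℕ)
      = ∫ x, f (chY (fun _ => 0) (F : Set ℕ) 1 x)
          * ∏ l ∈ F, (1 + c l * spinVal s * chY (fun _ => 0) (F : Set ℕ) 1 x l)
          ∂(iidLabels ℕ) := by
  induction F using Finset.induction_on with
  | empty =>
    intro f _
    have e : ∀ (c : ℕ → ℝ) (s : ℤˣ) (x : ℕ → unitInterval),
        chY c (∅ : Set ℕ) s x = fun _ => 0 := by
      intro c s x; ext j; simp [chY]
    simp only [Finset.coe_empty, e, Finset.prod_empty, mul_one]
  | insert i F hi ih =>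
    intro f hf
    set r := c i * spinVal s with hr
    set K : (ℕ → ℝ) → ℝ := fun y => ∫ x : unitInterval,
      f (Function.update y i (2 * (x : ℝ) - 1)) * (1 + r * (2 * (x : ℝ) - 1)) with hK
    have hKn : Nice K := nice_addN hf i r
    have hL : ∫ x, f (chY c ((insert i F : Finset ℕ) : Set ℕ) s x) ∂(iidLabels ℕ)
        = ∫ x, K (chY c (F : Set ℕ) s x) ∂(iidLabels ℕ) := by
      rw [integral_update_iid i (hf.comp (measurable_chY c _ s))]
      congr 1
      ext x
      simp only [chY_insert_update]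
      exact integral_Qc (abs_cmul_lt (hc i) s)
        (fun z => f (Function.update (chY c (F : Set ℕ) s x) i z))
    rw [hL, ih hKn]
    have hn : Nice (fun x : ℕ → unitInterval =>
        f (chY (fun _ => 0) ((insert i F : Finset ℕ) : Set ℕ) 1 x)
          * ∏ l ∈ insert i F,
            (1 + c l * spinVal s * chY (fun _ => 0) ((insert i F : Finset ℕ) : Set ℕ) 1 x l)) :=
      (hf.comp (measurable_chY _ _ _)).mul (nice_chY_weight c _ _ _)
    rw [integral_update_iid i hn]
    congr 1
    ext x
    rw [hK]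
    simp only [chY_insert_update]
    rw [← integral_mul_const]
    congr 1
    ext u
    have e0 : Qc (0 * spinVal 1) (u : ℝ) = 2 * (u : ℝ) - 1 := by rw [zero_mul, Qc_zero]
    rw [e0, Finset.prod_insert hi, Function.update_self]
    have e3 : ∏ l ∈ F, (1 + c l * spinVal s * Function.update (chY (fun _ => 0) (F : Set ℕ) 1 x) i
        (2 * (u : ℝ) - 1) l) = ∏ l ∈ F, (1 + c l * spinVal s * chY (fun _ => 0) (F : Set ℕ) 1 x l) := by
      apply Finset.prod_congr rfl
      intro l hl
      have hli : l ≠ i := fun h => hi (h ▸ hl)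
      rw [Function.update_of_ne hli]
    rw [e3]
    ring

/-- change of variables for the masked observations at one vertex -/
lemma integral_chY (n : ℕ) (c : ℕ → ℝ) (hc : ∀ l, |c l| ≤ 1 / 2) (S : Set ℕ) (hS : ∀ l ∈ S, l < n)
    (s : ℤˣ) {f : (ℕ → ℝ) → ℝ} (hf : Nice f) :
    ∫ x, f (chY c S s x) ∂(iidLabels ℕ)
      = ∫ x, f (chY (fun _ => 0) S 1 x)
          * ∏ l ∈ Finset.range n, (1 + c l * spinVal s * chY (fun _ => 0) S 1 x l)
          ∂(iidLabels ℕ) := by
  classical
  set F : Finset ℕ := (Finset.range n).filter (fun l => l ∈ S) with hF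
  have hFS : (F : Set ℕ) = S := by
    ext l
    simp only [hF, Finset.coe_filter, Finset.mem_range, Set.mem_ofPred_eq]
    exact ⟨fun h => h.2, fun h => ⟨hS l h, h⟩⟩
  have h := integral_chY_fin c hc s F hf
  rw [hFS] at h
  rw [h]
  congr 1
  ext x
  congr 1
  rw [hF, Finset.prod_filter]
  apply Finset.prod_congr rfl
  intro l _
  by_cases hl : l ∈ S
  · rw [if_pos hl]
  · rw [if_neg hl, chY_off hl]
    simp

/-- symmetry of the uniform observations -/
lemma integral_chY_neg (F : Finset ℕ) :
    ∀ {f : (ℕ → ℝ) → ℝ}, Nice f →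
    ∫ x, f (chY (fun _ => 0) (F : Set ℕ) 1 x) ∂(iidLabels ℕ)
      = ∫ x, f (fun l => - chY (fun _ => 0) (F : Set ℕ) 1 x l) ∂(iidLabels ℕ) := by
  have hneg : Measurable (fun z : ℕ → ℝ => fun l => - z l) := by
    rw [measurable_pi_iff]
    intro l
    exact (measurable_pi_apply l).neg
  induction F using Finset.induction_on with
  | empty =>
    intro f _
    have e : ∀ (x : ℕ → unitInterval),
        chY (fun _ => 0) (∅ : Set ℕ) 1 x = fun _ => 0 := by
      intro x; ext j; simp [chY]
    simp only [Finset.coe_empty, e, neg_zero]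
  | insert i F hi ih =>
    intro f hf
    set K : (ℕ → ℝ) → ℝ := fun y => ∫ x : unitInterval,
      f (Function.update y i (2 * (x : ℝ) - 1)) * (1 + 0 * (2 * (x : ℝ) - 1)) with hK
    have hKn : Nice K := nice_addN hf i 0
    have e0 : ∀ u : unitInterval, Qc (0 * spinVal 1) (u : ℝ) = 2 * (u : ℝ) - 1 := by
      intro u; rw [zero_mul, Qc_zero]
    have hL : ∫ x, f (chY (fun _ => 0) ((insert i F : Finset ℕ) : Set ℕ) 1 x) ∂(iidLabels ℕ)
        = ∫ x, K (chY (fun _ => 0) (F : Set ℕ) 1 x) ∂(iidLabels ℕ) := by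
      rw [integral_update_iid i (hf.comp (measurable_chY _ _ _))]
      congr 1
      ext x
      rw [hK]
      simp only [chY_insert_update, e0]
      congr 1
      ext u
      ring
    have hR : ∫ x, f (fun l => - chY (fun _ => 0) ((insert i F : Finset ℕ) : Set ℕ) 1 x l)
          ∂(iidLabels ℕ)
        = ∫ x, K (fun l => - chY (fun _ => 0) (F : Set ℕ) 1 x l) ∂(iidLabels ℕ) := by
      have hn : Nice (fun x : ℕ → unitInterval =>
          f (fun l => - chY (fun _ => 0) ((insert i F : Finset ℕ) : Set ℕ) 1 x l)) :=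
        hf.comp (hneg.comp (measurable_chY _ _ _))
      rw [integral_update_iid i hn]
      congr 1
      ext x
      rw [hK]
      simp only [chY_insert_update, e0]
      have e4 : ∀ u : unitInterval,
          (fun l => - Function.update (chY (fun _ => 0) (F : Set ℕ) 1 x) i (2 * (u : ℝ) - 1) l)
          = Function.update (fun l => - chY (fun _ => 0) (F : Set ℕ) 1 x l) i
              (2 * ((unitInterval.symm u : unitInterval) : ℝ) - 1) := by
        intro u
        ext l
        by_cases hl : l = i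
        · subst hl
          simp only [Function.update_self, unitInterval.coe_symm_eq]
          ring
        · simp only [Function.update_of_ne hl]
      simp only [e4]
      have := unitInterval.measurePreserving_symm.integral_comp'
        (f := unitInterval.symmMeasurableEquiv)
        (fun u : unitInterval => f (Function.update (fun l => - chY (fun _ => 0) (F : Set ℕ) 1 x l) i
              (2 * ((u : unitInterval) : ℝ) - 1)))
      rw [unitInterval.coe_symmMeasurableEquiv] at this
      rw [this]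
      congr 1
      ext u
      ring
    rw [hL, hR]
    exact ih hKn

lemma ow_neg (n : ℕ) (z : ℕ → ℝ) : ow n (fun l => - z l) = - ow n z := by
  unfold ow
  have e1 : ∀ l : ℕ, 1 + - z l = 1 - z l := fun l => by ring
  have e2 : ∀ l : ℕ, 1 - - z l = 1 + z l := fun l => by ring
  simp only [e1, e2]
  rw [← neg_div]
  congr 1
  · ring
  · ring

lemma cl_neg' (y : ℝ) : cl (-y) = - cl y := by
  unfold cl
  rcases le_total y 1 with h1 | h1
  · rcases le_total (-1) y with h2 | h2
    · rw [min_eq_right h1, max_eq_right h2, min_eq_right (by linarith), max_eq_right (by linarith)]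
    · rw [min_eq_right h1, max_eq_left h2, min_eq_left (by linarith), max_eq_right (by linarith)]
      ring
  · rw [min_eq_left h1, max_eq_right (by linarith : (-1 : ℝ) ≤ 1), min_eq_right (by linarith),
      max_eq_left (by linarith)]

lemma abs_mask_le {c : ℕ → ℝ} (hc : ∀ l, |c l| ≤ 1 / 2) (S : Set ℕ) [DecidablePred (· ∈ S)]
    (y : ℕ → ℝ) (l : ℕ) : |(if l ∈ S then c l * cl (y l) else 0)| ≤ 1 / 2 := by
  split_ifs
  · rw [abs_mul]
    calc |c l| * |cl (y l)| ≤ 1 / 2 * 1 :=
          mul_le_mul (hc l) (abs_cl_le _) (abs_nonneg _) (by norm_num)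
      _ = 1 / 2 := by ring
  · norm_num

lemma measurable_chb (n : ℕ) (c : ℕ → ℝ) (S : Set ℕ) : Measurable (chb n c S) := by
  unfold chb
  apply (measurable_ow n).comp
  rw [measurable_pi_iff]
  intro l
  by_cases hl : l ∈ S
  · simp only [if_pos hl]
    exact (measurable_cl.comp (measurable_pi_apply l)).const_mul _
  · simp only [if_neg hl]
    exact measurable_const

lemma abs_chb_le (n : ℕ) {c : ℕ → ℝ} (hc : ∀ l, |c l| ≤ 1 / 2) (S : Set ℕ) (y : ℕ → ℝ) :
    |chb n c S y| ≤ ak n := by
  classical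
  unfold chb
  exact (abs_ow_le n _ (abs_mask_le hc S y)).1

lemma chb_neg (n : ℕ) (c : ℕ → ℝ) (S : Set ℕ) (y : ℕ → ℝ) :
    chb n c S (fun l => - y l) = - chb n c S y := by
  unfold chb
  rw [← ow_neg]
  congr 1
  ext l
  by_cases hl : l ∈ S
  · simp only [if_pos hl, cl_neg']
    ring
  · simp only [if_neg hl, neg_zero]

/-- the posterior identity for uniform observations -/
lemma chb_mul (n : ℕ) {c : ℕ → ℝ} (hc : ∀ l, |c l| ≤ 1 / 2) (S : Set ℕ) (x : ℕ → unitInterval) :
    chb n c S (chY (fun _ => 0) S 1 x)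
      * (∏ l ∈ Finset.range n, (1 + c l * 1 * chY (fun _ => 0) S 1 x l)
        + ∏ l ∈ Finset.range n, (1 + c l * (-1) * chY (fun _ => 0) S 1 x l))
      = ∏ l ∈ Finset.range n, (1 + c l * 1 * chY (fun _ => 0) S 1 x l)
        - ∏ l ∈ Finset.range n, (1 + c l * (-1) * chY (fun _ => 0) S 1 x l) := by
  classical
  set z : ℕ → ℝ := fun l => if l ∈ S then c l * cl (chY (fun _ => 0) S 1 x l) else 0 with hz
  have hzl : ∀ l, z l = c l * chY (fun _ => 0) S 1 x l := by
    intro l
    rw [hz]
    by_cases hl : l ∈ S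
    · simp only [if_pos hl]
      rw [cl_of_abs_le (abs_chY_le (fun _ => by simp) S 1 x l)]
    · simp only [if_neg hl]
      rw [chY_off hl, mul_zero]
  have e1 : ∏ l ∈ Finset.range n, (1 + c l * 1 * chY (fun _ => 0) S 1 x l)
      = ∏ l ∈ Finset.range n, (1 + z l) := by
    apply Finset.prod_congr rfl
    intro l _
    rw [hzl]; ring
  have e2 : ∏ l ∈ Finset.range n, (1 + c l * (-1) * chY (fun _ => 0) S 1 x l)
      = ∏ l ∈ Finset.range n, (1 - z l) := by
    apply Finset.prod_congr rfl
    intro l _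
    rw [hzl]; ring
  rw [e1, e2]
  have h := (abs_ow_le n z (abs_mask_le hc S _)).2
  have e3 : chb n c S (chY (fun _ => 0) S 1 x) = ow n z := by
    unfold chb
    congr 1
  rw [e3]
  unfold ow
  rw [div_mul_cancel₀ _ h.ne']

/-- the quenched vertex channel. -/
theorem isChan_ch (n : ℕ) (c : ℕ → ℝ) (hc : ∀ l, |c l| ≤ 1 / 2) (S : Set ℕ) (hS : ∀ l ∈ S, l < n) :
    IsChan (iidLabels ℕ) (ak n) (chY c S) (chb n c S) := by
  refine ⟨fun s => measurable_chY c S s, measurable_chb n c S, abs_chb_le n hc S, ?_, ?_⟩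
  · intro f hf s
    have hfb : Nice (fun y => f (chb n c S y)) := hf.comp (measurable_chb n c S)
    have hfb' : Nice (fun y => f (- chb n c S y)) := hf.comp (measurable_chb n c S).neg
    rw [integral_chY n c hc S hS s hfb, integral_chY n c hc S hS (-s) hfb']
    classical
    set F : Finset ℕ := (Finset.range n).filter (fun l => l ∈ S) with hF
    have hFS : (F : Set ℕ) = S := by
      ext l
      simp only [hF, Finset.coe_filter, Finset.mem_range, Set.mem_ofPred_eq]
      exact ⟨fun h => h.2, fun h => ⟨hS l h, h⟩⟩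
    set g : (ℕ → ℝ) → ℝ := fun y => f (chb n c S y)
      * ∏ l ∈ Finset.range n, (1 + c l * spinVal s * cl (y l)) with hg
    have hgn : Nice g := by
      apply hfb.mul
      apply Nice.prod
      intro l _
      have h : Nice (fun y : ℕ → ℝ => cl (y l)) :=
        ⟨measurable_cl.comp (measurable_pi_apply l), 1, fun y => abs_cl_le _⟩
      exact (Nice.const 1).add ((Nice.const _).mul h)
    have h := integral_chY_neg F hgn
    rw [hFS] at h
    have hcl : ∀ (x : ℕ → unitInterval) (l : ℕ), cl (chY (fun _ => 0) S 1 x l)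
        = chY (fun _ => 0) S 1 x l := fun x l =>
      cl_of_abs_le (abs_chY_le (fun _ => by simp) S 1 x l)
    have e1 : ∀ x, g (chY (fun _ => 0) S 1 x) = f (chb n c S (chY (fun _ => 0) S 1 x))
      * ∏ l ∈ Finset.range n, (1 + c l * spinVal s * chY (fun _ => 0) S 1 x l) := by
      intro x
      simp only [hg, hcl]
    have e2 : ∀ x, g (fun l => - chY (fun _ => 0) S 1 x l)
        = f (- chb n c S (chY (fun _ => 0) S 1 x))
      * ∏ l ∈ Finset.range n, (1 + c l * spinVal (-s) * chY (fun _ => 0) S 1 x l) := by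
      intro x
      simp only [hg, chb_neg, cl_neg', hcl, spinVal_neg']
      congr 1
      apply Finset.prod_congr rfl
      intro l _
      ring
    simp only [e1, e2] at h
    exact h
  · intro f hf
    have hb : Nice (chb n c S) := ⟨measurable_chb n c S, ak n, abs_chb_le n hc S⟩
    rw [integral_chY n c hc S hS 1 hf, integral_chY n c hc S hS (-1) hf,
      integral_chY n c hc S hS 1 (hf.mul hb), integral_chY n c hc S hS (-1) (hf.mul hb)]
    simp only [spinVal_one', spinVal_neg_one']
    have hfz : Nice (fun x => f (chY (fun _ => 0) S 1 x)) := hf.comp (measurable_chY _ _ _)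
    have hbz : Nice (fun x => chb n c S (chY (fun _ => 0) S 1 x)) := hb.comp (measurable_chY _ _ _)
    have hw1 := nice_chY_weight c 1 S (Finset.range n)
    have hw2 := nice_chY_weight c (-1) S (Finset.range n)
    rw [← (hfz.mul hw1).integral_sub' (hfz.mul hw2),
      ← ((hfz.mul hbz).mul hw1).integral_add' ((hfz.mul hbz).mul hw2)]
    congr 1
    ext x
    have := chb_mul n hc S x
    linear_combination - f (chY (fun _ => 0) S 1 x) * this


lemma str_bounds (l : ℕ) (u : unitInterval) : 0 ≤ str l u ∧ str l u ≤ 1 / 2 := by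
  have h0 := u.2.1
  unfold str
  split_ifs with h1 h2
  · constructor <;> linarith
  · norm_num
  · norm_num

lemma abs_str_le (l : ℕ) (u : unitInterval) : |str l u| ≤ 1 / 2 := by
  obtain ⟨h1, h2⟩ := str_bounds l u
  rw [abs_of_nonneg h1]
  exact h2

lemma measurable_str (l : ℕ) : Measurable (str l) := by
  unfold str
  apply Measurable.ite (measurableSet_lt measurable_coe_unit measurable_const)
  · by_cases hl : l = 0
    · simp only [if_pos hl]
      exact measurable_coe_unit.div_const 2
    · simp only [if_neg hl]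
      exact measurable_const
  · exact measurable_const

lemma measurableSet_cutN (k : ℕ) (t : ℝ) (l : ℕ) :
    MeasurableSet {u : ℕ → unitInterval | l ∈ cutN u k t} := by
  have : {u : ℕ → unitInterval | l ∈ cutN u k t}
      = {u : ℕ → unitInterval | l < k} ∪ ({u : ℕ → unitInterval | l = k} ∩
        {u : ℕ → unitInterval | (u l : ℝ) < t}) := by
    ext u
    simp [cutN]
  rw [this]
  apply MeasurableSet.union (MeasurableSet.const _)
  apply MeasurableSet.inter (MeasurableSet.const _)
  exact measurableSet_lt (measurable_coe_unit.comp (measurable_pi_apply l)) measurable_const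

lemma cutN_lt (u : ℕ → unitInterval) (k : ℕ) (t : ℝ) : ∀ l ∈ cutN u k t, l < k + 1 := by
  intro l hl
  rcases hl with h | ⟨h, _⟩ <;> omega

lemma measurable_anY (k : ℕ) (t : ℝ) (s : ℤˣ) : Measurable (anY k t s) := by
  unfold anY
  apply measurable_fst.prodMk
  rw [measurable_pi_iff]
  intro l
  unfold chY
  have hset : MeasurableSet {x : (ℕ → unitInterval) × (ℕ → unitInterval) | l ∈ cutN x.1 k t} :=
    measurable_fst (measurableSet_cutN k t l)
  apply Measurable.ite hset
  · have h1 : Measurable (fun x : (ℕ → unitInterval) × (ℕ → unitInterval) =>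
        str l (x.1 l) * spinVal s) :=
      ((measurable_str l).comp ((measurable_pi_apply l).comp measurable_fst)).mul_const _
    have h2 : Measurable (fun x : (ℕ → unitInterval) × (ℕ → unitInterval) =>
        ((x.2 l : unitInterval) : ℝ)) :=
      measurable_coe_unit.comp ((measurable_pi_apply l).comp measurable_snd)
    exact measurable_Qc.comp (h1.prodMk h2)
  · exact measurable_const

lemma measurable_anb (k : ℕ) (t : ℝ) : Measurable (anb k t) := by
  unfold anb chb
  apply (measurable_ow (k + 1)).comp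
  rw [measurable_pi_iff]
  intro l
  have hset : MeasurableSet {x : (ℕ → unitInterval) × (ℕ → ℝ) | l ∈ cutN x.1 k t} :=
    measurable_fst (measurableSet_cutN k t l)
  apply Measurable.ite hset
  · exact ((measurable_str l).comp ((measurable_pi_apply l).comp measurable_fst)).mul
      (measurable_cl.comp ((measurable_pi_apply l).comp measurable_snd))
  · exact measurable_const

lemma abs_anb_le (k : ℕ) (t : ℝ) (y : (ℕ → unitInterval) × (ℕ → ℝ)) :
    |anb k t y| ≤ ak (k + 1) := by
  unfold anb
  exact abs_chb_le (k + 1) (fun l => abs_str_le l _) _ _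

/-- the annealed vertex channel (integrate `isChan_ch` over the labels) -/
theorem isChan_an (k : ℕ) (t : ℝ) :
    IsChan ((iidLabels ℕ).prod (iidLabels ℕ)) (ak (k + 1)) (anY k t) (anb k t) := by
  have hq : ∀ u : ℕ → unitInterval, IsChan (iidLabels ℕ) (ak (k + 1))
      (chY (fun l => str l (u l)) (cutN u k t))
      (chb (k + 1) (fun l => str l (u l)) (cutN u k t)) := fun u =>
    isChan_ch (k + 1) _ (fun l => abs_str_le l _) _ (cutN_lt u k t)
  refine ⟨measurable_anY k t, measurable_anb k t, abs_anb_le k t, ?_, ?_⟩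
  · intro f hf s
    have h1 : Nice (fun x => f (anb k t (anY k t s x))) :=
      hf.comp ((measurable_anb k t).comp (measurable_anY k t s))
    have h2 : Nice (fun x => f (- anb k t (anY k t (-s) x))) :=
      hf.comp ((measurable_anb k t).comp (measurable_anY k t (-s))).neg
    rw [h1.integral_prod, h2.integral_prod]
    congr 1
    ext u
    exact (hq u).flip f hf s
  · intro f hf
    have hb : Nice (anb k t) := ⟨measurable_anb k t, _, abs_anb_le k t⟩
    have n1 : ∀ s, Nice (fun x => f (anY k t s x)) := fun s => hf.comp (measurable_anY k t s)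
    have n2 : ∀ s, Nice (fun x => f (anY k t s x) * anb k t (anY k t s x)) := fun s =>
      (n1 s).mul (hb.comp (measurable_anY k t s))
    rw [(n1 1).integral_prod, (n1 (-1)).integral_prod, (n2 1).integral_prod,
      (n2 (-1)).integral_prod]
    have i1 := fun s => (n1 s).integral_right (iidLabels ℕ)
    have i2 := fun s => (n2 s).integral_right (iidLabels ℕ)
    rw [← (i1 1).integral_sub' (i1 (-1)), ← (i2 1).integral_add' (i2 (-1))]
    congr 1
    ext u
    have hfu : Nice (fun y : ℕ → ℝ => f (u, y)) := hf.comp measurable_prodMk_left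
    exact (hq u).bayes _ hfu

/-! ### second moments -/

lemma integral_coord (i : ℕ) {g : unitInterval → ℝ} (hg : Nice g) :
    ∫ x : ℕ → unitInterval, g (x i) ∂(iidLabels ℕ) = ∫ u : unitInterval, g u := by
  rw [integral_update_iid i (hg.comp (measurable_pi_apply i))]
  simp only [Function.update_self]
  simp

lemma integral_centered_cube : ∫ x : unitInterval, (2 * (x : ℝ) - 1) ^ 3 = 0 := by
  rw [integral_unitInterval (fun x => (2 * x - 1) ^ 3), integral_Icc_eq_integral_Ioc,
    ← intervalIntegral.integral_of_le (by norm_num)]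
  have : ∀ x : ℝ, (2 * x - 1) ^ 3 = 8 * x ^ 3 - 12 * x ^ 2 + 6 * x - 1 := fun x => by ring
  simp only [this]
  rw [intervalIntegral.integral_sub (by apply Continuous.intervalIntegrable; fun_prop)
    (by apply Continuous.intervalIntegrable; fun_prop),
    intervalIntegral.integral_add (by apply Continuous.intervalIntegrable; fun_prop)
    (by apply Continuous.intervalIntegrable; fun_prop),
    intervalIntegral.integral_sub (by apply Continuous.intervalIntegrable; fun_prop)
    (by apply Continuous.intervalIntegrable; fun_prop)]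
  rw [intervalIntegral.integral_const_mul, intervalIntegral.integral_const_mul,
    intervalIntegral.integral_const_mul, integral_pow, integral_pow, integral_id]
  norm_num

lemma nice_cen : Nice (fun x : unitInterval => 2 * (x : ℝ) - 1) :=
  ⟨(measurable_coe_unit.const_mul 2).sub_const 1, 1, abs_two_mul_sub_one_le⟩

lemma integral_Qc_sq {c : ℝ} (hc : |c| < 1) : ∫ x : unitInterval, (Qc c x) ^ 2 = 1 / 3 := by
  rw [integral_Qc hc (fun z => z ^ 2)]
  have e : ∀ x : unitInterval, (2 * (x : ℝ) - 1) ^ 2 * (1 + c * (2 * (x : ℝ) - 1))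
      = (2 * (x : ℝ) - 1) ^ 2 + c * (2 * (x : ℝ) - 1) ^ 3 := fun x => by ring
  simp only [e]
  rw [(nice_cen.pow 2).integral_add' ((Nice.const c).mul (nice_cen.pow 3)), integral_const_mul,
    integral_centered_sq, integral_centered_cube]
  ring

lemma integral_Qc_id {c : ℝ} (hc : |c| < 1) : ∫ x : unitInterval, Qc c x = c / 3 := by
  rw [integral_Qc hc (fun z => z)]
  have e : ∀ x : unitInterval, (2 * (x : ℝ) - 1) * (1 + c * (2 * (x : ℝ) - 1))
      = (2 * (x : ℝ) - 1) + c * (2 * (x : ℝ) - 1) ^ 2 := fun x => by ring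
  simp only [e]
  rw [nice_cen.integral_add' ((Nice.const c).mul (nice_cen.pow 2)), integral_const_mul,
    integral_centered_sq, integral_centered]
  ring

lemma nice_Qc (c : ℝ) (hc : |c| < 1) : Nice (fun x : unitInterval => Qc c x) :=
  ⟨measurable_Qc.comp (measurable_const.prodMk measurable_coe_unit), 1, fun x =>
    abs_Qc_le hc x.2.1 x.2.2⟩

lemma integral_third (t : ℝ) (ht0 : 0 ≤ t) (ht1 : t ≤ 1 / 2) :
    ∫ u : unitInterval, (if (u : ℝ) < t then ((u : ℝ) / 2) ^ 2 / 3 else 0) = t ^ 3 / 36 := by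
  rw [integral_unitInterval (fun x => if x < t then (x / 2) ^ 2 / 3 else 0)]
  have h1 : ∀ x : ℝ, (if x < t then (x / 2) ^ 2 / 3 else 0)
      = (Set.Iio t).indicator (fun x => (x / 2) ^ 2 / 3) x := by
    intro x
    by_cases h : x < t
    · rw [if_pos h, Set.indicator_of_mem (Set.mem_Iio.mpr h)]
    · rw [if_neg h, Set.indicator_of_notMem (by simpa using h)]
  simp only [h1]
  rw [setIntegral_indicator measurableSet_Iio]
  have h2 : Set.Icc (0 : ℝ) 1 ∩ Set.Iio t = Set.Ico 0 t := by
    ext x
    simp only [Set.mem_inter_iff, Set.mem_Icc, Set.mem_Iio, Set.mem_Ico]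
    constructor
    · rintro ⟨⟨a, _⟩, b⟩; exact ⟨a, b⟩
    · rintro ⟨a, b⟩; exact ⟨⟨a, by linarith⟩, b⟩
  rw [h2, integral_Ico_eq_integral_Ioo, ← integral_Ioc_eq_integral_Ioo,
    ← intervalIntegral.integral_of_le ht0]
  have h3 : ∀ x : ℝ, (x / 2) ^ 2 / 3 = (1 / 12) * x ^ 2 := fun x => by ring
  simp only [h3]
  rw [intervalIntegral.integral_const_mul, integral_pow]
  norm_num
  ring

lemma anb_zero (t : ℝ) (y : (ℕ → unitInterval) × (ℕ → ℝ)) :
    anb 0 t y = if (y.1 0 : ℝ) < t then str 0 (y.1 0) * cl (y.2 0) else 0 := by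
  have h0 : (0 ∈ cutN y.1 0 t) ↔ (y.1 0 : ℝ) < t := by
    simp [cutN]
  unfold anb chb ow
  simp only [zero_add, Finset.range_one, Finset.prod_singleton]
  by_cases h : (y.1 0 : ℝ) < t
  · rw [if_pos (h0.mpr h), if_pos h]
    ring
  · rw [if_neg (fun h' => h (h0.mp h')), if_neg h]
    ring

/-- second moment of the own magnetization in round `0` -/
lemma second_moment_an_zero (t : ℝ) (ht0 : 0 ≤ t) (ht1 : t ≤ 1 / 2) (s : ℤˣ) :
    ∫ x, (anb 0 t (anY 0 t s x)) ^ 2 ∂((iidLabels ℕ).prod (iidLabels ℕ)) = t ^ 3 / 36 := by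
  have hb : Nice (anb 0 t) := ⟨measurable_anb 0 t, _, abs_anb_le 0 t⟩
  have h1 : Nice (fun x => (anb 0 t (anY 0 t s x)) ^ 2) := (hb.comp (measurable_anY 0 t s)).pow 2
  rw [h1.integral_prod]
  have h2 : ∀ u : ℕ → unitInterval,
      ∫ x, (anb 0 t (anY 0 t s (u, x))) ^ 2 ∂(iidLabels ℕ)
      = if (u 0 : ℝ) < t then ((u 0 : ℝ) / 2) ^ 2 / 3 else 0 := by
    intro u
    simp only [anb_zero]
    by_cases h : (u 0 : ℝ) < t
    · have e1 : ∀ x : ℕ → unitInterval, (anY 0 t s (u, x)).1 = u := fun x => rfl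
      have e2 : ∀ x : ℕ → unitInterval, (anY 0 t s (u, x)).2 0
          = Qc (str 0 (u 0) * spinVal s) (x 0) := by
        intro x
        have h0 : 0 ∈ cutN u 0 t := by simp [cutN, h]
        simp only [anY, chY, if_pos h0]
      have hstr : str 0 (u 0) = (u 0 : ℝ) / 2 := by
        unfold str
        rw [if_pos (by linarith), if_pos rfl]
      have hc := abs_cmul_lt (abs_str_le 0 (u 0)) s
      have e3 : ∀ x : ℕ → unitInterval, cl (Qc (str 0 (u 0) * spinVal s) (x 0))
          = Qc (str 0 (u 0) * spinVal s) (x 0) := fun x =>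
        cl_of_abs_le (abs_Qc_le hc (x 0).2.1 (x 0).2.2)
      simp only [e1, if_pos h, e2, e3]
      simp only [mul_pow]
      rw [integral_const_mul,
        integral_coord 0 ((nice_Qc _ hc).pow 2), integral_Qc_sq hc, hstr]
      ring
    · have e1 : ∀ x : ℕ → unitInterval, (anY 0 t s (u, x)).1 = u := fun x => rfl
      simp only [e1, if_neg h]
      simp
  simp only [h2]
  have hm : Nice (fun u : unitInterval => if (u : ℝ) < t then ((u : ℝ) / 2) ^ 2 / 3 else 0) := by
    refine ⟨?_, 1, ?_⟩
    · apply Measurable.ite (measurableSet_lt measurable_coe_unit measurable_const)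
      · exact ((measurable_coe_unit.div_const 2).pow_const 2).div_const 3
      · exact measurable_const
    · intro u
      have h0 := u.2.1
      have h1 := u.2.2
      show |(if (u : ℝ) < t then ((u : ℝ) / 2) ^ 2 / 3 else 0)| ≤ 1
      split_ifs
      · rw [abs_of_nonneg (by positivity)]
        nlinarith
      · norm_num
  rw [integral_coord 0 hm, integral_third t ht0 ht1]

/-- in round `0` the own magnetizations are at most `t / 2` at time `t` -/
lemma abs_anb_zero_le (t : ℝ) (ht0 : 0 ≤ t) (y : (ℕ → unitInterval) × (ℕ → ℝ)) :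
    |anb 0 t y| ≤ t / 2 := by
  rw [anb_zero]
  split_ifs with h
  · have h1 : 0 ≤ str 0 (y.1 0) ∧ str 0 (y.1 0) ≤ t / 2 := by
      refine ⟨(str_bounds 0 _).1, ?_⟩
      unfold str
      rw [if_pos rfl]
      split_ifs
      · linarith
      · linarith
    rw [abs_mul, abs_of_nonneg h1.1]
    calc str 0 (y.1 0) * |cl (y.2 0)| ≤ t / 2 * 1 :=
          mul_le_mul h1.2 (abs_cl_le _) (abs_nonneg _) (by linarith)
      _ = t / 2 := by ring
  · rw [abs_zero]; linarith

/-- the same for the quenched channel -/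
lemma second_moment_ch_ge (n : ℕ) (c : ℕ → ℝ) (hc : ∀ l, |c l| ≤ 1 / 2) (S : Set ℕ)
    (hS : ∀ l ∈ S, l < n) (h0 : 0 ∈ S) (s : ℤˣ) :
    c 0 ^ 2 / 3 ≤ ∫ x, (chb n c S (chY c S s x)) ^ 2 ∂(iidLabels ℕ) := by
  have hA := isChan_ch n c hc S hS
  have hb : Nice (chb n c S) := ⟨measurable_chb n c S, _, abs_chb_le n hc S⟩
  have hak := ak_bounds n
  -- the second moment does not depend on the spin
  have hsym : ∀ s' : ℤˣ, ∫ x, (chb n c S (chY c S s' x)) ^ 2 ∂(iidLabels ℕ)
      = ∫ x, (chb n c S (chY c S (-s') x)) ^ 2 ∂(iidLabels ℕ) := by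
    intro s'
    have hf : Nice (fun z : ℝ => (cl z) ^ 2) :=
      Nice.pow (f := cl) ⟨measurable_cl, 1, abs_cl_le⟩ 2
    have h := hA.flip (fun z : ℝ => (cl z) ^ 2) hf s'
    have e : ∀ y, cl (chb n c S y) = chb n c S y := fun y =>
      cl_of_abs_le ((abs_chb_le n hc S y).trans hak.2.le)
    simp only [cl_neg', e, neg_sq] at h
    exact h
  -- the single observation
  set f : (ℕ → ℝ) → ℝ := fun y => c 0 * cl (y 0) with hf
  have hfn : Nice f := (Nice.const (c 0)).mul
    ⟨measurable_cl.comp (measurable_pi_apply 0), 1, fun y => abs_cl_le _⟩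
  have hfY : ∀ (s' : ℤˣ) (x : ℕ → unitInterval), f (chY c S s' x)
      = c 0 * Qc (c 0 * spinVal s') (x 0) := by
    intro s' x
    have : chY c S s' x 0 = Qc (c 0 * spinVal s') (x 0) := by
      simp only [chY, if_pos h0]
    rw [hf]
    simp only [this]
    rw [cl_of_abs_le (abs_Qc_le (abs_cmul_lt (hc 0) s') (x 0).2.1 (x 0).2.2)]
  have hint : ∀ s' : ℤˣ, ∫ x, f (chY c S s' x) ∂(iidLabels ℕ) = c 0 * (c 0 * spinVal s' / 3) := by
    intro s'
    simp only [hfY]
    rw [integral_const_mul, integral_coord 0 (nice_Qc _ (abs_cmul_lt (hc 0) s')),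
      integral_Qc_id (abs_cmul_lt (hc 0) s')]
  have hint2 : ∀ s' : ℤˣ, ∫ x, f (chY c S s' x) ^ 2 ∂(iidLabels ℕ) = c 0 ^ 2 / 3 := by
    intro s'
    simp only [hfY, mul_pow]
    rw [integral_const_mul, integral_coord 0 ((nice_Qc _ (abs_cmul_lt (hc 0) s')).pow 2),
      integral_Qc_sq (abs_cmul_lt (hc 0) s')]
    ring
  have hbay := hA.bayes f hfn
  rw [hint 1, hint (-1), spinVal_one', spinVal_neg_one'] at hbay
  have hsq : ∀ s' : ℤˣ, 0 ≤ ∫ x, (chb n c S (chY c S s' x)) ^ 2 ∂(iidLabels ℕ)
      - 2 * ∫ x, f (chY c S s' x) * chb n c S (chY c S s' x) ∂(iidLabels ℕ)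
      + ∫ x, f (chY c S s' x) ^ 2 ∂(iidLabels ℕ) := by
    intro s'
    have h1 := (hfn.comp (measurable_chY c S s')).integral_sub_sq (hb.comp (measurable_chY c S s'))
      (iidLabels ℕ)
    have h2 : 0 ≤ ∫ x, (f (chY c S s' x) - chb n c S (chY c S s' x)) ^ 2 ∂(iidLabels ℕ) :=
      integral_nonneg (fun x => sq_nonneg _)
    rw [h1] at h2
    linarith
  have q1 := hsq 1
  have q2 := hsq (-1)
  rw [hint2] at q1 q2
  have q3 := hsym 1
  have hs : ∫ x, (chb n c S (chY c S s x)) ^ 2 ∂(iidLabels ℕ)
      = ∫ x, (chb n c S (chY c S 1 x)) ^ 2 ∂(iidLabels ℕ) := by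
    rcases Int.units_eq_one_or s with h | h
    · rw [h]
    · rw [h, ← q3]
  rw [hs]
  nlinarith

/-- lower bound for the second moment at all later times -/
lemma second_moment_an_ge (k : ℕ) (t : ℝ) (hk : 1 ≤ k) (s : ℤˣ) :
    1 / 288 ≤ ∫ x, (anb k t (anY k t s x)) ^ 2 ∂((iidLabels ℕ).prod (iidLabels ℕ)) := by
  have hb : Nice (anb k t) := ⟨measurable_anb k t, _, abs_anb_le k t⟩
  have h1 : Nice (fun x => (anb k t (anY k t s x)) ^ 2) := (hb.comp (measurable_anY k t s)).pow 2
  rw [h1.integral_prod]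
  have hm : Nice (fun u : unitInterval => (str 0 u) ^ 2 / 3) := by
    refine ⟨((measurable_str 0).pow_const 2).div_const 3, 1, ?_⟩
    intro u
    obtain ⟨h1, h2⟩ := str_bounds 0 u
    rw [abs_of_nonneg (by positivity)]
    nlinarith
  have h2 : ∫ u, (str 0 (u 0)) ^ 2 / 3 ∂(iidLabels ℕ) = 1 / 288 := by
    rw [integral_coord 0 hm]
    have h3 : ∀ u : unitInterval, (str 0 u) ^ 2 / 3
        = if (u : ℝ) < 1 / 2 then ((u : ℝ) / 2) ^ 2 / 3 else 0 := by
      intro u
      unfold str
      rw [if_pos rfl]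
      split_ifs
      · rfl
      · norm_num
    simp only [h3]
    rw [integral_third (1 / 2) (by norm_num) le_rfl]
    norm_num
  rw [← h2]
  apply Nice.integral_mono' (hm.comp (measurable_pi_apply 0)) (h1.integral_right (iidLabels ℕ))
  intro u
  exact second_moment_ch_ge (k + 1) (fun l => str l (u l)) (fun l => abs_str_le l _) (cutN u k t)
    (cutN_lt u k t) (Or.inl hk) s

end Vale.Agent.P161c
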