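import Vale.Agent.H13.P161.Law

/-!
Converse direction: conditional expectations given the labels in a set of vertices.
-/

set_option linter.unusedSectionVars false
set_option linter.unusedVariables false

namespace Vale.Agent.P161c

open MeasureTheory SimpleGraph Vale.Agent.H13.P161 Filter Topology

variable {V : Type*}

open Classical in
/-- conditional expectation given the labels in `A` -/
noncomputable def EA (A : Set V) (f : (V → unitInterval) → ℝ) (U : V → unitInterval) : ℝ :=
  ∫ U', f (mix A U' U) ∂(iidLabels V)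

/-- covariance of the conditional expectations given the labels in `A` -/
noncomputable def CA (A : Set V) (f g : (V → unitInterval) → ℝ) : ℝ :=
  ∫ U, EA A f U * EA A g U ∂(iidLabels V)

lemma nice_EA {f : (V → unitInterval) → ℝ} (hf : Nice f) (A : Set V) : Nice (EA A f) := by
  classical
  have m : Measurable (fun p : (V → unitInterval) × (V → unitInterval) => mix A p.2 p.1) :=
    (measurable_mix (X := fun _ : V => unitInterval) A).comp measurable_swap
  exact (hf.comp m).integral_right (iidLabels V)

lemma EA_congr (A : Set V) (f : (V → unitInterval) → ℝ) {U U' : V → unitInterval}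
    (h : ∀ x ∈ A, U x = U' x) : EA A f U = EA A f U' := by
  classical
  unfold EA
  congr 1
  ext W
  congr 1
  ext j
  by_cases hj : j ∈ A
  · simp only [mix, if_pos hj, h j hj]
  · simp only [mix, if_neg hj]

/-- averaging over all labels in two steps -/
lemma integral_mix_compl {h : (V → unitInterval) → ℝ} (hh : Nice h) (B : Set V)
    [DecidablePred (· ∈ B)] :
    ∫ U, (∫ U', h (mix B U' U) ∂(iidLabels V)) ∂(iidLabels V) = ∫ U, h U ∂(iidLabels V) := by
  classical
  have h1 := integral_mix (fun _ : V => (volume : Measure unitInterval)) (Bᶜ : Set V) hh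
  unfold iidLabels
  rw [h1]
  congr 1
  ext U
  congr 1
  ext U'
  congr 1
  ext j
  by_cases hj : j ∈ B
  · simp [mix, hj]
  · simp [mix, hj]

/-- pointwise: both sides average `f` over the labels outside `A ∩ B` -/
lemma EA_EA {f : (V → unitInterval) → ℝ} (hf : Nice f) (A B : Set V) (U : V → unitInterval) :
    EA A (EA B f) U = EA (A ∩ B) f U := by
  classical
  have m : Measurable (fun W : V → unitInterval => mix (A ∩ B) W U) :=
    (measurable_mix (X := fun _ : V => unitInterval) (A ∩ B)).comp
      (measurable_id.prodMk measurable_const)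
  have h := integral_mix_compl (hf.comp m) B
  have e1 : EA A (EA B f) U
      = ∫ U', (∫ U'', f (mix (A ∩ B) (mix B U'' U') U) ∂(iidLabels V)) ∂(iidLabels V) := by
    unfold EA
    congr 1
    ext U'
    congr 1
    ext U''
    congr 1
    ext j
    by_cases hA : j ∈ A
    · by_cases hB : j ∈ B
      · simp [mix, hA, hB]
      · simp [mix, hA, hB]
    · by_cases hB : j ∈ B
      · simp [mix, hA, hB]
      · simp [mix, hA, hB]
  have e2 : ∫ W, f (mix (A ∩ B) W U) ∂(iidLabels V) = EA (A ∩ B) f U := by
    unfold EA
    congr 1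
    ext W
    congr 1
    ext j
    by_cases hA : j ∈ A ∩ B
    · simp only [mix, if_pos hA]
    · simp only [mix, if_neg hA]
  rw [e1, ← e2]
  exact h

lemma integral_EA {f : (V → unitInterval) → ℝ} (hf : Nice f) (A : Set V) :
    ∫ U, EA A f U ∂(iidLabels V) = ∫ U, f U ∂(iidLabels V) := by
  classical
  exact integral_mix_compl hf A

lemma integral_EA_mul {f g : (V → unitInterval) → ℝ} (hf : Nice f) (hg : Nice g) {A A' : Set V}
    (h : A ⊆ A') : ∫ U, EA A f U * EA A' g U ∂(iidLabels V) = CA A f g := by
  have n1 := nice_EA hf A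
  have n2 := nice_EA hg A'
  rw [← integral_EA (n1.mul n2) A]
  unfold CA
  congr 1
  ext U
  have e : EA A g U = EA A (EA A' g) U := by
    rw [EA_EA hg A A' U, Set.inter_eq_left.mpr h]
  rw [e]
  have e3 : ∀ U' : V → unitInterval, ∀ x ∈ A,
      (@mix V (fun _ => unitInterval) A (fun _ => Classical.propDecidable _) U' U) x = U x := by
    intro U' x hx
    simp only [mix, if_pos hx]
  have e4 : EA A (EA A' g) U = ∫ U', EA A' g (@mix V (fun _ => unitInterval) A
      (fun _ => Classical.propDecidable _) U' U) ∂(iidLabels V) := rfl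
  have e5 : EA A (fun U => EA A f U * EA A' g U) U = ∫ U', EA A f (@mix V (fun _ => unitInterval) A
      (fun _ => Classical.propDecidable _) U' U) * EA A' g (@mix V (fun _ => unitInterval) A
      (fun _ => Classical.propDecidable _) U' U) ∂(iidLabels V) := rfl
  rw [e4, e5, ← integral_const_mul]
  congr 1
  ext U'
  rw [EA_congr A f (e3 U')]

lemma EA_univ (f : (V → unitInterval) → ℝ) (U : V → unitInterval) : EA Set.univ f U = f U := by
  unfold EA
  calc _ = ∫ _U' : V → unitInterval, f U ∂(iidLabels V) := by
        congr 1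
        ext U'
        congr 1
        ext j
        simp only [mix, if_pos (Set.mem_univ j)]
    _ = f U := by simp

lemma EA_empty (f : (V → unitInterval) → ℝ) (U : V → unitInterval) :
    EA ∅ f U = ∫ U', f U' ∂(iidLabels V) := by
  unfold EA
  congr 1
  ext U'
  congr 1
  ext j
  simp only [mix, if_neg (Set.notMem_empty j)]

lemma CA_sub_eq {f g : (V → unitInterval) → ℝ} (hf : Nice f) (hg : Nice g) {A A' : Set V}
    (h : A ⊆ A') : ∫ U, (EA A' f U - EA A f U) * (EA A' g U - EA A g U) ∂(iidLabels V)
      = CA A' f g - CA A f g := by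
  have a1 := nice_EA hf A
  have a2 := nice_EA hf A'
  have b1 := nice_EA hg A
  have b2 := nice_EA hg A'
  have e : ∀ U, (EA A' f U - EA A f U) * (EA A' g U - EA A g U)
      = ((EA A' f U * EA A' g U - EA A g U * EA A' f U) - EA A f U * EA A' g U)
        + EA A f U * EA A g U := fun U => by ring
  simp only [e]
  rw [(((a2.mul b2).sub (b1.mul a2)).sub (a1.mul b2)).integral_add' (a1.mul b1),
    ((a2.mul b2).sub (b1.mul a2)).integral_sub' (a1.mul b2),
    (a2.mul b2).integral_sub' (b1.mul a2), integral_EA_mul hg hf h, integral_EA_mul hf hg h]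
  have e2 : CA A g f = CA A f g := by
    unfold CA
    congr 1
    ext U
    ring
  rw [e2]
  unfold CA
  ring

lemma CA_mono {f : (V → unitInterval) → ℝ} (hf : Nice f) {A A' : Set V} (h : A ⊆ A') :
    CA A f f ≤ CA A' f f := by
  have h1 := CA_sub_eq hf hf h
  have h2 : 0 ≤ ∫ U, (EA A' f U - EA A f U) * (EA A' f U - EA A f U) ∂(iidLabels V) :=
    integral_nonneg (fun U => mul_self_nonneg _)
  linarith

/-- arithmetic-geometric bound of the covariance increment -/
lemma CA_sub_le {f g : (V → unitInterval) → ℝ} (hf : Nice f) (hg : Nice g) {A A' : Set V}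
    (h : A ⊆ A') {lam : ℝ} (hlam : 0 < lam) :
    CA A' f g - CA A f g
      ≤ (lam * (CA A' f f - CA A f f) + (CA A' g g - CA A g g) / lam) / 2 := by
  rw [← CA_sub_eq hf hg h, ← CA_sub_eq hf hf h, ← CA_sub_eq hg hg h]
  have a := (nice_EA hf A').sub (nice_EA hf A)
  have b := (nice_EA hg A').sub (nice_EA hg A)
  have e : (lam * ∫ U, (EA A' f U - EA A f U) * (EA A' f U - EA A f U) ∂(iidLabels V)
      + (∫ U, (EA A' g U - EA A g U) * (EA A' g U - EA A g U) ∂(iidLabels V)) / lam) / 2
      = ∫ U, ((lam / 2) * ((EA A' f U - EA A f U) * (EA A' f U - EA A f U))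
        + (1 / (2 * lam)) * ((EA A' g U - EA A g U) * (EA A' g U - EA A g U)))
          ∂(iidLabels V) := by
    rw [((Nice.const _).mul (a.mul a)).integral_add' ((Nice.const _).mul (b.mul b)),
      integral_const_mul, integral_const_mul]
    field_simp
  rw [e]
  apply Nice.integral_mono' (a.mul b)
    (((Nice.const _).mul (a.mul a)).add ((Nice.const _).mul (b.mul b)))
  intro U
  set x := EA A' f U - EA A f U
  set y := EA A' g U - EA A g U
  have h1 : 0 ≤ (lam * x - y) ^ 2 / (2 * lam) := by positivity
  have h2 : (lam * x - y) ^ 2 / (2 * lam)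
      = (lam / 2) * (x * x) + (1 / (2 * lam)) * (y * y) - x * y := by
    field_simp
    ring
  linarith

/-- only the range of the functionals matters -/
lemma CA_inter {f g : (V → unitInterval) → ℝ} (hf : Nice f) (hg : Nice g) (A B : Set V) :
    CA A (EA B f) (EA B g) = CA (A ∩ B) f g := by
  unfold CA
  congr 1
  ext U
  rw [EA_EA hf, EA_EA hg]

end Vale.Agent.P161c
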