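import Vale.Agent.P161c.Defs

/-!
Two-point transitivity of the automorphism group of a regular tree.

For a root `v` and a target `w` every vertex gets a code, the list of the indices of the children
along the path from `v`; the indices are chosen so that `w` gets the code `0, 0, ..., 0`.  The
codes are the same for all `(v, w)` and determine the adjacency.
-/

namespace Vale.Agent.P161c

open MeasureTheory SimpleGraph Vale.Agent.H13.P161

variable {V : Type*} {G : SimpleGraph V} [LocallyFinite G]

/-- enumeration of a finite set with a preferred element -/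
lemma exists_enum (s : Finset V) (z : V) :
    ∃ f : V → ℕ, (∀ x ∈ s, ∀ y ∈ s, f x = f y → x = y) ∧
      (∀ x ∈ s, f x < s.card) ∧ (∀ a < s.card, ∃ x ∈ s, f x = a) ∧ (z ∈ s → f z = 0) := by
  classical
  have h0 : ∀ t : Finset V, ∃ f : V → ℕ, (∀ x ∈ t, ∀ y ∈ t, f x = f y → x = y) ∧
      (∀ x ∈ t, f x < t.card) ∧ (∀ a < t.card, ∃ x ∈ t, f x = a) := by
    intro t
    refine ⟨fun x => if h : x ∈ t then (t.equivFin ⟨x, h⟩).val else 0, ?_, ?_, ?_⟩
    · intro x hx y hy h
      simp only [dif_pos hx, dif_pos hy] at h
      have := t.equivFin.injective (Fin.ext h)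
      exact congrArg Subtype.val this
    · intro x hx
      simp only [dif_pos hx]
      exact (t.equivFin ⟨x, hx⟩).isLt
    · intro a ha
      refine ⟨(t.equivFin.symm ⟨a, ha⟩).val, (t.equivFin.symm ⟨a, ha⟩).property, ?_⟩
      simp
  by_cases hz : z ∈ s
  · obtain ⟨f, h1, h2, h3⟩ := h0 (s.erase z)
    have hc : (s.erase z).card + 1 = s.card := Finset.card_erase_add_one hz
    refine ⟨fun x => if x = z then 0 else f x + 1, ?_, ?_, ?_, ?_⟩
    · intro x hx y hy h
      by_cases hxz : x = z
      · by_cases hyz : y = z
        · rw [hxz, hyz]
        · simp [hxz, hyz] at h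
      · by_cases hyz : y = z
        · simp [hxz, hyz] at h
        · simp only [hxz, hyz, if_false] at h
          exact h1 x (Finset.mem_erase.2 ⟨hxz, hx⟩) y (Finset.mem_erase.2 ⟨hyz, hy⟩) (by omega)
    · intro x hx
      by_cases hxz : x = z
      · simp only [hxz, if_true]
        omega
      · simp only [hxz, if_false]
        have := h2 x (Finset.mem_erase.2 ⟨hxz, hx⟩)
        omega
    · intro a ha
      rcases a with _ | a
      · exact ⟨z, hz, by simp⟩
      · obtain ⟨x, hx, hfx⟩ := h3 a (by omega)
        have hx' := Finset.mem_erase.1 hx
        exact ⟨x, hx'.2, by simp [hx'.1, hfx]⟩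
    · intro _
      simp
  · obtain ⟨f, h1, h2, h3⟩ := h0 s
    exact ⟨f, h1, h2, h3, fun h => absurd h hz⟩

/-- valid codes -/
def ValidCode (d : ℕ) : List ℕ → Prop
  | [] => True
  | a :: l => (a < if l = [] then d else d - 1) ∧ ValidCode d l

/-- recursion for the code of a vertex -/
noncomputable def codeAux (G : SimpleGraph V) (v : V) (idx : V → ℕ) : ℕ → V → List ℕ
  | 0, _ => []
  | n + 1, x => idx x :: codeAux G v idx n (par G v x)

omit [LocallyFinite G] in
lemma codeAux_length (v : V) (idx : V → ℕ) : ∀ n x, (codeAux G v idx n x).length = n
  | 0, _ => rfl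
  | n + 1, x => by
    rw [codeAux, List.length_cons, codeAux_length v idx n]

/-- the codes of the vertices -/
lemma exists_code (hG : G.IsTree) {d : ℕ} (hreg : ∀ v, G.degree v = d) (v w : V) :
    ∃ code : V → List ℕ, code v = [] ∧ code w = List.replicate (G.dist v w) 0 ∧
      (∀ x y, code x = code y → x = y) ∧ (∀ x, ValidCode d (code x)) ∧
      (∀ l, ValidCode d l → ∃ x, code x = l) ∧
      (∀ x y, G.Adj x y ↔ (∃ a, code x = a :: code y) ∨ (∃ a, code y = a :: code x)) := by
  classical
  -- children
  set C : V → Finset V := fun y => (G.neighborFinset y).filter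
    (fun z => G.dist v z = G.dist v y + 1) with hC
  have memC : ∀ y z, z ∈ C y ↔ G.Adj y z ∧ G.dist v z = G.dist v y + 1 := by
    intro y z
    simp [hC]
  choose en en1 en2 en3 en4 using fun y => exists_enum (C y) (par G w y)
  have hpar : ∀ y z, z ∈ C y → z ≠ v ∧ par G v z = y := by
    intro y z hz
    obtain ⟨h1, h2⟩ := (memC y z).1 hz
    have hzv : z ≠ v := by
      rintro rfl
      rw [G.dist_self] at h2
      omega
    obtain ⟨h3, h4⟩ := par_spec (G := G) (o := v) hG.1 hzv
    exact ⟨hzv, parent_unique hG h3 h1.symm h4 h2⟩
  have hchild : ∀ z, z ≠ v → z ∈ C (par G v z) := by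
    intro z hz
    obtain ⟨h3, h4⟩ := par_spec (G := G) (o := v) hG.1 hz
    exact (memC _ _).2 ⟨h3.symm, h4⟩
  have hcard : ∀ y, (C y).card = if y = v then d else d - 1 := by
    intro y
    by_cases hy : y = v
    · subst hy
      rw [if_pos rfl, ← hreg y, ← G.card_neighborFinset_eq_degree]
      congr 1
      apply Finset.filter_true_of_mem
      intro z hz
      rw [mem_neighborFinset] at hz
      rw [G.dist_self, dist_eq_one_iff_adj.2 hz]
    · rw [if_neg hy, ← hreg y, ← G.card_neighborFinset_eq_degree]
      obtain ⟨h3, h4⟩ := par_spec (G := G) (o := v) hG.1 hy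
      have h5 : C y = (G.neighborFinset y).erase (par G v y) := by
        ext z
        rw [memC, Finset.mem_erase, mem_neighborFinset]
        constructor
        · rintro ⟨h6, h7⟩
          refine ⟨?_, h6⟩
          rintro rfl
          omega
        · rintro ⟨h6, h7⟩
          refine ⟨h7, ?_⟩
          rcases hG.dist_eq_dist_add_one_of_adj v h7 with h8 | h8
          · exact absurd (parent_unique hG h3 h7 h4 h8) (Ne.symm h6)
          · exact h8
      rw [h5, Finset.card_erase_of_mem ((mem_neighborFinset _ _ _).2 h3)]
  set idx : V → ℕ := fun z => en (par G v z) z with hidx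
  set code : V → List ℕ := fun x => codeAux G v idx (G.dist v x) x with hcode
  have code_root : code v = [] := by
    simp only [hcode, G.dist_self]
    rfl
  have code_step : ∀ x, x ≠ v → code x = idx x :: code (par G v x) := by
    intro x hx
    obtain ⟨h3, h4⟩ := par_spec (G := G) (o := v) hG.1 hx
    simp only [hcode]
    rw [h4]
    rfl
  have code_len : ∀ x, (code x).length = G.dist v x := fun x => codeAux_length v idx _ x
  have code_nil : ∀ x, code x = [] ↔ x = v := by
    intro x
    constructor
    · intro h
      have := code_len x
      rw [h, List.length_nil] at this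
      exact ((hG.1.dist_eq_zero_iff).1 this.symm).symm
    · rintro rfl
      exact code_root
  have code_inj : ∀ x y, code x = code y → x = y := by
    refine bcast_induction (G := G) (o := v) hG.1 (P := fun x => ∀ y, code x = code y → x = y)
      ?_ ?_
    · intro y h
      rw [code_root] at h
      exact ((code_nil y).1 h.symm).symm
    · intro x hx ih y h
      have hy : y ≠ v := by
        rintro rfl
        rw [code_root] at h
        exact hx ((code_nil x).1 h)
      rw [code_step x hx, code_step y hy, List.cons.injEq] at h
      have h1 := ih _ h.2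
      have h2 := hchild x hx
      have h3 := hchild y hy
      rw [← h1] at h3
      refine en1 _ x h2 y h3 ?_
      have h4 := h.1
      simp only [hidx] at h4
      rw [← h1] at h4
      exact h4
  have code_card : ∀ y, (C y).card = if code y = [] then d else d - 1 := by
    intro y
    rw [hcard y]
    by_cases hy : y = v
    · rw [if_pos hy, if_pos ((code_nil y).2 hy)]
    · rw [if_neg hy, if_neg (fun h => hy ((code_nil y).1 h))]
  have code_valid : ∀ x, ValidCode d (code x) := by
    refine bcast_induction (G := G) (o := v) hG.1 (P := fun x => ValidCode d (code x)) ?_ ?_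
    · rw [code_root]
      trivial
    · intro x hx ih
      rw [code_step x hx]
      refine ⟨?_, ih⟩
      rw [← code_card]
      exact en2 _ x (hchild x hx)
  have code_surj : ∀ l, ValidCode d l → ∃ x, code x = l := by
    intro l
    induction l with
    | nil => exact fun _ => ⟨v, code_root⟩
    | cons a l ih =>
      rintro ⟨h1, h2⟩
      obtain ⟨y, hy⟩ := ih h2
      rw [← hy, ← code_card] at h1
      obtain ⟨x, hx, hxa⟩ := en3 y a h1
      obtain ⟨h3, h4⟩ := hpar y x hx
      refine ⟨x, ?_⟩
      rw [code_step x h3]
      simp only [hidx]
      rw [h4, hxa, hy]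
  refine ⟨code, code_root, ?_, code_inj, code_valid, code_surj, ?_⟩
  · -- the target has the code zero
    have key : ∀ z, G.dist v w = G.dist v z + G.dist z w →
        code z = List.replicate (G.dist v z) 0 := by
      refine bcast_induction (G := G) (o := v) hG.1 (P := fun z =>
        G.dist v w = G.dist v z + G.dist z w → code z = List.replicate (G.dist v z) 0) ?_ ?_
      · intro _
        rw [code_root, G.dist_self]
        rfl
      · intro z hz ih h
        obtain ⟨h3, h4⟩ := par_spec (G := G) (o := v) hG.1 hz
        have h5 : G.dist v w ≤ G.dist v (par G v z) + G.dist (par G v z) w := hG.1.dist_triangle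
        have h6 := hG.dist_eq_dist_add_one_of_adj w h3
        have c1 : G.dist w z = G.dist z w := G.dist_comm
        have c2 : G.dist w (par G v z) = G.dist (par G v z) w := G.dist_comm
        have h7 : G.dist w (par G v z) = G.dist w z + 1 := by omega
        have hpw : par G v z ≠ w := by
          intro h8
          rw [h8, G.dist_self] at h7
          omega
        obtain ⟨h9, h10⟩ := par_spec (G := G) (o := w) hG.1 hpw
        have h11 : par G w (par G v z) = z := parent_unique hG h9 h3.symm h10 h7
        have h12 : idx z = 0 := by
          have h13 := en4 (par G v z)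
          rw [h11] at h13
          exact h13 (hchild z hz)
        rw [code_step z hz, h12, ih (by omega), h4]
        rfl
    have := key w (by rw [G.dist_self, add_zero])
    exact this
  · intro x y
    constructor
    · intro h
      rcases hG.dist_eq_dist_add_one_of_adj v h with h1 | h1
      · left
        have h2 := (memC y x).2 ⟨h.symm, h1⟩
        obtain ⟨h3, h4⟩ := hpar y x h2
        exact ⟨idx x, by rw [code_step x h3, h4]⟩
      · right
        have h2 := (memC x y).2 ⟨h, h1⟩
        obtain ⟨h3, h4⟩ := hpar x y h2
        exact ⟨idx y, by rw [code_step y h3, h4]⟩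
    · have key : ∀ x y a, code x = a :: code y → G.Adj x y := by
        intro x y a h
        have hx : x ≠ v := by
          rintro rfl
          rw [code_root] at h
          exact absurd h.symm (List.cons_ne_nil _ _)
        obtain ⟨h3, h4⟩ := par_spec (G := G) (o := v) hG.1 hx
        rw [code_step x hx, List.cons.injEq] at h
        rw [← code_inj _ _ h.2]
        exact h3
      rintro (⟨a, h⟩ | ⟨a, h⟩)
      · exact key x y a h
      · exact (key y x a h).symm

/-- In a regular tree, two pairs of vertices at the same distance are related by an automorphism.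

Suggested proof.  (1) A rooted branch is canonical: for adjacent `c`, `p` the branch
`br G c p` is in bijection with `List (Fin (d - 1))` (choose for each directed edge a bijection of
the children with `Fin (d - 1)`).  Equivalently build the automorphism by recursion on the
distance from `v`: choose for each vertex `x` and target `x'` a bijection of the children of `x`
(neighbours of `x` other than `par G v x`) with the children of `x'`.
Choose the bijections along the path from `v` to `w` so that `w` goes to `w'`: it suffices to
treat this by composing: first find `g` with `g v = v'`, and then, for fixed `v`, show that the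
stabilizer of `v` acts transitively on each sphere by induction on the radius:
if `h` fixes `v` and maps `par G v w` to `par G v w'`, then compose with an automorphism that
fixes everything except the branches of two children `x, x'` of the same vertex `y` away from
`y`, which are exchanged. -/
theorem exists_iso_pair (hG : G.IsTree) {d : ℕ} (hd : 2 ≤ d) (hreg : ∀ v, G.degree v = d)
    {v w v' w' : V} (h : G.dist v w = G.dist v' w') :
    ∃ g : G ≃g G, g v = v' ∧ g w = w' := by
  obtain ⟨c, c0, cw, ci, cv, cs, ca⟩ := exists_code hG hreg v w
  obtain ⟨c', c0', cw', ci', cv', cs', ca'⟩ := exists_code hG hreg v' w'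
  choose f hf using fun x => cs' (c x) (cv x)
  choose f' hf' using fun x => cs (c' x) (cv' x)
  have e1 : Function.LeftInverse f' f := fun x => ci _ _ (by rw [hf', hf])
  have e2 : Function.RightInverse f' f := fun x => ci' _ _ (by rw [hf, hf'])
  refine ⟨⟨⟨f, f', e1, e2⟩, ?_⟩, ?_, ?_⟩
  · intro x y
    change G.Adj (f x) (f y) ↔ G.Adj x y
    rw [ca' (f x) (f y), ca x y, hf, hf]
  · change f v = v'
    exact ci' _ _ (by rw [hf, c0, c0'])
  · change f w = w'
    exact ci' _ _ (by rw [hf, cw, cw', h])

end Vale.Agent.P161c
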