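import Vale.Agent.P161c.Defs

/-!
Deterministic identities for the products of screening factors along paths of a tree.

Convention: `par G v w` is the neighbour of `w` on the path from `w` to `v` (see `par_spec`,
`par_b`, `bcast_induction` in `Broadcast.lean`, `parent_unique`, `side_adj`, `dist_across`,
`sph`, `mem_sph` in `TreeMetric.lean`).  `Wt G θ m v w` is the product over the vertices `x` on
the path from `v` to `w`, `x ≠ v`, of `phi θ (m x (par G v x))`.
-/

namespace Vale.Agent.P161c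

open MeasureTheory SimpleGraph Vale.Agent.H13.P161

section

variable {V : Type*} {G : SimpleGraph V} {θ α : ℝ} {m : V → V → ℝ}

/-- bound for the full magnetizations -/
noncomputable def aMag (θ α : ℝ) : ℝ := (α + θ) / (1 + α * θ)

lemma aMag_lt_one (hθ0 : 0 ≤ θ) (hθ1 : θ < 1) (hα0 : 0 ≤ α) (hα1 : α < 1) :
    0 ≤ aMag θ α ∧ aMag θ α < 1 := by
  have h1 : 0 < 1 + α * θ := by nlinarith [mul_nonneg hα0 hθ0]
  refine ⟨div_nonneg (by linarith) h1.le, ?_⟩
  unfold aMag
  rw [div_lt_one h1]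
  nlinarith [mul_pos (sub_pos.mpr hθ1) (sub_pos.mpr hα1)]

lemma phi_nonneg_le (hθ0 : 0 ≤ θ) (hθ1 : θ < 1) {x : ℝ} (hx : |x| < 1) :
    0 < phi θ x ∧ phi θ x ≤ 1 := by
  have hx2 : x ^ 2 < 1 := by
    rw [← sq_abs]
    have := abs_nonneg x
    nlinarith
  have ht : θ ^ 2 ≤ 1 := by nlinarith
  have h2 : θ ^ 2 * x ^ 2 ≤ x ^ 2 := by nlinarith [sq_nonneg x]
  have hden : 0 < 1 - θ ^ 2 * x ^ 2 := by linarith
  unfold phi
  refine ⟨div_pos (by linarith) hden, ?_⟩
  rw [div_le_one hden]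
  linarith

/-- `1 - phi` is at least `(1 - θ²) x²` and at most `x²` -/
lemma one_sub_phi (hθ0 : 0 ≤ θ) (hθ1 : θ < 1) {x : ℝ} (hx : |x| ≤ 1) :
    (1 - θ ^ 2) * x ^ 2 ≤ 1 - phi θ x ∧ 1 - phi θ x ≤ x ^ 2 := by
  have hx2 : x ^ 2 ≤ 1 := by
    rw [← sq_abs]
    have := abs_nonneg x
    nlinarith
  have hx0 : 0 ≤ x ^ 2 := sq_nonneg x
  have ht0 : 0 ≤ θ ^ 2 := sq_nonneg θ
  have ht : θ ^ 2 < 1 := by nlinarith
  have h2 : θ ^ 2 * x ^ 2 ≤ θ ^ 2 := by nlinarith
  have hden : 0 < 1 - θ ^ 2 * x ^ 2 := by linarith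
  have hden1 : 1 - θ ^ 2 * x ^ 2 ≤ 1 := by nlinarith [mul_nonneg ht0 hx0]
  have e : 1 - phi θ x = x ^ 2 * (1 - θ ^ 2) / (1 - θ ^ 2 * x ^ 2) := by
    unfold phi
    rw [eq_div_iff hden.ne', sub_mul, div_mul_cancel₀ _ hden.ne']
    ring
  rw [e]
  have hnum : 0 ≤ x ^ 2 * (1 - θ ^ 2) := mul_nonneg hx0 (by linarith)
  constructor
  · rw [le_div_iff₀ hden]
    nlinarith
  · rw [div_le_iff₀ hden]
    apply mul_le_mul_of_nonneg_left _ hx0
    linarith

lemma mag_eq (hm : IsCavity G θ α m) {c p : V} (h : G.Adj c p) : mag G θ m c = magE θ m c p := by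
  have hex : ∃ p, G.Adj c p := ⟨p, h⟩
  unfold mag
  rw [dif_pos hex]
  exact hm.cons _ _ _ hex.choose_spec h

lemma comb_le_aux (hθ0 : 0 ≤ θ) (hθ1 : θ < 1) (hα0 : 0 ≤ α) (hα1 : α < 1) {x z : ℝ}
    (hx : |x| ≤ α) (hz : |z| ≤ θ) : 0 < 1 + x * z ∧ comb x z ≤ aMag θ α := by
  have h1 := abs_le.mp hx
  have h2 := abs_le.mp hz
  have hxz : |x * z| < 1 := by
    rw [abs_mul]
    have a1 := abs_nonneg x
    have a2 := abs_nonneg z
    nlinarith
  have h3 := abs_lt.mp hxz
  have hpos : 0 < 1 + x * z := by linarith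
  have hden : 0 < 1 + α * θ := by nlinarith [mul_nonneg hα0 hθ0]
  refine ⟨hpos, ?_⟩
  unfold comb aMag
  rw [div_le_div_iff₀ hpos hden]
  have k1 : 0 ≤ (α - x) * (1 - θ * z) := by
    apply mul_nonneg (by linarith)
    nlinarith
  have k2 : 0 ≤ (θ - z) * (1 - α * x) := by
    apply mul_nonneg (by linarith)
    nlinarith
  nlinarith

lemma abs_comb_le (hθ0 : 0 ≤ θ) (hθ1 : θ < 1) (hα0 : 0 ≤ α) (hα1 : α < 1) {x z : ℝ}
    (hx : |x| ≤ α) (hz : |z| ≤ θ) : |comb x z| ≤ aMag θ α := by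
  rw [abs_le]
  constructor
  · have h := (comb_le_aux hθ0 hθ1 hα0 hα1 (x := -x) (z := -z) (by rwa [abs_neg])
      (by rwa [abs_neg])).2
    have e : comb (-x) (-z) = - comb x z := by
      unfold comb
      rw [neg_mul_neg, ← neg_add, neg_div]
    rw [e] at h
    linarith
  · exact (comb_le_aux hθ0 hθ1 hα0 hα1 hx hz).2

lemma abs_theta_mul_le (hθ0 : 0 ≤ θ) (hα1 : α < 1) {y : ℝ} (hy : |y| ≤ α) :
    |θ * y| ≤ θ := by
  rw [abs_mul, abs_of_nonneg hθ0]
  have := abs_nonneg y
  nlinarith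

lemma abs_mag_le (hθ0 : 0 ≤ θ) (hθ1 : θ < 1) (hα0 : 0 ≤ α) (hα1 : α < 1)
    (hm : IsCavity G θ α m) (v : V) : |mag G θ m v| ≤ aMag θ α := by
  by_cases hex : ∃ p, G.Adj v p
  · obtain ⟨p, hp⟩ := hex
    rw [mag_eq hm hp]
    exact abs_comb_le hθ0 hθ1 hα0 hα1 (hm.bound _ _ hp)
      (abs_theta_mul_le hθ0 hα1 (hm.bound _ _ hp.symm))
  · unfold mag
    rw [dif_neg hex, abs_zero]
    exact (aMag_lt_one hθ0 hθ1 hα0 hα1).1

/-- the full magnetization is at most the sum of the two cavity magnetizations of an edge -/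
lemma abs_mag_le_add (hθ0 : 0 ≤ θ) (hθ1 : θ < 1) (hα0 : 0 ≤ α) (hα1 : α < 1)
    (hm : IsCavity G θ α m) {c p : V} (h : G.Adj c p) :
    |mag G θ m c| ≤ |m c p| + |m p c| := by
  rw [mag_eq hm h]
  unfold magE comb
  set x := m c p with hx
  set y := m p c with hy
  have hxa : |x| ≤ α := hm.bound _ _ h
  have hya : |y| ≤ α := hm.bound _ _ h.symm
  have hpos : 0 < 1 + x * (θ * y) :=
    (comb_le_aux hθ0 hθ1 hα0 hα1 hxa (abs_theta_mul_le hθ0 hα1 hya)).1
  rw [abs_div, abs_of_pos hpos, div_le_iff₀ hpos]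
  have a1 := abs_nonneg x
  have a2 := abs_nonneg y
  have key : (|x| + |y|) * (1 - θ * (|x| * |y|)) ≤ (|x| + |y|) * (1 + x * (θ * y)) := by
    apply mul_le_mul_of_nonneg_left _ (by linarith)
    have e1 : -(|x| * |y|) ≤ x * y := by
      rw [← abs_mul]; exact neg_abs_le _
    nlinarith
  rcases le_or_gt 0 (x * y) with hxy | hxy
  · -- same sign
    have e1 : |x + θ * y| ≤ |x| + |y| := by
      calc |x + θ * y| ≤ |x| + |θ * y| := abs_add_le _ _
        _ = |x| + θ * |y| := by rw [abs_mul, abs_of_nonneg hθ0]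
        _ ≤ |x| + |y| := by nlinarith
    have e2 : 0 ≤ (|x| + |y|) * (θ * (x * y)) :=
      mul_nonneg (by linarith) (mul_nonneg hθ0 hxy)
    nlinarith
  · -- opposite signs
    have e0 : |x + θ * y| = |(|x| - θ * |y|)| := by
      rcases lt_trichotomy x 0 with h1 | h1 | h1
      · have hy0 : 0 < y := by
          by_contra hcon
          push Not at hcon
          nlinarith
        rw [abs_of_neg h1, abs_of_pos hy0, ← abs_neg]
        congr 1
        ring
      · rw [h1] at hxy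
        simp at hxy
      · have hy0 : y < 0 := by
          by_contra hcon
          push Not at hcon
          nlinarith
        rw [abs_of_pos h1, abs_of_neg hy0]
        congr 1
        ring
    refine le_trans ?_ key
    rw [e0, abs_le]
    have b1 : |x| * |y| ≤ |y| := by nlinarith
    have b2 : |x| * |y| ≤ |x| := by nlinarith
    have b0 : 0 ≤ |x| * |y| := mul_nonneg a1 a2
    have c1 : θ * ((|x| * |y|) * (|x| + |y|)) ≤ θ * (|x| * |y|) * 2 := by
      have : (|x| * |y|) * (|x| + |y|) ≤ (|x| * |y|) * 2 :=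
        mul_le_mul_of_nonneg_left (by linarith) b0
      nlinarith
    have d1 : θ * (|x| * |y|) ≤ θ * |y| := mul_le_mul_of_nonneg_left b1 hθ0
    have d2 : θ * (|x| * |y|) ≤ |x| * |y| := by nlinarith
    have d3 : θ * |y| ≤ |y| := by nlinarith
    constructor
    · nlinarith
    · nlinarith

@[simp] lemma Wt_self (v : V) : Wt G θ m v v = 1 := by
  simp [Wt, WtAux]

/-- tail recursion -/
lemma Wt_tail (hG : G.Connected) {v w : V} (h : w ≠ v) :
    Wt G θ m v w = Wt G θ m v (par G v w) * phi θ (m w (par G v w)) := by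
  unfold Wt
  rw [(par_spec hG h).2]
  rfl

/-- head recursion: leaving `v` through its neighbour `g` -/
lemma Wt_head (hG : G.IsTree) {v g w : V} (hvg : G.Adj v g) (hw : w ∈ br G g v) :
    Wt G θ m v w = phi θ (m g v) * Wt G θ m g w ∧ G.dist v w = G.dist g w + 1 := by
  have key : ∀ w, G.dist w g < G.dist w v →
      Wt G θ m v w = phi θ (m g v) * Wt G θ m g w ∧ G.dist v w = G.dist g w + 1 := by
    apply bcast_induction (o := g) hG.connected (P := fun w => G.dist w g < G.dist w v →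
      Wt G θ m v w = phi θ (m g v) * Wt G θ m g w ∧ G.dist v w = G.dist g w + 1)
    · intro _
      have hd : G.dist v g = 1 := dist_eq_one_iff_adj.mpr hvg
      have hlt : G.dist v v < G.dist v g := by rw [hd]; simp
      obtain ⟨hne, hpar⟩ := par_b hG hvg hlt
      rw [Wt_tail hG.connected hne, hpar, Wt_self, Wt_self, hd]
      simp
    · intro w hwg ih hw'
      have hp := par_spec hG.connected hwg
      set x := par G g w with hxdef
      have hside : G.dist x g < G.dist x v := by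
        by_contra hcon
        have hne := hG.dist_ne_of_adj x hvg
        have h2 : G.dist x v < G.dist x g := by omega
        obtain ⟨_, e2⟩ := side_adj hG hvg h2 hw' hp.1.symm
        exact hwg e2
      obtain ⟨ih1, ih2⟩ := ih hside
      have e := hG.dist_eq_dist_add_one_of_adj w hvg
      have c1 : G.dist w v = G.dist v w := G.dist_comm
      have c2 : G.dist w g = G.dist g w := G.dist_comm
      have hvw : G.dist v w = G.dist g w + 1 := by omega
      have hwv : w ≠ v := by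
        rintro rfl
        simp at hw'
      have hpv := par_spec hG.connected hwv
      have hpar : par G v w = x :=
        parent_unique hG hpv.1 hp.1 hpv.2 (by omega)
      refine ⟨?_, hvw⟩
      rw [Wt_tail hG.connected hwv, hpar, ih1, Wt_tail hG.connected hwg, ← hxdef, mul_assoc]
  exact key w hw

lemma Wt_pos_le (hθ0 : 0 ≤ θ) (hθ1 : θ < 1) (hα1 : α < 1) (hG : G.Connected)
    (hm : IsCavity G θ α m) (v w : V) : 0 < Wt G θ m v w ∧ Wt G θ m v w ≤ 1 := by
  apply bcast_induction (o := v) hG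
    (P := fun w => 0 < Wt G θ m v w ∧ Wt G θ m v w ≤ 1)
  · simp
  · intro w hw ih
    rw [Wt_tail hG hw]
    have hp := par_spec hG hw
    have hb := hm.bound _ _ hp.1
    have hph := phi_nonneg_le hθ0 hθ1 (x := m w (par G v w)) (lt_of_le_of_lt hb hα1)
    exact ⟨mul_pos ih.1 hph.1, mul_le_one₀ ih.2 hph.1.le hph.2⟩

/-- multiplicativity of `Wt` along a path: if `x` is on the path from `v` to `w` -/
lemma Wt_split (hG : G.IsTree) {v x w : V} (h : G.dist v w = G.dist v x + G.dist x w) :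
    Wt G θ m v w = Wt G θ m v x * Wt G θ m x w := by
  have key : ∀ w, G.dist v w = G.dist v x + G.dist x w →
      Wt G θ m v w = Wt G θ m v x * Wt G θ m x w := by
    apply bcast_induction (o := x) hG.connected
      (P := fun w => G.dist v w = G.dist v x + G.dist x w →
        Wt G θ m v w = Wt G θ m v x * Wt G θ m x w)
    · intro _
      rw [Wt_self, mul_one]
    · intro w hwx ih hd
      have hp := par_spec hG.connected hwx
      set y := par G x w with hydef
      have t1 : G.dist v y ≤ G.dist v x + G.dist x y := hG.connected.dist_triangle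
      have t2 : G.dist v w ≤ G.dist v y + G.dist y w := hG.connected.dist_triangle
      have t3 : G.dist y w = 1 := dist_eq_one_iff_adj.mpr hp.1.symm
      have hvy : G.dist v y = G.dist v x + G.dist x y := by omega
      have hwv : w ≠ v := by
        rintro rfl
        simp at hd
        omega
      have hpv := par_spec hG.connected hwv
      have hpar : par G v w = y :=
        parent_unique hG hpv.1 hp.1 hpv.2 (by omega)
      rw [Wt_tail hG.connected hwv, hpar, ih hvy, Wt_tail hG.connected hwx, ← hydef, mul_assoc]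
  exact key w h

lemma one_sub_comb_sq_aux {x z : ℝ} (h : 1 + x * z ≠ 0) :
    1 - comb x z ^ 2 = (1 - x ^ 2) * (1 - z ^ 2) / (1 + x * z) ^ 2 := by
  unfold comb
  field_simp
  ring

/-- common value of the edge weight -/
lemma edge_aux (hθ0 : 0 ≤ θ) (hθ1 : θ < 1) (hα0 : 0 ≤ α) (hα1 : α < 1)
    (hm : IsCavity G θ α m) {v g : V} (h : G.Adj v g) :
    (1 - mag G θ m v ^ 2) * phi θ (m g v)
      = ((1 - m v g ^ 2) * (1 - m g v ^ 2)) / (1 + θ * m v g * m g v) ^ 2 := by
  rw [mag_eq hm h]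
  unfold magE
  have hxa : |m v g| ≤ α := hm.bound _ _ h
  have hya : |m g v| ≤ α := hm.bound _ _ h.symm
  have hpos := (comb_le_aux hθ0 hθ1 hα0 hα1 hxa (abs_theta_mul_le hθ0 hα1 hya)).1
  rw [one_sub_comb_sq_aux hpos.ne']
  have hy2 : m g v ^ 2 < 1 := by
    rw [← sq_abs]
    have := abs_nonneg (m g v)
    nlinarith
  have hden : 0 < 1 - θ ^ 2 * m g v ^ 2 := by
    have : θ ^ 2 ≤ 1 := by nlinarith
    nlinarith [sq_nonneg (m g v)]
  have hpos' : 0 < 1 + θ * m v g * m g v := by
    have e : 1 + θ * m v g * m g v = 1 + m v g * (θ * m g v) := by ring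
    rw [e]; exact hpos
  unfold phi
  have e1 : 1 + m v g * (θ * m g v) = 1 + θ * m v g * m g v := by ring
  have e2 : (θ * m g v) ^ 2 = θ ^ 2 * m g v ^ 2 := by ring
  rw [e1, e2]
  field_simp

/-- symmetry across an edge -/
lemma edge_symm (hθ0 : 0 ≤ θ) (hθ1 : θ < 1) (hα0 : 0 ≤ α) (hα1 : α < 1)
    (hm : IsCavity G θ α m) {v g : V} (h : G.Adj v g) :
    (1 - mag G θ m v ^ 2) * phi θ (m g v) = (1 - mag G θ m g ^ 2) * phi θ (m v g) := by
  rw [edge_aux hθ0 hθ1 hα0 hα1 hm h, edge_aux hθ0 hθ1 hα0 hα1 hm h.symm]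
  have e1 : θ * m g v * m v g = θ * m v g * m g v := by ring
  rw [e1, mul_comm (1 - m g v ^ 2)]

/-- explicit covariance of an edge -/
lemma Cv_edge (hθ0 : 0 ≤ θ) (hθ1 : θ < 1) (hα0 : 0 ≤ α) (hα1 : α < 1) (hG : G.IsTree)
    (hm : IsCavity G θ α m) {v g : V} (h : G.Adj v g) :
    Cv G θ m v g = θ * ((1 - m v g ^ 2) * (1 - m g v ^ 2)) / (1 + θ * m v g * m g v) ^ 2 := by
  have hd : G.dist v g = 1 := dist_eq_one_iff_adj.mpr h
  have hlt : G.dist g g < G.dist g v := by
    rw [G.dist_comm (u := g) (v := v), hd]; simp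
  have hW := (Wt_head (θ := θ) (m := m) hG h (w := g) hlt).1
  unfold Cv
  rw [hW, Wt_self, mul_one, hd, pow_one]
  have e := edge_aux hθ0 hθ1 hα0 hα1 hm h
  calc (1 - mag G θ m v ^ 2) * θ * phi θ (m g v)
      = θ * ((1 - mag G θ m v ^ 2) * phi θ (m g v)) := by ring
    _ = θ * (((1 - m v g ^ 2) * (1 - m g v ^ 2)) / (1 + θ * m v g * m g v) ^ 2) := by rw [e]
    _ = _ := by ring

/-- symmetry of the path product weighted with the variance of the starting point -/
lemma Wt_symm (hθ0 : 0 ≤ θ) (hθ1 : θ < 1) (hα0 : 0 ≤ α) (hα1 : α < 1) (hG : G.IsTree)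
    (hm : IsCavity G θ α m) (v w : V) :
    (1 - mag G θ m v ^ 2) * Wt G θ m v w = (1 - mag G θ m w ^ 2) * Wt G θ m w v := by
  apply bcast_induction (o := v) hG.connected
    (P := fun w => (1 - mag G θ m v ^ 2) * Wt G θ m v w = (1 - mag G θ m w ^ 2) * Wt G θ m w v)
  · rfl
  · intro w hw ih
    have hp := par_spec hG.connected hw
    have hside : G.dist v (par G v w) < G.dist v w := by omega
    have hW := (Wt_head (θ := θ) (m := m) hG hp.1 (w := v) hside).1
    rw [Wt_tail hG.connected hw, hW]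
    have e := edge_symm hθ0 hθ1 hα0 hα1 hm hp.1
    calc (1 - mag G θ m v ^ 2) * (Wt G θ m v (par G v w) * phi θ (m w (par G v w)))
        = ((1 - mag G θ m v ^ 2) * Wt G θ m v (par G v w)) * phi θ (m w (par G v w)) := by ring
      _ = ((1 - mag G θ m (par G v w) ^ 2) * phi θ (m w (par G v w)))
          * Wt G θ m (par G v w) v := by rw [ih]; ring
      _ = ((1 - mag G θ m w ^ 2) * phi θ (m (par G v w) w)) * Wt G θ m (par G v w) v := by
          rw [e]
      _ = _ := by ring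

lemma Cv_symm (hθ0 : 0 ≤ θ) (hθ1 : θ < 1) (hα0 : 0 ≤ α) (hα1 : α < 1) (hG : G.IsTree)
    (hm : IsCavity G θ α m) (v w : V) : Cv G θ m v w = Cv G θ m w v := by
  unfold Cv
  have e := Wt_symm hθ0 hθ1 hα0 hα1 hG hm v w
  rw [G.dist_comm (u := w) (v := v)]
  calc (1 - mag G θ m v ^ 2) * θ ^ G.dist v w * Wt G θ m v w
      = θ ^ G.dist v w * ((1 - mag G θ m v ^ 2) * Wt G θ m v w) := by ring
    _ = θ ^ G.dist v w * ((1 - mag G θ m w ^ 2) * Wt G θ m w v) := by rw [e]
    _ = _ := by ring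

lemma one_sub_mag_sq_pos (hθ0 : 0 ≤ θ) (hθ1 : θ < 1) (hα0 : 0 ≤ α) (hα1 : α < 1)
    (hm : IsCavity G θ α m) (v : V) : 0 < 1 - mag G θ m v ^ 2 := by
  have h1 := abs_mag_le hθ0 hθ1 hα0 hα1 hm v
  have h2 := aMag_lt_one hθ0 hθ1 hα0 hα1
  have h3 := abs_nonneg (mag G θ m v)
  rw [← sq_abs]
  nlinarith

lemma Cv_pos (hθ0 : 0 < θ) (hθ1 : θ < 1) (hα0 : 0 ≤ α) (hα1 : α < 1) (hG : G.Connected)
    (hm : IsCavity G θ α m) (v w : V) : 0 < Cv G θ m v w := by
  unfold Cv
  exact mul_pos (mul_pos (one_sub_mag_sq_pos hθ0.le hθ1 hα0 hα1 hm v) (pow_pos hθ0 _))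
    (Wt_pos_le hθ0.le hθ1 hα1 hG hm v w).1

/-- factorization of the covariance at a vertex `x` of the path from `v` to `w` -/
lemma Cv_factor (hθ0 : 0 ≤ θ) (hθ1 : θ < 1) (hα0 : 0 ≤ α) (hα1 : α < 1) (hG : G.IsTree)
    (hm : IsCavity G θ α m) {v x w : V} (h : G.dist v w = G.dist v x + G.dist x w) :
    Cv G θ m v w = (1 - mag G θ m x ^ 2) * θ ^ G.dist v w * Wt G θ m x v * Wt G θ m x w := by
  unfold Cv
  have e := Wt_symm hθ0 hθ1 hα0 hα1 hG hm v x
  rw [Wt_split hG h]
  calc (1 - mag G θ m v ^ 2) * θ ^ G.dist v w * (Wt G θ m v x * Wt G θ m x w)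
      = ((1 - mag G θ m v ^ 2) * Wt G θ m v x) * θ ^ G.dist v w * Wt G θ m x w := by ring
    _ = _ := by rw [e]; ring

/-- factorization of the covariance across an edge -/
lemma Cv_factor_edge (hθ0 : 0 ≤ θ) (hθ1 : θ < 1) (hα0 : 0 ≤ α) (hα1 : α < 1) (hG : G.IsTree)
    (hm : IsCavity G θ α m) {v g x w : V} (h : G.Adj v g) (hx : x ∈ br G g v) (hw : w ∈ br G v g) :
    Cv G θ m x w = Cv G θ m g v * (θ ^ G.dist g x * Wt G θ m g x) * (θ ^ G.dist v w * Wt G θ m v w) := by
  have hx' : G.dist x g < G.dist x v := hx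
  have hw' : G.dist w v < G.dist w g := hw
  have h1 := Wt_head (θ := θ) (m := m) hG h.symm (w := w) hw
  have h2 : G.dist x w = G.dist x g + 1 + G.dist v w := dist_across' hG h.symm hx' hw'
  have c1 : G.dist g x = G.dist x g := G.dist_comm
  have hd : G.dist x w = G.dist x g + G.dist g w := by omega
  have hgv : G.dist g v = 1 := dist_eq_one_iff_adj.mpr h.symm
  have hlt : G.dist v v < G.dist v g := by
    rw [G.dist_comm (u := v) (v := g), hgv]; simp
  have hW := (Wt_head (θ := θ) (m := m) hG h.symm (w := v) hlt).1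
  rw [Cv_factor hθ0 hθ1 hα0 hα1 hG hm hd, h1.1]
  unfold Cv
  rw [hW, Wt_self, mul_one, hgv, pow_one, h2, c1, pow_add, pow_add, pow_one]
  ring

/-- logarithm of the path product -/
lemma log_Wt_tail (hθ0 : 0 ≤ θ) (hθ1 : θ < 1) (hα1 : α < 1) (hG : G.Connected)
    (hm : IsCavity G θ α m) {v w : V} (h : w ≠ v) :
    Real.log (Wt G θ m v w) = Real.log (Wt G θ m v (par G v w))
      + Real.log (phi θ (m w (par G v w))) := by
  have hp := par_spec hG h
  have hb := hm.bound _ _ hp.1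
  have hph := phi_nonneg_le hθ0 hθ1 (x := m w (par G v w)) (lt_of_le_of_lt hb hα1)
  rw [Wt_tail hG h, Real.log_mul (Wt_pos_le hθ0 hθ1 hα1 hG hm v _).1.ne' hph.1.ne']

end

section Iso

variable {V : Type*} {G : SimpleGraph V} {θ α : ℝ} {m : V → V → ℝ}

lemma dist_iso (g : G ≃g G) (v w : V) : G.dist (g v) (g w) = G.dist v w := by
  rw [dist_eq_sInf, dist_eq_sInf]
  congr 1
  ext n
  constructor
  · rintro ⟨p, rfl⟩
    refine ⟨(p.map g.symm.toHom).copy (g.symm_apply_apply v) (g.symm_apply_apply w), ?_⟩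
    simp
  · rintro ⟨p, rfl⟩
    exact ⟨p.map g.toHom, by simp⟩

/-- equivariance of the parent map -/
lemma par_iso (hG : G.IsTree) (g : G ≃g G) {v w : V} (h : w ≠ v) :
    par G (g v) (g w) = g (par G v w) := by
  have hne : g w ≠ g v := fun e => h (g.injective e)
  have hp := par_spec hG.connected h
  have hq := par_spec hG.connected hne
  exact parent_unique hG hq.1 (g.map_adj_iff.mpr hp.1) hq.2
    (by rw [dist_iso, dist_iso]; exact hp.2)

lemma Wt_iso (hG : G.IsTree) (g : G ≃g G) (v w : V) :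
    Wt G θ (fun c p => m (g c) (g p)) v w = Wt G θ m (g v) (g w) := by
  apply bcast_induction (o := v) hG.connected
    (P := fun w => Wt G θ (fun c p => m (g c) (g p)) v w = Wt G θ m (g v) (g w))
  · simp
  · intro w hw ih
    have hne : g w ≠ g v := fun e => hw (g.injective e)
    rw [Wt_tail hG.connected hw, Wt_tail hG.connected hne, ih, par_iso hG g hw]

lemma isCavity_iso (hm : IsCavity G θ α m) (g : G ≃g G) :
    IsCavity G θ α (fun c p => m (g c) (g p)) where
  bound c p h := hm.bound _ _ (g.map_adj_iff.mpr h)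
  cons c p q hp hq := hm.cons _ _ _ (g.map_adj_iff.mpr hp) (g.map_adj_iff.mpr hq)

lemma mag_iso (hm : IsCavity G θ α m) (g : G ≃g G) (v : V) :
    mag G θ (fun c p => m (g c) (g p)) v = mag G θ m (g v) := by
  by_cases hex : ∃ p, G.Adj v p
  · obtain ⟨p, hp⟩ := hex
    rw [mag_eq (isCavity_iso hm g) hp, mag_eq hm (g.map_adj_iff.mpr hp)]
    rfl
  · have hex' : ¬ ∃ p, G.Adj (g v) p := by
      rintro ⟨p, hp⟩
      apply hex
      refine ⟨g.symm p, ?_⟩
      rw [← g.map_adj_iff, g.apply_symm_apply]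
      exact hp
    unfold mag
    rw [dif_neg hex, dif_neg hex']

lemma Cv_iso (hG : G.IsTree) (hm : IsCavity G θ α m) (g : G ≃g G) (v w : V) :
    Cv G θ (fun c p => m (g c) (g p)) v w = Cv G θ m (g v) (g w) := by
  unfold Cv
  rw [mag_iso hm g, Wt_iso hG g, dist_iso]

lemma Rf_iso (hG : G.IsTree) (g : G ≃g G) (v : V) :
    Rf G θ (fun c p => m (g c) (g p)) v = Rf G θ m (g v) := by
  unfold Rf
  rw [← Equiv.tsum_eq g.toEquiv
    (fun w => ENNReal.ofReal (θ ^ (2 * G.dist (g v) w) * Wt G θ m (g v) w))]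
  apply tsum_congr
  intro w
  rw [Wt_iso hG g]
  show _ = ENNReal.ofReal (θ ^ (2 * G.dist (g v) (g w)) * Wt G θ m (g v) (g w))
  rw [dist_iso]

lemma Rb_iso (hG : G.IsTree) (g : G ≃g G) {c p : V} (h : G.Adj c p) :
    Rb G θ (fun c p => m (g c) (g p)) c p = Rb G θ m (g c) (g p) := by
  unfold Rb
  rw [← Equiv.tsum_eq g.toEquiv
    (fun w => if G.dist w (g c) < G.dist w (g p) then
      ENNReal.ofReal (θ ^ (2 * G.dist (g c) w) * Wt G θ m (g c) w) else 0)]
  apply tsum_congr
  intro w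
  rw [Wt_iso hG g]
  show _ = if G.dist (g w) (g c) < G.dist (g w) (g p) then
    ENNReal.ofReal (θ ^ (2 * G.dist (g c) (g w)) * Wt G θ m (g c) (g w)) else 0
  rw [dist_iso, dist_iso, dist_iso]

lemma Rb2_iso (hG : G.IsTree) (g : G ≃g G) {c p : V} (h : G.Adj c p) :
    Rb2 G θ (fun c p => m (g c) (g p)) c p = Rb2 G θ m (g c) (g p) := by
  unfold Rb2
  rw [← Equiv.tsum_eq g.toEquiv
    (fun w => if G.dist w (g c) < G.dist w (g p) then
      ENNReal.ofReal (θ ^ (2 * G.dist (g c) w) * Wt G θ m (g c) w ^ 2) else 0)]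
  apply tsum_congr
  intro w
  rw [Wt_iso hG g]
  show _ = if G.dist (g w) (g c) < G.dist (g w) (g p) then
    ENNReal.ofReal (θ ^ (2 * G.dist (g c) (g w)) * Wt G θ m (g c) (g w) ^ 2) else 0
  rw [dist_iso, dist_iso, dist_iso]

end Iso

section Measurability

variable {V : Type*} {G : SimpleGraph V} [Countable V] {θ : ℝ}

lemma measurable_mag (v : V) : Measurable (fun m : V → V → ℝ => mag G θ m v) := by
  unfold mag
  by_cases hex : ∃ p, G.Adj v p
  · simp only [dif_pos hex, magE, comb]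
    have h1 : ∀ c p : V, Measurable (fun m : V → V → ℝ => m c p) := fun c p =>
      (measurable_pi_apply p).comp (measurable_pi_apply c)
    exact ((h1 _ _).add ((h1 _ _).const_mul θ)).div
      (((h1 _ _).mul ((h1 _ _).const_mul θ)).const_add 1)
  · simp only [dif_neg hex]
    exact measurable_const

lemma measurable_Wt (v w : V) : Measurable (fun m : V → V → ℝ => Wt G θ m v w) := by
  have h1 : ∀ c p : V, Measurable (fun m : V → V → ℝ => m c p) := fun c p =>
    (measurable_pi_apply p).comp (measurable_pi_apply c)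
  have hphi : Measurable (phi θ) := by
    unfold phi
    fun_prop
  have key : ∀ (n : ℕ) (w : V), Measurable (fun m : V → V → ℝ => WtAux G θ m v n w) := by
    intro n
    induction n with
    | zero => intro w; exact measurable_const
    | succ n ih =>
      intro w
      exact (ih _).mul (hphi.comp (h1 _ _))
  exact key _ w

lemma measurable_Cv (v w : V) : Measurable (fun m : V → V → ℝ => Cv G θ m v w) := by
  unfold Cv
  exact ((((measurable_mag v).pow_const 2).const_sub 1).mul_const _).mul (measurable_Wt v w)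

lemma measurable_Rf (v : V) : Measurable (fun m : V → V → ℝ => Rf G θ m v) := by
  unfold Rf
  apply Measurable.ennreal_tsum
  intro w
  exact ((measurable_Wt v w).const_mul _).ennreal_ofReal

lemma measurable_Rb (c p : V) : Measurable (fun m : V → V → ℝ => Rb G θ m c p) := by
  unfold Rb
  apply Measurable.ennreal_tsum
  intro w
  split_ifs
  · exact ((measurable_Wt c w).const_mul _).ennreal_ofReal
  · exact measurable_const

lemma measurable_Rb2 (c p : V) : Measurable (fun m : V → V → ℝ => Rb2 G θ m c p) := by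
  unfold Rb2
  apply Measurable.ennreal_tsum
  intro w
  split_ifs
  · exact (((measurable_Wt c w).pow_const 2).const_mul _).ennreal_ofReal
  · exact measurable_const

end Measurability

end Vale.Agent.P161c
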