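import Vale.Agent.P161c.ConvT
import Vale.Agent.P161c.Trans
import Vale.Agent.P161c.TreeAlg

/-!
Converse direction: invariance of the shares under automorphisms.
-/

set_option linter.unusedSectionVars false
set_option linter.unusedVariables false

namespace Vale.Agent.P161c

open MeasureTheory SimpleGraph Vale.Agent.H13.P161 Filter Topology

variable {V : Type*} [Countable V] [DecidableEq V] {G : SimpleGraph V}

omit [Countable V] in
/-- relabelling preserves the law of the labels -/
lemma mp_relab (e : V ≃ V) :
    MeasurePreserving (fun (U : V → unitInterval) (x : V) => U (e x)) (iidLabels V)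
      (iidLabels V) := by
  have hm : Measurable (fun (U : V → unitInterval) (x : V) => U (e x)) := by
    rw [measurable_pi_iff]
    intro x
    exact measurable_pi_apply (e x)
  refine ⟨hm, ?_⟩
  unfold iidLabels
  apply Measure.eq_infinitePi
  intro s t ht
  rw [Measure.map_apply hm (.pi s.countable_toSet fun _ _ ↦ ht _)]
  have hset : (fun (U : V → unitInterval) (x : V) => U (e x)) ⁻¹' ((s : Set V).pi t)
      = ((s.map e.toEmbedding : Finset V) : Set V).pi (fun y => t (e.symm y)) := by
    ext U
    simp only [Set.mem_preimage, Set.mem_pi, Finset.mem_coe, Finset.mem_map_equiv]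
    constructor
    · intro h y hy
      have := h (e.symm y) hy
      rwa [e.apply_symm_apply] at this
    · intro h x hx
      have := h (e x) (by rwa [e.symm_apply_apply])
      rwa [e.symm_apply_apply] at this
  rw [hset, Measure.infinitePi_pi _ (fun i _ => ht _), Finset.prod_map]
  apply Finset.prod_congr rfl
  intro x _
  change volume (t (e.symm (e x))) = volume (t x)
  rw [e.symm_apply_apply]

/-- conditional expectations are equivariant: for `f'` with `f' (U ∘ g⁻¹) = f U` almost surely,
`EA (g '' A) f' (U ∘ g⁻¹) = EA A f U` almost surely (`measurePreserving_mix`, invariance of `iidLabels`) -/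
lemma EA_equiv (g : G ≃g G) {f f' : (V → unitInterval) → ℝ} (hf : Nice f) (hf' : Nice f')
    (h : ∀ᵐ U ∂(iidLabels V), f' (fun x => U (g.symm x)) = f U) (A : Set V) :
    ∀ᵐ U ∂(iidLabels V), EA (g '' A) f' (fun x => U (g.symm x)) = EA A f U := by
  classical
  have mpT : MeasurePreserving (fun (U : V → unitInterval) (x : V) => U (g.symm x)) (iidLabels V)
      (iidLabels V) := mp_relab g.symm.toEquiv
  have mpM : MeasurePreserving (fun p : (V → unitInterval) × (V → unitInterval) => mix A p.2 p.1)
      ((iidLabels V).prod (iidLabels V)) (iidLabels V) := by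
    have h1 := measurePreserving_mix (fun _ : V => (volume : Measure unitInterval)) A
    exact h1.comp Measure.measurePreserving_swap
  have h2 : ∀ᵐ p ∂((iidLabels V).prod (iidLabels V)),
      f' (fun x => mix A p.2 p.1 (g.symm x)) = f (mix A p.2 p.1) :=
    mpM.quasiMeasurePreserving.ae h
  have h3 := Measure.ae_ae_of_ae_prod h2
  filter_upwards [h3] with U hU
  unfold EA
  have e1 : ∫ U', f' (mix (g '' A) U' (fun x => U (g.symm x))) ∂(iidLabels V)
      = ∫ U', f' (mix (g '' A) (fun x => U' (g.symm x)) (fun x => U (g.symm x)))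
          ∂(iidLabels V) := by
    have mF : Measurable (fun U' : V → unitInterval =>
        f' (mix (g '' A) U' (fun x => U (g.symm x)))) := by
      have m1 := measurable_mix (X := fun _ : V => unitInterval) (g '' A)
      have m2 : Measurable (fun U' : V → unitInterval =>
        ((U', (fun x => U (g.symm x))) : (V → unitInterval) × (V → unitInterval))) :=
        measurable_id.prodMk measurable_const
      exact hf'.1.comp (m1.comp m2)
    have := mpT.map_eq
    conv_lhs => rw [← this]
    rw [integral_map mpT.measurable.aemeasurable mF.aestronglyMeasurable]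
  rw [e1]
  apply integral_congr_ae
  filter_upwards [hU] with U' hU'
  rw [← hU']
  congr 1
  funext x
  by_cases hx : g.symm x ∈ A
  · have hx' : x ∈ g '' A := ⟨g.symm x, hx, by simp⟩
    simp only [mix, if_pos hx, if_pos hx']
  · have hx' : x ∉ g '' A := by
      rintro ⟨y, hy, rfl⟩
      apply hx
      simpa using hy
    simp only [mix, if_neg hx, if_neg hx']

lemma CA_equiv (g : G ≃g G) {f f' : (V → unitInterval) → ℝ} (hf : Nice f) (hf' : Nice f')
    (h : ∀ᵐ U ∂(iidLabels V), f' (fun x => U (g.symm x)) = f U) (A B : Set V) :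
    CA (g '' A) (EA (g '' B) f') (EA (g '' B) f') = CA A (EA B f) (EA B f) := by
  have mpT : MeasurePreserving (fun (U : V → unitInterval) (x : V) => U (g.symm x)) (iidLabels V)
      (iidLabels V) := mp_relab g.symm.toEquiv
  have h1 := EA_equiv g hf hf' h B
  have h2 := EA_equiv g (nice_EA hf B) (nice_EA hf' (g '' B)) h1 A
  have nE := nice_EA (nice_EA hf' (g '' B)) (g '' A)
  unfold CA
  have e1 : ∫ U, EA (g '' A) (EA (g '' B) f') U * EA (g '' A) (EA (g '' B) f') U ∂(iidLabels V)
      = ∫ U : V → unitInterval, EA (g '' A) (EA (g '' B) f') (fun x => U (g.symm x))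
          * EA (g '' A) (EA (g '' B) f') (fun x => U (g.symm x)) ∂(iidLabels V) := by
    have := mpT.map_eq
    conv_lhs => rw [← this]
    rw [integral_map mpT.measurable.aemeasurable (nE.mul nE).1.aestronglyMeasurable]
  rw [e1]
  apply integral_congr_ae
  filter_upwards [h2] with U hU
  rw [hU]

/-- invariance of the shares (also the times are relabelled) -/
lemma qsh_equiv (g : G ≃g G) {f f' : (V → unitInterval) → ℝ} (hf : Nice f) (hf' : Nice f')
    (h : ∀ᵐ U ∂(iidLabels V), f' (fun x => U (g.symm x)) = f U) (B B' : Finset V)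
    (hB : ∀ x, x ∈ B' ↔ g.symm x ∈ B) (x : V) :
    qsh B' (g x) (EA B' f') = qsh B x (EA B f) := by
  have mpT : MeasurePreserving (fun (U : V → unitInterval) (x : V) => U (g.symm x)) (iidLabels V)
      (iidLabels V) := mp_relab g.symm.toEquiv
  have hBB : (B' : Set V) = g '' (B : Set V) := by
    ext y
    simp only [Finset.mem_coe, Set.mem_image]
    rw [hB]
    constructor
    · intro hy
      exact ⟨g.symm y, hy, by simp⟩
    · rintro ⟨z, hz, rfl⟩
      simpa using hz
  have hle : ∀ t : V → unitInterval, leS B' (fun y => t (g.symm y)) (g x) = g '' leS B t x := by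
    intro t
    ext y
    simp only [leS, Set.mem_ofPred_eq, Set.mem_image]
    rw [hB]
    constructor
    · rintro ⟨h1, h2⟩
      refine ⟨g.symm y, ⟨h1, ?_⟩, by simp⟩
      simpa using h2
    · rintro ⟨z, ⟨h1, h2⟩, rfl⟩
      refine ⟨by simpa using h1, by simpa using h2⟩
  have hlt : ∀ t : V → unitInterval, ltS B' (fun y => t (g.symm y)) (g x) = g '' ltS B t x := by
    intro t
    ext y
    simp only [ltS, Set.mem_ofPred_eq, Set.mem_image]
    rw [hB]
    constructor
    · rintro ⟨h1, h2⟩
      refine ⟨g.symm y, ⟨h1, ?_⟩, by simp⟩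
      simpa using h2
    · rintro ⟨z, ⟨h1, h2⟩, rfl⟩
      refine ⟨by simpa using h1, by simpa using h2⟩
  unfold qsh
  have nn : Nice (fun t : V → unitInterval =>
      CA (leS B' t (g x)) (EA B' f') (EA B' f') - CA (ltS B' t (g x)) (EA B' f') (EA B' f')) :=
    (nice_order B' (g x) (fun A => CA A (EA B' f') (EA B' f'))).1.sub
      (nice_order B' (g x) (fun A => CA A (EA B' f') (EA B' f'))).2
  have e1 : ∫ t, (CA (leS B' t (g x)) (EA B' f') (EA B' f')
        - CA (ltS B' t (g x)) (EA B' f') (EA B' f')) ∂(iidLabels V)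
      = ∫ t : V → unitInterval, (CA (leS B' (fun y => t (g.symm y)) (g x)) (EA B' f') (EA B' f')
        - CA (ltS B' (fun y => t (g.symm y)) (g x)) (EA B' f') (EA B' f')) ∂(iidLabels V) := by
    have := mpT.map_eq
    conv_lhs => rw [← this]
    rw [integral_map mpT.measurable.aemeasurable nn.1.aestronglyMeasurable]
  rw [e1]
  congr 1
  funext t
  rw [hle, hlt, hBB, CA_equiv g hf hf' h, CA_equiv g hf hf' h]

/-- For an equivariant process `X` the share of `x` in the variance of `EA (ball v r) (X v)` is a
function of the distance of `v` and `x`, by two-point transitivity (`exists_iso_pair`). -/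
theorem exists_profile [LocallyFinite G] (hG : G.IsTree) {d : ℕ} (hd : 2 ≤ d)
    (hreg : ∀ v, G.degree v = d) {X : V → (V → unitInterval) → ℝ} (hX : ∀ v, Nice (X v))
    (hequiv : ∀ (g : G ≃g G) (v : V), ∀ᵐ U ∂(iidLabels V),
      X (g v) (fun x => U (g.symm x)) = X v U)
    (r : ℕ) (B : V → Finset V) (hB : ∀ v x, x ∈ B v ↔ G.dist v x ≤ r) :
    ∃ Q : ℕ → ℝ, (∀ n, 0 ≤ Q n) ∧
      ∀ v, ∀ x ∈ B v, qsh (B v) x (EA (B v) (X v)) = Q (G.dist v x) := by
  classical
  have key : ∀ v x v' x', G.dist v x = G.dist v' x' →
      qsh (B v) x (EA (B v) (X v)) = qsh (B v') x' (EA (B v') (X v')) := by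
    intro v x v' x' hd'
    obtain ⟨g, hgv, hgx⟩ := exists_iso_pair hG hd hreg hd'
    have h := hequiv g v
    rw [hgv] at h
    have hBB : ∀ y, y ∈ B v' ↔ g.symm y ∈ B v := by
      intro y
      rw [hB, hB, ← hgv]
      have : G.dist (g v) y = G.dist v (g.symm y) := by
        have := dist_iso g v (g.symm y)
        rw [← this]
        simp
      rw [this]
    have := qsh_equiv g (hX v) (hX v') h (B v) (B v') hBB x
    rw [hgx] at this
    exact this.symm
  refine ⟨fun n => if h : ∃ p : V × V, G.dist p.1 p.2 = n then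
    qsh (B h.choose.1) h.choose.2 (EA (B h.choose.1) (X h.choose.1)) else 0, ?_, ?_⟩
  · intro n
    beta_reduce
    split_ifs with h
    · exact qsh_nonneg (nice_EA (hX _) _) _ _
    · exact le_rfl
  · intro v x hx
    have h : ∃ p : V × V, G.dist p.1 p.2 = G.dist v x := ⟨(v, x), rfl⟩
    beta_reduce
    rw [dif_pos h]
    exact key v x _ _ h.choose_spec.symm

end Vale.Agent.P161c
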