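import Vale.Agent.H13.P161.Final

/-!
Converse direction: the two-point function of the free Ising measure.
-/

namespace Vale.Agent.P161c

open MeasureTheory SimpleGraph Vale.Agent.H13.P161

variable {V : Type*} {G : SimpleGraph V}

/-- `E σ_u σ_v = θ ^ dist`, by `EdgeFactor` across the last edge of the path (induction on the
distance, `bcast_induction`). -/
theorem two_point (hG : G.IsTree) {θ : ℝ} {μ : Measure (V → ℤˣ)} [IsProbabilityMeasure μ]
    (hμ : EdgeFactor G θ μ) (hmean : ∀ v, ∫ σ, spinVal (σ v) ∂μ = 0) (u v : V) :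
    ∫ σ, spinVal (σ u) * spinVal (σ v) ∂μ = θ ^ G.dist u v := by
  refine bcast_induction (G := G) (o := u)
    (P := fun v => ∫ σ, spinVal (σ u) * spinVal (σ v) ∂μ = θ ^ G.dist u v) hG.connected ?_ ?_ v
  · simp only [spinVal_mul_self]
    simp
  · intro w hw ih
    obtain ⟨hadj, hdist⟩ := par_spec hG.connected hw
    have h := hμ _ _ hadj.symm (fun σ => spinVal (σ u)) (fun σ => spinVal (σ w)) (nice_spin u)
      (nice_spin w) (fun σ σ' hσ => by rw [hσ u (by omega)]) (fun σ σ' hσ => by
        rw [hσ w (by
          rw [G.dist_self]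
          exact hG.connected.pos_dist_of_ne hadj.ne)])
    simp only [hmean, zero_mul, zero_add, spinVal_mul_self] at h
    rw [h, ih]
    simp only [integral_const, probReal_univ, smul_eq_mul, mul_one]
    rw [← pow_succ', hdist]

/-- mean zero from flip invariance -/
theorem mean_zero_of_flip {μ : Measure (V → ℤˣ)} [IsProbabilityMeasure μ]
    (hflip : μ.map (fun σ : V → ℤˣ => fun v => - σ v) = μ) (v : V) :
    ∫ σ, spinVal (σ v) ∂μ = 0 := by
  have mneg : Measurable (fun σ : V → ℤˣ => fun v => - σ v) := by
    rw [measurable_pi_iff]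
    intro v
    exact (measurable_of_finite (fun s : ℤˣ => -s)).comp (measurable_pi_apply v)
  have h : ∫ σ, spinVal (σ v) ∂μ = - ∫ σ, spinVal (σ v) ∂μ := by
    conv_lhs => rw [← hflip]
    rw [integral_map mneg.aemeasurable (nice_spin v).1.aestronglyMeasurable, ← integral_neg]
    congr 1
    ext σ
    simp [spinVal]
  linarith

end Vale.Agent.P161c
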