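import Mathlib

/-!
A convenient form of the upward martingale convergence theorem.
-/

namespace Vale.Agent.P161c

open MeasureTheory Filter Topology

/-- Versions of the conditional expectations of a bounded variable `X` along an increasing
sequence of sub-sigma-algebras converge almost surely to a version of the conditional expectation
given the generated sigma-algebra.  (`M n = P[X | 𝓕 n]` almost everywhere by
`ae_eq_condExp_of_integrable...`, then `tendsto_ae_condExp`.) -/
theorem levy_versions {Ω : Type*} [m0 : MeasurableSpace Ω] (P : Measure Ω) [IsProbabilityMeasure P]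
    (F : ℕ → MeasurableSpace Ω) (hF : Monotone F) (hle : ∀ n, F n ≤ m0)
    (X : Ω → ℝ) (hX : Measurable X) (B : ℝ) (hXb : ∀ ω, |X ω| ≤ B)
    (M : ℕ → Ω → ℝ) (hM : ∀ n, Measurable[F n] (M n)) (hMb : ∀ n ω, |M n ω| ≤ B)
    (hMt : ∀ n, ∀ s : Set Ω, MeasurableSet[F n] s → ∫ ω in s, X ω ∂P = ∫ ω in s, M n ω ∂P)
    (N : Ω → ℝ) (hN : Measurable[⨆ n, F n] N) (hNb : ∀ ω, |N ω| ≤ B)
    (hNt : ∀ s : Set Ω, MeasurableSet[⨆ n, F n] s → ∫ ω in s, X ω ∂P = ∫ ω in s, N ω ∂P) :
    ∀ᵐ ω ∂P, Tendsto (fun n => M n ω) atTop (𝓝 (N ω)) := by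
  let ℱ : Filtration ℕ m0 := ⟨F, hF, hle⟩
  have hXi : Integrable X P :=
    Integrable.of_bound hX.aestronglyMeasurable B (Eventually.of_forall fun ω => hXb ω)
  have hsup : (⨆ n, F n) ≤ m0 := iSup_le hle
  have hMe : ∀ n, M n =ᵐ[P] P[X | F n] := by
    intro n
    have hMi : Integrable (M n) P :=
      Integrable.of_bound ((hM n).mono (hle n) le_rfl).aestronglyMeasurable B
        (Eventually.of_forall fun ω => hMb n ω)
    exact ae_eq_condExp_of_forall_setIntegral_eq (hle n) hXi (fun s _ _ => hMi.integrableOn)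
      (fun s hs _ => (hMt n s hs).symm) (hM n).stronglyMeasurable.aestronglyMeasurable
  have hNe : N =ᵐ[P] P[X | ⨆ n, F n] := by
    have hNi : Integrable N P :=
      Integrable.of_bound (hN.mono hsup le_rfl).aestronglyMeasurable B
        (Eventually.of_forall fun ω => hNb ω)
    exact ae_eq_condExp_of_forall_setIntegral_eq hsup hXi (fun s _ _ => hNi.integrableOn)
      (fun s hs _ => (hNt s hs).symm) hN.stronglyMeasurable.aestronglyMeasurable
  have hconv := tendsto_ae_condExp (μ := P) (ℱ := ℱ) X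
  filter_upwards [hconv, ae_all_iff.2 hMe, hNe] with ω h1 h2 h3
  rw [h3]
  have : (fun n => M n ω) = fun n => (P[X | ℱ n]) ω := by
    funext n
    exact h2 n
  rw [this]
  exact h1

/-- the variant for sigma-algebras generated by measurable maps with values in `E`, with test
functions -/
theorem levy_maps {Ω E : Type*} [MeasurableSpace Ω] [MeasurableSpace E] (P : Measure Ω)
    [IsProbabilityMeasure P]
    (f : ℕ → Ω → E) (hf : ∀ n, Measurable (f n)) (hmono : ∀ n, ∃ g : E → E, Measurable g ∧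
      f n = g ∘ f (n + 1))
    (f' : Ω → E) (hf' : Measurable f') (hf'n : ∀ n, ∃ g : E → E, Measurable g ∧ f n = g ∘ f')
    (hgen : MeasurableSpace.comap f' inferInstance ≤ ⨆ n, MeasurableSpace.comap (f n) inferInstance)
    (X : Ω → ℝ) (hX : Measurable X) (B : ℝ) (hXb : ∀ ω, |X ω| ≤ B)
    (M : ℕ → E → ℝ) (hM : ∀ n, Measurable (M n)) (hMb : ∀ n e, |M n e| ≤ B)
    (hMt : ∀ n, ∀ k : E → ℝ, Measurable k → (∀ e, |k e| ≤ 1) →
      ∫ ω, k (f n ω) * X ω ∂P = ∫ ω, k (f n ω) * M n (f n ω) ∂P)
    (N : E → ℝ) (hN : Measurable N) (hNb : ∀ e, |N e| ≤ B)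
    (hNt : ∀ k : E → ℝ, Measurable k → (∀ e, |k e| ≤ 1) →
      ∫ ω, k (f' ω) * X ω ∂P = ∫ ω, k (f' ω) * N (f' ω) ∂P) :
    ∀ᵐ ω ∂P, Tendsto (fun n => M n (f n ω)) atTop (𝓝 (N (f' ω))) := by
  have comp_le : ∀ (g : E → E) (h h' : Ω → E), Measurable g → h = g ∘ h' →
      MeasurableSpace.comap h inferInstance ≤ MeasurableSpace.comap h' inferInstance := by
    intro g h h' hg e
    rw [e, ← MeasurableSpace.comap_comp]
    exact MeasurableSpace.comap_mono hg.comap_le
  have test : ∀ (h : Ω → E), Measurable h → ∀ Y : Ω → ℝ,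
      (∀ k : E → ℝ, Measurable k → (∀ e, |k e| ≤ 1) →
        ∫ ω, k (h ω) * X ω ∂P = ∫ ω, k (h ω) * Y ω ∂P) →
      ∀ s : Set Ω, MeasurableSet[MeasurableSpace.comap h inferInstance] s →
        ∫ ω in s, X ω ∂P = ∫ ω in s, Y ω ∂P := by
    rintro h hh Y hk s ⟨t, ht, rfl⟩
    have h1 := hk (t.indicator (fun _ => 1)) (measurable_const.indicator ht) (by
      intro e
      by_cases he : e ∈ t <;> simp [he])
    have hm : MeasurableSet (h ⁻¹' t) := hh ht
    have e1 : ∀ Z : Ω → ℝ, (fun ω => t.indicator (fun _ => (1 : ℝ)) (h ω) * Z ω) =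
        (h ⁻¹' t).indicator Z := by
      intro Z
      funext ω
      by_cases he : h ω ∈ t
      · have : ω ∈ h ⁻¹' t := he
        simp [he, this]
      · have : ω ∉ h ⁻¹' t := he
        simp [he, this]
    rw [e1 X, e1 Y, integral_indicator hm, integral_indicator hm] at h1
    exact h1
  refine levy_versions P (fun n => MeasurableSpace.comap (f n) inferInstance) ?_ ?_ X hX B hXb
    (fun n ω => M n (f n ω)) ?_ (fun n ω => hMb n _) ?_ (fun ω => N (f' ω)) ?_ (fun ω => hNb _) ?_
  · apply monotone_nat_of_le_succ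
    intro n
    obtain ⟨g, hg, e⟩ := hmono n
    exact comp_le g _ _ hg e
  · intro n
    exact (hf n).comap_le
  · intro n
    exact (hM n).comp (comap_measurable (f n))
  · intro n s hs
    exact test (f n) (hf n) _ (hMt n) s hs
  · have h1 : Measurable[MeasurableSpace.comap f' inferInstance] (fun ω => N (f' ω)) :=
      hN.comp (comap_measurable f')
    exact h1.mono hgen le_rfl
  · intro s hs
    apply test f' hf' _ hNt s
    have : (⨆ n, MeasurableSpace.comap (f n) inferInstance) ≤
        MeasurableSpace.comap f' inferInstance := by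
      apply iSup_le
      intro n
      obtain ⟨g, hg, e⟩ := hf'n n
      exact comp_le g _ _ hg e
    exact this s hs

end Vale.Agent.P161c
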