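import Vale.Agent.P161c.ConvA
import Vale.Agent.P161c.Levy

/-!
Converse direction: local approximation.
-/

set_option linter.unusedSectionVars false
set_option linter.unusedVariables false

namespace Vale.Agent.P161c

open MeasureTheory SimpleGraph Vale.Agent.H13.P161 Filter Topology

variable {V : Type*} [Countable V] [DecidableEq V]

open Classical in
/-- labels outside `B` replaced by `0` -/
noncomputable def mk0 (B : Finset V) (U : V → unitInterval) : V → unitInterval :=
  fun x => if x ∈ B then U x else 0

omit [Countable V] in
lemma measurable_mk0 (B : Finset V) : Measurable (mk0 B) := by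
  classical
  rw [measurable_pi_iff]
  intro x
  by_cases h : x ∈ B
  · simp only [mk0, if_pos h]
    exact measurable_pi_apply x
  · simp only [mk0, if_neg h]
    exact measurable_const

/-- `levy_maps` with `f n U` equal to `U` on `B n` and `0` elsewhere, `f' = id`, `M n = EA (B n) f` -/
lemma EA_tendsto {f : (V → unitInterval) → ℝ} (hf : Nice f) {B : ℕ → Finset V} (hB : Monotone B)
    (hBu : ∀ v, ∃ n, v ∈ B n) :
    ∀ᵐ U ∂(iidLabels V), Tendsto (fun n => EA (B n) f U) atTop (𝓝 (f U)) := by
  obtain ⟨C, hC⟩ := hf.2
  have hEb : ∀ n U, |EA (B n : Set V) f U| ≤ C := by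
    intro n U
    unfold EA
    calc |∫ U', f _ ∂(iidLabels V)| ≤ ∫ U', |f _| ∂(iidLabels V) := abs_integral_le_integral_abs
      _ ≤ ∫ _U', C ∂(iidLabels V) := by
          apply integral_mono_of_nonneg (Eventually.of_forall (fun _ => abs_nonneg _))
            (integrable_const _) (Eventually.of_forall (fun _ => hC _))
      _ = C := by simp
  have hEmk : ∀ n U, EA (B n : Set V) f (mk0 (B n) U) = EA (B n : Set V) f U := by
    intro n U
    apply EA_congr
    intro x hx
    simp only [mk0]
    rw [if_pos (Finset.mem_coe.mp hx)]
  have h := levy_maps (iidLabels V) (fun n => mk0 (B n)) (fun n => measurable_mk0 (B n))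
    (fun n => ⟨mk0 (B n), measurable_mk0 (B n), by
      funext U
      ext x
      simp only [mk0, Function.comp]
      by_cases hx : x ∈ B n
      · rw [if_pos hx, if_pos hx, if_pos (hB (Nat.le_succ n) hx)]
      · rw [if_neg hx, if_neg hx]⟩)
    id measurable_id (fun n => ⟨mk0 (B n), measurable_mk0 (B n), rfl⟩)
    (by
      rw [MeasurableSpace.comap_id]
      refine iSup_le (fun x => ?_)
      obtain ⟨n, hn⟩ := hBu x
      refine le_trans ?_ (le_iSup (fun n => MeasurableSpace.comap (mk0 (B n)) inferInstance) n)
      have e : (fun U : V → unitInterval => U x)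
          = (fun W : V → unitInterval => W x) ∘ mk0 (B n) := by
        funext U
        simp only [mk0, Function.comp, if_pos hn]
      rw [e, ← MeasurableSpace.comap_comp]
      exact MeasurableSpace.comap_mono (measurable_pi_apply x).comap_le)
    f hf.1 C hC
    (fun n => EA (B n : Set V) f) (fun n => (nice_EA hf _).1) hEb
    (fun n k hk hk1 => by
      have nk : Nice (fun U => k (mk0 (B n) U)) := ⟨hk.comp (measurable_mk0 _), 1, fun U => hk1 _⟩
      have e0 : ∀ U, EA (B n : Set V) (fun U => k (mk0 (B n) U)) U = k (mk0 (B n) U) := by
        intro U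
        unfold EA
        calc _ = ∫ _U' : V → unitInterval, k (mk0 (B n) U) ∂(iidLabels V) := by
              refine integral_congr_ae (Eventually.of_forall (fun U' => ?_))
              beta_reduce
              have em : ∀ (W W' : V → unitInterval), (∀ x ∈ B n, W x = W' x) →
                  mk0 (B n) W = mk0 (B n) W' := by
                intro W W' hW
                funext x
                by_cases hx : x ∈ B n
                · simp only [mk0, if_pos hx]
                  exact hW x hx
                · simp only [mk0, if_neg hx]
              apply congrArg k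
              apply em
              intro x hx
              simp [mix, hx]
          _ = _ := by simp
      have e1 := integral_EA_mul nk hf (A := (B n : Set V)) (A' := Set.univ) (Set.subset_univ _)
      simp only [e0, EA_univ] at e1
      simp only [hEmk]
      rw [e1]
      unfold CA
      simp only [e0])
    f hf.1 hC (fun k _ _ => rfl)
  simp only [hEmk, id] at h
  exact h

theorem cov_tendsto {f g : (V → unitInterval) → ℝ} (hf : Nice f) (hg : Nice g)
    {B B' : ℕ → Finset V} (hB : Monotone B) (hBu : ∀ v, ∃ n, v ∈ B n)
    (hB' : Monotone B') (hBu' : ∀ v, ∃ n, v ∈ B' n) :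
    Tendsto (fun n => ∫ U, EA (B n) f U * EA (B' n) g U ∂(iidLabels V)) atTop
      (𝓝 (∫ U, f U * g U ∂(iidLabels V))) := by
  have hEb : ∀ (f : (V → unitInterval) → ℝ) (C : ℝ), (∀ U, |f U| ≤ C) → ∀ (A : Set V) U,
      |EA A f U| ≤ C := by
    intro f C hC A U
    unfold EA
    calc |∫ U', f _ ∂(iidLabels V)| ≤ ∫ U', |f _| ∂(iidLabels V) := abs_integral_le_integral_abs
      _ ≤ ∫ _U', C ∂(iidLabels V) := by
          apply integral_mono_of_nonneg (Eventually.of_forall (fun _ => abs_nonneg _))
            (integrable_const _) (Eventually.of_forall (fun _ => hC _))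
      _ = C := by simp
  obtain ⟨C, hC⟩ := hf.2
  obtain ⟨D, hD⟩ := hg.2
  apply tendsto_integral_of_dominated_convergence (fun _ => |C| * |D|)
  · intro n
    exact ((nice_EA hf _).mul (nice_EA hg _)).1.aestronglyMeasurable
  · exact integrable_const _
  · intro n
    apply Eventually.of_forall
    intro U
    rw [Real.norm_eq_abs, abs_mul]
    apply mul_le_mul
    · exact (hEb f C hC _ U).trans (le_abs_self C)
    · exact (hEb g D hD _ U).trans (le_abs_self D)
    · exact abs_nonneg _
    · exact abs_nonneg _
  · filter_upwards [EA_tendsto hf hB hBu, EA_tendsto hg hB' hBu'] with U h1 h2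
    exact h1.mul h2

end Vale.Agent.P161c
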