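import Vale.Agent.P161c.Flow
import Vale.Agent.H13.P161.Assemble

/-!
Decoding: if the observations are determined by labels and innovations, the spin measure is a
factor of IID.
-/

namespace Vale.Agent.P161c

open MeasureTheory SimpleGraph Vale.Agent.H13.P161 Filter Topology ProbabilityTheory

lemma integral_str_one : ∫ u : unitInterval, str 1 u = 1 / 4 := by
  have h0 : ∀ u : unitInterval, str 1 u = if (u : ℝ) < 1 / 2 then (1 / 2 : ℝ) else 0 := by
    intro u
    unfold str
    simp
  simp only [h0]
  rw [integral_unitInterval (fun x => if x < 1 / 2 then (1 / 2 : ℝ) else 0)]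
  have h1 : ∀ x : ℝ, (if x < 1 / 2 then (1 / 2 : ℝ) else 0)
      = (Set.Iio (1 / 2 : ℝ)).indicator (fun _ => (1 / 2 : ℝ)) x := by
    intro x
    by_cases h : x < 1 / 2
    · rw [if_pos h, Set.indicator_of_mem (Set.mem_Iio.mpr h)]
    · rw [if_neg h, Set.indicator_of_notMem (by simpa using h)]
  simp only [h1]
  rw [setIntegral_indicator measurableSet_Iio]
  have h2 : Set.Icc (0 : ℝ) 1 ∩ Set.Iio (1 / 2) = Set.Ico 0 (1 / 2) := by
    ext x
    simp only [Set.mem_inter_iff, Set.mem_Icc, Set.mem_Iio, Set.mem_Ico]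
    constructor
    · rintro ⟨⟨a, _⟩, b⟩; exact ⟨a, b⟩
    · rintro ⟨a, b⟩; exact ⟨⟨a, by linarith⟩, b⟩
  rw [h2, integral_Ico_eq_integral_Ioo, ← integral_Ioc_eq_integral_Ioo,
    ← intervalIntegral.integral_of_le (by norm_num)]
  rw [intervalIntegral.integral_const]
  norm_num

lemma str_succ (k : ℕ) (u : unitInterval) : str (k + 1) u = str 1 u := by
  unfold str
  simp

/-- average of the observations of one vertex: for `k ≥ 1` the observation `(k, v)` has mean
`spin / 12` (strength `1/2` with probability `1/2`, `integral_Qc_mean`), and the family over `k ≥ 1`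
is i.i.d. under labels and noise (strong law as in `slln`). -/
lemma slln_cs {V : Type*} [DecidableEq V] (v : V) (s : ℤˣ) :
    ∀ᵐ p ∂((iidLabels (Site V)).prod (iidLabels (Site V))),
      Tendsto (fun n : ℕ => (∑ k ∈ Finset.range n, Qc (cs p.1 (k, v) * spinVal s) (p.2 (k, v))) / n)
        atTop (𝓝 (spinVal s / 12)) := by
  have mspl : Measurable (splitCfg : (V × (ℕ × Bool) → unitInterval) → Om V) :=
    measurable_splitCfg
  have hmap := map_splitCfg (V := V)
  -- the summand
  set h : unitInterval × unitInterval → ℝ := fun z => Qc (str 1 z.1 * spinVal s) z.2 with hh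
  have mh : Measurable h := measurable_Qc.comp
    ((((measurable_str 1).comp measurable_fst).mul_const _).prodMk
      (measurable_coe_unit.comp measurable_snd))
  have bh : ∀ z, |h z| ≤ 1 := fun z =>
    abs_Qc_le (abs_cmul_lt (abs_str_le 1 z.1) s) z.2.2.1 z.2.2.2
  have nh : Nice h := ⟨mh, 1, bh⟩
  -- strong law on the space of all labels
  set Q := iidLabels (V × (ℕ × Bool)) with hQ
  have instQ : IsProbabilityMeasure Q := by rw [hQ]; unfold iidLabels; infer_instance
  set a : ℕ → V × (ℕ × Bool) := fun k => (v, (k, false)) with ha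
  set b : ℕ → V × (ℕ × Bool) := fun k => (v, (k, true)) with hb
  have hab : ∀ i, a i ≠ b i := by
    intro i h
    simp [ha, hb] at h
  have hind : iIndepFun (fun (i : V × (ℕ × Bool)) (w : V × (ℕ × Bool) → unitInterval) => w i) Q :=
    iIndepFun_infinitePi (P := fun _ : V × (ℕ × Bool) => (volume : Measure unitInterval))
      (X := fun _ x => x) (fun _ => measurable_id)
  have hlaw : ∀ i, Q.map (fun w => (w (a i), w (b i)))
      = (volume : Measure unitInterval).prod volume := fun i =>
    Measure.infinitePi_map_eval_prod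
      (P := fun _ : V × (ℕ × Bool) => (volume : Measure unitInterval)) (hab i)
  have mpair : ∀ i, Measurable (fun w : V × (ℕ × Bool) → unitInterval => (w (a i), w (b i))) :=
    fun i => (measurable_pi_apply _).prodMk (measurable_pi_apply _)
  have hpw : Pairwise (fun i j => IndepFun (fun w => h (w (a i), w (b i)))
      (fun w => h (w (a j), w (b j))) Q) := by
    intro i j hij
    have h1 := hind.indepFun_prodMk_prodMk (fun i => measurable_pi_apply i) (a i) (b i) (a j) (b j)
      (by simp [ha, hij]) (by simp [ha, hb]) (by simp [ha, hb]) (by simp [hb, hij])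
    exact h1.comp mh mh
  have hid : ∀ i, IdentDistrib (fun w => h (w (a i), w (b i))) (fun w => h (w (a 0), w (b 0)))
      Q Q := by
    intro i
    refine ⟨(mh.comp (mpair i)).aemeasurable, (mh.comp (mpair 0)).aemeasurable, ?_⟩
    have e : ∀ i, Q.map (fun w => h (w (a i), w (b i)))
        = ((volume : Measure unitInterval).prod volume).map h := by
      intro i
      rw [← hlaw i, Measure.map_map mh (mpair i)]
      rfl
    rw [e, e]
  have hsl := strong_law_ae_real (μ := Q) (fun k w => h (w (a k), w (b k)))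
    ((nh.comp (mpair 0)).integrable _) hpw hid
  have hmean : ∫ w, h (w (a 0), w (b 0)) ∂Q = spinVal s / 12 := by
    have e1 : ∫ x, h x ∂(Q.map (fun w => (w (a 0), w (b 0))))
        = ∫ w, h (w (a 0), w (b 0)) ∂Q :=
      integral_map (mpair 0).aemeasurable mh.aestronglyMeasurable
    rw [← e1, hlaw 0, nh.integral_prod]
    have e2 : ∀ x : unitInterval, ∫ y : unitInterval, h (x, y) = str 1 x * (spinVal s / 3) := by
      intro x
      simp only [hh]
      rw [integral_Qc_mean (abs_cmul_lt (abs_str_le 1 x) s)]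
      ring
    simp only [e2]
    rw [integral_mul_const, integral_str_one]
    ring
  rw [hmean] at hsl
  -- transfer
  have hPP : (iidLabels (Site V)).prod (iidLabels (Site V)) = Q.map splitCfg := hmap.symm
  rw [hPP]
  have mset : MeasurableSet {p : Om V | Tendsto (fun n : ℕ =>
      (∑ k ∈ Finset.range n, Qc (cs p.1 (k, v) * spinVal s) (p.2 (k, v))) / n)
        atTop (𝓝 (spinVal s / 12))} := by
    refine measurableSet_tendsto _ (fun n => ?_)
    refine (Finset.measurable_sum _ (fun k _ => ?_)).div_const _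
    refine measurable_Qc.comp (Measurable.prodMk ?_ ?_)
    · exact (((measurable_str k).comp ((measurable_pi_apply (k, v)).comp measurable_fst))).mul_const _
    · exact measurable_coe_unit.comp ((measurable_pi_apply (k, v)).comp measurable_snd)
  rw [ae_map_iff mspl.aemeasurable mset]
  filter_upwards [hsl] with w hw
  -- the first term is different
  set Z : ℕ → ℝ := fun k => Qc (cs (splitCfg w).1 (k, v) * spinVal s) ((splitCfg w).2 (k, v))
    with hZ
  have hZk : ∀ k, 1 ≤ k → Z k = h (w (a k), w (b k)) := by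
    intro k hk
    obtain ⟨j, rfl⟩ : ∃ j, k = j + 1 := ⟨k - 1, by omega⟩
    simp only [hZ, hh, cs]
    rw [str_succ]
    rfl
  have h1 : Tendsto (fun n : ℕ => (Z 0 - h (w (a 0), w (b 0))) / (n : ℝ)) atTop (𝓝 0) :=
    tendsto_const_div_atTop_nhds_zero_nat _
  have h2 := hw.add h1
  rw [add_zero] at h2
  refine h2.congr' ?_
  filter_upwards [eventually_ge_atTop 1] with n hn
  have h3 : ∑ k ∈ Finset.range n, Z k = ∑ k ∈ Finset.range n, h (w (a k), w (b k))
      + (Z 0 - h (w (a 0), w (b 0))) := by
    obtain ⟨m, rfl⟩ : ∃ m, n = m + 1 := ⟨n - 1, by omega⟩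
    rw [Finset.sum_range_succ', Finset.sum_range_succ' (fun k => h (w (a k), w (b k)))]
    rw [Finset.sum_congr rfl (fun k _ => hZk (k + 1) (by omega))]
    ring
  change _ = (∑ k ∈ Finset.range n, Z k) / n
  rw [h3]
  ring

/-- the decoder `dec` of `H13/P161/Assemble.lean` recovers the spins (compare `dec_Obs`) -/
lemma dec_obsR {V : Type*} [DecidableEq V] [Countable V] {μ : Measure (V → ℤˣ)}
    [IsProbabilityMeasure μ] :
    ∀ᵐ q ∂(AM μ), dec (obsR (cs q.1) q.2.1 q.2.2) = q.2.1 := by
  have h1 : ∀ᵐ p ∂((iidLabels (Site V)).prod (iidLabels (Site V))), ∀ v : V, ∀ s : ℤˣ,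
      Tendsto (fun n : ℕ => (∑ k ∈ Finset.range n, Qc (cs p.1 (k, v) * spinVal s) (p.2 (k, v))) / n)
        atTop (𝓝 (spinVal s / 12)) := by
    rw [ae_all_iff]
    intro v
    rw [ae_all_iff]
    intro s
    exact slln_cs v s
  have hmp : MeasurePreserving (Prod.map id Prod.snd :
      (Site V → unitInterval) × ((V → ℤˣ) × (Site V → unitInterval)) →
        (Site V → unitInterval) × (Site V → unitInterval)) (AM μ)
      ((iidLabels (Site V)).prod (iidLabels (Site V))) := by
    unfold AM BM
    exact (MeasurePreserving.id (iidLabels (Site V))).prod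
      (measurePreserving_snd (μ := μ) (ν := iidLabels (Site V)))
  have h2 := hmp.quasiMeasurePreserving.ae h1
  filter_upwards [h2] with q hq
  ext1 v
  have h3 := hq v (q.2.1 v)
  have h3' : Tendsto (fun n : ℕ => (∑ k ∈ Finset.range n, obsR (cs q.1) q.2.1 q.2.2 (k, v)) / n)
      atTop (𝓝 (spinVal (q.2.1 v) / 12)) := h3
  unfold dec
  rcases Int.units_eq_one_or (q.2.1 v) with hs | hs
  · rw [if_pos, hs]
    have hpos : 0 < spinVal (q.2.1 v) / 12 := by
      rw [hs]; simp [spinVal]
    filter_upwards [(tendsto_order.mp h3').1 0 hpos, eventually_gt_atTop 0] with n hn hn0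
    have hn' : (0 : ℝ) < n := by exact_mod_cast hn0
    exact (div_pos_iff_of_pos_right hn').mp hn
  · rw [if_neg, hs]
    intro hcon
    have hneg : spinVal (q.2.1 v) / 12 < 0 := by
      rw [hs]
      have : spinVal (-1) = -1 := by simp [spinVal]
      rw [this]
      norm_num
    have h4 := (tendsto_order.mp h3').2 0 hneg
    obtain ⟨n, hn1, hn2, hn3⟩ := (h4.and (hcon.and (eventually_gt_atTop 0))).exists
    have hn' : (0 : ℝ) < n := by exact_mod_cast hn3
    have : 0 < (∑ k ∈ Finset.range n, obsR (cs q.1) q.2.1 q.2.2 (k, v)) / n :=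
      div_pos hn2 hn'
    linarith

/-- the bounded coordinate functions -/
noncomputable def Fi {V : Type*} (i : Site V) (q : Om V × (Site V → ℝ)) : ℝ := cl (q.2 i)

lemma nice_Fi {V : Type*} (i : Site V) : Nice (Fi i) := by
  refine ⟨measurable_cl.comp ((measurable_pi_apply i).comp measurable_snd), 1, fun q => ?_⟩
  unfold Fi
  exact abs_cl_le _

/-- Determined observations give a factor of IID.
Proof.  Put `F i q = cl (q.2 i)` (`|q.2 i| ≤ 1` almost surely under `QM`, `abs_obsR_le`; `cl y = y`
for `|y| ≤ 1`) and `Φ o i = hatF (QM μ T) (F i) o`.  By `hdet`, `integral_relP_hat`, `integral_relP_mul`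
(`∫ F(q.1,q.2.1) F(q.1,q.2.2) d relP = ∫ hat² d Q.fst` and it equals `∫ F² dQ` since the two copies are
equal, `integral_relP_left`), `∫ (F i - Φ · i)² dQ = 0`, so `q.2 = Φ q.1` for `QM`-almost every `q`.
Hence with `Ψ = Φ`, `(PP V).map Ψ` is the law of the observations (`QM_fst`), `dec ∘ Ψ` has law `μ` by
`dec_obsR`, and equivariance follows from `hatF_equiv` with `hinv` (apply with `τ = (actS g, actS g)`,
`τ'` the same for `g.symm`, `ρ = actS g`).  Coding of all randomness by one label per vertex:
`exists_coding` (as in `factor_of_edgeFactor`, whose proof can be followed closely; `act2 g` there is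
the action of `g.symm` here). -/
theorem factor_of_determined {V : Type*} [DecidableEq V] [Countable V] [Nonempty V]
    {G : SimpleGraph V} {μ : Measure (V → ℤˣ)} [IsProbabilityMeasure μ] {T : ℕ → Finset V}
    (hT : Monotone T) (hTu : ∀ v, ∃ n, v ∈ T n)
    (hinv : ∀ g : G ≃g G, (QM μ T).map (actQ g) = QM μ T)
    (hdet : ∀ᵐ q ∂(relP (QM μ T)), q.2.1 = q.2.2) : IsFactorOfIID G μ := by
  set Q := QM μ T with hQdef
  set Ψ : Om V → (Site V → ℝ) := fun o i => hatF Q (Fi i) o with hΨ
  have nΨ : ∀ i, Nice (fun o => Ψ o i) := fun i => nice_hatF (nice_Fi i)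
  have mΨ : Measurable Ψ := measurable_pi_lambda _ fun i => (nΨ i).1
  -- the clipped observations are determined
  have h1 : ∀ i, ∀ᵐ q ∂Q, Fi i q = Ψ q.1 i := by
    intro i
    have n1 := nice_Fi i
    have n2 : Nice (fun q : Om V × (Site V → ℝ) => Ψ q.1 i) := (nΨ i).comp measurable_fst
    have e1 : ∫ q, Fi i q * Ψ q.1 i ∂Q = ∫ q, Fi i q ^ 2 ∂Q := by
      have h2 := integral_relP_hat (Q := Q) n1 n1
      have h3 := integral_relP_left (Q := Q) (n1.pow 2)
      have h4 : ∫ q, Fi i (q.1, q.2.1) * Fi i (q.1, q.2.2) ∂(relP Q)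
          = ∫ q, Fi i (q.1, q.2.1) ^ 2 ∂(relP Q) := by
        apply integral_congr_ae
        filter_upwards [hdet] with q hq
        rw [← hq]
        ring
      rw [← h2, h4, h3]
    have e2 : ∫ q, Ψ q.1 i ^ 2 ∂Q = ∫ q, Fi i q ^ 2 ∂Q := by
      have h2 := integral_Q_mul (Q := Q) n1 (nΨ i)
      have h3 : ∫ q, Ψ q.1 i ^ 2 ∂Q = ∫ o, Ψ o i ^ 2 ∂Q.fst := by
        unfold Measure.fst
        rw [integral_map measurable_fst.aemeasurable
          ((nΨ i).pow 2).1.aestronglyMeasurable]
      rw [h3, ← e1, h2]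
      congr 1
      ext o
      simp only [hΨ]
      ring
    have e3 : ∫ q, (Fi i q - Ψ q.1 i) ^ 2 ∂Q = 0 := by
      have h2 : ∀ q, (Fi i q - Ψ q.1 i) ^ 2
          = (Fi i q ^ 2 + Ψ q.1 i ^ 2) - 2 * (Fi i q * Ψ q.1 i) := fun q => by ring
      simp only [h2]
      rw [((n1.pow 2).add (n2.pow 2)).integral_sub' ((Nice.const 2).mul (n1.mul n2)),
        (n1.pow 2).integral_add' (n2.pow 2), integral_const_mul, e1, e2]
      ring
    rw [integral_eq_zero_iff_of_nonneg (fun q => sq_nonneg _)
      (((n1.sub n2).pow 2).integrable Q)] at e3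
    filter_upwards [e3] with q hq
    have h3 : (Fi i q - Ψ q.1 i) ^ 2 = 0 := hq
    have h4 : Fi i q - Ψ q.1 i = 0 := by simpa using h3
    linarith
  -- the observations are bounded by one
  have h2 : ∀ᵐ q ∂Q, ∀ i, cl (q.2 i) = q.2 i := by
    rw [ae_all_iff]
    intro i
    rw [hQdef]
    unfold QM
    have mset : MeasurableSet {q : Om V × (Site V → ℝ) | cl (q.2 i) = q.2 i} :=
      measurableSet_eq_fun (measurable_cl.comp ((measurable_pi_apply i).comp measurable_snd))
        ((measurable_pi_apply i).comp measurable_snd)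
    rw [ae_map_iff measurable_toQ.aemeasurable mset]
    refine ae_of_all _ fun q => ?_
    exact cl_of_abs_le (abs_obsR_le (abs_cs_le q.1) q.2.1 q.2.2 i)
  have h3 : ∀ᵐ q ∂Q, q.2 = Ψ q.1 := by
    have h1' : ∀ᵐ q ∂Q, ∀ i, Fi i q = Ψ q.1 i := ae_all_iff.2 h1
    filter_upwards [h1', h2] with q hq1 hq2
    ext i
    rw [← hq1 i]
    exact (hq2 i).symm
  have hfst : Q.fst = PP V := QM_fst hT hTu
  obtain ⟨cod, mcod, hcod, hcodg⟩ := exists_coding V
  refine ⟨fun u => dec (Ψ (cod u)), ?_, ?_, ?_⟩
  · exact measurable_dec.comp (mΨ.comp mcod)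
  · have e1 : (iidLabels V).map (fun u => dec (Ψ (cod u)))
        = ((iidLabels V).map cod).map (fun o => dec (Ψ o)) := by
      have mdΨ : Measurable (fun o => dec (Ψ o)) := measurable_dec.comp mΨ
      rw [Measure.map_map mdΨ mcod]
      rfl
    have e2 : (Q.fst).map (fun o => dec (Ψ o)) = Q.map (fun q => dec (Ψ q.1)) := by
      unfold Measure.fst
      have mdΨ : Measurable (fun o => dec (Ψ o)) := measurable_dec.comp mΨ
      rw [Measure.map_map mdΨ measurable_fst]
      rfl
    have e3 : Q.map (fun q => dec (Ψ q.1)) = Q.map (fun q => dec q.2) := by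
      apply Measure.map_congr
      filter_upwards [h3] with q hq
      rw [← hq]
    have e4 : Q.map (fun q => dec q.2)
        = (AM μ).map (fun q => dec (obsR (cs q.1) q.2.1 q.2.2)) := by
      rw [hQdef]
      unfold QM
      have mds : Measurable (fun q : Om V × (Site V → ℝ) => dec q.2) :=
        measurable_dec.comp measurable_snd
      rw [Measure.map_map mds measurable_toQ]
      rfl
    have e5 : (AM μ).map (fun q => dec (obsR (cs q.1) q.2.1 q.2.2))
        = (AM μ).map (fun q => q.2.1) := Measure.map_congr dec_obsR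
    have e6 : (AM μ).map (fun q => q.2.1) = μ := by
      have h4 : (fun q : (Site V → unitInterval) × ((V → ℤˣ) × (Site V → unitInterval)) => q.2.1)
          = Prod.fst ∘ Prod.snd := rfl
      rw [h4, ← Measure.map_map measurable_fst measurable_snd]
      unfold AM
      rw [(measurePreserving_snd (μ := iidLabels (Site V)) (ν := BM μ)).map_eq]
      unfold BM
      exact (measurePreserving_fst (μ := μ) (ν := iidLabels (Site V))).map_eq
    rw [e1, hcod, ← hfst, e2, e3, e4, e5, e6]
  · intro g
    -- equivariance of the conditional expectations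
    set g' : G ≃g G := g.symm with hg'
    have mact : ∀ (h : G ≃g G) {X : Type} [MeasurableSpace X],
        Measurable (fun x : Site V → X => actS h x) := by
      intro h X _
      exact measurable_pi_lambda _ fun i => measurable_pi_apply _
    have h4 : ∀ i, ∀ᵐ o ∂Q.fst, Ψ o (i.1, g' i.2) = Ψ (actS g' o.1, actS g' o.2) i := by
      intro i
      have h5 := hatF_equiv (Q := Q) (τ := fun o : Om V => (actS g' o.1, actS g' o.2))
        (τ' := fun o : Om V => (actS g o.1, actS g o.2)) (ρ := fun y => actS g' y)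
        (((mact g').comp measurable_fst).prodMk ((mact g').comp measurable_snd))
        (((mact g).comp measurable_fst).prodMk ((mact g).comp measurable_snd))
        (mact g') (by
          intro o
          have h6 : ∀ x : Site V → unitInterval, actS g (actS g' x) = x := by
            intro x
            ext j
            simp [actS, hg']
          simp only [h6]) (hinv g') (nice_Fi i)
      filter_upwards [h5] with o ho
      exact ho
    have h5 : ∀ᵐ o ∂(PP V), ∀ i, Ψ o (i.1, g' i.2) = Ψ (actS g' o.1, actS g' o.2) i := by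
      rw [← hfst]
      exact ae_all_iff.2 h4
    rw [← hcod] at h5
    have h6 := ae_of_ae_map mcod.aemeasurable h5
    filter_upwards [h6] with u hu
    ext1 v
    show dec (Ψ (cod (fun v => u (g.symm v)))) v = dec (Ψ (cod u)) (g.symm v)
    rw [hcodg G g u]
    have e : ∀ k : ℕ, Ψ (act2 g (cod u)) (k, v) = Ψ (cod u) (k, g.symm v) :=
      fun k => (hu (k, v)).symm
    have key : ∀ (y y' : Site V → ℝ) (v v' : V),
        (∀ k : ℕ, y (k, v) = y' (k, v')) → dec y v = dec y' v' := by
      intro y y' v v' h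
      have e2 : ∀ n : ℕ, ∑ k ∈ Finset.range n, y (k, v) = ∑ k ∈ Finset.range n, y' (k, v') :=
        fun n => Finset.sum_congr rfl (fun k _ => h k)
      have e3 : (∀ᶠ n : ℕ in atTop, 0 < ∑ k ∈ Finset.range n, y (k, v))
          ↔ (∀ᶠ n : ℕ in atTop, 0 < ∑ k ∈ Finset.range n, y' (k, v')) := by
        simp only [e2]
      unfold dec
      by_cases hh : ∀ᶠ n : ℕ in atTop, 0 < ∑ k ∈ Finset.range n, y (k, v)
      · rw [if_pos hh, if_pos (e3.mp hh)]
      · rw [if_neg hh, if_neg (fun h' => hh (e3.mpr h'))]
    exact key _ _ v (g.symm v) e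

end Vale.Agent.P161c
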