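import Vale.Agent.P161c.Flow

/-!
Invariance of the law of labels, innovations and observations under automorphisms, and homogeneity
of the pair of cavity fields in the relative product.
-/

set_option linter.unusedSectionVars false

namespace Vale.Agent.P161c

open MeasureTheory SimpleGraph Vale.Agent.H13.P161 Filter Topology

variable {V : Type*} [Countable V] [DecidableEq V] {G : SimpleGraph V} {μ : Measure (V → ℤˣ)}
  [IsProbabilityMeasure μ] {T : ℕ → Finset V}

lemma aT_actS (g : G ≃g G) (U : Site V → unitInterval) (k : ℕ) (t : ℝ) (y : Site V → ℝ) :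
    aT (actS g U) k t (actS g y) = fun w => aT U k t y (g w) := rfl

lemma obsR_actS (g : G ≃g G) (U : Site V → unitInterval) (σ : V → ℤˣ)
    (ζ : Site V → unitInterval) :
    obsR (cs (actS g U)) (fun v => σ (g v)) (actS g ζ) = actS g (obsR (cs U) σ ζ) := rfl

/-- equality of limits of posteriors along two exhaustions related by `g` -/
lemma post_limit_equiv (g : G ≃g G)
    (hinv : μ.map (fun σ : V → ℤˣ => fun v => σ (g v)) = μ) (n : ℕ) {c : Site V → ℝ}
    (hc : ∀ i, |c i| ≤ 1 / 2) {S : Set (Site V)} (hS : ∀ i ∈ S, i.1 < n) (v : V)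
    {A B : ℕ → Finset V} (hA : Monotone A) (hB : Monotone B)
    (hU : ∀ w, (∃ m, w ∈ A m) ↔ ∃ m, w ∈ (B m).map g.toEquiv.toEmbedding) :
    ∀ᵐ p ∂(BM μ), limOr0 (fun m => post μ (ak n) v (B m)
        (fun w => aF n c S (obsR c p.1 p.2) (g w)))
      = limOr0 (fun m => post μ (ak n) (g v) (A m) (aF n c S (obsR c p.1 p.2))) := by
  have hch := fun w => isChan_site (V := V) n hc hS w
  have hB' : Monotone (fun m => (B m).map g.toEquiv.toEmbedding) :=
    fun i j hij => Finset.map_subset_map.mpr (hB hij)
  have h1 := ae_limit_eq (μ := μ) (ak_bounds n).1 (ak_bounds n).2 hch hA hB' hU (g v)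
  have h2 := ae_tendsto_post (μ := μ) (ak_bounds n).1 (ak_bounds n).2 hch hA (g v)
  have mm : Measurable (fun p : (V → ℤˣ) × (Site V → unitInterval) =>
      ((p.1, fun w l => msk S (obsR c p.1 p.2) (l, w)) : (V → ℤˣ) × (V → ℕ → ℝ))) := by
    apply measurable_fst.prodMk
    rw [measurable_pi_iff]; intro w
    rw [measurable_pi_iff]; intro l
    have h := (measurable_pi_apply (X := fun _ : Site V => ℝ) (l, w)).comp
      ((measurable_msk S).comp (measurable_obsR c))
    exact h
  rw [obsM_eq] at h1 h2
  have h1' := ae_of_ae_map mm.aemeasurable h1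
  have h2' := ae_of_ae_map mm.aemeasurable h2
  filter_upwards [h1', h2'] with p hp1 hp2
  simp only [own_msk] at hp1 hp2
  obtain ⟨l, hl⟩ := hp2
  have h3 := hp1 l hl
  rw [limOr0_eq hl]
  apply limOr0_eq
  have e : (fun m => post μ (ak n) v (B m) (fun w => aF n c S (obsR c p.1 p.2) (g w)))
      = fun m => post μ (ak n) (g v) ((B m).map g.toEquiv.toEmbedding)
        (aF n c S (obsR c p.1 p.2)) := by
    ext m
    exact post_relabel g hinv v _ _
  rw [e]
  exact h3

/-- Quenched equivariance of the magnetizations.  `aT (actS g U) k t (actS g y)` is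
`aT U k t y` composed with `g` (direct computation: `cs (actS g U) = actS g (cs U)`, the cut is
relabelled).  Then `post_relabel` turns the posterior along `T n` into the posterior at `g v` along
`g (T n)`, and `ae_limit_eq` (for the channels `isChan_site` and the law `obsM_eq`, exactly as `tower_q`
in `Inn.lean` transfers `tower_postI`) exchanges the exhaustion `g (T n)` with `T n`; compare the
proof of `env_equiv`. -/
lemma MT_equiv (hT : Monotone T) (hTu : ∀ v, ∃ n, v ∈ T n) (g : G ≃g G)
    (hinv : μ.map (fun σ : V → ℤˣ => fun v => σ (g v)) = μ) (U : Site V → unitInterval) (k : ℕ)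
    (t : ℝ) (v : V) :
    ∀ᵐ p ∂(BM μ), MT μ T (actS g U) k t v (actS g (obsR (cs U) p.1 p.2))
      = MT μ T U k t (g v) (obsR (cs U) p.1 p.2) := by
  have hU : ∀ w, (∃ m, w ∈ T m) ↔ ∃ m, w ∈ (T m).map g.toEquiv.toEmbedding := by
    intro w
    refine ⟨fun _ => ?_, fun _ => hTu w⟩
    obtain ⟨m, hm⟩ := hTu (g.symm w)
    exact ⟨m, Finset.mem_map.mpr ⟨g.symm w, hm, g.apply_symm_apply w⟩⟩
  exact post_limit_equiv g hinv (k + 1) (abs_cs_le U) (fun j hj => cut_lt hj) v hT hT hU

/-- the same for the cavity magnetizations (`cavF` is a posterior on `inBr`) -/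
lemma cavT_equiv (hT : Monotone T) (hTu : ∀ v, ∃ n, v ∈ T n) (g : G ≃g G)
    (hinv : μ.map (fun σ : V → ℤˣ => fun v => σ (g v)) = μ) (U : Site V → unitInterval) (k : ℕ)
    (t : ℝ) (c p : V) :
    ∀ᵐ x ∂(BM μ), cavT G μ T (actS g U) k t (actS g (obsR (cs U) x.1 x.2)) c p
      = cavT G μ T U k t (obsR (cs U) x.1 x.2) (g c) (g p) := by
  have hS : Monotone (fun n => inBr G (g c) (g p) (T n)) :=
    fun i j hij => inBr_mono (hT hij) (g c) (g p)
  have hS' : Monotone (fun n => inBr G c p (T n)) :=
    fun i j hij => inBr_mono (hT hij) c p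
  have hU : ∀ w, (∃ n, w ∈ inBr G (g c) (g p) (T n)) ↔
      ∃ n, w ∈ (inBr G c p (T n)).map g.toEquiv.toEmbedding := by
    intro w
    constructor
    · rintro ⟨n, hn⟩
      rw [mem_inBr] at hn
      obtain ⟨k, hk⟩ := hTu (g.symm w)
      refine ⟨k, ?_⟩
      rw [Finset.mem_map]
      refine ⟨g.symm w, ?_, g.apply_symm_apply w⟩
      rw [mem_inBr]
      refine ⟨hk, ?_⟩
      rw [← dist_iso g (g.symm w) c, ← dist_iso g (g.symm w) p, g.apply_symm_apply]
      exact hn.2
    · rintro ⟨n, hn⟩
      rw [Finset.mem_map] at hn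
      obtain ⟨u, hu, rfl⟩ := hn
      rw [mem_inBr] at hu
      obtain ⟨k, hk⟩ := hTu (g u)
      refine ⟨k, ?_⟩
      rw [mem_inBr]
      refine ⟨hk, ?_⟩
      change G.dist (g u) (g c) < G.dist (g u) (g p)
      rw [dist_iso, dist_iso]
      exact hu.2
  exact post_limit_equiv g hinv (k + 1) (abs_cs_le U) (fun j hj => cut_lt hj) c hS hS' hU

lemma measurable_actS (g : G ≃g G) {X : Type*} [MeasurableSpace X] :
    Measurable (actS g : (Site V → X) → Site V → X) := by
  rw [measurable_pi_iff]
  intro i
  exact measurable_pi_apply _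

lemma measurable_actQ (g : G ≃g G) : Measurable (actQ g : Om V × (Site V → ℝ) → _) := by
  unfold actQ
  apply Measurable.prodMk
  · apply Measurable.prodMk
    · exact (measurable_actS g).comp (measurable_fst.comp measurable_fst)
    · exact (measurable_actS g).comp (measurable_snd.comp measurable_fst)
  · exact (measurable_actS g).comp measurable_snd

lemma map_actS_iid (g : G ≃g G) :
    (iidLabels (Site V)).map (actS g) = iidLabels (Site V) := by
  unfold iidLabels
  exact Measure.map_infinitePi_infinitePi_of_inj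
    (P := fun _ : Site V => (volume : Measure unitInterval))
    (f := fun i : Site V => ((i.1, g i.2) : Site V)) (fun a b h => by
      simp only [Prod.mk.injEq] at h
      exact Prod.ext h.1 (g.injective h.2))

lemma map_actS_BM (g : G ≃g G)
    (hinv : μ.map (fun σ : V → ℤˣ => fun v => σ (g v)) = μ) :
    (BM μ).map (fun p => (((fun v => p.1 (g v)), actS g p.2) :
      (V → ℤˣ) × (Site V → unitInterval))) = BM μ := by
  have mg : Measurable (fun (σ : V → ℤˣ) (v : V) => σ (g v)) :=
    measurable_pi_iff.mpr (fun v => measurable_pi_apply _)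
  have h := Measure.map_prod_map μ (iidLabels (Site V)) mg
    (measurable_actS (V := V) g (X := unitInterval))
  rw [hinv, map_actS_iid g] at h
  unfold BM
  conv_rhs => rw [h]
  rfl

/-- Invariance.  The map `(U, (σ, ζ)) ↦ (actS g U, (σ ∘ g, actS g ζ))` preserves `AM μ`
(`measurePreserving_act` in `H13/P161/Limit.lean` for the labels, `hinv` for `μ`),
`obsR (cs (actS g U)) (σ ∘ g) (actS g ζ) = actS g (obsR (cs U) σ ζ)`, and by `MT_equiv` (at the times
`t = U i`, quenched) almost surely `inn (actS g U) (actS g y) = actS g (inn U y)`. -/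
theorem QM_inv (hT : Monotone T) (hTu : ∀ v, ∃ n, v ∈ T n) (g : G ≃g G)
    (hinv : μ.map (fun σ : V → ℤˣ => fun v => σ (g v)) = μ) :
    (QM μ T).map (actQ g) = QM μ T := by
  have := Measure.isProbabilityMeasure_map (μ := QM μ T) (measurable_actQ (V := V) g).aemeasurable
  apply meas_ext_niceR
  intro F hF
  rw [integral_map (measurable_actQ g).aemeasurable hF.1.aestronglyMeasurable,
    integral_QM (hF.comp (measurable_actQ g)), integral_QM hF]
  set Φ : (Site V → unitInterval) × ((V → ℤˣ) × (Site V → unitInterval)) → ℝ :=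
    fun q => F (toQ μ T q) with hΦ
  have nΦ : Nice Φ := hF.comp measurable_toQ
  have e1 : ∀ U : Site V → unitInterval,
      ∫ p, F (actQ g ((U, inn μ T U (obsR (cs U) p.1 p.2)), obsR (cs U) p.1 p.2)) ∂(BM μ)
      = ∫ p, Φ (actS g U, p) ∂(BM μ) := by
    intro U
    have mgp : Measurable (fun p : (V → ℤˣ) × (Site V → unitInterval) =>
        (((fun v => p.1 (g v)), actS g p.2) : (V → ℤˣ) × (Site V → unitInterval))) := by
      apply Measurable.prodMk
      · exact measurable_pi_iff.mpr (fun v => (measurable_pi_apply _).comp measurable_fst)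
      · exact (measurable_actS g).comp measurable_snd
    have h1 : ∫ p, Φ (actS g U, p) ∂(BM μ)
        = ∫ p, Φ (actS g U, ((fun v => p.1 (g v)), actS g p.2)) ∂(BM μ) := by
      conv_lhs => rw [← map_actS_BM g hinv]
      rw [integral_map mgp.aemeasurable]
      exact (nΦ.comp measurable_prodMk_left).1.aestronglyMeasurable
    rw [h1]
    apply integral_congr_ae
    have hall : ∀ᵐ p ∂(BM μ), ∀ i : Site V,
        MT μ T (actS g U) i.1 ((actS g U i : unitInterval) : ℝ) i.2
            (actS g (obsR (cs U) p.1 p.2))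
          = MT μ T U i.1 ((actS g U i : unitInterval) : ℝ) (g i.2) (obsR (cs U) p.1 p.2) := by
      rw [ae_all_iff]
      intro i
      exact MT_equiv hT hTu g hinv U i.1 _ i.2
    filter_upwards [hall] with p hp
    simp only [hΦ, toQ]
    congr 1
    unfold actQ
    simp only
    have ein : actS g (inn μ T U (obsR (cs U) p.1 p.2))
        = inn μ T (actS g U) (actS g (obsR (cs U) p.1 p.2)) := by
      funext i
      unfold inn
      rw [hp i]
      rfl
    rw [ein]
    rfl
  simp only [e1]
  have nI : Nice (fun U : Site V → unitInterval => ∫ p, Φ (U, p) ∂(BM μ)) :=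
    nΦ.integral_right (BM μ)
  have h2 : ∫ U, ∫ p, Φ (U, p) ∂(BM μ) ∂(iidLabels (Site V))
      = ∫ U, ∫ p, Φ (actS g U, p) ∂(BM μ) ∂(iidLabels (Site V)) := by
    conv_lhs => rw [← map_actS_iid g]
    rw [integral_map (measurable_actS g).aemeasurable nI.1.aestronglyMeasurable]
  exact h2.symm

lemma measurable_cavT2 (k : ℕ) (t : ℝ) (c p : V) :
    Measurable (fun q : (Site V → unitInterval) × (Site V → ℝ) =>
      cavT G μ T q.1 k t q.2 c p) := by
  have h := measurable_aT (V := V) k
  have h2 : Measurable (fun q : (Site V → unitInterval) × (Site V → ℝ) => (q.1, (t, q.2))) := by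
    fun_prop
  have h3 := h.comp h2
  have h4 := (measurable_cavI (G := G) (μ := μ) (α := ak (k + 1)) (T := T) c p).comp h3
  simpa only [Function.comp_def, cavT] using h4

lemma measurable_actOm (g : G ≃g G) :
    Measurable (fun o : Om V => ((actS g o.1, actS g o.2) : Om V)) :=
  ((measurable_actS g).comp measurable_fst).prodMk ((measurable_actS g).comp measurable_snd)

lemma cavT_equiv_Q (hT : Monotone T) (hTu : ∀ v, ∃ n, v ∈ T n) (g : G ≃g G)
    (hinv : μ.map (fun σ : V → ℤˣ => fun v => σ (g v)) = μ) (k : ℕ) (t : ℝ) :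
    ∀ᵐ q ∂(QM μ T), ∀ c p, cavT G μ T (actS g q.1.1) k t (actS g q.2) c p
      = cavT G μ T q.1.1 k t q.2 (g c) (g p) := by
  rw [ae_all_iff]; intro c
  rw [ae_all_iff]; intro p
  have hms : MeasurableSet {q : Om V × (Site V → ℝ) |
      cavT G μ T (actS g q.1.1) k t (actS g q.2) c p
        = cavT G μ T q.1.1 k t q.2 (g c) (g p)} := by
    apply measurableSet_eq_fun
    · have h := (measurable_cavT2 (G := G) (μ := μ) (T := T) k t c p)
      have h2 : Measurable (fun q : Om V × (Site V → ℝ) => (actS g q.1.1, actS g q.2)) :=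
        ((measurable_actS g).comp (measurable_fst.comp measurable_fst)).prodMk
          ((measurable_actS g).comp measurable_snd)
      have h3 := h.comp h2
      simpa only [Function.comp_def] using h3
    · have h := (measurable_cavT2 (G := G) (μ := μ) (T := T) k t (g c) (g p))
      have h2 : Measurable (fun q : Om V × (Site V → ℝ) => (q.1.1, q.2)) :=
        (measurable_fst.comp measurable_fst).prodMk measurable_snd
      have h3 := h.comp h2
      simpa only [Function.comp_def] using h3
  unfold QM
  rw [ae_map_iff measurable_toQ.aemeasurable hms]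
  unfold AM
  have hms2 : MeasurableSet {q : (Site V → unitInterval) × ((V → ℤˣ) × (Site V → unitInterval)) |
      cavT G μ T (actS g (toQ μ T q).1.1) k t (actS g (toQ μ T q).2) c p
        = cavT G μ T (toQ μ T q).1.1 k t (toQ μ T q).2 (g c) (g p)} := measurable_toQ hms
  rw [Measure.ae_prod_iff_ae_ae hms2]
  exact Filter.Eventually.of_forall (fun U => cavT_equiv hT hTu g hinv U k t c p)

/-- Homogeneity: `relP_inv` with `QM_inv`, and `cavT_equiv` for both copies (both projections of
`relP (QM μ T)` are `QM μ T`, `relP_map_left`, `relP_map_right`). -/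
theorem homog_relP (hT : Monotone T) (hTu : ∀ v, ∃ n, v ∈ T n)
    (hinv : ∀ g : G ≃g G, μ.map (fun σ : V → ℤˣ => fun v => σ (g v)) = μ) (k : ℕ) (t : ℝ) :
    Homog G (relP (QM μ T)) (fun ω c p => cavT G μ T ω.1.1 k t ω.2.1 c p)
      (fun ω c p => cavT G μ T ω.1.1 k t ω.2.2 c p) := by
  intro g
  have mR : Measurable (fun q : Om V × ((Site V → ℝ) × (Site V → ℝ)) =>
      (((actS g q.1.1, actS g q.1.2) : Om V), (actS g q.2.1, actS g q.2.2))) := by
    apply Measurable.prodMk
    · exact (measurable_actOm g).comp measurable_fst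
    · exact ((measurable_actS g).comp (measurable_fst.comp measurable_snd)).prodMk
        ((measurable_actS g).comp (measurable_snd.comp measurable_snd))
  have hRinv := relP_inv (Q := QM μ T) (τ := fun o : Om V => ((actS g o.1, actS g o.2) : Om V))
    (τ' := fun o : Om V => ((actS g.symm o.1, actS g.symm o.2) : Om V))
    (ρ := actS g) (measurable_actOm g) (measurable_actOm g.symm) (measurable_actS g)
    (fun o => by
      apply Prod.ext
      · funext i
        simp [actS]
      · funext i
        simp [actS])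
    (QM_inv hT hTu g (hinv g))
  have mΦ : Measurable (fun ω : Om V × ((Site V → ℝ) × (Site V → ℝ)) =>
      (((fun c p => cavT G μ T ω.1.1 k t ω.2.1 c p), (fun c p => cavT G μ T ω.1.1 k t ω.2.2 c p)) :
        (V → V → ℝ) × (V → V → ℝ))) := by
    apply Measurable.prodMk
    · rw [measurable_pi_iff]; intro c
      rw [measurable_pi_iff]; intro p
      have h := (measurable_cavT2 (G := G) (μ := μ) (T := T) k t c p)
      have h2 : Measurable (fun q : Om V × ((Site V → ℝ) × (Site V → ℝ)) => (q.1.1, q.2.1)) := by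
        fun_prop
      have h3 := h.comp h2
      simpa only [Function.comp_def] using h3
    · rw [measurable_pi_iff]; intro c
      rw [measurable_pi_iff]; intro p
      have h := (measurable_cavT2 (G := G) (μ := μ) (T := T) k t c p)
      have h2 : Measurable (fun q : Om V × ((Site V → ℝ) × (Site V → ℝ)) => (q.1.1, q.2.2)) := by
        fun_prop
      have h3 := h.comp h2
      simpa only [Function.comp_def] using h3
  have hE := cavT_equiv_Q (μ := μ) hT hTu g (hinv g) k t
  have hL : ∀ᵐ ω ∂(relP (QM μ T)), ∀ c p, cavT G μ T (actS g ω.1.1) k t (actS g ω.2.1) c p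
      = cavT G μ T ω.1.1 k t ω.2.1 (g c) (g p) := by
    have m : Measurable (fun q : Om V × ((Site V → ℝ) × (Site V → ℝ)) => (q.1, q.2.1)) := by
      fun_prop
    have h := hE
    rw [← relP_map_left (Q := QM μ T)] at h
    exact ae_of_ae_map m.aemeasurable h
  have hR : ∀ᵐ ω ∂(relP (QM μ T)), ∀ c p, cavT G μ T (actS g ω.1.1) k t (actS g ω.2.2) c p
      = cavT G μ T ω.1.1 k t ω.2.2 (g c) (g p) := by
    have m : Measurable (fun q : Om V × ((Site V → ℝ) × (Site V → ℝ)) => (q.1, q.2.2)) := by
      fun_prop
    have h := hE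
    rw [← relP_map_right (Q := QM μ T)] at h
    exact ae_of_ae_map m.aemeasurable h
  symm
  calc (relP (QM μ T)).map (fun ω =>
        (((fun c p => cavT G μ T ω.1.1 k t ω.2.1 c p),
          (fun c p => cavT G μ T ω.1.1 k t ω.2.2 c p)) : (V → V → ℝ) × (V → V → ℝ)))
      = ((relP (QM μ T)).map (fun q => (((actS g q.1.1, actS g q.1.2) : Om V),
          (actS g q.2.1, actS g q.2.2)))).map (fun ω =>
        (((fun c p => cavT G μ T ω.1.1 k t ω.2.1 c p),
          (fun c p => cavT G μ T ω.1.1 k t ω.2.2 c p)) : (V → V → ℝ) × (V → V → ℝ))) := by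
        rw [hRinv]
    _ = (relP (QM μ T)).map (fun ω =>
        (((fun c p => cavT G μ T (actS g ω.1.1) k t (actS g ω.2.1) c p),
          (fun c p => cavT G μ T (actS g ω.1.1) k t (actS g ω.2.2) c p)) :
            (V → V → ℝ) × (V → V → ℝ))) := by
        rw [Measure.map_map mΦ mR]
        rfl
    _ = _ := by
        apply Measure.map_congr
        filter_upwards [hL, hR] with ω h1 h2
        apply Prod.ext
        · funext c p
          exact h1 c p
        · funext c p
          exact h2 c p

end Vale.Agent.P161c
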