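import Vale.Agent.P161c.Evol3
import Vale.Agent.P161c.FinalDec
import Vale.Agent.P161c.InvQ
import Vale.Agent.H13.P161.Final

/-!
The free Ising measure at the critical point is a factor of IID.
-/

namespace Vale.Agent.P161c

open MeasureTheory SimpleGraph Vale.Agent.H13.P161 Filter Topology

variable {V : Type*} {G : SimpleGraph V}

/-- closed balls -/
noncomputable def bl (G : SimpleGraph V) [LocallyFinite G] [DecidableEq V] (o : V) (n : ℕ) :
    Finset V := (Finset.range (n + 1)).biUnion (fun i => sph G o i)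

lemma mem_bl [LocallyFinite G] [DecidableEq V] (hG : G.Connected) (o : V) (n : ℕ) (x : V) :
    x ∈ bl G o n ↔ G.dist o x ≤ n := by
  unfold bl
  simp only [Finset.mem_biUnion, Finset.mem_range, mem_sph hG o]
  constructor
  · rintro ⟨i, hi, h⟩
    omega
  · intro h
    exact ⟨G.dist o x, by omega, rfl⟩

lemma spinVal_neg_c (s : ℤˣ) : spinVal (-s) = - spinVal s := by simp [spinVal]

/-- flip invariance of the free Ising measure -/
lemma isFreeIsing_flip {β : ℝ} (hG : G.Connected) [LocallyFinite G] {μ : Measure (V → ℤˣ)}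
    (hμ : IsFreeIsing G β μ) : μ.map (fun σ : V → ℤˣ => fun v => - σ v) = μ := by
  have hne : Nonempty V := hG.nonempty
  have mneg : Measurable (fun σ : V → ℤˣ => fun v => - σ v) := by
    rw [measurable_pi_iff]
    intro v
    exact (measurable_of_finite (fun s : ℤˣ => -s)).comp (measurable_pi_apply v)
  have h2 : IsFreeIsing G β (μ.map (fun σ : V → ℤˣ => fun v => - σ v)) := by
    intro D hD η
    have hset : MeasurableSet {σ : V → ℤˣ | ∀ v ∈ D, σ v = η v} := measurableSet_cyl D η
    rw [Measure.map_apply mneg hset]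
    have e1 : (fun σ : V → ℤˣ => fun v => - σ v) ⁻¹' {σ | ∀ v ∈ D, σ v = η v}
        = {σ | ∀ v ∈ D, σ v = (fun v => - η v) v} := by
      ext σ
      simp only [Set.mem_preimage, Set.mem_ofPred_eq]
      constructor
      · intro h v hv
        rw [← h v hv, neg_neg]
      · intro h v hv
        rw [h v hv, neg_neg]
    rw [e1, hμ D hD]
    congr 2
    apply Finset.prod_congr rfl
    intro e _
    induction e using Sym2.ind with
    | _ x y =>
      simp only [edgeWeight, Sym2.lift_mk, spinVal_neg_c]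
      ring
  exact isFreeIsing_unique hG h2 hμ

/-- Main theorem of the critical case. -/
theorem factor_critical [DecidableEq V] [Countable V] [Nonempty V] [LocallyFinite G]
    {μ : Measure (V → ℤˣ)} [IsProbabilityMeasure μ]
    (hG : G.IsTree) {d : ℕ} (hd : 3 ≤ d) (hreg : ∀ v, G.degree v = d)
    {θ : ℝ} (hθ0 : 0 < θ) (hθ1 : θ < 1) (hcrit : ((d : ℝ) - 1) * θ ^ 2 = 1)
    (hflip : μ.map (fun σ : V → ℤˣ => fun v => - σ v) = μ)
    (hμ : EdgeFactor G θ μ) (hinv : ∀ g : G ≃g G, InvUnder μ g) :
    IsFactorOfIID G μ := by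
  obtain ⟨o⟩ : Nonempty V := inferInstance
  have hTb : ∀ n x, x ∈ bl G o n ↔ G.dist o x ≤ n := fun n x => mem_bl hG.connected o n x
  have hT : Monotone (bl G o) := by
    intro m n hmn x hx
    rw [hTb] at hx ⊢
    exact hx.trans hmn
  have hTu : ∀ v, ∃ n, v ∈ bl G o n := fun v => ⟨G.dist o v, (hTb _ _).mpr le_rfl⟩
  have hev := evineq (G := G) (μ := μ) (T := bl G o) hT hTu hreg hd hG hθ0 hθ1 hcrit hflip hμ hTb
  have hz := fun (v : V) (k : ℕ) (t : ℝ) (h0 : 0 ≤ t) (hk : k = 0 → 0 < t) (ht : t ≤ 1 / 2) =>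
    Dsq_eq_zero (G := G) (μ := μ) (T := bl G o) hd hθ0 hθ1 hcrit hG hreg hflip hμ hinv hT hTu hev v k
      t h0 hk ht
  have hdet := determined_of_Dsq (G := G) (μ := μ) (T := bl G o) hreg (by omega) hG hθ0.le hθ1 hflip
    hμ hT hTu hz
  exact factor_of_determined hT hTu (fun g => QM_inv hT hTu g (hinv g)) hdet

/-- The free Ising measure on a regular tree is a factor of IID up to and including the
reconstruction threshold. -/
theorem isFactorOfIID_of_le [LocallyFinite G]
    (hG : G.IsTree) {d : ℕ} (hd : 3 ≤ d) (hreg : G.IsRegularOfDegree d) {β : ℝ} (hβ : 0 ≤ β)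
    (hθ : Real.tanh β ≤ 1 / √((d : ℝ) - 1)) {μ : Measure (V → ℤˣ)} (hμ : IsFreeIsing G β μ) :
    IsFactorOfIID G μ := by
  rcases hθ.lt_or_eq with hlt | heq
  · exact isFactorOfIID_of_isFreeIsing hG hd hreg hβ hlt hμ
  · classical
    have hne : Nonempty V := hG.connected.nonempty
    have hc : Countable V := countable_of_connected hG.connected
    have hp : IsProbabilityMeasure μ := hμ.isProbabilityMeasure
    have hd3 : (3 : ℝ) ≤ d := by exact_mod_cast hd
    have hd1 : (0 : ℝ) < (d : ℝ) - 1 := by linarith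
    have hs0 : 0 < √((d : ℝ) - 1) := Real.sqrt_pos.mpr hd1
    have hs1 : 1 < √((d : ℝ) - 1) := by
      rw [Real.lt_sqrt (by norm_num)]
      linarith
    have hθ0 : 0 < Real.tanh β := by
      rw [heq]
      positivity
    have hθ1 : Real.tanh β < 1 := by
      rw [heq, div_lt_one hs0]
      exact hs1
    have hcrit : ((d : ℝ) - 1) * Real.tanh β ^ 2 = 1 := by
      rw [heq, div_pow, one_pow, Real.sq_sqrt hd1.le]
      field_simp
    exact factor_critical hG hd hreg hθ0 hθ1 hcrit (isFreeIsing_flip hG.connected hμ)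
      (hμ.edgeFactor hG) (fun g => hμ.inv hG.connected g)

end Vale.Agent.P161c
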