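import Vale.Agent.P161c.ConvS
import Vale.Agent.P161c.ConvG
import Vale.Agent.P161c.ConvL
import Vale.Agent.P161c.ConvI
import Vale.Agent.P161c.CritMain

/-!
Converse direction: a factor of IID free Ising measure satisfies `tanh β ≤ (d - 1)^(-1/2)`.
-/

set_option linter.unusedSectionVars false
set_option linter.unusedVariables false

namespace Vale.Agent.P161c

open MeasureTheory SimpleGraph Vale.Agent.H13.P161 Filter Topology

variable {V : Type*} {G : SimpleGraph V}

lemma iSup_ball_mono [LocallyFinite G] [DecidableEq V] (hG : G.Connected) (o : V) :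
    Monotone (bl G o) := by
  intro m n hmn x hx
  rw [mem_bl hG] at hx ⊢
  exact hx.trans hmn

/-- correlation decay of equivariant processes -/
theorem corr_decay [Countable V] [DecidableEq V] [LocallyFinite G] (hG : G.IsTree) {d : ℕ}
    (hd : 3 ≤ d) (hreg : ∀ v, G.degree v = d) {s : ℝ} (hs0 : 0 < s) (hs : s ^ 2 = (d : ℝ) - 1)
    {X : V → (V → unitInterval) → ℝ} (hX : ∀ v, Nice (X v)) (hX1 : ∀ v U, |X v U| ≤ 1)
    (hX0 : ∀ v, ∫ U, X v U ∂(iidLabels V) = 0)
    (hequiv : ∀ (g : G ≃g G) (v : V), ∀ᵐ U ∂(iidLabels V),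
      X (g v) (fun x => U (g.symm x)) = X v U) (u v : V) :
    ∫ U, X u U * X v U ∂(iidLabels V) ≤ (2 * G.dist u v + 2) / s ^ G.dist u v := by
  have hB : ∀ (r : ℕ) (v x : V), x ∈ bl G v r ↔ G.dist v x ≤ r := fun r v x =>
    mem_bl hG.connected v r x
  have hlim := cov_tendsto (hX u) (hX v) (iSup_ball_mono hG.connected u)
    (fun w => ⟨G.dist u w, (hB _ _ _).mpr le_rfl⟩) (iSup_ball_mono hG.connected v)
    (fun w => ⟨G.dist v w, (hB _ _ _).mpr le_rfl⟩)
  apply le_of_tendsto' hlim
  intro r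
  obtain ⟨Q, hQ0, hQ⟩ := exists_profile hG (by omega : 2 ≤ d) hreg hX hequiv r (fun w => bl G w r)
    (fun w x => hB r w x)
  have hmass : ∀ w, ∑ x ∈ bl G w r, Q (G.dist w x) ≤ 1 := by
    intro w
    have e : ∑ x ∈ bl G w r, Q (G.dist w x)
        = ∑ x ∈ bl G w r, qsh (bl G w r) x (EA (bl G w r) (X w)) :=
      Finset.sum_congr rfl (fun x hx => (hQ w x hx).symm)
    have nE := nice_EA (hX w) (bl G w r : Set V)
    rw [e, sum_qsh nE]
    have h0 : 0 ≤ CA ∅ (EA (bl G w r) (X w)) (EA (bl G w r) (X w)) := by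
      unfold CA
      apply integral_nonneg
      intro U
      exact mul_self_nonneg _
    have h1 : CA (bl G w r) (EA (bl G w r) (X w)) (EA (bl G w r) (X w)) ≤ 1 := by
      have hb : ∀ (A : Set V) (f : (V → unitInterval) → ℝ), (∀ U, |f U| ≤ 1) → ∀ U,
          |EA A f U| ≤ 1 := by
        intro A f hf U
        unfold EA
        calc |∫ U', f _ ∂(iidLabels V)| ≤ ∫ U', |f _| ∂(iidLabels V) :=
              abs_integral_le_integral_abs
          _ ≤ ∫ _U', (1 : ℝ) ∂(iidLabels V) := by
              apply integral_mono_of_nonneg (Eventually.of_forall (fun _ => abs_nonneg _))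
                (integrable_const _) (Eventually.of_forall (fun _ => hf _))
          _ = 1 := by simp
      have hb2 := hb (bl G w r : Set V) _ (hb (bl G w r : Set V) _ (hX1 w))
      have nE2 := nice_EA nE (bl G w r : Set V)
      unfold CA
      calc _ ≤ ∫ _U, (1 : ℝ) ∂(iidLabels V) := by
            apply Nice.integral_mono' (nE2.mul nE2) (Nice.const 1)
            intro U
            have := hb2 U
            have h2 := abs_le.mp this
            nlinarith
        _ = 1 := by simp
    linarith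
  have hcov := cov_le_shares (hX u) (hX v) (B := bl G u r) (B' := bl G v r)
    (F := bl G u r ∪ bl G v r) Finset.subset_union_left Finset.subset_union_right
    (fun x => s ^ G.dist u x / s ^ G.dist v x) (fun x => by positivity)
  rw [hX0 u, hX0 v, zero_mul, sub_zero] at hcov
  have e1 : ∑ x ∈ bl G u r, s ^ G.dist u x / s ^ G.dist v x * qsh (bl G u r) x
        (EA (bl G u r) (X u))
      = ∑ x ∈ bl G u r, s ^ G.dist u x / s ^ G.dist v x * Q (G.dist u x) :=
    Finset.sum_congr rfl (fun x hx => by rw [hQ u x hx])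
  have e2 : ∑ x ∈ bl G v r, qsh (bl G v r) x (EA (bl G v r) (X v))
        / (s ^ G.dist u x / s ^ G.dist v x)
      = ∑ x ∈ bl G v r, s ^ G.dist v x / s ^ G.dist u x * Q (G.dist v x) :=
    Finset.sum_congr rfl (fun x hx => by
      rw [hQ v x hx]
      have h1 : s ^ G.dist u x ≠ 0 := by positivity
      have h2 : s ^ G.dist v x ≠ 0 := by positivity
      field_simp)
  rw [e1, e2] at hcov
  have w1 := weight_sum_le hG hd hreg hs0 hs Q hQ0 r u v (bl G u r) (fun x => hB r u x) (hmass u)
  have w2 := weight_sum_le hG hd hreg hs0 hs Q hQ0 r v u (bl G v r) (fun x => hB r v x) (hmass v)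
  rw [G.dist_comm (u := v) (v := u)] at w2
  linarith

/-- The converse direction. -/
theorem tanh_le_of_factor [LocallyFinite G] (hG : G.IsTree) {d : ℕ} (hd : 3 ≤ d)
    (hreg : G.IsRegularOfDegree d) {β : ℝ} (hβ : 0 ≤ β) {μ : Measure (V → ℤˣ)}
    (hμ : IsFreeIsing G β μ) (hf : IsFactorOfIID G μ) : Real.tanh β ≤ 1 / √((d : ℝ) - 1) := by
  classical
  have hne : Nonempty V := hG.connected.nonempty
  have hc : Countable V := countable_of_connected hG.connected
  have hp : IsProbabilityMeasure μ := hμ.isProbabilityMeasure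
  have hd3 : (3 : ℝ) ≤ d := by exact_mod_cast hd
  have hd1 : (0 : ℝ) < (d : ℝ) - 1 := by linarith
  set s := √((d : ℝ) - 1) with hs
  have hs0 : 0 < s := Real.sqrt_pos.mpr hd1
  have hs2 : s ^ 2 = (d : ℝ) - 1 := Real.sq_sqrt hd1.le
  have hflip := isFreeIsing_flip hG.connected hμ
  have hmean := mean_zero_of_flip hflip
  obtain ⟨Φ, mΦ, hlaw, heq⟩ := hf
  set X : V → (V → unitInterval) → ℝ := fun v U => spinVal (Φ U v) with hX
  have nX : ∀ v, Nice (X v) := fun v => (nice_spin v).comp mΦ
  have hX1 : ∀ v U, |X v U| ≤ 1 := fun v U => (abs_spinVal _).le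
  have hX0 : ∀ v, ∫ U, X v U ∂(iidLabels V) = 0 := by
    intro v
    rw [← hmean v, ← hlaw, integral_map mΦ.aemeasurable (nice_spin v).1.aestronglyMeasurable]
  have hequiv : ∀ (g : G ≃g G) (v : V), ∀ᵐ U ∂(iidLabels V),
      X (g v) (fun x => U (g.symm x)) = X v U := by
    intro g v
    filter_upwards [heq g] with U hU
    simp only [hX]
    rw [hU]
    simp
  have hcorr : ∀ u v, ∫ U, X u U * X v U ∂(iidLabels V) = Real.tanh β ^ G.dist u v := by
    intro u v
    rw [← two_point hG (hμ.edgeFactor hG) hmean u v, ← hlaw, integral_map mΦ.aemeasurable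
      ((nice_spin u).mul (nice_spin v)).1.aestronglyMeasurable]
  have hbound : ∀ m : ℕ, (Real.tanh β * s) ^ m ≤ 2 * m + 2 := by
    intro m
    obtain ⟨o⟩ := hne
    have hcard := card_sph_ge hG (by omega : 2 ≤ d) hreg o m
    have hpos : (0 : ℝ) < ((sph G o m).card : ℝ) := lt_of_lt_of_le (by positivity) hcard
    have hpos' : 0 < (sph G o m).card := by exact_mod_cast hpos
    obtain ⟨v, hv⟩ := Finset.card_pos.mp hpos'
    have hdist : G.dist o v = m := (mem_sph hG.connected o m v).mp hv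
    have h := corr_decay hG hd hreg hs0 hs2 nX hX1 hX0 hequiv o v
    rw [hcorr, hdist, le_div_iff₀ (by positivity)] at h
    rw [mul_pow]
    exact h
  by_contra hcon
  push Not at hcon
  have ha : 1 < Real.tanh β * s := by
    rw [div_lt_iff₀ hs0] at hcon
    exact hcon
  set a := Real.tanh β * s with haa
  -- `a ^ m` beats `2 m + 2`
  have h1 : Tendsto (fun m : ℕ => (m : ℝ) / a ^ m) atTop (𝓝 0) := by
    have := tendsto_pow_const_div_const_pow_of_one_lt 1 ha
    simpa using this
  have h2 : Tendsto (fun m : ℕ => 1 / a ^ m) atTop (𝓝 0) := by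
    have := tendsto_pow_const_div_const_pow_of_one_lt 0 ha
    simpa using this
  have h3 : Tendsto (fun m : ℕ => 2 * ((m : ℝ) / a ^ m) + 2 * (1 / a ^ m)) atTop
      (𝓝 (2 * 0 + 2 * 0)) := (h1.const_mul 2).add (h2.const_mul 2)
  rw [mul_zero, add_zero] at h3
  obtain ⟨m, hm⟩ := ((tendsto_order.mp h3).2 1 one_pos).exists
  have h4 := hbound m
  have h5 : 0 < a ^ m := by positivity
  have h6 : 2 * ((m : ℝ) / a ^ m) + 2 * (1 / a ^ m) = (2 * m + 2) / a ^ m := by
    field_simp
  rw [h6, div_lt_one h5] at hm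
  linarith

/-- Complete determination. -/
theorem isFactorOfIID_iff [LocallyFinite G] (hG : G.IsTree) {d : ℕ} (hd : 3 ≤ d)
    (hreg : G.IsRegularOfDegree d) {β : ℝ} (hβ : 0 ≤ β) {μ : Measure (V → ℤˣ)}
    (hμ : IsFreeIsing G β μ) : IsFactorOfIID G μ ↔ Real.tanh β ≤ 1 / √((d : ℝ) - 1) :=
  ⟨fun h => tanh_le_of_factor hG hd hreg hβ hμ h,
    fun h => isFactorOfIID_of_le hG hd hreg hβ h hμ⟩

end Vale.Agent.P161c
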