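import Vale.Agent.P161c.TreeRec

/-!
Converse direction: sums over spheres of a regular tree.
-/

set_option linter.unusedSectionVars false
set_option linter.unusedVariables false

namespace Vale.Agent.P161c

open SimpleGraph Vale.Agent.H13.P161

variable {V : Type*} {G : SimpleGraph V} [LocallyFinite G] [DecidableEq V]

/-- lower bound for the size of spheres (each vertex of `sph G v n` has at least `d - 1` neighbours
in `sph G v (n + 1)`, and each vertex of the latter exactly one neighbour in the former,
`parent_unique`) -/
lemma card_sph_ge (hG : G.IsTree) {d : ℕ} (hd : 2 ≤ d) (hreg : ∀ v, G.degree v = d) (v : V)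
    (n : ℕ) : ((d : ℝ) - 1) ^ n ≤ ((sph G v n).card : ℝ) := by
  have hd1 : (1 : ℝ) ≤ (d : ℝ) - 1 := by
    have : (2 : ℝ) ≤ d := by exact_mod_cast hd
    linarith
  have key : ∀ n, (d - 1) ^ n ≤ (sph G v n).card := by
    intro n
    induction n with
    | zero => simp [sph]
    | succ n ih =>
      have hdisj : ∀ p ∈ sph G v n, ∀ q ∈ sph G v n, p ≠ q →
          Disjoint ((G.neighborFinset p).filter (fun x => G.dist v x = n + 1))
            ((G.neighborFinset q).filter (fun x => G.dist v x = n + 1)) := by
        intro p hp q hq hpq
        rw [Finset.disjoint_left]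
        intro x hx hx'
        rw [Finset.mem_filter, mem_neighborFinset] at hx hx'
        rw [mem_sph hG.connected] at hp hq
        exact hpq (parent_unique (u := v) hG hx.1.symm hx'.1.symm (by omega) (by omega))
      have hcard : (sph G v (n + 1)).card
          = ∑ p ∈ sph G v n, ((G.neighborFinset p).filter (fun x => G.dist v x = n + 1)).card := by
        rw [sph, Finset.card_biUnion hdisj]
      rw [hcard]
      have hone : ∀ p ∈ sph G v n,
          d - 1 ≤ ((G.neighborFinset p).filter (fun x => G.dist v x = n + 1)).card := by
        intro p hp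
        rw [mem_sph hG.connected] at hp
        have hsub : (G.neighborFinset p).erase (par G v p)
            ⊆ (G.neighborFinset p).filter (fun x => G.dist v x = n + 1) := by
          intro x hx
          rw [Finset.mem_erase, mem_neighborFinset] at hx
          rw [Finset.mem_filter, mem_neighborFinset]
          refine ⟨hx.2, ?_⟩
          have e := hG.dist_eq_dist_add_one_of_adj v hx.2
          rcases e with e | e
          · exfalso
            have hpv : p ≠ v := by
              rintro rfl
              simp at e
            have hps := par_spec hG.connected hpv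
            exact hx.1 (parent_unique (u := v) hG hx.2 hps.1 e hps.2)
          · omega
        refine le_trans ?_ (Finset.card_le_card hsub)
        have h1 : (G.neighborFinset p).card - 1 ≤ ((G.neighborFinset p).erase (par G v p)).card :=
          Finset.pred_card_le_card_erase
        rw [card_neighborFinset_eq_degree, hreg] at h1
        exact h1
      calc (d - 1) ^ (n + 1) = (d - 1) ^ n * (d - 1) := pow_succ _ _
        _ ≤ (sph G v n).card * (d - 1) := Nat.mul_le_mul_right _ ih
        _ = ∑ p ∈ sph G v n, (d - 1) := by rw [Finset.sum_const, smul_eq_mul]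
        _ ≤ _ := Finset.sum_le_sum hone
  have h := key n
  have h2 : (((d - 1) ^ n : ℕ) : ℝ) ≤ ((sph G v n).card : ℝ) := by exact_mod_cast h
  rw [Nat.cast_pow, Nat.cast_sub (by omega)] at h2
  simpa using h2

/-- Weighted sphere sum, `s = √(d - 1)`.  Induction on `m = dist u v`: `m = 0` is `card_sph_le`.  For
`m ≥ 1` let `p = par G u v` (the neighbour of `v` towards `u`): for `x` in the branch of `v` away from
`p` the distance to `v` is one less than the distance to `p`, and `dist u x = m + dist v x`, so there are
at most `2 (d - 1) ^ (ρ - m)` such `x` in the sphere; otherwise `dist v x = dist p x + 1`. -/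
lemma sph_sum_le (hG : G.IsTree) {d : ℕ} (hd : 3 ≤ d) (hreg : ∀ v, G.degree v = d) {s : ℝ}
    (hs0 : 0 < s) (hs : s ^ 2 = (d : ℝ) - 1) (u v : V) (ρ : ℕ) :
    ∑ x ∈ sph G u ρ, 1 / s ^ G.dist v x ≤ (2 * G.dist u v + 2) * s ^ ρ / s ^ G.dist u v := by
  have hcard : ∀ (w : V) (n : ℕ), ((sph G w n).card : ℝ) * (1 / s ^ n) ≤ 2 * s ^ n := by
    intro w n
    have h := card_sph_le hG.connected (by omega : 2 ≤ d) hreg w n
    rw [← hs, ← pow_mul] at h
    calc ((sph G w n).card : ℝ) * (1 / s ^ n) ≤ (2 * s ^ (2 * n)) * (1 / s ^ n) := by
          apply mul_le_mul_of_nonneg_right h (by positivity)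
      _ = 2 * s ^ n := by
          rw [two_mul n, pow_add]
          field_simp
  have key : ∀ (m : ℕ) (v : V), G.dist u v = m →
      ∑ x ∈ sph G u ρ, 1 / s ^ G.dist v x ≤ (2 * (m : ℝ) + 2) * s ^ ρ / s ^ m := by
    intro m
    induction m with
    | zero =>
      intro v hv
      have huv : u = v := (hG.connected.dist_eq_zero_iff).mp hv
      subst huv
      have e : ∑ x ∈ sph G u ρ, 1 / s ^ G.dist u x = ((sph G u ρ).card : ℝ) * (1 / s ^ ρ) := by
        rw [← nsmul_eq_mul, ← Finset.sum_const]
        apply Finset.sum_congr rfl
        intro x hx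
        rw [(mem_sph hG.connected u ρ x).mp hx]
      rw [e]
      have := hcard u ρ
      simpa using this
    | succ m ih =>
      intro v hv
      have hvu : v ≠ u := by
        rintro rfl
        simp at hv
      obtain ⟨hadj, hdist⟩ := par_spec (o := u) hG.connected hvu
      set p := par G u v with hp
      have hup : G.dist u p = m := by omega
      have hih := ih p hup
      have hterm : ∀ x ∈ sph G u ρ, 1 / s ^ G.dist v x
          ≤ s⁻¹ * (1 / s ^ G.dist p x)
            + (if G.dist x v < G.dist x p then 1 / s ^ G.dist v x else 0) := by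
        intro x hx
        have c1 : G.dist v x = G.dist x v := G.dist_comm
        have c2 : G.dist p x = G.dist x p := G.dist_comm
        rcases hG.dist_eq_dist_add_one_of_adj x hadj with e | e
        · rw [if_neg (by omega), c1, c2, e, pow_succ]
          apply le_of_eq
          field_simp
          ring
        · rw [if_pos (by omega)]
          have : 0 ≤ s⁻¹ * (1 / s ^ G.dist p x) := by positivity
          linarith
      have hsec : ∑ x ∈ sph G u ρ, (if G.dist x v < G.dist x p then 1 / s ^ G.dist v x else 0)
          ≤ 2 * s ^ ρ / s ^ (m + 1) := by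
        rw [← Finset.sum_filter]
        by_cases hρ : m + 1 ≤ ρ
        · have hsub : ∀ x ∈ (sph G u ρ).filter (fun x => G.dist x v < G.dist x p),
              G.dist v x = ρ - (m + 1) := by
            intro x hx
            rw [Finset.mem_filter, mem_sph hG.connected] at hx
            have h1 := dist_across' hG hadj hx.2 (show G.dist u p < G.dist u v by omega)
            have c1 : G.dist x u = G.dist u x := G.dist_comm
            have c2 : G.dist p u = G.dist u p := G.dist_comm
            have c3 : G.dist v x = G.dist x v := G.dist_comm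
            omega
          calc ∑ x ∈ (sph G u ρ).filter (fun x => G.dist x v < G.dist x p), 1 / s ^ G.dist v x
              = ∑ x ∈ (sph G u ρ).filter (fun x => G.dist x v < G.dist x p),
                  1 / s ^ (ρ - (m + 1)) := by
                apply Finset.sum_congr rfl
                intro x hx
                rw [hsub x hx]
            _ = (((sph G u ρ).filter (fun x => G.dist x v < G.dist x p)).card : ℝ)
                  * (1 / s ^ (ρ - (m + 1))) := by rw [Finset.sum_const, nsmul_eq_mul]
            _ ≤ ((sph G v (ρ - (m + 1))).card : ℝ) * (1 / s ^ (ρ - (m + 1))) := by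
                apply mul_le_mul_of_nonneg_right _ (by positivity)
                have : (sph G u ρ).filter (fun x => G.dist x v < G.dist x p)
                    ⊆ sph G v (ρ - (m + 1)) := by
                  intro x hx
                  exact (mem_sph hG.connected _ _ _).mpr (hsub x hx)
                exact_mod_cast Finset.card_le_card this
            _ ≤ 2 * s ^ (ρ - (m + 1)) := hcard v _
            _ = 2 * s ^ ρ / s ^ (m + 1) := by
                have e : s ^ ρ = s ^ (ρ - (m + 1)) * s ^ (m + 1) := by
                  rw [← pow_add]
                  congr 1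
                  omega
                rw [e]
                field_simp
        · have hemp : (sph G u ρ).filter (fun x => G.dist x v < G.dist x p) = ∅ := by
            rw [Finset.filter_eq_empty_iff]
            intro x hx hlt
            rw [mem_sph hG.connected] at hx
            have h1 := dist_across' hG hadj hlt (show G.dist u p < G.dist u v by omega)
            have c1 : G.dist x u = G.dist u x := G.dist_comm
            have c2 : G.dist p u = G.dist u p := G.dist_comm
            omega
          rw [hemp, Finset.sum_empty]
          positivity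
      calc ∑ x ∈ sph G u ρ, 1 / s ^ G.dist v x
          ≤ ∑ x ∈ sph G u ρ, (s⁻¹ * (1 / s ^ G.dist p x)
            + (if G.dist x v < G.dist x p then 1 / s ^ G.dist v x else 0)) :=
            Finset.sum_le_sum hterm
        _ = s⁻¹ * ∑ x ∈ sph G u ρ, 1 / s ^ G.dist p x
            + ∑ x ∈ sph G u ρ, (if G.dist x v < G.dist x p then 1 / s ^ G.dist v x else 0) := by
            rw [Finset.sum_add_distrib, Finset.mul_sum]
        _ ≤ s⁻¹ * ((2 * (m : ℝ) + 2) * s ^ ρ / s ^ m) + 2 * s ^ ρ / s ^ (m + 1) := by
            apply add_le_add _ hsec
            exact mul_le_mul_of_nonneg_left hih (by positivity)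
        _ = (2 * ((m + 1 : ℕ) : ℝ) + 2) * s ^ ρ / s ^ (m + 1) := by
            push_cast
            rw [pow_succ]
            field_simp
  exact key _ v rfl

/-- Weighted sum of a profile with total mass at most one. -/
theorem weight_sum_le (hG : G.IsTree) {d : ℕ} (hd : 3 ≤ d) (hreg : ∀ v, G.degree v = d) {s : ℝ}
    (hs0 : 0 < s) (hs : s ^ 2 = (d : ℝ) - 1) (Q : ℕ → ℝ) (hQ0 : ∀ n, 0 ≤ Q n) (r : ℕ) (u v : V)
    (B : Finset V) (hB : ∀ x, x ∈ B ↔ G.dist u x ≤ r) (h1 : ∑ x ∈ B, Q (G.dist u x) ≤ 1) :
    ∑ x ∈ B, s ^ G.dist u x / s ^ G.dist v x * Q (G.dist u x)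
      ≤ (2 * G.dist u v + 2) / s ^ G.dist u v := by
  have hfib : ∀ F : V → ℝ, ∑ x ∈ B, F x = ∑ n ∈ Finset.range (r + 1), ∑ x ∈ sph G u n, F x := by
    intro F
    have hm : ∀ x ∈ B, G.dist u x ∈ Finset.range (r + 1) := by
      intro x hx
      rw [Finset.mem_range]
      have := (hB x).mp hx
      omega
    rw [← Finset.sum_fiberwise_of_maps_to hm]
    apply Finset.sum_congr rfl
    intro n hn
    apply Finset.sum_congr _ (fun _ _ => rfl)
    ext x
    rw [Finset.mem_filter, mem_sph hG.connected, hB]
    rw [Finset.mem_range] at hn
    constructor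
    · exact fun h => h.2
    · intro h
      exact ⟨by omega, h⟩
  rw [hfib] at h1 ⊢
  calc ∑ n ∈ Finset.range (r + 1), ∑ x ∈ sph G u n, s ^ G.dist u x / s ^ G.dist v x
          * Q (G.dist u x)
      ≤ ∑ n ∈ Finset.range (r + 1), (2 * G.dist u v + 2) / s ^ G.dist u v
          * ∑ x ∈ sph G u n, Q (G.dist u x) := by
        apply Finset.sum_le_sum
        intro n _
        have e1 : ∑ x ∈ sph G u n, s ^ G.dist u x / s ^ G.dist v x * Q (G.dist u x)
            = (s ^ n * Q n) * ∑ x ∈ sph G u n, 1 / s ^ G.dist v x := by
          rw [Finset.mul_sum]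
          apply Finset.sum_congr rfl
          intro x hx
          rw [(mem_sph hG.connected u n x).mp hx]
          ring
        have e2 : ∑ x ∈ sph G u n, Q (G.dist u x) = ((sph G u n).card : ℝ) * Q n := by
          rw [← nsmul_eq_mul, ← Finset.sum_const]
          apply Finset.sum_congr rfl
          intro x hx
          rw [(mem_sph hG.connected u n x).mp hx]
        rw [e1, e2]
        have hge := card_sph_ge hG (by omega : 2 ≤ d) hreg u n
        rw [← hs, ← pow_mul] at hge
        calc (s ^ n * Q n) * ∑ x ∈ sph G u n, 1 / s ^ G.dist v x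
            ≤ (s ^ n * Q n) * ((2 * G.dist u v + 2) * s ^ n / s ^ G.dist u v) := by
              apply mul_le_mul_of_nonneg_left (sph_sum_le hG hd hreg hs0 hs u v n)
              exact mul_nonneg (by positivity) (hQ0 n)
          _ = (2 * G.dist u v + 2) / s ^ G.dist u v * (s ^ (2 * n) * Q n) := by
              rw [two_mul n, pow_add]
              ring
          _ ≤ (2 * G.dist u v + 2) / s ^ G.dist u v * (((sph G u n).card : ℝ) * Q n) := by
              apply mul_le_mul_of_nonneg_left _ (by positivity)
              exact mul_le_mul_of_nonneg_right hge (hQ0 n)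
    _ = (2 * G.dist u v + 2) / s ^ G.dist u v
          * ∑ n ∈ Finset.range (r + 1), ∑ x ∈ sph G u n, Q (G.dist u x) := by
        rw [Finset.mul_sum]
    _ ≤ (2 * G.dist u v + 2) / s ^ G.dist u v * 1 := by
        apply mul_le_mul_of_nonneg_left h1 (by positivity)
    _ = _ := mul_one _

end Vale.Agent.P161c
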