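import Vale.Agent.P161c.ConvA
import Vale.Agent.H13.P161.Net

/-!
Converse direction: random order of the vertices and the shares of the vertices in the variance.
-/

set_option linter.unusedSectionVars false
set_option linter.unusedVariables false

namespace Vale.Agent.P161c

open MeasureTheory SimpleGraph Vale.Agent.H13.P161 Filter Topology

variable {V : Type*}

/-- vertices of `F` with time at most that of `x` -/
def leS (F : Finset V) (t : V → unitInterval) (x : V) : Set V := {y | y ∈ F ∧ t y ≤ t x}

/-- vertices of `F` with time less than that of `x` -/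
def ltS (F : Finset V) (t : V → unitInterval) (x : V) : Set V := {y | y ∈ F ∧ t y < t x}

/-- share of the vertex `x` in the variance of `f` (random order of `F`) -/
noncomputable def qsh (F : Finset V) (x : V) (f : (V → unitInterval) → ℝ) : ℝ :=
  ∫ t, (CA (leS F t x) f f - CA (ltS F t x) f f) ∂(iidLabels V)

lemma leS_subset (F : Finset V) (t : V → unitInterval) (x : V) : ltS F t x ⊆ leS F t x :=
  fun _ hy => ⟨hy.1, hy.2.le⟩

/-- telescoping along the order given by `t` (induction on `F`: remove the last vertex) -/
lemma order_tele [DecidableEq V] (C : Set V → ℝ) (F : Finset V) (t : V → unitInterval)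
    (ht : ∀ x ∈ F, ∀ y ∈ F, t x = t y → x = y) :
    ∑ x ∈ F, (C (leS F t x) - C (ltS F t x)) = C F - C ∅ := by
  classical
  induction hn : F.card generalizing F with
  | zero =>
    have : F = ∅ := Finset.card_eq_zero.mp hn
    subst this
    simp
  | succ n ih =>
    have hne : F.Nonempty := by
      rw [← Finset.card_pos]; omega
    obtain ⟨z, hz, hmax⟩ := F.exists_max_image t hne
    have hlt : ∀ y ∈ F.erase z, t y < t z := by
      intro y hy
      have h1 := hmax y (Finset.mem_of_mem_erase hy)
      refine lt_of_le_of_ne h1 (fun h => ?_)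
      exact Finset.ne_of_mem_erase hy (ht y (Finset.mem_of_mem_erase hy) z hz h)
    have hih := ih (F.erase z) (fun x hx y hy => ht x (Finset.mem_of_mem_erase hx) y
      (Finset.mem_of_mem_erase hy)) (by rw [Finset.card_erase_of_mem hz]; omega)
    rw [← Finset.add_sum_erase F _ hz]
    have e1 : leS F t z = (F : Set V) := by
      ext y
      simp only [leS, Set.mem_ofPred_eq, Finset.mem_coe]
      exact ⟨fun h => h.1, fun h => ⟨h, hmax y h⟩⟩
    have e2 : ltS F t z = ((F.erase z : Finset V) : Set V) := by
      ext y
      simp only [ltS, Set.mem_ofPred_eq, Finset.mem_coe]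
      constructor
      · rintro ⟨h1, h2⟩
        refine Finset.mem_erase.mpr ⟨?_, h1⟩
        rintro rfl
        exact lt_irrefl _ h2
      · intro h
        exact ⟨Finset.mem_of_mem_erase h, hlt y h⟩
    have e3 : ∀ x ∈ F.erase z, leS F t x = leS (F.erase z) t x := by
      intro x hx
      ext y
      simp only [leS, Set.mem_ofPred_eq]
      constructor
      · rintro ⟨h1, h2⟩
        refine ⟨Finset.mem_erase.mpr ⟨?_, h1⟩, h2⟩
        rintro rfl
        exact absurd (hlt x hx) (not_lt.mpr h2)
      · rintro ⟨h1, h2⟩
        exact ⟨Finset.mem_of_mem_erase h1, h2⟩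
    have e4 : ∀ x ∈ F.erase z, ltS F t x = ltS (F.erase z) t x := by
      intro x hx
      ext y
      simp only [ltS, Set.mem_ofPred_eq]
      constructor
      · rintro ⟨h1, h2⟩
        refine ⟨Finset.mem_erase.mpr ⟨?_, h1⟩, h2⟩
        rintro rfl
        exact absurd (hlt x hx) (not_lt.mpr h2.le)
      · rintro ⟨h1, h2⟩
        exact ⟨Finset.mem_of_mem_erase h1, h2⟩
    have e5 : ∑ x ∈ F.erase z, (C (leS F t x) - C (ltS F t x))
        = ∑ x ∈ F.erase z, (C (leS (F.erase z) t x) - C (ltS (F.erase z) t x)) :=
      Finset.sum_congr rfl (fun x hx => by rw [e3 x hx, e4 x hx])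
    rw [e5, hih, e1, e2]
    ring

/-- a functional of a random finite subset, described by finitely many measurable conditions, is
measurable and bounded -/
lemma nice_finset (F : Finset V) (S : (V → unitInterval) → Set V)
    (hS : ∀ t, S t ⊆ F) (hm : ∀ y ∈ F, MeasurableSet {t | y ∈ S t}) (C : Set V → ℝ) :
    Nice (fun t : V → unitInterval => C (S t)) := by
  classical
  -- sum over the possible values
  have e : (fun t : V → unitInterval => C (S t))
      = fun t => ∑ D ∈ F.powerset, Set.indicator {t | S t = (D : Set V)} (fun _ => C D) t := by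
    funext t
    set D0 : Finset V := F.filter (fun y => y ∈ S t) with hD0
    have hSD : S t = (D0 : Set V) := by
      ext y
      simp only [hD0, Finset.coe_filter, Set.mem_ofPred_eq]
      exact ⟨fun h => ⟨hS t h, h⟩, fun h => h.2⟩
    rw [Finset.sum_eq_single_of_mem D0 (Finset.mem_powerset.mpr (Finset.filter_subset _ _))]
    · rw [Set.indicator_of_mem]
      · rw [hSD]
      · exact hSD
    · intro D _ hne
      rw [Set.indicator_of_notMem]
      intro h
      apply hne
      have h1 : S t = (D : Set V) := h
      rw [hSD] at h1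
      exact (Finset.coe_injective h1).symm
  rw [e]
  apply Nice.sum
  intro D hD
  have hmeas : MeasurableSet {t : V → unitInterval | S t = (D : Set V)} := by
    have e2 : {t : V → unitInterval | S t = (D : Set V)}
        = ⋂ y ∈ F, {t | y ∈ S t ↔ y ∈ D} := by
      ext t
      simp only [Set.mem_ofPred_eq, Set.mem_iInter]
      constructor
      · intro h y _
        rw [h, Finset.mem_coe]
      · intro h
        ext y
        by_cases hy : y ∈ F
        · rw [Finset.mem_coe]
          exact h y hy
        · constructor
          · intro h2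
            exact absurd (hS t h2) hy
          · intro h2
            exact absurd (Finset.mem_powerset.mp hD h2) hy
    rw [e2]
    apply Finset.measurableSet_biInter
    intro y hy
    by_cases hyD : y ∈ D
    · have : {t : V → unitInterval | y ∈ S t ↔ y ∈ D} = {t | y ∈ S t} := by
        ext t; simp [hyD]
      rw [this]
      exact hm y hy
    · have : {t : V → unitInterval | y ∈ S t ↔ y ∈ D} = {t | y ∈ S t}ᶜ := by
        ext t; simp [hyD]
      rw [this]
      exact (hm y hy).compl
  refine ⟨measurable_const.indicator hmeas, |C D|, fun t => ?_⟩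
  by_cases h : t ∈ {t : V → unitInterval | S t = (D : Set V)}
  · rw [Set.indicator_of_mem h]
  · rw [Set.indicator_of_notMem h]
    simp

/-- the covariances along the random order are bounded measurable functions of the times: finitely
many values, each on a measurable set of times -/
lemma nice_order (F : Finset V) (x : V) (C : Set V → ℝ) :
    Nice (fun t : V → unitInterval => C (leS F t x)) ∧
    Nice (fun t : V → unitInterval => C (ltS F t x)) := by
  constructor
  · apply nice_finset F (fun t => leS F t x) (fun t y hy => hy.1)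
    intro y hy
    have : {t : V → unitInterval | y ∈ leS F t x} = {t | t y ≤ t x} := by
      ext t
      simp only [leS, Set.mem_ofPred_eq]
      exact ⟨fun h => h.2, fun h => ⟨hy, h⟩⟩
    rw [this]
    exact measurableSet_le (measurable_pi_apply y) (measurable_pi_apply x)
  · apply nice_finset F (fun t => ltS F t x) (fun t y hy => hy.1)
    intro y hy
    have : {t : V → unitInterval | y ∈ ltS F t x} = {t | t y < t x} := by
      ext t
      simp only [ltS, Set.mem_ofPred_eq]
      exact ⟨fun h => h.2, fun h => ⟨hy, h⟩⟩
    rw [this]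
    exact measurableSet_lt (measurable_pi_apply y) (measurable_pi_apply x)

variable [Countable V] [DecidableEq V]

lemma qsh_nonneg {f : (V → unitInterval) → ℝ} (hf : Nice f) (F : Finset V) (x : V) :
    0 ≤ qsh F x f := by
  unfold qsh
  apply integral_nonneg
  intro t
  have := CA_mono hf (leS_subset F t x)
  simp only [Pi.zero_apply]
  linarith

lemma ae_injOn (F : Finset V) : ∀ᵐ t ∂(iidLabels V), ∀ x ∈ F, ∀ y ∈ F, t x = t y → x = y := by
  have h : ∀ x y : V, ∀ᵐ t ∂(iidLabels V), t x = t y → x = y := by
    intro x y
    by_cases hxy : x = y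
    · exact Eventually.of_forall (fun t _ => hxy)
    · filter_upwards [ae_ne_of_ne hxy] with t ht h
      exact absurd h ht
  have h2 : ∀ᵐ t ∂(iidLabels V), ∀ x y : V, t x = t y → x = y := by
    rw [ae_all_iff]; intro x; rw [ae_all_iff]; exact h x
  filter_upwards [h2] with t ht x _ y _
  exact ht x y

/-- the shares sum up to the variance of the conditional expectation (almost surely no ties in `F`) -/
lemma sum_qsh {f : (V → unitInterval) → ℝ} (hf : Nice f) (F : Finset V) :
    ∑ x ∈ F, qsh F x f = CA F f f - CA ∅ f f := by
  unfold qsh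
  have nn : ∀ x, Nice (fun t : V → unitInterval => CA (leS F t x) f f - CA (ltS F t x) f f) :=
    fun x => (nice_order F x (fun A => CA A f f)).1.sub (nice_order F x (fun A => CA A f f)).2
  rw [← integral_finsetSum _ (fun x _ => (nn x).integrable _)]
  have e : ∫ t, ∑ x ∈ F, (CA (leS F t x) f f - CA (ltS F t x) f f) ∂(iidLabels V)
      = ∫ _t, (CA F f f - CA ∅ f f) ∂(iidLabels V) := by
    apply integral_congr_ae
    filter_upwards [ae_injOn F] with t ht
    exact order_tele (fun A => CA A f f) F t ht
  rw [e]
  simp

/-- dummy vertices: for a functional of the labels in `B ⊆ F` only the vertices in `B` count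
(`CA_inter`) -/
lemma qsh_dep {f : (V → unitInterval) → ℝ} (hf : Nice f) {B F : Finset V} (hBF : B ⊆ F) (x : V)
    (hxF : x ∈ F) :
    qsh F x (EA B f) = if x ∈ B then qsh B x (EA B f) else 0 := by
  have h1 : ∀ t : V → unitInterval, leS F t x ∩ B = leS B t x := by
    intro t
    ext y
    simp only [leS, Set.mem_inter_iff, Set.mem_ofPred_eq, Finset.mem_coe]
    exact ⟨fun h => ⟨h.2, h.1.2⟩, fun h => ⟨⟨hBF h.1, h.2⟩, h.1⟩⟩
  have h2 : ∀ t : V → unitInterval, ltS F t x ∩ B = ltS B t x := by
    intro t
    ext y
    simp only [ltS, Set.mem_inter_iff, Set.mem_ofPred_eq, Finset.mem_coe]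
    exact ⟨fun h => ⟨h.2, h.1.2⟩, fun h => ⟨⟨hBF h.1, h.2⟩, h.1⟩⟩
  have h3 : ∀ t : V → unitInterval, leS B t x ∩ B = leS B t x := by
    intro t
    apply Set.inter_eq_left.mpr
    exact fun y hy => hy.1
  have h4 : ∀ t : V → unitInterval, ltS B t x ∩ B = ltS B t x := by
    intro t
    apply Set.inter_eq_left.mpr
    exact fun y hy => hy.1
  by_cases hx : x ∈ B
  · rw [if_pos hx]
    unfold qsh
    congr 1
    ext t
    rw [CA_inter hf hf, CA_inter hf hf, CA_inter hf hf, CA_inter hf hf, h1, h2, h3, h4]
  · rw [if_neg hx]
    unfold qsh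
    have e : ∫ t, (CA (leS F t x) (EA B f) (EA B f) - CA (ltS F t x) (EA B f) (EA B f))
        ∂(iidLabels V) = ∫ _t, (0 : ℝ) ∂(iidLabels V) := by
      apply integral_congr_ae
      filter_upwards [ae_injOn F] with t ht
      rw [CA_inter hf hf, CA_inter hf hf, h1, h2]
      have : leS B t x = ltS B t x := by
        ext y
        simp only [leS, ltS, Set.mem_ofPred_eq]
        constructor
        · rintro ⟨a, b⟩
          refine ⟨a, lt_of_le_of_ne b (fun h => ?_)⟩
          have := ht y (hBF a) x hxF h
          exact hx (this ▸ a)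
        · rintro ⟨a, b⟩
          exact ⟨a, b.le⟩
      rw [this, sub_self]
    rw [e, integral_zero]

/-- Pair inequality: the covariance of two functionals is at most a weighted sum of the shares
(`order_tele` with `C A = CA A _ _`, `CA_sub_le`). -/
theorem cov_le_shares {f g : (V → unitInterval) → ℝ} (hf : Nice f) (hg : Nice g)
    {B B' F : Finset V} (hB : B ⊆ F) (hB' : B' ⊆ F) (lam : V → ℝ) (hlam : ∀ x, 0 < lam x) :
    ∫ U, EA B f U * EA B' g U ∂(iidLabels V)
        - (∫ U, f U ∂(iidLabels V)) * (∫ U, g U ∂(iidLabels V))
      ≤ (∑ x ∈ B, lam x * qsh B x (EA B f) + ∑ x ∈ B', qsh B' x (EA B' g) / lam x) / 2 := by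
  have nf := nice_EA hf (B : Set V)
  have ng := nice_EA hg (B' : Set V)
  set p := EA B f with hp
  set q := EA B' g with hq
  -- the left side is the total increment
  have hF : CA F p q = ∫ U, p U * q U ∂(iidLabels V) := by
    unfold CA
    congr 1
    ext U
    rw [hp, hq, EA_EA hf, EA_EA hg, Set.inter_eq_right.mpr (by exact_mod_cast hB),
      Set.inter_eq_right.mpr (by exact_mod_cast hB')]
  have h0 : CA ∅ p q = (∫ U, f U ∂(iidLabels V)) * (∫ U, g U ∂(iidLabels V)) := by
    unfold CA
    have e : ∀ U : V → unitInterval, EA ∅ p U * EA ∅ q U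
        = (∫ U, f U ∂(iidLabels V)) * (∫ U, g U ∂(iidLabels V)) := by
      intro U
      rw [EA_empty, EA_empty, hp, hq, integral_EA hf, integral_EA hg]
    simp only [e]
    simp
  have nn : ∀ (a b : (V → unitInterval) → ℝ) x, Nice (fun t : V → unitInterval =>
      CA (leS F t x) a b - CA (ltS F t x) a b) := fun a b x =>
    (nice_order F x (fun A => CA A a b)).1.sub (nice_order F x (fun A => CA A a b)).2
  have e1 : CA F p q - CA ∅ p q
      = ∫ t, ∑ x ∈ F, (CA (leS F t x) p q - CA (ltS F t x) p q) ∂(iidLabels V) := by
    have : ∫ t, ∑ x ∈ F, (CA (leS F t x) p q - CA (ltS F t x) p q) ∂(iidLabels V)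
        = ∫ _t, (CA F p q - CA ∅ p q) ∂(iidLabels V) := by
      apply integral_congr_ae
      filter_upwards [ae_injOn F] with t ht
      exact order_tele (fun A => CA A p q) F t ht
    rw [this]
    simp
  have nR : ∀ x, Nice (fun t : V → unitInterval =>
      (lam x * (CA (leS F t x) p p - CA (ltS F t x) p p)
        + (CA (leS F t x) q q - CA (ltS F t x) q q) / lam x) / 2) := by
    intro x
    have := ((Nice.const (Ω := V → unitInterval) (lam x / 2)).mul (nn p p x)).add
      ((Nice.const (Ω := V → unitInterval) (1 / (2 * lam x))).mul (nn q q x))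
    have hl := (hlam x).ne'
    refine (by
      have e : (fun t : V → unitInterval =>
        (lam x * (CA (leS F t x) p p - CA (ltS F t x) p p)
          + (CA (leS F t x) q q - CA (ltS F t x) q q) / lam x) / 2)
          = fun t => lam x / 2 * (CA (leS F t x) p p - CA (ltS F t x) p p)
            + 1 / (2 * lam x) * (CA (leS F t x) q q - CA (ltS F t x) q q) := by
        funext t
        field_simp
      rw [e]
      exact this)
  have e2 : ∫ t, ∑ x ∈ F, (CA (leS F t x) p q - CA (ltS F t x) p q) ∂(iidLabels V)
      ≤ ∫ t, ∑ x ∈ F, (lam x * (CA (leS F t x) p p - CA (ltS F t x) p p)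
        + (CA (leS F t x) q q - CA (ltS F t x) q q) / lam x) / 2 ∂(iidLabels V) := by
    apply Nice.integral_mono' (Nice.sum _ (fun x _ => nn p q x)) (Nice.sum _ (fun x _ => nR x))
    intro t
    apply Finset.sum_le_sum
    intro x _
    exact CA_sub_le nf ng (leS_subset F t x) (hlam x)
  have e3 : ∫ t, ∑ x ∈ F, (lam x * (CA (leS F t x) p p - CA (ltS F t x) p p)
        + (CA (leS F t x) q q - CA (ltS F t x) q q) / lam x) / 2 ∂(iidLabels V)
      = ∑ x ∈ F, (lam x * qsh F x p + qsh F x q / lam x) / 2 := by
    rw [integral_finsetSum _ (fun x _ => (nR x).integrable _)]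
    apply Finset.sum_congr rfl
    intro x _
    unfold qsh
    rw [integral_div, (((Nice.const (lam x)).mul (nn p p x)).integral_add' (by
      have h := (Nice.const (Ω := V → unitInterval) (1 / lam x)).mul (nn q q x)
      have e : (fun t : V → unitInterval => (CA (leS F t x) q q - CA (ltS F t x) q q) / lam x)
          = fun t => 1 / lam x * (CA (leS F t x) q q - CA (ltS F t x) q q) := by
        funext t
        field_simp
      rw [e]
      exact h)), integral_const_mul, integral_div]
  have e4 : ∑ x ∈ F, (lam x * qsh F x p + qsh F x q / lam x) / 2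
      = (∑ x ∈ B, lam x * qsh B x p + ∑ x ∈ B', qsh B' x q / lam x) / 2 := by
    rw [← Finset.sum_div, Finset.sum_add_distrib]
    congr 2
    · rw [← Finset.sum_subset hB]
      · apply Finset.sum_congr rfl
        intro x hx
        rw [hp, qsh_dep hf hB x (hB hx), if_pos hx]
      · intro x hxF hx
        rw [hp, qsh_dep hf hB x hxF, if_neg hx, mul_zero]
    · rw [← Finset.sum_subset hB']
      · apply Finset.sum_congr rfl
        intro x hx
        rw [hq, qsh_dep hg hB' x (hB' hx), if_pos hx]
      · intro x hxF hx
        rw [hq, qsh_dep hg hB' x hxF, if_neg hx, zero_div]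
  rw [← hF, ← h0, e1]
  linarith

end Vale.Agent.P161c
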