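import Vale.Agent.H13.P161.Nice

/-!
Relative products: two conditionally independent copies of the second coordinate.
-/

namespace Vale.Agent.P161c

open MeasureTheory ProbabilityTheory Vale.Agent.H13.P161

/-- equality of measures from integrals of bounded measurable functions -/
lemma meas_ext_niceR {Ω : Type*} [MeasurableSpace Ω] {P Q : Measure Ω} [IsFiniteMeasure P]
    [IsFiniteMeasure Q] (h : ∀ g : Ω → ℝ, Nice g → ∫ ω, g ω ∂P = ∫ ω, g ω ∂Q) : P = Q := by
  ext A hA
  have n : Nice (A.indicator (fun _ => (1 : ℝ))) := ⟨measurable_const.indicator hA, 1, fun y => by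
    by_cases hy : y ∈ A <;> simp [hy]⟩
  have h1 := h _ n
  rw [integral_indicator hA, integral_indicator hA] at h1
  simp only [integral_const, smul_eq_mul, mul_one, Measure.real, Measure.restrict_apply_univ] at h1
  exact (ENNReal.toReal_eq_toReal_iff' (measure_ne_top _ _) (measure_ne_top _ _)).mp h1

section

variable {O Y : Type*} [MeasurableSpace O] [MeasurableSpace Y] [StandardBorelSpace Y] [Nonempty Y]
  (Q : Measure (O × Y)) [IsProbabilityMeasure Q]

/-- relative product of `Q` with itself over the first coordinate -/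
noncomputable def relP : Measure (O × (Y × Y)) := Q.fst.compProd (Q.condKernel ×ₖ Q.condKernel)

instance instProbRelP : IsProbabilityMeasure (relP Q) := by unfold relP; infer_instance

/-- conditional expectation of a function given the first coordinate -/
noncomputable def hatF (F : O × Y → ℝ) (o : O) : ℝ := ∫ y, F (o, y) ∂(Q.condKernel o)

variable {Q}

lemma nice_hatF {F : O × Y → ℝ} (hF : Nice F) : Nice (hatF Q F) := by
  obtain ⟨C, hC⟩ := hF.2
  refine ⟨?_, C, fun o => ?_⟩
  · exact (hF.1.stronglyMeasurable.integral_kernel_prod_right' (κ := Q.condKernel)).measurable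
  · calc |∫ y, F (o, y) ∂(Q.condKernel o)| ≤ ∫ y, |F (o, y)| ∂(Q.condKernel o) :=
        abs_integral_le_integral_abs
      _ ≤ ∫ _y, C ∂(Q.condKernel o) := by
        apply integral_mono
        · exact ((hF.comp (measurable_prodMk_left (x := o))).integrable _).abs
        · exact integrable_const C
        · exact fun y => hC _
      _ = C := by simp

lemma integral_Q {F : O × Y → ℝ} (hF : Nice F) : ∫ q, F q ∂Q = ∫ o, hatF Q F o ∂Q.fst := by
  have h := Q.disintegrate Q.condKernel
  conv_lhs => rw [← h]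
  rw [Measure.integral_compProd]
  · rfl
  · rw [h]; exact hF.integrable Q

lemma hatF_mul {F : O × Y → ℝ} {G : O → ℝ} (o : O) :
    hatF Q (fun q => F q * G q.1) o = hatF Q F o * G o := by
  unfold hatF
  simp only
  rw [integral_mul_const]

lemma integral_Q_mul {F : O × Y → ℝ} (hF : Nice F) {G : O → ℝ} (hG : Nice G) :
    ∫ q, F q * G q.1 ∂Q = ∫ o, hatF Q F o * G o ∂Q.fst := by
  rw [integral_Q (hF.mul (hG.comp measurable_fst))]
  simp only [hatF_mul]

lemma integral_relP {F F' : O × Y → ℝ} (hF : Nice F) (hF' : Nice F') :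
    ∫ q, F (q.1, q.2.1) * F' (q.1, q.2.2) ∂(relP Q) = ∫ o, hatF Q F o * hatF Q F' o ∂Q.fst := by
  have n : Nice (fun q : O × (Y × Y) => F (q.1, q.2.1) * F' (q.1, q.2.2)) := by
    apply (hF.comp _).mul (hF'.comp _)
    · exact measurable_fst.prodMk (measurable_fst.comp measurable_snd)
    · exact measurable_fst.prodMk (measurable_snd.comp measurable_snd)
  unfold relP
  rw [Measure.integral_compProd]
  · congr 1
    ext o
    simp only [Kernel.prod_apply]
    exact integral_prod_mul (fun y => F (o, y)) (fun y => F' (o, y))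
  · exact n.integrable _

/-- three-fold product form -/
lemma integral_relP_mul {h : O → ℝ} {F F' : O × Y → ℝ} (hh : Nice h) (hF : Nice F)
    (hF' : Nice F') :
    ∫ q, h q.1 * (F (q.1, q.2.1) * F' (q.1, q.2.2)) ∂(relP Q)
      = ∫ o, h o * (hatF Q F o * hatF Q F' o) ∂Q.fst := by
  have h1 := integral_relP (Q := Q) (hF.mul (hh.comp measurable_fst)) hF'
  calc ∫ q, h q.1 * (F (q.1, q.2.1) * F' (q.1, q.2.2)) ∂(relP Q)
      = ∫ q, (fun q : O × Y => F q * h q.1) (q.1, q.2.1) * F' (q.1, q.2.2) ∂(relP Q) := by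
        congr 1; ext q; simp only; ring
    _ = _ := h1
    _ = _ := by
        congr 1; ext o
        rw [hatF_mul]; ring

/-- integrating out the second copy -/
lemma integral_relP_left {F : O × Y → ℝ} (hF : Nice F) :
    ∫ q, F (q.1, q.2.1) ∂(relP Q) = ∫ q, F q ∂Q := by
  have h1 := integral_relP (Q := Q) hF (Nice.const 1)
  have h2 : ∀ o, hatF Q (fun _ => (1 : ℝ)) o = 1 := by intro o; simp [hatF]
  simp only [mul_one, h2] at h1
  rw [h1, integral_Q hF]

lemma integral_relP_right {F : O × Y → ℝ} (hF : Nice F) :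
    ∫ q, F (q.1, q.2.2) ∂(relP Q) = ∫ q, F q ∂Q := by
  have h1 := integral_relP (Q := Q) (Nice.const 1) hF
  have h2 : ∀ o, hatF Q (fun _ => (1 : ℝ)) o = 1 := by intro o; simp [hatF]
  simp only [one_mul, h2] at h1
  rw [h1, integral_Q hF]

lemma relP_map_left : (relP Q).map (fun q => (q.1, q.2.1)) = Q := by
  have m : Measurable (fun q : O × (Y × Y) => (q.1, q.2.1)) :=
    measurable_fst.prodMk (measurable_fst.comp measurable_snd)
  have := Measure.isProbabilityMeasure_map (μ := relP Q) m.aemeasurable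
  apply meas_ext_niceR
  intro g hg
  rw [integral_map m.aemeasurable hg.1.aestronglyMeasurable]
  exact integral_relP_left hg

lemma relP_map_right : (relP Q).map (fun q => (q.1, q.2.2)) = Q := by
  have m : Measurable (fun q : O × (Y × Y) => (q.1, q.2.2)) :=
    measurable_fst.prodMk (measurable_snd.comp measurable_snd)
  have := Measure.isProbabilityMeasure_map (μ := relP Q) m.aemeasurable
  apply meas_ext_niceR
  intro g hg
  rw [integral_map m.aemeasurable hg.1.aestronglyMeasurable]
  exact integral_relP_right hg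

/-- one copy against a conditional expectation -/
lemma integral_relP_hat {F F' : O × Y → ℝ} (hF : Nice F) (hF' : Nice F') :
    ∫ q, F (q.1, q.2.1) * F' (q.1, q.2.2) ∂(relP Q) = ∫ q, F q * hatF Q F' q.1 ∂Q := by
  rw [integral_relP hF hF', integral_Q_mul hF (nice_hatF hF')]

/-- a finite measure on a triple product is determined by product integrals -/
lemma ext_prod3_nice {ρ₁ ρ₂ : Measure (O × (Y × Y))} [IsFiniteMeasure ρ₁] [IsFiniteMeasure ρ₂]
    (h : ∀ (f : O → ℝ) (F F' : Y → ℝ), Nice f → Nice F → Nice F' →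
      ∫ q, f q.1 * (F q.2.1 * F' q.2.2) ∂ρ₁ = ∫ q, f q.1 * (F q.2.1 * F' q.2.2) ∂ρ₂) :
    ρ₁ = ρ₂ := by
  apply Measure.ext_prod₃
  intro s t u hs ht hu
  have n1 : Nice (s.indicator (fun _ => (1 : ℝ))) := ⟨measurable_const.indicator hs, 1, fun y => by
    by_cases hy : y ∈ s <;> simp [hy]⟩
  have n2 : Nice (t.indicator (fun _ => (1 : ℝ))) := ⟨measurable_const.indicator ht, 1, fun y => by
    by_cases hy : y ∈ t <;> simp [hy]⟩
  have n3 : Nice (u.indicator (fun _ => (1 : ℝ))) := ⟨measurable_const.indicator hu, 1, fun y => by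
    by_cases hy : y ∈ u <;> simp [hy]⟩
  have h1 := h _ _ _ n1 n2 n3
  have e : (fun q : O × (Y × Y) => s.indicator (fun _ => (1 : ℝ)) q.1 *
      (t.indicator (fun _ => (1 : ℝ)) q.2.1 * u.indicator (fun _ => (1 : ℝ)) q.2.2))
      = (s ×ˢ t ×ˢ u).indicator (fun _ => (1 : ℝ)) := by
    ext q
    by_cases h1 : q.1 ∈ s
    · by_cases h2 : q.2.1 ∈ t
      · by_cases h3 : q.2.2 ∈ u
        · rw [Set.indicator_of_mem h1, Set.indicator_of_mem h2, Set.indicator_of_mem h3,
            Set.indicator_of_mem (Set.mk_mem_prod h1 (Set.mk_mem_prod h2 h3))]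
          norm_num
        · have h4 : q ∉ s ×ˢ t ×ˢ u := fun hq => h3 hq.2.2
          rw [Set.indicator_of_notMem h3, Set.indicator_of_notMem h4]
          ring
      · have h4 : q ∉ s ×ˢ t ×ˢ u := fun hq => h2 hq.2.1
        rw [Set.indicator_of_notMem h2, Set.indicator_of_notMem h4]
        ring
    · have h4 : q ∉ s ×ˢ t ×ˢ u := fun hq => h1 hq.1
      rw [Set.indicator_of_notMem h1, Set.indicator_of_notMem h4]
      ring
  have hm : MeasurableSet (s ×ˢ t ×ˢ u) := hs.prod (ht.prod hu)
  rw [e, integral_indicator hm, integral_indicator hm] at h1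
  simp only [integral_const, smul_eq_mul, mul_one, Measure.real, Measure.restrict_apply_univ] at h1
  exact (ENNReal.toReal_eq_toReal_iff' (measure_ne_top _ _) (measure_ne_top _ _)).mp h1

/-- symmetry of the relative product -/
lemma relP_swap_map : (relP Q).map (fun q => (q.1, (q.2.2, q.2.1))) = relP Q := by
  have m : Measurable (fun q : O × (Y × Y) => (q.1, (q.2.2, q.2.1))) := by fun_prop
  have := Measure.isProbabilityMeasure_map (μ := relP Q) m.aemeasurable
  apply ext_prod3_nice
  intro f F F' hf hF hF'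
  have n : Nice (fun q : O × (Y × Y) => f q.1 * (F q.2.1 * F' q.2.2)) := by
    apply (hf.comp measurable_fst).mul
    exact (hF.comp (measurable_fst.comp measurable_snd)).mul
      (hF'.comp (measurable_snd.comp measurable_snd))
  rw [integral_map m.aemeasurable n.1.aestronglyMeasurable]
  have h1 := integral_relP_mul (Q := Q) hf (hF.comp measurable_snd) (hF'.comp measurable_snd)
  have h2 := integral_relP_mul (Q := Q) hf (hF'.comp measurable_snd) (hF.comp measurable_snd)
  calc ∫ q, f q.1 * (F q.2.2 * F' q.2.1) ∂(relP Q)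
      = ∫ q, f q.1 * (F' q.2.1 * F q.2.2) ∂(relP Q) := by
        congr 1; ext q; ring
    _ = _ := h2
    _ = _ := by
        rw [h1]
        congr 1; ext o; ring

lemma relP_swap {F : O × (Y × Y) → ℝ} (hF : Nice F) :
    ∫ q, F (q.1, (q.2.2, q.2.1)) ∂(relP Q) = ∫ q, F q ∂(relP Q) := by
  have m : Measurable (fun q : O × (Y × Y) => (q.1, (q.2.2, q.2.1))) := by fun_prop
  conv_rhs => rw [← relP_swap_map]
  rw [integral_map m.aemeasurable hF.1.aestronglyMeasurable]

/-- two bounded functions with the same integrals against all bounded functions agree a.e. -/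
lemma ae_eq_of_integrals {Ω : Type*} [MeasurableSpace Ω] {P : Measure Ω} [IsFiniteMeasure P]
    {f g : Ω → ℝ} (hf : Nice f) (hg : Nice g)
    (h : ∀ k : Ω → ℝ, Nice k → ∫ ω, k ω * f ω ∂P = ∫ ω, k ω * g ω ∂P) : f =ᵐ[P] g := by
  have n := hf.sub hg
  have h1 := h _ n
  have h2 : ∫ ω, (f ω - g ω) ^ 2 ∂P = 0 := by
    have e : ∀ ω, (f ω - g ω) ^ 2 = (f ω - g ω) * f ω - (f ω - g ω) * g ω := fun ω => by ring
    simp only [e]
    rw [(n.mul hf).integral_sub' (n.mul hg), h1, sub_self]
  rw [integral_eq_zero_iff_of_nonneg (fun ω => sq_nonneg _) ((n.pow 2).integrable P)] at h2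
  filter_upwards [h2] with ω hω
  have h3 : (f ω - g ω) ^ 2 = 0 := hω
  have h4 : f ω - g ω = 0 := by simpa using h3
  linarith

/-- equivariance of the conditional expectation -/
lemma hatF_equiv {τ τ' : O → O} {ρ : Y → Y} (hτ : Measurable τ) (hτ' : Measurable τ')
    (hρ : Measurable ρ) (hleft : ∀ o, τ' (τ o) = o)
    (hinv : Q.map (fun q => (τ q.1, ρ q.2)) = Q) {F : O × Y → ℝ} (hF : Nice F) :
    hatF Q (fun q => F (τ q.1, ρ q.2)) =ᵐ[Q.fst] fun o => hatF Q F (τ o) := by
  have mT : Measurable (fun q : O × Y => (τ q.1, ρ q.2)) :=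
    (hτ.comp measurable_fst).prodMk (hρ.comp measurable_snd)
  have hfst : Q.fst.map τ = Q.fst := by
    unfold Measure.fst
    rw [Measure.map_map hτ measurable_fst]
    conv_rhs => rw [← hinv]
    rw [Measure.map_map measurable_fst mT]
    rfl
  have nT : Nice (fun q : O × Y => F (τ q.1, ρ q.2)) := hF.comp mT
  apply ae_eq_of_integrals (nice_hatF nT) ((nice_hatF hF).comp hτ)
  intro k hk
  have s1 := integral_Q_mul (Q := Q) nT hk
  have hk' : Nice (fun o => k (τ' o)) := hk.comp hτ'
  have s2 := integral_Q_mul (Q := Q) hF hk'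
  calc ∫ o, k o * hatF Q (fun q => F (τ q.1, ρ q.2)) o ∂Q.fst
      = ∫ q, F (τ q.1, ρ q.2) * k q.1 ∂Q := by
        rw [s1]; congr 1; ext o; ring
    _ = ∫ q, (fun q : O × Y => F q * k (τ' q.1)) (τ q.1, ρ q.2) ∂Q := by
        congr 1; ext q; simp only [hleft]
    _ = ∫ q, F q * k (τ' q.1) ∂Q := by
        conv_rhs => rw [← hinv]
        rw [integral_map mT.aemeasurable]
        exact (hF.1.mul (hk'.1.comp measurable_fst)).aestronglyMeasurable
    _ = ∫ o, hatF Q F o * k (τ' o) ∂Q.fst := s2
    _ = ∫ o, hatF Q F (τ o) * k (τ' (τ o)) ∂Q.fst := by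
        conv_lhs => rw [← hfst]
        rw [integral_map hτ.aemeasurable]
        exact ((nice_hatF hF).1.mul hk'.1).aestronglyMeasurable
    _ = _ := by
        congr 1; ext o; rw [hleft]; ring

/-- invariance of the relative product -/
lemma relP_inv {τ τ' : O → O} {ρ : Y → Y} (hτ : Measurable τ) (hτ' : Measurable τ')
    (hρ : Measurable ρ) (hleft : ∀ o, τ' (τ o) = o)
    (hinv : Q.map (fun q => (τ q.1, ρ q.2)) = Q) :
    (relP Q).map (fun q => (τ q.1, (ρ q.2.1, ρ q.2.2))) = relP Q := by
  have m : Measurable (fun q : O × (Y × Y) => (τ q.1, (ρ q.2.1, ρ q.2.2))) := by fun_prop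
  have mT : Measurable (fun q : O × Y => (τ q.1, ρ q.2)) :=
    (hτ.comp measurable_fst).prodMk (hρ.comp measurable_snd)
  have hfst : Q.fst.map τ = Q.fst := by
    unfold Measure.fst
    rw [Measure.map_map hτ measurable_fst]
    conv_rhs => rw [← hinv]
    rw [Measure.map_map measurable_fst mT]
    rfl
  have := Measure.isProbabilityMeasure_map (μ := relP Q) m.aemeasurable
  apply ext_prod3_nice
  intro f F F' hf hF hF'
  have n : Nice (fun q : O × (Y × Y) => f q.1 * (F q.2.1 * F' q.2.2)) := by
    apply (hf.comp measurable_fst).mul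
    exact (hF.comp (measurable_fst.comp measurable_snd)).mul
      (hF'.comp (measurable_snd.comp measurable_snd))
  rw [integral_map m.aemeasurable n.1.aestronglyMeasurable]
  have h1 := integral_relP_mul (Q := Q) (hf.comp hτ) (hF.comp (hρ.comp measurable_snd))
    (hF'.comp (hρ.comp measurable_snd))
  have h2 := integral_relP_mul (Q := Q) hf (hF.comp measurable_snd) (hF'.comp measurable_snd)
  have e1 := hatF_equiv (Q := Q) hτ hτ' hρ hleft hinv
    (hF.comp (measurable_snd : Measurable (Prod.snd : O × Y → Y)))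
  have e2 := hatF_equiv (Q := Q) hτ hτ' hρ hleft hinv
    (hF'.comp (measurable_snd : Measurable (Prod.snd : O × Y → Y)))
  calc ∫ q, f (τ q.1) * (F (ρ q.2.1) * F' (ρ q.2.2)) ∂(relP Q)
      = ∫ o, f (τ o) * (hatF Q (fun q => F (ρ q.2)) o * hatF Q (fun q => F' (ρ q.2)) o) ∂Q.fst :=
        h1
    _ = ∫ o, f (τ o) * (hatF Q (fun q => F q.2) (τ o) * hatF Q (fun q => F' q.2) (τ o))
          ∂Q.fst := by
        apply integral_congr_ae
        filter_upwards [e1, e2] with o ho1 ho2
        rw [ho1, ho2]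
    _ = ∫ o, f o * (hatF Q (fun q => F q.2) o * hatF Q (fun q => F' q.2) o) ∂Q.fst := by
        conv_rhs => rw [← hfst]
        rw [integral_map hτ.aemeasurable]
        exact (hf.1.mul ((nice_hatF (hF.comp measurable_snd)).1.mul
          (nice_hatF (hF'.comp measurable_snd)).1)).aestronglyMeasurable
    _ = _ := h2.symm

end

end Vale.Agent.P161c
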