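import Vale.Agent.P161c.Inn2
import Vale.Agent.P161c.RelP

/-!
The annealed law of labels, innovations and observations, and its relative product.
-/

set_option linter.unusedSectionVars false
set_option linter.unusedVariables false

namespace Vale.Agent.P161c

open MeasureTheory SimpleGraph Vale.Agent.H13.P161 Filter Topology

section Meas

variable {V : Type*}

lemma measurable_cs : Measurable (fun U : Site V → unitInterval => cs U) := by
  rw [measurable_pi_iff]
  intro i
  exact (measurable_str i.1).comp (measurable_pi_apply i)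

lemma measurable_yA : Measurable
    (fun q : (Site V → unitInterval) × ((V → ℤˣ) × (Site V → unitInterval)) =>
      obsR (cs q.1) q.2.1 q.2.2) := by
  rw [measurable_pi_iff]
  intro i
  unfold obsR
  have h0 : Measurable (fun q : (Site V → unitInterval) × ((V → ℤˣ) × (Site V → unitInterval)) =>
      cs q.1 i) := (measurable_pi_apply i).comp (measurable_cs.comp measurable_fst)
  have h1 : Measurable (fun q : (Site V → unitInterval) × ((V → ℤˣ) × (Site V → unitInterval)) =>
      spinVal (q.2.1 i.2)) := (nice_spin i.2).1.comp (measurable_fst.comp measurable_snd)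
  have h2 : Measurable (fun q : (Site V → unitInterval) × ((V → ℤˣ) × (Site V → unitInterval)) =>
      ((q.2.2 i : unitInterval) : ℝ)) :=
    measurable_subtype_coe.comp
      ((measurable_pi_apply i).comp (measurable_snd.comp measurable_snd))
  exact measurable_Qc.comp ((h0.mul h1).prodMk h2)

lemma measurableSet_mem_cut (i : Site V) (k : ℕ) :
    MeasurableSet {q : (Site V → unitInterval) × ℝ | i ∈ cut q.1 k q.2} := by
  have h : {q : (Site V → unitInterval) × ℝ | i ∈ cut q.1 k q.2}
      = {_q | i.1 < k} ∪ ({_q | i.1 = k} ∩
        {q : (Site V → unitInterval) × ℝ | ((q.1 i : unitInterval) : ℝ) < q.2}) := by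
    ext q; rfl
  rw [h]
  apply (MeasurableSet.const _).union ((MeasurableSet.const _).inter _)
  exact measurableSet_lt
    (measurable_subtype_coe.comp ((measurable_pi_apply i).comp measurable_fst)) measurable_snd

lemma measurable_aT (k : ℕ) : Measurable
    (fun q : (Site V → unitInterval) × (ℝ × (Site V → ℝ)) => aT q.1 k q.2.1 q.2.2) := by
  classical
  rw [measurable_pi_iff]
  intro w
  unfold aT aF
  apply (measurable_ow (k + 1)).comp
  rw [measurable_pi_iff]
  intro l
  apply Measurable.ite
  · have h := measurableSet_mem_cut (V := V) (l, w) k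
    exact (measurable_fst.prodMk (measurable_fst.comp measurable_snd)) h
  · apply Measurable.mul
    · exact (measurable_pi_apply (l, w)).comp (measurable_cs.comp measurable_fst)
    · exact measurable_cl.comp
        ((measurable_pi_apply (l, w)).comp (measurable_snd.comp measurable_snd))
  · exact measurable_const

lemma measurable_mskT (k : ℕ) : Measurable
    (fun q : (Site V → unitInterval) × (ℝ × (Site V → ℝ)) => msk (cut q.1 k q.2.1) q.2.2) := by
  classical
  rw [measurable_pi_iff]
  intro i
  unfold msk
  apply Measurable.ite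
  · have h := measurableSet_mem_cut (V := V) i k
    exact (measurable_fst.prodMk (measurable_fst.comp measurable_snd)) h
  · exact (measurable_pi_apply i).comp (measurable_snd.comp measurable_snd)
  · exact measurable_const

end Meas

variable {V : Type*} [Countable V] [DecidableEq V] {μ : Measure (V → ℤˣ)} [IsProbabilityMeasure μ]
  {T : ℕ → Finset V}

lemma measurable_MT (k : ℕ) (v : V) : Measurable
    (fun q : (Site V → unitInterval) × (ℝ × (Site V → ℝ)) => MT μ T q.1 k q.2.1 v q.2.2) :=
  (measurable_postI v (ak (k + 1))).comp (measurable_aT k)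

lemma abs_MT_le (U : Site V → unitInterval) (k : ℕ) (t : ℝ) (v : V) (y : Site V → ℝ) :
    |MT μ T U k t v y| ≤ 1 :=
  abs_postI_le (ak_bounds _).1 (ak_bounds _).2 _ _

lemma nice_MT (k : ℕ) (v : V) : Nice
    (fun q : (Site V → unitInterval) × (ℝ × (Site V → ℝ)) => MT μ T q.1 k q.2.1 v q.2.2) :=
  ⟨measurable_MT k v, 1, fun q => abs_MT_le _ _ _ _ _⟩

lemma MT_msk (U : Site V → unitInterval) (k : ℕ) (t : ℝ) (v : V) (y : Site V → ℝ) :
    MT μ T U k t v (msk (cut U k t) y) = MT μ T U k t v y := by
  unfold MT aT
  rw [aF_msk]

lemma measurable_MTi (i : Site V) : Measurable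
    (fun q : (Site V → unitInterval) × (Site V → ℝ) =>
      MT μ T q.1 i.1 ((q.1 i : unitInterval) : ℝ) i.2 q.2) := by
  have h : Measurable (fun q : (Site V → unitInterval) × (Site V → ℝ) =>
      (q.1, (((q.1 i : unitInterval) : ℝ), q.2))) :=
    measurable_fst.prodMk ((measurable_subtype_coe.comp
      ((measurable_pi_apply i).comp measurable_fst)).prodMk measurable_snd)
  have h2 := (measurable_MT (μ := μ) (T := T) i.1 i.2)
  have h3 := h2.comp h
  simpa only [Function.comp_def] using h3

lemma measurable_inn2 : Measurable
    (fun q : (Site V → unitInterval) × (Site V → ℝ) => inn μ T q.1 q.2) := by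
  rw [measurable_pi_iff]
  intro i
  have mproj : Measurable (Set.projIcc (0 : ℝ) 1 zero_le_one) := continuous_projIcc.measurable
  have h0 : Measurable (fun q : (Site V → unitInterval) × (Site V → ℝ) => cs q.1 i) :=
    (measurable_pi_apply i).comp (measurable_cs.comp measurable_fst)
  have h1 := measurable_MTi (μ := μ) (T := T) i
  have h2 : Measurable (fun q : (Site V → unitInterval) × (Site V → ℝ) => q.2 i) :=
    (measurable_pi_apply i).comp measurable_snd
  have h01 : Measurable (fun q : (Site V → unitInterval) × (Site V → ℝ) =>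
      cs q.1 i * MT μ T q.1 i.1 ((q.1 i : unitInterval) : ℝ) i.2 q.2) := h0.mul h1
  have h3 : Measurable (fun q : (Site V → unitInterval) × (Site V → ℝ) =>
      Fc (cs q.1 i * MT μ T q.1 i.1 ((q.1 i : unitInterval) : ℝ) i.2 q.2) (q.2 i)) := by
    simpa only [Function.comp_def] using measurable_Fc.comp (Measurable.prodMk h01 h2)
  have h4 : Measurable (fun q : (Site V → unitInterval) × (Site V → ℝ) =>
      Set.projIcc (0 : ℝ) 1 zero_le_one
        (Fc (cs q.1 i * MT μ T q.1 i.1 ((q.1 i : unitInterval) : ℝ) i.2 q.2) (q.2 i))) := by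
    simpa only [Function.comp_def] using mproj.comp h3
  simp only [inn]
  exact h4

/-- annealed base space -/
noncomputable def AM (μ : Measure (V → ℤˣ)) :
    Measure ((Site V → unitInterval) × ((V → ℤˣ) × (Site V → unitInterval))) :=
  (iidLabels (Site V)).prod (BM μ)

instance instProbAM : IsProbabilityMeasure (AM μ) := by unfold AM; infer_instance

/-- labels, innovations and observations as functions on the base space -/
noncomputable def toQ (μ : Measure (V → ℤˣ)) (T : ℕ → Finset V)
    (q : (Site V → unitInterval) × ((V → ℤˣ) × (Site V → unitInterval))) :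
    Om V × (Site V → ℝ) :=
  ((q.1, inn μ T q.1 (obsR (cs q.1) q.2.1 q.2.2)), obsR (cs q.1) q.2.1 q.2.2)

lemma measurable_toQ : Measurable (toQ μ T) := by
  unfold toQ
  apply Measurable.prodMk
  · exact measurable_fst.prodMk (measurable_inn2.comp (measurable_fst.prodMk measurable_yA))
  · exact measurable_yA

/-- law of labels, innovations and observations -/
noncomputable def QM (μ : Measure (V → ℤˣ)) (T : ℕ → Finset V) : Measure (Om V × (Site V → ℝ)) :=
  (AM μ).map (toQ μ T)

instance instProbQM : IsProbabilityMeasure (QM μ T) :=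
  Measure.isProbabilityMeasure_map measurable_toQ.aemeasurable

lemma integral_QM {F : Om V × (Site V → ℝ) → ℝ} (hF : Nice F) :
    ∫ q, F q ∂(QM μ T) = ∫ U, ∫ p, F ((U, inn μ T U (obsR (cs U) p.1 p.2)), obsR (cs U) p.1 p.2)
      ∂(BM μ) ∂(iidLabels (Site V)) := by
  unfold QM
  rw [integral_map measurable_toQ.aemeasurable hF.1.aestronglyMeasurable]
  exact (hF.comp measurable_toQ).integral_prod _ _

variable (hT : Monotone T) (hTu : ∀ v, ∃ n, v ∈ T n)

include hT hTu

/-- labels and innovations are i.i.d. uniform -/
lemma QM_fst : (QM μ T).fst = PP V := by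
  classical
  have : IsProbabilityMeasure (PP V) := instProbPP
  apply meas_ext_niceR
  intro g hg
  unfold Measure.fst
  rw [integral_map measurable_fst.aemeasurable hg.1.aestronglyMeasurable,
    integral_QM (hg.comp measurable_fst)]
  unfold PP
  rw [hg.integral_prod]
  apply integral_congr_ae
  filter_upwards [noTieAll_ae (V := V)] with U hU
  have nΓ : Nice (fun w : (Site V → ℝ) × (Site V → unitInterval) => g (U, w.2)) :=
    hg.comp (measurable_const.prodMk measurable_snd)
  have h := inn_resample (μ := μ) hT hTu U hU 0 0 nΓ (fun y ξ => rfl)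
  simp only at h ⊢
  rw [h]
  have hcut : cut U 0 0 = ∅ := by
    ext i
    simp only [cut, Set.mem_ofPred_eq, Set.mem_empty_iff_false, iff_false, not_or, not_and, not_lt]
    exact ⟨by omega, fun _ => (U i).2.1⟩
  have e : ∀ (x y : Site V → unitInterval), mix (cut U 0 0) x y = x := by
    intro x y
    ext i
    simp [mix, hcut]
  simp only [e]
  simp

/-- resampling one innovation -/
lemma Q_update (i : Site V)
    {Γ : (Site V → unitInterval) × ((Site V → ℝ) × (Site V → unitInterval)) → ℝ} (hΓ : Nice Γ)
    (hΓS : ∀ U y ξ, Γ (U, (y, ξ)) = Γ (U, (msk (cut U i.1 (U i)) y, ξ))) :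
    ∫ q, Γ (q.1.1, (q.2, q.1.2)) ∂(QM μ T)
      = ∫ q, (∫ x : unitInterval, Γ (q.1.1, (q.2, Function.update q.1.2 i x))) ∂(QM μ T) := by
  classical
  have m1 : Measurable (fun q : Om V × (Site V → ℝ) => (q.1.1, (q.2, q.1.2))) := by fun_prop
  have mup : Measurable (fun w : (Om V × (Site V → ℝ)) × unitInterval =>
      (w.1.1.1, (w.1.2, Function.update w.1.1.2 i w.2))) := by
    apply Measurable.prodMk (by fun_prop)
    apply Measurable.prodMk (by fun_prop)
    have h : Measurable (fun w : (Om V × (Site V → ℝ)) × unitInterval => (w.1.1.2, w.2)) := by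
      fun_prop
    exact (measurable_update_pair (X := fun _ : Site V => unitInterval) i).comp h
  have n2 : Nice (fun q : Om V × (Site V → ℝ) =>
      ∫ x : unitInterval, Γ (q.1.1, (q.2, Function.update q.1.2 i x))) :=
    (hΓ.comp mup).integral_right volume
  rw [integral_QM (hΓ.comp m1), integral_QM n2]
  apply integral_congr_ae
  filter_upwards [noTieAll_ae (V := V)] with U hU
  set S := cut U i.1 (U i) with hS
  have hiS : i ∉ S := mem_cut_self U i
  have nU : Nice (fun w : (Site V → ℝ) × (Site V → unitInterval) => Γ (U, w)) :=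
    hΓ.comp measurable_prodMk_left
  have nU' : Nice (fun w : (Site V → ℝ) × (Site V → unitInterval) =>
      ∫ x : unitInterval, Γ (U, (w.1, Function.update w.2 i x))) := by
    have m3 : Measurable (fun w : ((Site V → ℝ) × (Site V → unitInterval)) × unitInterval =>
        (U, (w.1.1, Function.update w.1.2 i w.2))) := by
      apply Measurable.prodMk (by fun_prop)
      apply Measurable.prodMk (by fun_prop)
      have h : Measurable (fun w : ((Site V → ℝ) × (Site V → unitInterval)) × unitInterval =>
          (w.1.2, w.2)) := by fun_prop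
      exact (measurable_update_pair (X := fun _ : Site V => unitInterval) i).comp h
    exact (hΓ.comp m3).integral_right volume
  have h1 := inn_resample (μ := μ) hT hTu U hU i.1 (U i) nU (fun y ξ => hΓS U y ξ)
  have h2 := inn_resample (μ := μ) hT hTu U hU i.1 (U i) nU' (fun y ξ => by
    congr 1; ext x; exact hΓS U y _)
  simp only at h1 h2 ⊢
  rw [h1, h2]
  congr 1
  ext p
  have nη : Nice (fun η : Site V → unitInterval => Γ (U, (obsR (cs U) p.1 p.2,
      mix (cut U i.1 (U i)) η (inn μ T U (obsR (cs U) p.1 p.2))))) := by
    apply nU.comp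
    apply measurable_const.prodMk
    exact (measurable_mix (X := fun _ : Site V => unitInterval) _).comp
      (measurable_id.prodMk measurable_const)
  rw [integral_update_iid i nη]
  congr 1
  ext η
  congr 1
  ext x
  congr 3
  ext j
  by_cases hj : j = i
  · subst hj
    have : j ∉ cut U j.1 (U j) := mem_cut_self U j
    simp [mix, this]
  · by_cases hjS : j ∈ cut U i.1 (U i)
    · simp [mix, hj, hjS]
    · simp [mix, hj, hjS]

end Vale.Agent.P161c
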