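import Vale.Agent.P161c.Coup

/-!
Conditional independence in the relative product: innovations and labels of later sites.
-/

set_option linter.unusedSectionVars false
set_option linter.unusedVariables false

namespace Vale.Agent.P161c

open MeasureTheory SimpleGraph Vale.Agent.H13.P161 Filter Topology

section Swap

variable {ι : Type*} [DecidableEq ι]

/-- exchanging one label with a fresh one -/
lemma integral_swap_label (i : ι) {φ : (ι → unitInterval) × unitInterval → ℝ} (hφ : Nice φ) :
    ∫ U, (∫ x : unitInterval, φ (U, x)) ∂(iidLabels ι)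
      = ∫ U, (∫ x : unitInterval, φ (Function.update U i x, U i)) ∂(iidLabels ι) := by
  have mup : Measurable (fun w : (ι → unitInterval) × unitInterval =>
      (Function.update w.1 i w.2, w.1 i)) :=
    (measurable_update_pair (X := fun _ : ι => unitInterval) i).prodMk
      ((measurable_pi_apply i).comp measurable_fst)
  have n1 : Nice (fun U : ι → unitInterval => ∫ x : unitInterval, φ (U, x)) :=
    hφ.integral_right volume
  have n2 : Nice (fun U : ι → unitInterval =>
      ∫ x : unitInterval, φ (Function.update U i x, U i)) :=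
    (hφ.comp mup).integral_right volume
  rw [integral_update_iid i n1, integral_update_iid i n2]
  congr 1
  ext U
  have e : ∀ z x : unitInterval, φ (Function.update (Function.update U i z) i x,
      (Function.update U i z) i) = φ (Function.update U i x, z) := by
    intro z x
    rw [Function.update_idem, Function.update_self]
  simp only [e]
  have m3 : Measurable (fun w : unitInterval × unitInterval =>
      (Function.update U i w.1, w.2)) := by
    apply Measurable.prodMk _ measurable_snd
    exact (measurable_update_pair (X := fun _ : ι => unitInterval) i).comp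
      (measurable_const.prodMk measurable_fst)
  exact (hφ.comp m3).integral_integral_swap volume volume

end Swap

variable {V : Type*} [Countable V] [DecidableEq V] {μ : Measure (V → ℤˣ)} [IsProbabilityMeasure μ]
  {T : ℕ → Finset V}

/-- fields on the space of the relative product that only see the labels and one copy -/
def onQ (F : (Site V → unitInterval) × (Site V → ℝ) → ℝ) : Om V × (Site V → ℝ) → ℝ :=
  fun q => F (q.1.1, q.2)

lemma nice_onQ {F : (Site V → unitInterval) × (Site V → ℝ) → ℝ} (hF : Nice F) : Nice (onQ F) :=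
  hF.comp ((measurable_fst.comp measurable_fst).prodMk measurable_snd)

lemma measurable_upd2 (i : Site V) : Measurable (fun w : Om V × unitInterval =>
    ((w.1.1, Function.update w.1.2 i w.2) : Om V)) := by
  apply (measurable_fst.comp measurable_fst).prodMk
  have h : Measurable (fun w : Om V × unitInterval => (w.1.2, w.2)) := by fun_prop
  exact (measurable_update_pair (X := fun _ : Site V => unitInterval) i).comp h

lemma measurable_upd1 (i : Site V) : Measurable (fun w : Om V × unitInterval =>
    ((Function.update w.1.1 i w.2, w.1.2) : Om V)) := by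
  apply Measurable.prodMk _ (measurable_snd.comp measurable_fst)
  have h : Measurable (fun w : Om V × unitInterval => (w.1.1, w.2)) := by fun_prop
  exact (measurable_update_pair (X := fun _ : Site V => unitInterval) i).comp h

/-- resampling one innovation preserves the law of labels and innovations -/
lemma PP_update2 (i : Site V) {φ : Om V → ℝ} (hφ : Nice φ) :
    ∫ o, φ o ∂(PP V) = ∫ o, (∫ x : unitInterval, φ (o.1, Function.update o.2 i x)) ∂(PP V) := by
  have n2 : Nice (fun o : Om V => ∫ x : unitInterval, φ (o.1, Function.update o.2 i x)) :=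
    (hφ.comp (measurable_upd2 i)).integral_right volume
  unfold PP
  rw [hφ.integral_prod, n2.integral_prod]
  congr 1
  ext U
  exact integral_update_iid i (hφ.comp measurable_prodMk_left)

/-- exchanging the label of one site with a fresh one -/
lemma PP_swap1 (i : Site V) {φ : Om V × unitInterval → ℝ} (hφ : Nice φ) :
    ∫ o, (∫ x : unitInterval, φ (o, x)) ∂(PP V)
      = ∫ o, (∫ x : unitInterval, φ ((Function.update o.1 i x, o.2), o.1 i)) ∂(PP V) := by
  have n1 : Nice (fun o : Om V => ∫ x : unitInterval, φ (o, x)) := hφ.integral_right volume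
  have m2 : Measurable (fun w : Om V × unitInterval =>
      (((Function.update w.1.1 i w.2, w.1.2) : Om V), w.1.1 i)) :=
    (measurable_upd1 i).prodMk ((measurable_pi_apply i).comp
      (measurable_fst.comp measurable_fst))
  have n2 : Nice (fun o : Om V =>
      ∫ x : unitInterval, φ ((Function.update o.1 i x, o.2), o.1 i)) :=
    (hφ.comp m2).integral_right volume
  unfold PP
  rw [n1.integral_prod, n2.integral_prod, n1.integral_integral_swap, n2.integral_integral_swap]
  congr 1
  ext ξ
  have m3 : Measurable (fun w : (Site V → unitInterval) × unitInterval =>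
      (((w.1, ξ) : Om V), w.2)) := by fun_prop
  exact integral_swap_label i (hφ.comp m3)

variable (hT : Monotone T) (hTu : ∀ v, ∃ n, v ∈ T n)

include hT hTu

/-- conditional expectations of functionals of the past of `i` do not depend on the innovation
at `i` -/
lemma hat_update_ae (i : Site V) {F : (Site V → unitInterval) × (Site V → ℝ) → ℝ} (hF : Nice F)
    (hFS : ∀ U y, F (U, y) = F (U, msk (cut U i.1 (U i)) y)) :
    ∀ᵐ w ∂((PP V).prod (volume : Measure unitInterval)),
      hatF (QM μ T) (onQ F) (w.1.1, Function.update w.1.2 i w.2)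
        = hatF (QM μ T) (onQ F) w.1 := by
  set G := hatF (QM μ T) (onQ F) with hG
  have nF := nice_onQ hF
  have nG : Nice G := nice_hatF nF
  have hfst := QM_fst (μ := μ) hT hTu
  have nG' : Nice (fun w : Om V × unitInterval => G (w.1.1, Function.update w.1.2 i w.2)) :=
    nG.comp (measurable_upd2 i)
  have nG1 : Nice (fun w : Om V × unitInterval => G w.1) := nG.comp measurable_fst
  set Gb : Om V → ℝ := fun o => ∫ x : unitInterval, G (o.1, Function.update o.2 i x) with hGb
  have nGb : Nice Gb := nG'.integral_right volume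
  -- the three integrals
  have a1 : ∫ o, G o ^ 2 ∂(PP V) = ∫ q, onQ F q * G q.1 ∂(QM μ T) := by
    rw [integral_Q_mul nF nG, hfst]
    congr 1; ext o; rw [sq]
  have a2 : ∫ o, G o * Gb o ∂(PP V) = ∫ q, onQ F q * Gb q.1 ∂(QM μ T) := by
    rw [integral_Q_mul nF nGb, hfst]
  have a12 : ∫ q, onQ F q * G q.1 ∂(QM μ T) = ∫ q, onQ F q * Gb q.1 ∂(QM μ T) := by
    have nΓ : Nice (fun w : (Site V → unitInterval) × ((Site V → ℝ) × (Site V → unitInterval)) =>
        F (w.1, w.2.1) * G (w.1, w.2.2)) := by
      apply (hF.comp _).mul (nG.comp _) <;> fun_prop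
    have h := Q_update (μ := μ) hT hTu i nΓ (fun U y ξ => by
      simp only
      rw [hFS U y])
    calc ∫ q, onQ F q * G q.1 ∂(QM μ T)
        = ∫ q, F (q.1.1, q.2) * G (q.1.1, q.1.2) ∂(QM μ T) := rfl
      _ = _ := h
      _ = _ := by
        congr 1
        ext q
        simp only [hGb, onQ]
        rw [integral_const_mul]
  have a3 : ∫ o, (∫ x : unitInterval, G (o.1, Function.update o.2 i x) ^ 2) ∂(PP V)
      = ∫ o, G o ^ 2 ∂(PP V) := (PP_update2 i (nG.pow 2)).symm
  have key : ∫ w, (G (w.1.1, Function.update w.1.2 i w.2) - G w.1) ^ 2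
      ∂((PP V).prod (volume : Measure unitInterval)) = 0 := by
    rw [nG'.integral_sub_sq nG1]
    have b1 : ∫ w, G (w.1.1, Function.update w.1.2 i w.2) ^ 2
        ∂((PP V).prod (volume : Measure unitInterval)) = ∫ o, G o ^ 2 ∂(PP V) := by
      rw [(nG'.pow 2).integral_prod, a3]
    have b2 : ∫ w, G (w.1.1, Function.update w.1.2 i w.2) * G w.1
        ∂((PP V).prod (volume : Measure unitInterval)) = ∫ o, G o * Gb o ∂(PP V) := by
      rw [(nG'.mul nG1).integral_prod]
      congr 1
      ext o
      simp only
      rw [integral_mul_const]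
      simp only [hGb]
      ring
    have b3 : ∫ w, G w.1 ^ 2 ∂((PP V).prod (volume : Measure unitInterval))
        = ∫ o, G o ^ 2 ∂(PP V) := by
      rw [(nG1.pow 2).integral_prod]
      simp
    rw [b1, b2, b3, a2, ← a12, ← a1]
    ring
  rw [integral_eq_zero_iff_of_nonneg (fun ω => sq_nonneg _) (((nG'.sub nG1).pow 2).integrable _)]
    at key
  filter_upwards [key] with w hw
  have h3 : (G (w.1.1, Function.update w.1.2 i w.2) - G w.1) ^ 2 = 0 := hw
  have h4 : G (w.1.1, Function.update w.1.2 i w.2) - G w.1 = 0 := by simpa using h3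
  linarith

/-- integrating out the innovation at `i` against functionals of the two pasts -/
lemma relP_innov (i : Site V)
    {K : (Site V → unitInterval) × ((Site V → ℝ) × unitInterval) → ℝ} (hK : Nice K)
    (hKS : ∀ U y x, K (U, (y, x)) = K (U, (msk (cut U i.1 (U i)) y, x)))
    {F : (Site V → unitInterval) × (Site V → ℝ) → ℝ} (hF : Nice F)
    (hFS : ∀ U y, F (U, y) = F (U, msk (cut U i.1 (U i)) y)) :
    ∫ q, K (q.1.1, (q.2.1, q.1.2 i)) * F (q.1.1, q.2.2) ∂(relP (QM μ T))
      = ∫ q, (∫ x : unitInterval, K (q.1.1, (q.2.1, x))) * F (q.1.1, q.2.2)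
          ∂(relP (QM μ T)) := by
  set G := hatF (QM μ T) (onQ F) with hG
  have nF := nice_onQ hF
  have nG : Nice G := nice_hatF nF
  have hfst := QM_fst (μ := μ) hT hTu
  have m1 : Measurable (fun q : Om V × (Site V → ℝ) => (q.1.1, (q.2, q.1.2 i))) := by fun_prop
  have nK1 : Nice (fun q : Om V × (Site V → ℝ) => K (q.1.1, (q.2, q.1.2 i))) := hK.comp m1
  have m2 : Measurable (fun w : (Om V × (Site V → ℝ)) × unitInterval =>
      (w.1.1.1, (w.1.2, w.2))) := by fun_prop
  have nK2 : Nice (fun q : Om V × (Site V → ℝ) => ∫ x : unitInterval, K (q.1.1, (q.2, x))) :=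
    (hK.comp m2).integral_right volume
  have s1 := integral_relP_hat (Q := QM μ T) nK1 nF
  have s2 := integral_relP_hat (Q := QM μ T) nK2 nF
  have nΓ : Nice (fun w : (Site V → unitInterval) × ((Site V → ℝ) × (Site V → unitInterval)) =>
      K (w.1, (w.2.1, w.2.2 i)) * G (w.1, w.2.2)) := by
    apply (hK.comp _).mul (nG.comp _) <;> fun_prop
  have h := Q_update (μ := μ) hT hTu i nΓ (fun U y ξ => by
      simp only
      rw [hKS U y])
  have hae := hat_update_ae (μ := μ) hT hTu i hF hFS
  have hae2 := Measure.ae_ae_of_ae_prod hae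
  rw [← hfst] at hae2
  have hae3 : ∀ᵐ q ∂(QM μ T), ∀ᵐ x : unitInterval, G (q.1.1, Function.update q.1.2 i x)
      = G q.1 := ae_of_ae_map measurable_fst.aemeasurable hae2
  calc ∫ q, K (q.1.1, (q.2.1, q.1.2 i)) * F (q.1.1, q.2.2) ∂(relP (QM μ T))
      = ∫ q, K (q.1.1, (q.2, q.1.2 i)) * G q.1 ∂(QM μ T) := s1
    _ = ∫ q, (∫ x : unitInterval, K (q.1.1, (q.2, (Function.update q.1.2 i x) i))
          * G (q.1.1, Function.update q.1.2 i x)) ∂(QM μ T) := h
    _ = ∫ q, (∫ x : unitInterval, K (q.1.1, (q.2, x))) * G q.1 ∂(QM μ T) := by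
        apply integral_congr_ae
        filter_upwards [hae3] with q hq
        rw [← integral_mul_const]
        apply integral_congr_ae
        filter_upwards [hq] with x hx
        rw [hx, Function.update_self]
    _ = _ := s2.symm

end Vale.Agent.P161c
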