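import Vale.Agent.P161c.Coup2

/-!
Conditional independence of the relative product and the label of a site that has not been
processed yet.
-/

set_option linter.unusedSectionVars false
set_option linter.unusedVariables false

namespace Vale.Agent.P161c

open MeasureTheory SimpleGraph Vale.Agent.H13.P161 Filter Topology

variable {V : Type*}

lemma aF_congr (n : ℕ) {c c' : Site V → ℝ} {S : Set (Site V)} {y y' : Site V → ℝ}
    (hc : ∀ i ∈ S, c i = c' i) (hy : ∀ i ∈ S, y i = y' i) : aF n c S y = aF n c' S y' := by
  classical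
  ext w
  unfold aF
  apply ow_congr
  intro l _
  by_cases h : ((l, w) : Site V) ∈ S
  · simp only [if_pos h, hc _ h, hy _ h]
  · simp only [if_neg h]

/-- changing the label of an unprocessed site does not change the cut -/
lemma cut_update [DecidableEq V] (U : Site V → unitInterval) (i : Site V) {s : ℝ} {x : unitInterval}
    {k : ℕ} {t : ℝ} (h1 : i ∉ cut U k t) (h2 : ¬ (i.1 < k ∨ (i.1 = k ∧ (x : ℝ) < t))) :
    cut (Function.update U i x) k t = cut U k t := by
  ext j
  by_cases hj : j = i
  · subst hj
    simp only [cut, Set.mem_ofPred_eq, Function.update_self] at h1 ⊢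
    exact ⟨fun h => absurd h h2, fun h => absurd h h1⟩
  · simp only [cut, Set.mem_ofPred_eq, Function.update_of_ne hj]

lemma cs_update_of_ne [DecidableEq V] (U : Site V → unitInterval) {i j : Site V} (h : j ≠ i)
    (x : unitInterval) : cs (Function.update U i x) j = cs U j := by
  unfold cs
  rw [Function.update_of_ne h]

lemma cut_update_self [DecidableEq V] (U : Site V → unitInterval) (i : Site V) {s : ℝ}
    {x : unitInterval} (h1 : s ≤ (U i : ℝ)) (h2 : s ≤ (x : ℝ)) :
    cut (Function.update U i x) i.1 s = cut U i.1 s := by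
  apply cut_update (s := s)
  · simp only [cut, Set.mem_ofPred_eq, not_or, not_and, not_lt]
    exact ⟨by omega, fun _ => h1⟩
  · push Not
    exact ⟨by omega, fun _ => h2⟩

lemma notMem_cut_of_le (U : Site V → unitInterval) (i : Site V) {s : ℝ} (h1 : s ≤ (U i : ℝ)) :
    i ∉ cut U i.1 s := by
  simp only [cut, Set.mem_ofPred_eq, not_or, not_and, not_lt]
  exact ⟨by omega, fun _ => h1⟩

variable [Countable V] [DecidableEq V] {μ : Measure (V → ℤˣ)} [IsProbabilityMeasure μ]
  {T : ℕ → Finset V}

/-- the innovations before the time `(i.1, s)` do not depend on the label of `i` above `s` -/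
lemma inn_congr_label (U : Site V → unitInterval) (i : Site V) {s : ℝ}
    {x : unitInterval} (h1 : s ≤ (U i : ℝ)) (h2 : s ≤ (x : ℝ)) {y y' : Site V → ℝ}
    (hy : ∀ l ∈ cut U i.1 s, y l = y' l) {j : Site V} (hj : j ∈ cut U i.1 s) :
    inn μ T (Function.update U i x) y' j = inn μ T U y j := by
  have hji : j ≠ i := by
    rintro rfl
    exact notMem_cut_of_le U _ h1 hj
  have hUj : Function.update U i x j = U j := Function.update_of_ne hji _ _
  have hnot : i ∉ cut U j.1 (U j) := by
    intro h
    simp only [cut, Set.mem_ofPred_eq] at h hj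
    rcases h with h | h
    · rcases hj with hj | hj
      · omega
      · omega
    · rcases hj with hj | hj
      · omega
      · have := h.2
        linarith [hj.2]
  have hcut : cut (Function.update U i x) j.1 (U j) = cut U j.1 (U j) := by
    apply cut_update (s := s) U i hnot
    simp only [cut, Set.mem_ofPred_eq] at hj
    rintro (h | h)
    · rcases hj with hj | hj
      · omega
      · omega
    · rcases hj with hj | hj
      · omega
      · linarith [hj.2, h.2]
  have hsub : cut U j.1 (U j) ⊆ cut U i.1 s := by
    intro l hl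
    simp only [cut, Set.mem_ofPred_eq] at hl hj ⊢
    rcases hl with hl | hl
    · rcases hj with hj | hj
      · left; omega
      · left; omega
    · rcases hj with hj | hj
      · left; omega
      · right; exact ⟨by omega, hl.2.trans hj.2⟩
  unfold inn MT aT
  rw [hUj, hcut, cs_update_of_ne U hji, hy j hj]
  have e : aF (j.1 + 1) (cs (Function.update U i x)) (cut U j.1 (U j)) y'
      = aF (j.1 + 1) (cs U) (cut U j.1 (U j)) y := by
    apply aF_congr
    · intro l hl
      apply cs_update_of_ne
      rintro rfl
      exact hnot hl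
    · intro l hl
      exact (hy l (hsub hl)).symm
  rw [e]

/-- bounded functionals of the past at time `(i.1, s)`, for which the label of `i` above `s` is
irrelevant -/
structure PastF (i : Site V) (s : ℝ) (F : (Site V → unitInterval) × (Site V → ℝ) → ℝ) : Prop where
  nice : Nice F
  past : ∀ U y, F (U, y) = F (U, msk (cut U i.1 s) y)
  lab : ∀ U y (x : unitInterval), s ≤ (U i : ℝ) → s ≤ (x : ℝ) →
    F (Function.update U i x, y) = F (U, y)

variable (hT : Monotone T) (hTu : ∀ v, ∃ n, v ∈ T n)

include hT hTu

lemma quenched_label {i : Site V} {s : ℝ} {F : (Site V → unitInterval) × (Site V → ℝ) → ℝ}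
    (hF : PastF i s F) {G : Om V → ℝ} (hG : Nice G) (U : Site V → unitInterval) (x : unitInterval)
    (hU : NoTieAll U) (hU' : NoTieAll (Function.update U i x)) (h1 : s ≤ (U i : ℝ))
    (h2 : s ≤ (x : ℝ)) (W : Site V → unitInterval) :
    ∫ p, F (Function.update U i x, obsR (cs (Function.update U i x)) p.1 p.2)
        * G (W, inn μ T (Function.update U i x) (obsR (cs (Function.update U i x)) p.1 p.2))
        ∂(BM μ)
      = ∫ p, F (U, obsR (cs U) p.1 p.2) * G (W, inn μ T U (obsR (cs U) p.1 p.2)) ∂(BM μ) := by
  classical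
  have nΓ : ∀ U₁ : Site V → unitInterval, Nice (fun w : (Site V → ℝ) × (Site V → unitInterval) =>
      F (U₁, w.1) * G (W, w.2)) := by
    intro U₁
    exact (hF.nice.comp (measurable_const.prodMk measurable_fst)).mul
      (hG.comp (measurable_const.prodMk measurable_snd))
  have r1 := inn_resample (μ := μ) hT hTu U hU i.1 s (nΓ U) (fun y ξ => by
    simp only
    rw [hF.past U y])
  have r2 := inn_resample (μ := μ) hT hTu (Function.update U i x) hU' i.1 s
    (nΓ (Function.update U i x)) (fun y ξ => by
      simp only
      rw [hF.past (Function.update U i x) y])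
  simp only at r1 r2
  rw [r1, r2]
  have hcut := cut_update_self U i h1 h2
  have hobs : ∀ (p : (V → ℤˣ) × (Site V → unitInterval)), ∀ l ∈ cut U i.1 s,
      obsR (cs U) p.1 p.2 l = obsR (cs (Function.update U i x)) p.1 p.2 l := by
    intro p l hl
    have hli : l ≠ i := by
      rintro rfl
      exact notMem_cut_of_le U _ h1 hl
    unfold obsR
    rw [cs_update_of_ne U hli]
  congr 1
  ext p
  have e1 : F (Function.update U i x, obsR (cs (Function.update U i x)) p.1 p.2)
      = F (U, obsR (cs U) p.1 p.2) := by
    rw [hF.lab U _ x h1 h2, hF.past U (obsR (cs (Function.update U i x)) p.1 p.2),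
      hF.past U (obsR (cs U) p.1 p.2), msk_congr (hobs p)]
  rw [e1]
  congr 1
  ext η
  congr 2
  apply Prod.ext
  · rfl
  · ext j
    simp only [mix, hcut]
    by_cases hj : j ∈ cut U i.1 s
    · simp only [if_pos hj]
      rw [inn_congr_label U i h1 h2 (hobs p) hj]
    · simp only [if_neg hj]

omit hT hTu in
lemma ae_noTie_update (i : Site V) :
    ∀ᵐ w ∂((iidLabels (Site V)).prod (volume : Measure unitInterval)),
      NoTieAll w.1 ∧ NoTieAll (Function.update w.1 i w.2) := by
  have h1 : ∀ᵐ w ∂((iidLabels (Site V)).prod (volume : Measure unitInterval)), NoTieAll w.1 :=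
    Measure.quasiMeasurePreserving_fst.ae (noTieAll_ae (V := V))
  have h2 := (measurePreserving_update (fun _ : Site V => (volume : Measure unitInterval))
    i).quasiMeasurePreserving.ae (noTieAll_ae (V := V))
  filter_upwards [h1, h2] with w hw1 hw2
  exact ⟨hw1, hw2⟩

/-- conditional expectations of functionals of the past do not depend on the labels of unprocessed
sites -/
lemma hat_label {i : Site V} {s : ℝ} {F : (Site V → unitInterval) × (Site V → ℝ) → ℝ}
    (hF : PastF i s F) :
    ∀ᵐ w ∂((PP V).prod (volume : Measure unitInterval)), s ≤ (w.1.1 i : ℝ) → s ≤ (w.2 : ℝ) →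
      hatF (QM μ T) (onQ F) (Function.update w.1.1 i w.2, w.1.2)
        = hatF (QM μ T) (onQ F) w.1 := by
  classical
  set G := hatF (QM μ T) (onQ F) with hG
  have nF := nice_onQ hF.nice
  have nG : Nice G := nice_hatF nF
  have hfst := QM_fst (μ := μ) hT hTu
  -- indicator of late labels
  set e : unitInterval → ℝ := fun x => if s ≤ (x : ℝ) then 1 else 0 with he
  have ne : Nice e := by
    refine ⟨?_, 1, fun x => ?_⟩
    · exact Measurable.ite (measurableSet_le measurable_const measurable_subtype_coe)
        measurable_const measurable_const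
    · simp only [he]; split_ifs <;> simp
  have e01 : ∀ x, e x = 0 ∨ (e x = 1 ∧ s ≤ (x : ℝ)) := by
    intro x
    simp only [he]
    by_cases h : s ≤ (x : ℝ)
    · right; simp [h]
    · left; simp [h]
  have nei : Nice (fun w : Om V × unitInterval => e (w.1.1 i)) :=
    ne.comp ((measurable_pi_apply i).comp (measurable_fst.comp measurable_fst))
  have nex : Nice (fun w : Om V × unitInterval => e w.2) := ne.comp measurable_snd
  have nG' : Nice (fun w : Om V × unitInterval => G (Function.update w.1.1 i w.2, w.1.2)) :=
    nG.comp (measurable_upd1 i)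
  have nG1 : Nice (fun w : Om V × unitInterval => G w.1) := nG.comp measurable_fst
  -- the three integrals
  have q1 : ∫ w, e (w.1.1 i) * e w.2 * G (Function.update w.1.1 i w.2, w.1.2) ^ 2
      ∂((PP V).prod (volume : Measure unitInterval))
      = ∫ w, e (w.1.1 i) * e w.2 * G w.1 ^ 2 ∂((PP V).prod (volume : Measure unitInterval)) := by
    have n1 := (nei.mul nex).mul (nG'.pow 2)
    have n2 := (nei.mul nex).mul (nG1.pow 2)
    rw [n1.integral_prod, n2.integral_prod, PP_swap1 i n1]
    congr 1; ext o
    congr 1; ext x
    have eu : Function.update (Function.update o.1 i x) i (o.1 i) = o.1 := by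
      rw [Function.update_idem, Function.update_eq_self]
    simp only [Function.update_self, eu]
    ring
  have q2 : ∫ w, e (w.1.1 i) * e w.2 * (G (Function.update w.1.1 i w.2, w.1.2) * G w.1)
      ∂((PP V).prod (volume : Measure unitInterval))
      = ∫ w, e (w.1.1 i) * e w.2 * G w.1 ^ 2 ∂((PP V).prod (volume : Measure unitInterval)) := by
    have n1 := (nei.mul nex).mul (nG'.mul nG1)
    have n2 := (nei.mul nex).mul (nG1.pow 2)
    rw [n1.integral_prod, n2.integral_prod, PP_swap1 i n1]
    -- after the swap: `∫ e(x) e(U i) G(U) G(U^x)`; replace the factor with label `x` by `F`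
    have nK : Nice (fun o : Om V => ∫ x : unitInterval,
        e x * e (o.1 i) * G (Function.update o.1 i x, o.2)) :=
      ((nex.mul nei).mul nG').integral_right volume
    have s1 : ∫ o, (∫ x : unitInterval, e ((Function.update o.1 i x) i) * e (o.1 i)
          * (G (Function.update (Function.update o.1 i x) i (o.1 i), o.2)
            * G (Function.update o.1 i x, o.2))) ∂(PP V)
        = ∫ o, G o * (∫ x : unitInterval, e x * e (o.1 i) * G (Function.update o.1 i x, o.2))
            ∂(PP V) := by
      congr 1; ext o
      rw [← integral_const_mul]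
      congr 1; ext x
      have eu : Function.update (Function.update o.1 i x) i (o.1 i) = o.1 := by
        rw [Function.update_idem, Function.update_eq_self]
      simp only [Function.update_self, eu]
      ring
    have s2 : ∫ o, (∫ x : unitInterval, e (o.1 i) * e x * G o ^ 2) ∂(PP V)
        = ∫ o, G o * ((∫ x : unitInterval, e x) * e (o.1 i) * G o) ∂(PP V) := by
      congr 1; ext o
      rw [← integral_mul_const, ← integral_mul_const, ← integral_const_mul]
      congr 1; ext x
      ring
    have nK2 : Nice (fun o : Om V => (∫ x : unitInterval, e x) * e (o.1 i) * G o) :=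
      ((Nice.const _).mul (ne.comp ((measurable_pi_apply i).comp measurable_fst))).mul nG
    have s3 : ∫ o, G o * (∫ x : unitInterval, e x * e (o.1 i) * G (Function.update o.1 i x, o.2))
          ∂(PP V)
        = ∫ q, onQ F q * (∫ x : unitInterval, e x * e (q.1.1 i)
            * G (Function.update q.1.1 i x, q.1.2)) ∂(QM μ T) := by
      rw [integral_Q_mul nF nK, hfst]
    have s4 : ∫ o, G o * ((∫ x : unitInterval, e x) * e (o.1 i) * G o) ∂(PP V)
        = ∫ q, onQ F q * ((∫ x : unitInterval, e x) * e (q.1.1 i) * G q.1) ∂(QM μ T) := by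
      rw [integral_Q_mul nF nK2, hfst]
    refine s1.trans ?_
    rw [s2, s3, s4]
    have nL : Nice (fun q : Om V × (Site V → ℝ) => onQ F q * (∫ x : unitInterval,
        e x * e (q.1.1 i) * G (Function.update q.1.1 i x, q.1.2))) :=
      nF.mul (nK.comp measurable_fst)
    have nR : Nice (fun q : Om V × (Site V → ℝ) =>
        onQ F q * ((∫ x : unitInterval, e x) * e (q.1.1 i) * G q.1)) :=
      nF.mul (nK2.comp measurable_fst)
    rw [integral_QM nL, integral_QM nR]
    -- quenched functional
    set Ψ : (Site V → unitInterval) × (Site V → unitInterval) → ℝ := fun z =>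
      ∫ p, F (z.1, obsR (cs z.1) p.1 p.2) * G (z.2, inn μ T z.1 (obsR (cs z.1) p.1 p.2)) ∂(BM μ)
      with hΨ
    have mA : Measurable (fun z : ((Site V → unitInterval) × (Site V → unitInterval))
        × ((V → ℤˣ) × (Site V → unitInterval)) => (z.1.1, obsR (cs z.1.1) z.2.1 z.2.2)) := by
      apply (measurable_fst.comp measurable_fst).prodMk
      exact measurable_yA.comp ((measurable_fst.comp measurable_fst).prodMk measurable_snd)
    have mB : Measurable (fun z : ((Site V → unitInterval) × (Site V → unitInterval))
        × ((V → ℤˣ) × (Site V → unitInterval)) =>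
          ((z.1.2, inn μ T z.1.1 (obsR (cs z.1.1) z.2.1 z.2.2)) : Om V)) := by
      apply (measurable_snd.comp measurable_fst).prodMk
      have h := (measurable_inn2 (μ := μ) (T := T)).comp mA
      simpa only [Function.comp_def] using h
    have nP : Nice (fun z : ((Site V → unitInterval) × (Site V → unitInterval))
        × ((V → ℤˣ) × (Site V → unitInterval)) =>
        F (z.1.1, obsR (cs z.1.1) z.2.1 z.2.2)
          * G (z.1.2, inn μ T z.1.1 (obsR (cs z.1.1) z.2.1 z.2.2))) :=
      (hF.nice.comp mA).mul (nG.comp mB)
    have nΨ : Nice Ψ := nP.integral_right (BM μ)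
    have mUp : Measurable (fun w : (Site V → unitInterval) × unitInterval =>
        (w.1, Function.update w.1 i w.2)) :=
      measurable_fst.prodMk (measurable_update_pair (X := fun _ : Site V => unitInterval) i)
    have nφ : Nice (fun w : (Site V → unitInterval) × unitInterval =>
        e w.2 * e (w.1 i) * Ψ (w.1, Function.update w.1 i w.2)) :=
      ((ne.comp measurable_snd).mul (ne.comp ((measurable_pi_apply i).comp measurable_fst))).mul
        (nΨ.comp mUp)
    have L : ∀ U : Site V → unitInterval, ∫ p, onQ F ((U, inn μ T U (obsR (cs U) p.1 p.2)),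
          obsR (cs U) p.1 p.2) * (∫ x : unitInterval, e x * e (U i)
            * G (Function.update U i x, inn μ T U (obsR (cs U) p.1 p.2))) ∂(BM μ)
        = ∫ x : unitInterval, e x * e (U i) * Ψ (U, Function.update U i x) := by
      intro U
      have mz : Measurable (fun z : ((V → ℤˣ) × (Site V → unitInterval)) × unitInterval =>
          (((U, Function.update U i z.2) : (Site V → unitInterval) × (Site V → unitInterval)),
            z.1)) := by
        apply Measurable.prodMk _ measurable_fst
        apply measurable_const.prodMk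
        exact (measurable_update_pair (X := fun _ : Site V => unitInterval) i).comp
          (measurable_const.prodMk measurable_snd)
      have nz : Nice (fun z : ((V → ℤˣ) × (Site V → unitInterval)) × unitInterval =>
          e z.2 * e (U i) * (F (U, obsR (cs U) z.1.1 z.1.2)
            * G (Function.update U i z.2, inn μ T U (obsR (cs U) z.1.1 z.1.2)))) :=
        ((ne.comp measurable_snd).mul (Nice.const _)).mul (nP.comp mz)
      have sw := nz.integral_integral_swap (BM μ) volume
      have e1 : ∀ p : (V → ℤˣ) × (Site V → unitInterval),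
          onQ F ((U, inn μ T U (obsR (cs U) p.1 p.2)), obsR (cs U) p.1 p.2)
            * (∫ x : unitInterval, e x * e (U i)
              * G (Function.update U i x, inn μ T U (obsR (cs U) p.1 p.2)))
          = ∫ x : unitInterval, e x * e (U i) * (F (U, obsR (cs U) p.1 p.2)
            * G (Function.update U i x, inn μ T U (obsR (cs U) p.1 p.2))) := by
        intro p
        rw [← integral_const_mul]
        congr 1; ext x
        simp only [onQ]
        ring
      simp only [e1]
      rw [sw]
      congr 1; ext x
      simp only [hΨ]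
      exact integral_const_mul _ _
    have R : ∀ U : Site V → unitInterval, ∫ p, onQ F ((U, inn μ T U (obsR (cs U) p.1 p.2)),
          obsR (cs U) p.1 p.2) * ((∫ x : unitInterval, e x) * e (U i)
            * G (U, inn μ T U (obsR (cs U) p.1 p.2))) ∂(BM μ)
        = ∫ x : unitInterval, e x * e (U i) * Ψ (U, U) := by
      intro U
      rw [integral_mul_const, integral_mul_const]
      simp only [hΨ]
      rw [← integral_const_mul]
      congr 1; ext p
      simp only [onQ]
      ring
    simp only [L, R]
    rw [integral_swap_label i nφ]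
    have nφ' : Nice (fun w : (Site V → unitInterval) × unitInterval =>
        e ((Function.update w.1 i w.2, w.1 i).2) * e ((Function.update w.1 i w.2, w.1 i).1 i)
          * Ψ ((Function.update w.1 i w.2, w.1 i).1,
            Function.update (Function.update w.1 i w.2, w.1 i).1 i
              (Function.update w.1 i w.2, w.1 i).2)) := by
      have mup : Measurable (fun w : (Site V → unitInterval) × unitInterval =>
          (Function.update w.1 i w.2, w.1 i)) :=
        (measurable_update_pair (X := fun _ : Site V => unitInterval) i).prodMk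
          ((measurable_pi_apply i).comp measurable_fst)
      exact nφ.comp mup
    have nψ : Nice (fun w : (Site V → unitInterval) × unitInterval =>
        e w.2 * e (w.1 i) * Ψ (w.1, w.1)) :=
      ((ne.comp measurable_snd).mul (ne.comp ((measurable_pi_apply i).comp measurable_fst))).mul
        (nΨ.comp (measurable_fst.prodMk measurable_fst))
    have f1 := nφ'.integral_prod (iidLabels (Site V)) (volume : Measure unitInterval)
    have f2 := nψ.integral_prod (iidLabels (Site V)) (volume : Measure unitInterval)
    simp only at f1 f2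
    rw [← f1, ← f2]
    apply integral_congr_ae
    filter_upwards [ae_noTie_update (V := V) i] with w hw
    have eu : Function.update (Function.update w.1 i w.2) i (w.1 i) = w.1 := by
      rw [Function.update_idem, Function.update_eq_self]
    simp only [Function.update_self, eu]
    rcases e01 (w.1 i) with h1 | ⟨h1, h1'⟩
    · rw [h1]; ring
    · rcases e01 w.2 with h2 | ⟨h2, h2'⟩
      · rw [h2]; ring
      · rw [h1, h2]
        have := quenched_label (μ := μ) hT hTu hF nG w.1 w.2 hw.1 hw.2 h1' h2' w.1
        simp only [hΨ]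
        rw [this]
  -- conclusion
  have nD : Nice (fun w : Om V × unitInterval =>
      e (w.1.1 i) * e w.2 * (G (Function.update w.1.1 i w.2, w.1.2) - G w.1) ^ 2) :=
    (nei.mul nex).mul ((nG'.sub nG1).pow 2)
  have key : ∫ w, e (w.1.1 i) * e w.2 * (G (Function.update w.1.1 i w.2, w.1.2) - G w.1) ^ 2
      ∂((PP V).prod (volume : Measure unitInterval)) = 0 := by
    have n1 := (nei.mul nex).mul (nG'.pow 2)
    have n2 := (nei.mul nex).mul (nG'.mul nG1)
    have n3 := (nei.mul nex).mul (nG1.pow 2)
    have ex : ∫ w, e (w.1.1 i) * e w.2 * (G (Function.update w.1.1 i w.2, w.1.2) - G w.1) ^ 2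
        ∂((PP V).prod (volume : Measure unitInterval))
        = ∫ w, e (w.1.1 i) * e w.2 * G (Function.update w.1.1 i w.2, w.1.2) ^ 2
            ∂((PP V).prod (volume : Measure unitInterval))
          - 2 * ∫ w, e (w.1.1 i) * e w.2 * (G (Function.update w.1.1 i w.2, w.1.2) * G w.1)
            ∂((PP V).prod (volume : Measure unitInterval))
          + ∫ w, e (w.1.1 i) * e w.2 * G w.1 ^ 2
            ∂((PP V).prod (volume : Measure unitInterval)) := by
      have ep : ∀ w : Om V × unitInterval,
          e (w.1.1 i) * e w.2 * (G (Function.update w.1.1 i w.2, w.1.2) - G w.1) ^ 2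
          = (e (w.1.1 i) * e w.2 * G (Function.update w.1.1 i w.2, w.1.2) ^ 2
            - 2 * (e (w.1.1 i) * e w.2 * (G (Function.update w.1.1 i w.2, w.1.2) * G w.1)))
            + e (w.1.1 i) * e w.2 * G w.1 ^ 2 := fun w => by ring
      simp only [ep]
      rw [(n1.sub ((Nice.const 2).mul n2)).integral_add' n3,
        n1.integral_sub' ((Nice.const 2).mul n2), integral_const_mul]
    rw [ex, q1, q2]
    ring
  rw [integral_eq_zero_iff_of_nonneg _ (nD.integrable _)] at key
  · filter_upwards [key] with w hw h1 h2
    have h3 : e (w.1.1 i) * e w.2 * (G (Function.update w.1.1 i w.2, w.1.2) - G w.1) ^ 2 = 0 := hw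
    have e1 : e (w.1.1 i) = 1 := by simp only [he]; rw [if_pos h1]
    have e2 : e w.2 = 1 := by simp only [he]; rw [if_pos h2]
    rw [e1, e2, one_mul, one_mul] at h3
    have h4 : G (Function.update w.1.1 i w.2, w.1.2) - G w.1 = 0 := by simpa using h3
    linarith
  · intro w
    have h0 : ∀ x, 0 ≤ e x := by
      intro x
      rcases e01 x with h | ⟨h, _⟩ <;> rw [h] <;> norm_num
    have := h0 (w.1.1 i)
    have := h0 w.2
    positivity

/-- indicator of labels at least `s` -/
noncomputable def geI (s : ℝ) (x : unitInterval) : ℝ := if s ≤ (x : ℝ) then 1 else 0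

/-- indicator of labels in `[s, s')` -/
noncomputable def coI (s s' : ℝ) (x : unitInterval) : ℝ :=
  if s ≤ (x : ℝ) ∧ (x : ℝ) < s' then 1 else 0

omit [Countable V] [DecidableEq V] hT hTu in
lemma nice_geI (s : ℝ) : Nice (geI s) := by
  refine ⟨?_, 1, fun x => ?_⟩
  · exact Measurable.ite (measurableSet_le measurable_const measurable_subtype_coe)
      measurable_const measurable_const
  · unfold geI; split_ifs <;> simp

omit [Countable V] [DecidableEq V] hT hTu in
lemma nice_coI (s s' : ℝ) : Nice (coI s s') := by
  refine ⟨?_, 1, fun x => ?_⟩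
  · exact Measurable.ite ((measurableSet_le measurable_const measurable_subtype_coe).inter
      (measurableSet_lt measurable_subtype_coe measurable_const)) measurable_const measurable_const
  · unfold coI; split_ifs <;> simp

omit [Countable V] [DecidableEq V] hT hTu in
lemma integral_geI {s : ℝ} (hs0 : 0 ≤ s) (hs : s ≤ 1 / 2) : 1 / 2 ≤ ∫ x, geI s x := by
  obtain ⟨s0, hs00⟩ : ∃ s0 : unitInterval, (s0 : ℝ) = s := ⟨⟨s, hs0, by linarith⟩, rfl⟩
  have e : ∀ x : unitInterval, geI s x = (Set.Ici s0).indicator (fun _ => (1 : ℝ)) x := by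
    intro x
    unfold geI
    rw [← hs00]
    by_cases h : (s0 : ℝ) ≤ (x : ℝ)
    · rw [if_pos h, Set.indicator_of_mem]
      exact h
    · rw [if_neg h, Set.indicator_of_notMem]
      exact h
  simp only [e]
  rw [integral_indicator measurableSet_Ici, setIntegral_const, smul_eq_mul, mul_one, Measure.real,
    unitInterval.volume_Ici, hs00, ENNReal.toReal_ofReal (by linarith)]
  linarith

omit [Countable V] [DecidableEq V] hT hTu in
lemma integral_coI {s s' : ℝ} (hss : s ≤ s') : ∫ x, coI s s' x ≤ s' - s := by
  have h1 : ∫ x : unitInterval, coI s s' x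
      = ∫ x in Set.Icc (0 : ℝ) 1, (if s ≤ x ∧ x < s' then (1 : ℝ) else 0) :=
    integral_unitInterval (fun x => if s ≤ x ∧ x < s' then (1 : ℝ) else 0)
  rw [h1]
  have h2 : ∀ x : ℝ, (if s ≤ x ∧ x < s' then (1 : ℝ) else 0)
      = (Set.Ico s s').indicator (fun _ => (1 : ℝ)) x := by
    intro x
    by_cases h : s ≤ x ∧ x < s'
    · rw [if_pos h, Set.indicator_of_mem]; exact h
    · rw [if_neg h, Set.indicator_of_notMem]; exact h
  simp only [h2]
  rw [integral_indicator measurableSet_Ico]
  simp only [integral_const, smul_eq_mul, mul_one, Measure.real, Measure.restrict_apply_univ]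
  have h3 : (volume.restrict (Set.Icc (0 : ℝ) 1)) (Set.Ico s s') ≤ volume (Set.Ico s s') :=
    Measure.restrict_apply_le _ _
  rw [Real.volume_Ico] at h3
  have h4 := ENNReal.toReal_mono ENNReal.ofReal_ne_top h3
  rwa [ENNReal.toReal_ofReal (by linarith)] at h4

/-- the label of an unprocessed site is independent of the pasts of both copies -/
lemma relP_label {i : Site V} {s : ℝ} {F F' : (Site V → unitInterval) × (Site V → ℝ) → ℝ}
    (hF : PastF i s F) (hF' : PastF i s F') {j : unitInterval → ℝ} (hj : Nice j)
    (hjs : ∀ x : unitInterval, ¬ s ≤ (x : ℝ) → j x = 0) :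
    (∫ x, geI s x) * ∫ q, j (q.1.1 i) * (F (q.1.1, q.2.1) * F' (q.1.1, q.2.2)) ∂(relP (QM μ T))
      = (∫ x, j x) * ∫ q, geI s (q.1.1 i) * (F (q.1.1, q.2.1) * F' (q.1.1, q.2.2))
          ∂(relP (QM μ T)) := by
  have hfst := QM_fst (μ := μ) hT hTu
  have nF := nice_onQ hF.nice
  have nF' := nice_onQ hF'.nice
  have ne := nice_geI s
  have mi : Measurable (fun o : Om V => o.1 i) := (measurable_pi_apply i).comp measurable_fst
  have l1 := integral_relP_mul (Q := QM μ T) (hj.comp mi) nF nF'
  have l2 := integral_relP_mul (Q := QM μ T) (ne.comp mi) nF nF'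
  simp only [onQ] at l1 l2
  rw [l1, l2, hfst]
  set H : Om V → ℝ := fun o => hatF (QM μ T) (onQ F) o * hatF (QM μ T) (onQ F') o with hH
  have nH : Nice H := (nice_hatF nF).mul (nice_hatF nF')
  have nA : Nice (fun w : Om V × unitInterval => geI s w.2 * j (w.1.1 i) * H w.1) :=
    ((ne.comp measurable_snd).mul (hj.comp (mi.comp measurable_fst))).mul (nH.comp measurable_fst)
  have nB : Nice (fun w : Om V × unitInterval =>
      geI s w.2 * j (w.1.1 i) * H (Function.update w.1.1 i w.2, w.1.2)) :=
    ((ne.comp measurable_snd).mul (hj.comp (mi.comp measurable_fst))).mul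
      (nH.comp (measurable_upd1 i))
  have a1 : (∫ x, geI s x) * ∫ o, j (o.1 i) * H o ∂(PP V)
      = ∫ w, geI s w.2 * j (w.1.1 i) * H w.1 ∂((PP V).prod (volume : Measure unitInterval)) := by
    rw [nA.integral_prod, ← integral_const_mul]
    congr 1; ext o
    rw [← integral_mul_const]
    congr 1; ext x
    ring
  have a2 : ∫ w, geI s w.2 * j (w.1.1 i) * H w.1
        ∂((PP V).prod (volume : Measure unitInterval))
      = ∫ w, geI s w.2 * j (w.1.1 i) * H (Function.update w.1.1 i w.2, w.1.2)
        ∂((PP V).prod (volume : Measure unitInterval)) := by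
    apply integral_congr_ae
    filter_upwards [hat_label (μ := μ) hT hTu hF, hat_label (μ := μ) hT hTu hF'] with w h1 h2
    by_cases hx : s ≤ (w.2 : ℝ)
    · by_cases hy : s ≤ (w.1.1 i : ℝ)
      · simp only [hH]
        rw [h1 hy hx, h2 hy hx]
      · rw [hjs _ hy]; ring
    · have : geI s w.2 = 0 := by unfold geI; rw [if_neg hx]
      rw [this]; ring
  have a3 : ∫ w, geI s w.2 * j (w.1.1 i) * H (Function.update w.1.1 i w.2, w.1.2)
        ∂((PP V).prod (volume : Measure unitInterval))
      = (∫ x, j x) * ∫ o, geI s (o.1 i) * H o ∂(PP V) := by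
    rw [nB.integral_prod, PP_swap1 i nB, ← integral_const_mul]
    congr 1; ext o
    rw [← integral_mul_const]
    congr 1; ext x
    have eu : Function.update (Function.update o.1 i x) i (o.1 i) = o.1 := by
      rw [Function.update_idem, Function.update_eq_self]
    simp only [Function.update_self, eu]
    ring
  have := a1.trans (a2.trans a3)
  exact this

/-- Palm-type bound for sums of products of functionals of the two pasts -/
lemma relP_label_sum {ι : Type*} (L : Finset ι) {i : Site V} {s s' : ℝ} (hs0 : 0 ≤ s)
    (hs : s ≤ 1 / 2) (hss : s ≤ s')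
    {F F' : ι → (Site V → unitInterval) × (Site V → ℝ) → ℝ}
    (hF : ∀ l ∈ L, PastF i s (F l)) (hF' : ∀ l ∈ L, PastF i s (F' l))
    (hpos : ∀ q : Om V × ((Site V → ℝ) × (Site V → ℝ)),
      0 ≤ ∑ l ∈ L, F l (q.1.1, q.2.1) * F' l (q.1.1, q.2.2)) :
    ∫ q, coI s s' (q.1.1 i) * ∑ l ∈ L, F l (q.1.1, q.2.1) * F' l (q.1.1, q.2.2)
        ∂(relP (QM μ T))
      ≤ 2 * (s' - s) * ∫ q, ∑ l ∈ L, F l (q.1.1, q.2.1) * F' l (q.1.1, q.2.2)
          ∂(relP (QM μ T)) := by
  set P := relP (QM μ T) with hP
  have mi : Measurable (fun q : Om V × ((Site V → ℝ) × (Site V → ℝ)) => q.1.1 i) :=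
    (measurable_pi_apply i).comp (measurable_fst.comp measurable_fst)
  have nc := nice_coI s s'
  have ng := nice_geI s
  have m1 : Measurable (fun q : Om V × ((Site V → ℝ) × (Site V → ℝ)) => (q.1.1, q.2.1)) := by
    fun_prop
  have m2 : Measurable (fun q : Om V × ((Site V → ℝ) × (Site V → ℝ)) => (q.1.1, q.2.2)) := by
    fun_prop
  have nS : Nice (fun q : Om V × ((Site V → ℝ) × (Site V → ℝ)) =>
      ∑ l ∈ L, F l (q.1.1, q.2.1) * F' l (q.1.1, q.2.2)) :=
    Nice.sum _ (fun l hl => ((hF l hl).nice.comp m1).mul ((hF' l hl).nice.comp m2))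
  set Φ : Om V × ((Site V → ℝ) × (Site V → ℝ)) → ℝ :=
    fun q => ∑ l ∈ L, F l (q.1.1, q.2.1) * F' l (q.1.1, q.2.2) with hΦ
  have key : (∫ x, geI s x) * ∫ q, coI s s' (q.1.1 i) * Φ q ∂P
      = (∫ x, coI s s' x) * ∫ q, geI s (q.1.1 i) * Φ q ∂P := by
    simp only [hΦ, Finset.mul_sum]
    rw [integral_finsetSum, integral_finsetSum, Finset.mul_sum, Finset.mul_sum]
    · apply Finset.sum_congr rfl
      intro l hl
      apply relP_label (μ := μ) hT hTu (hF l hl) (hF' l hl) nc
      intro x hx
      unfold coI
      rw [if_neg (fun h => hx h.1)]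
    · intro l hl
      exact ((ng.comp mi).mul (((hF l hl).nice.comp m1).mul ((hF' l hl).nice.comp m2))).integrable _
    · intro l hl
      exact ((nc.comp mi).mul (((hF l hl).nice.comp m1).mul ((hF' l hl).nice.comp m2))).integrable _
  have g1 := integral_geI hs0 hs
  have g2 := integral_coI (s := s) (s' := s') hss
  have hA : 0 ≤ ∫ q, coI s s' (q.1.1 i) * Φ q ∂P := by
    apply integral_nonneg
    intro q
    apply mul_nonneg
    · unfold coI; split_ifs <;> norm_num
    · exact hpos q
  have hB : ∫ q, geI s (q.1.1 i) * Φ q ∂P ≤ ∫ q, Φ q ∂P := by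
    apply Nice.integral_mono' ((ng.comp mi).mul nS) nS
    intro q
    have h0 := hpos q
    have : geI s (q.1.1 i) ≤ 1 := by unfold geI; split_ifs <;> norm_num
    nlinarith
  have hB0 : 0 ≤ ∫ q, geI s (q.1.1 i) * Φ q ∂P := by
    apply integral_nonneg
    intro q
    apply mul_nonneg
    · unfold geI; split_ifs <;> norm_num
    · exact hpos q
  have hc0 : 0 ≤ ∫ x : unitInterval, coI s s' x := by
    apply integral_nonneg
    intro x
    unfold coI; split_ifs <;> norm_num
  have h3 : (∫ x, coI s s' x) * ∫ q, geI s (q.1.1 i) * Φ q ∂P ≤ (s' - s) * ∫ q, Φ q ∂P := by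
    calc (∫ x, coI s s' x) * ∫ q, geI s (q.1.1 i) * Φ q ∂P
        ≤ (s' - s) * ∫ q, geI s (q.1.1 i) * Φ q ∂P := mul_le_mul_of_nonneg_right g2 hB0
      _ ≤ _ := mul_le_mul_of_nonneg_left hB (by linarith)
  nlinarith

end Vale.Agent.P161c
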