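import Vale.Agent.H13.P161.Broadcast
import Vale.Agent.H13.P161.TreeMetric

/-!
P161, critical case: deterministic tree fields, coupled homogeneous fields, and the abstract
environment of cavity magnetizations.
-/

namespace Vale.Agent.P161c

open MeasureTheory SimpleGraph Vale.Agent.H13.P161

section Deterministic

variable {V : Type*} (G : SimpleGraph V)

/-- the branch of `c` away from its neighbour `p` -/
def br (c p : V) : Set V := {w | G.dist w c < G.dist w p}

/-- screening factor -/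
noncomputable def phi (θ m : ℝ) : ℝ := (1 - m ^ 2) / (1 - θ ^ 2 * m ^ 2)

/-- combination of two independent magnetizations at a vertex -/
noncomputable def comb (x y : ℝ) : ℝ := (x + y) / (1 + x * y)

/-- magnetization at `c` computed from the two cavity magnetizations of the edge `c p`
(`m c p` is the cavity magnetization of `c` away from `p`) -/
noncomputable def magE (θ : ℝ) (m : V → V → ℝ) (c p : V) : ℝ := comb (m c p) (θ * m p c)

open Classical in
/-- full magnetization at `c` -/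
noncomputable def mag (θ : ℝ) (m : V → V → ℝ) (c : V) : ℝ :=
  if h : ∃ p, G.Adj c p then magE θ m c h.choose else 0

/-- product of the screening factors along the path from `v` to `w` (recursion) -/
noncomputable def WtAux (θ : ℝ) (m : V → V → ℝ) (v : V) : ℕ → V → ℝ
  | 0, _ => 1
  | n + 1, w => WtAux θ m v n (par G v w) * phi θ (m w (par G v w))

/-- product of the screening factors along the path from `v` to `w` (the vertex `v` itself
excluded); `par G v w` is the neighbour of `w` on the path from `w` to `v` -/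
noncomputable def Wt (θ : ℝ) (m : V → V → ℝ) (v w : V) : ℝ := WtAux G θ m v (G.dist v w) w

/-- the covariance of the spins at `v` and `w` -/
noncomputable def Cv (θ : ℝ) (m : V → V → ℝ) (v w : V) : ℝ :=
  (1 - mag G θ m v ^ 2) * θ ^ G.dist v w * Wt G θ m v w

/-- full screened susceptibility -/
noncomputable def Rf (θ : ℝ) (m : V → V → ℝ) (v : V) : ENNReal :=
  ∑' w, ENNReal.ofReal (θ ^ (2 * G.dist v w) * Wt G θ m v w)

open Classical in
/-- screened susceptibility of the branch of `c` away from `p` -/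
noncomputable def Rb (θ : ℝ) (m : V → V → ℝ) (c p : V) : ENNReal :=
  ∑' w, if G.dist w c < G.dist w p then ENNReal.ofReal (θ ^ (2 * G.dist c w) * Wt G θ m c w) else 0

open Classical in
/-- the same with squared screening factors -/
noncomputable def Rb2 (θ : ℝ) (m : V → V → ℝ) (c p : V) : ENNReal :=
  ∑' w, if G.dist w c < G.dist w p then
    ENNReal.ofReal (θ ^ (2 * G.dist c w) * Wt G θ m c w ^ 2) else 0

/-- branch susceptibility truncated at depth `n`, by recursion over the children -/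
noncomputable def Rn [LocallyFinite G] [DecidableEq V] (θ : ℝ) (m : V → V → ℝ) :
    ℕ → V → V → ℝ
  | 0, _, _ => 0
  | n + 1, c, p => 1 + θ ^ 2 * ∑ g ∈ (G.neighborFinset c).erase p, phi θ (m g c) * Rn θ m n g c

/-- consistency of a cavity field -/
structure IsCavity (θ α : ℝ) (m : V → V → ℝ) : Prop where
  bound : ∀ c p, G.Adj c p → |m c p| ≤ α
  cons : ∀ c p q, G.Adj c p → G.Adj c q → magE θ m c p = magE θ m c q

end Deterministic

section Homog

variable {V : Type*} (G : SimpleGraph V) {Ω : Type*} [MeasurableSpace Ω]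

/-- the joint law of the two random cavity fields is invariant under all automorphisms -/
def Homog (P : Measure Ω) (m m' : Ω → V → V → ℝ) : Prop :=
  ∀ g : G ≃g G,
    P.map (fun ω => ((fun c p => m ω (g c) (g p), fun c p => m' ω (g c) (g p)) :
      (V → V → ℝ) × (V → V → ℝ)))
    = P.map (fun ω => ((m ω, m' ω) : (V → V → ℝ) × (V → V → ℝ)))

/-- quantitative bounds for a random cavity field at level `y ^ 64` (the second moment of the
cavity magnetizations is of order `y ^ 64`) -/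
structure EnvB (θ : ℝ) (C : ℕ → ℝ) (y : ℝ) (r : ENNReal) (P : Measure Ω) (m : Ω → V → V → ℝ) :
    Prop where
  mom : ∀ k c p, G.Adj c p → ∫⁻ ω, ENNReal.ofReal (|m ω c p| ^ (2 * k)) ∂P
    ≤ ENNReal.ofReal (C k * y ^ (64 * k))
  momR : ∀ k v, ∫⁻ ω, (Rf G θ (m ω) v) ^ k ∂P ≤ ENNReal.ofReal (C k / y ^ (64 * k))
  mean : ∀ c p, G.Adj c p → ∫⁻ ω, Rb2 G θ (m ω) c p ∂P = r
  uncorr : ∀ c p c' p', G.Adj c p → G.Adj c' p' → Disjoint (br G c p) (br G c' p') →
    ∫⁻ ω, Rb2 G θ (m ω) c p * Rb2 G θ (m ω) c' p' ∂P = r * r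

end Homog

section Env

variable {V : Type*} (G : SimpleGraph V)

/-- spin configuration and own magnetizations (side information) -/
abbrev Cfg (V : Type*) := (V → ℤˣ) × (V → ℝ)

/-- `F` only depends on what happens in `B` -/
def DepOn (B : Set V) (F : Cfg V → ℝ) : Prop :=
  ∀ ω ω' : Cfg V, (∀ w ∈ B, ω.1 w = ω'.1 w ∧ ω.2 w = ω'.2 w) → F ω = F ω'

/-- `F` only depends on the side information in `B` -/
def ObsDepOn (B : Set V) (F : (V → ℝ) → ℝ) : Prop :=
  ∀ a a' : V → ℝ, (∀ w ∈ B, a w = a' w) → F a = F a'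

/-- the environment of cavity magnetizations at a fixed time: `ω.1` is the spin configuration,
`ω.2` the field of own magnetizations and `m c p` the cavity magnetization of `c` away from `p`. -/
structure CavEnv0 [LocallyFinite G] [DecidableEq V] (θ α : ℝ) (P : Measure (Cfg V))
    (m : V → V → (V → ℝ) → ℝ) : Prop where
  prob : IsProbabilityMeasure P
  flip : P.map (fun ω : Cfg V => ((fun v => - ω.1 v, fun v => - ω.2 v) : Cfg V)) = P
  own_bound : ∀ᵐ ω ∂P, ∀ v, |ω.2 v| ≤ α
  meas : ∀ c p, Measurable (m c p)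
  bound : ∀ c p a, |m c p a| ≤ 1
  odd : ∀ c p a, m c p (fun v => - a v) = - m c p a
  dep : ∀ c p, ObsDepOn (br G c p) (m c p)
  markov : ∀ c p, G.Adj c p → ∀ F H : Cfg V → ℝ, Nice F → Nice H →
    DepOn (br G c p) F → DepOn (br G p c) H →
    ∫ ω, F ω * H ω ∂P = (∫ ω, F ω ∂P) * (∫ ω, H ω ∂P)
      + θ * (∫ ω, F ω * spinVal (ω.1 c) ∂P) * (∫ ω, H ω * spinVal (ω.1 p) ∂P)
  tower : ∀ c p, G.Adj c p → ∀ F : (V → ℝ) → ℝ, Nice F → ObsDepOn (br G c p) F →
    ∫ ω, F ω.2 * spinVal (ω.1 c) ∂P = ∫ ω, F ω.2 * m c p ω.2 ∂P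
  own : ∀ v, ∀ F : ℝ → ℝ, ∀ H : Cfg V → ℝ, Nice F → Nice H →
    (∀ (σ : V → ℤˣ) (a a' : V → ℝ), (∀ w, w ≠ v → a w = a' w) → H (σ, a) = H (σ, a')) →
    ∫ ω, F (ω.2 v) * H ω ∂P = (∫ ω, F (ω.2 v) ∂P) * (∫ ω, H ω ∂P)
      + (∫ ω, F (ω.2 v) * spinVal (ω.1 v) ∂P) * (∫ ω, H ω * spinVal (ω.1 v) ∂P)
  tower_own : ∀ v, ∀ F : ℝ → ℝ, Nice F →
    ∫ ω, F (ω.2 v) * spinVal (ω.1 v) ∂P = ∫ ω, F (ω.2 v) * ω.2 v ∂P
  recur : ∀ᵐ ω ∂P, ∀ c p, G.Adj c p →
    m c p ω.2 *
      ((1 + ω.2 c) * ∏ g ∈ (G.neighborFinset c).erase p, (1 + θ * m g c ω.2)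
        + (1 - ω.2 c) * ∏ g ∈ (G.neighborFinset c).erase p, (1 - θ * m g c ω.2))
      = (1 + ω.2 c) * ∏ g ∈ (G.neighborFinset c).erase p, (1 + θ * m g c ω.2)
        - (1 - ω.2 c) * ∏ g ∈ (G.neighborFinset c).erase p, (1 - θ * m g c ω.2)

/-- homogeneous environment -/
structure CavEnv [LocallyFinite G] [DecidableEq V] (θ α : ℝ) (P : Measure (Cfg V))
    (m : V → V → (V → ℝ) → ℝ) : Prop extends CavEnv0 G θ α P m where
  inv : ∀ g : G ≃g G, P.map (fun ω : Cfg V => ((fun v => ω.1 (g v), fun v => ω.2 (g v)) : Cfg V)) = P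
  equiv : ∀ (g : G ≃g G) (c p : V), G.Adj c p →
    ∀ᵐ ω ∂P, m (g c) (g p) ω.2 = m c p (fun v => ω.2 (g v))

end Env

end Vale.Agent.P161c
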