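import Vale.Agent.P161c.Defs

/-!
Elementary real inequalities (P161, critical case).
-/

namespace Vale.Agent.P161c

open MeasureTheory SimpleGraph Vale.Agent.H13.P161

/-- `(x - y)² ≤ (x² - y²) (log x - log y) / 2` for positive reals.
Proof: wlog `y ≤ x`, `x = y t`, `t ≥ 1`; need `2 (t - 1) ≤ (t + 1) log t`. -/
lemma sq_sub_le_log {x y : ℝ} (hx : 0 < x) (hy : 0 < y) :
    (x - y) ^ 2 ≤ (x ^ 2 - y ^ 2) * (Real.log x - Real.log y) / 2 := by
  wlog hxy : y ≤ x generalizing x y with H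
  · have h := H hy hx (le_of_not_ge hxy)
    nlinarith
  have hs : 0 < x + y := by linarith
  set t : ℝ := (x - y) / (x + y) with ht
  have ht0 : 0 ≤ t := div_nonneg (by linarith) hs.le
  have ht1 : t < 1 := by rw [ht, div_lt_one hs]; linarith
  have h1 : 1 + t = 2 * x / (x + y) := by rw [ht]; field_simp; ring
  have h2 : 1 - t = 2 * y / (x + y) := by rw [ht]; field_simp; ring
  have h3 : Real.log (1 + t) - Real.log (1 - t) = Real.log x - Real.log y := by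
    rw [h1, h2, Real.log_div (by positivity) hs.ne', Real.log_div (by positivity) hs.ne',
      Real.log_mul two_ne_zero hx.ne', Real.log_mul two_ne_zero hy.ne']
    ring
  have h4 := Real.hasSum_log_sub_log_of_abs_lt_one (x := t) (by rw [abs_of_nonneg ht0]; exact ht1)
  have h5 : 2 * t ≤ Real.log (1 + t) - Real.log (1 - t) := by
    have h6 := sum_le_hasSum {0} (fun i _ => by positivity) h4
    simpa using h6
  rw [h3] at h5
  have h7 : x - y = t * (x + y) := by rw [ht]; field_simp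
  have h8 : (x - y) ^ 2 = (x ^ 2 - y ^ 2) * (2 * t) / 2 := by
    have : x ^ 2 - y ^ 2 = (x - y) * (x + y) := by ring
    rw [this]
    calc (x - y) ^ 2 = (x - y) * (t * (x + y)) := by rw [← h7]; ring
      _ = _ := by ring
  rw [h8]
  have h9 : 0 ≤ x ^ 2 - y ^ 2 := by nlinarith
  have h10 := mul_le_mul_of_nonneg_left h5 h9
  linarith

/-- difference of two combinations.  Identity:
`comb a z - comb a' z' = ((a - a') (1 - z z') + (z - z') (1 - a a')) / ((1 + a z) (1 + a' z'))`. -/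
lemma comb_sub {a z a' z' : ℝ} (h : 1 + a * z ≠ 0) (h' : 1 + a' * z' ≠ 0) :
    comb a z - comb a' z'
      = ((a - a') * (1 - z * z') + (z - z') * (1 - a * a')) / ((1 + a * z) * (1 + a' * z')) := by
  unfold comb
  rw [div_sub_div _ _ h h']
  congr 1
  ring

lemma one_sub_comb_sq {a z : ℝ} (h : 1 + a * z ≠ 0) :
    1 - comb a z ^ 2 = (1 - a ^ 2) * (1 - z ^ 2) / (1 + a * z) ^ 2 := by
  unfold comb
  rw [div_pow, one_sub_div (pow_ne_zero 2 h)]
  congr 1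
  ring

/-- difference of two logarithms -/
lemma abs_log_sub_le {u v c : ℝ} (hc : 0 < c) (hu : c ≤ u) (hv : c ≤ v) :
    |Real.log u - Real.log v| ≤ |u - v| / c := by
  have hu0 : 0 < u := lt_of_lt_of_le hc hu
  have hv0 : 0 < v := lt_of_lt_of_le hc hv
  have key : ∀ p q : ℝ, c ≤ p → c ≤ q → Real.log p - Real.log q ≤ |p - q| / c := by
    intro p q hp hq
    have hp0 : 0 < p := lt_of_lt_of_le hc hp
    have hq0 : 0 < q := lt_of_lt_of_le hc hq
    rw [← Real.log_div hp0.ne' hq0.ne']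
    have h1 := Real.log_le_sub_one_of_pos (div_pos hp0 hq0)
    have h2 : p / q - 1 = (p - q) / q := by field_simp
    rw [h2] at h1
    refine h1.trans ((div_le_div_of_nonneg_right (le_abs_self _) hq0.le).trans ?_)
    exact div_le_div_of_nonneg_left (abs_nonneg _) hc hq
  rw [abs_le]
  constructor
  · have h := key v u hv hu
    rw [abs_sub_comm] at h
    linarith
  · exact key u v hu hv

lemma abs_sq_sub_le (x x' : ℝ) : |x ^ 2 - x' ^ 2| ≤ (|x| + |x'|) * |x - x'| := by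
  have h : x ^ 2 - x' ^ 2 = (x + x') * (x - x') := by ring
  rw [h, abs_mul]
  exact mul_le_mul_of_nonneg_right (abs_add_le _ _) (abs_nonneg _)

lemma sq_le_of_abs_le_aux {x α : ℝ} (h : |x| ≤ α) : x ^ 2 ≤ α ^ 2 := by
  rw [← sq_abs x]
  exact pow_le_pow_left₀ (abs_nonneg x) h 2

/-- `phi` is Lipschitz with a constant proportional to the size of the arguments -/
lemma phi_sub_le {θ α : ℝ} (hθ0 : 0 ≤ θ) (hθ1 : θ < 1) (hα0 : 0 ≤ α) (hα1 : α < 1) :
    ∃ K : ℝ, 0 < K ∧ ∀ x x' : ℝ, |x| ≤ α → |x'| ≤ α →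
      |phi θ x - phi θ x'| ≤ K * (|x| + |x'|) * |x - x'| ∧
      |phi θ x ^ 2 - phi θ x' ^ 2| ≤ K * (|x| + |x'|) * |x - x'| ∧
      |Real.log (phi θ x) - Real.log (phi θ x')| ≤ K * (|x| + |x'|) * |x - x'| ∧
      x ^ 2 ≤ K * (- Real.log (phi θ x)) := by
  have hθ2 : 0 < 1 - θ ^ 2 := by nlinarith
  have hα2 : 0 < 1 - α ^ 2 := by nlinarith
  have hθ2' : 1 - θ ^ 2 ≤ 1 := by nlinarith
  have hα2' : 1 - α ^ 2 ≤ 1 := by nlinarith
  set K : ℝ := 2 / ((1 - θ ^ 2) * (1 - α ^ 2)) with hK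
  have hK0 : 0 < K := by positivity
  have hK1 : 2 / (1 - θ ^ 2) ≤ K := by
    rw [hK]
    apply div_le_div_of_nonneg_left (by norm_num) (by positivity)
    nlinarith
  have hK2 : 1 / (1 - θ ^ 2) ≤ K := by
    refine le_trans ?_ hK1
    exact div_le_div_of_nonneg_right (by norm_num) hθ2.le
  refine ⟨K, hK0, ?_⟩
  intro x x' hx hx'
  have hxx := sq_le_of_abs_le_aux hx
  have hxx' := sq_le_of_abs_le_aux hx'
  have hx0 := sq_nonneg x
  have hx0' := sq_nonneg x'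
  have hT : 0 ≤ (|x| + |x'|) * |x - x'| := by positivity
  have hD : 1 - θ ^ 2 ≤ 1 - θ ^ 2 * x ^ 2 := by nlinarith [sq_nonneg θ]
  have hD' : 1 - θ ^ 2 ≤ 1 - θ ^ 2 * x' ^ 2 := by nlinarith [sq_nonneg θ]
  have hD1 : 1 - θ ^ 2 * x ^ 2 ≤ 1 := by nlinarith [mul_nonneg (sq_nonneg θ) hx0]
  have hD1' : 1 - θ ^ 2 * x' ^ 2 ≤ 1 := by nlinarith [mul_nonneg (sq_nonneg θ) hx0']
  have hD0 : 0 < 1 - θ ^ 2 * x ^ 2 := by linarith
  have hD0' : 0 < 1 - θ ^ 2 * x' ^ 2 := by linarith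
  have hp1 : ∀ z : ℝ, z ^ 2 ≤ α ^ 2 → 1 - α ^ 2 ≤ phi θ z ∧ phi θ z ≤ 1 := by
    intro z hz
    have hz0 := sq_nonneg z
    have hDz : 0 < 1 - θ ^ 2 * z ^ 2 := by nlinarith [sq_nonneg θ]
    unfold phi
    constructor
    · rw [le_div_iff₀ hDz]
      have h1 : (1 - α ^ 2) * (1 - θ ^ 2 * z ^ 2) ≤ (1 - α ^ 2) * 1 :=
        mul_le_mul_of_nonneg_left (by nlinarith [mul_nonneg (sq_nonneg θ) hz0]) hα2.le
      linarith
    · rw [div_le_one hDz]
      nlinarith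
  have hdiff : |phi θ x - phi θ x'| ≤ 1 / (1 - θ ^ 2) * ((|x| + |x'|) * |x - x'|) := by
    have e : phi θ x - phi θ x'
        = - ((1 - θ ^ 2) * (x ^ 2 - x' ^ 2))
          / ((1 - θ ^ 2 * x ^ 2) * (1 - θ ^ 2 * x' ^ 2)) := by
      unfold phi
      rw [div_sub_div _ _ hD0.ne' hD0'.ne']
      congr 1
      ring
    rw [e, abs_div, abs_neg, abs_mul, abs_of_pos hθ2, abs_of_pos (mul_pos hD0 hD0')]
    calc (1 - θ ^ 2) * |x ^ 2 - x' ^ 2| / ((1 - θ ^ 2 * x ^ 2) * (1 - θ ^ 2 * x' ^ 2))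
        ≤ (1 - θ ^ 2) * |x ^ 2 - x' ^ 2| / ((1 - θ ^ 2) * (1 - θ ^ 2)) := by
          apply div_le_div_of_nonneg_left (mul_nonneg hθ2.le (abs_nonneg _)) (by positivity)
          exact mul_le_mul hD hD' hθ2.le hD0.le
      _ = 1 / (1 - θ ^ 2) * |x ^ 2 - x' ^ 2| := by
          field_simp
      _ ≤ _ := mul_le_mul_of_nonneg_left (abs_sq_sub_le x x') (by positivity)
  obtain ⟨hpl, hpu⟩ := hp1 x hxx
  obtain ⟨hpl', hpu'⟩ := hp1 x' hxx'
  refine ⟨?_, ?_, ?_, ?_⟩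
  · refine hdiff.trans ?_
    rw [mul_assoc]
    exact mul_le_mul_of_nonneg_right hK2 hT
  · have e : phi θ x ^ 2 - phi θ x' ^ 2 = (phi θ x + phi θ x') * (phi θ x - phi θ x') := by ring
    rw [e, abs_mul, mul_assoc]
    have h2 : |phi θ x + phi θ x'| ≤ 2 := by
      rw [abs_of_nonneg (by linarith)]
      linarith
    calc |phi θ x + phi θ x'| * |phi θ x - phi θ x'|
        ≤ 2 * (1 / (1 - θ ^ 2) * ((|x| + |x'|) * |x - x'|)) :=
          mul_le_mul h2 hdiff (abs_nonneg _) (by norm_num)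
      _ = 2 / (1 - θ ^ 2) * ((|x| + |x'|) * |x - x'|) := by ring
      _ ≤ _ := mul_le_mul_of_nonneg_right hK1 hT
  · refine (abs_log_sub_le hα2 hpl hpl').trans ?_
    rw [mul_assoc]
    calc |phi θ x - phi θ x'| / (1 - α ^ 2)
        ≤ (1 / (1 - θ ^ 2) * ((|x| + |x'|) * |x - x'|)) / (1 - α ^ 2) :=
          div_le_div_of_nonneg_right hdiff hα2.le
      _ = (1 / ((1 - θ ^ 2) * (1 - α ^ 2))) * ((|x| + |x'|) * |x - x'|) := by
          field_simp
      _ ≤ _ := by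
          apply mul_le_mul_of_nonneg_right _ hT
          rw [hK]
          exact div_le_div_of_nonneg_right (by norm_num) (by positivity)
  · have h1 : Real.log (phi θ x) ≤ phi θ x - 1 :=
      Real.log_le_sub_one_of_pos (lt_of_lt_of_le hα2 hpl)
    have h2 : (1 - θ ^ 2) * x ^ 2 ≤ 1 - phi θ x := by
      have e : 1 - phi θ x = (1 - θ ^ 2) * x ^ 2 / (1 - θ ^ 2 * x ^ 2) := by
        unfold phi
        rw [one_sub_div hD0.ne']
        congr 1
        ring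
      rw [e, le_div_iff₀ hD0]
      have h3 : (1 - θ ^ 2) * x ^ 2 * (1 - θ ^ 2 * x ^ 2) ≤ (1 - θ ^ 2) * x ^ 2 * 1 :=
        mul_le_mul_of_nonneg_left hD1 (by positivity)
      linarith
    have h3 : (1 - θ ^ 2) * x ^ 2 ≤ - Real.log (phi θ x) := by linarith
    have h4 : 0 ≤ - Real.log (phi θ x) := le_trans (by positivity) h3
    calc x ^ 2 = 1 / (1 - θ ^ 2) * ((1 - θ ^ 2) * x ^ 2) := by field_simp
      _ ≤ 1 / (1 - θ ^ 2) * (- Real.log (phi θ x)) :=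
          mul_le_mul_of_nonneg_left h3 (by positivity)
      _ ≤ K * (- Real.log (phi θ x)) := mul_le_mul_of_nonneg_right hK2 h4

/-- the same for `log (1 - x²)` and `(1 - x²)` -/
lemma log_one_sub_sq_le {α : ℝ} (hα0 : 0 ≤ α) (hα1 : α < 1) :
    ∃ K : ℝ, 0 < K ∧ ∀ x x' : ℝ, |x| ≤ α → |x'| ≤ α →
      |Real.log (1 - x ^ 2) - Real.log (1 - x' ^ 2)| ≤ K * (|x| + |x'|) * |x - x'| ∧
      |(1 - x ^ 2) ^ 2 - (1 - x' ^ 2) ^ 2| ≤ K * (|x| + |x'|) * |x - x'| ∧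
      x ^ 2 ≤ K * (- Real.log (1 - x ^ 2)) := by
  have hα2 : 0 < 1 - α ^ 2 := by nlinarith
  have hα2' : 1 - α ^ 2 ≤ 1 := by nlinarith
  set K : ℝ := 2 / (1 - α ^ 2) with hK
  have hK0 : 0 < K := by positivity
  have hK2 : 2 ≤ K := by
    rw [hK, le_div_iff₀ hα2]
    linarith
  refine ⟨K, hK0, ?_⟩
  intro x x' hx hx'
  have hxx := sq_le_of_abs_le_aux hx
  have hxx' := sq_le_of_abs_le_aux hx'
  have hx0 := sq_nonneg x
  have hx0' := sq_nonneg x'
  have hT : 0 ≤ (|x| + |x'|) * |x - x'| := by positivity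
  have hS := abs_sq_sub_le x x'
  refine ⟨?_, ?_, ?_⟩
  · refine (abs_log_sub_le hα2 (by linarith) (by linarith)).trans ?_
    have e : (1 - x ^ 2) - (1 - x' ^ 2) = - (x ^ 2 - x' ^ 2) := by ring
    rw [e, abs_neg, mul_assoc]
    calc |x ^ 2 - x' ^ 2| / (1 - α ^ 2)
        ≤ ((|x| + |x'|) * |x - x'|) / (1 - α ^ 2) := div_le_div_of_nonneg_right hS hα2.le
      _ = 1 / (1 - α ^ 2) * ((|x| + |x'|) * |x - x'|) := by ring
      _ ≤ _ := by
          apply mul_le_mul_of_nonneg_right _ hT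
          rw [hK]
          exact div_le_div_of_nonneg_right (by norm_num) hα2.le
  · have e : (1 - x ^ 2) ^ 2 - (1 - x' ^ 2) ^ 2
        = - ((2 - x ^ 2 - x' ^ 2) * (x ^ 2 - x' ^ 2)) := by ring
    rw [e, abs_neg, abs_mul, mul_assoc]
    have h2 : |2 - x ^ 2 - x' ^ 2| ≤ 2 := by
      rw [abs_of_nonneg (by linarith)]
      linarith
    calc |2 - x ^ 2 - x' ^ 2| * |x ^ 2 - x' ^ 2|
        ≤ 2 * ((|x| + |x'|) * |x - x'|) := mul_le_mul h2 hS (abs_nonneg _) (by norm_num)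
      _ ≤ _ := mul_le_mul_of_nonneg_right hK2 hT
  · have h1 : Real.log (1 - x ^ 2) ≤ (1 - x ^ 2) - 1 :=
      Real.log_le_sub_one_of_pos (by linarith)
    have h2 : x ^ 2 ≤ - Real.log (1 - x ^ 2) := by linarith
    have h3 : 0 ≤ - Real.log (1 - x ^ 2) := by linarith
    nlinarith

/-- squared covariance of an edge: size-weighted Lipschitz bound.
Here `F a c = θ (1 - a²)(1 - c²) / (1 + θ a c)²`. -/
lemma edge_cov_sub_le {θ α : ℝ} (hθ0 : 0 ≤ θ) (hθ1 : θ < 1) (hα0 : 0 ≤ α) (hα1 : α < 1) :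
    ∃ K : ℝ, 0 < K ∧ ∀ a c a' c' : ℝ, |a| ≤ α → |c| ≤ α → |a'| ≤ α → |c'| ≤ α →
      |(θ * ((1 - a ^ 2) * (1 - c ^ 2)) / (1 + θ * a * c) ^ 2) ^ 2
        - (θ * ((1 - a' ^ 2) * (1 - c' ^ 2)) / (1 + θ * a' * c') ^ 2) ^ 2|
      ≤ K * (|a| + |c| + |a'| + |c'|) * (|a - a'| + |c - c'|) := by
  have h1θ : 0 < 1 - θ := by linarith
  refine ⟨64 / (1 - θ) ^ 8, by positivity, ?_⟩
  intro a c a' c' ha hc ha' hc'
  have ha1 : |a| ≤ 1 := ha.trans hα1.le
  have hc1 : |c| ≤ 1 := hc.trans hα1.le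
  have ha1' : |a'| ≤ 1 := ha'.trans hα1.le
  have hc1' : |c'| ≤ 1 := hc'.trans hα1.le
  have hDb : ∀ p q : ℝ, |p| ≤ 1 → |q| ≤ 1 → 1 - θ ≤ 1 + θ * p * q ∧ 1 + θ * p * q ≤ 2 := by
    intro p q hp hq
    have h1 : |p * q| ≤ 1 := by
      rw [abs_mul]
      exact mul_le_one₀ hp (abs_nonneg q) hq
    have h2 := abs_le.mp h1
    constructor <;> nlinarith
  have hub : ∀ p q : ℝ, |p| ≤ 1 → |q| ≤ 1 →
      0 ≤ (1 - p ^ 2) * (1 - q ^ 2) ∧ (1 - p ^ 2) * (1 - q ^ 2) ≤ 1 := by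
    intro p q hp hq
    have h1 := sq_le_of_abs_le_aux hp
    have h2 := sq_le_of_abs_le_aux hq
    have h3 := sq_nonneg p
    have h4 := sq_nonneg q
    constructor
    · exact mul_nonneg (by linarith) (by linarith)
    · exact mul_le_one₀ (by linarith) (by linarith) (by linarith)
  obtain ⟨hDl, hDu⟩ := hDb a c ha1 hc1
  obtain ⟨hDl', hDu'⟩ := hDb a' c' ha1' hc1'
  obtain ⟨hul, huu⟩ := hub a c ha1 hc1
  obtain ⟨hul', huu'⟩ := hub a' c' ha1' hc1'
  set S : ℝ := |a| + |c| + |a'| + |c'| with hS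
  set T : ℝ := |a - a'| + |c - c'| with hT
  have hud : |(1 - a ^ 2) * (1 - c ^ 2) - (1 - a' ^ 2) * (1 - c' ^ 2)| ≤ S * T := by
    have e : (1 - a ^ 2) * (1 - c ^ 2) - (1 - a' ^ 2) * (1 - c' ^ 2)
        = - ((a ^ 2 - a' ^ 2) * (1 - c ^ 2)) - (1 - a' ^ 2) * (c ^ 2 - c' ^ 2) := by ring
    rw [e]
    have h1 : |(a ^ 2 - a' ^ 2) * (1 - c ^ 2)| ≤ (|a| + |a'|) * |a - a'| := by
      rw [abs_mul]
      have h2 : |1 - c ^ 2| ≤ 1 := by
        have h3 := sq_le_of_abs_le_aux hc1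
        have h4 := sq_nonneg c
        rw [abs_le]
        constructor <;> linarith
      calc |a ^ 2 - a' ^ 2| * |1 - c ^ 2| ≤ |a ^ 2 - a' ^ 2| * 1 :=
            mul_le_mul_of_nonneg_left h2 (abs_nonneg _)
        _ ≤ _ := by rw [mul_one]; exact abs_sq_sub_le a a'
    have h1' : |(1 - a' ^ 2) * (c ^ 2 - c' ^ 2)| ≤ (|c| + |c'|) * |c - c'| := by
      rw [abs_mul]
      have h2 : |1 - a' ^ 2| ≤ 1 := by
        have h3 := sq_le_of_abs_le_aux ha1'
        have h4 := sq_nonneg a'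
        rw [abs_le]
        constructor <;> linarith
      calc |1 - a' ^ 2| * |c ^ 2 - c' ^ 2| ≤ 1 * |c ^ 2 - c' ^ 2| :=
            mul_le_mul_of_nonneg_right h2 (abs_nonneg _)
        _ ≤ _ := by rw [one_mul]; exact abs_sq_sub_le c c'
    have h5 := abs_sub (-((a ^ 2 - a' ^ 2) * (1 - c ^ 2))) ((1 - a' ^ 2) * (c ^ 2 - c' ^ 2))
    rw [abs_neg] at h5
    refine h5.trans ((add_le_add h1 h1').trans ?_)
    have hA1 := abs_nonneg a
    have hA2 := abs_nonneg c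
    have hA3 := abs_nonneg a'
    have hA4 := abs_nonneg c'
    have hA5 := abs_nonneg (a - a')
    have hA6 := abs_nonneg (c - c')
    have h6 : (|a| + |a'|) * |a - a'| ≤ S * |a - a'| :=
      mul_le_mul_of_nonneg_right (by rw [hS]; linarith) hA5
    have h7 : (|c| + |c'|) * |c - c'| ≤ S * |c - c'| :=
      mul_le_mul_of_nonneg_right (by rw [hS]; linarith) hA6
    rw [hT, mul_add]
    linarith
  have hDd : |(1 + θ * a * c) - (1 + θ * a' * c')| ≤ S * T := by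
    have e : (1 + θ * a * c) - (1 + θ * a' * c')
        = (θ * a) * (c - c') + (θ * c') * (a - a') := by ring
    rw [e]
    refine (abs_add_le _ _).trans ?_
    rw [abs_mul, abs_mul, abs_mul, abs_mul, abs_of_nonneg hθ0]
    have hA1 := abs_nonneg a
    have hA2 := abs_nonneg c
    have hA3 := abs_nonneg a'
    have hA4 := abs_nonneg c'
    have hA5 := abs_nonneg (a - a')
    have hA6 := abs_nonneg (c - c')
    have h6 : θ * |a| * |c - c'| ≤ S * |c - c'| := by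
      apply mul_le_mul_of_nonneg_right _ hA6
      rw [hS]
      nlinarith
    have h7 : θ * |c'| * |a - a'| ≤ S * |a - a'| := by
      apply mul_le_mul_of_nonneg_right _ hA5
      rw [hS]
      nlinarith
    rw [hT, mul_add]
    linarith
  set u : ℝ := (1 - a ^ 2) * (1 - c ^ 2) with hu
  set u' : ℝ := (1 - a' ^ 2) * (1 - c' ^ 2) with hu'
  set D : ℝ := 1 + θ * a * c with hD
  set D' : ℝ := 1 + θ * a' * c' with hD'
  have hST : 0 ≤ S * T := (abs_nonneg _).trans hud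
  have hD0 : 0 < D := lt_of_lt_of_le h1θ hDl
  have hD0' : 0 < D' := lt_of_lt_of_le h1θ hDl'
  have e : (θ * u / D ^ 2) ^ 2 - (θ * u' / D' ^ 2) ^ 2
      = θ ^ 2 * ((u ^ 2 - u' ^ 2) * D' ^ 4 + u' ^ 2 * ((D' - D) * ((D' + D) * (D' ^ 2 + D ^ 2))))
        / (D ^ 4 * D' ^ 4) := by
    field_simp
    ring
  rw [e, abs_div, abs_of_pos (show 0 < D ^ 4 * D' ^ 4 by positivity), abs_mul,
    abs_of_nonneg (sq_nonneg θ)]
  have hθsq : θ ^ 2 ≤ 1 := by nlinarith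
  have hn1 : |(u ^ 2 - u' ^ 2) * D' ^ 4| ≤ 32 * (S * T) := by
    have e1 : (u ^ 2 - u' ^ 2) * D' ^ 4 = (u - u') * ((u + u') * D' ^ 4) := by ring
    rw [e1, abs_mul, abs_of_nonneg (show 0 ≤ (u + u') * D' ^ 4 by positivity)]
    have h1 : D' ^ 4 ≤ 2 ^ 4 := pow_le_pow_left₀ hD0'.le hDu' 4
    have h2 : (u + u') * D' ^ 4 ≤ 2 * 2 ^ 4 :=
      mul_le_mul (by linarith) h1 (by positivity) (by norm_num)
    calc |u - u'| * ((u + u') * D' ^ 4) ≤ (S * T) * (2 * 2 ^ 4) :=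
          mul_le_mul hud h2 (by positivity) hST
      _ = _ := by ring
  have hn2 : |u' ^ 2 * ((D' - D) * ((D' + D) * (D' ^ 2 + D ^ 2)))| ≤ 32 * (S * T) := by
    rw [abs_mul, abs_mul, abs_of_nonneg (sq_nonneg u'),
      abs_of_nonneg (show 0 ≤ (D' + D) * (D' ^ 2 + D ^ 2) by positivity), abs_sub_comm D' D]
    have h1 : u' ^ 2 ≤ 1 := pow_le_one₀ hul' huu'
    have h21 : D ^ 2 ≤ 2 ^ 2 := pow_le_pow_left₀ hD0.le hDu 2
    have h22 : D' ^ 2 ≤ 2 ^ 2 := pow_le_pow_left₀ hD0'.le hDu' 2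
    have h2 : (D' + D) * (D' ^ 2 + D ^ 2) ≤ 4 * 8 :=
      mul_le_mul (by linarith) (by linarith) (by positivity) (by norm_num)
    calc u' ^ 2 * (|D - D'| * ((D' + D) * (D' ^ 2 + D ^ 2)))
        ≤ 1 * ((S * T) * (4 * 8)) :=
          mul_le_mul h1 (mul_le_mul hDd h2 (by positivity) hST) (by positivity) (by norm_num)
      _ = _ := by ring
  have hden : (1 - θ) ^ 8 ≤ D ^ 4 * D' ^ 4 := by
    calc (1 - θ) ^ 8 = (1 - θ) ^ 4 * (1 - θ) ^ 4 := by ring
      _ ≤ _ := mul_le_mul (pow_le_pow_left₀ h1θ.le hDl 4) (pow_le_pow_left₀ h1θ.le hDl' 4)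
          (by positivity) (by positivity)
  have hnum : |(u ^ 2 - u' ^ 2) * D' ^ 4 + u' ^ 2 * ((D' - D) * ((D' + D) * (D' ^ 2 + D ^ 2)))|
      ≤ 64 * (S * T) := (abs_add_le _ _).trans (by linarith)
  calc θ ^ 2 * |(u ^ 2 - u' ^ 2) * D' ^ 4 + u' ^ 2 * ((D' - D) * ((D' + D) * (D' ^ 2 + D ^ 2)))|
        / (D ^ 4 * D' ^ 4)
      ≤ 64 * (S * T) / (D ^ 4 * D' ^ 4) := by
        apply div_le_div_of_nonneg_right _ (by positivity)
        calc _ ≤ 1 * (64 * (S * T)) := mul_le_mul hθsq hnum (abs_nonneg _) (by norm_num)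
          _ = _ := one_mul _
    _ ≤ 64 * (S * T) / (1 - θ) ^ 8 :=
        div_le_div_of_nonneg_left (by positivity) (by positivity) hden
    _ = _ := by ring

lemma inv_den_aux {θ p q : ℝ} (hθ0 : 0 ≤ θ) (hθ1 : θ < 1) (hp : |p| ≤ 1) (hq : |q| ≤ 1) :
    1 - θ ≤ 1 + p * (θ * q) ∧ 1 + p * (θ * q) ≤ 2 := by
  have h1 : |p * q| ≤ 1 := by
    rw [abs_mul]
    exact mul_le_one₀ hp (abs_nonneg q) hq
  have h2 := abs_le.mp h1
  have e : p * (θ * q) = θ * (p * q) := by ring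
  rw [e]
  constructor <;> nlinarith

lemma inv_bnd_aux {θ M N w E : ℝ} (hθ0 : 0 ≤ θ) (hθ1 : θ < 1) (hw1 : -1 ≤ w) (hw2 : w ≤ 1)
    (hE0 : 0 < E) (hE4 : E ≤ 4) :
    |(M * (1 - θ ^ 2 * w) - N * (θ * (1 - w))) * E| ≤ 8 * (|M| + |N|) := by
  rw [abs_mul, abs_of_pos hE0]
  have hθsq : θ ^ 2 ≤ 1 := by nlinarith
  have hθsq0 := sq_nonneg θ
  have k1 : |1 - θ ^ 2 * w| ≤ 2 := by
    rw [abs_le]
    constructor <;> nlinarith
  have k2 : |θ * (1 - w)| ≤ 2 := by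
    rw [abs_le]
    constructor <;> nlinarith
  have k3 : |M * (1 - θ ^ 2 * w) - N * (θ * (1 - w))| ≤ 2 * (|M| + |N|) := by
    refine (abs_sub _ _).trans ?_
    rw [abs_mul, abs_mul]
    have k4 := mul_le_mul_of_nonneg_left k1 (abs_nonneg M)
    have k5 := mul_le_mul_of_nonneg_left k2 (abs_nonneg N)
    linarith
  calc |M * (1 - θ ^ 2 * w) - N * (θ * (1 - w))| * E
      ≤ (2 * (|M| + |N|)) * 4 := mul_le_mul k3 hE4 hE0.le (by positivity)
    _ = _ := by ring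

/-- inversion: the two cavity magnetizations of an edge are Lipschitz functions of the two full
magnetizations.  Proof: with `N₁ = (comb a (θ c) - comb a' (θ c')) (1 + θ a c)(1 + θ a' c')` and
`N₂` similarly, `comb_sub` gives the linear system
`(a - a')(1 - θ² c c') + θ (c - c')(1 - a a') = N₁`,
`θ (a - a')(1 - c c') + (c - c')(1 - θ² a a') = N₂`
with determinant `(1 - θ²)(1 - θ² a a' c c') ≥ (1 - θ²)²`. -/
lemma cavity_inversion {θ : ℝ} (hθ0 : 0 ≤ θ) (hθ1 : θ < 1) :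
    ∃ K : ℝ, 0 < K ∧ ∀ a c a' c' : ℝ, |a| ≤ 1 → |c| ≤ 1 → |a'| ≤ 1 → |c'| ≤ 1 →
      |a - a'| + |c - c'| ≤ K * (|comb a (θ * c) - comb a' (θ * c')|
        + |comb c (θ * a) - comb c' (θ * a')|) := by
  have h1θ : 0 < 1 - θ := by linarith
  have hθ2 : 0 < 1 - θ ^ 2 := by nlinarith
  refine ⟨16 / (1 - θ ^ 2) ^ 2, by positivity, ?_⟩
  intro a c a' c' ha hc ha' hc'
  obtain ⟨hDl, hDu⟩ := inv_den_aux hθ0 hθ1 ha hc
  obtain ⟨hDl', hDu'⟩ := inv_den_aux hθ0 hθ1 ha' hc'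
  have hD0 : 0 < 1 + a * (θ * c) := lt_of_lt_of_le h1θ hDl
  have hD0' : 0 < 1 + a' * (θ * c') := lt_of_lt_of_le h1θ hDl'
  have es : 1 + c * (θ * a) = 1 + a * (θ * c) := by ring
  have es' : 1 + c' * (θ * a') = 1 + a' * (θ * c') := by ring
  have e1 := comb_sub (a := a) (z := θ * c) (a' := a') (z' := θ * c') hD0.ne' hD0'.ne'
  have e2 := comb_sub (a := c) (z := θ * a) (a' := c') (z' := θ * a')
    (by rw [es]; exact hD0.ne') (by rw [es']; exact hD0'.ne')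
  rw [es, es'] at e2
  set M1 := comb a (θ * c) - comb a' (θ * c') with hM1
  set M2 := comb c (θ * a) - comb c' (θ * a') with hM2
  set D := 1 + a * (θ * c) with hD
  set D' := 1 + a' * (θ * c') with hD'
  have hDD : 0 < D * D' := mul_pos hD0 hD0'
  have n1 : (a - a') * (1 - θ * c * (θ * c')) + (θ * c - θ * c') * (1 - a * a')
      = M1 * (D * D') := by
    rw [e1]; field_simp
  have n2 : (c - c') * (1 - θ * a * (θ * a')) + (θ * a - θ * a') * (1 - c * c')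
      = M2 * (D * D') := by
    rw [e2]; field_simp
  have hpr : ∀ p q : ℝ, |p| ≤ 1 → |q| ≤ 1 → |p * q| ≤ 1 := by
    intro p q hp hq
    rw [abs_mul]
    exact mul_le_one₀ hp (abs_nonneg q) hq
  have haa := abs_le.mp (hpr a a' ha ha')
  have hcc := abs_le.mp (hpr c c' hc hc')
  have hac4 := abs_le.mp (hpr (a * a') (c * c') (hpr a a' ha ha') (hpr c c' hc hc'))
  have hθsq : θ ^ 2 ≤ 1 := by nlinarith
  have hθsq0 := sq_nonneg θ
  set Δ : ℝ := (1 - θ ^ 2) * (1 - θ ^ 2 * ((a * a') * (c * c'))) with hΔ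
  have hΔl : (1 - θ ^ 2) ^ 2 ≤ Δ := by
    rw [hΔ, pow_two]
    apply mul_le_mul_of_nonneg_left _ hθ2.le
    nlinarith
  have hΔ0 : 0 < Δ := lt_of_lt_of_le (by positivity) hΔl
  have x1 : (a - a') * Δ = (M1 * (1 - θ ^ 2 * (a * a')) - M2 * (θ * (1 - a * a'))) * (D * D') := by
    have : (M1 * (1 - θ ^ 2 * (a * a')) - M2 * (θ * (1 - a * a'))) * (D * D')
        = (M1 * (D * D')) * (1 - θ ^ 2 * (a * a')) - (M2 * (D * D')) * (θ * (1 - a * a')) := by
      ring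
    rw [this, ← n1, ← n2, hΔ]
    ring
  have x2 : (c - c') * Δ = (M2 * (1 - θ ^ 2 * (c * c')) - M1 * (θ * (1 - c * c'))) * (D * D') := by
    have : (M2 * (1 - θ ^ 2 * (c * c')) - M1 * (θ * (1 - c * c'))) * (D * D')
        = (M2 * (D * D')) * (1 - θ ^ 2 * (c * c')) - (M1 * (D * D')) * (θ * (1 - c * c')) := by
      ring
    rw [this, ← n1, ← n2, hΔ]
    ring
  have hDD4 : D * D' ≤ 4 := by
    calc D * D' ≤ 2 * 2 := mul_le_mul hDu hDu' hD0'.le (by norm_num)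
      _ = 4 := by norm_num
  have bnd : ∀ (M N w : ℝ), -1 ≤ w → w ≤ 1 →
      |(M * (1 - θ ^ 2 * w) - N * (θ * (1 - w))) * (D * D')| ≤ 8 * (|M| + |N|) :=
    fun M N w hw1 hw2 => inv_bnd_aux hθ0 hθ1 hw1 hw2 hDD hDD4
  have y1 : |a - a'| * Δ ≤ 8 * (|M1| + |M2|) := by
    calc |a - a'| * Δ = |(a - a') * Δ| := by rw [abs_mul, abs_of_pos hΔ0]
      _ ≤ _ := by rw [x1]; exact bnd M1 M2 (a * a') haa.1 haa.2
  have y2 : |c - c'| * Δ ≤ 8 * (|M1| + |M2|) := by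
    calc |c - c'| * Δ = |(c - c') * Δ| := by rw [abs_mul, abs_of_pos hΔ0]
      _ ≤ _ := by rw [x2, add_comm |M1|]; exact bnd M2 M1 (c * c') hcc.1 hcc.2
  have y3 : (|a - a'| + |c - c'|) * (1 - θ ^ 2) ^ 2 ≤ 16 * (|M1| + |M2|) := by
    calc (|a - a'| + |c - c'|) * (1 - θ ^ 2) ^ 2 ≤ (|a - a'| + |c - c'|) * Δ :=
          mul_le_mul_of_nonneg_left hΔl (by positivity)
      _ ≤ _ := by linarith
  rw [div_mul_eq_mul_div, le_div_iff₀ (by positivity)]
  exact y3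

/-- magnetizations are Lipschitz functions of the cavity magnetizations -/
lemma comb_lip {θ α : ℝ} (hθ0 : 0 ≤ θ) (hθ1 : θ < 1) (hα0 : 0 ≤ α) (hα1 : α < 1) :
    ∃ K : ℝ, 0 < K ∧ ∀ a c a' c' : ℝ, |a| ≤ α → |c| ≤ α → |a'| ≤ α → |c'| ≤ α →
      |comb a (θ * c) - comb a' (θ * c')| ≤ K * (|a - a'| + |c - c'|) := by
  have h1θ : 0 < 1 - θ := by linarith
  refine ⟨2 / (1 - θ) ^ 2, by positivity, ?_⟩
  intro a c a' c' ha hc ha' hc'
  have ha1 : |a| ≤ 1 := ha.trans hα1.le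
  have hc1 : |c| ≤ 1 := hc.trans hα1.le
  have ha1' : |a'| ≤ 1 := ha'.trans hα1.le
  have hc1' : |c'| ≤ 1 := hc'.trans hα1.le
  obtain ⟨hDl, hDu⟩ := inv_den_aux hθ0 hθ1 ha1 hc1
  obtain ⟨hDl', hDu'⟩ := inv_den_aux hθ0 hθ1 ha1' hc1'
  have hD0 : 0 < 1 + a * (θ * c) := lt_of_lt_of_le h1θ hDl
  have hD0' : 0 < 1 + a' * (θ * c') := lt_of_lt_of_le h1θ hDl'
  rw [comb_sub hD0.ne' hD0'.ne', abs_div, abs_of_pos (mul_pos hD0 hD0')]
  have hpr : ∀ p q : ℝ, |p| ≤ 1 → |q| ≤ 1 → |p * q| ≤ 1 := by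
    intro p q hp hq
    rw [abs_mul]
    exact mul_le_one₀ hp (abs_nonneg q) hq
  have haa := abs_le.mp (hpr a a' ha1 ha1')
  have hcc := abs_le.mp (hpr c c' hc1 hc1')
  have hθsq : θ ^ 2 ≤ 1 := by nlinarith
  have hθsq0 := sq_nonneg θ
  have k1 : |1 - θ * c * (θ * c')| ≤ 2 := by
    have e : 1 - θ * c * (θ * c') = 1 - θ ^ 2 * (c * c') := by ring
    rw [e, abs_le]
    constructor <;> nlinarith
  have k2 : |θ * (1 - a * a')| ≤ 2 := by
    rw [abs_le]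
    constructor <;> nlinarith
  have k3 : |(a - a') * (1 - θ * c * (θ * c')) + (θ * c - θ * c') * (1 - a * a')|
      ≤ 2 * (|a - a'| + |c - c'|) := by
    have e : (θ * c - θ * c') * (1 - a * a') = (c - c') * (θ * (1 - a * a')) := by ring
    rw [e]
    refine (abs_add_le _ _).trans ?_
    rw [abs_mul (a - a'), abs_mul (c - c')]
    have k4 := mul_le_mul_of_nonneg_left k1 (abs_nonneg (a - a'))
    have k5 := mul_le_mul_of_nonneg_left k2 (abs_nonneg (c - c'))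
    linarith
  have hden : (1 - θ) ^ 2 ≤ (1 + a * (θ * c)) * (1 + a' * (θ * c')) := by
    rw [pow_two]
    exact mul_le_mul hDl hDl' h1θ.le hD0.le
  calc _ ≤ 2 * (|a - a'| + |c - c'|) / ((1 + a * (θ * c)) * (1 + a' * (θ * c'))) :=
        div_le_div_of_nonneg_right k3 (mul_pos hD0 hD0').le
    _ ≤ 2 * (|a - a'| + |c - c'|) / (1 - θ) ^ 2 :=
        div_le_div_of_nonneg_left (by positivity) (by positivity) hden
    _ = _ := by ring

/-- exponential comparison used for the path products.  For `A, A' ≥ 0` and `S ≥ 0` with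
`(A - A')² ≤ K (A + A') S` one has `(e^{-A} - e^{-A'})² ≤ K' (e^{-A} + e^{-A'}) S`.
Proof: wlog `A ≤ A'`, `X = A' - A`.  `(e^{-A} - e^{-A'})² ≤ e^{-2A} min(1, X²)`.
`X² ≤ K (2A + X) S`; if `X ≤ 1` then `min ≤ X² ≤ K (2A+1) S`, if `X ≥ 1` then
`1 ≤ X ≤ K (2A/X + 1) S ≤ K (2A+1) S`.  Finally `e^{-2A}(2A+1) ≤ 2 e^{-A}`. -/
lemma exp_compare {K : ℝ} (hK : 0 ≤ K) {A A' S : ℝ} (hA : 0 ≤ A) (hA' : 0 ≤ A') (hS : 0 ≤ S)
    (h : (A - A') ^ 2 ≤ K * (A + A') * S) :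
    (Real.exp (-A) - Real.exp (-A')) ^ 2 ≤ 2 * K * (Real.exp (-A) + Real.exp (-A')) * S := by
  wlog hAA : A ≤ A' generalizing A A' with H
  · have h1 := H hA' hA (by
      have e : (A' - A) ^ 2 = (A - A') ^ 2 := by ring
      rw [e, add_comm A' A]; exact h) (le_of_not_ge hAA)
    have e : (Real.exp (-A) - Real.exp (-A')) ^ 2 = (Real.exp (-A') - Real.exp (-A)) ^ 2 := by
      ring
    rw [e, add_comm (Real.exp (-A))]
    exact h1
  set X : ℝ := A' - A with hX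
  have hX0 : 0 ≤ X := by rw [hX]; linarith
  have hE : Real.exp (-A') = Real.exp (-A) * Real.exp (-X) := by
    rw [← Real.exp_add, hX]
    congr 1
    ring
  have hXe : 1 - Real.exp (-X) ≤ X := by
    have := Real.add_one_le_exp (-X)
    linarith
  have hX1 : Real.exp (-X) ≤ 1 := by
    rw [Real.exp_le_one_iff]
    linarith
  have hXp := Real.exp_pos (-X)
  have h' : X ^ 2 ≤ K * (2 * A + X) * S := by
    have e1 : (A - A') ^ 2 = X ^ 2 := by rw [hX]; ring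
    have e2 : A + A' = 2 * A + X := by rw [hX]; ring
    rw [← e1, ← e2]
    exact h
  have hKS : 0 ≤ K * S := mul_nonneg hK hS
  have key : (1 - Real.exp (-X)) ^ 2 ≤ K * (2 * A + 1) * S := by
    rcases le_total X 1 with hX2 | hX2
    · have h1 : (1 - Real.exp (-X)) ^ 2 ≤ X ^ 2 :=
        pow_le_pow_left₀ (by linarith) hXe 2
      refine h1.trans (h'.trans ?_)
      have h2 : (K * S) * (2 * A + X) ≤ (K * S) * (2 * A + 1) :=
        mul_le_mul_of_nonneg_left (by linarith) hKS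
      calc K * (2 * A + X) * S = (K * S) * (2 * A + X) := by ring
        _ ≤ (K * S) * (2 * A + 1) := h2
        _ = _ := by ring
    · have h1 : (1 - Real.exp (-X)) ^ 2 ≤ 1 := by nlinarith
      have h2 : X * X ≤ X * (K * (2 * A + 1) * S) := by
        have h3 : (K * S) * (2 * A + X) ≤ (K * S) * (2 * A * X + X) :=
          mul_le_mul_of_nonneg_left (by nlinarith) hKS
        calc X * X = X ^ 2 := by ring
          _ ≤ K * (2 * A + X) * S := h'
          _ = (K * S) * (2 * A + X) := by ring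
          _ ≤ (K * S) * (2 * A * X + X) := h3
          _ = _ := by ring
      have h3 : X ≤ K * (2 * A + 1) * S := le_of_mul_le_mul_left h2 (by linarith)
      linarith
  have hEA := Real.exp_pos (-A)
  have h5 : Real.exp (-A) * (2 * A + 1) ≤ 2 := by
    have h6 := Real.add_one_le_exp A
    have h7 : Real.exp (-A) * Real.exp A = 1 := by
      rw [← Real.exp_add]
      simp
    nlinarith
  have h8 : (Real.exp (-A) - Real.exp (-A')) ^ 2 = Real.exp (-A) ^ 2 * (1 - Real.exp (-X)) ^ 2 := by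
    rw [hE]
    ring
  rw [h8]
  calc Real.exp (-A) ^ 2 * (1 - Real.exp (-X)) ^ 2
      ≤ Real.exp (-A) ^ 2 * (K * (2 * A + 1) * S) :=
        mul_le_mul_of_nonneg_left key (by positivity)
    _ = (K * S) * Real.exp (-A) * (Real.exp (-A) * (2 * A + 1)) := by ring
    _ ≤ (K * S) * Real.exp (-A) * 2 :=
        mul_le_mul_of_nonneg_left h5 (mul_nonneg hKS hEA.le)
    _ ≤ (K * S) * Real.exp (-A) * 2 + (K * S) * Real.exp (-A') * 2 := by
        have := mul_nonneg hKS (Real.exp_pos (-A')).le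
        linarith
    _ = _ := by ring

lemma add_pow_le_aux {a b : ℝ} (ha : 0 ≤ a) (hb : 0 ≤ b) (n : ℕ) :
    (a + b) ^ (n + 1) ≤ a ^ (n + 1) + (n + 1 : ℝ) * (a + b) ^ n * b := by
  induction n with
  | zero => simp
  | succ n ih =>
    have h1 : (a + b) ^ (n + 1) * a ≤ (a ^ (n + 1) + (n + 1 : ℝ) * (a + b) ^ n * b) * a :=
      mul_le_mul_of_nonneg_right ih ha
    have h2 : (a + b) ^ n * a ≤ (a + b) ^ (n + 1) := by
      rw [pow_succ]
      exact mul_le_mul_of_nonneg_left (by linarith) (by positivity)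
    have h3 : ((n : ℝ) + 1) * b * ((a + b) ^ n * a) ≤ ((n : ℝ) + 1) * b * (a + b) ^ (n + 1) :=
      mul_le_mul_of_nonneg_left h2 (by positivity)
    push_cast
    calc (a + b) ^ (n + 1 + 1) = (a + b) ^ (n + 1) * a + (a + b) ^ (n + 1) * b := by ring
      _ ≤ (a ^ (n + 1) + (n + 1 : ℝ) * (a + b) ^ n * b) * a + (a + b) ^ (n + 1) * b := by
          linarith
      _ = a ^ (n + 1 + 1) + ((n : ℝ) + 1) * b * ((a + b) ^ n * a) + (a + b) ^ (n + 1) * b := by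
          ring
      _ ≤ a ^ (n + 1 + 1) + ((n : ℝ) + 1) * b * (a + b) ^ (n + 1) + (a + b) ^ (n + 1) * b := by
          linarith
      _ = _ := by ring

/-- explicit form of `sum_pow_le`, with a constant depending only on the number of terms -/
lemma sum_pow_le_card {ι : Type*} [DecidableEq ι] (s : Finset ι) (n : ℕ) (y : ι → ℝ)
    (hy : ∀ i, 0 ≤ y i) :
    (∑ i ∈ s, y i) ^ (n + 1) ≤ ∑ i ∈ s, y i ^ (n + 1)
      + ((n + 1 : ℝ) * (1 + s.card : ℝ) ^ n) * ∑ i ∈ s, ∑ j ∈ s.erase i, y i ^ n * y j := by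
  have hin : ∀ i ∈ s, 0 ≤ ∑ j ∈ s.erase i, y i ^ n * y j := fun i _ =>
    Finset.sum_nonneg fun j _ => mul_nonneg (pow_nonneg (hy i) n) (hy j)
  rcases s.eq_empty_or_nonempty with rfl | hs
  · simp
  obtain ⟨i0, hi0, hmax⟩ := s.exists_max_image y hs
  set R : ℝ := ∑ j ∈ s.erase i0, y j with hR
  have hR0 : 0 ≤ R := Finset.sum_nonneg fun j _ => hy j
  have hsum : ∑ i ∈ s, y i = y i0 + R := by
    rw [hR, Finset.add_sum_erase s y hi0]
  have hRb : R ≤ (s.card : ℝ) * y i0 := by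
    calc R ≤ ∑ j ∈ s.erase i0, y i0 :=
          Finset.sum_le_sum fun j hj => hmax j (Finset.mem_of_mem_erase hj)
      _ = ((s.erase i0).card : ℝ) * y i0 := by rw [Finset.sum_const, nsmul_eq_mul]
      _ ≤ _ := by
          apply mul_le_mul_of_nonneg_right _ (hy i0)
          exact_mod_cast Finset.card_le_card (Finset.erase_subset _ _)
  rw [hsum]
  refine (add_pow_le_aux (hy i0) hR0 n).trans ?_
  have h1 : y i0 ^ (n + 1) ≤ ∑ i ∈ s, y i ^ (n + 1) :=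
    Finset.single_le_sum (f := fun i => y i ^ (n + 1)) (fun i _ => pow_nonneg (hy i) _) hi0
  have h2 : (y i0 + R) ^ n ≤ ((1 + s.card : ℝ) * y i0) ^ n :=
    pow_le_pow_left₀ (add_nonneg (hy i0) hR0) (by linarith) n
  have h3 : y i0 ^ n * R ≤ ∑ i ∈ s, ∑ j ∈ s.erase i, y i ^ n * y j := by
    rw [hR, Finset.mul_sum]
    exact Finset.single_le_sum (f := fun i => ∑ j ∈ s.erase i, y i ^ n * y j) hin hi0
  have h4 : (n + 1 : ℝ) * (y i0 + R) ^ n * R
      ≤ (n + 1 : ℝ) * (1 + s.card : ℝ) ^ n * ∑ i ∈ s, ∑ j ∈ s.erase i, y i ^ n * y j := by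
    calc (n + 1 : ℝ) * (y i0 + R) ^ n * R
        ≤ (n + 1 : ℝ) * ((1 + s.card : ℝ) * y i0) ^ n * R := by
          apply mul_le_mul_of_nonneg_right _ hR0
          exact mul_le_mul_of_nonneg_left h2 (by positivity)
      _ = (n + 1 : ℝ) * (1 + s.card : ℝ) ^ n * (y i0 ^ n * R) := by
          rw [mul_pow]
          ring
      _ ≤ _ := mul_le_mul_of_nonneg_left h3 (by positivity)
  exact add_le_add h1 h4

/-- power of a finite sum of nonnegative numbers: up to the pure powers only the products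
`y_i^{k-1} y_j`, `i ≠ j`, matter.  Proof: expand; every mixed monomial is at most
`max_{i≠j} y_i^{k-1} y_j` (largest and second largest entries), there are at most `|s|^k` of
them.  Alternatively induct over `s` with the two-variable case
`(x + y)^k ≤ x^k + y^k + 2^k (x^{k-1} y + x y^{k-1})`. -/
lemma sum_pow_le {ι : Type*} [DecidableEq ι] (s : Finset ι) (k : ℕ) (hk : 1 ≤ k) :
    ∃ C : ℝ, 0 < C ∧ ∀ y : ι → ℝ, (∀ i, 0 ≤ y i) →
      (∑ i ∈ s, y i) ^ k ≤ ∑ i ∈ s, y i ^ k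
        + C * ∑ i ∈ s, ∑ j ∈ s.erase i, y i ^ (k - 1) * y j := by
  obtain ⟨n, rfl⟩ : ∃ n, k = n + 1 := ⟨k - 1, by omega⟩
  refine ⟨(n + 1 : ℝ) * (1 + s.card : ℝ) ^ n, by positivity, ?_⟩
  intro y hy
  simp only [Nat.add_sub_cancel]
  exact sum_pow_le_card s n y hy

end Vale.Agent.P161c
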