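import Vale.Agent.P161c.TreeRec
import Vale.Agent.P161c.Real
import Vale.Agent.P161c.Trans

/-!
Basic consequences of the structures `CavEnv0`, `CavEnv`: even functionals of disjoint branches
are independent, one branch screens, the fields are cavity fields, and homogeneity.
-/

namespace Vale.Agent.P161c

open MeasureTheory SimpleGraph Vale.Agent.H13.P161

variable {V : Type*} {G : SimpleGraph V} [LocallyFinite G] [DecidableEq V] [Countable V]
  {θ α : ℝ} {P : Measure (Cfg V)} {m : V → V → (V → ℝ) → ℝ}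

/-- flip-even functionals -/
def EvenF (H : Cfg V → ℝ) : Prop :=
  ∀ ω : Cfg V, H (fun v => - ω.1 v, fun v => - ω.2 v) = H ω

/-- the global spin flip -/
def flipMap (ω : Cfg V) : Cfg V := (fun v => - ω.1 v, fun v => - ω.2 v)

omit [Countable V] [DecidableEq V] in
lemma measurable_flipMap : Measurable (flipMap (V := V)) := by
  unfold flipMap
  refine Measurable.prodMk ?_ ?_
  · exact measurable_pi_lambda _ fun v =>
      (measurable_of_finite (fun s : ℤˣ => -s)).comp ((measurable_pi_apply v).comp measurable_fst)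
  · exact measurable_pi_lambda _ fun v =>
      ((measurable_pi_apply v).comp measurable_snd).neg

omit [Countable V] in
/-- odd functionals have mean zero -/
lemma integral_odd (he : CavEnv0 G θ α P m) {K : Cfg V → ℝ} (hK : Measurable K)
    (hodd : ∀ ω, K (flipMap ω) = - K ω) : ∫ ω, K ω ∂P = 0 := by
  have e1 : ∫ ω, K ω ∂P = ∫ ω, K (flipMap ω) ∂P := by
    conv_lhs => rw [← he.flip]
    exact integral_map measurable_flipMap.aemeasurable hK.aestronglyMeasurable
  simp only [hodd, integral_neg] at e1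
  linarith

omit [Countable V] [DecidableEq V] in
lemma spinVal_neg (s : ℤˣ) : spinVal (-s) = - spinVal s := by
  simp [spinVal]

omit [Countable V] [DecidableEq V] in
lemma nice_spin' (v : V) : Nice (fun ω : Cfg V => spinVal (ω.1 v)) :=
  (nice_spin v).comp measurable_fst

omit [LocallyFinite G] [DecidableEq V] [Countable V] in
lemma DepOn.mono {B B' : Set V} {F : Cfg V → ℝ} (h : DepOn B F) (hB : B ⊆ B') : DepOn B' F :=
  fun ω ω' hω => h ω ω' fun w hw => hω w (hB hw)

omit [LocallyFinite G] [DecidableEq V] [Countable V] in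
lemma ObsDepOn.mono {B B' : Set V} {F : (V → ℝ) → ℝ} (h : ObsDepOn B F) (hB : B ⊆ B') :
    ObsDepOn B' F :=
  fun a a' ha => h a a' fun w hw => ha w (hB hw)

omit [LocallyFinite G] [DecidableEq V] [Countable V] in
lemma ObsDepOn.depOn {B : Set V} {F : (V → ℝ) → ℝ} (h : ObsDepOn B F) :
    DepOn B (fun ω => F ω.2) :=
  fun ω ω' hω => h ω.2 ω'.2 fun w hw => (hω w hw).2

/-- an even functional of one side of an edge is independent of the other side.
(`markov`, and `∫ H σ_p = 0` by `flip`.) -/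
lemma indep_even (he : CavEnv0 G θ α P m) {c p : V} (h : G.Adj c p) {F H : Cfg V → ℝ}
    (hF : Nice F) (hH : Nice H) (hFd : DepOn (br G c p) F) (hHd : DepOn (br G p c) H)
    (hHe : EvenF H) :
    ∫ ω, F ω * H ω ∂P = (∫ ω, F ω ∂P) * (∫ ω, H ω ∂P) := by
  have hz : ∫ ω, H ω * spinVal (ω.1 p) ∂P = 0 := by
    apply integral_odd he (hH.mul (nice_spin' p)).measurable
    intro ω
    show H (flipMap ω) * spinVal (- ω.1 p) = _
    rw [spinVal_neg, show H (flipMap ω) = H ω from hHe ω]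
    ring
  rw [he.markov c p h F H hF hH hFd hHd, hz]
  ring

/-- even functionals of pairwise disjoint branches are mutually independent.
(Induction: take one branch `br c p` out; the other ones are contained in `br p c`, by
`compl_br`.) -/
lemma indep_prod (he : CavEnv0 G θ α P m) (hG : G.IsTree) {ι : Type*} (s : Finset ι)
    (c p : ι → V) (hadj : ∀ i ∈ s, G.Adj (c i) (p i))
    (hdis : ∀ i ∈ s, ∀ j ∈ s, i ≠ j → Disjoint (br G (c i) (p i)) (br G (c j) (p j)))
    (H : ι → Cfg V → ℝ) (hH : ∀ i ∈ s, Nice (H i)) (hHd : ∀ i ∈ s, DepOn (br G (c i) (p i)) (H i))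
    (hHe : ∀ i ∈ s, EvenF (H i)) :
    ∫ ω, ∏ i ∈ s, H i ω ∂P = ∏ i ∈ s, ∫ ω, H i ω ∂P := by
  classical
  have hprob := he.prob
  induction s using Finset.induction_on with
  | empty => simp
  | insert a s ha ih =>
    simp only [Finset.prod_insert ha]
    have hs : ∀ i ∈ s, i ∈ insert a s := fun i hi => Finset.mem_insert_of_mem hi
    have haa := Finset.mem_insert_self a s
    rw [indep_even he (hadj a haa) (hH a haa) (Nice.prod s fun i hi => hH i (hs i hi))
      (hHd a haa) ?_ ?_]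
    · rw [ih (fun i hi => hadj i (hs i hi))
        (fun i hi j hj hij => hdis i (hs i hi) j (hs j hj) hij)
        (fun i hi => hH i (hs i hi)) (fun i hi => hHd i (hs i hi))
        (fun i hi => hHe i (hs i hi))]
    · intro ω ω' hω
      apply Finset.prod_congr rfl
      intro i hi
      apply hHd i (hs i hi)
      intro w hw
      apply hω
      rw [← compl_br hG (hadj a haa)]
      intro hcon
      have hne : i ≠ a := fun e => ha (e ▸ hi)
      exact Set.disjoint_left.mp (hdis i (hs i hi) a haa hne) hw hcon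
    · intro ω
      apply Finset.prod_congr rfl
      intro i hi
      exact hHe i (hs i hi) ω

/-- the own magnetization at `c` (even functional of it) is independent of everything that does
not involve it.  (`own`, and `∫ F(a_v) σ_v = 0` for even `F` by `flip`.) -/
lemma indep_own (he : CavEnv0 G θ α P m) (v : V) {F : ℝ → ℝ} {H : Cfg V → ℝ} (hF : Nice F)
    (hH : Nice H) (hFe : ∀ x, F (-x) = F x)
    (hHd : ∀ (σ : V → ℤˣ) (a a' : V → ℝ), (∀ w, w ≠ v → a w = a' w) → H (σ, a) = H (σ, a')) :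
    ∫ ω, F (ω.2 v) * H ω ∂P = (∫ ω, F (ω.2 v) ∂P) * (∫ ω, H ω ∂P) := by
  have hFv : Nice (fun ω : Cfg V => F (ω.2 v)) :=
    hF.comp ((measurable_pi_apply v).comp measurable_snd)
  have hz : ∫ ω, F (ω.2 v) * spinVal (ω.1 v) ∂P = 0 := by
    apply integral_odd he (hFv.mul (nice_spin' v)).measurable
    intro ω
    show F (- ω.2 v) * spinVal (- ω.1 v) = _
    rw [spinVal_neg, hFe]
    ring
  rw [he.own v F H hF hH hHd, hz]
  ring

omit [Countable V] in
lemma nice_cav (he : CavEnv0 G θ α P m) (c p : V) : Nice (m c p) :=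
  ⟨he.meas c p, 1, he.bound c p⟩

omit [Countable V] in
lemma nice_obs {F : (V → ℝ) → ℝ} (hF : Nice F) : Nice (fun ω : Cfg V => F ω.2) :=
  hF.comp measurable_snd

/-- common part of the two screening inequalities: `T` is a nice odd functional of the branch of
`j` with `E[T σ_j] = E[T²]` -/
lemma screen_aux (he : CavEnv0 G θ α P m) (hG : G.IsTree) {c p g j : V} (hp : G.Adj c p)
    (hg : G.Adj c g) (hj : G.Adj c j) (hgp : g ≠ p) (hjp : j ≠ p) (hgj : g ≠ j)
    {F : (V → ℝ) → ℝ} (hF : Nice F) (hF0 : ∀ a, 0 ≤ F a) (hFd : ObsDepOn (br G g c) F)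
    {T : (V → ℝ) → ℝ} (hT : Nice T) (hTd : ObsDepOn (br G j c) T)
    (hTodd : ∀ a, T (fun v => - a v) = - T a)
    (hTs : ∫ ω, T ω.2 * spinVal (ω.1 j) ∂P = ∫ ω, T ω.2 ^ 2 ∂P) :
    θ ^ 2 * (∫ ω, T ω.2 ^ 2 ∂P) * (∫ ω, F ω.2 ∂P) ≤ ∫ ω, F ω.2 * (m c p ω.2) ^ 2 ∂P := by
  have hprob := he.prob
  have hmc := nice_cav he c p
  -- tower
  have e1 : ∫ ω, (F ω.2 * T ω.2) * spinVal (ω.1 c) ∂P = ∫ ω, (F ω.2 * T ω.2) * m c p ω.2 ∂P := by
    apply he.tower c p hp (fun a => F a * T a) (hF.mul hT)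
    intro a a' haa
    show F a * T a = F a' * T a'
    rw [hFd a a' fun w hw => haa w (br_subset hG hp hg hgp hw),
      hTd a a' fun w hw => haa w (br_subset hG hp hj hjp hw)]
  -- markov across the edge c j
  have hFdj : DepOn (br G c j) (fun ω : Cfg V => F ω.2) :=
    (hFd.mono (br_subset hG hj hg hgj)).depOn
  have hmean : ∫ ω, T ω.2 ∂P = 0 := by
    apply integral_odd he (nice_obs hT).measurable
    intro ω
    exact hTodd ω.2
  have hcj : c ∈ br G c j := by
    show G.dist c c < G.dist c j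
    rw [dist_eq_one_iff_adj.mpr hj]; simp
  have e2 : ∫ ω, (F ω.2 * spinVal (ω.1 c)) * T ω.2 ∂P
      = θ * (∫ ω, F ω.2 ∂P) * (∫ ω, T ω.2 ^ 2 ∂P) := by
    have hK : DepOn (br G c j) (fun ω : Cfg V => F ω.2 * spinVal (ω.1 c)) := by
      intro ω ω' hω
      show F ω.2 * spinVal (ω.1 c) = F ω'.2 * spinVal (ω'.1 c)
      have h1 : F ω.2 = F ω'.2 := hFdj ω ω' hω
      rw [h1, (hω c hcj).1]
    rw [he.markov c j hj (fun ω => F ω.2 * spinVal (ω.1 c)) (fun ω => T ω.2)
      ((nice_obs hF).mul (nice_spin' c)) (nice_obs hT) hK hTd.depOn, hmean, hTs, mul_zero,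
      zero_add]
    congr 2
    apply integral_congr_ae
    filter_upwards with ω
    rw [mul_assoc, spinVal_mul_self, mul_one]
  -- independence
  have e3 : ∫ ω, F ω.2 * T ω.2 ^ 2 ∂P = (∫ ω, F ω.2 ∂P) * (∫ ω, T ω.2 ^ 2 ∂P) := by
    apply indep_even he hj (nice_obs hF) ((nice_obs hT).pow 2) hFdj
    · intro ω ω' hω
      show T ω.2 ^ 2 = T ω'.2 ^ 2
      have h1 : T ω.2 = T ω'.2 := hTd.depOn ω ω' hω
      rw [h1]
    · intro ω
      show T (fun v => - ω.2 v) ^ 2 = T ω.2 ^ 2
      rw [hTodd, neg_sq]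
  -- expand the square
  have hn1 : Nice (fun ω : Cfg V => F ω.2 * (m c p ω.2) ^ 2) :=
    (nice_obs hF).mul ((nice_obs hmc).pow 2)
  have hn2 : Nice (fun ω : Cfg V => 2 * θ * ((F ω.2 * T ω.2) * m c p ω.2)) :=
    (Nice.const (2 * θ)).mul (((nice_obs hF).mul (nice_obs hT)).mul (nice_obs hmc))
  have hn3 : Nice (fun ω : Cfg V => θ ^ 2 * (F ω.2 * T ω.2 ^ 2)) :=
    (Nice.const (θ ^ 2)).mul ((nice_obs hF).mul ((nice_obs hT).pow 2))
  have e4 : 0 ≤ ∫ ω, F ω.2 * (m c p ω.2 - θ * T ω.2) ^ 2 ∂P :=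
    integral_nonneg fun ω => mul_nonneg (hF0 _) (sq_nonneg _)
  have e5 : ∫ ω, F ω.2 * (m c p ω.2 - θ * T ω.2) ^ 2 ∂P
      = ∫ ω, F ω.2 * (m c p ω.2) ^ 2 ∂P - 2 * θ * ∫ ω, (F ω.2 * T ω.2) * m c p ω.2 ∂P
        + θ ^ 2 * ∫ ω, F ω.2 * T ω.2 ^ 2 ∂P := by
    have e : ∀ ω : Cfg V, F ω.2 * (m c p ω.2 - θ * T ω.2) ^ 2
        = (F ω.2 * (m c p ω.2) ^ 2 - 2 * θ * ((F ω.2 * T ω.2) * m c p ω.2))
          + θ ^ 2 * (F ω.2 * T ω.2 ^ 2) := fun ω => by ring
    simp only [e]
    rw [(hn1.sub hn2).integral_add' hn3, hn1.integral_sub' hn2, integral_const_mul,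
      integral_const_mul]
  have e6 : ∫ ω, (F ω.2 * T ω.2) * spinVal (ω.1 c) ∂P
      = ∫ ω, (F ω.2 * spinVal (ω.1 c)) * T ω.2 ∂P := by
    apply integral_congr_ae
    filter_upwards with ω
    ring
  rw [e5, ← e1, e6, e2, e3] at e4
  nlinarith

/-- screening inequality: for `c` with a neighbour `p` and two children `g ≠ j`, and `F ≥ 0` a
functional of the branch of `g`:
`E[F (m c p)²] ≥ θ² E[(m j c)²] E[F]`.
Proof: `E[F m_c m_j] = E[F σ_c m_j]` (`tower` applied to `F m_j`, a functional of `br c p`; `F` has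
to depend on the observations only, here `F = f (ω.2)`), and `E[F σ_c m_j] = θ E[m_j²] E[F]`: use
`markov` on the edge `(c, j)` with `F σ_c` and `m_j` (the first term vanishes since `E m_j = 0` by
`odd` and `flip`), `σ_c² = 1` and `E[m_j σ_j] = E[m_j²]` (`tower`).  Moreover
`E[F m_j²] = E[F] E[m_j²]` by `indep_even`.  Conclude by Cauchy-Schwarz. -/
lemma screen (he : CavEnv0 G θ α P m) (hG : G.IsTree) {c p g j : V} (hp : G.Adj c p)
    (hg : G.Adj c g) (hj : G.Adj c j) (hgp : g ≠ p) (hjp : j ≠ p) (hgj : g ≠ j)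
    {F : (V → ℝ) → ℝ} (hF : Nice F) (hF0 : ∀ a, 0 ≤ F a) (hFd : ObsDepOn (br G g c) F) :
    θ ^ 2 * (∫ ω, (m j c ω.2) ^ 2 ∂P) * (∫ ω, F ω.2 ∂P) ≤ ∫ ω, F ω.2 * (m c p ω.2) ^ 2 ∂P := by
  apply screen_aux he hG hp hg hj hgp hjp hgj hF hF0 hFd (nice_cav he j c) (he.dep j c)
    (he.odd j c)
  rw [he.tower j c hj.symm (m j c) (nice_cav he j c) (he.dep j c)]
  simp only [pow_two]

/-- the same with the own magnetization `a_j` of the child `j` in place of `m j c` -/
lemma screen_own (he : CavEnv0 G θ α P m) (hα1 : α < 1) (hG : G.IsTree) {c p g j : V}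
    (hp : G.Adj c p)
    (hg : G.Adj c g) (hj : G.Adj c j) (hgp : g ≠ p) (hjp : j ≠ p) (hgj : g ≠ j)
    {F : (V → ℝ) → ℝ} (hF : Nice F) (hF0 : ∀ a, 0 ≤ F a) (hFd : ObsDepOn (br G g c) F) :
    θ ^ 2 * (∫ ω, (ω.2 j) ^ 2 ∂P) * (∫ ω, F ω.2 ∂P) ≤ ∫ ω, F ω.2 * (m c p ω.2) ^ 2 ∂P := by
  have hprob := he.prob
  set clip : ℝ → ℝ := fun x => max (-1) (min 1 x) with hclip
  have hcodd : ∀ x, clip (-x) = - clip x := by
    intro x
    simp only [hclip, max_def, min_def]
    split_ifs <;> linarith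
  have hcm : Measurable clip := by
    simp only [hclip]
    fun_prop
  have hcb : ∀ x, |clip x| ≤ 1 := by
    intro x
    rw [abs_le]
    exact ⟨le_max_left _ _, max_le (by norm_num) (min_le_left _ _)⟩
  have hcn : Nice clip := ⟨hcm, 1, hcb⟩
  have hceq : ∀ᵐ ω ∂P, clip (ω.2 j) = ω.2 j := by
    filter_upwards [he.own_bound] with ω hω
    have h1 := abs_le.mp (hω j)
    simp only [hclip]
    rw [min_eq_right (by linarith), max_eq_right (by linarith)]
  have hT : Nice (fun a : V → ℝ => clip (a j)) := hcn.comp (measurable_pi_apply j)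
  have hjj : j ∈ br G j c := by
    show G.dist j j < G.dist j c
    rw [dist_eq_one_iff_adj.mpr hj.symm]; simp
  have hsq : ∫ ω, (ω.2 j) ^ 2 ∂P = ∫ ω, clip (ω.2 j) ^ 2 ∂P := by
    apply integral_congr_ae
    filter_upwards [hceq] with ω hω
    rw [hω]
  rw [hsq]
  apply screen_aux he hG hp hg hj hgp hjp hgj hF hF0 hFd hT
  · intro a a' haa
    show clip (a j) = clip (a' j)
    rw [haa j hjj]
  · intro a
    exact hcodd (a j)
  · rw [he.tower_own j clip hcn]
    apply integral_congr_ae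
    filter_upwards [hceq] with ω hω
    have hω' : clip (ω.2 j) = ω.2 j := hω
    show clip (ω.2 j) * ω.2 j = clip (ω.2 j) ^ 2
    rw [hω']
    ring

omit [Countable V] in
/-- the cavity and the edge magnetizations from the recursion -/
lemma cavity_of_recur {a : V → ℝ} {x : V → V → ℝ} (hθ0 : 0 ≤ θ) (hθ1 : θ < 1)
    (hα1 : α < 1) (ha : ∀ v, |a v| ≤ α) (hx : ∀ c p, |x c p| ≤ 1)
    (hr : ∀ c p, G.Adj c p → x c p *
      ((1 + a c) * ∏ g ∈ (G.neighborFinset c).erase p, (1 + θ * x g c)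
        + (1 - a c) * ∏ g ∈ (G.neighborFinset c).erase p, (1 - θ * x g c))
      = (1 + a c) * ∏ g ∈ (G.neighborFinset c).erase p, (1 + θ * x g c)
        - (1 - a c) * ∏ g ∈ (G.neighborFinset c).erase p, (1 - θ * x g c))
    {c p : V} (h : G.Adj c p) :
    magE θ x c p = ((1 + a c) * ∏ g ∈ G.neighborFinset c, (1 + θ * x g c)
        - (1 - a c) * ∏ g ∈ G.neighborFinset c, (1 - θ * x g c))
      / ((1 + a c) * ∏ g ∈ G.neighborFinset c, (1 + θ * x g c)
        + (1 - a c) * ∏ g ∈ G.neighborFinset c, (1 - θ * x g c)) := by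
  have hmem : p ∈ G.neighborFinset c := by simpa using h
  have hfac : ∀ g, 0 < 1 + θ * x g c ∧ 0 < 1 - θ * x g c := by
    intro g
    have h1 := abs_le.mp (hx g c)
    constructor <;> nlinarith
  have hac := abs_le.mp (ha c)
  rw [← Finset.mul_prod_erase _ _ hmem, ← Finset.mul_prod_erase _ _ hmem]
  set A := (1 + a c) * ∏ g ∈ (G.neighborFinset c).erase p, (1 + θ * x g c) with hA
  set B := (1 - a c) * ∏ g ∈ (G.neighborFinset c).erase p, (1 - θ * x g c) with hB
  have hA0 : 0 < A := mul_pos (by linarith) (Finset.prod_pos fun g _ => (hfac g).1)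
  have hB0 : 0 < B := mul_pos (by linarith) (Finset.prod_pos fun g _ => (hfac g).2)
  have hxc : x c p = (A - B) / (A + B) := by
    rw [eq_div_iff (by linarith)]
    exact hr c p h
  have eA : (1 + a c) * ((1 + θ * x p c) * ∏ g ∈ (G.neighborFinset c).erase p, (1 + θ * x g c))
      = A * (1 + θ * x p c) := by rw [hA]; ring
  have eB : (1 - a c) * ((1 - θ * x p c) * ∏ g ∈ (G.neighborFinset c).erase p, (1 - θ * x g c))
      = B * (1 - θ * x p c) := by rw [hB]; ring
  rw [eA, eB]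
  unfold magE comb
  rw [hxc]
  have h3 := hfac p
  have hAB : A + B ≠ 0 := by linarith
  have hD : A * (1 + θ * x p c) + B * (1 - θ * x p c) ≠ 0 :=
    (add_pos (mul_pos hA0 h3.1) (mul_pos hB0 h3.2)).ne'
  have e1 : (A - B) / (A + B) + θ * x p c
      = (A * (1 + θ * x p c) - B * (1 - θ * x p c)) / (A + B) := by
    field_simp
    ring
  have e2 : 1 + (A - B) / (A + B) * (θ * x p c)
      = (A * (1 + θ * x p c) + B * (1 - θ * x p c)) / (A + B) := by
    field_simp
    ring
  rw [e1, e2, div_div_div_cancel_right₀ hAB]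

/-- the fields of an environment are cavity fields, with a uniform bound.
From `recur`: with `A = (1 + a_c) Π (1 + θ m_g)`, `B = (1 - a_c) Π (1 - θ m_g)` the cavity
magnetization is `(A - B) / (A + B)`, and `A / B ≤ ((1+α)/(1-α)) ((1+θ)/(1-θ))^(d-1)`; `magE c p` is
`(A (1 + θ m_p) - B (1 - θ m_p)) / (A (1 + θ m_p) + B (1 - θ m_p))`, symmetric in the
neighbours. -/
lemma isCavity_of_env {d : ℕ} (hreg : ∀ v, G.degree v = d)
    (hθ0 : 0 ≤ θ) (hθ1 : θ < 1) (hα0 : 0 ≤ α) (hα1 : α < 1) :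
    ∃ α' : ℝ, 0 ≤ α' ∧ α' < 1 ∧ ∀ (P : Measure (Cfg V)) (m : V → V → (V → ℝ) → ℝ),
      CavEnv0 G θ α P m → ∀ᵐ ω ∂P, IsCavity G θ α' (fun c p => m c p ω.2) := by
  set r : ℝ := (1 + θ) / (1 - θ) with hr
  have h1θ : 0 < 1 - θ := by linarith
  have h1α : 0 < 1 - α := by linarith
  have hr1 : 1 ≤ r := by
    rw [hr, le_div_iff₀ h1θ]
    linarith
  set K : ℝ := (1 + α) / (1 - α) * r ^ d with hK
  have hα' : 1 ≤ (1 + α) / (1 - α) := by
    rw [le_div_iff₀ h1α]
    linarith
  have hK1 : 1 ≤ K := by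
    have h2 : 1 ≤ r ^ d := one_le_pow₀ hr1
    rw [hK]
    nlinarith
  refine ⟨(K - 1) / (K + 1), div_nonneg (by linarith) (by linarith), ?_, ?_⟩
  · rw [div_lt_one (by linarith)]
    linarith
  intro P m he
  filter_upwards [he.own_bound, he.recur] with ω hown hrec
  have hx : ∀ c p, |m c p ω.2| ≤ 1 := fun c p => he.bound c p ω.2
  refine ⟨?_, ?_⟩
  · intro c p h
    have hmem : p ∈ G.neighborFinset c := by simpa using h
    have hfac : ∀ g, 0 < 1 + θ * m g c ω.2 ∧ 0 < 1 - θ * m g c ω.2 := by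
      intro g
      have h1 := abs_le.mp (hx g c)
      constructor <;> nlinarith
    have hac := abs_le.mp (hown c)
    have hrc := hrec c p h
    set A := (1 + ω.2 c) * ∏ g ∈ (G.neighborFinset c).erase p, (1 + θ * m g c ω.2) with hA
    set B := (1 - ω.2 c) * ∏ g ∈ (G.neighborFinset c).erase p, (1 - θ * m g c ω.2) with hB
    have hA0 : 0 < A := mul_pos (by linarith) (Finset.prod_pos fun g _ => (hfac g).1)
    have hB0 : 0 < B := mul_pos (by linarith) (Finset.prod_pos fun g _ => (hfac g).2)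
    have hcard : ((G.neighborFinset c).erase p).card ≤ d := by
      refine (Finset.card_le_card (Finset.erase_subset _ _)).trans ?_
      rw [card_neighborFinset_eq_degree, hreg]
    have hone : ∀ g, 1 + θ * m g c ω.2 ≤ r * (1 - θ * m g c ω.2)
        ∧ 1 - θ * m g c ω.2 ≤ r * (1 + θ * m g c ω.2) := by
      intro g
      have h1 := abs_le.mp (hx g c)
      rw [hr, div_mul_eq_mul_div, div_mul_eq_mul_div, le_div_iff₀ h1θ, le_div_iff₀ h1θ]
      constructor <;> nlinarith
    have hprod1 : ∏ g ∈ (G.neighborFinset c).erase p, (1 + θ * m g c ω.2)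
        ≤ r ^ d * ∏ g ∈ (G.neighborFinset c).erase p, (1 - θ * m g c ω.2) := by
      calc ∏ g ∈ (G.neighborFinset c).erase p, (1 + θ * m g c ω.2)
          ≤ ∏ g ∈ (G.neighborFinset c).erase p, (r * (1 - θ * m g c ω.2)) :=
            Finset.prod_le_prod (fun g _ => (hfac g).1.le) fun g _ => (hone g).1
        _ = r ^ ((G.neighborFinset c).erase p).card
            * ∏ g ∈ (G.neighborFinset c).erase p, (1 - θ * m g c ω.2) := by
            rw [Finset.prod_mul_distrib, Finset.prod_const]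
        _ ≤ _ := mul_le_mul_of_nonneg_right (pow_le_pow_right₀ hr1 hcard)
            (Finset.prod_nonneg fun g _ => (hfac g).2.le)
    have hprod2 : ∏ g ∈ (G.neighborFinset c).erase p, (1 - θ * m g c ω.2)
        ≤ r ^ d * ∏ g ∈ (G.neighborFinset c).erase p, (1 + θ * m g c ω.2) := by
      calc ∏ g ∈ (G.neighborFinset c).erase p, (1 - θ * m g c ω.2)
          ≤ ∏ g ∈ (G.neighborFinset c).erase p, (r * (1 + θ * m g c ω.2)) :=
            Finset.prod_le_prod (fun g _ => (hfac g).2.le) fun g _ => (hone g).2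
        _ = r ^ ((G.neighborFinset c).erase p).card
            * ∏ g ∈ (G.neighborFinset c).erase p, (1 + θ * m g c ω.2) := by
            rw [Finset.prod_mul_distrib, Finset.prod_const]
        _ ≤ _ := mul_le_mul_of_nonneg_right (pow_le_pow_right₀ hr1 hcard)
            (Finset.prod_nonneg fun g _ => (hfac g).1.le)
    have hown1 : 1 + ω.2 c ≤ (1 + α) / (1 - α) * (1 - ω.2 c) := by
      rw [div_mul_eq_mul_div, le_div_iff₀ h1α]
      nlinarith
    have hown2 : 1 - ω.2 c ≤ (1 + α) / (1 - α) * (1 + ω.2 c) := by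
      rw [div_mul_eq_mul_div, le_div_iff₀ h1α]
      nlinarith
    have hAB : A ≤ K * B := by
      calc A ≤ ((1 + α) / (1 - α) * (1 - ω.2 c))
            * (r ^ d * ∏ g ∈ (G.neighborFinset c).erase p, (1 - θ * m g c ω.2)) :=
            mul_le_mul hown1 hprod1 (Finset.prod_nonneg fun g _ => (hfac g).1.le)
              (mul_nonneg (by linarith) (by linarith))
        _ = K * B := by rw [hK, hB]; ring
    have hBA : B ≤ K * A := by
      calc B ≤ ((1 + α) / (1 - α) * (1 + ω.2 c))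
            * (r ^ d * ∏ g ∈ (G.neighborFinset c).erase p, (1 + θ * m g c ω.2)) :=
            mul_le_mul hown2 hprod2 (Finset.prod_nonneg fun g _ => (hfac g).2.le)
              (mul_nonneg (by linarith) (by linarith))
        _ = K * A := by rw [hK, hA]; ring
    have hxc : m c p ω.2 = (A - B) / (A + B) := by
      rw [eq_div_iff (by linarith)]
      exact hrc
    rw [hxc, abs_le]
    have hAB0 : 0 < A + B := by linarith
    have hK0 : 0 < K + 1 := by linarith
    constructor
    · rw [← neg_div, div_le_div_iff₀ hK0 hAB0]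
      nlinarith
    · rw [div_le_div_iff₀ hAB0 hK0]
      nlinarith
  · intro c p q hp hq
    rw [cavity_of_recur hθ0 hθ1 hα1 hown hx hrec hp, cavity_of_recur hθ0 hθ1 hα1 hown hx hrec hq]

omit [LocallyFinite G] [DecidableEq V] [Countable V] in
lemma measurable_precomp (g : G ≃g G) :
    Measurable (fun ω : Cfg V => ((fun v => ω.1 (g v), fun v => ω.2 (g v)) : Cfg V)) := by
  refine Measurable.prodMk ?_ ?_
  · exact measurable_pi_lambda _ fun v => (measurable_pi_apply (g v)).comp measurable_fst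
  · exact measurable_pi_lambda _ fun v => (measurable_pi_apply (g v)).comp measurable_snd

/-- the even moments of the cavity magnetizations do not depend on the edge -/
lemma env_hom (he : CavEnv G θ α P m) (hG : G.IsTree) {d : ℕ} (hd : 2 ≤ d)
    (hreg : ∀ v, G.degree v = d) {f : ℝ → ℝ} (hf : Nice f) {c p c' p' : V} (h : G.Adj c p)
    (h' : G.Adj c' p') :
    ∫ ω, f (m c p ω.2) ∂P = ∫ ω, f (m c' p' ω.2) ∂P := by
  have h1 : G.dist c p = G.dist c' p' := by
    rw [dist_eq_one_iff_adj.mpr h, dist_eq_one_iff_adj.mpr h']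
  obtain ⟨g, hgc, hgp⟩ := exists_iso_pair hG hd hreg h1
  have e1 : ∫ ω, f (m c' p' ω.2) ∂P = ∫ ω, f (m c p (fun v => ω.2 (g v))) ∂P := by
    apply integral_congr_ae
    filter_upwards [he.equiv g c p h] with ω hω
    rw [← hω, hgc, hgp]
  have hfm : Measurable (fun ω : Cfg V => f (m c p ω.2)) :=
    hf.measurable.comp ((he.meas c p).comp measurable_snd)
  have e2 : ∫ ω, f (m c p ω.2) ∂P = ∫ ω, f (m c p (fun v => ω.2 (g v))) ∂P := by
    conv_lhs => rw [← he.inv g]
    exact integral_map (measurable_precomp g).aemeasurable hfm.aestronglyMeasurable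
  rw [e1, e2]

/-- the law of the own magnetizations does not depend on the vertex -/
lemma env_hom_own (he : CavEnv G θ α P m) (hG : G.IsTree) {d : ℕ} (hd : 2 ≤ d)
    (hreg : ∀ v, G.degree v = d) {f : ℝ → ℝ} (hf : Nice f) (v v' : V) :
    ∫ ω, f (ω.2 v) ∂P = ∫ ω, f (ω.2 v') ∂P := by
  have h1 : G.dist v v = G.dist v' v' := by simp
  obtain ⟨g, hgv, -⟩ := exists_iso_pair hG hd hreg h1
  have hfm : Measurable (fun ω : Cfg V => f (ω.2 v)) :=
    hf.measurable.comp ((measurable_pi_apply v).comp measurable_snd)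
  have e2 : ∫ ω, f (ω.2 v) ∂P = ∫ ω, f (ω.2 (g v)) ∂P := by
    conv_lhs => rw [← he.inv g]
    exact integral_map (measurable_precomp g).aemeasurable hfm.aestronglyMeasurable
  rw [e2, hgv]

/-- invariance of the law of the whole cavity field -/
lemma env_field_inv (he : CavEnv G θ α P m) (hG : G.IsTree) (g : G ≃g G)
    (f : (V → V → ℝ) → ENNReal) (hf : Measurable f)
    (hfd : ∀ x x' : V → V → ℝ, (∀ c p, G.Adj c p → x c p = x' c p) → f x = f x') :
    ∫⁻ ω, f (fun c p => m (g c) (g p) ω.2) ∂P = ∫⁻ ω, f (fun c p => m c p ω.2) ∂P := by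
  have hall : ∀ᵐ ω ∂P, ∀ c p, G.Adj c p → m (g c) (g p) ω.2 = m c p (fun v => ω.2 (g v)) := by
    rw [ae_all_iff]
    intro c
    rw [ae_all_iff]
    intro p
    by_cases h : G.Adj c p
    · filter_upwards [he.equiv g c p h] with ω hω _
      exact hω
    · filter_upwards with ω hcon
      exact absurd hcon h
  have e1 : ∫⁻ ω, f (fun c p => m (g c) (g p) ω.2) ∂P
      = ∫⁻ ω, f (fun c p => m c p (fun v => ω.2 (g v))) ∂P := by
    apply lintegral_congr_ae
    filter_upwards [hall] with ω hω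
    exact hfd _ _ hω
  have hfm : Measurable (fun ω : Cfg V => f (fun c p => m c p ω.2)) := by
    apply hf.comp
    exact measurable_pi_lambda _ fun c => measurable_pi_lambda _ fun p =>
      (he.meas c p).comp measurable_snd
  have e2 : ∫⁻ ω, f (fun c p => m c p ω.2) ∂P
      = ∫⁻ ω, f (fun c p => m c p (fun v => ω.2 (g v))) ∂P := by
    conv_lhs => rw [← he.inv g]
    exact lintegral_map hfm (measurable_precomp g)
  rw [e1, e2]

end Vale.Agent.P161c
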