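import Vale.Agent.P161c.FinVol

/-!
The environment built from the free Ising measure and independent binary symmetric channels:
infinite-volume posterior magnetizations as almost sure limits, and the structure `CavEnv`.
-/

namespace Vale.Agent.P161c

open MeasureTheory SimpleGraph Vale.Agent.H13.P161 Filter Topology

/-- a binary symmetric observation channel `Y` (with noise space `(Λ, lam)`, output space `E`) and
the posterior mean `b y` of a uniform input given the output `y` -/
structure IsChan {Λ E : Type*} [MeasurableSpace Λ] [MeasurableSpace E] (lam : Measure Λ) (α : ℝ)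
    (Y : ℤˣ → Λ → E) (b : E → ℝ) : Prop where
  measY : ∀ s, Measurable (Y s)
  measb : Measurable b
  bound : ∀ y, |b y| ≤ α
  flip : ∀ f : ℝ → ℝ, Nice f → ∀ s, ∫ x, f (b (Y s x)) ∂lam = ∫ x, f (- b (Y (-s) x)) ∂lam
  bayes : ∀ f : E → ℝ, Nice f → ∫ x, f (Y 1 x) ∂lam - ∫ x, f (Y (-1) x) ∂lam
    = ∫ x, f (Y 1 x) * b (Y 1 x) ∂lam + ∫ x, f (Y (-1) x) * b (Y (-1) x) ∂lam

variable {V : Type*} {G : SimpleGraph V}

/-- joint law of the spins and the channel outputs -/
noncomputable def obsM {Λ E : Type*} [MeasurableSpace Λ] [MeasurableSpace E]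
    (μ : Measure (V → ℤˣ)) (lam : Measure Λ) (Y : V → ℤˣ → Λ → E) :
    Measure ((V → ℤˣ) × (V → E)) :=
  (μ.prod (Measure.infinitePi (fun _ : V => lam))).map
    (fun x : (V → ℤˣ) × (V → Λ) => (x.1, fun w => Y w (x.1 w) (x.2 w)))

/-- joint law of the spins and the own magnetizations -/
noncomputable def envM {Λ E : Type*} [MeasurableSpace Λ] [MeasurableSpace E]
    (μ : Measure (V → ℤˣ)) (lam : Measure Λ) (Y : V → ℤˣ → Λ → E) (b : V → E → ℝ) :
    Measure (Cfg V) :=
  (obsM μ lam Y).map (fun ω => ((ω.1, fun w => b w (ω.2 w)) : Cfg V))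

open Classical in
/-- limit of a sequence, or zero if it does not converge -/
noncomputable def limOr0 (s : ℕ → ℝ) : ℝ := if h : ∃ l, Tendsto s atTop (𝓝 l) then h.choose else 0

lemma limOr0_eq {s : ℕ → ℝ} {l : ℝ} (h : Tendsto s atTop (𝓝 l)) : limOr0 s = l := by
  unfold limOr0
  have h' : ∃ l, Tendsto s atTop (𝓝 l) := ⟨l, h⟩
  rw [dif_pos h']
  exact tendsto_nhds_unique h'.choose_spec h

lemma limOr0_tendsto {s : ℕ → ℝ} (h : ∃ l, Tendsto s atTop (𝓝 l)) :
    Tendsto s atTop (𝓝 (limOr0 s)) := by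
  obtain ⟨l, hl⟩ := h
  rw [limOr0_eq hl]
  exact hl

lemma limOr0_of_not {s : ℕ → ℝ} (h : ¬ ∃ l, Tendsto s atTop (𝓝 l)) : limOr0 s = 0 := by
  unfold limOr0
  rw [dif_neg h]

lemma measurable_limOr0 {Ω : Type*} [MeasurableSpace Ω] {f : ℕ → Ω → ℝ}
    (hf : ∀ n, Measurable (f n)) : Measurable (fun ω => limOr0 (fun n => f n ω)) := by
  classical
  have hset : MeasurableSet {ω | ∃ l, Tendsto (fun n => f n ω) atTop (𝓝 l)} :=
    measurableSet_exists_tendsto hf
  refine measurable_of_tendsto_metrizable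
    (f := fun n ω => if (∃ l, Tendsto (fun n => f n ω) atTop (𝓝 l)) then f n ω else 0)
    (fun n => Measurable.ite hset (hf n) measurable_const) ?_
  rw [tendsto_pi_nhds]
  intro ω
  by_cases h : ∃ l, Tendsto (fun n => f n ω) atTop (𝓝 l)
  · simp only [if_pos h]
    exact limOr0_tendsto h
  · simp only [if_neg h]
    rw [limOr0_of_not h]
    exact tendsto_const_nhds

/-- infinite-volume cavity magnetizations along the exhaustion `T` -/
noncomputable def cavI (G : SimpleGraph V) (μ : Measure (V → ℤˣ)) (α : ℝ) (T : ℕ → Finset V)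
    (c p : V) (a : V → ℝ) : ℝ := limOr0 (fun n => cavF G μ α (T n) a c p)

/-- infinite-volume magnetizations along the exhaustion `T` -/
noncomputable def postI (μ : Measure (V → ℤˣ)) (α : ℝ) (T : ℕ → Finset V) (v : V) (a : V → ℝ) :
    ℝ := limOr0 (fun n => post μ α v (T n) a)

section

variable {μ : Measure (V → ℤˣ)} [IsProbabilityMeasure μ] {α θ : ℝ}
  {Λ E : Type*} [MeasurableSpace Λ] [MeasurableSpace E] {lam : Measure Λ}
  [IsProbabilityMeasure lam] {Y : V → ℤˣ → Λ → E} {b : V → E → ℝ} {T : ℕ → Finset V}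

/-- the field of own magnetizations -/
def own (b : V → E → ℝ) (y : V → E) : V → ℝ := fun w => b w (y w)

omit [IsProbabilityMeasure lam] in
lemma measurable_Yjoint {Y₁ : ℤˣ → Λ → E} (hY : ∀ s, Measurable (Y₁ s)) :
    Measurable (fun p : ℤˣ × Λ => Y₁ p.1 p.2) :=
  measurable_from_prod_countable_right hY

lemma measurable_obsmap (hY : ∀ w s, Measurable (Y w s)) :
    Measurable (fun x : (V → ℤˣ) × (V → Λ) =>
      ((x.1, fun w => Y w (x.1 w) (x.2 w)) : (V → ℤˣ) × (V → E))) := by
  refine measurable_fst.prodMk ?_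
  rw [measurable_pi_iff]
  intro w
  exact (measurable_Yjoint (hY w)).comp (f := fun x : (V → ℤˣ) × (V → Λ) => (x.1 w, x.2 w))
    (((measurable_pi_apply w).comp measurable_fst).prodMk
      ((measurable_pi_apply w).comp measurable_snd))

lemma integral_obsM (hA : ∀ w, IsChan lam α (Y w) (b w)) {f : (V → ℤˣ) × (V → E) → ℝ}
    (hf : Nice f) :
    ∫ ω, f ω ∂(obsM μ lam Y)
      = ∫ σ, ∫ x, f (σ, fun w => Y w (σ w) (x w)) ∂(Measure.infinitePi (fun _ : V => lam)) ∂μ := by
  have hm := measurable_obsmap (V := V) (fun w => (hA w).measY)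
  unfold obsM
  rw [integral_map hm.aemeasurable hf.1.aestronglyMeasurable]
  exact (hf.comp hm).integral_prod μ (Measure.infinitePi (fun _ : V => lam))

/-- the symmetrized output law of a channel -/
noncomputable def symE (lam : Measure Λ) (Y₁ : ℤˣ → Λ → E) : Measure E :=
  (2⁻¹ : ENNReal) • (lam.map (Y₁ 1) + lam.map (Y₁ (-1)))

lemma isProb_symE {Y₁ : ℤˣ → Λ → E} {b₁ : E → ℝ} (hA : IsChan lam α Y₁ b₁) :
    IsProbabilityMeasure (symE lam Y₁) := by
  have := Measure.isProbabilityMeasure_map (μ := lam) (hA.measY 1).aemeasurable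
  have := Measure.isProbabilityMeasure_map (μ := lam) (hA.measY (-1)).aemeasurable
  refine ⟨?_⟩
  unfold symE
  rw [Measure.smul_apply, Measure.add_apply, measure_univ, measure_univ, smul_eq_mul]
  rw [show (1 : ENNReal) + 1 = 2 by norm_num]
  exact ENNReal.inv_mul_cancel (by norm_num) (by norm_num)

lemma integral_symE {Y₁ : ℤˣ → Λ → E} {b₁ : E → ℝ} (hA : IsChan lam α Y₁ b₁) {f : E → ℝ}
    (hf : Nice f) :
    ∫ e, f e ∂(symE lam Y₁) = (∫ x, f (Y₁ 1 x) ∂lam + ∫ x, f (Y₁ (-1) x) ∂lam) / 2 := by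
  have := Measure.isProbabilityMeasure_map (μ := lam) (hA.measY 1).aemeasurable
  have := Measure.isProbabilityMeasure_map (μ := lam) (hA.measY (-1)).aemeasurable
  unfold symE
  rw [integral_smul_measure, integral_add_measure (hf.integrable _) (hf.integrable _),
    integral_map (hA.measY 1).aemeasurable hf.1.aestronglyMeasurable,
    integral_map (hA.measY (-1)).aemeasurable hf.1.aestronglyMeasurable]
  simp
  ring

lemma nice_b {Y₁ : ℤˣ → Λ → E} {b₁ : E → ℝ} (hA : IsChan lam α Y₁ b₁) : Nice b₁ :=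
  ⟨hA.measb, α, hA.bound⟩

/-- density of the output law with respect to the symmetrized law -/
lemma chan_density {Y₁ : ℤˣ → Λ → E} {b₁ : E → ℝ} (hA : IsChan lam α Y₁ b₁) {f : E → ℝ}
    (hf : Nice f) (s : ℤˣ) :
    ∫ x, f (Y₁ s x) ∂lam = ∫ e, f e * (1 + b₁ e * spinVal s) ∂(symE lam Y₁) := by
  have hb := nice_b hA
  have hg : Nice (fun e => f e * (1 + b₁ e * spinVal s)) :=
    hf.mul ((Nice.const 1).add (hb.mul (Nice.const _)))
  rw [integral_symE hA hg]
  have h1 : ∀ t : ℤˣ, ∫ x, f (Y₁ t x) * (1 + b₁ (Y₁ t x) * spinVal s) ∂lam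
      = ∫ x, f (Y₁ t x) ∂lam + spinVal s * ∫ x, f (Y₁ t x) * b₁ (Y₁ t x) ∂lam := by
    intro t
    have e : ∀ x, f (Y₁ t x) * (1 + b₁ (Y₁ t x) * spinVal s)
        = f (Y₁ t x) + spinVal s * (f (Y₁ t x) * b₁ (Y₁ t x)) := fun x => by ring
    simp only [e]
    rw [(hf.comp (hA.measY t)).integral_add'
      ((Nice.const _).mul ((hf.comp (hA.measY t)).mul (hb.comp (hA.measY t)))), integral_const_mul]
  rw [h1, h1]
  have hbayes := hA.bayes f hf
  rcases Int.units_eq_one_or s with hs | hs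
  · rw [hs, spinVal_one']
    linear_combination (1 / 2 : ℝ) * hbayes
  · rw [hs, spinVal_neg_one']
    linear_combination (-1 / 2 : ℝ) * hbayes

/-- expansion of the output law given the spins -/
lemma integral_expand [DecidableEq V] (hA : ∀ w, IsChan lam α (Y w) (b w)) (σ : V → ℤˣ) (y₀ : V → E)
    (S : Finset V) : ∀ {k : (V → E) → ℝ}, Nice k →
    haveI := fun w => isProb_symE (hA w)
    ∫ x, k (fun w => if w ∈ S then Y w (σ w) (x w) else y₀ w)
        ∂(Measure.infinitePi (fun _ : V => lam))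
      = ∫ y, k (fun w => if w ∈ S then y w else y₀ w) * ∏ w ∈ S, (1 + b w (y w) * spinVal (σ w))
        ∂(Measure.infinitePi (fun w => symE lam (Y w))) := by
  haveI := fun w => isProb_symE (hA w)
  have mmask : ∀ (S : Finset V), Measurable (fun (y : V → E) (w : V) => if w ∈ S then y w else y₀ w) := by
    intro S
    rw [measurable_pi_iff]
    intro w
    by_cases hw : w ∈ S
    · simp only [if_pos hw]; exact measurable_pi_apply w
    · simp only [if_neg hw]; exact measurable_const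
  have mmaskx : ∀ (S : Finset V),
      Measurable (fun (x : V → Λ) (w : V) => if w ∈ S then Y w (σ w) (x w) else y₀ w) := by
    intro S
    rw [measurable_pi_iff]
    intro w
    by_cases hw : w ∈ S
    · simp only [if_pos hw]; exact ((hA w).measY _).comp (measurable_pi_apply w)
    · simp only [if_neg hw]; exact measurable_const
  have nprod : ∀ (S : Finset V), Nice (fun y : V → E => ∏ w ∈ S, (1 + b w (y w) * spinVal (σ w))) := by
    intro S
    apply Nice.prod
    intro w _
    exact (Nice.const 1).add (((nice_b (hA w)).comp (measurable_pi_apply w)).mul (Nice.const _))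
  induction S using Finset.induction_on with
  | empty =>
    intro k hk
    simp
  | insert i S hi ih =>
    intro k hk
    set K : (V → E) → ℝ := fun y => ∫ e, k (Function.update y i e) * (1 + b i e * spinVal (σ i))
      ∂(symE lam (Y i)) with hK
    have hKn : Nice K := by
      have h : Nice (fun p : (V → E) × E =>
          k (Function.update p.1 i p.2) * (1 + b i p.2 * spinVal (σ i))) :=
        (hk.comp (measurable_update_pair (X := fun _ : V => E) i)).mul
          ((Nice.const 1).add (((nice_b (hA i)).comp measurable_snd).mul (Nice.const _)))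
      exact h.integral_right (symE lam (Y i))
    have hL : ∫ x, k (fun w => if w ∈ insert i S then Y w (σ w) (x w) else y₀ w)
          ∂(Measure.infinitePi (fun _ : V => lam))
        = ∫ x, K (fun w => if w ∈ S then Y w (σ w) (x w) else y₀ w)
          ∂(Measure.infinitePi (fun _ : V => lam)) := by
      rw [integral_update (fun _ : V => lam) i (hk.comp (mmaskx (insert i S)))]
      congr 1
      ext x
      have e : ∀ x' : Λ, (fun w => if w ∈ insert i S then Y w (σ w) (Function.update x i x' w)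
          else y₀ w) = Function.update (fun w => if w ∈ S then Y w (σ w) (x w) else y₀ w) i
            (Y i (σ i) x') := by
        intro x'
        ext w
        by_cases hw : w = i
        · subst hw; simp
        · simp [hw]
      simp only [e]
      exact chan_density (hA i) (f := fun e => k (Function.update
        (fun w => if w ∈ S then Y w (σ w) (x w) else y₀ w) i e))
        (hk.comp ((measurable_update_pair (X := fun _ : V => E) i).comp measurable_prodMk_left)) _
    rw [hL, ih hKn]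
    have hR : Nice (fun y : V → E => k (fun w => if w ∈ insert i S then y w else y₀ w)
        * ∏ w ∈ insert i S, (1 + b w (y w) * spinVal (σ w))) :=
      (hk.comp (mmask (insert i S))).mul (nprod (insert i S))
    rw [integral_update (fun w => symE lam (Y w)) i hR]
    congr 1
    ext y
    rw [hK]
    simp only
    rw [← integral_mul_const]
    congr 1
    ext e
    have e1 : (fun w => if w ∈ insert i S then Function.update y i e w else y₀ w)
        = Function.update (fun w => if w ∈ S then y w else y₀ w) i e := by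
      ext w
      by_cases hw : w = i
      · subst hw; simp
      · simp [hw]
    rw [e1, Finset.prod_insert hi, Function.update_self]
    have e2 : ∏ w ∈ S, (1 + b w (Function.update y i e w) * spinVal (σ w))
        = ∏ w ∈ S, (1 + b w (y w) * spinVal (σ w)) := by
      apply Finset.prod_congr rfl
      intro w hw
      rw [Function.update_of_ne (by rintro rfl; exact hi hw)]
    rw [e2]
    ring

/-- the joint law of finitely many outputs and the spins -/
lemma integral_obs_fin (hA : ∀ w, IsChan lam α (Y w) (b w)) (F : Finset V)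
    {k : (V → E) → ℝ} (hk : Nice k)
    (hdep : ∀ y y' : V → E, (∀ w ∈ F, y w = y' w) → k y = k y') {g : (V → ℤˣ) → ℝ} (hg : Nice g) :
    haveI := fun w => isProb_symE (hA w)
    ∫ ω, k ω.2 * g ω.1 ∂(obsM μ lam Y)
      = ∫ y, k y * (∫ σ, wgt α F (own b y) σ * g σ ∂μ)
        ∂(Measure.infinitePi (fun w => symE lam (Y w))) := by
  haveI := fun w => isProb_symE (hA w)
  classical
  obtain ⟨l₀⟩ : Nonempty Λ := nonempty_of_isProbabilityMeasure lam
  set y₀ : V → E := fun w => Y w 1 l₀ with hy₀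
  have hm := measurable_obsmap (V := V) (fun w => (hA w).measY)
  have h1 : ∀ σ : V → ℤˣ, ∫ x, k (fun w => Y w (σ w) (x w)) * g σ
        ∂(Measure.infinitePi (fun _ : V => lam))
      = ∫ y, k y * (wgt α F (own b y) σ * g σ)
        ∂(Measure.infinitePi (fun w => symE lam (Y w))) := by
    intro σ
    rw [integral_mul_const]
    have e1 : ∀ x : V → Λ, k (fun w => Y w (σ w) (x w))
        = k (fun w => if w ∈ F then Y w (σ w) (x w) else y₀ w) := by
      intro x
      apply hdep
      intro w hw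
      rw [if_pos hw]
    simp only [e1]
    rw [integral_expand hA σ y₀ F hk, ← integral_mul_const]
    congr 1
    ext y
    have e2 : k (fun w => if w ∈ F then y w else y₀ w) = k y := by
      apply hdep
      intro w hw
      rw [if_pos hw]
    have e3 : ∏ w ∈ F, (1 + b w (y w) * spinVal (σ w)) = wgt α F (own b y) σ := by
      unfold wgt
      apply Finset.prod_congr rfl
      intro w _
      rw [clip_of_abs_le (by exact (hA w).bound _)]
      rfl
    rw [e2, e3]
    ring
  have nk : Nice (fun p : (V → ℤˣ) × (V → E) => k p.2) := hk.comp measurable_snd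
  have ng : Nice (fun p : (V → ℤˣ) × (V → E) => g p.1) := hg.comp measurable_fst
  rw [integral_obsM hA (nk.mul ng)]
  simp only [h1]
  have mown : Measurable (fun y : V → E => own b y) := by
    rw [measurable_pi_iff]
    intro w
    exact (hA w).measb.comp (measurable_pi_apply w)
  have nw : Nice (fun p : (V → ℤˣ) × (V → E) => wgt α F (own b p.2) p.1) :=
    (nice_wgt_joint (α := α) F).comp
      (φ := fun p : (V → ℤˣ) × (V → E) => ((own b p.2, p.1) : (V → ℝ) × (V → ℤˣ)))
      ((mown.comp measurable_snd).prodMk measurable_fst)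
  rw [Nice.integral_integral_swap (nk.mul (nw.mul ng))]
  congr 1
  ext y
  change ∫ σ, k y * (wgt α F (own b y) σ * g σ) ∂μ = k y * ∫ σ, wgt α F (own b y) σ * g σ ∂μ
  rw [integral_const_mul]

lemma measurable_own (hA : ∀ w, IsChan lam α (Y w) (b w)) :
    Measurable (fun y : V → E => own b y) := by
  rw [measurable_pi_iff]
  intro w
  exact (hA w).measb.comp (measurable_pi_apply w)

lemma isProb_obsM (hA : ∀ w, IsChan lam α (Y w) (b w)) : IsProbabilityMeasure (obsM μ lam Y) := by
  unfold obsM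
  exact Measure.isProbabilityMeasure_map (measurable_obsmap (fun w => (hA w).measY)).aemeasurable

/-- finite-volume tower property: the posterior is a conditional expectation.
(`bayes` says `E[f(Y(σ))] = E₀[f(Y) (1 + b(Y) σ)]` with `E₀` the symmetrized law; expand
over `w ∈ F` as in `integral_obs`, `integral_obs_joint`, `tower` of `Law.lean`.) -/
lemma tower_post (hα0 : 0 ≤ α) (hα1 : α < 1) (hA : ∀ w, IsChan lam α (Y w) (b w)) (F : Finset V)
    (v : V) {k : (V → E) → ℝ} (hk : Nice k)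
    (hdep : ∀ y y' : V → E, (∀ w ∈ F, y w = y' w) → k y = k y') :
    ∫ ω, k ω.2 * spinVal (ω.1 v) ∂(obsM μ lam Y)
      = ∫ ω, k ω.2 * post μ α v F (own b ω.2) ∂(obsM μ lam Y) := by
  have mown : Measurable (fun y : V → E => own b y) := measurable_own hA
  have npost : Nice (fun y : V → E => post μ α v F (own b y)) :=
    ⟨(measurable_post v F).comp mown, 1, fun y => abs_post_le hα0 hα1 v F _⟩
  rw [integral_obs_fin hA F hk hdep (nice_spin v)]
  have h2 := integral_obs_fin (μ := μ) hA F (k := fun y => k y * post μ α v F (own b y))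
    (hk.mul npost) (fun y y' h => by
      rw [hdep y y' h, post_congr (a := own b y) (a' := own b y') v
        (fun w hw => by unfold own; rw [h w hw])]) (Nice.const 1)
  simp only [mul_one] at h2
  rw [h2]
  congr 1
  ext y
  rw [mul_assoc]
  congr 1
  exact (div_mul_cancel₀ _ (Zp_pos hα0 hα1 F _).ne').symm

lemma tower_corr (hα0 : 0 ≤ α) (hα1 : α < 1) (hA : ∀ w, IsChan lam α (Y w) (b w)) (F : Finset V)
    (v w : V) {k : (V → E) → ℝ} (hk : Nice k)
    (hdep : ∀ y y' : V → E, (∀ w ∈ F, y w = y' w) → k y = k y') :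
    ∫ ω, k ω.2 * (spinVal (ω.1 v) * spinVal (ω.1 w)) ∂(obsM μ lam Y)
      = ∫ ω, k ω.2 * corr μ α v w F (own b ω.2) ∂(obsM μ lam Y) := by
  have mown : Measurable (fun y : V → E => own b y) := measurable_own hA
  have npost : Nice (fun y : V → E => corr μ α v w F (own b y)) :=
    ⟨(measurable_corr v w F).comp mown, 1, fun y => abs_corr_le hα0 hα1 v w F _⟩
  rw [integral_obs_fin hA F hk hdep ((nice_spin v).mul (nice_spin w))]
  have h2 := integral_obs_fin (μ := μ) hA F (k := fun y => k y * corr μ α v w F (own b y))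
    (hk.mul npost) (fun y y' h => by
      rw [hdep y y' h, corr_congr (a := own b y) (a' := own b y') v w
        (fun w hw => by unfold own; rw [h w hw])]) (Nice.const 1)
  simp only [mul_one] at h2
  rw [h2]
  congr 1
  ext y
  rw [mul_assoc]
  congr 1
  exact (div_mul_cancel₀ _ (Zp_pos hα0 hα1 F _).ne').symm

/-- sigma-algebra of the outputs in `B` -/
def sgB (V : Type*) (E : Type*) [mE : MeasurableSpace E] (B : Set V) :
    MeasurableSpace ((V → ℤˣ) × (V → E)) :=
  ⨆ w ∈ B, MeasurableSpace.comap (fun ω : (V → ℤˣ) × (V → E) => ω.2 w) mE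

omit [MeasurableSpace E] in
lemma sgB_le [mE : MeasurableSpace E] (B : Set V) :
    sgB V E B ≤ (inferInstance : MeasurableSpace ((V → ℤˣ) × (V → E))) := by
  unfold sgB
  refine iSup₂_le (fun w _ => ?_)
  exact ((measurable_pi_apply w).comp measurable_snd).comap_le

lemma sgB_mono {B B' : Set V} (h : B ⊆ B') : sgB V E B ≤ sgB V E B' := by
  unfold sgB
  exact biSup_mono (fun w hw => h hw)

lemma sgB_iUnion (S : ℕ → Set V) : ⨆ n, sgB V E (S n) = sgB V E (⋃ n, S n) := by
  unfold sgB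
  rw [iSup_iUnion]

lemma sgB_eq_comap (B : Set V) : sgB V E B
    = MeasurableSpace.comap (fun (ω : (V → ℤˣ) × (V → E)) (w : B) => ω.2 w) MeasurableSpace.pi := by
  unfold sgB MeasurableSpace.pi
  rw [MeasurableSpace.comap_iSup, iSup_subtype']
  congr 1
  ext1 x
  rw [MeasurableSpace.comap_comp]
  rfl

lemma measurable_sgB_eval {B : Set V} {w : V} (hw : w ∈ B) :
    Measurable[sgB V E B] (fun ω : (V → ℤˣ) × (V → E) => ω.2 w) := by
  have h1 : MeasurableSpace.comap (fun ω : (V → ℤˣ) × (V → E) => ω.2 w) inferInstance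
      ≤ sgB V E B := by
    unfold sgB
    exact le_iSup₂_of_le w hw le_rfl
  exact measurable_iff_comap_le.mpr h1

lemma measurable_sgB_of_dep {B : Set V} {k : (V → E) → ℝ} (hk : Measurable k)
    (hdep : ∀ y y' : V → E, (∀ w ∈ B, y w = y' w) → k y = k y') :
    Measurable[sgB V E B] (fun ω : (V → ℤˣ) × (V → E) => k ω.2) := by
  classical
  rcases isEmpty_or_nonempty (V → E) with he | ⟨⟨y₀⟩⟩
  · have : (fun ω : (V → ℤˣ) × (V → E) => k ω.2) = fun _ => 0 := by
      ext ω
      exact (he.false ω.2).elim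
    rw [this]
    exact measurable_const
  · have e : (fun ω : (V → ℤˣ) × (V → E) => k ω.2)
        = k ∘ (fun ω : (V → ℤˣ) × (V → E) => fun w => if w ∈ B then ω.2 w else y₀ w) := by
      ext ω
      simp only [Function.comp]
      apply hdep
      intro w hw
      rw [if_pos hw]
    rw [e]
    refine hk.comp ?_
    refine @measurable_pi_lambda _ _ _ (sgB V E B) _ _ (fun w => ?_)
    by_cases hw : w ∈ B
    · simp only [if_pos hw]
      exact measurable_sgB_eval hw
    · simp only [if_neg hw]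
      exact measurable_const

lemma sgB_indicator {B : Set V} {s : Set ((V → ℤˣ) × (V → E))}
    (hs : MeasurableSet[sgB V E B] s) :
    ∃ k : (V → E) → ℝ, Nice k ∧ (∀ y y' : V → E, (∀ w ∈ B, y w = y' w) → k y = k y') ∧
      ∀ ω : (V → ℤˣ) × (V → E), k ω.2 = s.indicator (fun _ => (1 : ℝ)) ω := by
  rw [sgB_eq_comap] at hs
  obtain ⟨t, ht, rfl⟩ := hs
  refine ⟨fun y => t.indicator (fun _ => (1 : ℝ)) (fun w : B => y w), ?_, ?_, ?_⟩
  · refine ⟨(measurable_const.indicator ht).comp (measurable_pi_iff.mpr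
      (fun w => measurable_pi_apply _)), 1, fun y => ?_⟩
    by_cases h : (fun w : B => y w) ∈ t
    · simp [Set.indicator_of_mem h]
    · simp [Set.indicator_of_notMem h]
  · intro y y' h
    have : (fun w : B => y w) = fun w : B => y' w := by
      ext w
      exact h w.1 w.2
    simp only [this]
  · intro ω
    rfl

section Levy

variable {P : Measure ((V → ℤˣ) × (V → E))} [IsProbabilityMeasure P]

lemma condE_pull (B : Set V) {X : (V → ℤˣ) × (V → E) → ℝ} (hX : Nice X) {k : (V → E) → ℝ}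
    (hk : Nice k) (hdep : ∀ y y' : V → E, (∀ w ∈ B, y w = y' w) → k y = k y') :
    ∫ ω, k ω.2 * X ω ∂P = ∫ ω, k ω.2 * (P[X | sgB V E B]) ω ∂P := by
  obtain ⟨C, hC⟩ := hk.2
  have hm := measurable_sgB_of_dep hk.1 hdep
  have h := condExp_stronglyMeasurable_mul_of_bound (μ := P) (sgB_le B)
    (f := fun ω : (V → ℤˣ) × (V → E) => k ω.2) (g := X) hm.stronglyMeasurable
    (hX.integrable P) C (Filter.Eventually.of_forall (fun ω => hC _))
  have h2 : ∫ ω, ((fun ω : (V → ℤˣ) × (V → E) => k ω.2) * X) ω ∂P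
      = ∫ ω, (P[(fun ω : (V → ℤˣ) × (V → E) => k ω.2) * X | sgB V E B]) ω ∂P :=
    (integral_condExp (sgB_le B)).symm
  have h3 : ∫ ω, (P[(fun ω : (V → ℤˣ) × (V → E) => k ω.2) * X | sgB V E B]) ω ∂P
      = ∫ ω, k ω.2 * (P[X | sgB V E B]) ω ∂P := by
    apply integral_congr_ae
    filter_upwards [h] with ω hω
    rw [hω]
    rfl
  rw [← h3, ← h2]
  rfl

lemma levy_ver {S : ℕ → Finset V} (hS : Monotone S) {X : (V → ℤˣ) × (V → E) → ℝ} (hX : Nice X)
    {m : ℕ → (V → E) → ℝ} (hm : ∀ n, Nice (m n))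
    (hmdep : ∀ n, ∀ y y' : V → E, (∀ w ∈ S n, y w = y' w) → m n y = m n y')
    (hT : ∀ n, ∀ k : (V → E) → ℝ, Nice k →
      (∀ y y' : V → E, (∀ w ∈ S n, y w = y' w) → k y = k y') →
      ∫ ω, k ω.2 * X ω ∂P = ∫ ω, k ω.2 * m n ω.2 ∂P) :
    ∀ᵐ ω ∂P, Tendsto (fun n => m n ω.2) atTop
      (𝓝 ((P[X | sgB V E (⋃ n, (S n : Set V))]) ω)) := by
  let ℱ : Filtration ℕ (inferInstance : MeasurableSpace ((V → ℤˣ) × (V → E))) :=
    { seq := fun n => sgB V E (S n : Set V)
      mono' := fun i j hij => sgB_mono (Finset.coe_subset.mpr (hS hij))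
      le' := fun n => sgB_le _ }
  have h1 : ∀ n, (fun ω : (V → ℤˣ) × (V → E) => m n ω.2) =ᵐ[P] P[X | sgB V E (S n : Set V)] := by
    intro n
    have nm : Nice (fun ω : (V → ℤˣ) × (V → E) => m n ω.2) := (hm n).comp measurable_snd
    refine ae_eq_condExp_of_forall_setIntegral_eq (sgB_le _) (hX.integrable P)
      (fun s _ _ => (nm.integrable P).integrableOn) ?_
      (measurable_sgB_of_dep (hm n).1 (fun y y' h => hmdep n y y' h)).stronglyMeasurable.aestronglyMeasurable
    intro s hs _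
    obtain ⟨k, hk, hkd, hks⟩ := sgB_indicator hs
    have hs' : MeasurableSet s := sgB_le _ s hs
    have e : ∀ g : (V → ℤˣ) × (V → E) → ℝ, ∫ ω in s, g ω ∂P = ∫ ω, k ω.2 * g ω ∂P := by
      intro g
      rw [← integral_indicator hs']
      congr 1
      ext ω
      rw [hks]
      by_cases h : ω ∈ s
      · simp [Set.indicator_of_mem h]
      · simp [Set.indicator_of_notMem h]
    rw [e, e]
    exact (hT n k hk (fun y y' h => hkd y y' h)).symm
  have h2 := tendsto_ae_condExp (μ := P) (ℱ := ℱ) X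
  have h3 : (⨆ n, (ℱ n : MeasurableSpace ((V → ℤˣ) × (V → E))))
      = sgB V E (⋃ n, (S n : Set V)) := sgB_iUnion _
  rw [h3] at h2
  have h4 : ∀ᵐ ω ∂P, ∀ n, m n ω.2 = (P[X | sgB V E (S n : Set V)]) ω := ae_all_iff.mpr h1
  filter_upwards [h2, h4] with ω h2 h4
  simp only [h4]
  exact h2

end Levy

lemma post_levy (hα0 : 0 ≤ α) (hα1 : α < 1) (hA : ∀ w, IsChan lam α (Y w) (b w))
    {S : ℕ → Finset V} (hS : Monotone S) (v : V) :
    ∀ᵐ ω ∂(obsM μ lam Y), Tendsto (fun n => post μ α v (S n) (own b ω.2)) atTop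
      (𝓝 (((obsM μ lam Y)[(fun ω : (V → ℤˣ) × (V → E) => spinVal (ω.1 v)) |
        sgB V E (⋃ n, (S n : Set V))]) ω)) := by
  have := isProb_obsM (μ := μ) hA
  refine levy_ver hS (X := fun ω : (V → ℤˣ) × (V → E) => spinVal (ω.1 v))
    ((nice_spin v).comp measurable_fst) (m := fun n y => post μ α v (S n) (own b y)) ?_ ?_ ?_
  · intro n
    exact ⟨(measurable_post v (S n)).comp (measurable_own hA), 1,
      fun y => abs_post_le hα0 hα1 v _ _⟩
  · intro n y y' h
    exact post_congr (a := own b y) (a' := own b y') v (fun w hw => by unfold own; rw [h w hw])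
  · intro n k hk hd
    exact tower_post hα0 hα1 hA (S n) v hk hd

lemma corr_levy (hα0 : 0 ≤ α) (hα1 : α < 1) (hA : ∀ w, IsChan lam α (Y w) (b w))
    {S : ℕ → Finset V} (hS : Monotone S) (v w : V) :
    ∀ᵐ ω ∂(obsM μ lam Y), Tendsto (fun n => corr μ α v w (S n) (own b ω.2)) atTop
      (𝓝 (((obsM μ lam Y)[(fun ω : (V → ℤˣ) × (V → E) => spinVal (ω.1 v) * spinVal (ω.1 w)) |
        sgB V E (⋃ n, (S n : Set V))]) ω)) := by
  have := isProb_obsM (μ := μ) hA
  refine levy_ver hS (X := fun ω : (V → ℤˣ) × (V → E) => spinVal (ω.1 v) * spinVal (ω.1 w))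
    (((nice_spin v).mul (nice_spin w)).comp measurable_fst)
    (m := fun n y => corr μ α v w (S n) (own b y)) ?_ ?_ ?_
  · intro n
    exact ⟨(measurable_corr v w (S n)).comp (measurable_own hA), 1,
      fun y => abs_corr_le hα0 hα1 v w _ _⟩
  · intro n y y' h
    exact corr_congr (a := own b y) (a' := own b y') v w (fun w hw => by unfold own; rw [h w hw])
  · intro n k hk hd
    exact tower_corr hα0 hα1 hA (S n) v w hk hd

/-! ### The law of the spins and the own magnetizations -/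

omit [IsProbabilityMeasure μ] in
lemma measurable_envmap (hA : ∀ w, IsChan lam α (Y w) (b w)) :
    Measurable (fun ω : (V → ℤˣ) × (V → E) => ((ω.1, fun w => b w (ω.2 w)) : Cfg V)) :=
  measurable_fst.prodMk ((measurable_own hA).comp measurable_snd)

lemma isProb_envM (hA : ∀ w, IsChan lam α (Y w) (b w)) : IsProbabilityMeasure (envM μ lam Y b) := by
  have := isProb_obsM (μ := μ) hA
  unfold envM
  exact Measure.isProbabilityMeasure_map (measurable_envmap hA).aemeasurable

lemma integral_envM_obs (hA : ∀ w, IsChan lam α (Y w) (b w)) {f : Cfg V → ℝ} (hf : Nice f) :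
    ∫ ω, f ω ∂(envM μ lam Y b) = ∫ ω, f (ω.1, own b ω.2) ∂(obsM μ lam Y) := by
  unfold envM
  rw [integral_map (measurable_envmap hA).aemeasurable hf.1.aestronglyMeasurable]
  rfl

/-- own magnetizations as a function of the spins and the noise -/
def ownX (Y : V → ℤˣ → Λ → E) (b : V → E → ℝ) (σ : V → ℤˣ) (x : V → Λ) : V → ℝ :=
  fun w => b w (Y w (σ w) (x w))

omit [IsProbabilityMeasure lam] in
lemma measurable_ownX (hA : ∀ w, IsChan lam α (Y w) (b w)) :
    Measurable (fun p : (V → ℤˣ) × (V → Λ) => ownX Y b p.1 p.2) := by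
  rw [measurable_pi_iff]
  intro w
  exact (hA w).measb.comp ((measurable_pi_apply w).comp
    (measurable_snd.comp (measurable_obsmap (fun w => (hA w).measY))))

/-- average over the noise -/
noncomputable def barF (lam : Measure Λ) (Y : V → ℤˣ → Λ → E) (b : V → E → ℝ) (F : Cfg V → ℝ)
    (σ : V → ℤˣ) : ℝ :=
  ∫ x, F (σ, ownX Y b σ x) ∂(Measure.infinitePi (fun _ : V => lam))

omit [IsProbabilityMeasure lam] in
lemma nice_ownX (hA : ∀ w, IsChan lam α (Y w) (b w)) {F : Cfg V → ℝ} (hF : Nice F) :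
    Nice (fun p : (V → ℤˣ) × (V → Λ) => F (p.1, ownX Y b p.1 p.2)) :=
  hF.comp (φ := fun p : (V → ℤˣ) × (V → Λ) => ((p.1, ownX Y b p.1 p.2) : Cfg V))
    (measurable_fst.prodMk (measurable_ownX hA))

lemma nice_barF (hA : ∀ w, IsChan lam α (Y w) (b w)) {F : Cfg V → ℝ} (hF : Nice F) :
    Nice (barF lam Y b F) :=
  (nice_ownX hA hF).integral_right (Measure.infinitePi (fun _ : V => lam))

lemma integral_envM (hA : ∀ w, IsChan lam α (Y w) (b w)) {F : Cfg V → ℝ} (hF : Nice F) :
    ∫ ω, F ω ∂(envM μ lam Y b) = ∫ σ, barF lam Y b F σ ∂μ := by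
  rw [integral_envM_obs hA hF]
  have h := integral_obsM (μ := μ) hA (f := fun ω => F (ω.1, own b ω.2))
    (hF.comp (φ := fun ω : (V → ℤˣ) × (V → E) => ((ω.1, own b ω.2) : Cfg V)) (measurable_envmap hA))
  rw [h]
  rfl

lemma barF_mul_spin (F : Cfg V → ℝ) (v : V) (σ : V → ℤˣ) :
    barF lam Y b (fun ω => F ω * spinVal (ω.1 v)) σ = barF lam Y b F σ * spinVal (σ v) := by
  unfold barF
  rw [← integral_mul_const]

lemma integral_split_set {A : Set V} {f g : (V → Λ) → ℝ} (hf : Nice f) (hg : Nice g)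
    (hfA : ∀ x x' : V → Λ, (∀ w ∈ A, x w = x' w) → f x = f x')
    (hgA : ∀ x x' : V → Λ, (∀ w ∉ A, x w = x' w) → g x = g x') :
    ∫ x, f x * g x ∂(Measure.infinitePi (fun _ : V => lam))
      = (∫ x, f x ∂(Measure.infinitePi (fun _ : V => lam)))
        * ∫ x, g x ∂(Measure.infinitePi (fun _ : V => lam)) := by
  classical
  rw [integral_mix (fun _ : V => lam) A (hf.mul hg)]
  have e : ∀ ξ ξ' : V → Λ, f (mix A ξ ξ') * g (mix A ξ ξ') = g ξ * f ξ' := by
    intro ξ ξ'
    rw [hfA (mix A ξ ξ') ξ' (fun w hw => by simp [mix, hw]),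
      hgA (mix A ξ ξ') ξ (fun w hw => by simp [mix, hw])]
    ring
  simp only [e, integral_const_mul, integral_mul_const]
  ring

lemma barF_mul_split (hA : ∀ w, IsChan lam α (Y w) (b w)) {A : Set V} {F H : Cfg V → ℝ}
    (hF : Nice F) (hH : Nice H) (σ : V → ℤˣ)
    (hFA : ∀ a a' : V → ℝ, (∀ w ∈ A, a w = a' w) → F (σ, a) = F (σ, a'))
    (hHA : ∀ a a' : V → ℝ, (∀ w ∉ A, a w = a' w) → H (σ, a) = H (σ, a')) :
    barF lam Y b (fun ω => F ω * H ω) σ = barF lam Y b F σ * barF lam Y b H σ := by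
  unfold barF
  apply integral_split_set (A := A) (f := fun x => F (σ, ownX Y b σ x))
    (g := fun x => H (σ, ownX Y b σ x))
  · exact (nice_ownX hA hF).comp measurable_prodMk_left
  · exact (nice_ownX hA hH).comp measurable_prodMk_left
  · intro x x' h
    apply hFA
    intro w hw
    unfold ownX
    rw [h w hw]
  · intro x x' h
    apply hHA
    intro w hw
    unfold ownX
    rw [h w hw]

lemma barF_dep {B : Set V} {F : Cfg V → ℝ} (hF : DepOn B F) (σ σ' : V → ℤˣ)
    (h : ∀ w ∈ B, σ w = σ' w) : barF lam Y b F σ = barF lam Y b F σ' := by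
  unfold barF
  congr 1
  ext x
  apply hF
  intro w hw
  refine ⟨h w hw, ?_⟩
  simp only [ownX]
  rw [h w hw]

/-- two finite measures with the same integrals of bounded measurable functions agree -/
lemma measure_ext_nice {Ω : Type*} [MeasurableSpace Ω] {P Q : Measure Ω} [IsFiniteMeasure P]
    [IsFiniteMeasure Q] (h : ∀ f : Ω → ℝ, Nice f → ∫ ω, f ω ∂P = ∫ ω, f ω ∂Q) : P = Q := by
  ext s hs
  have h1 := h (s.indicator 1) ⟨measurable_one.indicator hs, 1, fun ω => by
    by_cases hω : ω ∈ s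
    · simp [Set.indicator_of_mem hω]
    · simp [Set.indicator_of_notMem hω]⟩
  rw [integral_indicator_one hs, integral_indicator_one hs] at h1
  exact (measureReal_eq_measureReal_iff).mp h1

lemma flip_law (hA : ∀ w, IsChan lam α (Y w) (b w)) (σ : V → ℤˣ) {f : (V → ℝ) → ℝ} (hf : Nice f) :
    ∫ x, f (fun w => - ownX Y b (fun v => - σ v) x w) ∂(Measure.infinitePi (fun _ : V => lam))
      = ∫ x, f (ownX Y b σ x) ∂(Measure.infinitePi (fun _ : V => lam)) := by
  have m1 : ∀ w, Measurable (fun x : Λ => b w (Y w (σ w) x)) :=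
    fun w => (hA w).measb.comp ((hA w).measY _)
  have m2 : ∀ w, Measurable (fun x : Λ => - b w (Y w (- σ w) x)) :=
    fun w => ((hA w).measb.comp ((hA w).measY _)).neg
  have l1 := Measure.infinitePi_map_pi (fun _ : V => lam) m1
  have l2 := Measure.infinitePi_map_pi (fun _ : V => lam) m2
  have hlaw : ∀ w, lam.map (fun x : Λ => b w (Y w (σ w) x))
      = lam.map (fun x : Λ => - b w (Y w (- σ w) x)) := by
    intro w
    have i1 := Measure.isProbabilityMeasure_map (μ := lam) (m1 w).aemeasurable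
    have i2 := Measure.isProbabilityMeasure_map (μ := lam) (m2 w).aemeasurable
    apply measure_ext_nice
    intro g hg
    rw [integral_map (m1 w).aemeasurable hg.1.aestronglyMeasurable,
      integral_map (m2 w).aemeasurable hg.1.aestronglyMeasurable]
    exact (hA w).flip g hg (σ w)
  simp only [hlaw] at l1
  rw [← l2] at l1
  have M1 : Measurable (fun (x : V → Λ) (w : V) => b w (Y w (σ w) (x w))) :=
    measurable_pi_iff.mpr (fun w => (m1 w).comp (measurable_pi_apply w))
  have M2 : Measurable (fun (x : V → Λ) (w : V) => - b w (Y w (- σ w) (x w))) :=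
    measurable_pi_iff.mpr (fun w => (m2 w).comp (measurable_pi_apply w))
  have e1 : ∫ x, f (ownX Y b σ x) ∂(Measure.infinitePi (fun _ : V => lam))
      = ∫ a, f a ∂((Measure.infinitePi (fun _ : V => lam)).map
        (fun x w => b w (Y w (σ w) (x w)))) := by
    rw [integral_map M1.aemeasurable hf.1.aestronglyMeasurable]
    rfl
  have e2 : ∫ x, f (fun w => - ownX Y b (fun v => - σ v) x w)
        ∂(Measure.infinitePi (fun _ : V => lam))
      = ∫ a, f a ∂((Measure.infinitePi (fun _ : V => lam)).map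
        (fun x w => - b w (Y w (- σ w) (x w)))) := by
    rw [integral_map M2.aemeasurable hf.1.aestronglyMeasurable]
    rfl
  rw [e1, e2, l1]

lemma measurable_neg_units : Measurable (fun σ : V → ℤˣ => fun v => - σ v) := by
  rw [measurable_pi_iff]
  intro v
  exact (measurable_of_finite (fun s : ℤˣ => -s)).comp (measurable_pi_apply v)

lemma measurable_neg_cfg :
    Measurable (fun ω : Cfg V => ((fun v => - ω.1 v, fun v => - ω.2 v) : Cfg V)) := by
  refine (measurable_neg_units.comp measurable_fst).prodMk ?_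
  rw [measurable_pi_iff]
  intro v
  exact ((measurable_pi_apply v).comp measurable_snd).neg

lemma env_flip (hA : ∀ w, IsChan lam α (Y w) (b w))
    (hflip : μ.map (fun σ : V → ℤˣ => fun v => - σ v) = μ) :
    (envM μ lam Y b).map (fun ω : Cfg V => ((fun v => - ω.1 v, fun v => - ω.2 v) : Cfg V))
      = envM μ lam Y b := by
  have := isProb_envM (μ := μ) hA
  have := Measure.isProbabilityMeasure_map (μ := envM μ lam Y b)
    (measurable_neg_cfg (V := V)).aemeasurable
  apply measure_ext_nice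
  intro f hf
  rw [integral_map measurable_neg_cfg.aemeasurable hf.1.aestronglyMeasurable,
    integral_envM hA (hf.comp measurable_neg_cfg), integral_envM hA hf]
  have e : ∫ σ, barF lam Y b (fun ω => f ((fun v => - ω.1 v, fun v => - ω.2 v) : Cfg V)) σ ∂μ
      = ∫ σ, barF lam Y b (fun ω => f ((fun v => - ω.1 v, fun v => - ω.2 v) : Cfg V)) σ
          ∂(μ.map (fun σ : V → ℤˣ => fun v => - σ v)) := by rw [hflip]
  rw [e, integral_map measurable_neg_units.aemeasurable
    (nice_barF hA (hf.comp measurable_neg_cfg)).1.aestronglyMeasurable]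
  congr 1
  ext σ
  unfold barF
  simp only [neg_neg]
  exact flip_law hA σ (f := fun a => f (σ, a)) (hf.comp measurable_prodMk_left)

omit [IsProbabilityMeasure μ] in
lemma mean_zero (hflip : μ.map (fun σ : V → ℤˣ => fun v => - σ v) = μ) (c : V) :
    ∫ σ, spinVal (σ c) ∂μ = 0 := by
  have h1 : ∫ σ, spinVal (σ c) ∂μ
      = ∫ σ, spinVal (σ c) ∂(μ.map (fun σ : V → ℤˣ => fun v => - σ v)) := by rw [hflip]
  rw [integral_map measurable_neg_units.aemeasurable (nice_spin c).1.aestronglyMeasurable] at h1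
  simp only [spinVal_neg', integral_neg] at h1
  linarith

lemma env_markov (hA : ∀ w, IsChan lam α (Y w) (b w)) (hμ : EdgeFactor G θ μ)
    {c p : V} (h : G.Adj c p) {F H : Cfg V → ℝ} (hF : Nice F) (hH : Nice H)
    (hFd : DepOn (br G c p) F) (hHd : DepOn (br G p c) H) :
    ∫ ω, F ω * H ω ∂(envM μ lam Y b)
      = (∫ ω, F ω ∂(envM μ lam Y b)) * (∫ ω, H ω ∂(envM μ lam Y b))
      + θ * (∫ ω, F ω * spinVal (ω.1 c) ∂(envM μ lam Y b))
        * (∫ ω, H ω * spinVal (ω.1 p) ∂(envM μ lam Y b)) := by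
  have nsc : Nice (fun ω : Cfg V => spinVal (ω.1 c)) := (nice_spin c).comp measurable_fst
  have nsp : Nice (fun ω : Cfg V => spinVal (ω.1 p)) := (nice_spin p).comp measurable_fst
  rw [integral_envM hA (hF.mul hH), integral_envM hA hF, integral_envM hA hH,
    integral_envM hA (hF.mul nsc), integral_envM hA (hH.mul nsp)]
  simp only [barF_mul_spin]
  have e : ∀ σ, barF lam Y b (fun ω => F ω * H ω) σ = barF lam Y b F σ * barF lam Y b H σ :=
    fun σ => barF_mul_split hA (A := br G c p) hF hH σ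
      (fun a a' haa => hFd _ _ (fun w hw => ⟨rfl, haa w hw⟩))
      (fun a a' haa => hHd _ _ (fun w hw => ⟨rfl, haa w (fun hw' => by
        have h1 : G.dist w c < G.dist w p := hw'
        have h2 : G.dist w p < G.dist w c := hw
        omega)⟩))
  simp only [e]
  exact hμ c p h _ _ (nice_barF hA hF) (nice_barF hA hH)
    (fun σ σ' hh => barF_dep hFd σ σ' hh) (fun σ σ' hh => barF_dep hHd σ σ' hh)

lemma barF_single (hA : ∀ w, IsChan lam α (Y w) (b w)) (v : V) {F : ℝ → ℝ} (hF : Nice F)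
    (σ : V → ℤˣ) :
    barF lam Y b (fun ω => F (ω.2 v)) σ = ∫ x, F (b v (Y v (σ v) x)) ∂lam := by
  unfold barF ownX
  have h1 := Measure.infinitePi_map_eval (fun _ : V => lam) v
  have nf : Nice (fun x : Λ => F (b v (Y v (σ v) x))) :=
    hF.comp ((hA v).measb.comp ((hA v).measY _))
  have h2 : ∫ x, F (b v (Y v (σ v) x)) ∂lam
      = ∫ x, F (b v (Y v (σ v) x)) ∂((Measure.infinitePi (fun _ : V => lam)).map
        (fun x : V → Λ => x v)) := by rw [h1]
  rw [h2, integral_map (measurable_pi_apply v).aemeasurable nf.1.aestronglyMeasurable]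

lemma env_single (hA : ∀ w, IsChan lam α (Y w) (b w))
    (hflip : μ.map (fun σ : V → ℤˣ => fun v => - σ v) = μ) (v : V) {F : ℝ → ℝ} (hF : Nice F) :
    ∫ ω, F (ω.2 v) ∂(envM μ lam Y b)
      = (∫ x, F (b v (Y v 1 x)) ∂lam + ∫ x, F (b v (Y v (-1) x)) ∂lam) / 2 ∧
    ∫ ω, F (ω.2 v) * spinVal (ω.1 v) ∂(envM μ lam Y b)
      = (∫ x, F (b v (Y v 1 x)) ∂lam - ∫ x, F (b v (Y v (-1) x)) ∂lam) / 2 := by
  have nF : Nice (fun ω : Cfg V => F (ω.2 v)) :=
    hF.comp ((measurable_pi_apply v).comp measurable_snd)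
  have nsc : Nice (fun ω : Cfg V => spinVal (ω.1 v)) := (nice_spin v).comp measurable_fst
  have hlin : ∀ s : ℤˣ, ∫ x, F (b v (Y v s x)) ∂lam
      = (∫ x, F (b v (Y v 1 x)) ∂lam + ∫ x, F (b v (Y v (-1) x)) ∂lam) / 2
        + (∫ x, F (b v (Y v 1 x)) ∂lam - ∫ x, F (b v (Y v (-1) x)) ∂lam) / 2 * spinVal s := by
    intro s
    rcases Int.units_eq_one_or s with hs | hs
    · rw [hs, spinVal_one']; ring
    · rw [hs, spinVal_neg_one']; ring
  set f0 := (∫ x, F (b v (Y v 1 x)) ∂lam + ∫ x, F (b v (Y v (-1) x)) ∂lam) / 2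
  set f1 := (∫ x, F (b v (Y v 1 x)) ∂lam - ∫ x, F (b v (Y v (-1) x)) ∂lam) / 2
  rw [integral_envM hA nF, integral_envM hA (nF.mul nsc)]
  simp only [barF_mul_spin, barF_single hA v hF, hlin]
  constructor
  · rw [(Nice.const f0).integral_add' ((Nice.const f1).mul (nice_spin v)), integral_const_mul,
      mean_zero hflip v]
    simp
  · have e : ∀ σ : V → ℤˣ, (f0 + f1 * spinVal (σ v)) * spinVal (σ v)
        = f0 * spinVal (σ v) + f1 := by
      intro σ
      linear_combination f1 * spinVal_mul_self (σ v)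
    simp only [e]
    rw [((Nice.const f0).mul (nice_spin v)).integral_add' (Nice.const f1), integral_const_mul,
      mean_zero hflip v]
    simp

lemma env_own (hA : ∀ w, IsChan lam α (Y w) (b w))
    (hflip : μ.map (fun σ : V → ℤˣ => fun v => - σ v) = μ) (v : V) {F : ℝ → ℝ} {H : Cfg V → ℝ}
    (hF : Nice F) (hH : Nice H)
    (hHd : ∀ (σ : V → ℤˣ) (a a' : V → ℝ), (∀ w, w ≠ v → a w = a' w) → H (σ, a) = H (σ, a')) :
    ∫ ω, F (ω.2 v) * H ω ∂(envM μ lam Y b)
      = (∫ ω, F (ω.2 v) ∂(envM μ lam Y b)) * (∫ ω, H ω ∂(envM μ lam Y b))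
      + (∫ ω, F (ω.2 v) * spinVal (ω.1 v) ∂(envM μ lam Y b))
        * (∫ ω, H ω * spinVal (ω.1 v) ∂(envM μ lam Y b)) := by
  have nF : Nice (fun ω : Cfg V => F (ω.2 v)) :=
    hF.comp ((measurable_pi_apply v).comp measurable_snd)
  have nsc : Nice (fun ω : Cfg V => spinVal (ω.1 v)) := (nice_spin v).comp measurable_fst
  obtain ⟨s1, s2⟩ := env_single (μ := μ) hA hflip v hF
  rw [s1, s2]
  have hlin : ∀ s : ℤˣ, ∫ x, F (b v (Y v s x)) ∂lam
      = (∫ x, F (b v (Y v 1 x)) ∂lam + ∫ x, F (b v (Y v (-1) x)) ∂lam) / 2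
        + (∫ x, F (b v (Y v 1 x)) ∂lam - ∫ x, F (b v (Y v (-1) x)) ∂lam) / 2 * spinVal s := by
    intro s
    rcases Int.units_eq_one_or s with hs | hs
    · rw [hs, spinVal_one']; ring
    · rw [hs, spinVal_neg_one']; ring
  set f0 := (∫ x, F (b v (Y v 1 x)) ∂lam + ∫ x, F (b v (Y v (-1) x)) ∂lam) / 2
  set f1 := (∫ x, F (b v (Y v 1 x)) ∂lam - ∫ x, F (b v (Y v (-1) x)) ∂lam) / 2
  rw [integral_envM hA (nF.mul hH), integral_envM hA hH, integral_envM hA (hH.mul nsc)]
  have e : ∀ σ, barF lam Y b (fun ω => F (ω.2 v) * H ω) σ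
      = f0 * barF lam Y b H σ + f1 * (barF lam Y b H σ * spinVal (σ v)) := by
    intro σ
    rw [barF_mul_split hA (A := {v}) nF hH σ
      (fun a a' haa => by
        change F (a v) = F (a' v)
        rw [haa v rfl])
      (fun a a' haa => hHd σ a a' (fun w hw => haa w hw)),
      barF_single hA v hF, hlin]
    ring
  simp only [e, barF_mul_spin]
  have nb := nice_barF (b := b) hA hH
  rw [((Nice.const f0).mul nb).integral_add' ((Nice.const f1).mul (nb.mul (nice_spin v))),
    integral_const_mul, integral_const_mul]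

variable [Countable V]

/-- almost sure convergence of the posterior magnetizations along any increasing sequence of
finite sets (Levy upward: `post μ α v (S n)` is a version of the conditional expectation of `σ_v`
given the outputs on `S n`, by `tower_post`; use `MeasureTheory.tendsto_ae_condExp`). -/
lemma ae_tendsto_post (hα0 : 0 ≤ α) (hα1 : α < 1) (hA : ∀ w, IsChan lam α (Y w) (b w))
    {S : ℕ → Finset V} (hS : Monotone S) (v : V) :
    ∀ᵐ ω ∂(obsM μ lam Y), ∃ l, Tendsto (fun n => post μ α v (S n) (own b ω.2)) atTop (𝓝 l) := by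
  filter_upwards [post_levy (μ := μ) hα0 hα1 hA hS v] with ω h
  exact ⟨_, h⟩

lemma ae_tendsto_corr (hα0 : 0 ≤ α) (hα1 : α < 1) (hA : ∀ w, IsChan lam α (Y w) (b w))
    {S : ℕ → Finset V} (hS : Monotone S) (v w : V) :
    ∀ᵐ ω ∂(obsM μ lam Y), ∃ l, Tendsto (fun n => corr μ α v w (S n) (own b ω.2)) atTop (𝓝 l) := by
  filter_upwards [corr_levy (μ := μ) hα0 hα1 hA hS v w] with ω h
  exact ⟨_, h⟩

/-- independence of the exhaustion: if the increasing sequences `S`, `S'` of finite sets have the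
same union, the two limits agree almost surely (both are the conditional expectation given the
outputs on the union) -/
lemma ae_limit_eq (hα0 : 0 ≤ α) (hα1 : α < 1) (hA : ∀ w, IsChan lam α (Y w) (b w))
    {S S' : ℕ → Finset V} (hS : Monotone S) (hS' : Monotone S')
    (hU : ∀ w, (∃ n, w ∈ S n) ↔ ∃ n, w ∈ S' n) (v : V) :
    ∀ᵐ ω ∂(obsM μ lam Y), ∀ l, Tendsto (fun n => post μ α v (S n) (own b ω.2)) atTop (𝓝 l) →
      Tendsto (fun n => post μ α v (S' n) (own b ω.2)) atTop (𝓝 l) := by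
  have hUU : (⋃ n, (S n : Set V)) = ⋃ n, (S' n : Set V) := by
    ext w
    simp only [Set.mem_iUnion, Finset.mem_coe]
    exact hU w
  have h2 := post_levy (μ := μ) hα0 hα1 hA hS' v
  rw [← hUU] at h2
  filter_upwards [post_levy (μ := μ) hα0 hα1 hA hS v, h2] with ω h h' l hl
  rw [tendsto_nhds_unique hl h]
  exact h'

/-- infinite-volume tower property -/
lemma tower_postI (hα0 : 0 ≤ α) (hα1 : α < 1) (hA : ∀ w, IsChan lam α (Y w) (b w))
    (hT : Monotone T) (hTu : ∀ v, ∃ n, v ∈ T n) (v : V) {k : (V → E) → ℝ} (hk : Nice k) :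
    ∫ ω, k ω.2 * spinVal (ω.1 v) ∂(obsM μ lam Y)
      = ∫ ω, k ω.2 * postI μ α T v (own b ω.2) ∂(obsM μ lam Y) := by
  have hP := isProb_obsM (μ := μ) hA
  have nX : Nice (fun ω : (V → ℤˣ) × (V → E) => spinVal (ω.1 v)) :=
    (nice_spin v).comp measurable_fst
  rw [condE_pull (P := obsM μ lam Y) (⋃ n, (T n : Set V)) nX hk (fun y y' h => by
    congr 1
    ext w
    obtain ⟨n, hn⟩ := hTu w
    exact h w (Set.mem_iUnion.mpr ⟨n, hn⟩))]
  apply integral_congr_ae
  filter_upwards [post_levy (μ := μ) hα0 hα1 hA hT v] with ω h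
  have : postI μ α T v (own b ω.2) = _ := limOr0_eq h
  rw [this]

lemma ae_envM (hA : ∀ w, IsChan lam α (Y w) (b w)) {p : Cfg V → Prop}
    (hp : MeasurableSet {ω | p ω}) (h : ∀ᵐ ω ∂(obsM μ lam Y), p (ω.1, own b ω.2)) :
    ∀ᵐ ω ∂(envM μ lam Y b), p ω := by
  unfold envM
  exact (ae_map_iff (measurable_envmap hA).aemeasurable hp).mpr h

lemma env_own_bound (hA : ∀ w, IsChan lam α (Y w) (b w)) :
    ∀ᵐ ω ∂(envM μ lam Y b), ∀ v, |ω.2 v| ≤ α := by
  apply ae_envM hA
  · have : {ω : Cfg V | ∀ v, |ω.2 v| ≤ α} = ⋂ v, {ω : Cfg V | |ω.2 v| ≤ α} := by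
      ext ω
      simp
    rw [this]
    exact MeasurableSet.iInter (fun v => measurableSet_le
      (((measurable_pi_apply v).comp measurable_snd).abs) measurable_const)
  · exact Filter.Eventually.of_forall (fun ω v => (hA v).bound _)

lemma env_tower_own (hα0 : 0 ≤ α) (hA : ∀ w, IsChan lam α (Y w) (b w))
    (hflip : μ.map (fun σ : V → ℤˣ => fun v => - σ v) = μ) (v : V) {F : ℝ → ℝ} (hF : Nice F) :
    ∫ ω, F (ω.2 v) * spinVal (ω.1 v) ∂(envM μ lam Y b)
      = ∫ ω, F (ω.2 v) * ω.2 v ∂(envM μ lam Y b) := by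
  have hF2 : Nice (fun x : ℝ => F x * clip α x) :=
    hF.mul ⟨measurable_clip α, α, fun x => abs_clip_le hα0 x⟩
  have e1 : ∫ ω, F (ω.2 v) * ω.2 v ∂(envM μ lam Y b)
      = ∫ ω, F (ω.2 v) * clip α (ω.2 v) ∂(envM μ lam Y b) := by
    apply integral_congr_ae
    filter_upwards [env_own_bound (μ := μ) hA] with ω hω
    rw [clip_of_abs_le (hω v)]
  rw [e1, (env_single (μ := μ) hA hflip v hF).2,
    (env_single (μ := μ) hA hflip v hF2).1]
  have hb := (hA v).bayes (fun y => F (b v y)) (hF.comp (hA v).measb)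
  rw [hb]
  congr 2
  · congr 1
    ext x
    rw [clip_of_abs_le ((hA v).bound _)]
  · congr 1
    ext x
    rw [clip_of_abs_le ((hA v).bound _)]

omit [IsProbabilityMeasure μ] [Countable V] in
lemma inBr_mono {F F' : Finset V} (h : F ⊆ F') (c p : V) : inBr G c p F ⊆ inBr G c p F' := by
  intro w hw
  rw [mem_inBr] at hw ⊢
  exact ⟨h hw.1, hw.2⟩

omit [Countable V] in
/-- almost sure convergence of all cavity magnetizations -/
lemma cav_tendsto_one (hα0 : 0 ≤ α) (hα1 : α < 1) (hA : ∀ w, IsChan lam α (Y w) (b w))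
    (hT : Monotone T) (c p : V) :
    ∀ᵐ ω ∂(obsM μ lam Y), Tendsto (fun n => cavF G μ α (T n) (own b ω.2) c p) atTop
      (𝓝 (cavI G μ α T c p (own b ω.2))) ∧
      cavI G μ α T c p (own b ω.2)
        = ((obsM μ lam Y)[(fun ω : (V → ℤˣ) × (V → E) => spinVal (ω.1 c)) |
          sgB V E (⋃ n, (inBr G c p (T n) : Set V))]) ω := by
  have hS : Monotone (fun n => inBr G c p (T n)) := fun i j hij => inBr_mono (hT hij) c p
  filter_upwards [post_levy (μ := μ) hα0 hα1 hA hS c] with ω hω
  have h1 : cavI G μ α T c p (own b ω.2) = _ := limOr0_eq hω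
  refine ⟨?_, h1⟩
  rw [h1]
  exact hω

lemma cav_tendsto_all (hα0 : 0 ≤ α) (hα1 : α < 1) (hA : ∀ w, IsChan lam α (Y w) (b w))
    (hT : Monotone T) :
    ∀ᵐ ω ∂(obsM μ lam Y), ∀ c p, Tendsto (fun n => cavF G μ α (T n) (own b ω.2) c p) atTop
      (𝓝 (cavI G μ α T c p (own b ω.2))) := by
  rw [ae_all_iff]
  intro c
  rw [ae_all_iff]
  intro p
  filter_upwards [cav_tendsto_one (G := G) (μ := μ) hα0 hα1 hA hT c p] with ω hω
  exact hω.1

omit [Countable V] in
lemma measurable_cavI (c p : V) : Measurable (cavI G μ α T c p) :=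
  measurable_limOr0 (fun n => measurable_post c (inBr G c p (T n)))

omit [Countable V] in
lemma abs_limOr0_le {s : ℕ → ℝ} {B : ℝ} (hB : 0 ≤ B) (h : ∀ n, |s n| ≤ B) : |limOr0 s| ≤ B := by
  by_cases hl : ∃ l, Tendsto s atTop (𝓝 l)
  · exact le_of_tendsto' (limOr0_tendsto hl).abs h
  · rw [limOr0_of_not hl]
    simpa using hB

omit [Countable V] in
lemma limOr0_neg (s : ℕ → ℝ) : limOr0 (fun n => - s n) = - limOr0 s := by
  by_cases hl : ∃ l, Tendsto s atTop (𝓝 l)
  · exact limOr0_eq (limOr0_tendsto hl).neg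
  · rw [limOr0_of_not hl, limOr0_of_not, neg_zero]
    rintro ⟨l, hl'⟩
    apply hl
    refine ⟨-l, ?_⟩
    have := hl'.neg
    simpa using this

omit [Countable V] in
lemma nice_cavI (hα0 : 0 ≤ α) (hα1 : α < 1) (c p : V) : Nice (cavI G μ α T c p) :=
  ⟨measurable_cavI c p, 1, fun a => abs_limOr0_le zero_le_one
    (fun n => abs_post_le hα0 hα1 c _ a)⟩

omit [Countable V] in
lemma env_tower (hα0 : 0 ≤ α) (hα1 : α < 1) (hA : ∀ w, IsChan lam α (Y w) (b w))
    (hT : Monotone T) (hTu : ∀ v, ∃ n, v ∈ T n) (c p : V) {F : (V → ℝ) → ℝ} (hF : Nice F)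
    (hFd : ObsDepOn (br G c p) F) :
    ∫ ω, F ω.2 * spinVal (ω.1 c) ∂(envM μ lam Y b)
      = ∫ ω, F ω.2 * cavI G μ α T c p ω.2 ∂(envM μ lam Y b) := by
  have hP := isProb_obsM (μ := μ) hA
  have nF : Nice (fun ω : Cfg V => F ω.2) := hF.comp measurable_snd
  have nsc : Nice (fun ω : Cfg V => spinVal (ω.1 c)) := (nice_spin c).comp measurable_fst
  have ncav : Nice (fun ω : Cfg V => cavI G μ α T c p ω.2) :=
    (nice_cavI hα0 hα1 c p).comp measurable_snd
  rw [integral_envM_obs hA (nF.mul nsc), integral_envM_obs hA (nF.mul ncav)]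
  have nk : Nice (fun y : V → E => F (own b y)) := hF.comp (measurable_own hA)
  have hk := condE_pull (P := obsM μ lam Y) (⋃ n, (inBr G c p (T n) : Set V))
    (X := fun ω : (V → ℤˣ) × (V → E) => spinVal (ω.1 c)) ((nice_spin c).comp measurable_fst) nk
    (fun y y' h => by
      apply hFd
      intro w hw
      obtain ⟨n, hn⟩ := hTu w
      unfold own
      rw [h w (Set.mem_iUnion.mpr ⟨n, Finset.mem_coe.mpr (mem_inBr.mpr ⟨hn, hw⟩)⟩)])
  change ∫ ω, F (own b ω.2) * spinVal (ω.1 c) ∂(obsM μ lam Y)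
    = ∫ ω, F (own b ω.2) * cavI G μ α T c p (own b ω.2) ∂(obsM μ lam Y)
  rw [hk]
  apply integral_congr_ae
  filter_upwards [cav_tendsto_one (G := G) (μ := μ) hα0 hα1 hA hT c p] with ω hω
  rw [hω.2]

variable [LocallyFinite G] [DecidableEq V]

lemma env_recur (hα0 : 0 ≤ α) (hα1 : α < 1) (hG : G.IsTree) (hθ0 : 0 ≤ θ) (hθ1 : θ < 1)
    (hflip : μ.map (fun σ : V → ℤˣ => fun v => - σ v) = μ) (hμ : EdgeFactor G θ μ)
    (hA : ∀ w, IsChan lam α (Y w) (b w)) (hT : Monotone T) (hTu : ∀ v, ∃ n, v ∈ T n) :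
    ∀ᵐ ω ∂(envM μ lam Y b), ∀ c p, G.Adj c p →
    cavI G μ α T c p ω.2 *
      ((1 + ω.2 c) * ∏ g ∈ (G.neighborFinset c).erase p, (1 + θ * cavI G μ α T g c ω.2)
        + (1 - ω.2 c) * ∏ g ∈ (G.neighborFinset c).erase p, (1 - θ * cavI G μ α T g c ω.2))
      = (1 + ω.2 c) * ∏ g ∈ (G.neighborFinset c).erase p, (1 + θ * cavI G μ α T g c ω.2)
        - (1 - ω.2 c) * ∏ g ∈ (G.neighborFinset c).erase p, (1 - θ * cavI G μ α T g c ω.2) := by
  apply ae_envM hA
  · have mc : ∀ c p, Measurable (fun ω : Cfg V => cavI G μ α T c p ω.2) :=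
      fun c p => (measurable_cavI c p).comp measurable_snd
    have ma : ∀ c, Measurable (fun ω : Cfg V => ω.2 c) :=
      fun c => (measurable_pi_apply c).comp measurable_snd
    have mp1 : ∀ c p, Measurable (fun ω : Cfg V =>
        ∏ g ∈ (G.neighborFinset c).erase p, (1 + θ * cavI G μ α T g c ω.2)) :=
      fun c p => Finset.measurable_fun_prod _ (fun g _ => ((mc g c).const_mul θ).const_add 1)
    have mp2 : ∀ c p, Measurable (fun ω : Cfg V =>
        ∏ g ∈ (G.neighborFinset c).erase p, (1 - θ * cavI G μ α T g c ω.2)) :=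
      fun c p => Finset.measurable_fun_prod _ (fun g _ => ((mc g c).const_mul θ).const_sub 1)
    have hset : ∀ c p, MeasurableSet {ω : Cfg V | G.Adj c p → cavI G μ α T c p ω.2 *
      ((1 + ω.2 c) * ∏ g ∈ (G.neighborFinset c).erase p, (1 + θ * cavI G μ α T g c ω.2)
        + (1 - ω.2 c) * ∏ g ∈ (G.neighborFinset c).erase p, (1 - θ * cavI G μ α T g c ω.2))
      = (1 + ω.2 c) * ∏ g ∈ (G.neighborFinset c).erase p, (1 + θ * cavI G μ α T g c ω.2)
        - (1 - ω.2 c) * ∏ g ∈ (G.neighborFinset c).erase p,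
          (1 - θ * cavI G μ α T g c ω.2)} := by
      intro c p
      by_cases h : G.Adj c p
      · simp only [h, true_imp_iff]
        apply measurableSet_eq_fun
        · exact (mc c p).mul ((((ma c).const_add 1).mul (mp1 c p)).add
            (((ma c).const_sub 1).mul (mp2 c p)))
        · exact (((ma c).const_add 1).mul (mp1 c p)).sub (((ma c).const_sub 1).mul (mp2 c p))
      · simp only [h, false_imp_iff]
        exact MeasurableSet.univ
    simp only [Set.setOf_forall]
    exact MeasurableSet.iInter (fun c => MeasurableSet.iInter (fun p => by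
      have := hset c p
      simpa only [Set.setOf_forall] using this))
  · filter_upwards [cav_tendsto_all (G := G) (μ := μ) hα0 hα1 hA hT] with ω hω c p hcp
    obtain ⟨N, hN⟩ := hTu c
    have hrec : ∀ᶠ n in atTop, cavF G μ α (T n) (own b ω.2) c p *
        ((1 + own b ω.2 c) * ∏ g ∈ (G.neighborFinset c).erase p,
            (1 + θ * cavF G μ α (T n) (own b ω.2) g c)
          + (1 - own b ω.2 c) * ∏ g ∈ (G.neighborFinset c).erase p,
            (1 - θ * cavF G μ α (T n) (own b ω.2) g c))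
        = (1 + own b ω.2 c) * ∏ g ∈ (G.neighborFinset c).erase p,
            (1 + θ * cavF G μ α (T n) (own b ω.2) g c)
          - (1 - own b ω.2 c) * ∏ g ∈ (G.neighborFinset c).erase p,
            (1 - θ * cavF G μ α (T n) (own b ω.2) g c) := by
      rw [eventually_atTop]
      refine ⟨N, fun n hn => ?_⟩
      have := cavF_recur (μ := μ) hα0 hα1 hG hθ0 hθ1 hflip hμ hcp (T n) (own b ω.2) (hT hn hN)
      rwa [clip_of_abs_le (show |own b ω.2 c| ≤ α from (hA c).bound _)] at this
    have P1 : Tendsto (fun n => ∏ g ∈ (G.neighborFinset c).erase p,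
        (1 + θ * cavF G μ α (T n) (own b ω.2) g c)) atTop
        (𝓝 (∏ g ∈ (G.neighborFinset c).erase p, (1 + θ * cavI G μ α T g c (own b ω.2)))) :=
      tendsto_finsetProd _ (fun g _ => ((hω g c).const_mul θ).const_add 1)
    have P2 : Tendsto (fun n => ∏ g ∈ (G.neighborFinset c).erase p,
        (1 - θ * cavF G μ α (T n) (own b ω.2) g c)) atTop
        (𝓝 (∏ g ∈ (G.neighborFinset c).erase p, (1 - θ * cavI G μ α T g c (own b ω.2)))) :=
      tendsto_finsetProd _ (fun g _ => ((hω g c).const_mul θ).const_sub 1)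
    exact tendsto_nhds_unique_of_eventuallyEq
      ((hω c p).mul ((P1.const_mul (1 + own b ω.2 c)).add (P2.const_mul (1 - own b ω.2 c))))
      ((P1.const_mul (1 + own b ω.2 c)).sub (P2.const_mul (1 - own b ω.2 c))) hrec

/-- the environment of the channels is a cavity environment -/
theorem cavEnv0_of_chan (hα0 : 0 ≤ α) (hα1 : α < 1) (hG : G.IsTree) (hθ0 : 0 ≤ θ) (hθ1 : θ < 1)
    (hflip : μ.map (fun σ : V → ℤˣ => fun v => - σ v) = μ) (hμ : EdgeFactor G θ μ)
    (hA : ∀ w, IsChan lam α (Y w) (b w)) (hT : Monotone T) (hTu : ∀ v, ∃ n, v ∈ T n) :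
    CavEnv0 G θ α (envM μ lam Y b) (cavI G μ α T) := by
  refine
    { prob := isProb_envM hA
      flip := env_flip hA hflip
      own_bound := env_own_bound hA
      meas := fun c p => measurable_cavI c p
      bound := fun c p a => abs_limOr0_le zero_le_one (fun n => abs_post_le hα0 hα1 c _ a)
      odd := ?_
      dep := ?_
      markov := fun c p h F H hF hH hFd hHd => env_markov hA hμ h hF hH hFd hHd
      tower := fun c p _ F hF hFd => env_tower hα0 hα1 hA hT hTu c p hF hFd
      own := fun v F H hF hH hHd => env_own hA hflip v hF hH hHd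
      tower_own := fun v F hF => env_tower_own hα0 hA hflip v hF
      recur := env_recur hα0 hα1 hG hθ0 hθ1 hflip hμ hA hT hTu }
  · intro c p a
    unfold cavI
    rw [← limOr0_neg]
    congr 1
    ext n
    exact post_neg hα0 hflip c _ a
  · intro c p a a' h
    unfold cavI
    congr 1
    ext n
    exact post_congr c (fun w hw => h w (mem_inBr.mp hw).2)

omit [Countable V] [LocallyFinite G] [DecidableEq V] in
lemma post_relabel (g : G ≃g G) (hinv : μ.map (fun σ : V → ℤˣ => fun v => σ (g v)) = μ)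
    (c : V) (F : Finset V) (a : V → ℝ) :
    post μ α c F (fun v => a (g v)) = post μ α (g c) (F.map g.toEquiv.toEmbedding) a := by
  have mg : Measurable (fun (σ : V → ℤˣ) (v : V) => σ (g v)) :=
    measurable_pi_iff.mpr (fun v => measurable_pi_apply _)
  have e : ∀ σ : V → ℤˣ, wgt α F (fun v => a (g v)) (fun v => σ (g v))
      = wgt α (F.map g.toEquiv.toEmbedding) a σ := by
    intro σ
    unfold wgt
    rw [Finset.prod_map]
    rfl
  have e1 : ∫ σ, wgt α F (fun v => a (g v)) σ * spinVal (σ c) ∂μ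
      = ∫ σ, wgt α (F.map g.toEquiv.toEmbedding) a σ * spinVal (σ (g c)) ∂μ := by
    have h1 : ∫ σ, wgt α F (fun v => a (g v)) σ * spinVal (σ c) ∂μ
        = ∫ σ, wgt α F (fun v => a (g v)) σ * spinVal (σ c)
            ∂(μ.map (fun (σ : V → ℤˣ) (v : V) => σ (g v))) := by rw [hinv]
    rw [h1, integral_map mg.aemeasurable
      ((nice_wgt F _).mul (nice_spin c)).1.aestronglyMeasurable]
    simp only [e]
  have e2 : ∫ σ, wgt α F (fun v => a (g v)) σ ∂μ
      = ∫ σ, wgt α (F.map g.toEquiv.toEmbedding) a σ ∂μ := by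
    have h1 : ∫ σ, wgt α F (fun v => a (g v)) σ ∂μ
        = ∫ σ, wgt α F (fun v => a (g v)) σ
            ∂(μ.map (fun (σ : V → ℤˣ) (v : V) => σ (g v))) := by rw [hinv]
    rw [h1, integral_map mg.aemeasurable (nice_wgt F _).1.aestronglyMeasurable]
    simp only [e]
  unfold post Zp
  rw [e1, e2]

omit [Countable V] [LocallyFinite G] [DecidableEq V] in
lemma env_inv (g : G ≃g G) (hinv : μ.map (fun σ : V → ℤˣ => fun v => σ (g v)) = μ)
    {Y₀ : ℤˣ → Λ → E} {b₀ : E → ℝ} (hA : IsChan lam α Y₀ b₀) :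
    (envM μ lam (fun _ : V => Y₀) (fun _ => b₀)).map
      (fun ω : Cfg V => ((fun v => ω.1 (g v), fun v => ω.2 (g v)) : Cfg V))
      = envM μ lam (fun _ : V => Y₀) (fun _ => b₀) := by
  have hA' : ∀ w : V, IsChan lam α ((fun _ : V => Y₀) w) ((fun _ : V => b₀) w) := fun _ => hA
  have mg : Measurable (fun (σ : V → ℤˣ) (v : V) => σ (g v)) :=
    measurable_pi_iff.mpr (fun v => measurable_pi_apply _)
  have mgc : Measurable (fun ω : Cfg V => ((fun v => ω.1 (g v), fun v => ω.2 (g v)) : Cfg V)) :=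
    (mg.comp measurable_fst).prodMk
      (measurable_pi_iff.mpr (fun v => (measurable_pi_apply (g v)).comp measurable_snd))
  have := isProb_envM (μ := μ) hA'
  have := Measure.isProbabilityMeasure_map
    (μ := envM μ lam (fun _ : V => Y₀) (fun _ => b₀)) mgc.aemeasurable
  apply measure_ext_nice
  intro f hf
  rw [integral_map mgc.aemeasurable hf.1.aestronglyMeasurable,
    integral_envM hA' (hf.comp mgc), integral_envM hA' hf]
  have e : ∀ σ : V → ℤˣ, barF lam (fun _ : V => Y₀) (fun _ => b₀)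
      (fun ω => f ((fun v => ω.1 (g v), fun v => ω.2 (g v)) : Cfg V)) σ
      = barF lam (fun _ : V => Y₀) (fun _ => b₀) f (fun v => σ (g v)) := by
    intro σ
    unfold barF
    have hl : (Measure.infinitePi (fun _ : V => lam)).map (fun (x : V → Λ) (v : V) => x (g v))
        = Measure.infinitePi (fun _ : V => lam) :=
      Measure.map_infinitePi_infinitePi_of_inj (P := fun _ : V => lam) (f := fun v => g v)
        g.injective
    have mx : Measurable (fun (x : V → Λ) (v : V) => x (g v)) :=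
      measurable_pi_iff.mpr (fun v => measurable_pi_apply _)
    have nf : Nice (fun x : V → Λ => f ((fun v => σ (g v),
        ownX (fun _ : V => Y₀) (fun _ => b₀) (fun v => σ (g v)) x) : Cfg V)) :=
      (nice_ownX hA' hf).comp (φ := fun x : V → Λ => ((fun v => σ (g v), x) :
        (V → ℤˣ) × (V → Λ))) measurable_prodMk_left
    have h2 : ∫ x, f ((fun v => σ (g v),
          ownX (fun _ : V => Y₀) (fun _ => b₀) (fun v => σ (g v)) x) : Cfg V)
          ∂(Measure.infinitePi (fun _ : V => lam))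
        = ∫ x, f ((fun v => σ (g v),
          ownX (fun _ : V => Y₀) (fun _ => b₀) (fun v => σ (g v)) x) : Cfg V)
          ∂((Measure.infinitePi (fun _ : V => lam)).map
            (fun (x : V → Λ) (v : V) => x (g v))) := by rw [hl]
    rw [h2, integral_map mx.aemeasurable nf.1.aestronglyMeasurable]
    rfl
  simp only [e]
  have h3 : ∫ σ, barF lam (fun _ : V => Y₀) (fun _ => b₀) f σ ∂μ
      = ∫ σ, barF lam (fun _ : V => Y₀) (fun _ => b₀) f σ
        ∂(μ.map (fun (σ : V → ℤˣ) (v : V) => σ (g v))) := by rw [hinv]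
  rw [h3, integral_map mg.aemeasurable (nice_barF hA' hf).1.aestronglyMeasurable]

omit [LocallyFinite G] [DecidableEq V] in
lemma env_equiv (hα0 : 0 ≤ α) (hα1 : α < 1) (g : G ≃g G)
    (hinv : μ.map (fun σ : V → ℤˣ => fun v => σ (g v)) = μ)
    (hA : ∀ w, IsChan lam α (Y w) (b w)) (hT : Monotone T)
    (hTu : ∀ v, ∃ n, v ∈ T n) (c p : V) :
    ∀ᵐ ω ∂(envM μ lam Y b),
      cavI G μ α T (g c) (g p) ω.2 = cavI G μ α T c p (fun v => ω.2 (g v)) := by
  apply ae_envM hA
  · apply measurableSet_eq_fun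
    · exact (measurable_cavI _ _).comp measurable_snd
    · exact (measurable_cavI c p).comp (measurable_pi_iff.mpr
        (fun v => (measurable_pi_apply (g v)).comp measurable_snd))
  · have hS : Monotone (fun n => inBr G (g c) (g p) (T n)) :=
      fun i j hij => inBr_mono (hT hij) (g c) (g p)
    have hS' : Monotone (fun n => (inBr G c p (T n)).map g.toEquiv.toEmbedding) :=
      fun i j hij => Finset.map_subset_map.mpr (inBr_mono (hT hij) c p)
    have hU : ∀ w, (∃ n, w ∈ inBr G (g c) (g p) (T n)) ↔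
        ∃ n, w ∈ (inBr G c p (T n)).map g.toEquiv.toEmbedding := by
      intro w
      constructor
      · rintro ⟨n, hn⟩
        rw [mem_inBr] at hn
        obtain ⟨k, hk⟩ := hTu (g.symm w)
        refine ⟨k, ?_⟩
        rw [Finset.mem_map]
        refine ⟨g.symm w, ?_, g.apply_symm_apply w⟩
        rw [mem_inBr]
        refine ⟨hk, ?_⟩
        rw [← dist_iso g (g.symm w) c, ← dist_iso g (g.symm w) p, g.apply_symm_apply]
        exact hn.2
      · rintro ⟨n, hn⟩
        rw [Finset.mem_map] at hn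
        obtain ⟨u, hu, rfl⟩ := hn
        rw [mem_inBr] at hu
        obtain ⟨k, hk⟩ := hTu (g u)
        refine ⟨k, ?_⟩
        rw [mem_inBr]
        refine ⟨hk, ?_⟩
        change G.dist (g u) (g c) < G.dist (g u) (g p)
        rw [dist_iso, dist_iso]
        exact hu.2
    filter_upwards [ae_limit_eq (μ := μ) hα0 hα1 hA hS hS' hU (g c),
      ae_tendsto_post (μ := μ) hα0 hα1 hA hS (g c)] with ω h1 h2
    obtain ⟨l, hl⟩ := h2
    have h3 := h1 l hl
    have e1 : cavI G μ α T (g c) (g p) (own b ω.2) = l := limOr0_eq hl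
    have e2 : cavI G μ α T c p (fun v => own b ω.2 (g v)) = l := by
      apply limOr0_eq
      have : (fun n => cavF G μ α (T n) (fun v => own b ω.2 (g v)) c p)
          = fun n => post μ α (g c) ((inBr G c p (T n)).map g.toEquiv.toEmbedding) (own b ω.2) := by
        ext n
        exact post_relabel g hinv c _ _
      rw [this]
      exact h3
    change cavI G μ α T (g c) (g p) (own b ω.2) = cavI G μ α T c p (fun v => own b ω.2 (g v))
    rw [e1, e2]

/-- homogeneous channels -/
theorem cavEnv_of_chan (hα0 : 0 ≤ α) (hα1 : α < 1) (hG : G.IsTree) (hθ0 : 0 ≤ θ) (hθ1 : θ < 1)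
    (hflip : μ.map (fun σ : V → ℤˣ => fun v => - σ v) = μ) (hμ : EdgeFactor G θ μ)
    (hinv : ∀ g : G ≃g G, μ.map (fun σ : V → ℤˣ => fun v => σ (g v)) = μ)
    {Y₀ : ℤˣ → Λ → E} {b₀ : E → ℝ} (hA : IsChan lam α Y₀ b₀) (hT : Monotone T)
    (hTu : ∀ v, ∃ n, v ∈ T n) :
    CavEnv G θ α (envM μ lam (fun _ => Y₀) (fun _ => b₀)) (cavI G μ α T) := by
  exact
    { toCavEnv0 := cavEnv0_of_chan hα0 hα1 hG hθ0 hθ1 hflip hμ (fun _ => hA) hT hTu
      inv := fun g => env_inv g (hinv g) hA
      equiv := fun g c p _ => env_equiv hα0 hα1 g (hinv g) (fun _ => hA) hT hTu c p }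

omit [IsProbabilityMeasure μ] [Countable V] [LocallyFinite G] [DecidableEq V] in
lemma tendsto_phi (hθ0 : 0 ≤ θ) (hθ1 : θ < 1) {x : ℕ → ℝ} {l : ℝ} (hl : |l| ≤ 1)
    (h : Tendsto x atTop (𝓝 l)) : Tendsto (fun n => phi θ (x n)) atTop (𝓝 (phi θ l)) := by
  unfold phi
  have hd : 1 - θ ^ 2 * l ^ 2 ≠ 0 := by
    have h1 : l ^ 2 ≤ 1 := by
      rw [← sq_abs]
      exact pow_le_one₀ (abs_nonneg _) hl
    have h2 : θ ^ 2 < 1 := by nlinarith
    have h3 : θ ^ 2 * l ^ 2 ≤ θ ^ 2 * 1 := mul_le_mul_of_nonneg_left h1 (sq_nonneg _)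
    have : 0 < 1 - θ ^ 2 * l ^ 2 := by linarith
    exact this.ne'
  exact ((h.pow 2).const_sub 1).div (((h.pow 2).const_mul (θ ^ 2)).const_sub 1) hd

omit [IsProbabilityMeasure μ] [Countable V] [LocallyFinite G] [DecidableEq V] in
lemma tendsto_comb (hθ0 : 0 ≤ θ) (hθ1 : θ < 1) {x y : ℕ → ℝ} {l k : ℝ} (hl : |l| ≤ 1)
    (hk : |k| ≤ 1) (h : Tendsto x atTop (𝓝 l)) (h' : Tendsto y atTop (𝓝 k)) :
    Tendsto (fun n => comb (x n) (θ * y n)) atTop (𝓝 (comb l (θ * k))) := by
  unfold comb
  have hd : 1 + l * (θ * k) ≠ 0 := by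
    have h1 : |l * (θ * k)| ≤ θ := by
      rw [abs_mul, abs_mul, abs_of_nonneg hθ0]
      calc |l| * (θ * |k|) ≤ 1 * (θ * 1) := by
            apply mul_le_mul hl _ (by positivity) zero_le_one
            exact mul_le_mul_of_nonneg_left hk hθ0
        _ = θ := by ring
    have : 0 < 1 + l * (θ * k) := by linarith [neg_le_of_abs_le h1]
    exact this.ne'
  exact (h.add (h'.const_mul θ)).div ((h.mul (h'.const_mul θ)).const_add 1) hd

omit [IsProbabilityMeasure μ] [Countable V] [LocallyFinite G] [DecidableEq V] in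
lemma tendsto_mag (hθ0 : 0 ≤ θ) (hθ1 : θ < 1) {m : ℕ → V → V → ℝ} {m' : V → V → ℝ}
    (hb : ∀ c p, |m' c p| ≤ 1) (h : ∀ c p, Tendsto (fun n => m n c p) atTop (𝓝 (m' c p))) (v : V) :
    Tendsto (fun n => mag G θ (m n) v) atTop (𝓝 (mag G θ m' v)) := by
  unfold mag
  by_cases hv : ∃ p, G.Adj v p
  · simp only [dif_pos hv]
    exact tendsto_comb hθ0 hθ1 (hb _ _) (hb _ _) (h _ _) (h _ _)
  · simp only [dif_neg hv]
    exact tendsto_const_nhds

omit [IsProbabilityMeasure μ] [Countable V] [LocallyFinite G] [DecidableEq V] in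
lemma tendsto_WtAux (hθ0 : 0 ≤ θ) (hθ1 : θ < 1) {m : ℕ → V → V → ℝ} {m' : V → V → ℝ}
    (hb : ∀ c p, |m' c p| ≤ 1) (h : ∀ c p, Tendsto (fun n => m n c p) atTop (𝓝 (m' c p))) (v : V) :
    ∀ (k : ℕ) (w : V), Tendsto (fun n => WtAux G θ (m n) v k w) atTop (𝓝 (WtAux G θ m' v k w)) := by
  intro k
  induction k with
  | zero => intro w; exact tendsto_const_nhds
  | succ k ih =>
    intro w
    exact (ih (par G v w)).mul (tendsto_phi hθ0 hθ1 (hb _ _) (h _ _))

omit [IsProbabilityMeasure μ] [Countable V] [LocallyFinite G] [DecidableEq V] in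
lemma tendsto_Cv (hθ0 : 0 ≤ θ) (hθ1 : θ < 1) {m : ℕ → V → V → ℝ} {m' : V → V → ℝ}
    (hb : ∀ c p, |m' c p| ≤ 1) (h : ∀ c p, Tendsto (fun n => m n c p) atTop (𝓝 (m' c p)))
    (v w : V) : Tendsto (fun n => Cv G θ (m n) v w) atTop (𝓝 (Cv G θ m' v w)) := by
  unfold Cv Wt
  exact ((((tendsto_mag hθ0 hθ1 hb h v).pow 2).const_sub 1).mul_const _).mul
    (tendsto_WtAux hθ0 hθ1 hb h v _ w)

/-- almost surely, the finite-volume quantities converge to the infinite-volume ones -/
theorem env_limits {d : ℕ} (hreg : ∀ v, G.degree v = d) (hd : 1 ≤ d)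
    (hα0 : 0 ≤ α) (hα1 : α < 1) (hG : G.IsTree) (hθ0 : 0 ≤ θ) (hθ1 : θ < 1)
    (hflip : μ.map (fun σ : V → ℤˣ => fun v => - σ v) = μ) (hμ : EdgeFactor G θ μ)
    (hA : ∀ w, IsChan lam α (Y w) (b w)) (hT : Monotone T) (hTu : ∀ v, ∃ n, v ∈ T n) :
    ∀ᵐ ω ∂(obsM μ lam Y),
      (∀ c p, G.Adj c p →
        Tendsto (fun n => cavF G μ α (T n) (own b ω.2) c p) atTop
          (𝓝 (cavI G μ α T c p (own b ω.2)))) ∧
      (∀ v, Tendsto (fun n => post μ α v (T n) (own b ω.2)) atTop
        (𝓝 (postI μ α T v (own b ω.2)))) ∧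
      (∀ v, postI μ α T v (own b ω.2) = mag G θ (fun c p => cavI G μ α T c p (own b ω.2)) v) ∧
      (∀ v w, Tendsto (fun n => corr μ α v w (T n) (own b ω.2)
          - post μ α v (T n) (own b ω.2) * post μ α w (T n) (own b ω.2)) atTop
        (𝓝 (Cv G θ (fun c p => cavI G μ α T c p (own b ω.2)) v w))) := by
  have hdeg : ∀ v : V, ∃ p, G.Adj v p := by
    intro v
    have h1 : 0 < (G.neighborFinset v).card := by
      rw [card_neighborFinset_eq_degree, hreg]
      omega
    obtain ⟨p, hp⟩ := Finset.card_pos.mp h1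
    exact ⟨p, (mem_neighborFinset _ _ _).mp hp⟩
  have hpost : ∀ᵐ ω ∂(obsM μ lam Y), ∀ v, ∃ l,
      Tendsto (fun n => post μ α v (T n) (own b ω.2)) atTop (𝓝 l) := by
    rw [ae_all_iff]
    intro v
    exact ae_tendsto_post hα0 hα1 hA hT v
  filter_upwards [hpost, cav_tendsto_all (G := G) (μ := μ) hα0 hα1 hA hT] with ω h1 h2
  have hbd : ∀ c p, |cavI G μ α T c p (own b ω.2)| ≤ 1 :=
    fun c p => abs_limOr0_le zero_le_one (fun n => abs_post_le hα0 hα1 c _ _)
  have h3 : ∀ v, Tendsto (fun n => post μ α v (T n) (own b ω.2)) atTop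
      (𝓝 (postI μ α T v (own b ω.2))) := fun v => limOr0_tendsto (h1 v)
  refine ⟨fun c p _ => h2 c p, h3, ?_, ?_⟩
  · intro v
    have h4 := tendsto_mag (G := G) hθ0 hθ1 hbd (fun c p => h2 c p) v
    have h5 : (fun n => mag G θ (fun c p => cavF G μ α (T n) (own b ω.2) c p) v)
        = fun n => post μ α v (T n) (own b ω.2) := by
      ext n
      exact (post_eq_mag hα0 hα1 hG hθ0 hθ1 hμ (hdeg v) (T n) (own b ω.2)).symm
    rw [h5] at h4
    exact tendsto_nhds_unique (h3 v) h4
  · intro v w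
    have h4 := tendsto_Cv (G := G) hθ0 hθ1 hbd (fun c p => h2 c p) v w
    have h5 : (fun n => Cv G θ (fun c p => cavF G μ α (T n) (own b ω.2) c p) v w)
        = fun n => corr μ α v w (T n) (own b ω.2)
          - post μ α v (T n) (own b ω.2) * post μ α w (T n) (own b ω.2) := by
      ext n
      exact (corr_eq_Cv hα0 hα1 hG hθ0 hθ1 hμ hdeg v w (T n) (own b ω.2)).symm
    rw [h5] at h4
    exact h4

/-- infinite-volume tower property for the two-point function -/
theorem tower_corrI {d : ℕ} (hreg : ∀ v, G.degree v = d) (hd : 1 ≤ d)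
    (hα0 : 0 ≤ α) (hα1 : α < 1) (hG : G.IsTree) (hθ0 : 0 ≤ θ) (hθ1 : θ < 1)
    (hflip : μ.map (fun σ : V → ℤˣ => fun v => - σ v) = μ) (hμ : EdgeFactor G θ μ)
    (hA : ∀ w, IsChan lam α (Y w) (b w)) (hT : Monotone T) (hTu : ∀ v, ∃ n, v ∈ T n) (v w : V)
    {k : (V → E) → ℝ} (hk : Nice k) :
    ∫ ω, k ω.2 * (spinVal (ω.1 v) * spinVal (ω.1 w)) ∂(obsM μ lam Y)
      = ∫ ω, k ω.2 * (Cv G θ (fun c p => cavI G μ α T c p (own b ω.2)) v w
          + postI μ α T v (own b ω.2) * postI μ α T w (own b ω.2)) ∂(obsM μ lam Y) := by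
  have hP := isProb_obsM (μ := μ) hA
  have nX : Nice (fun ω : (V → ℤˣ) × (V → E) => spinVal (ω.1 v) * spinVal (ω.1 w)) :=
    ((nice_spin v).mul (nice_spin w)).comp measurable_fst
  rw [condE_pull (P := obsM μ lam Y) (⋃ n, (T n : Set V)) nX hk (fun y y' h => by
    congr 1
    ext u
    obtain ⟨n, hn⟩ := hTu u
    exact h u (Set.mem_iUnion.mpr ⟨n, hn⟩))]
  apply integral_congr_ae
  filter_upwards [corr_levy (μ := μ) hα0 hα1 hA hT v w,
    env_limits (G := G) (μ := μ) hreg hd hα0 hα1 hG hθ0 hθ1 hflip hμ hA hT hTu] with ω h h'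
  obtain ⟨_, h2, _, h4⟩ := h'
  have h5 := (h4 v w).add ((h2 v).mul (h2 w))
  have h6 : (fun n => (corr μ α v w (T n) (own b ω.2)
        - post μ α v (T n) (own b ω.2) * post μ α w (T n) (own b ω.2))
        + post μ α v (T n) (own b ω.2) * post μ α w (T n) (own b ω.2))
      = fun n => corr μ α v w (T n) (own b ω.2) := by
    ext n
    ring
  rw [h6] at h5
  rw [tendsto_nhds_unique h h5]

end

end Vale.Agent.P161c
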