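import Vale.Agent.P161c.EnvBasic

/-!
Higher moments of the cavity magnetizations.
-/

namespace Vale.Agent.P161c

open MeasureTheory SimpleGraph Vale.Agent.H13.P161

/-- a combination of several magnetizations is at most the sum of the absolute values -/
lemma abs_prod_sub_le {ι : Type*} [DecidableEq ι] (s : Finset ι) (u : ι → ℝ)
    (hu : ∀ i ∈ s, |u i| ≤ 1) :
    0 ≤ ∏ i ∈ s, (1 + u i) ∧ 0 ≤ ∏ i ∈ s, (1 - u i) ∧
      |∏ i ∈ s, (1 + u i) - ∏ i ∈ s, (1 - u i)|
        ≤ (∑ i ∈ s, |u i|) * (∏ i ∈ s, (1 + u i) + ∏ i ∈ s, (1 - u i)) := by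
  induction s using Finset.induction_on with
  | empty => simp
  | insert a s ha ih =>
    obtain ⟨hA, hB, hAB⟩ := ih (fun i hi => hu i (Finset.mem_insert_of_mem hi))
    have hua := abs_le.mp (hu a (Finset.mem_insert_self _ _))
    rw [Finset.prod_insert ha, Finset.prod_insert ha, Finset.sum_insert ha]
    set A := ∏ i ∈ s, (1 + u i)
    set B := ∏ i ∈ s, (1 - u i)
    set S := ∑ i ∈ s, |u i|
    have hS : 0 ≤ S := Finset.sum_nonneg fun i _ => abs_nonneg _
    refine ⟨mul_nonneg (by linarith) hA, mul_nonneg (by linarith) hB, ?_⟩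
    have e1 : (1 + u a) * A - (1 - u a) * B = (A - B) + u a * (A + B) := by ring
    have e2 : (1 + u a) * A + (1 - u a) * B = (A + B) + u a * (A - B) := by ring
    rw [e1, e2]
    have hD : 0 ≤ A + B := by linarith
    rcases hD.lt_or_eq with hD0 | hD0
    · -- normalize
      obtain ⟨r, hr⟩ : ∃ r, r = (A - B) / (A + B) := ⟨_, rfl⟩
      have hN : A - B = r * (A + B) := by rw [hr, div_mul_cancel₀ _ hD0.ne']
      have hr1 : |r| ≤ 1 := by
        rw [hr, abs_div, abs_of_pos hD0, div_le_one hD0, abs_le]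
        constructor <;> linarith
      have hrS : |r| ≤ S := by
        rw [hN, abs_mul, abs_of_pos hD0] at hAB
        exact le_of_mul_le_mul_right hAB hD0
      have key : |r + u a| ≤ (|u a| + |r|) * (1 + u a * r) := by
        have hr2 := abs_le.mp hr1
        rcases le_total 0 r with h1 | h1 <;> rcases le_total 0 (u a) with h2 | h2
        · rw [abs_of_nonneg h1, abs_of_nonneg h2, abs_of_nonneg (by linarith)]
          nlinarith [mul_nonneg h1 h2]
        · rw [abs_of_nonneg h1, abs_of_nonpos h2, abs_le]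
          have h3 : 0 ≤ 1 + u a * r := by nlinarith
          constructor <;> nlinarith [mul_nonneg h1 (neg_nonneg.mpr h2)]
        · rw [abs_of_nonpos h1, abs_of_nonneg h2, abs_le]
          have h3 : 0 ≤ 1 + u a * r := by nlinarith
          constructor <;> nlinarith [mul_nonneg (neg_nonneg.mpr h1) h2]
        · rw [abs_of_nonpos h1, abs_of_nonpos h2, abs_of_nonpos (by linarith)]
          nlinarith [mul_nonneg (neg_nonneg.mpr h1) (neg_nonneg.mpr h2)]
      have h1 : 0 ≤ 1 + u a * r := by
        have hr2 := abs_le.mp hr1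
        have : |u a * r| ≤ 1 := by
          rw [abs_mul]
          exact mul_le_one₀ (hu a (Finset.mem_insert_self _ _)) (abs_nonneg _) hr1
        linarith [(abs_le.mp this).1]
      rw [hN]
      have e3 : r * (A + B) + u a * (A + B) = (r + u a) * (A + B) := by ring
      have e4 : (A + B) + u a * (r * (A + B)) = (1 + u a * r) * (A + B) := by ring
      rw [e3, e4, abs_mul, abs_of_pos hD0, ← mul_assoc]
      apply mul_le_mul_of_nonneg_right _ hD
      exact key.trans (mul_le_mul_of_nonneg_right (by linarith) h1)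
    · have hA0 : A = 0 := by linarith
      have hB0 : B = 0 := by linarith
      simp [hA0, hB0]

variable {V : Type*} {G : SimpleGraph V} [LocallyFinite G] [DecidableEq V] [Countable V]

/-- clipping used in this file -/
noncomputable def cl1 (x : ℝ) : ℝ := max (-1) (min 1 x)

lemma nice_cl1 : Nice cl1 := by
  refine ⟨?_, 1, fun x => ?_⟩
  · unfold cl1; fun_prop
  · unfold cl1
    rw [abs_le]
    exact ⟨le_max_left _ _, max_le (by norm_num) (min_le_left _ _)⟩

lemma cl1_of_abs_le {x : ℝ} (h : |x| ≤ 1) : cl1 x = x := by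
  unfold cl1
  rw [abs_le] at h
  rw [min_eq_right h.2, max_eq_right h.1]

/-- the sources at `c`: its own magnetization and those of the children -/
noncomputable def src (θ : ℝ) (m : V → V → (V → ℝ) → ℝ) (c : V) (ω : Cfg V) (v : V) : ℝ :=
  if v = c then cl1 (ω.2 c) else θ * m v c ω.2

omit [Countable V] in
lemma cav_le_sum {θ α : ℝ} (hθ0 : 0 < θ) (hθ1 : θ < 1) (hα1 : α < 1)
    {P : Measure (Cfg V)} {m : V → V → (V → ℝ) → ℝ} (he : CavEnv0 G θ α P m) {c p : V}
    (h : G.Adj c p) :
    ∀ᵐ ω ∂P, |m c p ω.2| ≤ ∑ v ∈ insert c ((G.neighborFinset c).erase p), |src θ m c ω v| := by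
  filter_upwards [he.recur, he.own_bound] with ω hrec hown
  have hc : c ∉ (G.neighborFinset c).erase p := by simp
  have ha : |ω.2 c| < 1 := (hown c).trans_lt hα1
  have hs1 : src θ m c ω c = ω.2 c := by
    unfold src
    rw [if_pos rfl, cl1_of_abs_le ha.le]
  have hs2 : ∀ g ∈ (G.neighborFinset c).erase p, src θ m c ω g = θ * m g c ω.2 := by
    intro g hg
    unfold src
    rw [if_neg]
    rintro rfl
    exact hc hg
  have hlt : ∀ v ∈ insert c ((G.neighborFinset c).erase p), |src θ m c ω v| < 1 := by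
    intro v hv
    rcases Finset.mem_insert.mp hv with rfl | hv
    · rw [hs1]; exact ha
    · rw [hs2 v hv, abs_mul, abs_of_pos hθ0]
      have := he.bound v c ω.2
      have h0 := abs_nonneg (m v c ω.2)
      nlinarith
  obtain ⟨-, -, hAB⟩ := abs_prod_sub_le (insert c ((G.neighborFinset c).erase p))
    (src θ m c ω) (fun v hv => (hlt v hv).le)
  have hApos : 0 < ∏ v ∈ insert c ((G.neighborFinset c).erase p), (1 + src θ m c ω v) := by
    apply Finset.prod_pos
    intro v hv
    have := abs_lt.mp (hlt v hv)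
    linarith
  have hBpos : 0 < ∏ v ∈ insert c ((G.neighborFinset c).erase p), (1 - src θ m c ω v) := by
    apply Finset.prod_pos
    intro v hv
    have := abs_lt.mp (hlt v hv)
    linarith
  have hr := hrec c p h
  have eA : (1 + ω.2 c) * ∏ g ∈ (G.neighborFinset c).erase p, (1 + θ * m g c ω.2)
      = ∏ v ∈ insert c ((G.neighborFinset c).erase p), (1 + src θ m c ω v) := by
    rw [Finset.prod_insert hc, hs1]
    congr 1
    apply Finset.prod_congr rfl
    intro g hg
    rw [hs2 g hg]
  have eB : (1 - ω.2 c) * ∏ g ∈ (G.neighborFinset c).erase p, (1 - θ * m g c ω.2)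
      = ∏ v ∈ insert c ((G.neighborFinset c).erase p), (1 - src θ m c ω v) := by
    rw [Finset.prod_insert hc, hs1]
    congr 1
    apply Finset.prod_congr rfl
    intro g hg
    rw [hs2 g hg]
  rw [eA, eB] at hr
  set A := ∏ v ∈ insert c ((G.neighborFinset c).erase p), (1 + src θ m c ω v)
  set B := ∏ v ∈ insert c ((G.neighborFinset c).erase p), (1 - src θ m c ω v)
  have hD : 0 < A + B := by linarith
  rw [← hr, abs_mul, abs_of_pos hD] at hAB
  exact le_of_mul_le_mul_right hAB hD

/-- the statement for one exponent -/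
def MomBound (G : SimpleGraph V) [LocallyFinite G] (θ α C₀ : ℝ) (k : ℕ) (C : ℝ) : Prop :=
  ∀ (P : Measure (Cfg V)) (m : V → V → (V → ℝ) → ℝ), CavEnv G θ α P m →
    ∀ x : ℝ, 0 < x → (∀ c p, G.Adj c p → ∫ ω, (m c p ω.2) ^ 2 ∂P = x) →
      (∀ᵐ ω ∂P, ∀ v, |ω.2 v| ≤ C₀ * Real.sqrt x) →
      ∀ c p, G.Adj c p → ∫ ω, |m c p ω.2| ^ k ∂P ≤ C * Real.sqrt x ^ k

lemma nice_abs_pow {Ω : Type*} [MeasurableSpace Ω] {f : Ω → ℝ} (hf : Nice f) (k : ℕ) :
    Nice (fun ω => |f ω| ^ k) := hf.abs.pow k

omit [Countable V] in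
lemma momBound_one (θ α C₀ : ℝ) : MomBound G θ α C₀ 1 1 := by
  intro P m he x hx0 hx _ c p h
  have hprob := he.prob
  have hn := nice_obs (nice_cav he.toCavEnv0 c p)
  simp only [pow_one, one_mul]
  -- E (|m| - √x)^2 ≥ 0
  have h1 : 0 ≤ ∫ ω, (|m c p ω.2| - Real.sqrt x) ^ 2 ∂P := integral_nonneg fun ω => sq_nonneg _
  rw [hn.abs.integral_sub_sq (Nice.const (Real.sqrt x))] at h1
  have h2 : ∫ ω, |m c p ω.2| ^ 2 ∂P = x := by
    rw [← hx c p h]
    congr 1
    ext ω
    exact sq_abs _
  have h3 : ∫ _ω : Cfg V, Real.sqrt x ^ 2 ∂P = x := by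
    rw [Real.sq_sqrt hx0.le]
    simp
  rw [h2, h3, integral_mul_const] at h1
  have h4 : Real.sqrt x * Real.sqrt x = x := Real.mul_self_sqrt hx0.le
  have h5 : 0 < Real.sqrt x := Real.sqrt_pos.mpr hx0
  have h6 : (∫ ω, |m c p ω.2| ∂P) * Real.sqrt x ≤ Real.sqrt x * Real.sqrt x := by linarith
  exact le_of_mul_le_mul_right h6 h5

lemma momBound_succ {d : ℕ} (hd : 3 ≤ d) {θ : ℝ} (hθ0 : 0 < θ) (hθ1 : θ < 1)
    (hcrit : ((d : ℝ) - 1) * θ ^ 2 = 1) {α : ℝ} (hα1 : α < 1)
    (hG : G.IsTree) (hreg : ∀ v, G.degree v = d) (C₀ : ℝ) {k : ℕ} (hk : 2 ≤ k) {C : ℝ}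
    (hC0 : 0 ≤ C) (hC : MomBound G θ α C₀ k C) :
    ∃ C' : ℝ, 0 ≤ C' ∧ MomBound G θ α C₀ (k + 1) C' := by
  set c0 : ℝ := |C₀| with hc0
  have hc0' : 0 ≤ c0 := abs_nonneg _
  set E : ℝ := c0 ^ k + C * c0 + C with hE
  have hE0 : 0 ≤ E := by positivity
  set K : ℝ := ((k : ℝ) + 1) * (1 + (d : ℝ)) ^ k * ((d : ℝ) * (d : ℝ)) with hK
  have hK0 : 0 ≤ K := by positivity
  have hθ' : 0 < 1 - θ := by linarith
  refine ⟨(c0 ^ (k + 1) + K * E) / (1 - θ), by positivity, ?_⟩
  intro P m he x hx0 hx hown c p h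
  have hprob := he.prob
  have h1b := momBound_one (G := G) θ α C₀ P m he x hx0 hx hown
  have hkb := hC P m he x hx0 hx hown
  set q := Real.sqrt x with hq
  have hq0 : 0 < q := Real.sqrt_pos.mpr hx0
  set s := insert c ((G.neighborFinset c).erase p) with hs
  have hcn : c ∉ (G.neighborFinset c).erase p := by simp
  have hmem : p ∈ G.neighborFinset c := (mem_neighborFinset G c p).mpr h
  have hcard0 : ((G.neighborFinset c).erase p).card = d - 1 := by
    rw [Finset.card_erase_of_mem hmem, card_neighborFinset_eq_degree, hreg]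
  have hcard : s.card = d := by
    rw [hs, Finset.card_insert_of_notMem hcn, hcard0]
    omega
  -- the sources
  have hyn : ∀ v, Nice (fun ω : Cfg V => |src θ m c ω v|) := by
    intro v
    apply Nice.abs
    unfold src
    by_cases hv : v = c
    · simp only [if_pos hv]
      exact nice_cl1.comp ((measurable_pi_apply c).comp measurable_snd)
    · simp only [if_neg hv]
      exact (Nice.const θ).mul (nice_obs (nice_cav he.toCavEnv0 v c))
  have hyc : ∀ᵐ ω ∂P, |src θ m c ω c| ≤ c0 * q := by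
    filter_upwards [hown, he.own_bound] with ω h1 h2
    unfold src
    rw [if_pos rfl, cl1_of_abs_le ((h2 c).trans hα1.le)]
    refine (h1 c).trans ?_
    exact mul_le_mul_of_nonneg_right (le_abs_self _) hq0.le
  have hsrc : ∀ g ∈ (G.neighborFinset c).erase p, ∀ ω : Cfg V,
      |src θ m c ω g| = θ * |m g c ω.2| := by
    intro g hg ω
    unfold src
    rw [if_neg (by rintro rfl; exact hcn hg), abs_mul, abs_of_pos hθ0]
  have hadj : ∀ g ∈ (G.neighborFinset c).erase p, G.Adj c g ∧ g ≠ p := by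
    intro g hg
    rw [Finset.mem_erase, mem_neighborFinset] at hg
    exact ⟨hg.2, hg.1⟩
  -- the moment to be bounded
  set M := ∫ ω, |m c p ω.2| ^ (k + 1) ∂P with hM
  have hMall : ∀ g ∈ (G.neighborFinset c).erase p, ∫ ω, |m g c ω.2| ^ (k + 1) ∂P = M := by
    intro g hg
    have hf : Nice (fun z : ℝ => |cl1 z| ^ (k + 1)) := nice_abs_pow nice_cl1 (k + 1)
    have e := env_hom he hG (by omega : 2 ≤ d) hreg hf (hadj g hg).1.symm h
    simp only [cl1_of_abs_le (he.bound _ _ _)] at e
    exact e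
  have hM0 : 0 ≤ M := integral_nonneg fun ω => by positivity
  -- main inequality
  have hmain : M ≤ ∫ ω, (∑ i ∈ s, |src θ m c ω i| ^ (k + 1)
      + ((k + 1 : ℝ) * (1 + s.card : ℝ) ^ k)
        * ∑ i ∈ s, ∑ j ∈ s.erase i, |src θ m c ω i| ^ k * |src θ m c ω j|) ∂P := by
    apply integral_mono_ae
    · exact (nice_abs_pow (nice_obs (nice_cav he.toCavEnv0 c p)) (k + 1)).integrable P
    · apply Nice.integrable
      apply Nice.add
      · exact Nice.sum s fun i _ => (hyn i).pow (k + 1)
      · exact (Nice.const _).mul (Nice.sum s fun i _ => Nice.sum _ fun j _ =>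
          ((hyn i).pow k).mul (hyn j))
    · filter_upwards [cav_le_sum hθ0 hθ1 hα1 he.toCavEnv0 h] with ω hω
      exact (pow_le_pow_left₀ (abs_nonneg _) hω (k + 1)).trans
        (sum_pow_le_card s k (fun v => |src θ m c ω v|) (fun v => abs_nonneg _))
  -- split the integral
  have hn1 : Nice (fun ω : Cfg V => ∑ i ∈ s, |src θ m c ω i| ^ (k + 1)) :=
    Nice.sum s fun i _ => (hyn i).pow (k + 1)
  have hn2 : Nice (fun ω : Cfg V =>
      ∑ i ∈ s, ∑ j ∈ s.erase i, |src θ m c ω i| ^ k * |src θ m c ω j|) :=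
    Nice.sum s fun i _ => Nice.sum _ fun j _ => ((hyn i).pow k).mul (hyn j)
  rw [hn1.integral_add' ((Nice.const _).mul hn2), integral_const_mul] at hmain
  -- pure powers
  have hpure : ∫ ω, ∑ i ∈ s, |src θ m c ω i| ^ (k + 1) ∂P
      ≤ (c0 * q) ^ (k + 1) + θ ^ (k - 1) * M := by
    rw [integral_finsetSum s fun i _ => ((hyn i).pow (k + 1)).integrable P, hs,
      Finset.sum_insert hcn]
    apply add_le_add
    · have : ∫ ω, |src θ m c ω c| ^ (k + 1) ∂P ≤ ∫ _ω : Cfg V, (c0 * q) ^ (k + 1) ∂P := by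
        apply integral_mono_ae (((hyn c).pow (k + 1)).integrable P) (integrable_const _)
        filter_upwards [hyc] with ω hω
        exact pow_le_pow_left₀ (abs_nonneg _) hω (k + 1)
      simpa using this
    · have e1 : ∀ g ∈ (G.neighborFinset c).erase p,
          ∫ ω, |src θ m c ω g| ^ (k + 1) ∂P = θ ^ (k + 1) * M := by
        intro g hg
        simp only [hsrc g hg, mul_pow]
        rw [integral_const_mul, hMall g hg]
      rw [Finset.sum_congr rfl e1, Finset.sum_const, hcard0, nsmul_eq_mul, ← mul_assoc]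
      apply mul_le_mul_of_nonneg_right _ hM0
      have e2 : (((d - 1 : ℕ)) : ℝ) = (d : ℝ) - 1 := by
        rw [Nat.cast_sub (by omega)]
        simp
      have e3 : θ ^ (k + 1) = θ ^ 2 * θ ^ (k - 1) := by
        rw [← pow_add]
        congr 1
        omega
      rw [e2, e3, ← mul_assoc, hcrit, one_mul]
  -- mixed terms
  have hmix : ∀ i ∈ s, ∀ j ∈ s.erase i,
      ∫ ω, |src θ m c ω i| ^ k * |src θ m c ω j| ∂P ≤ E * q ^ (k + 1) := by
    intro i hi j hj
    obtain ⟨hji, hj⟩ := Finset.mem_erase.mp hj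
    have hθk : θ ^ k ≤ 1 := pow_le_one₀ hθ0.le hθ1.le
    have hθk1 : θ ^ (k + 1) ≤ 1 := pow_le_one₀ hθ0.le hθ1.le
    have hqk : 0 ≤ q ^ (k + 1) := by positivity
    rcases Finset.mem_insert.mp hi with hic | hic
    · -- i = c
      have hjn : j ∈ (G.neighborFinset c).erase p := by
        rcases Finset.mem_insert.mp hj with h1 | h1
        · exact absurd (h1.trans hic.symm) hji
        · exact h1
      subst hic
      calc ∫ ω, |src θ m i ω i| ^ k * |src θ m i ω j| ∂P
          ≤ ∫ ω, (c0 * q) ^ k * |m j i ω.2| ∂P := by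
            apply integral_mono_ae ((((hyn i).pow k).mul (hyn j)).integrable P)
              (((Nice.const _).mul (nice_obs (nice_cav he.toCavEnv0 j i)).abs).integrable P)
            filter_upwards [hyc] with ω hω
            apply mul_le_mul (pow_le_pow_left₀ (abs_nonneg _) hω k) _ (abs_nonneg _)
              (by positivity)
            rw [hsrc j hjn ω]
            have := abs_nonneg (m j i ω.2)
            nlinarith
        _ = (c0 * q) ^ k * ∫ ω, |m j i ω.2| ∂P := integral_const_mul _ _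
        _ ≤ (c0 * q) ^ k * (1 * q ^ 1) := by
            apply mul_le_mul_of_nonneg_left _ (by positivity)
            have := h1b j i (hadj j hjn).1.symm
            simpa using this
        _ = c0 ^ k * q ^ (k + 1) := by ring
        _ ≤ E * q ^ (k + 1) := by
            apply mul_le_mul_of_nonneg_right _ hqk
            rw [hE]
            have : 0 ≤ C * c0 := mul_nonneg hC0 hc0'
            linarith
    · rcases Finset.mem_insert.mp hj with hjc | hjn
      · -- j = c
        subst hjc
        calc ∫ ω, |src θ m j ω i| ^ k * |src θ m j ω j| ∂P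
            ≤ ∫ ω, |m i j ω.2| ^ k * (c0 * q) ∂P := by
              apply integral_mono_ae ((((hyn i).pow k).mul (hyn j)).integrable P)
                (((nice_abs_pow (nice_obs (nice_cav he.toCavEnv0 i j)) k).mul
                  (Nice.const _)).integrable P)
              filter_upwards [hyc] with ω hω
              apply mul_le_mul _ hω (abs_nonneg _) (by positivity)
              apply pow_le_pow_left₀ (abs_nonneg _)
              rw [hsrc i hic ω]
              have := abs_nonneg (m i j ω.2)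
              nlinarith
          _ = (∫ ω, |m i j ω.2| ^ k ∂P) * (c0 * q) := integral_mul_const _ _
          _ ≤ (C * q ^ k) * (c0 * q) := by
              apply mul_le_mul_of_nonneg_right (hkb i j (hadj i hic).1.symm) (by positivity)
          _ = C * c0 * q ^ (k + 1) := by ring
          _ ≤ E * q ^ (k + 1) := by
              apply mul_le_mul_of_nonneg_right _ hqk
              rw [hE]
              have : 0 ≤ c0 ^ k := by positivity
              linarith
      · -- two children
        have hi1 := (hadj i hic).1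
        have hj1 := (hadj j hjn).1
        have hind : ∫ ω, |m i c ω.2| ^ k * |m j c ω.2| ∂P
            = (∫ ω, |m i c ω.2| ^ k ∂P) * (∫ ω, |m j c ω.2| ∂P) := by
          apply indep_even he.toCavEnv0 hi1.symm
            (nice_abs_pow (nice_obs (nice_cav he.toCavEnv0 i c)) k)
            (nice_obs (nice_cav he.toCavEnv0 j c)).abs
          · intro ω ω' hω
            show |m i c ω.2| ^ k = |m i c ω'.2| ^ k
            rw [he.dep i c ω.2 ω'.2 fun w hw => (hω w hw).2]
          · intro ω ω' hω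
            show |m j c ω.2| = |m j c ω'.2|
            rw [he.dep j c ω.2 ω'.2 fun w hw => (hω w (br_subset hG hi1 hj1 hji hw)).2]
          · intro ω
            show |m j c (fun v => - ω.2 v)| = |m j c ω.2|
            rw [he.odd, abs_neg]
        calc ∫ ω, |src θ m c ω i| ^ k * |src θ m c ω j| ∂P
            = ∫ ω, θ ^ (k + 1) * (|m i c ω.2| ^ k * |m j c ω.2|) ∂P := by
              congr 1
              ext ω
              rw [hsrc i hic ω, hsrc j hjn ω]
              ring
          _ = θ ^ (k + 1) * ((∫ ω, |m i c ω.2| ^ k ∂P) * (∫ ω, |m j c ω.2| ∂P)) := by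
              rw [integral_const_mul, hind]
          _ ≤ 1 * ((C * q ^ k) * (1 * q ^ 1)) := by
              apply mul_le_mul hθk1 _ (mul_nonneg
                (integral_nonneg fun ω => by positivity) (integral_nonneg fun ω => abs_nonneg _))
                (by norm_num)
              apply mul_le_mul (hkb i c hi1.symm) _ (integral_nonneg fun ω => abs_nonneg _)
                (by positivity)
              have := h1b j c hj1.symm
              simpa using this
          _ = C * q ^ (k + 1) := by ring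
          _ ≤ E * q ^ (k + 1) := by
              apply mul_le_mul_of_nonneg_right _ hqk
              rw [hE]
              have : 0 ≤ c0 ^ k := by positivity
              have : 0 ≤ C * c0 := mul_nonneg hC0 hc0'
              linarith
  have hmixsum : ∫ ω, ∑ i ∈ s, ∑ j ∈ s.erase i, |src θ m c ω i| ^ k * |src θ m c ω j| ∂P
      ≤ (d : ℝ) * (d : ℝ) * (E * q ^ (k + 1)) := by
    rw [integral_finsetSum s fun i _ =>
      (Nice.sum _ fun j _ => ((hyn i).pow k).mul (hyn j)).integrable P]
    have hEq : 0 ≤ E * q ^ (k + 1) := by positivity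
    calc ∑ i ∈ s, ∫ ω, ∑ j ∈ s.erase i, |src θ m c ω i| ^ k * |src θ m c ω j| ∂P
        ≤ ∑ i ∈ s, (d : ℝ) * (E * q ^ (k + 1)) := by
          apply Finset.sum_le_sum
          intro i hi
          rw [integral_finsetSum (s.erase i) fun j _ =>
            (((hyn i).pow k).mul (hyn j)).integrable P]
          calc ∑ j ∈ s.erase i, ∫ ω, |src θ m c ω i| ^ k * |src θ m c ω j| ∂P
              ≤ ∑ j ∈ s.erase i, E * q ^ (k + 1) := Finset.sum_le_sum fun j hj => hmix i hi j hj
            _ = ((s.erase i).card : ℝ) * (E * q ^ (k + 1)) := by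
                rw [Finset.sum_const, nsmul_eq_mul]
            _ ≤ (d : ℝ) * (E * q ^ (k + 1)) := by
                apply mul_le_mul_of_nonneg_right _ hEq
                have : (s.erase i).card ≤ s.card := Finset.card_le_card (Finset.erase_subset _ _)
                rw [hcard] at this
                exact_mod_cast this
      _ = (d : ℝ) * (d : ℝ) * (E * q ^ (k + 1)) := by
          rw [Finset.sum_const, nsmul_eq_mul, hcard]
          ring
  -- conclusion
  have hθk : θ ^ (k - 1) ≤ θ := by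
    calc θ ^ (k - 1) ≤ θ ^ 1 := pow_le_pow_of_le_one hθ0.le hθ1.le (by omega)
      _ = θ := pow_one θ
  have hfin : M ≤ (c0 * q) ^ (k + 1) + θ * M + K * (E * q ^ (k + 1)) := by
    have h3 : θ ^ (k - 1) * M ≤ θ * M := mul_le_mul_of_nonneg_right hθk hM0
    have h4 : ((k + 1 : ℝ) * (1 + s.card : ℝ) ^ k)
        * ∫ ω, ∑ i ∈ s, ∑ j ∈ s.erase i, |src θ m c ω i| ^ k * |src θ m c ω j| ∂P
        ≤ ((k + 1 : ℝ) * (1 + s.card : ℝ) ^ k) * ((d : ℝ) * (d : ℝ) * (E * q ^ (k + 1))) :=
      mul_le_mul_of_nonneg_left hmixsum (by positivity)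
    have h5 : ((k + 1 : ℝ) * (1 + s.card : ℝ) ^ k) * ((d : ℝ) * (d : ℝ) * (E * q ^ (k + 1)))
        = K * (E * q ^ (k + 1)) := by
      rw [hK, hcard]
      ring
    linarith
  have h6 : (1 - θ) * M ≤ (c0 ^ (k + 1) + K * E) * q ^ (k + 1) := by
    have : (c0 * q) ^ (k + 1) = c0 ^ (k + 1) * q ^ (k + 1) := mul_pow _ _ _
    nlinarith
  rw [div_mul_eq_mul_div, le_div_iff₀ hθ']
  linarith

/-- Proof.  `|comb u v| ≤ |u| + |v|` gives `|m c p| ≤ |a_c| + θ Σ_g |m g c|` (children `g ≠ p`).
Raise to the power `k ≥ 3` with `sum_pow_le`; the mixed terms factorize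
(`indep_even`, `indep_own`) into products of lower moments; with `M_k = E |m c p|^k`
(`env_hom`), `M_k ≤ (d-1) θ^k M_k + C x^{k/2}` by induction on `k` (`M_1 ≤ √x`, `M_2 = x`), and
`(d - 1) θ^k = θ^(k-2) < 1`. -/
theorem env_moments {d : ℕ} (hd : 3 ≤ d) {θ : ℝ} (hθ0 : 0 < θ) (hθ1 : θ < 1)
    (hcrit : ((d : ℝ) - 1) * θ ^ 2 = 1) {α : ℝ} (hα0 : 0 ≤ α) (hα1 : α < 1)
    (hG : G.IsTree) (hreg : ∀ v, G.degree v = d) (C₀ : ℝ) :
    ∃ C : ℕ → ℝ, ∀ (P : Measure (Cfg V)) (m : V → V → (V → ℝ) → ℝ), CavEnv G θ α P m →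
      ∀ x : ℝ, 0 < x → (∀ c p, G.Adj c p → ∫ ω, (m c p ω.2) ^ 2 ∂P = x) →
        (∀ᵐ ω ∂P, ∀ v, |ω.2 v| ≤ C₀ * Real.sqrt x) →
        ∀ k c p, G.Adj c p → ∫ ω, |m c p ω.2| ^ k ∂P ≤ C k * Real.sqrt x ^ k := by
  have hall : ∀ k, ∃ C : ℝ, 0 ≤ C ∧ MomBound G θ α C₀ k C := by
    intro k
    rcases k with _ | _ | k
    · refine ⟨1, zero_le_one, ?_⟩
      intro P m he x hx0 hx _ c p h
      have hprob := he.prob
      simp
    · exact ⟨1, zero_le_one, momBound_one θ α C₀⟩
    · induction k with
      | zero =>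
        refine ⟨1, zero_le_one, ?_⟩
        intro P m he x hx0 hx _ c p h
        simp only [zero_add, Nat.reduceAdd, sq_abs, one_mul]
        rw [hx c p h, Real.sq_sqrt hx0.le]
      | succ k ih =>
        obtain ⟨C, hC0, hC⟩ := ih
        exact momBound_succ hd hθ0 hθ1 hcrit hα1 hG hreg C₀ (by omega) hC0 hC
  choose C hC0 hC using hall
  exact ⟨C, fun P m he x hx0 hx hown k c p h => hC k P m he x hx0 hx hown c p h⟩

end Vale.Agent.P161c
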