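import Vale.Agent.P161c.EnvR1

/-!
Exponential moments and tails of the screened susceptibilities of an environment.
-/

namespace Vale.Agent.P161c

open MeasureTheory SimpleGraph Vale.Agent.H13.P161

variable {V : Type*} {G : SimpleGraph V} [LocallyFinite G] [DecidableEq V] [Countable V]

section ER2

variable {θ α : ℝ} {P : Measure (Cfg V)} {m : V → V → (V → ℝ) → ℝ}

omit [Countable V] in
/-- the screening factor lies in the unit interval -/
lemma er2_phi (hθ0 : 0 ≤ θ) (hθ1 : θ < 1) {x : ℝ} (hx : |x| ≤ 1) :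
    0 ≤ phi θ x ∧ phi θ x ≤ 1 := by
  have h := one_sub_phi hθ0 hθ1 hx
  have hx2 : x ^ 2 ≤ 1 := by
    rw [← sq_abs]
    have := abs_nonneg x
    nlinarith
  constructor
  · linarith [h.2]
  · have : 0 ≤ (1 - θ ^ 2) * x ^ 2 := mul_nonneg (by nlinarith) (sq_nonneg x)
    linarith [h.1]

omit [Countable V] in
lemma er2_nonneg (hθ0 : 0 ≤ θ) (hθ1 : θ < 1) {x : V → V → ℝ} (hx : ∀ c p, |x c p| ≤ 1)
    (n : ℕ) (c p : V) : 0 ≤ Rn G θ x n c p := by
  induction n generalizing c p with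
  | zero => simp [Rn]
  | succ n ih =>
    rw [Rn]
    have : 0 ≤ ∑ g ∈ (G.neighborFinset c).erase p, phi θ (x g c) * Rn G θ x n g c :=
      Finset.sum_nonneg fun g _ => mul_nonneg (er2_phi hθ0 hθ1 (hx g c)).1 (ih g c)
    positivity

omit [Countable V] in
lemma er2_mono (hθ0 : 0 ≤ θ) (hθ1 : θ < 1) {x : V → V → ℝ} (hx : ∀ c p, |x c p| ≤ 1)
    (n : ℕ) (c p : V) : Rn G θ x n c p ≤ Rn G θ x (n + 1) c p := by
  induction n generalizing c p with
  | zero => exact er2_nonneg hθ0 hθ1 hx 1 c p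
  | succ n ih =>
    rw [Rn, Rn]
    have : ∑ g ∈ (G.neighborFinset c).erase p, phi θ (x g c) * Rn G θ x n g c
        ≤ ∑ g ∈ (G.neighborFinset c).erase p, phi θ (x g c) * Rn G θ x (n + 1) g c :=
      Finset.sum_le_sum fun g _ =>
        mul_le_mul_of_nonneg_left (ih g c) (er2_phi hθ0 hθ1 (hx g c)).1
    have h2 := mul_le_mul_of_nonneg_left this (sq_nonneg θ)
    linarith

omit [Countable V] in
lemma er2_le (hθ0 : 0 ≤ θ) (hθ1 : θ < 1) {x : V → V → ℝ} (hx : ∀ c p, |x c p| ≤ 1)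
    (n : ℕ) (c p : V) :
    Rn G θ x (n + 1) c p ≤ 1 + θ ^ 2 * ∑ g ∈ (G.neighborFinset c).erase p, Rn G θ x n g c := by
  rw [Rn]
  have : ∑ g ∈ (G.neighborFinset c).erase p, phi θ (x g c) * Rn G θ x n g c
      ≤ ∑ g ∈ (G.neighborFinset c).erase p, Rn G θ x n g c :=
    Finset.sum_le_sum fun g _ =>
      mul_le_of_le_one_left (er2_nonneg hθ0 hθ1 hx n g c) (er2_phi hθ0 hθ1 (hx g c)).2
  have h2 := mul_le_mul_of_nonneg_left this (sq_nonneg θ)
  linarith

lemma er2_measurable_phi : Measurable (phi θ) := by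
  unfold phi
  fun_prop

omit [Countable V] in
lemma er2_nice_phi (he : CavEnv0 G θ α P m) (hθ0 : 0 ≤ θ) (hθ1 : θ < 1) (c p : V) :
    Nice (fun a : V → ℝ => phi θ (m c p a)) := by
  refine ⟨er2_measurable_phi.comp (he.meas c p), 1, fun a => ?_⟩
  have h := er2_phi hθ0 hθ1 (he.bound c p a)
  rw [abs_of_nonneg h.1]
  exact h.2

omit [Countable V] in
lemma er2_nice (he : CavEnv0 G θ α P m) (hθ0 : 0 ≤ θ) (hθ1 : θ < 1) (n : ℕ) (c p : V) :
    Nice (fun a : V → ℝ => Rn G θ (fun c p => m c p a) n c p) := by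
  induction n generalizing c p with
  | zero =>
    simp only [Rn]
    exact Nice.const 0
  | succ n ih =>
    simp only [Rn]
    exact (Nice.const 1).add ((Nice.const (θ ^ 2)).mul (Nice.sum _ fun g _ =>
      (er2_nice_phi he hθ0 hθ1 g c).mul (ih g c)))

omit [Countable V] in
lemma er2_dep (he : CavEnv0 G θ α P m) (hG : G.IsTree) (n : ℕ) {c p : V} (h : G.Adj c p) :
    ObsDepOn (br G c p) (fun a : V → ℝ => Rn G θ (fun c p => m c p a) n c p) := by
  induction n generalizing c p with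
  | zero =>
    intro a a' _
    simp only [Rn]
  | succ n ih =>
    intro a a' haa
    simp only [Rn]
    congr 2
    apply Finset.sum_congr rfl
    intro g hg
    obtain ⟨hgp, hg⟩ := Finset.mem_erase.mp hg
    have hg' : G.Adj c g := by simpa using hg
    have hsub := br_subset hG h hg' hgp
    have e1 : m g c a = m g c a' := he.dep g c a a' fun w hw => haa w (hsub hw)
    have e2 := ih hg'.symm a a' fun w hw => haa w (hsub hw)
    simp only at e2
    rw [e1, e2]

omit [Countable V] in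
lemma er2_even (he : CavEnv0 G θ α P m) (n : ℕ) (c p : V) (a : V → ℝ) :
    Rn G θ (fun c p => m c p (fun v => - a v)) n c p = Rn G θ (fun c p => m c p a) n c p := by
  induction n generalizing c p with
  | zero => simp only [Rn]
  | succ n ih =>
    simp only [Rn]
    congr 2
    apply Finset.sum_congr rfl
    intro g _
    rw [ih, he.odd]
    congr 1
    unfold phi
    rw [neg_sq]

omit [Countable V] in
lemma er2_iso (g : G ≃g G) (x : V → V → ℝ) (n : ℕ) (c p : V) :
    Rn G θ (fun c p => x (g c) (g p)) n c p = Rn G θ x n (g c) (g p) := by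
  induction n generalizing c p with
  | zero => simp only [Rn]
  | succ n ih =>
    simp only [Rn]
    congr 2
    apply Finset.sum_bij (fun w _ => g w)
    · intro w hw
      obtain ⟨h1, h2⟩ := Finset.mem_erase.mp hw
      rw [Finset.mem_erase, mem_neighborFinset]
      refine ⟨fun e => h1 (g.injective e), g.map_adj_iff.mpr (by simpa using h2)⟩
    · intro w _ w' _ e
      exact g.injective e
    · intro w hw
      obtain ⟨h1, h2⟩ := Finset.mem_erase.mp hw
      rw [mem_neighborFinset] at h2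
      refine ⟨g.symm w, ?_, g.apply_symm_apply w⟩
      rw [Finset.mem_erase, mem_neighborFinset]
      refine ⟨fun e => h1 ?_, ?_⟩
      · rw [← e, g.apply_symm_apply]
      · rw [← g.map_adj_iff, g.apply_symm_apply]
        exact h2
    · intro w _
      rw [ih]

omit [Countable V] in
lemma er2_adj {x x' : V → V → ℝ} (hx : ∀ c p, G.Adj c p → x c p = x' c p) (n : ℕ) (c p : V) :
    Rn G θ x n c p = Rn G θ x' n c p := by
  induction n generalizing c p with
  | zero => simp only [Rn]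
  | succ n ih =>
    simp only [Rn]
    congr 2
    apply Finset.sum_congr rfl
    intro g hg
    have hg' : G.Adj c g := by simpa using (Finset.mem_erase.mp hg).2
    rw [ih, hx g c hg'.symm]

/-- means of equivariant functionals of the field do not depend on the edge -/
lemma er2_hom (he : CavEnv G θ α P m) (hG : G.IsTree) {d : ℕ} (hd : 2 ≤ d)
    (hreg : ∀ v, G.degree v = d) (K : (V → V → ℝ) → V → V → ℝ)
    (hKm : ∀ c p, Measurable (fun ω : Cfg V => K (fun c p => m c p ω.2) c p))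
    (hKiso : ∀ (g : G ≃g G) (x : V → V → ℝ) (c p : V), G.Adj c p →
      K (fun c p => x (g c) (g p)) c p = K x (g c) (g p))
    (hKadj : ∀ x x' : V → V → ℝ, (∀ c p, G.Adj c p → x c p = x' c p) →
      ∀ c p, G.Adj c p → K x c p = K x' c p)
    {c p c' p' : V} (h : G.Adj c p) (h' : G.Adj c' p') :
    ∫ ω, K (fun c p => m c p ω.2) c p ∂P = ∫ ω, K (fun c p => m c p ω.2) c' p' ∂P := by
  have h1 : G.dist c p = G.dist c' p' := by
    rw [dist_eq_one_iff_adj.mpr h, dist_eq_one_iff_adj.mpr h']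
  obtain ⟨g, hgc, hgp⟩ := exists_iso_pair hG hd hreg h1
  have hall : ∀ᵐ ω ∂P, ∀ c p, G.Adj c p → m (g c) (g p) ω.2 = m c p (fun v => ω.2 (g v)) := by
    rw [ae_all_iff]
    intro c
    rw [ae_all_iff]
    intro p
    by_cases h : G.Adj c p
    · filter_upwards [he.equiv g c p h] with ω hω _
      exact hω
    · filter_upwards with ω hcon
      exact absurd hcon h
  have e1 : ∫ ω, K (fun c p => m c p ω.2) c' p' ∂P
      = ∫ ω, K (fun c p => m c p (fun v => ω.2 (g v))) c p ∂P := by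
    apply integral_congr_ae
    filter_upwards [hall] with ω hω
    rw [← hKadj _ _ hω c p h, hKiso g (fun c p => m c p ω.2) c p h, hgc, hgp]
  have e2 : ∫ ω, K (fun c p => m c p ω.2) c p ∂P
      = ∫ ω, K (fun c p => m c p (fun v => ω.2 (g v))) c p ∂P := by
    conv_lhs => rw [← he.inv g]
    exact integral_map (measurable_precomp g).aemeasurable (hKm c p).aestronglyMeasurable
  rw [e1, e2]

/-- the exponential is at most its quadratic bound on the left of one -/
lemma er2_exp_quad {y : ℝ} (hy : y ≤ 1) : Real.exp y ≤ 1 + y + y ^ 2 := by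
  by_cases h : -1 ≤ y
  · have h1 := Real.abs_exp_sub_one_sub_id_le (x := y) (abs_le.mpr ⟨h, hy⟩)
    have h2 := (abs_le.mp h1).2
    linarith
  · have h1 : Real.exp y ≤ 1 := Real.exp_le_one_iff.mpr (by linarith)
    nlinarith

/-- a nice function composed with a scaled exponential -/
lemma er2_nice_exp {Ω : Type*} [MeasurableSpace Ω] {f : Ω → ℝ} (hf : Nice f) (t : ℝ) :
    Nice (fun ω => Real.exp (t * f ω)) := by
  obtain ⟨C, hC⟩ := hf.2
  refine ⟨Real.measurable_exp.comp (measurable_const.mul hf.1), Real.exp (|t| * C), fun ω => ?_⟩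
  rw [abs_of_pos (Real.exp_pos _)]
  apply Real.exp_le_exp.mpr
  calc t * f ω ≤ |t * f ω| := le_abs_self _
    _ = |t| * |f ω| := abs_mul _ _
    _ ≤ |t| * C := mul_le_mul_of_nonneg_left (hC ω) (abs_nonneg _)

/-- weighted arithmetic-geometric mean in exponential form, replacing Hoelder -/
lemma er2_holder {Ω : Type*} [MeasurableSpace Ω] {μ : Measure Ω} [IsProbabilityMeasure μ]
    {X U : Ω → ℝ} (hX : Nice X) (hU : Nice U) {t A B : ℝ}
    (h1 : ∫ ω, Real.exp ((3 / 2 * t) * X ω) ∂μ ≤ Real.exp A)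
    (h2 : ∫ ω, Real.exp (-(3 * t) * U ω) ∂μ ≤ Real.exp B) :
    ∫ ω, Real.exp (t * (X ω - U ω)) ∂μ ≤ Real.exp (2 / 3 * A + 1 / 3 * B) := by
  have n1 := er2_nice_exp hX (3 / 2 * t)
  have n2 := er2_nice_exp hU (-(3 * t))
  have n3 := er2_nice_exp (hX.sub hU) t
  have hpt : ∀ ω, Real.exp (t * (X ω - U ω)) ≤ Real.exp (2 / 3 * A + 1 / 3 * B) *
      (2 / 3 * Real.exp (-A) * Real.exp ((3 / 2 * t) * X ω)
        + 1 / 3 * Real.exp (-B) * Real.exp (-(3 * t) * U ω)) := by
    intro ω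
    have hc := convexOn_exp.2 (Set.mem_univ (3 / 2 * t * X ω - A))
      (Set.mem_univ (-(3 * t) * U ω - B)) (show (0 : ℝ) ≤ 2 / 3 by norm_num)
      (show (0 : ℝ) ≤ 1 / 3 by norm_num) (by norm_num)
    simp only [smul_eq_mul] at hc
    have e1 : Real.exp (t * (X ω - U ω)) = Real.exp (2 / 3 * A + 1 / 3 * B) *
        Real.exp (2 / 3 * (3 / 2 * t * X ω - A) + 1 / 3 * (-(3 * t) * U ω - B)) := by
      rw [← Real.exp_add]
      congr 1
      ring
    rw [e1]
    apply mul_le_mul_of_nonneg_left _ (Real.exp_pos _).le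
    have e2 : Real.exp (3 / 2 * t * X ω - A) = Real.exp (-A) * Real.exp ((3 / 2 * t) * X ω) := by
      rw [← Real.exp_add]
      congr 1
      ring
    have e3 : Real.exp (-(3 * t) * U ω - B) = Real.exp (-B) * Real.exp (-(3 * t) * U ω) := by
      rw [← Real.exp_add]
      congr 1
      ring
    rw [e2, e3] at hc
    linarith
  have n4 : Nice (fun ω => Real.exp (2 / 3 * A + 1 / 3 * B) *
      (2 / 3 * Real.exp (-A) * Real.exp ((3 / 2 * t) * X ω)
        + 1 / 3 * Real.exp (-B) * Real.exp (-(3 * t) * U ω))) :=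
    (Nice.const _).mul (((Nice.const _).mul n1).add ((Nice.const _).mul n2))
  refine (n3.integral_mono' n4 μ hpt).trans ?_
  rw [integral_const_mul, ((Nice.const _).mul n1).integral_add' ((Nice.const _).mul n2),
    integral_const_mul, integral_const_mul]
  have e4 : Real.exp (-A) * ∫ ω, Real.exp ((3 / 2 * t) * X ω) ∂μ ≤ 1 := by
    calc _ ≤ Real.exp (-A) * Real.exp A := mul_le_mul_of_nonneg_left h1 (Real.exp_pos _).le
      _ = 1 := by rw [← Real.exp_add]; simp
  have e5 : Real.exp (-B) * ∫ ω, Real.exp (-(3 * t) * U ω) ∂μ ≤ 1 := by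
    calc _ ≤ Real.exp (-B) * Real.exp B := mul_le_mul_of_nonneg_left h2 (Real.exp_pos _).le
      _ = 1 := by rw [← Real.exp_add]; simp
  calc _ ≤ Real.exp (2 / 3 * A + 1 / 3 * B) * 1 := by
        apply mul_le_mul_of_nonneg_left _ (Real.exp_pos _).le
        nlinarith
    _ = _ := mul_one _

end ER2

/-- one Hoelder step for a child -/
lemma er2_child {Ω : Type*} [MeasurableSpace Ω] {μ : Measure Ω} [IsProbabilityMeasure μ]
    {R φ : Ω → ℝ} (hR : Nice R) (hφ : Nice φ) (hR0 : ∀ ω, 0 ≤ R ω) (hφ0 : ∀ ω, 0 ≤ φ ω)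
    (hφ1 : ∀ ω, φ ω ≤ 1) {t A D : ℝ} (ht0 : 0 ≤ t) (ht1 : 3 * t ≤ 1)
    (hinc : ∫ ω, R ω ∂μ - ∫ ω, φ ω * R ω ∂μ ≤ 1)
    (hR2 : ∫ ω, R ω ^ 2 ∂μ ≤ D)
    (h1 : ∫ ω, Real.exp ((3 / 2 * t) * (R ω - ∫ ω, R ω ∂μ)) ∂μ ≤ Real.exp A) :
    ∫ ω, Real.exp (t * (φ ω * R ω - ∫ ω, φ ω * R ω ∂μ)) ∂μ
      ≤ Real.exp (2 / 3 * A + 1 / 3 * ((3 * t) ^ 2 * D)) := by
  set r := ∫ ω, R ω ∂μ with hr
  set β := ∫ ω, φ ω * R ω ∂μ with hβ
  set U : Ω → ℝ := fun ω => (R ω - φ ω * R ω) - (r - β) with hU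
  have nY : Nice (fun ω => R ω - φ ω * R ω) := hR.sub (hφ.mul hR)
  have nU : Nice U := nY.sub (Nice.const _)
  have nX : Nice (fun ω => R ω - r) := hR.sub (Nice.const _)
  have hY0 : ∀ ω, 0 ≤ R ω - φ ω * R ω := by
    intro ω
    have := mul_nonneg (sub_nonneg.mpr (hφ1 ω)) (hR0 ω)
    linarith
  have hYR : ∀ ω, R ω - φ ω * R ω ≤ R ω := by
    intro ω
    have := mul_nonneg (hφ0 ω) (hR0 ω)
    linarith
  have hYm : ∫ ω, (R ω - φ ω * R ω) ∂μ = r - β := hR.integral_sub' (hφ.mul hR) μ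
  have hUm : ∫ ω, U ω ∂μ = 0 := by
    rw [hU, nY.integral_sub' (Nice.const _), hYm]
    simp
  have hU2 : ∫ ω, U ω ^ 2 ∂μ ≤ D := by
    rw [hU, nY.integral_sub_sq (Nice.const _), integral_mul_const, hYm]
    have e1 : ∫ ω, (R ω - φ ω * R ω) ^ 2 ∂μ ≤ ∫ ω, R ω ^ 2 ∂μ := by
      apply (nY.pow 2).integral_mono' (hR.pow 2)
      intro ω
      exact pow_le_pow_left₀ (hY0 ω) (hYR ω) 2
    simp only [integral_const, probReal_univ, smul_eq_mul, one_mul]
    nlinarith [sq_nonneg (r - β)]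
  have h2 : ∫ ω, Real.exp (-(3 * t) * U ω) ∂μ ≤ Real.exp ((3 * t) ^ 2 * D) := by
    have n2 := er2_nice_exp nU (-(3 * t))
    have n3 : Nice (fun ω => (1 + (-(3 * t)) * U ω) + (3 * t) ^ 2 * U ω ^ 2) :=
      ((Nice.const 1).add ((Nice.const _).mul nU)).add ((Nice.const _).mul (nU.pow 2))
    have hpt : ∀ ω, Real.exp (-(3 * t) * U ω)
        ≤ (1 + (-(3 * t)) * U ω) + (3 * t) ^ 2 * U ω ^ 2 := by
      intro ω
      have hle : -(3 * t) * U ω ≤ 1 := by
        have h3 : - U ω ≤ 1 := by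
          simp only [hU]
          linarith [hY0 ω]
        calc -(3 * t) * U ω = (3 * t) * (- U ω) := by ring
          _ ≤ (3 * t) * 1 := mul_le_mul_of_nonneg_left h3 (by linarith)
          _ ≤ 1 := by linarith
      have := er2_exp_quad hle
      nlinarith
    refine (n2.integral_mono' n3 μ hpt).trans ?_
    rw [((Nice.const 1).add ((Nice.const _).mul nU)).integral_add' ((Nice.const _).mul (nU.pow 2)),
      (Nice.const 1).integral_add' ((Nice.const _).mul nU), integral_const_mul,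
      integral_const_mul, hUm]
    simp only [integral_const, probReal_univ, smul_eq_mul, one_mul, mul_zero, add_zero]
    have h3 : (3 * t) ^ 2 * ∫ ω, U ω ^ 2 ∂μ ≤ (3 * t) ^ 2 * D :=
      mul_le_mul_of_nonneg_left hU2 (sq_nonneg _)
    have h4 := Real.add_one_le_exp ((3 * t) ^ 2 * D)
    linarith
  have key := er2_holder nX nU h1 h2
  have e : ∀ ω, (R ω - r) - U ω = φ ω * R ω - β := by
    intro ω
    simp only [hU]
    ring
  simp only [e] at key
  exact key

section ER2b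

variable {θ α : ℝ} {P : Measure (Cfg V)} {m : V → V → (V → ℝ) → ℝ}

/-- exponential moments of sums over the children factorize -/
lemma er2_indep (he : CavEnv0 G θ α P m) (hG : G.IsTree) {c : V} (S : Finset V)
    (hS : ∀ g ∈ S, G.Adj c g) (F : V → (V → ℝ) → ℝ) (hF : ∀ g ∈ S, Nice (F g))
    (hFd : ∀ g ∈ S, ObsDepOn (br G g c) (F g))
    (hFe : ∀ g ∈ S, ∀ a : V → ℝ, F g (fun v => - a v) = F g a) (t : ℝ) :
    ∫ ω, Real.exp (t * ∑ g ∈ S, F g ω.2) ∂P = ∏ g ∈ S, ∫ ω, Real.exp (t * F g ω.2) ∂P := by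
  have e : ∀ ω : Cfg V, Real.exp (t * ∑ g ∈ S, F g ω.2) = ∏ g ∈ S, Real.exp (t * F g ω.2) := by
    intro ω
    rw [Finset.mul_sum, Real.exp_sum]
  simp only [e]
  apply indep_prod he hG S (fun g => g) (fun _ => c) (fun g hg => (hS g hg).symm)
    (fun g hg g' hg' hne => br_disjoint hG (hS g hg) (hS g' hg') hne)
    (fun g ω => Real.exp (t * F g ω.2))
  · intro g hg
    exact nice_obs (er2_nice_exp (hF g hg) t)
  · intro g hg ω ω' hω
    show Real.exp (t * F g ω.2) = Real.exp (t * F g ω'.2)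
    rw [hFd g hg ω.2 ω'.2 fun w hw => (hω w hw).2]
  · intro g hg ω
    show Real.exp (t * F g (fun v => - ω.2 v)) = Real.exp (t * F g ω.2)
    rw [hFe g hg]

omit [Countable V] in
lemma er2_card {d : ℕ} (hd : 3 ≤ d) (hreg : ∀ v, G.degree v = d) {c p : V} (h : G.Adj c p) :
    (((G.neighborFinset c).erase p).card : ℝ) = (d : ℝ) - 1 := by
  have hmem : p ∈ G.neighborFinset c := by simpa using h
  rw [Finset.card_erase_of_mem hmem, card_neighborFinset_eq_degree, hreg]
  rw [Nat.cast_sub (by omega)]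
  simp

/-- the increment of the means is at most one -/
lemma er2_increment {d : ℕ} (hd : 3 ≤ d) (hθ0 : 0 < θ) (hθ1 : θ < 1)
    (hcrit : ((d : ℝ) - 1) * θ ^ 2 = 1) (hG : G.IsTree) (hreg : ∀ v, G.degree v = d)
    (he : CavEnv G θ α P m) (n : ℕ) {c p : V} (h : G.Adj c p) :
    ∫ ω, Rn G θ (fun c p => m c p ω.2) n c p ∂P
      - ∫ ω, phi θ (m c p ω.2) * Rn G θ (fun c p => m c p ω.2) n c p ∂P ≤ 1 := by
  have hprob := he.prob
  have he0 := he.toCavEnv0
  have nR : ∀ n c p, Nice (fun ω : Cfg V => Rn G θ (fun c p => m c p ω.2) n c p) :=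
    fun n c p => nice_obs (er2_nice he0 hθ0.le hθ1 n c p)
  have nφ : ∀ c p, Nice (fun ω : Cfg V => phi θ (m c p ω.2)) :=
    fun c p => nice_obs (er2_nice_phi he0 hθ0.le hθ1 c p)
  set β := ∫ ω, phi θ (m c p ω.2) * Rn G θ (fun c p => m c p ω.2) n c p ∂P with hβ
  have hβ' : ∀ g ∈ (G.neighborFinset c).erase p,
      ∫ ω, phi θ (m g c ω.2) * Rn G θ (fun c p => m c p ω.2) n g c ∂P = β := by
    intro g hg
    have hg' : G.Adj c g := by simpa using (Finset.mem_erase.mp hg).2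
    rw [hβ]
    apply er2_hom he hG (by omega) hreg (fun x c p => phi θ (x c p) * Rn G θ x n c p)
      (fun c p => ((nφ c p).mul (nR n c p)).measurable) _ _ hg'.symm h
    · intro g x c p _
      show phi θ (x (g c) (g p)) * _ = _
      rw [er2_iso]
    · intro x x' hxx c p hcp
      show phi θ (x c p) * _ = phi θ (x' c p) * _
      rw [er2_adj hxx, hxx c p hcp]
  have e1 : ∫ ω, Rn G θ (fun c p => m c p ω.2) (n + 1) c p ∂P = 1 + β := by
    simp only [Rn]
    rw [(Nice.const 1).integral_add' ((Nice.const (θ ^ 2)).mul (Nice.sum _ fun g _ =>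
      (nφ g c).mul (nR n g c))), integral_const_mul, integral_finsetSum _ (fun g _ =>
      ((nφ g c).mul (nR n g c)).integrable P), Finset.sum_congr rfl hβ', Finset.sum_const,
      nsmul_eq_mul, er2_card hd hreg h]
    simp only [integral_const, probReal_univ, smul_eq_mul, one_mul]
    rw [← mul_assoc, mul_comm (θ ^ 2), hcrit, one_mul]
  have e2 : ∫ ω, Rn G θ (fun c p => m c p ω.2) n c p ∂P
      ≤ ∫ ω, Rn G θ (fun c p => m c p ω.2) (n + 1) c p ∂P :=
    (nR n c p).integral_mono' (nR (n + 1) c p) P fun ω =>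
      er2_mono hθ0.le hθ1 (fun c p => he.bound c p ω.2) n c p
  linarith

/-- the recursion for the exponential moments -/
lemma er2_exp_rec {d : ℕ} (hd : 3 ≤ d) (hθ0 : 0 < θ) (hθ1 : θ < 1)
    (hcrit : ((d : ℝ) - 1) * θ ^ 2 = 1) (hG : G.IsTree) (hreg : ∀ v, G.degree v = d)
    (he : CavEnv G θ α P m) {D : ℝ} (hD0 : 0 ≤ D)
    (hD : ∀ n c p, G.Adj c p → ∫ ω, Rn G θ (fun c p => m c p ω.2) n c p ^ 2 ∂P ≤ D)
    (n : ℕ) : ∀ (h : ℝ) (c p : V), G.Adj c p → 0 ≤ h → h ≤ 2 / 3 →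
      ∫ ω, Real.exp (h * (Rn G θ (fun c p => m c p ω.2) n c p
        - ∫ ω', Rn G θ (fun c p => m c p ω'.2) n c p ∂P)) ∂P ≤ Real.exp (6 * D * h ^ 2) := by
  have hprob := he.prob
  have he0 := he.toCavEnv0
  have hθ2 : θ ^ 2 ≤ 1 / 2 := by
    have h3 : (3 : ℝ) ≤ d := by exact_mod_cast hd
    nlinarith [sq_nonneg θ]
  have nR : ∀ n c p, Nice (fun ω : Cfg V => Rn G θ (fun c p => m c p ω.2) n c p) :=
    fun n c p => nice_obs (er2_nice he0 hθ0.le hθ1 n c p)
  have nφ : ∀ c p, Nice (fun ω : Cfg V => phi θ (m c p ω.2)) :=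
    fun c p => nice_obs (er2_nice_phi he0 hθ0.le hθ1 c p)
  induction n with
  | zero =>
    intro h c p hcp hh0 hh1
    simp only [Rn]
    simp only [integral_const, smul_eq_mul, mul_zero, sub_zero, Real.exp_zero, mul_one,
      probReal_univ]
    rw [← Real.exp_zero]
    exact Real.exp_le_exp.mpr (by positivity)
  | succ n ih =>
    intro h c p hcp hh0 hh1
    set S := (G.neighborFinset c).erase p with hS
    have hSadj : ∀ g ∈ S, G.Adj c g := by
      intro g hg
      simpa using (Finset.mem_erase.mp hg).2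
    set β : V → ℝ := fun g =>
      ∫ ω, phi θ (m g c ω.2) * Rn G θ (fun c p => m c p ω.2) n g c ∂P with hβ
    have e1 : ∫ ω, Rn G θ (fun c p => m c p ω.2) (n + 1) c p ∂P = 1 + θ ^ 2 * ∑ g ∈ S, β g := by
      simp only [Rn]
      rw [(Nice.const 1).integral_add' ((Nice.const (θ ^ 2)).mul (Nice.sum _ fun g _ =>
        (nφ g c).mul (nR n g c))), integral_const_mul, integral_finsetSum _ (fun g _ =>
        ((nφ g c).mul (nR n g c)).integrable P)]
      simp only [integral_const, probReal_univ, smul_eq_mul, one_mul]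
      rfl
    have e2 : ∀ ω : Cfg V, h * (Rn G θ (fun c p => m c p ω.2) (n + 1) c p
          - ∫ ω', Rn G θ (fun c p => m c p ω'.2) (n + 1) c p ∂P)
        = (h * θ ^ 2) * ∑ g ∈ S,
          (phi θ (m g c ω.2) * Rn G θ (fun c p => m c p ω.2) n g c - β g) := by
      intro ω
      rw [e1]
      simp only [Rn]
      rw [Finset.sum_sub_distrib]
      ring
    simp only [e2]
    rw [er2_indep he0 hG S hSadj
      (fun g a => phi θ (m g c a) * Rn G θ (fun c p => m c p a) n g c - β g)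
      (fun g _ => ((er2_nice_phi he0 hθ0.le hθ1 g c).mul
        (er2_nice he0 hθ0.le hθ1 n g c)).sub (Nice.const _))
      (fun g hg a a' haa => by
        show phi θ (m g c a) * _ - _ = phi θ (m g c a') * _ - _
        rw [he.dep g c a a' haa]
        have := er2_dep he0 hG n (hSadj g hg).symm a a' haa
        simp only at this
        rw [this])
      (fun g _ a => by
        show phi θ (m g c (fun v => - a v)) * _ - _ = phi θ (m g c a) * _ - _
        rw [er2_even he0, he.odd]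
        congr 2
        unfold phi
        rw [neg_sq]) (h * θ ^ 2)]
    set t := h * θ ^ 2 with ht
    have ht0 : 0 ≤ t := by positivity
    have ht1 : t ≤ 1 / 3 := by
      have := mul_le_mul hh1 hθ2 (sq_nonneg θ) (by norm_num : (0 : ℝ) ≤ 2 / 3)
      linarith
    have hstep : ∀ g ∈ S, ∫ ω, Real.exp (t *
        (phi θ (m g c ω.2) * Rn G θ (fun c p => m c p ω.2) n g c - β g)) ∂P
        ≤ Real.exp (2 / 3 * (6 * D * (3 / 2 * t) ^ 2) + 1 / 3 * ((3 * t) ^ 2 * D)) := by
      intro g hg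
      exact er2_child (nR n g c) (nφ g c)
        (fun ω => er2_nonneg hθ0.le hθ1 (fun c p => he.bound c p ω.2) n g c)
        (fun ω => (er2_phi hθ0.le hθ1 (he.bound g c ω.2)).1)
        (fun ω => (er2_phi hθ0.le hθ1 (he.bound g c ω.2)).2) ht0 (by linarith)
        (er2_increment hd hθ0 hθ1 hcrit hG hreg he n (hSadj g hg).symm)
        (hD n g c (hSadj g hg).symm)
        (ih (3 / 2 * t) g c (hSadj g hg).symm (by positivity) (by linarith))
    calc _ ≤ ∏ g ∈ S, Real.exp (2 / 3 * (6 * D * (3 / 2 * t) ^ 2) + 1 / 3 * ((3 * t) ^ 2 * D)) :=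
          Finset.prod_le_prod (fun g _ => integral_nonneg fun ω => (Real.exp_pos _).le) hstep
      _ = Real.exp (S.card * (2 / 3 * (6 * D * (3 / 2 * t) ^ 2) + 1 / 3 * ((3 * t) ^ 2 * D))) := by
          rw [Finset.prod_const, ← Real.exp_nat_mul]
      _ ≤ Real.exp (6 * D * h ^ 2) := by
          apply Real.exp_le_exp.mpr
          rw [hS, er2_card hd hreg hcp]
          have e3 : ((d : ℝ) - 1) * (2 / 3 * (6 * D * (3 / 2 * t) ^ 2) + 1 / 3 * ((3 * t) ^ 2 * D))
              = (((d : ℝ) - 1) * θ ^ 2) * θ ^ 2 * (12 * D * h ^ 2) := by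
            rw [ht]
            ring
          rw [e3, hcrit, one_mul]
          have : 0 ≤ 12 * D * h ^ 2 := by positivity
          nlinarith

/-- star sums -/
lemma er2_star (he : CavEnv0 G θ α P m) (hG : G.IsTree) (hθ0 : 0 ≤ θ) (hθ1 : θ < 1) {c : V}
    (S : Finset V) (hS : ∀ g ∈ S, G.Adj c g) (n : ℕ) {t F : ℝ}
    (hF : ∀ g ∈ S, ∫ ω, Real.exp (t * θ ^ 2 * Rn G θ (fun c p => m c p ω.2) n g c) ∂P
      ≤ Real.exp F) :
    ∫ ω, Real.exp (t * (1 + θ ^ 2 * ∑ g ∈ S, Rn G θ (fun c p => m c p ω.2) n g c)) ∂P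
      ≤ Real.exp (t + S.card * F) := by
  have e : ∀ ω : Cfg V, Real.exp (t * (1 + θ ^ 2 * ∑ g ∈ S, Rn G θ (fun c p => m c p ω.2) n g c))
      = Real.exp t * Real.exp (t * θ ^ 2 * ∑ g ∈ S, Rn G θ (fun c p => m c p ω.2) n g c) := by
    intro ω
    rw [← Real.exp_add]
    congr 1
    ring
  simp only [e]
  rw [integral_const_mul, er2_indep he hG S hS
    (fun g a => Rn G θ (fun c p => m c p a) n g c)
    (fun g _ => er2_nice he hθ0 hθ1 n g c)
    (fun g hg => er2_dep he hG n (hS g hg).symm)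
    (fun g _ a => er2_even he n g c a) (t * θ ^ 2), Real.exp_add]
  apply mul_le_mul_of_nonneg_left _ (Real.exp_pos _).le
  calc _ ≤ ∏ g ∈ S, Real.exp F :=
        Finset.prod_le_prod (fun g _ => integral_nonneg fun ω => (Real.exp_pos _).le) hF
    _ = _ := by rw [Finset.prod_const, ← Real.exp_nat_mul]

/-- exponential moments at the scale of the generation `L` -/
lemma er2_gen {d : ℕ} (hd : 3 ≤ d) (hθ0 : 0 < θ) (hθ1 : θ < 1)
    (hcrit : ((d : ℝ) - 1) * θ ^ 2 = 1) (hG : G.IsTree) (hreg : ∀ v, G.degree v = d)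
    (he : CavEnv0 G θ α P m) {y E : ℝ} (hy0 : 0 ≤ y) (hE0 : 0 ≤ E)
    (hbase : ∀ n c p, G.Adj c p →
      ∫ ω, Real.exp (y * Rn G θ (fun c p => m c p ω.2) n c p) ∂P ≤ Real.exp E) (L : ℕ) :
    ∀ n c p, G.Adj c p →
      ∫ ω, Real.exp (((d : ℝ) - 1) ^ L * y * Rn G θ (fun c p => m c p ω.2) n c p) ∂P
        ≤ Real.exp (((d : ℝ) - 1) ^ L * (y * L + E)) := by
  have hprob := he.prob
  have h3 : (3 : ℝ) ≤ d := by exact_mod_cast hd
  have hb : 0 ≤ (d : ℝ) - 1 := by linarith
  induction L with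
  | zero =>
    intro n c p h
    simpa using hbase n c p h
  | succ L ih =>
    intro n c p h
    rcases n with _ | n
    · simp only [Rn, mul_zero, Real.exp_zero, integral_const, probReal_univ, smul_eq_mul, mul_one]
      exact Real.one_le_exp (mul_nonneg (pow_nonneg hb _) (by positivity))
    · have nR : ∀ n c p, Nice (fun ω : Cfg V => Rn G θ (fun c p => m c p ω.2) n c p) :=
        fun n c p => nice_obs (er2_nice he hθ0.le hθ1 n c p)
      set S := (G.neighborFinset c).erase p with hS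
      have hSadj : ∀ g ∈ S, G.Adj c g := by
        intro g hg
        simpa using (Finset.mem_erase.mp hg).2
      have e0 : ((d : ℝ) - 1) ^ (L + 1) * y * θ ^ 2 = ((d : ℝ) - 1) ^ L * y := by
        rw [pow_succ]
        calc _ = ((d : ℝ) - 1) ^ L * y * (((d : ℝ) - 1) * θ ^ 2) := by ring
          _ = _ := by rw [hcrit, mul_one]
      have key := er2_star he hG hθ0.le hθ1 S hSadj n (t := ((d : ℝ) - 1) ^ (L + 1) * y)
        (F := ((d : ℝ) - 1) ^ L * (y * L + E)) (fun g hg => by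
          rw [e0]
          exact ih n g c (hSadj g hg).symm)
      have nS : Nice (fun ω : Cfg V =>
          1 + θ ^ 2 * ∑ g ∈ S, Rn G θ (fun c p => m c p ω.2) n g c) :=
        (Nice.const 1).add ((Nice.const _).mul (Nice.sum _ fun g _ => nR n g c))
      refine ((er2_nice_exp (nR (n + 1) c p) (((d : ℝ) - 1) ^ (L + 1) * y)).integral_mono'
        (er2_nice_exp nS (((d : ℝ) - 1) ^ (L + 1) * y)) P fun ω => ?_).trans (key.trans ?_)
      · apply Real.exp_le_exp.mpr
        apply mul_le_mul_of_nonneg_left _ (mul_nonneg (pow_nonneg hb _) hy0)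
        exact er2_le hθ0.le hθ1 (fun c p => he.bound c p ω.2) n c p
      · apply Real.exp_le_exp.mpr
        rw [hS, er2_card hd hreg h]
        apply le_of_eq
        push_cast
        ring

/-- the truncated full susceptibility -/
noncomputable def er2Y (G : SimpleGraph V) [LocallyFinite G] (θ : ℝ)
    (x : V → V → ℝ) (n : ℕ) (v : V) : ℝ :=
  1 + θ ^ 2 * ∑ g ∈ G.neighborFinset v, Rn G θ x n g v

omit [Countable V] in
lemma er2Y_one_le (hθ0 : 0 ≤ θ) (hθ1 : θ < 1) {x : V → V → ℝ} (hx : ∀ c p, |x c p| ≤ 1)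
    (n : ℕ) (v : V) : 1 ≤ er2Y G θ x n v := by
  unfold er2Y
  have : 0 ≤ ∑ g ∈ G.neighborFinset v, Rn G θ x n g v :=
    Finset.sum_nonneg fun g _ => er2_nonneg hθ0 hθ1 hx n g v
  have : 0 ≤ θ ^ 2 * ∑ g ∈ G.neighborFinset v, Rn G θ x n g v := by positivity
  linarith

omit [Countable V] in
lemma er2Y_mono (hθ0 : 0 ≤ θ) (hθ1 : θ < 1) {x : V → V → ℝ} (hx : ∀ c p, |x c p| ≤ 1)
    (v : V) : Monotone (fun n => er2Y G θ x n v) := by
  apply monotone_nat_of_le_succ
  intro n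
  unfold er2Y
  have : ∑ g ∈ G.neighborFinset v, Rn G θ x n g v
      ≤ ∑ g ∈ G.neighborFinset v, Rn G θ x (n + 1) g v :=
    Finset.sum_le_sum fun g _ => er2_mono hθ0 hθ1 hx n g v
  have h2 := mul_le_mul_of_nonneg_left this (sq_nonneg θ)
  linarith

omit [Countable V] in
lemma er2Y_nice (he : CavEnv0 G θ α P m) (hθ0 : 0 ≤ θ) (hθ1 : θ < 1) (n : ℕ) (v : V) :
    Nice (fun ω : Cfg V => er2Y G θ (fun c p => m c p ω.2) n v) := by
  unfold er2Y
  exact (Nice.const 1).add ((Nice.const _).mul (Nice.sum _ fun g _ =>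
    nice_obs (er2_nice he hθ0 hθ1 n g v)))

omit [Countable V] in
/-- the full susceptibility is dominated by the truncated ones -/
lemma er2Y_sup (hθ0 : 0 ≤ θ) (hθ1 : θ < 1) (hα1 : α < 1) (hG : G.IsTree) {x : V → V → ℝ}
    (hm : IsCavity G θ α x) (hx : ∀ c p, |x c p| ≤ 1) (v : V) :
    Rf G θ x v ≤ ⨆ n, ENNReal.ofReal (er2Y G θ x n v) := by
  rw [Rf_rec hθ0 hθ1 hα1 hG hm v]
  have e : ∀ n, ENNReal.ofReal (er2Y G θ x n v)
      = 1 + ∑ g ∈ G.neighborFinset v, ENNReal.ofReal (θ ^ 2) * ENNReal.ofReal (Rn G θ x n g v) := by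
    intro n
    unfold er2Y
    rw [ENNReal.ofReal_add zero_le_one (mul_nonneg (sq_nonneg θ) (Finset.sum_nonneg fun g _ =>
      er2_nonneg hθ0 hθ1 hx n g v)), ENNReal.ofReal_one, ENNReal.ofReal_mul (sq_nonneg θ),
      ENNReal.ofReal_sum_of_nonneg (fun g _ => er2_nonneg hθ0 hθ1 hx n g v), Finset.mul_sum]
  simp only [e]
  rw [← ENNReal.add_iSup, ← ENNReal.finsetSum_iSup_of_monotone]
  · gcongr with g hg
    have hg' : G.Adj v g := by simpa using hg
    rw [← ENNReal.mul_iSup, Rb_eq_iSup hθ0 hθ1 hα1 hG hm hg'.symm]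
    gcongr
    exact mul_le_of_le_one_right (sq_nonneg θ) (er2_phi hθ0 hθ1 (hx g v)).2
  · intro g
    apply monotone_nat_of_le_succ
    intro n
    gcongr
    exact er2_mono hθ0 hθ1 hx n g v

/-- moments from exponential moments -/
lemma er2_moment {Ω : Type*} [MeasurableSpace Ω] {μ : Measure Ω} [IsProbabilityMeasure μ]
    {Y : Ω → ℝ} (hY : Nice Y) (hY0 : ∀ ω, 0 ≤ Y ω) {s M : ℝ} (hs : 0 < s)
    (hM : ∫ ω, Real.exp (s * Y ω) ∂μ ≤ M) (k : ℕ) :
    ∫ ω, Y ω ^ k ∂μ ≤ k.factorial * M / s ^ k := by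
  have hsk : 0 < s ^ k := by positivity
  have hpt : ∀ ω, Y ω ^ k ≤ (k.factorial / s ^ k) * Real.exp (s * Y ω) := by
    intro ω
    have h1 := Real.pow_div_factorial_le_exp (x := s * Y ω) (mul_nonneg hs.le (hY0 ω)) k
    have hf : (0 : ℝ) < k.factorial := by exact_mod_cast k.factorial_pos
    rw [div_le_iff₀ hf, mul_pow] at h1
    rw [div_mul_eq_mul_div, le_div_iff₀ hsk]
    linarith
  have hn := er2_nice_exp hY s
  refine ((hY.pow k).integral_mono' ((Nice.const _).mul hn) μ hpt).trans ?_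
  rw [integral_const_mul]
  calc _ ≤ (k.factorial / s ^ k) * M := mul_le_mul_of_nonneg_left hM (by positivity)
    _ = _ := by ring

/-- pointwise tail bound -/
lemma er2_tail_pt {f : ℕ → ℝ} (hf : Monotone f) (hf0 : ∀ n, 0 ≤ f n) {R : ENNReal}
    (hR : R ≤ ⨆ n, ENNReal.ofReal (f n)) {T l : ℝ} (hl : 0 < l) (hRT : ENNReal.ofReal T < R) :
    R ^ 2 ≤ ENNReal.ofReal (2 / l ^ 2 * Real.exp (-(l * T)))
      * ⨆ n, ENNReal.ofReal (Real.exp (2 * l * f n)) := by
  obtain ⟨n₀, hn₀⟩ := lt_iSup_iff.mp (hRT.trans_le hR)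
  have hT : T < f n₀ := (ENNReal.ofReal_lt_ofReal_iff'.mp hn₀).1
  calc R ^ 2 ≤ (⨆ n, ENNReal.ofReal (f n)) ^ 2 := by gcongr
    _ = ⨆ n, ENNReal.ofReal (f n) ^ 2 := ENNReal.iSup_pow _ 2
    _ ≤ _ := by
      apply iSup_le
      intro n
      have h1 : f n ≤ f (max n n₀) := hf (le_max_left _ _)
      have h2 : T ≤ f (max n n₀) := hT.le.trans (hf (le_max_right _ _))
      set y := f (max n n₀) with hy
      have hy0 : 0 ≤ y := hf0 _
      have h3 : y ^ 2 ≤ 2 / l ^ 2 * Real.exp (-(l * T)) * Real.exp (2 * l * y) := by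
        have h4 := Real.pow_div_factorial_le_exp (x := l * y) (mul_nonneg hl.le hy0) 2
        have h5 : Real.exp (l * y) ≤ Real.exp (-(l * T)) * Real.exp (2 * l * y) := by
          rw [← Real.exp_add]
          apply Real.exp_le_exp.mpr
          nlinarith
        have h6 : (l * y) ^ 2 ≤ 2 * (Real.exp (-(l * T)) * Real.exp (2 * l * y)) := by
          have h7 : ((Nat.factorial 2 : ℕ) : ℝ) = 2 := by norm_num [Nat.factorial]
          rw [h7, div_le_iff₀ (by norm_num : (0 : ℝ) < 2)] at h4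
          linarith
        have h8 : 0 < l ^ 2 := by positivity
        rw [mul_assoc, div_mul_eq_mul_div, le_div_iff₀ h8]
        calc y ^ 2 * l ^ 2 = (l * y) ^ 2 := by ring
          _ ≤ _ := h6
      calc ENNReal.ofReal (f n) ^ 2 = ENNReal.ofReal (f n ^ 2) :=
            (ENNReal.ofReal_pow (hf0 n) 2).symm
        _ ≤ ENNReal.ofReal (2 / l ^ 2 * Real.exp (-(l * T)) * Real.exp (2 * l * y)) := by
            apply ENNReal.ofReal_le_ofReal
            exact (pow_le_pow_left₀ (hf0 n) h1 2).trans h3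
        _ = ENNReal.ofReal (2 / l ^ 2 * Real.exp (-(l * T)))
            * ENNReal.ofReal (Real.exp (2 * l * y)) :=
            ENNReal.ofReal_mul (by positivity)
        _ ≤ _ := by
            gcongr
            exact le_iSup (fun n => ENNReal.ofReal (Real.exp (2 * l * f n))) (max n n₀)

/-- supremum of nice functions with bounded means -/
lemma er2_lintegral_sup {Ω : Type*} [MeasurableSpace Ω] {μ : Measure Ω} [IsProbabilityMeasure μ]
    {f : ℕ → Ω → ℝ} (hf : ∀ n, Nice (f n)) (hf0 : ∀ n ω, 0 ≤ f n ω)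
    (hmono : ∀ ω, Monotone (fun n => f n ω)) {M : ℝ} (hM : ∀ n, ∫ ω, f n ω ∂μ ≤ M) :
    ∫⁻ ω, ⨆ n, ENNReal.ofReal (f n ω) ∂μ ≤ ENNReal.ofReal M := by
  rw [lintegral_iSup (fun n => (hf n).measurable.ennreal_ofReal)
    (fun i j hij ω => ENNReal.ofReal_le_ofReal (hmono ω hij))]
  apply iSup_le
  intro n
  rw [← ofReal_integral_eq_lintegral_ofReal ((hf n).integrable μ)
    (Filter.Eventually.of_forall (hf0 n))]
  exact ENNReal.ofReal_le_ofReal (hM n)

/-- the exponential moments of the truncated full susceptibility -/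
lemma er2Y_exp {d : ℕ} (hd : 3 ≤ d) (hθ0 : 0 < θ) (hθ1 : θ < 1)
    (hcrit : ((d : ℝ) - 1) * θ ^ 2 = 1) (hG : G.IsTree) (hreg : ∀ v, G.degree v = d)
    (he : CavEnv0 G θ α P m) {y E : ℝ} (hy0 : 0 ≤ y) (hE0 : 0 ≤ E)
    (hbase : ∀ n c p, G.Adj c p →
      ∫ ω, Real.exp (y * Rn G θ (fun c p => m c p ω.2) n c p) ∂P ≤ Real.exp E) (L n : ℕ) (v : V) :
    ∫ ω, Real.exp (((d : ℝ) - 1) ^ (L + 1) * y * er2Y G θ (fun c p => m c p ω.2) n v) ∂P
      ≤ Real.exp (((d : ℝ) - 1) ^ (L + 1) * (y + 2 * (y * L + E))) := by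
  have h3 : (3 : ℝ) ≤ d := by exact_mod_cast hd
  have hb : 0 ≤ (d : ℝ) - 1 := by linarith
  have e0 : ((d : ℝ) - 1) ^ (L + 1) * y * θ ^ 2 = ((d : ℝ) - 1) ^ L * y := by
    rw [pow_succ]
    calc _ = ((d : ℝ) - 1) ^ L * y * (((d : ℝ) - 1) * θ ^ 2) := by ring
      _ = _ := by rw [hcrit, mul_one]
  have key := er2_star he hG hθ0.le hθ1 (G.neighborFinset v) (fun g hg => by simpa using hg) n
    (t := ((d : ℝ) - 1) ^ (L + 1) * y) (F := ((d : ℝ) - 1) ^ L * (y * L + E)) (fun g hg => by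
      rw [e0]
      exact er2_gen hd hθ0 hθ1 hcrit hG hreg he hy0 hE0 hbase L n g v
        (by simpa using hg : G.Adj v g).symm)
  refine key.trans ?_
  apply Real.exp_le_exp.mpr
  rw [card_neighborFinset_eq_degree, hreg]
  have h4 : 0 ≤ ((d : ℝ) - 1) ^ L * (y * L + E) := mul_nonneg (pow_nonneg hb _) (by positivity)
  have h5 : (d : ℝ) * (((d : ℝ) - 1) ^ L * (y * L + E))
      ≤ (2 * ((d : ℝ) - 1)) * (((d : ℝ) - 1) ^ L * (y * L + E)) :=
    mul_le_mul_of_nonneg_right (by linarith) h4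
  calc _ ≤ ((d : ℝ) - 1) ^ (L + 1) * y
        + (2 * ((d : ℝ) - 1)) * (((d : ℝ) - 1) ^ L * (y * L + E)) := by linarith
    _ = _ := by ring

/-- the numerical bound for the tail -/
lemma er2_tail_num {b x E K : ℝ} (hb : 2 ≤ b) (hx0 : 0 < x) (hx1 : x ≤ 1) (hE0 : 0 ≤ E)
    (hK : K = 46 + 8 * E) (L : ℕ) :
    ∃ N : ℕ, 2 / (b ^ (N + 1) * (x / 2) / 2) ^ 2
        * Real.exp (-((b ^ (N + 1) * (x / 2) / 2) * (K / x + K * L)))
        * Real.exp (b ^ (N + 1) * (x / 2 + 2 * (x / 2 * N + E)))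
      ≤ K * Real.exp (- b ^ L / K) := by
  set j := ⌈1 / x⌉₊ with hj
  have hj1 : 1 / x ≤ j := Nat.le_ceil _
  have hj2 : (j : ℝ) < 1 / x + 1 := Nat.ceil_lt_add_one (by positivity)
  have hb0 : 0 < b := by linarith
  have hb1 : 1 ≤ b := by linarith
  refine ⟨L + j, ?_⟩
  set B := b ^ (L + j + 1) with hB
  have hbL : 1 ≤ b ^ L := one_le_pow₀ hb1
  have hB0 : 0 < B := by positivity
  have hjb : (j : ℝ) ≤ b ^ j := by
    have h1 : (j : ℝ) ≤ 2 ^ j := by exact_mod_cast Nat.lt_two_pow_self.le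
    exact h1.trans (pow_le_pow_left₀ (by norm_num) hb j)
  have hB1 : b ^ L * b ^ j ≤ B := by
    rw [hB, ← pow_add]
    exact pow_le_pow_right₀ hb1 (by omega)
  have hxj : 1 ≤ x * b ^ j := by
    have h1 : x * (1 / x) = 1 := by field_simp
    calc (1 : ℝ) = x * (1 / x) := h1.symm
      _ ≤ x * b ^ j := mul_le_mul_of_nonneg_left (hj1.trans hjb) hx0.le
  have hBx : b ^ L ≤ B * x := by
    calc b ^ L = b ^ L * 1 := (mul_one _).symm
      _ ≤ b ^ L * (x * b ^ j) := mul_le_mul_of_nonneg_left hxj (by linarith)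
      _ = (b ^ L * b ^ j) * x := by ring
      _ ≤ B * x := mul_le_mul_of_nonneg_right hB1 hx0.le
  have hBx1 : 1 ≤ B * x := hbL.trans hBx
  have hBL : b ^ L ≤ B := by
    have : B * x ≤ B := mul_le_of_le_one_right hB0.le hx1
    linarith
  have hN : x * ((L + j : ℕ) : ℝ) ≤ x * L + 2 := by
    push_cast
    have h1 : x * (j : ℝ) ≤ x * (1 / x + 1) := mul_le_mul_of_nonneg_left hj2.le hx0.le
    have h2 : x * (1 / x + 1) = 1 + x := by field_simp
    rw [mul_add]
    linarith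
  have hK0 : 0 < K := by linarith
  have hK1 : 1 ≤ K := by linarith
  have hxL : 0 ≤ x * L := by positivity
  rw [mul_assoc, ← Real.exp_add]
  apply mul_le_mul
  · have h1 : 2 / (B * (x / 2) / 2) ^ 2 = 32 / (B * x) ^ 2 := by
      field_simp
      ring
    rw [h1]
    have h2 : 1 ≤ (B * x) ^ 2 := one_le_pow₀ hBx1
    calc 32 / (B * x) ^ 2 ≤ 32 / 1 := div_le_div_of_nonneg_left (by norm_num) one_pos h2
      _ ≤ K := by linarith
  · apply Real.exp_le_exp.mpr
    have h1 : -(B * (x / 2) / 2 * (K / x + K * L)) + B * (x / 2 + 2 * (x / 2 * ((L + j : ℕ) : ℝ) + E))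
        = B * (-(K / 4) - K * (x * L) / 4 + x / 2 + x * ((L + j : ℕ) : ℝ) + 2 * E) := by
      field_simp
      ring
    rw [h1]
    have h2 : -(K / 4) - K * (x * L) / 4 + x / 2 + x * ((L + j : ℕ) : ℝ) + 2 * E ≤ -1 := by
      have h3 : 4 * (x * L) ≤ K * (x * L) := mul_le_mul_of_nonneg_right (by linarith) hxL
      rw [hK] at h3 ⊢
      linarith
    have h4 : b ^ L / K ≤ b ^ L := div_le_self (by linarith) hK1
    have h5 : -b ^ L / K = -(b ^ L / K) := neg_div _ _
    rw [h5]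
    nlinarith
  · exact (Real.exp_pos _).le
  · exact hK0.le

end ER2b

/-- Exponential moments.  `X_n = R_n - r_n`.  `X_{n+1} = (1/b) Σ_g (X_n(g) - U_n(g))`,
`U_n = (1 - phi) R_n - E[(1 - phi) R_n]`, `-U_n ≤ E[(1-phi) R_n] = 1 + r_n - r_{n+1} ≤ 1`,
`E U_n = 0`, `E U_n² ≤ V := C / x²`.  By independence over the children (`indep_prod`) and Hoelder
with exponents `3/2`, `3`:
`log E e^{h X_{n+1}} ≤ b [ (2/3) log E e^{(3/2)(h/b) X_n} + (1/3) log E e^{-3 (h/b) U_n} ]`, and
`E e^{-t U} ≤ 1 + t² E U² ≤ e^{t² V}` for `0 ≤ t ≤ 1` (`e^y ≤ 1 + y + y²` for `y ≤ 1`).  So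
`log E e^{h X_n} ≤ 6 V h²` for `0 ≤ h ≤ 2/3` by induction on `n`
(`(2/3) b · 6 V (3h/2b)² + (1/3) b (3h/b)² V = 9 V h²/b + 3 V h²/b ≤ 6 V h²`). -/
theorem env_R_exp {d : ℕ} (hd : 3 ≤ d) {θ : ℝ} (hθ0 : 0 < θ) (hθ1 : θ < 1)
    (hcrit : ((d : ℝ) - 1) * θ ^ 2 = 1) {α : ℝ} (hα0 : 0 ≤ α) (hα1 : α < 1)
    (hG : G.IsTree) (hreg : ∀ v, G.degree v = d) :
    ∃ C : ℝ, 0 < C ∧ ∀ (P : Measure (Cfg V)) (m : V → V → (V → ℝ) → ℝ), CavEnv G θ α P m →
      ∀ x : ℝ, 0 < x → x ≤ 1 → (∀ c p, G.Adj c p → ∫ ω, (m c p ω.2) ^ 2 ∂P = x) →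
        ∀ (h : ℝ) (n : ℕ) (c p : V), G.Adj c p → 0 ≤ h → h ≤ 2 / 3 →
          ∫ ω, Real.exp (h * (Rn G θ (fun c p => m c p ω.2) n c p
            - ∫ ω', Rn G θ (fun c p => m c p ω'.2) n c p ∂P)) ∂P
          ≤ Real.exp (C * h ^ 2 / x ^ 2) := by
  obtain ⟨C, hC⟩ := env_R_moments hd hθ0 hθ1 hcrit hα0 hα1 hG hreg
  refine ⟨6 * (|C 2| + 1), by positivity, ?_⟩
  intro P m he x hx0 hx1 hx h n c p hcp hh0 hh1
  have hx2 : 0 < x ^ 2 := by positivity
  have key := er2_exp_rec hd hθ0 hθ1 hcrit hG hreg he (D := (|C 2| + 1) / x ^ 2)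
    (by positivity) (fun n c p hcp => by
      refine (hC P m he x hx0 hx1 hx 2 n c p hcp).trans ?_
      apply div_le_div_of_nonneg_right _ hx2.le
      linarith [le_abs_self (C 2)]) n h c p hcp hh0 hh1
  refine key.trans (le_of_eq ?_)
  congr 1
  ring

/-- Moments and tail of the full susceptibility.
`Rf v = 1 + Σ_g θ² phi_g Rb g v ≤ 1 + θ² Σ_g Rb g v` and `Rb = sup_n Rn` (`Rb_eq_iSup`), monotone
convergence: moments.
Tail: expanding `L` generations (every factor `phi ≤ 1`), `Rf v ≤ (L + 2) (b+1)/b + (average over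
the `(b+1) b^(L-1)` vertices at distance `L` of Rb) (b+1)/b`; these `Rb` are independent
(`indep_prod`), with mean at most `C₁/x` and exponential moments by `env_R_exp` (choose `h = c x` with
`c` small): the probability that the average exceeds `2 C₁ / x` is at most `exp (-c b^L)`.
Then `E[Rf² 1{Rf > K/x + K L}] ≤ (E Rf⁴)^{1/2} P(..)^{1/2} ≤ (C/x²) exp (-c b^L)`.  To get a bound
without the `1/x²` sum over the generations: for `Rf > K/x + K L` use the larger generation
`L' = L + ⌈log(1/x)⌉` (allowed since `log(1/x) ≤ 1/x`, absorbed in `K/x`). -/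
theorem env_R {d : ℕ} (hd : 3 ≤ d) {θ : ℝ} (hθ0 : 0 < θ) (hθ1 : θ < 1)
    (hcrit : ((d : ℝ) - 1) * θ ^ 2 = 1) {α : ℝ} (hα0 : 0 ≤ α) (hα1 : α < 1)
    (hG : G.IsTree) (hreg : ∀ v, G.degree v = d) :
    ∃ (K : ℝ) (C : ℕ → ℝ), 0 < K ∧
      ∀ (P : Measure (Cfg V)) (m : V → V → (V → ℝ) → ℝ), CavEnv G θ α P m →
      ∀ x : ℝ, 0 < x → x ≤ 1 → (∀ c p, G.Adj c p → ∫ ω, (m c p ω.2) ^ 2 ∂P = x) →
        (∀ v k, ∫⁻ ω, (Rf G θ (fun c p => m c p ω.2) v) ^ k ∂P ≤ ENNReal.ofReal (C k / x ^ k)) ∧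
        (∀ v, ∀ L : ℕ, ∫⁻ ω in {ω | ENNReal.ofReal (K / x + K * L) < Rf G θ (fun c p => m c p ω.2) v},
            (Rf G θ (fun c p => m c p ω.2) v) ^ 2 ∂P
          ≤ ENNReal.ofReal (K * Real.exp (- ((d : ℝ) - 1) ^ L / K))) := by
  obtain ⟨C, hC0, hC⟩ := env_R_exp hd hθ0 hθ1 hcrit hα0 hα1 hG hreg
  obtain ⟨α', hα'0, hα'1, hcav⟩ := isCavity_of_env (G := G) hreg hθ0.le hθ1 hα0 hα1
  have h3 : (3 : ℝ) ≤ d := by exact_mod_cast hd
  have hb : 2 ≤ (d : ℝ) - 1 := by linarith
  have hθ2 : θ ^ 2 < 1 := by nlinarith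
  set C₁ : ℝ := 1 / ((1 - θ ^ 2) * θ ^ 2) with hC₁
  have hC₁0 : 0 < C₁ := by
    have : 0 < 1 - θ ^ 2 := by linarith
    positivity
  set E : ℝ := C₁ / 2 + C / 4 with hE
  have hE0 : 0 < E := by positivity
  set M : ℝ := Real.exp (((d : ℝ) - 1) * (1 / 2 + 2 * E)) with hM
  refine ⟨46 + 8 * E, fun k => (k.factorial : ℝ) * M * 2 ^ k, by positivity, ?_⟩
  intro P m he x hx0 hx1 hx
  have hprob := he.prob
  have he0 := he.toCavEnv0
  have hcv := hcav P m he0
  have nR : ∀ n c p, Nice (fun ω : Cfg V => Rn G θ (fun c p => m c p ω.2) n c p) :=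
    fun n c p => nice_obs (er2_nice he0 hθ0.le hθ1 n c p)
  have hbase : ∀ n c p, G.Adj c p →
      ∫ ω, Real.exp (x / 2 * Rn G θ (fun c p => m c p ω.2) n c p) ∂P ≤ Real.exp E := by
    intro n c p h
    have h1 := hC P m he x hx0 hx1 hx (x / 2) n c p h (by positivity) (by linarith)
    have h2 := env_R_first hd hθ0 hθ1 hcrit hα0 hα1 hG hreg P m he x hx0 hx n c p h
    set r := ∫ ω', Rn G θ (fun c p => m c p ω'.2) n c p ∂P with hr
    have e : ∀ ω : Cfg V, Real.exp (x / 2 * Rn G θ (fun c p => m c p ω.2) n c p)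
        = Real.exp (x / 2 * r)
          * Real.exp (x / 2 * (Rn G θ (fun c p => m c p ω.2) n c p - r)) := by
      intro ω
      rw [← Real.exp_add]
      congr 1
      ring
    simp only [e]
    rw [integral_const_mul]
    have h4 : x / 2 * r ≤ C₁ / 2 := by
      calc x / 2 * r ≤ x / 2 * (1 / ((1 - θ ^ 2) * θ ^ 2 * x)) :=
            mul_le_mul_of_nonneg_left h2 (by positivity)
        _ = C₁ / 2 := by
            rw [hC₁]
            have : (1 - θ ^ 2) ≠ 0 := by linarith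
            field_simp
    have h5 : C * (x / 2) ^ 2 / x ^ 2 = C / 4 := by
      field_simp
      ring
    rw [h5] at h1
    rw [hE, Real.exp_add]
    exact mul_le_mul (Real.exp_le_exp.mpr h4) h1
      (integral_nonneg fun ω => (Real.exp_pos _).le) (Real.exp_pos _).le
  have hY := fun L n v => er2Y_exp hd hθ0 hθ1 hcrit hG hreg he0 (y := x / 2) (by positivity)
    hE0.le hbase L n v
  have nY : ∀ n v, Nice (fun ω : Cfg V => er2Y G θ (fun c p => m c p ω.2) n v) :=
    fun n v => er2Y_nice he0 hθ0.le hθ1 n v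
  have hY0 : ∀ n v (ω : Cfg V), 0 ≤ er2Y G θ (fun c p => m c p ω.2) n v := fun n v ω =>
    zero_le_one.trans (er2Y_one_le hθ0.le hθ1 (fun c p => he.bound c p ω.2) n v)
  have hYm : ∀ v (ω : Cfg V), Monotone (fun n => er2Y G θ (fun c p => m c p ω.2) n v) :=
    fun v ω => er2Y_mono hθ0.le hθ1 (fun c p => he.bound c p ω.2) v
  constructor
  · intro v k
    calc ∫⁻ ω, (Rf G θ (fun c p => m c p ω.2) v) ^ k ∂P
        ≤ ∫⁻ ω, ⨆ n, ENNReal.ofReal (er2Y G θ (fun c p => m c p ω.2) n v ^ k) ∂P := by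
          apply lintegral_mono_ae
          filter_upwards [hcv] with ω hω
          have h1 := er2Y_sup hθ0.le hθ1 hα'1 hG hω (fun c p => he.bound c p ω.2) v
          calc (Rf G θ (fun c p => m c p ω.2) v) ^ k
              ≤ (⨆ n, ENNReal.ofReal (er2Y G θ (fun c p => m c p ω.2) n v)) ^ k := by gcongr
            _ = ⨆ n, ENNReal.ofReal (er2Y G θ (fun c p => m c p ω.2) n v) ^ k :=
              ENNReal.iSup_pow _ k
            _ = _ := by
              congr 1
              funext n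
              exact (ENNReal.ofReal_pow (hY0 n v ω) k).symm
      _ ≤ _ := by
          apply er2_lintegral_sup (fun n => (nY n v).pow k) (fun n ω => pow_nonneg (hY0 n v ω) k)
            (fun ω i j hij => pow_le_pow_left₀ (hY0 i v ω) (hYm v ω hij) k)
          intro n
          have h1 : ∫ ω, Real.exp (x / 2 * er2Y G θ (fun c p => m c p ω.2) n v) ∂P ≤ M := by
            have h2 := hY 0 n v
            have n1 := er2_nice_exp (nY n v) (x / 2)
            have n2 := er2_nice_exp (nY n v) (((d : ℝ) - 1) ^ (0 + 1) * (x / 2))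
            refine (n1.integral_mono' n2 P fun ω => ?_).trans (h2.trans ?_)
            · apply Real.exp_le_exp.mpr
              apply mul_le_mul_of_nonneg_right _ (hY0 n v ω)
              rw [zero_add, pow_one]
              nlinarith
            · rw [hM]
              apply Real.exp_le_exp.mpr
              rw [zero_add, pow_one]
              apply mul_le_mul_of_nonneg_left _ (by linarith)
              simp only [Nat.cast_zero, mul_zero, zero_add]
              linarith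
          have h3 := er2_moment (nY n v) (hY0 n v) (by positivity : 0 < x / 2) h1 k
          refine h3.trans (le_of_eq ?_)
          rw [div_pow, div_div_eq_mul_div]
  · intro v L
    obtain ⟨N, hN⟩ := er2_tail_num (b := (d : ℝ) - 1) (K := 46 + 8 * E) hb hx0 hx1 hE0.le rfl L
    set T : ℝ := (46 + 8 * E) / x + (46 + 8 * E) * L with hT
    set B : ℝ := ((d : ℝ) - 1) ^ (N + 1) with hB
    have hB0 : 0 < B := by
      have : 0 < (d : ℝ) - 1 := by linarith
      positivity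
    set l : ℝ := B * (x / 2) / 2 with hl
    have hl0 : 0 < l := by positivity
    have hSm : MeasurableSet
        {ω : Cfg V | ENNReal.ofReal T < Rf G θ (fun c p => m c p ω.2) v} := by
      apply measurableSet_lt measurable_const
      apply (measurable_Rf v).comp
      exact measurable_pi_lambda _ fun c => measurable_pi_lambda _ fun p =>
        (he.meas c p).comp measurable_snd
    calc ∫⁻ ω in {ω | ENNReal.ofReal T < Rf G θ (fun c p => m c p ω.2) v},
          (Rf G θ (fun c p => m c p ω.2) v) ^ 2 ∂P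
        ≤ ∫⁻ ω in {ω | ENNReal.ofReal T < Rf G θ (fun c p => m c p ω.2) v},
          ENNReal.ofReal (2 / l ^ 2 * Real.exp (-(l * T)))
            * ⨆ n, ENNReal.ofReal (Real.exp (2 * l * er2Y G θ (fun c p => m c p ω.2) n v)) ∂P := by
          apply setLIntegral_mono_ae' hSm
          filter_upwards [hcv] with ω hω hmem
          exact er2_tail_pt (hYm v ω) (fun n => hY0 n v ω)
            (er2Y_sup hθ0.le hθ1 hα'1 hG hω (fun c p => he.bound c p ω.2) v) hl0 hmem
      _ ≤ ∫⁻ ω, ENNReal.ofReal (2 / l ^ 2 * Real.exp (-(l * T)))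
            * ⨆ n, ENNReal.ofReal (Real.exp (2 * l * er2Y G θ (fun c p => m c p ω.2) n v)) ∂P :=
          setLIntegral_le_lintegral _ _
      _ = ENNReal.ofReal (2 / l ^ 2 * Real.exp (-(l * T)))
            * ∫⁻ ω, ⨆ n, ENNReal.ofReal
              (Real.exp (2 * l * er2Y G θ (fun c p => m c p ω.2) n v)) ∂P :=
          lintegral_const_mul' _ _ ENNReal.ofReal_ne_top
      _ ≤ ENNReal.ofReal (2 / l ^ 2 * Real.exp (-(l * T)))
            * ENNReal.ofReal (Real.exp (B * (x / 2 + 2 * (x / 2 * N + E)))) := by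
          gcongr
          apply er2_lintegral_sup (fun n => er2_nice_exp (nY n v) (2 * l))
            (fun n ω => (Real.exp_pos _).le)
            (fun ω i j hij => Real.exp_le_exp.mpr
              (mul_le_mul_of_nonneg_left (hYm v ω hij) (by positivity)))
          intro n
          have e : 2 * l = B * (x / 2) := by
            rw [hl]
            ring
          rw [e]
          exact hY N n v
      _ = ENNReal.ofReal (2 / l ^ 2 * Real.exp (-(l * T))
            * Real.exp (B * (x / 2 + 2 * (x / 2 * N + E)))) :=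
          (ENNReal.ofReal_mul (by positivity)).symm
      _ ≤ _ := ENNReal.ofReal_le_ofReal hN

end Vale.Agent.P161c
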