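import Vale.Agent.P161c.EnvX
import Vale.Agent.P161c.EnvMom
import Vale.Agent.P161c.EnvR2
import Vale.Agent.P161c.Chan

/-!
All bounds for the environment at time `(k, t)`.
-/

namespace Vale.Agent.P161c

open MeasureTheory SimpleGraph Vale.Agent.H13.P161 Filter Topology

variable {V : Type*} {G : SimpleGraph V} [LocallyFinite G] [DecidableEq V] [Countable V]

/-- law of spins and own magnetizations at time `(k, t)` -/
noncomputable def envKT (μ : Measure (V → ℤˣ)) (k : ℕ) (t : ℝ) : Measure (Cfg V) :=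
  envM μ ((iidLabels ℕ).prod (iidLabels ℕ)) (fun _ : V => anY k t) (fun _ : V => anb k t)

/-- tail bound for the screened susceptibility -/
def TailR (G : SimpleGraph V) (θ : ℝ) (b : ℕ) (K κ : ℝ) {Ω : Type*} [MeasurableSpace Ω]
    (P : Measure Ω) (m : Ω → V → V → ℝ) : Prop :=
  ∀ v, ∀ L : ℕ, ∫⁻ ω in {ω | ENNReal.ofReal (K * κ + K * L) < Rf G θ (m ω) v},
    (Rf G θ (m ω) v) ^ 2 ∂P ≤ ENNReal.ofReal (K * Real.exp (- (b : ℝ) ^ L / K))

section EF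

variable {θ α : ℝ} {P : Measure (Cfg V)} {m : V → V → (V → ℝ) → ℝ}

omit [DecidableEq V] [Countable V] in
lemma ef_edge {d : ℕ} (hd : 3 ≤ d) (hG : G.IsTree) (hreg : ∀ v, G.degree v = d) :
    ∃ c p, G.Adj c p := by
  obtain ⟨v⟩ := hG.connected.nonempty
  have h : 0 < G.degree v := by
    rw [hreg]
    omega
  obtain ⟨w, hw⟩ := (G.degree_pos_iff_exists_adj v).mp h
  exact ⟨v, w, hw⟩

lemma ef_x (he : CavEnv G θ α P m) {d : ℕ} (hd : 3 ≤ d) (hG : G.IsTree)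
    (hreg : ∀ v, G.degree v = d) {c p c' p' : V} (h : G.Adj c p) (h' : G.Adj c' p') :
    ∫ ω, (m c p ω.2) ^ 2 ∂P = ∫ ω, (m c' p' ω.2) ^ 2 ∂P := by
  have h1 := env_hom he hG (by omega) hreg (nice_clx.pow 2) h h'
  have e : ∀ c p (ω : Cfg V), clx (m c p ω.2) = m c p ω.2 :=
    fun c p ω => clx_of_abs_le (he.bound c p ω.2)
  simpa only [e] using h1

omit [Countable V] in
lemma ef_x_le (he : CavEnv G θ α P m) (c p : V) : ∫ ω, (m c p ω.2) ^ 2 ∂P ≤ 1 := by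
  have hprob := he.prob
  have n1 : Nice (fun ω : Cfg V => (m c p ω.2) ^ 2) := (nice_obs (nice_cav he.toCavEnv0 c p)).pow 2
  calc ∫ ω, (m c p ω.2) ^ 2 ∂P ≤ ∫ _ω : Cfg V, (1 : ℝ) ∂P := by
        apply n1.integral_mono' (Nice.const 1)
        intro ω
        have := he.bound c p ω.2
        rw [← sq_abs]
        exact pow_le_one₀ (abs_nonneg _) this
    _ = 1 := by simp

omit [DecidableEq V] in
/-- second moment of the own magnetizations -/
lemma ef_own_sq {Λ E : Type*} [MeasurableSpace Λ] [MeasurableSpace E] {lam : Measure Λ}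
    [IsProbabilityMeasure lam] {μ : Measure (V → ℤˣ)} [IsProbabilityMeasure μ]
    {Y₀ : ℤˣ → Λ → E} {b₀ : E → ℝ} (hA : IsChan lam α Y₀ b₀) (hα1 : α < 1)
    (hflip : μ.map (fun σ : V → ℤˣ => fun v => - σ v) = μ) (v : V) :
    ∫ ω, (ω.2 v) ^ 2 ∂(envM μ lam (fun _ : V => Y₀) (fun _ : V => b₀))
      = (∫ x, (b₀ (Y₀ 1 x)) ^ 2 ∂lam + ∫ x, (b₀ (Y₀ (-1) x)) ^ 2 ∂lam) / 2 := by
  have h1 := (env_single (μ := μ) (Y := fun _ : V => Y₀) (b := fun _ : V => b₀)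
    (fun _ => hA) hflip v (nice_clx.pow 2)).1
  have e : ∀ y, clx (b₀ y) = b₀ y := fun y => clx_of_abs_le ((hA.bound y).trans hα1.le)
  have e2 : ∫ ω, (ω.2 v) ^ 2 ∂(envM μ lam (fun _ : V => Y₀) (fun _ : V => b₀))
      = ∫ ω, clx (ω.2 v) ^ 2 ∂(envM μ lam (fun _ : V => Y₀) (fun _ : V => b₀)) := by
    apply integral_congr_ae
    filter_upwards [env_own_bound (μ := μ) (Y := fun _ : V => Y₀) (b := fun _ : V => b₀)
      (fun _ => hA)] with ω hω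
    rw [clx_of_abs_le ((hω v).trans hα1.le)]
  rw [e2, h1]
  simp only [e]

omit [LocallyFinite G] [DecidableEq V] [Countable V] in
/-- tail bound with larger constants -/
lemma ef_tail {d : ℕ} (hd : 3 ≤ d) {K₁ K κ x : ℝ} (hK₁ : 0 < K₁) (hK : K₁ ≤ K)
    (hx : K₁ / x ≤ K * κ)
    (h : ∀ v, ∀ L : ℕ, ∫⁻ ω in {ω | ENNReal.ofReal (K₁ / x + K₁ * L)
        < Rf G θ (fun c p => m c p ω.2) v},
        (Rf G θ (fun c p => m c p ω.2) v) ^ 2 ∂P
      ≤ ENNReal.ofReal (K₁ * Real.exp (- ((d : ℝ) - 1) ^ L / K₁))) :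
    TailR G θ (d - 1) K κ P (fun ω c p => m c p ω.2) := by
  intro v L
  have hd1 : ((d - 1 : ℕ) : ℝ) = (d : ℝ) - 1 := by
    rw [Nat.cast_sub (by omega)]
    simp
  rw [hd1]
  have hsub : {ω : Cfg V | ENNReal.ofReal (K * κ + K * L) < Rf G θ (fun c p => m c p ω.2) v}
      ⊆ {ω | ENNReal.ofReal (K₁ / x + K₁ * L) < Rf G θ (fun c p => m c p ω.2) v} := by
    intro ω hω
    have hω' : ENNReal.ofReal (K * κ + K * L) < Rf G θ (fun c p => m c p ω.2) v := hω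
    show ENNReal.ofReal (K₁ / x + K₁ * L) < Rf G θ (fun c p => m c p ω.2) v
    refine lt_of_le_of_lt ?_ hω'
    apply ENNReal.ofReal_le_ofReal
    have : K₁ * (L : ℝ) ≤ K * L := mul_le_mul_of_nonneg_right hK (Nat.cast_nonneg _)
    linarith
  refine (lintegral_mono_set hsub).trans ((h v L).trans ?_)
  apply ENNReal.ofReal_le_ofReal
  have hb : 0 ≤ ((d : ℝ) - 1) ^ L := by
    have h3 : (3 : ℝ) ≤ d := by exact_mod_cast hd
    exact pow_nonneg (by linarith) _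
  apply mul_le_mul hK _ (Real.exp_pos _).le (hK₁.le.trans hK)
  apply Real.exp_le_exp.mpr
  rw [neg_div, neg_div, neg_le_neg_iff]
  exact div_le_div_of_nonneg_left hb hK₁ hK

lemma ef_rpow {t : ℝ} (ht : 0 < t) : Real.sqrt (t ^ 3 / 36) = t ^ (3 / 2 : ℝ) / 6 := by
  have h1 : (t ^ (3 / 2 : ℝ)) ^ 2 = t ^ 3 := by
    rw [← Real.rpow_natCast, ← Real.rpow_mul ht.le, ← Real.rpow_natCast]
    norm_num
  have h2 : t ^ 3 / 36 = (t ^ (3 / 2 : ℝ) / 6) ^ 2 := by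
    rw [div_pow, h1]
    norm_num
  rw [h2, Real.sqrt_sq (by positivity)]

lemma ef_sq_le {t : ℝ} (ht : 0 < t) (ht1 : t ≤ 1) : t ^ 2 ≤ t ^ (3 / 2 : ℝ) := by
  rw [← Real.rpow_natCast]
  apply Real.rpow_le_rpow_of_exponent_ge ht ht1
  norm_num

end EF

/-- Round `0`.  `x = ∫ (cavI c p)²` is between `t^(3/2) / K` and `K t^(3/2)` by `env_second_moment` and
`second_moment_an_zero`; own magnetizations are at most `t / 2 ≤ C √x`; take `y = x^(1/64)`;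
`env_moments`, `env_R`, `env_Rb2`, `isCavity_of_env`, `cavEnv_of_chan`, `isChan_an`. -/
theorem env_round_zero {d : ℕ} (hd : 3 ≤ d) {θ : ℝ} (hθ0 : 0 < θ) (hθ1 : θ < 1)
    (hcrit : ((d : ℝ) - 1) * θ ^ 2 = 1)
    (hG : G.IsTree) (hreg : ∀ v, G.degree v = d)
    {μ : Measure (V → ℤˣ)} [IsProbabilityMeasure μ]
    (hflip : μ.map (fun σ : V → ℤˣ => fun v => - σ v) = μ) (hμ : EdgeFactor G θ μ)
    (hinv : ∀ g : G ≃g G, μ.map (fun σ : V → ℤˣ => fun v => σ (g v)) = μ)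
    {T : ℕ → Finset V} (hT : Monotone T) (hTu : ∀ v, ∃ n, v ∈ T n) :
    ∃ (K α' : ℝ) (C : ℕ → ℝ), 0 < K ∧ 0 ≤ α' ∧ α' < 1 ∧ ∀ t : ℝ, 0 < t → t ≤ 1 / 2 →
      ∃ (y : ℝ) (r : ENNReal), 0 < y ∧ y ≤ 1 ∧ t ^ (3 / 2 : ℝ) / K ≤ y ^ 64 ∧
        y ^ 64 ≤ K * t ^ (3 / 2 : ℝ) ∧
        EnvB G θ C y r (envKT μ 0 t) (fun ω c p => cavI G μ (ak 1) T c p ω.2) ∧
        TailR G θ (d - 1) K (1 / t ^ (3 / 2 : ℝ)) (envKT μ 0 t)
          (fun ω c p => cavI G μ (ak 1) T c p ω.2) ∧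
        ∀ᵐ ω ∂(envKT μ 0 t), IsCavity G θ α' (fun c p => cavI G μ (ak 1) T c p ω.2) := by
  have hα := ak_bounds (0 + 1)
  obtain ⟨K₂, hK₂0, hK₂⟩ := env_second_moment hd hθ0 hθ1 hcrit hα.1 hα.2 hG hreg
  obtain ⟨Cm, hCm⟩ := env_moments hd hθ0 hθ1 hcrit hα.1 hα.2 hG hreg (Real.sqrt (6 * K₂))
  obtain ⟨K₁, CR, hK₁0, hR⟩ := env_R hd hθ0 hθ1 hcrit hα.1 hα.2 hG hreg
  obtain ⟨α', hα'0, hα'1, hcav⟩ := isCavity_of_env (G := G) hreg hθ0.le hθ1 hα.1 hα.2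
  obtain ⟨c₀, p₀, h₀⟩ := ef_edge hd hG hreg
  refine ⟨K₁ * (6 * K₂) + K₁ + 6 * K₂ + K₂, α', fun k => max (Cm (2 * k)) (CR k), by positivity,
    hα'0, hα'1, ?_⟩
  intro t ht0 ht1
  have hA := isChan_an 0 t
  have he : CavEnv G θ (ak (0 + 1)) (envKT μ 0 t) (cavI G μ (ak (0 + 1)) T) :=
    cavEnv_of_chan hα.1 hα.2 hG hθ0.le hθ1 hflip hμ hinv hA hT hTu
  have hprob := he.prob
  set x := ∫ ω, (cavI G μ (ak (0 + 1)) T c₀ p₀ ω.2) ^ 2 ∂(envKT μ 0 t) with hxdef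
  have hx : ∀ c p, G.Adj c p → ∫ ω, (cavI G μ (ak (0 + 1)) T c p ω.2) ^ 2 ∂(envKT μ 0 t) = x :=
    fun c p h => ef_x he hd hG hreg h h₀
  have hs : ∀ v, ∫ ω, (ω.2 v) ^ 2 ∂(envKT μ 0 t) = t ^ 3 / 36 := by
    intro v
    rw [envKT, ef_own_sq hA hα.2 hflip v, second_moment_an_zero t ht0.le ht1,
      second_moment_an_zero t ht0.le ht1]
    ring
  have hxb := hK₂ _ _ he (t ^ 3 / 36) hs c₀ p₀ h₀
  rw [ef_rpow ht0, ← hxdef] at hxb
  set T32 : ℝ := t ^ (3 / 2 : ℝ) with hT32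
  have hT0 : 0 < T32 := Real.rpow_pos_of_pos ht0 _
  have hx1 : x ≤ 1 := ef_x_le he c₀ p₀
  have hx0 : 0 < x := lt_of_lt_of_le (by positivity) hxb.1
  have hown : ∀ᵐ ω ∂(envKT μ 0 t), ∀ v, |ω.2 v| ≤ Real.sqrt (6 * K₂) * Real.sqrt x := by
    have hle : t / 2 ≤ Real.sqrt (6 * K₂) * Real.sqrt x := by
      rw [← Real.sqrt_mul (by positivity)]
      apply Real.le_sqrt_of_sq_le
      have h1 : T32 ≤ 6 * K₂ * x := by
        have := hxb.1
        rw [div_div, div_le_iff₀ (by positivity)] at this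
        linarith
      have h2 := ef_sq_le ht0 (by linarith)
      rw [← hT32] at h2
      nlinarith [sq_nonneg t]
    rw [envKT]
    apply ae_envM (μ := μ) (Y := fun _ : V => anY 0 t) (b := fun _ : V => anb 0 t) (fun _ => hA)
    · have : {ω : Cfg V | ∀ v, |ω.2 v| ≤ Real.sqrt (6 * K₂) * Real.sqrt x}
          = ⋂ v, {ω : Cfg V | |ω.2 v| ≤ Real.sqrt (6 * K₂) * Real.sqrt x} := by
        ext ω
        simp
      rw [this]
      exact MeasurableSet.iInter (fun v => measurableSet_le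
        (((measurable_pi_apply v).comp measurable_snd).abs) measurable_const)
    · exact Filter.Eventually.of_forall (fun ω v => (abs_anb_zero_le t ht0.le _).trans hle)
  set y : ℝ := x ^ (((64 : ℕ) : ℝ)⁻¹) with hy
  have hy64 : y ^ 64 = x := Real.rpow_inv_natCast_pow hx0.le (by norm_num)
  have hy0 : 0 < y := Real.rpow_pos_of_pos hx0 _
  have hy1 : y ≤ 1 := Real.rpow_le_one hx0.le hx1 (by positivity)
  obtain ⟨r, hr1, hr2⟩ := env_Rb2 hd hθ0 hθ1 hα.1 hα.2 hG hreg _ _ he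
  have hRR := hR _ _ he x hx0 hx1 hx
  refine ⟨y, r, hy0, hy1, ?_, ?_, ?_, ?_, hcav _ _ he.toCavEnv0⟩
  · rw [hy64]
    refine le_trans ?_ hxb.1
    rw [div_div]
    apply div_le_div_of_nonneg_left hT0.le (by positivity)
    have : 0 < K₁ * (6 * K₂) := by positivity
    linarith
  · rw [hy64]
    refine hxb.2.trans ?_
    have h1 : 0 < K₁ * (6 * K₂) := by positivity
    nlinarith [mul_pos h1 hT0, mul_pos hK₁0 hT0, mul_pos hK₂0 hT0]
  · refine ⟨?_, ?_, hr1, hr2⟩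
    · intro k c p h
      have n1 : Nice (fun ω : Cfg V => |cavI G μ (ak (0 + 1)) T c p ω.2| ^ (2 * k)) :=
        (nice_obs (nice_cav he.toCavEnv0 c p)).abs.pow (2 * k)
      have h1 := hCm _ _ he x hx0 hx hown (2 * k) c p h
      have h2 : Real.sqrt x ^ (2 * k) = x ^ k := by rw [pow_mul, Real.sq_sqrt hx0.le]
      have h3 : y ^ (64 * k) = x ^ k := by rw [pow_mul, hy64]
      rw [h2] at h1
      rw [h3]
      calc ∫⁻ ω, ENNReal.ofReal (|cavI G μ (ak (0 + 1)) T c p ω.2| ^ (2 * k)) ∂(envKT μ 0 t)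
          = ENNReal.ofReal
            (∫ ω, |cavI G μ (ak (0 + 1)) T c p ω.2| ^ (2 * k) ∂(envKT μ 0 t)) :=
            (ofReal_integral_eq_lintegral_ofReal (n1.integrable _)
              (Filter.Eventually.of_forall fun ω => by positivity)).symm
        _ ≤ _ := by
            apply ENNReal.ofReal_le_ofReal
            exact h1.trans (mul_le_mul_of_nonneg_right (le_max_left _ _) (by positivity))
    · intro k v
      have h3 : y ^ (64 * k) = x ^ k := by rw [pow_mul, hy64]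
      rw [h3]
      refine (hRR.1 v k).trans ?_
      apply ENNReal.ofReal_le_ofReal
      exact div_le_div_of_nonneg_right (le_max_right _ _) (by positivity)
  · apply ef_tail hd hK₁0 (x := x) _ _ hRR.2
    · have : 0 < K₁ * (6 * K₂) := by positivity
      linarith
    · have h1 : K₁ / x ≤ K₁ * (6 * K₂) * (1 / T32) := by
        rw [div_le_iff₀ hx0]
        have h2 : T32 ≤ 6 * K₂ * x := by
          have := hxb.1
          rw [div_div, div_le_iff₀ (by positivity)] at this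
          linarith
        have h3 : 1 ≤ 6 * K₂ * x / T32 := by
          rw [le_div_iff₀ hT0]
          linarith
        calc K₁ = K₁ * 1 := (mul_one _).symm
          _ ≤ K₁ * (6 * K₂ * x / T32) := mul_le_mul_of_nonneg_left h3 hK₁0.le
          _ = K₁ * (6 * K₂) * (1 / T32) * x := by ring
      refine h1.trans ?_
      apply mul_le_mul_of_nonneg_right _ (by positivity)
      linarith

/-- Later rounds.  `x` is bounded below by a positive constant. -/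
theorem env_round_later {d : ℕ} (hd : 3 ≤ d) {θ : ℝ} (hθ0 : 0 < θ) (hθ1 : θ < 1)
    (hcrit : ((d : ℝ) - 1) * θ ^ 2 = 1)
    (hG : G.IsTree) (hreg : ∀ v, G.degree v = d)
    {μ : Measure (V → ℤˣ)} [IsProbabilityMeasure μ]
    (hflip : μ.map (fun σ : V → ℤˣ => fun v => - σ v) = μ) (hμ : EdgeFactor G θ μ)
    (hinv : ∀ g : G ≃g G, μ.map (fun σ : V → ℤˣ => fun v => σ (g v)) = μ)
    {T : ℕ → Finset V} (hT : Monotone T) (hTu : ∀ v, ∃ n, v ∈ T n) (k : ℕ) (hk : 1 ≤ k) :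
    ∃ (K α' : ℝ), 0 < K ∧ 0 ≤ α' ∧ α' < 1 ∧ ∀ t : ℝ, 0 ≤ t →
        TailR G θ (d - 1) K 1 (envKT μ k t)
          (fun ω c p => cavI G μ (ak (k + 1)) T c p ω.2) ∧
        ∀ᵐ ω ∂(envKT μ k t), IsCavity G θ α' (fun c p => cavI G μ (ak (k + 1)) T c p ω.2) := by
  have hα := ak_bounds (k + 1)
  obtain ⟨K₂, hK₂0, hK₂⟩ := env_second_moment hd hθ0 hθ1 hcrit hα.1 hα.2 hG hreg
  obtain ⟨K₁, CR, hK₁0, hR⟩ := env_R hd hθ0 hθ1 hcrit hα.1 hα.2 hG hreg
  obtain ⟨α', hα'0, hα'1, hcav⟩ := isCavity_of_env (G := G) hreg hθ0.le hθ1 hα.1 hα.2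
  obtain ⟨c₀, p₀, h₀⟩ := ef_edge hd hG hreg
  set x₀ : ℝ := Real.sqrt (1 / 288) / K₂ with hx₀
  have hx₀0 : 0 < x₀ := div_pos (Real.sqrt_pos.mpr (by norm_num)) hK₂0
  refine ⟨K₁ + K₁ / x₀, α', by positivity, hα'0, hα'1, ?_⟩
  intro t ht0
  have hA := isChan_an k t
  have he : CavEnv G θ (ak (k + 1)) (envKT μ k t) (cavI G μ (ak (k + 1)) T) :=
    cavEnv_of_chan hα.1 hα.2 hG hθ0.le hθ1 hflip hμ hinv hA hT hTu
  have hprob := he.prob
  set x := ∫ ω, (cavI G μ (ak (k + 1)) T c₀ p₀ ω.2) ^ 2 ∂(envKT μ k t) with hxdef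
  have hx : ∀ c p, G.Adj c p → ∫ ω, (cavI G μ (ak (k + 1)) T c p ω.2) ^ 2 ∂(envKT μ k t) = x :=
    fun c p h => ef_x he hd hG hreg h h₀
  set s : ℝ := (∫ x, (anb k t (anY k t 1 x)) ^ 2 ∂((iidLabels ℕ).prod (iidLabels ℕ))
    + ∫ x, (anb k t (anY k t (-1) x)) ^ 2 ∂((iidLabels ℕ).prod (iidLabels ℕ))) / 2 with hs
  have hs0 : ∀ v, ∫ ω, (ω.2 v) ^ 2 ∂(envKT μ k t) = s := by
    intro v
    rw [envKT, ef_own_sq hA hα.2 hflip v]
  have hs1 : 1 / 288 ≤ s := by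
    have h1 := second_moment_an_ge k t hk 1
    have h2 := second_moment_an_ge k t hk (-1)
    rw [hs]
    linarith
  have hxb := (hK₂ _ _ he s hs0 c₀ p₀ h₀).1
  rw [← hxdef] at hxb
  have hxx : x₀ ≤ x :=
    (div_le_div_of_nonneg_right (Real.sqrt_le_sqrt hs1) hK₂0.le).trans hxb
  have hx0 : 0 < x := hx₀0.trans_le hxx
  have hx1 : x ≤ 1 := ef_x_le he c₀ p₀
  have hRR := hR _ _ he x hx0 hx1 hx
  refine ⟨?_, hcav _ _ he.toCavEnv0⟩
  apply ef_tail hd hK₁0 (x := x) _ _ hRR.2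
  · have : 0 < K₁ / x₀ := by positivity
    linarith
  · have : K₁ / x ≤ K₁ / x₀ := div_le_div_of_nonneg_left hK₁0.le hx₀0 hxx
    linarith

end Vale.Agent.P161c
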