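import Vale.Agent.P161c.EnvBasic

/-!
Bounds for the screened susceptibilities of an environment.
-/

namespace Vale.Agent.P161c

open MeasureTheory SimpleGraph Vale.Agent.H13.P161

variable {V : Type*} {G : SimpleGraph V} [LocallyFinite G] [DecidableEq V] [Countable V]

section Aux

variable {θ α : ℝ} {P : Measure (Cfg V)} {m : V → V → (V → ℝ) → ℝ}

lemma measurable_phi (θ : ℝ) : Measurable (phi θ) := by
  unfold phi
  fun_prop

lemma phi_neg (θ x : ℝ) : phi θ (-x) = phi θ x := by
  unfold phi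
  rw [neg_sq]

lemma phi_bd (hθ0 : 0 ≤ θ) (hθ1 : θ < 1) {x : ℝ} (hx : |x| ≤ 1) :
    0 ≤ phi θ x ∧ phi θ x ≤ 1 ∧ phi θ x ≤ 1 - (1 - θ ^ 2) * x ^ 2 := by
  obtain ⟨h1, h2⟩ := one_sub_phi hθ0 hθ1 hx
  have h3 : x ^ 2 ≤ 1 := by
    have := sq_le_of_abs_le_aux hx
    simpa using this
  have h4 : 0 ≤ (1 - θ ^ 2) * x ^ 2 := mul_nonneg (by nlinarith) (sq_nonneg x)
  refine ⟨by linarith, by linarith, by linarith⟩

omit [Countable V] in
lemma card_children {d : ℕ} (hd : 3 ≤ d) (hreg : ∀ v, G.degree v = d) {c p : V}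
    (h : G.Adj c p) : (((G.neighborFinset c).erase p).card : ℝ) = (d : ℝ) - 1 := by
  have hmem : p ∈ G.neighborFinset c := by simpa using h
  rw [Finset.card_erase_of_mem hmem, card_neighborFinset_eq_degree, hreg]
  rw [Nat.cast_sub (by omega)]
  simp

omit [Countable V] in
lemma exists_other_child {d : ℕ} (hd : 3 ≤ d) (hreg : ∀ v, G.degree v = d) (c p j : V) :
    ∃ j', G.Adj c j' ∧ j' ≠ p ∧ j' ≠ j := by
  have h1 : 0 < (((G.neighborFinset c).erase p).erase j).card := by
    have h2 := Finset.pred_card_le_card_erase (s := G.neighborFinset c) (a := p)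
    have h3 := Finset.pred_card_le_card_erase (s := (G.neighborFinset c).erase p) (a := j)
    rw [card_neighborFinset_eq_degree, hreg] at h2
    omega
  obtain ⟨j', hj'⟩ := Finset.card_pos.mp h1
  simp only [Finset.mem_erase, mem_neighborFinset] at hj'
  exact ⟨j', hj'.2.2, hj'.2.1, hj'.1⟩

omit [Countable V] in
lemma measurable_Rn (he : CavEnv0 G θ α P m) (n : ℕ) (c p : V) :
    Measurable (fun a : V → ℝ => Rn G θ (fun c p => m c p a) n c p) := by
  induction n generalizing c p with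
  | zero => simp only [Rn]; exact measurable_const
  | succ n ih =>
    simp only [Rn]
    refine measurable_const.add (measurable_const.mul (Finset.measurable_sum _ fun g _ => ?_))
    exact ((measurable_phi θ).comp (he.meas g c)).mul (ih g c)

lemma Rn_bounds {d : ℕ} (hd : 3 ≤ d) (hθ0 : 0 ≤ θ) (hθ1 : θ < 1)
    (hcrit : ((d : ℝ) - 1) * θ ^ 2 = 1) (hreg : ∀ v, G.degree v = d)
    (he : CavEnv0 G θ α P m) (a : V → ℝ) (n : ℕ) {c p : V} (h : G.Adj c p) :
    0 ≤ Rn G θ (fun c p => m c p a) n c p ∧ Rn G θ (fun c p => m c p a) n c p ≤ n := by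
  induction n generalizing c p with
  | zero => simp [Rn]
  | succ n ih =>
    have hterm : ∀ g ∈ (G.neighborFinset c).erase p, G.Adj g c := by
      intro g hg
      exact ((mem_neighborFinset _ _ _).mp (Finset.mem_erase.mp hg).2).symm
    have hph : ∀ g, 0 ≤ phi θ (m g c a) ∧ phi θ (m g c a) ≤ 1 := fun g =>
      ⟨(phi_bd hθ0 hθ1 (he.bound g c a)).1, (phi_bd hθ0 hθ1 (he.bound g c a)).2.1⟩
    have h0 : 0 ≤ ∑ g ∈ (G.neighborFinset c).erase p,
        phi θ (m g c a) * Rn G θ (fun c p => m c p a) n g c :=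
      Finset.sum_nonneg fun g hg => mul_nonneg (hph g).1 (ih (hterm g hg)).1
    have h1 : ∑ g ∈ (G.neighborFinset c).erase p,
        phi θ (m g c a) * Rn G θ (fun c p => m c p a) n g c ≤ ((d : ℝ) - 1) * n := by
      rw [← card_children hd hreg h, ← nsmul_eq_mul]
      apply Finset.sum_le_card_nsmul
      intro g hg
      calc phi θ (m g c a) * Rn G θ (fun c p => m c p a) n g c
          ≤ 1 * n := mul_le_mul (hph g).2 (ih (hterm g hg)).2 (ih (hterm g hg)).1 zero_le_one
        _ = n := one_mul _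
    have h2 := mul_le_mul_of_nonneg_left h1 (sq_nonneg θ)
    have h3 : θ ^ 2 * (((d : ℝ) - 1) * (n : ℝ)) = (n : ℝ) := by
      calc θ ^ 2 * (((d : ℝ) - 1) * (n : ℝ)) = (((d : ℝ) - 1) * θ ^ 2) * (n : ℝ) := by ring
        _ = (n : ℝ) := by rw [hcrit, one_mul]
    rw [h3] at h2
    simp only [Rn]
    push_cast
    constructor
    · have := mul_nonneg (sq_nonneg θ) h0
      linarith
    · linarith

omit [Countable V] in
lemma Rn_even (he : CavEnv0 G θ α P m) (n : ℕ) (c p : V) (a : V → ℝ) :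
    Rn G θ (fun c p => m c p (fun v => - a v)) n c p = Rn G θ (fun c p => m c p a) n c p := by
  induction n generalizing c p with
  | zero => simp [Rn]
  | succ n ih =>
    simp only [Rn]
    congr 2
    apply Finset.sum_congr rfl
    intro g _
    rw [ih, he.odd, phi_neg]

omit [Countable V] in
lemma Rn_dep (he : CavEnv0 G θ α P m) (hG : G.IsTree) (n : ℕ) {c p : V} (h : G.Adj c p) :
    ObsDepOn (br G c p) (fun a => Rn G θ (fun c p => m c p a) n c p) := by
  induction n generalizing c p with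
  | zero => intro a a' _; simp [Rn]
  | succ n ih =>
    intro a a' haa
    simp only [Rn]
    congr 2
    apply Finset.sum_congr rfl
    intro g hg
    have hg' : g ≠ p ∧ G.Adj c g := by simpa using hg
    have hsub := br_subset hG h hg'.2 hg'.1
    have e1 : m g c a = m g c a' := he.dep g c a a' fun w hw => haa w (hsub hw)
    have e2 : Rn G θ (fun c p => m c p a) n g c = Rn G θ (fun c p => m c p a') n g c :=
      ih hg'.2.symm a a' fun w hw => haa w (hsub hw)
    rw [e1, e2]

omit [Countable V] in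
lemma nice_phi (hθ0 : 0 ≤ θ) (hθ1 : θ < 1) (he : CavEnv0 G θ α P m) (c p : V) :
    Nice (fun a : V → ℝ => phi θ (m c p a)) := by
  refine ⟨(measurable_phi θ).comp (he.meas c p), 1, fun a => ?_⟩
  have h := phi_bd hθ0 hθ1 (he.bound c p a)
  rw [abs_of_nonneg h.1]
  exact h.2.1

lemma nice_Rn {d : ℕ} (hd : 3 ≤ d) (hθ0 : 0 ≤ θ) (hθ1 : θ < 1)
    (hcrit : ((d : ℝ) - 1) * θ ^ 2 = 1) (hreg : ∀ v, G.degree v = d)
    (he : CavEnv0 G θ α P m) (n : ℕ) {c p : V} (h : G.Adj c p) :
    Nice (fun a : V → ℝ => Rn G θ (fun c p => m c p a) n c p) := by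
  refine ⟨measurable_Rn he n c p, n, fun a => ?_⟩
  have h1 := Rn_bounds hd hθ0 hθ1 hcrit hreg he a n h
  rw [abs_of_nonneg h1.1]
  exact h1.2

/-- screening of the truncated susceptibility -/
lemma screen_Rn {d : ℕ} (hd : 3 ≤ d) (hθ0 : 0 < θ) (hθ1 : θ < 1)
    (hcrit : ((d : ℝ) - 1) * θ ^ 2 = 1) (hG : G.IsTree) (hreg : ∀ v, G.degree v = d)
    (he : CavEnv0 G θ α P m) {x : ℝ} (hx0 : 0 < x)
    (hx : ∀ c p, G.Adj c p → ∫ ω, (m c p ω.2) ^ 2 ∂P = x) (n : ℕ) {c p : V} (h : G.Adj c p) :
    θ ^ 2 * x * ∫ ω, Rn G θ (fun c p => m c p ω.2) n c p ∂P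
      ≤ ∫ ω, (m c p ω.2) ^ 2 * Rn G θ (fun c p => m c p ω.2) n c p ∂P := by
  have hprob := he.prob
  cases n with
  | zero => simp [Rn]
  | succ n =>
    have hterm : ∀ g ∈ (G.neighborFinset c).erase p, G.Adj c g ∧ g ≠ p := by
      intro g hg
      have hg' := Finset.mem_erase.mp hg
      exact ⟨(mem_neighborFinset _ _ _).mp hg'.2, hg'.1⟩
    set F : V → (V → ℝ) → ℝ := fun g a =>
      phi θ (m g c a) * Rn G θ (fun c p => m c p a) n g c with hF
    have hFn : ∀ g ∈ (G.neighborFinset c).erase p, Nice (F g) := fun g hg =>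
      (nice_phi hθ0.le hθ1 he g c).mul (nice_Rn hd hθ0.le hθ1 hcrit hreg he n (hterm g hg).1.symm)
    have hF0 : ∀ g ∈ (G.neighborFinset c).erase p, ∀ a, 0 ≤ F g a := fun g hg a =>
      mul_nonneg (phi_bd hθ0.le hθ1 (he.bound g c a)).1
        (Rn_bounds hd hθ0.le hθ1 hcrit hreg he a n (hterm g hg).1.symm).1
    have hFd : ∀ g ∈ (G.neighborFinset c).erase p, ObsDepOn (br G g c) (F g) := by
      intro g hg a a' haa
      show phi θ (m g c a) * Rn G θ (fun c p => m c p a) n g c
        = phi θ (m g c a') * Rn G θ (fun c p => m c p a') n g c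
      have e1 : m g c a = m g c a' := he.dep g c a a' haa
      have e2 : Rn G θ (fun c p => m c p a) n g c = Rn G θ (fun c p => m c p a') n g c :=
        Rn_dep he hG n (hterm g hg).1.symm a a' haa
      rw [e1, e2]
    have hscr : ∀ g ∈ (G.neighborFinset c).erase p,
        θ ^ 2 * x * ∫ ω, F g ω.2 ∂P ≤ ∫ ω, F g ω.2 * (m c p ω.2) ^ 2 ∂P := by
      intro g hg
      obtain ⟨j, hj1, hj2, hj3⟩ := exists_other_child hd hreg c p g
      have h1 := screen he hG h (hterm g hg).1 hj1 (hterm g hg).2 hj2 (Ne.symm hj3)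
        (hFn g hg) (hF0 g hg) (hFd g hg)
      rwa [hx j c hj1.symm] at h1
    have eR : ∀ ω : Cfg V, Rn G θ (fun c p => m c p ω.2) (n + 1) c p
        = 1 + θ ^ 2 * ∑ g ∈ (G.neighborFinset c).erase p, F g ω.2 := fun ω => rfl
    have nS : Nice (fun ω : Cfg V => ∑ g ∈ (G.neighborFinset c).erase p, F g ω.2) :=
      Nice.sum _ fun g hg => nice_obs (hFn g hg)
    have nm : Nice (fun ω : Cfg V => (m c p ω.2) ^ 2) := (nice_obs (nice_cav he c p)).pow 2
    have nT : Nice (fun ω : Cfg V => ∑ g ∈ (G.neighborFinset c).erase p,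
        F g ω.2 * (m c p ω.2) ^ 2) := Nice.sum _ fun g hg => (nice_obs (hFn g hg)).mul nm
    have e1 : ∫ ω, Rn G θ (fun c p => m c p ω.2) (n + 1) c p ∂P
        = 1 + θ ^ 2 * ∑ g ∈ (G.neighborFinset c).erase p, ∫ ω, F g ω.2 ∂P := by
      simp only [eR]
      rw [(Nice.const 1).integral_add' ((Nice.const (θ ^ 2)).mul nS), integral_const_mul,
        integral_finsetSum _ fun g hg => (nice_obs (hFn g hg)).integrable P]
      simp
    have e2 : ∫ ω, (m c p ω.2) ^ 2 * Rn G θ (fun c p => m c p ω.2) (n + 1) c p ∂P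
        = x + θ ^ 2 * ∑ g ∈ (G.neighborFinset c).erase p,
          ∫ ω, F g ω.2 * (m c p ω.2) ^ 2 ∂P := by
      have e3 : ∀ ω : Cfg V, (m c p ω.2) ^ 2 * Rn G θ (fun c p => m c p ω.2) (n + 1) c p
          = (m c p ω.2) ^ 2 + θ ^ 2 * ∑ g ∈ (G.neighborFinset c).erase p,
            F g ω.2 * (m c p ω.2) ^ 2 := by
        intro ω
        rw [eR, ← Finset.sum_mul]
        ring
      simp only [e3]
      rw [nm.integral_add' ((Nice.const (θ ^ 2)).mul nT), integral_const_mul,
        integral_finsetSum _ fun g hg => ((nice_obs (hFn g hg)).mul nm).integrable P, hx c p h]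
    rw [e1, e2]
    have h3 : ∑ g ∈ (G.neighborFinset c).erase p, θ ^ 2 * x * ∫ ω, F g ω.2 ∂P
        ≤ ∑ g ∈ (G.neighborFinset c).erase p, ∫ ω, F g ω.2 * (m c p ω.2) ^ 2 ∂P :=
      Finset.sum_le_sum hscr
    rw [← Finset.mul_sum] at h3
    have h4 := mul_le_mul_of_nonneg_left h3 (sq_nonneg θ)
    have hθ2 : θ ^ 2 ≤ 1 := by nlinarith
    nlinarith

end Aux

/-- First moment.  `R_n = Rn n c p` (truncated, `0 ≤ R_n ≤ n`, an even functional of the
observations in `br c p`), `b = d - 1`, `b θ² = 1`, `R_{n+1} = 1 + (1/b) Σ_g phi_g R_n(g,c)`,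
`r_n = E R_n` (does not depend on the edge).  `phi ≤ 1 - (1-θ²) m²`, and by `screen` applied to each
term of `R_n(c,p) = 1 + (1/b) Σ_g phi_g R_{n-1}(g,c)`, `E[m² R_n] ≥ θ² x r_n`.
So `r_{n+1} ≤ 1 + r_n (1 - (1-θ²) θ² x)` and `r_n ≤ 1 / ((1-θ²) θ² x)`. -/
theorem env_R_first {d : ℕ} (hd : 3 ≤ d) {θ : ℝ} (hθ0 : 0 < θ) (hθ1 : θ < 1)
    (hcrit : ((d : ℝ) - 1) * θ ^ 2 = 1) {α : ℝ} (hα0 : 0 ≤ α) (hα1 : α < 1)
    (hG : G.IsTree) (hreg : ∀ v, G.degree v = d)
    (P : Measure (Cfg V)) (m : V → V → (V → ℝ) → ℝ) (he : CavEnv G θ α P m)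
    (x : ℝ) (hx0 : 0 < x) (hx : ∀ c p, G.Adj c p → ∫ ω, (m c p ω.2) ^ 2 ∂P = x)
    (n : ℕ) (c p : V) (h : G.Adj c p) :
    ∫ ω, Rn G θ (fun c p => m c p ω.2) n c p ∂P ≤ 1 / ((1 - θ ^ 2) * θ ^ 2 * x) := by
  have he0 := he.toCavEnv0
  have hprob := he0.prob
  have hθ2 : 0 < 1 - θ ^ 2 := by nlinarith
  have hx1 : x ≤ 1 := by
    rw [← hx c p h]
    calc ∫ ω, (m c p ω.2) ^ 2 ∂P ≤ ∫ ω, (1 : ℝ) ∂P := by
          apply ((nice_obs (nice_cav he0 c p)).pow 2).integral_mono' (Nice.const 1) P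
          intro ω
          have := sq_le_of_abs_le_aux (he0.bound c p ω.2)
          simpa using this
      _ = 1 := by simp
  set κ : ℝ := (1 - θ ^ 2) * θ ^ 2 * x with hκ
  have hκ0 : 0 < κ := by positivity
  have hκ1 : κ ≤ 1 := by
    have h1 : (1 - θ ^ 2) * θ ^ 2 ≤ 1 := by nlinarith [sq_nonneg θ]
    calc κ ≤ 1 * 1 := mul_le_mul h1 hx1 hx0.le zero_le_one
      _ = 1 := one_mul _
  induction n generalizing c p with
  | zero =>
    simp only [Rn, integral_zero]
    positivity
  | succ n ih =>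
    have hterm : ∀ g ∈ (G.neighborFinset c).erase p, G.Adj g c := by
      intro g hg
      exact ((mem_neighborFinset _ _ _).mp (Finset.mem_erase.mp hg).2).symm
    have nR : ∀ g ∈ (G.neighborFinset c).erase p,
        Nice (fun ω : Cfg V => Rn G θ (fun c p => m c p ω.2) n g c) := fun g hg =>
      nice_obs (nice_Rn hd hθ0.le hθ1 hcrit hreg he0 n (hterm g hg))
    have nF : ∀ g ∈ (G.neighborFinset c).erase p,
        Nice (fun ω : Cfg V => phi θ (m g c ω.2) * Rn G θ (fun c p => m c p ω.2) n g c) :=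
      fun g hg => (nice_obs (nice_phi hθ0.le hθ1 he0 g c)).mul (nR g hg)
    have nm : ∀ g, Nice (fun ω : Cfg V => (m g c ω.2) ^ 2) := fun g =>
      (nice_obs (nice_cav he0 g c)).pow 2
    have hone : ∀ g ∈ (G.neighborFinset c).erase p,
        ∫ ω, phi θ (m g c ω.2) * Rn G θ (fun c p => m c p ω.2) n g c ∂P ≤ (1 - κ) / κ := by
      intro g hg
      have hgc := hterm g hg
      have h1 : ∫ ω, phi θ (m g c ω.2) * Rn G θ (fun c p => m c p ω.2) n g c ∂P
          ≤ ∫ ω, (Rn G θ (fun c p => m c p ω.2) n g c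
            - (1 - θ ^ 2) * ((m g c ω.2) ^ 2 * Rn G θ (fun c p => m c p ω.2) n g c)) ∂P := by
        apply (nF g hg).integral_mono'
          ((nR g hg).sub ((Nice.const (1 - θ ^ 2)).mul ((nm g).mul (nR g hg)))) P
        intro ω
        have h2 := (phi_bd hθ0.le hθ1 (he0.bound g c ω.2)).2.2
        have h3 := (Rn_bounds hd hθ0.le hθ1 hcrit hreg he0 ω.2 n hgc).1
        calc phi θ (m g c ω.2) * Rn G θ (fun c p => m c p ω.2) n g c
            ≤ (1 - (1 - θ ^ 2) * (m g c ω.2) ^ 2) * Rn G θ (fun c p => m c p ω.2) n g c :=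
              mul_le_mul_of_nonneg_right h2 h3
          _ = _ := by ring
      rw [(nR g hg).integral_sub' ((Nice.const (1 - θ ^ 2)).mul ((nm g).mul (nR g hg))),
        integral_const_mul] at h1
      have h4 := screen_Rn hd hθ0 hθ1 hcrit hG hreg he0 hx0 hx n hgc
      have h5 := mul_le_mul_of_nonneg_left h4 hθ2.le
      have h6 := ih g c hgc
      set r := ∫ ω, Rn G θ (fun c p => m c p ω.2) n g c ∂P with hr
      have h7 : (1 - θ ^ 2) * (θ ^ 2 * x * r) = κ * r := by rw [hκ]; ring
      rw [h7] at h5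
      have h8 : (1 - κ) * r ≤ (1 - κ) * (1 / κ) :=
        mul_le_mul_of_nonneg_left h6 (by linarith)
      calc _ ≤ r - κ * r := h1.trans (by linarith)
        _ = (1 - κ) * r := by ring
        _ ≤ (1 - κ) * (1 / κ) := h8
        _ = (1 - κ) / κ := by ring
    simp only [Rn]
    rw [(Nice.const 1).integral_add' ((Nice.const (θ ^ 2)).mul (Nice.sum _ nF)),
      integral_const_mul, integral_finsetSum _ fun g hg => (nF g hg).integrable P]
    have h9 : ∑ g ∈ (G.neighborFinset c).erase p,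
        ∫ ω, phi θ (m g c ω.2) * Rn G θ (fun c p => m c p ω.2) n g c ∂P
        ≤ ((d : ℝ) - 1) * ((1 - κ) / κ) := by
      rw [← card_children hd hreg h, ← nsmul_eq_mul]
      exact Finset.sum_le_card_nsmul _ _ _ hone
    have h10 := mul_le_mul_of_nonneg_left h9 (sq_nonneg θ)
    have h11 : θ ^ 2 * (((d : ℝ) - 1) * ((1 - κ) / κ)) = (1 - κ) / κ := by
      calc θ ^ 2 * (((d : ℝ) - 1) * ((1 - κ) / κ)) = (((d : ℝ) - 1) * θ ^ 2) * ((1 - κ) / κ) := by
            ring
        _ = _ := by rw [hcrit, one_mul]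
    rw [h11] at h10
    have h12 : 1 + (1 - κ) / κ = 1 / κ := by field_simp; ring
    have h13 : ∫ (_ : Cfg V), (1 : ℝ) ∂P = 1 := by simp
    rw [h13]
    linarith

/-- All moments.  `E R_{n+1}^k ≤ 1 + b^{1-k} E R_n^k + C Σ (products of lower moments)` by
`sum_pow_le` and `indep_even`, `phi ≤ 1`; induction on `k`, for each `k` on `n`. -/
theorem env_R_moments {d : ℕ} (hd : 3 ≤ d) {θ : ℝ} (hθ0 : 0 < θ) (hθ1 : θ < 1)
    (hcrit : ((d : ℝ) - 1) * θ ^ 2 = 1) {α : ℝ} (hα0 : 0 ≤ α) (hα1 : α < 1)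
    (hG : G.IsTree) (hreg : ∀ v, G.degree v = d) :
    ∃ C : ℕ → ℝ, ∀ (P : Measure (Cfg V)) (m : V → V → (V → ℝ) → ℝ), CavEnv G θ α P m →
      ∀ x : ℝ, 0 < x → x ≤ 1 → (∀ c p, G.Adj c p → ∫ ω, (m c p ω.2) ^ 2 ∂P = x) →
        ∀ k n c p, G.Adj c p →
          ∫ ω, Rn G θ (fun c p => m c p ω.2) n c p ^ k ∂P ≤ C k / x ^ k := by
  have hθ2 : 0 < 1 - θ ^ 2 := by nlinarith
  have main : ∀ k : ℕ, ∃ C : ℝ, 0 ≤ C ∧
      ∀ (P : Measure (Cfg V)) (m : V → V → (V → ℝ) → ℝ), CavEnv G θ α P m →
      ∀ x : ℝ, 0 < x → x ≤ 1 → (∀ c p, G.Adj c p → ∫ ω, (m c p ω.2) ^ 2 ∂P = x) →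
        ∀ n c p, G.Adj c p →
          ∫ ω, Rn G θ (fun c p => m c p ω.2) n c p ^ k ∂P ≤ C / x ^ k := by
    have h0 : ∀ (P : Measure (Cfg V)) (m : V → V → (V → ℝ) → ℝ), CavEnv G θ α P m →
        ∀ x : ℝ, 0 < x → x ≤ 1 → (∀ c p, G.Adj c p → ∫ ω, (m c p ω.2) ^ 2 ∂P = x) →
        ∀ n c p, G.Adj c p →
          ∫ ω, Rn G θ (fun c p => m c p ω.2) n c p ^ 0 ∂P ≤ 1 / x ^ 0 := by
      intro P m he x hx0 hx1 hx n c p h
      have hprob := he.toCavEnv0.prob
      simp
    have h1 : ∀ (P : Measure (Cfg V)) (m : V → V → (V → ℝ) → ℝ), CavEnv G θ α P m →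
        ∀ x : ℝ, 0 < x → x ≤ 1 → (∀ c p, G.Adj c p → ∫ ω, (m c p ω.2) ^ 2 ∂P = x) →
        ∀ n c p, G.Adj c p →
          ∫ ω, Rn G θ (fun c p => m c p ω.2) n c p ^ 1 ∂P
            ≤ (1 / ((1 - θ ^ 2) * θ ^ 2)) / x ^ 1 := by
      intro P m he x hx0 hx1 hx n c p h
      simp only [pow_one]
      refine (env_R_first hd hθ0 hθ1 hcrit hα0 hα1 hG hreg P m he x hx0 hx n c p h).trans ?_
      rw [div_div]
    intro k
    induction k with
    | zero => exact ⟨1, zero_le_one, h0⟩
    | succ k ih =>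
      rcases Nat.eq_zero_or_pos k with rfl | hk
      · exact ⟨1 / ((1 - θ ^ 2) * θ ^ 2), by positivity, h1⟩
      obtain ⟨Ck, hCk0, hCk⟩ := ih
      set C1 : ℝ := 1 / ((1 - θ ^ 2) * θ ^ 2) with hC1
      have hC10 : 0 ≤ C1 := by positivity
      set E : ℝ := ((k : ℝ) + 1) * (1 + ((d : ℝ) - 1)) ^ k with hE
      have hb : 0 ≤ (d : ℝ) - 1 := by
        have : (3 : ℝ) ≤ d := by exact_mod_cast hd
        linarith
      have hE0 : 0 ≤ E := by positivity
      set D : ℝ := E * (((d : ℝ) - 1) * (((d : ℝ) - 1) * (Ck * C1))) + ((k : ℝ) + 1) * Ck with hD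
      have hD0 : 0 ≤ D := by positivity
      refine ⟨D / (1 - θ ^ 2), by positivity, ?_⟩
      intro P m he x hx0 hx1 hx n
      have he0 := he.toCavEnv0
      have hprob := he0.prob
      have hxk : 0 < x ^ (k + 1) := by positivity
      induction n with
      | zero =>
        intro c p h
        simp only [Rn]
        rw [zero_pow (by omega)]
        simp only [integral_zero]
        positivity
      | succ n ihn =>
        intro c p h
        set S := (G.neighborFinset c).erase p with hS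
        have hterm : ∀ g ∈ S, G.Adj g c := by
          intro g hg
          exact ((mem_neighborFinset _ _ _).mp (Finset.mem_erase.mp hg).2).symm
        set R : V → Cfg V → ℝ := fun g ω => Rn G θ (fun c p => m c p ω.2) n g c with hR
        have nR : ∀ g ∈ S, Nice (R g) := fun g hg =>
          nice_obs (nice_Rn hd hθ0.le hθ1 hcrit hreg he0 n (hterm g hg))
        have hR0 : ∀ g ∈ S, ∀ ω, 0 ≤ R g ω := fun g hg ω =>
          (Rn_bounds hd hθ0.le hθ1 hcrit hreg he0 ω.2 n (hterm g hg)).1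
        have nR' : Nice (fun ω : Cfg V => Rn G θ (fun c p => m c p ω.2) (n + 1) c p) :=
          nice_obs (nice_Rn hd hθ0.le hθ1 hcrit hreg he0 (n + 1) h)
        have hR0' : ∀ ω : Cfg V, 0 ≤ Rn G θ (fun c p => m c p ω.2) (n + 1) c p := fun ω =>
          (Rn_bounds hd hθ0.le hθ1 hcrit hreg he0 ω.2 (n + 1) h).1
        have hcard : ((S.card : ℕ) : ℝ) = (d : ℝ) - 1 := card_children hd hreg h
        -- pointwise bound
        have hpt : ∀ ω : Cfg V, Rn G θ (fun c p => m c p ω.2) (n + 1) c p ^ (k + 1)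
            ≤ (∑ g ∈ S, (θ ^ 2) ^ (k + 1) * R g ω ^ (k + 1)
              + E * ∑ g ∈ S, ∑ j ∈ S.erase g, R g ω ^ k * R j ω)
              + ((k : ℝ) + 1) * Rn G θ (fun c p => m c p ω.2) (n + 1) c p ^ k := by
          intro ω
          classical
          set y : V → ℝ := fun g => if g ∈ S then θ ^ 2 * R g ω else 0 with hy
          have hy0 : ∀ g, 0 ≤ y g := by
            intro g
            by_cases hg : g ∈ S
            · simp only [hy, if_pos hg]
              exact mul_nonneg (sq_nonneg θ) (hR0 g hg ω)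
            · simp only [hy, if_neg hg]
              exact le_rfl
          have hyS : ∀ g ∈ S, y g = θ ^ 2 * R g ω := fun g hg => by simp only [hy, if_pos hg]
          have hyR : ∀ g ∈ S, y g ≤ R g ω := by
            intro g hg
            rw [hyS g hg]
            have h3 := hR0 g hg ω
            have h4 : θ ^ 2 ≤ 1 := by linarith
            calc θ ^ 2 * R g ω ≤ 1 * R g ω := mul_le_mul_of_nonneg_right h4 h3
              _ = _ := one_mul _
          set Y : ℝ := θ ^ 2 * ∑ g ∈ S, phi θ (m g c ω.2) * R g ω with hY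
          have hYY : Y ≤ ∑ g ∈ S, y g := by
            rw [hY, Finset.mul_sum]
            apply Finset.sum_le_sum
            intro g hg
            rw [hyS g hg]
            have h3 := phi_bd hθ0.le hθ1 (he0.bound g c ω.2)
            have h4 : phi θ (m g c ω.2) * R g ω ≤ 1 * R g ω :=
              mul_le_mul_of_nonneg_right h3.2.1 (hR0 g hg ω)
            rw [one_mul] at h4
            exact mul_le_mul_of_nonneg_left h4 (sq_nonneg θ)
          have hY0 : 0 ≤ Y := mul_nonneg (sq_nonneg θ) (Finset.sum_nonneg fun g hg =>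
            mul_nonneg (phi_bd hθ0.le hθ1 (he0.bound g c ω.2)).1 (hR0 g hg ω))
          have eR : Rn G θ (fun c p => m c p ω.2) (n + 1) c p = Y + 1 := by
            have e1 : Rn G θ (fun c p => m c p ω.2) (n + 1) c p = 1 + Y := rfl
            rw [e1]
            ring
          have h5 := add_pow_le_aux hY0 zero_le_one k
          rw [mul_one, ← eR] at h5
          have h6 : Y ^ (k + 1) ≤ (∑ g ∈ S, y g) ^ (k + 1) := pow_le_pow_left₀ hY0 hYY _
          have h7 := sum_pow_le_card S k y hy0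
          have h8 : ∑ g ∈ S, y g ^ (k + 1) = ∑ g ∈ S, (θ ^ 2) ^ (k + 1) * R g ω ^ (k + 1) := by
            apply Finset.sum_congr rfl
            intro g hg
            rw [hyS g hg, mul_pow]
          have h9 : ∑ g ∈ S, ∑ j ∈ S.erase g, y g ^ k * y j
              ≤ ∑ g ∈ S, ∑ j ∈ S.erase g, R g ω ^ k * R j ω := by
            apply Finset.sum_le_sum
            intro g hg
            apply Finset.sum_le_sum
            intro j hj
            have hj' := Finset.mem_of_mem_erase hj
            exact mul_le_mul (pow_le_pow_left₀ (hy0 g) (hyR g hg) k) (hyR j hj') (hy0 j)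
              (pow_nonneg (hR0 g hg ω) k)
          have h10 : ((k : ℝ) + 1) * (1 + (S.card : ℝ)) ^ k = E := by rw [hcard, hE]
          rw [h10, h8] at h7
          have h11 := mul_le_mul_of_nonneg_left h9 hE0
          linarith
        -- integrate
        have n1 : Nice (fun ω : Cfg V => ∑ g ∈ S, (θ ^ 2) ^ (k + 1) * R g ω ^ (k + 1)) :=
          Nice.sum S fun g hg => (Nice.const _).mul ((nR g hg).pow (k + 1))
        have n2 : Nice (fun ω : Cfg V => ∑ g ∈ S, ∑ j ∈ S.erase g, R g ω ^ k * R j ω) :=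
          Nice.sum S fun g hg => Nice.sum _ fun j hj =>
            ((nR g hg).pow k).mul (nR j (Finset.mem_of_mem_erase hj))
        have hint := (nR'.pow (k + 1)).integral_mono'
          ((n1.add ((Nice.const E).mul n2)).add ((Nice.const ((k : ℝ) + 1)).mul (nR'.pow k))) P hpt
        rw [(n1.add ((Nice.const E).mul n2)).integral_add'
          ((Nice.const ((k : ℝ) + 1)).mul (nR'.pow k)), n1.integral_add' ((Nice.const E).mul n2),
          integral_const_mul, integral_const_mul] at hint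
        -- first sum
        have hs1 : ∫ ω, ∑ g ∈ S, (θ ^ 2) ^ (k + 1) * R g ω ^ (k + 1) ∂P
            ≤ θ ^ 2 * ((D / (1 - θ ^ 2)) / x ^ (k + 1)) := by
          rw [integral_finsetSum _ fun g hg =>
            ((Nice.const _).mul ((nR g hg).pow (k + 1))).integrable P]
          simp only [integral_const_mul]
          have h3 : ∑ g ∈ S, (θ ^ 2) ^ (k + 1) * ∫ ω, R g ω ^ (k + 1) ∂P
              ≤ S.card • ((θ ^ 2) ^ (k + 1) * ((D / (1 - θ ^ 2)) / x ^ (k + 1))) := by
            apply Finset.sum_le_card_nsmul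
            intro g hg
            exact mul_le_mul_of_nonneg_left (ihn g c (hterm g hg)) (by positivity)
          rw [nsmul_eq_mul, hcard] at h3
          refine h3.trans ?_
          have h4 : ((d : ℝ) - 1) * ((θ ^ 2) ^ (k + 1) * ((D / (1 - θ ^ 2)) / x ^ (k + 1)))
              = (((d : ℝ) - 1) * θ ^ 2) * ((θ ^ 2) ^ k * ((D / (1 - θ ^ 2)) / x ^ (k + 1))) := by
            rw [pow_succ]
            ring
          rw [h4, hcrit, one_mul]
          apply mul_le_mul_of_nonneg_right _ (by positivity)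
          calc (θ ^ 2) ^ k ≤ (θ ^ 2) ^ 1 :=
                pow_le_pow_of_le_one (sq_nonneg θ) (by linarith) hk
            _ = θ ^ 2 := pow_one _
        -- second sum
        have hs2 : ∫ ω, ∑ g ∈ S, ∑ j ∈ S.erase g, R g ω ^ k * R j ω ∂P
            ≤ (((d : ℝ) - 1) * (((d : ℝ) - 1) * (Ck * C1))) / x ^ (k + 1) := by
          have hpair : ∀ g ∈ S, ∀ j ∈ S.erase g,
              ∫ ω, R g ω ^ k * R j ω ∂P ≤ (Ck * C1) / x ^ (k + 1) := by
            intro g hg j hj
            have hj' := Finset.mem_of_mem_erase hj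
            have hne : j ≠ g := (Finset.mem_erase.mp hj).1
            have hadjg := hterm g hg
            have hadjj := hterm j hj'
            have hind : ∫ ω, R j ω * R g ω ^ k ∂P
                = (∫ ω, R j ω ∂P) * (∫ ω, R g ω ^ k ∂P) := by
              apply indep_even he0 hadjj (nR j hj') ((nR g hg).pow k)
              · exact (Rn_dep he0 hG n hadjj).depOn
              · have hd1 : DepOn (br G c j) (R g) :=
                  ((Rn_dep he0 hG n hadjg).mono (br_subset hG hadjj.symm hadjg.symm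
                    (Ne.symm hne))).depOn
                intro ω ω' hω
                show R g ω ^ k = R g ω' ^ k
                rw [hd1 ω ω' hω]
              · intro ω
                show (Rn G θ (fun c p => m c p (fun v => - ω.2 v)) n g c) ^ k = R g ω ^ k
                rw [Rn_even he0]
            have e : ∫ ω, R g ω ^ k * R j ω ∂P = ∫ ω, R j ω * R g ω ^ k ∂P := by
              simp only [mul_comm]
            rw [e, hind]
            have b1 : ∫ ω, R j ω ∂P ≤ C1 / x := by
              have := h1 P m he x hx0 hx1 hx n j c hadjj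
              simpa only [pow_one] using this
            have b2 := hCk P m he x hx0 hx1 hx n g c hadjg
            have b3 : 0 ≤ ∫ ω, R g ω ^ k ∂P := integral_nonneg fun ω => pow_nonneg (hR0 g hg ω) k
            calc (∫ ω, R j ω ∂P) * (∫ ω, R g ω ^ k ∂P) ≤ (C1 / x) * (Ck / x ^ k) :=
                  mul_le_mul b1 b2 b3 (by positivity)
              _ = _ := by rw [pow_succ]; field_simp
          rw [integral_finsetSum _ fun g hg => (Nice.sum _ fun j hj =>
            ((nR g hg).pow k).mul (nR j (Finset.mem_of_mem_erase hj))).integrable P]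
          have h3 : ∀ g ∈ S, ∫ ω, ∑ j ∈ S.erase g, R g ω ^ k * R j ω ∂P
              ≤ ((d : ℝ) - 1) * ((Ck * C1) / x ^ (k + 1)) := by
            intro g hg
            rw [integral_finsetSum _ fun j hj =>
              (((nR g hg).pow k).mul (nR j (Finset.mem_of_mem_erase hj))).integrable P]
            have h4 := Finset.sum_le_card_nsmul (S.erase g) _ _ (hpair g hg)
            rw [nsmul_eq_mul] at h4
            refine h4.trans ?_
            apply mul_le_mul_of_nonneg_right _ (by positivity)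
            rw [← hcard]
            exact_mod_cast Finset.card_le_card (Finset.erase_subset _ _)
          have h5 := Finset.sum_le_card_nsmul S _ _ h3
          rw [nsmul_eq_mul, hcard] at h5
          refine h5.trans (le_of_eq ?_)
          ring
        -- third term
        have hs3 : ∫ ω, Rn G θ (fun c p => m c p ω.2) (n + 1) c p ^ k ∂P ≤ Ck / x ^ (k + 1) := by
          refine (hCk P m he x hx0 hx1 hx (n + 1) c p h).trans ?_
          apply div_le_div_of_nonneg_left hCk0 hxk
          exact pow_le_pow_of_le_one hx0.le hx1 (Nat.le_succ k)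
        have hk1 : (0 : ℝ) ≤ (k : ℝ) + 1 := by positivity
        calc ∫ ω, Rn G θ (fun c p => m c p ω.2) (n + 1) c p ^ (k + 1) ∂P
            ≤ (θ ^ 2 * ((D / (1 - θ ^ 2)) / x ^ (k + 1))
              + E * ((((d : ℝ) - 1) * (((d : ℝ) - 1) * (Ck * C1))) / x ^ (k + 1)))
              + ((k : ℝ) + 1) * (Ck / x ^ (k + 1)) := by
              refine hint.trans (add_le_add (add_le_add hs1 ?_) ?_)
              · exact mul_le_mul_of_nonneg_left hs2 hE0
              · exact mul_le_mul_of_nonneg_left hs3 hk1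
          _ = (θ ^ 2 * (D / (1 - θ ^ 2)) + D) / x ^ (k + 1) := by
              rw [hD]
              ring
          _ = (D / (1 - θ ^ 2)) / x ^ (k + 1) := by
              congr 1
              field_simp
              ring
  choose C hC0 hC using main
  exact ⟨C, fun P m he x hx0 hx1 hx k n c p h => hC k P m he x hx0 hx1 hx n c p h⟩

section Rb2

variable {θ α : ℝ} {P : Measure (Cfg V)} {m : V → V → (V → ℝ) → ℝ}

omit [LocallyFinite G] [DecidableEq V] [Countable V] in
lemma Wt_congr_adj (hG : G.Connected) {x x' : V → V → ℝ} (h : ∀ c p, G.Adj c p → x c p = x' c p)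
    (v w : V) : Wt G θ x v w = Wt G θ x' v w := by
  apply bcast_induction (o := v) hG (P := fun w => Wt G θ x v w = Wt G θ x' v w)
  · simp
  · intro w hw ih
    rw [Wt_tail hG hw, Wt_tail hG hw, ih, h _ _ (par_spec hG hw).1]

omit [LocallyFinite G] [DecidableEq V] [Countable V] in
/-- the parent stays in the branch, and the branch beyond a vertex of the branch is contained in
the branch -/
lemma par_mem_br (hG : G.IsTree) {c p w : V} (h : G.Adj c p) (hw : w ∈ br G c p) (hwc : w ≠ c) :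
    par G c w ∈ br G c p ∧ br G w (par G c w) ⊆ br G c p := by
  have hw' : G.dist w c < G.dist w p := hw
  obtain ⟨hadj, hdist⟩ := par_spec hG.connected hwc
  set w' := par G c w with hw'def
  have c1 : G.dist c w = G.dist w c := G.dist_comm
  have c2 : G.dist c w' = G.dist w' c := G.dist_comm
  have hin : G.dist w' c < G.dist w' p := by
    by_contra hcon
    have e := hG.dist_eq_dist_add_one_of_adj w' h
    have e' : G.dist w' c = G.dist w' p + 1 := by omega
    have e2 : G.dist w p ≤ G.dist w w' + G.dist w' p := hG.connected.dist_triangle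
    have e3 : G.dist w w' = 1 := dist_eq_one_iff_adj.mpr hadj
    omega
  refine ⟨hin, ?_⟩
  intro z hz
  have hz' : G.dist z w < G.dist z w' := hz
  have d1 : G.dist c w' < G.dist c w := by omega
  have f1 : G.dist z c = G.dist z w + 1 + G.dist w' c := dist_across' hG hadj hz' d1
  have c3 : G.dist p w' = G.dist w' p := G.dist_comm
  have c4 : G.dist p w = G.dist w p := G.dist_comm
  have g1 := hG.dist_eq_dist_add_one_of_adj w h
  have g2 := hG.dist_eq_dist_add_one_of_adj w' h
  have d2 : G.dist p w' < G.dist p w := by omega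
  have f2 : G.dist z p = G.dist z w + 1 + G.dist w' p := dist_across' hG hadj hz' d2
  show G.dist z c < G.dist z p
  omega

omit [Countable V] in
lemma Wt_dep (he : CavEnv0 G θ α P m) (hG : G.IsTree) {c p : V} (h : G.Adj c p) {w : V}
    (hw : w ∈ br G c p) : ObsDepOn (br G c p) (fun a => Wt G θ (fun c p => m c p a) c w) := by
  intro a a' haa
  have key : ∀ w, w ∈ br G c p →
      Wt G θ (fun c p => m c p a) c w = Wt G θ (fun c p => m c p a') c w := by
    apply bcast_induction (o := c) hG.connected (P := fun w => w ∈ br G c p →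
      Wt G θ (fun c p => m c p a) c w = Wt G θ (fun c p => m c p a') c w)
    · intro _
      simp
    · intro w hwc ih hw
      obtain ⟨h1, h2⟩ := par_mem_br hG h hw hwc
      rw [Wt_tail hG.connected hwc, Wt_tail hG.connected hwc, ih h1]
      have e : m w (par G c w) a = m w (par G c w) a' :=
        he.dep w (par G c w) a a' fun z hz => haa z (h2 hz)
      rw [e]
  exact key w hw

omit [Countable V] in
lemma Wt_even (he : CavEnv0 G θ α P m) (hG : G.IsTree) (c w : V) (a : V → ℝ) :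
    Wt G θ (fun c p => m c p (fun v => - a v)) c w = Wt G θ (fun c p => m c p a) c w := by
  apply bcast_induction (o := c) hG.connected (P := fun w =>
    Wt G θ (fun c p => m c p (fun v => - a v)) c w = Wt G θ (fun c p => m c p a) c w)
  · simp
  · intro w hwc ih
    rw [Wt_tail hG.connected hwc, Wt_tail hG.connected hwc, ih, he.odd, phi_neg]

omit [Countable V] in
lemma Wt_bd (he : CavEnv0 G θ α P m) (hθ0 : 0 ≤ θ) (hθ1 : θ < 1) (hG : G.IsTree) (c w : V)
    (a : V → ℝ) : 0 ≤ Wt G θ (fun c p => m c p a) c w ∧ Wt G θ (fun c p => m c p a) c w ≤ 1 := by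
  apply bcast_induction (o := c) hG.connected (P := fun w =>
    0 ≤ Wt G θ (fun c p => m c p a) c w ∧ Wt G θ (fun c p => m c p a) c w ≤ 1)
  · simp
  · intro w hwc ih
    rw [Wt_tail hG.connected hwc]
    have h := phi_bd hθ0 hθ1 (he.bound w (par G c w) a)
    exact ⟨mul_nonneg ih.1 h.1, mul_le_one₀ ih.2 h.1 h.2.1⟩

lemma nice_Wt_obs (he : CavEnv0 G θ α P m) (hθ0 : 0 ≤ θ) (hθ1 : θ < 1) (hG : G.IsTree) (c w : V) :
    Nice (fun a : V → ℝ => Wt G θ (fun c p => m c p a) c w) := by
  refine ⟨?_, 1, fun a => ?_⟩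
  · exact (measurable_Wt (θ := θ) c w).comp (measurable_pi_lambda _ fun c =>
      measurable_pi_lambda _ fun p => he.meas c p)
  · have h := Wt_bd he hθ0 hθ1 hG c w a
    rw [abs_of_nonneg h.1]
    exact h.2

open Classical in
/-- the terms of `Rb2` on disjoint branches are independent -/
lemma Rb2_terms_indep (he : CavEnv0 G θ α P m) (hθ0 : 0 ≤ θ) (hθ1 : θ < 1) (hG : G.IsTree)
    {c p c' p' : V} (h : G.Adj c p) (h' : G.Adj c' p') (hdis : Disjoint (br G c p) (br G c' p'))
    (w w' : V) :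
    ∫⁻ ω, (if G.dist w c < G.dist w p then
        ENNReal.ofReal (θ ^ (2 * G.dist c w) * Wt G θ (fun c p => m c p ω.2) c w ^ 2) else 0)
      * (if G.dist w' c' < G.dist w' p' then
        ENNReal.ofReal (θ ^ (2 * G.dist c' w') * Wt G θ (fun c p => m c p ω.2) c' w' ^ 2) else 0) ∂P
      = (∫⁻ ω, (if G.dist w c < G.dist w p then
        ENNReal.ofReal (θ ^ (2 * G.dist c w) * Wt G θ (fun c p => m c p ω.2) c w ^ 2) else 0) ∂P)
      * (∫⁻ ω, (if G.dist w' c' < G.dist w' p' then
        ENNReal.ofReal (θ ^ (2 * G.dist c' w') * Wt G θ (fun c p => m c p ω.2) c' w' ^ 2)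
          else 0) ∂P) := by
  have hprob := he.prob
  by_cases hw : G.dist w c < G.dist w p
  swap
  · simp only [if_neg hw, zero_mul, lintegral_zero]
  by_cases hw' : G.dist w' c' < G.dist w' p'
  swap
  · simp only [if_neg hw', mul_zero, lintegral_zero]
  simp only [if_pos hw, if_pos hw']
  set F : Cfg V → ℝ := fun ω =>
    θ ^ (2 * G.dist c w) * Wt G θ (fun c p => m c p ω.2) c w ^ 2 with hF
  set H : Cfg V → ℝ := fun ω =>
    θ ^ (2 * G.dist c' w') * Wt G θ (fun c p => m c p ω.2) c' w' ^ 2 with hH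
  have nF : Nice F := (Nice.const _).mul ((nice_obs (nice_Wt_obs he hθ0 hθ1 hG c w)).pow 2)
  have nH : Nice H := (Nice.const _).mul ((nice_obs (nice_Wt_obs he hθ0 hθ1 hG c' w')).pow 2)
  have hF0 : ∀ ω, 0 ≤ F ω := fun ω => by simp only [hF]; positivity
  have hH0 : ∀ ω, 0 ≤ H ω := fun ω => by simp only [hH]; positivity
  have hsub : br G c' p' ⊆ br G p c := by
    intro z hz
    rw [← compl_br hG h]
    exact fun hcon => Set.disjoint_left.mp hdis hcon hz
  have hind : ∫ ω, F ω * H ω ∂P = (∫ ω, F ω ∂P) * (∫ ω, H ω ∂P) := by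
    apply indep_even he h nF nH
    · intro ω ω' hω
      have e := (Wt_dep he hG h (w := w) hw).depOn ω ω' hω
      show θ ^ (2 * G.dist c w) * Wt G θ (fun c p => m c p ω.2) c w ^ 2
        = θ ^ (2 * G.dist c w) * Wt G θ (fun c p => m c p ω'.2) c w ^ 2
      have e' : Wt G θ (fun c p => m c p ω.2) c w = Wt G θ (fun c p => m c p ω'.2) c w := e
      rw [e']
    · intro ω ω' hω
      have e := (Wt_dep he hG h' (w := w') hw').depOn ω ω' fun z hz => hω z (hsub hz)
      show θ ^ (2 * G.dist c' w') * Wt G θ (fun c p => m c p ω.2) c' w' ^ 2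
        = θ ^ (2 * G.dist c' w') * Wt G θ (fun c p => m c p ω'.2) c' w' ^ 2
      have e' : Wt G θ (fun c p => m c p ω.2) c' w' = Wt G θ (fun c p => m c p ω'.2) c' w' := e
      rw [e']
    · intro ω
      show θ ^ (2 * G.dist c' w') * Wt G θ (fun c p => m c p (fun v => - ω.2 v)) c' w' ^ 2
        = θ ^ (2 * G.dist c' w') * Wt G θ (fun c p => m c p ω.2) c' w' ^ 2
      rw [Wt_even he hG]
  have e1 : ∀ ω : Cfg V, ENNReal.ofReal (F ω) * ENNReal.ofReal (H ω)
      = ENNReal.ofReal (F ω * H ω) := fun ω => (ENNReal.ofReal_mul (hF0 ω)).symm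
  show ∫⁻ ω, ENNReal.ofReal (F ω) * ENNReal.ofReal (H ω) ∂P
    = (∫⁻ ω, ENNReal.ofReal (F ω) ∂P) * (∫⁻ ω, ENNReal.ofReal (H ω) ∂P)
  simp only [e1]
  rw [← ofReal_integral_eq_lintegral_ofReal ((nF.mul nH).integrable P)
      (Filter.Eventually.of_forall fun ω => mul_nonneg (hF0 ω) (hH0 ω)),
    ← ofReal_integral_eq_lintegral_ofReal (nF.integrable P) (Filter.Eventually.of_forall hF0),
    ← ofReal_integral_eq_lintegral_ofReal (nH.integrable P) (Filter.Eventually.of_forall hH0),
    hind, ENNReal.ofReal_mul (integral_nonneg hF0)]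

end Rb2

/-- `Rb2` has the same finite mean on all edges and is uncorrelated on disjoint branches
(truncate, `indep_even`, monotone convergence). -/
theorem env_Rb2 {d : ℕ} (hd : 3 ≤ d) {θ : ℝ} (hθ0 : 0 < θ) (hθ1 : θ < 1)
    {α : ℝ} (hα0 : 0 ≤ α) (hα1 : α < 1)
    (hG : G.IsTree) (hreg : ∀ v, G.degree v = d)
    (P : Measure (Cfg V)) (m : V → V → (V → ℝ) → ℝ) (he : CavEnv G θ α P m) :
    ∃ r : ENNReal,
      (∀ c p, G.Adj c p → ∫⁻ ω, Rb2 G θ (fun c p => m c p ω.2) c p ∂P = r) ∧
      ∀ c p c' p', G.Adj c p → G.Adj c' p' → Disjoint (br G c p) (br G c' p') →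
        ∫⁻ ω, Rb2 G θ (fun c p => m c p ω.2) c p * Rb2 G θ (fun c p => m c p ω.2) c' p' ∂P
          = r * r := by
  classical
  have he0 := he.toCavEnv0
  have hprob := he0.prob
  obtain ⟨v⟩ := hG.connected.nonempty
  obtain ⟨p0, hp0, -, -⟩ := exists_other_child hd hreg v v v
  have hmean : ∀ c p, G.Adj c p → ∫⁻ ω, Rb2 G θ (fun c p => m c p ω.2) c p ∂P
      = ∫⁻ ω, Rb2 G θ (fun c p => m c p ω.2) v p0 ∂P := by
    intro c p h
    have h1 : G.dist v p0 = G.dist c p := by
      rw [dist_eq_one_iff_adj.mpr h, dist_eq_one_iff_adj.mpr hp0]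
    obtain ⟨g, hgc, hgp⟩ := exists_iso_pair hG (by omega : 2 ≤ d) hreg h1
    have h2 := env_field_inv he hG g (fun x => Rb2 G θ x v p0) (measurable_Rb2 v p0) (by
      intro x x' hxx
      show Rb2 G θ x v p0 = Rb2 G θ x' v p0
      unfold Rb2
      apply tsum_congr
      intro w
      rw [Wt_congr_adj hG.connected hxx])
    rw [← h2]
    apply lintegral_congr
    intro ω
    have h3 := Rb2_iso (θ := θ) (m := fun c p => m c p ω.2) hG g hp0
    rw [hgc, hgp] at h3
    exact h3.symm
  refine ⟨∫⁻ ω, Rb2 G θ (fun c p => m c p ω.2) v p0 ∂P, hmean, ?_⟩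
  intro c p c' p' h h' hdis
  have hm1 : ∀ (c p w : V), Measurable (fun ω : Cfg V => (if G.dist w c < G.dist w p then
      ENNReal.ofReal (θ ^ (2 * G.dist c w) * Wt G θ (fun c p => m c p ω.2) c w ^ 2) else 0)) := by
    intro c p w
    split_ifs
    · exact (measurable_const.mul
        ((nice_obs (nice_Wt_obs he0 hθ0.le hθ1 hG c w)).measurable.pow_const 2)).ennreal_ofReal
    · exact measurable_const
  have hexp : ∀ ω : Cfg V, Rb2 G θ (fun c p => m c p ω.2) c p * Rb2 G θ (fun c p => m c p ω.2) c' p'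
      = ∑' w, ∑' w', (if G.dist w c < G.dist w p then
        ENNReal.ofReal (θ ^ (2 * G.dist c w) * Wt G θ (fun c p => m c p ω.2) c w ^ 2) else 0)
      * (if G.dist w' c' < G.dist w' p' then
        ENNReal.ofReal (θ ^ (2 * G.dist c' w') * Wt G θ (fun c p => m c p ω.2) c' w' ^ 2)
          else 0) := by
    intro ω
    simp only [ENNReal.tsum_mul_left, ENNReal.tsum_mul_right]
    rfl
  simp only [hexp]
  rw [lintegral_tsum (f := fun w (ω : Cfg V) => ∑' w', (if G.dist w c < G.dist w p then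
        ENNReal.ofReal (θ ^ (2 * G.dist c w) * Wt G θ (fun c p => m c p ω.2) c w ^ 2) else 0)
      * (if G.dist w' c' < G.dist w' p' then
        ENNReal.ofReal (θ ^ (2 * G.dist c' w') * Wt G θ (fun c p => m c p ω.2) c' w' ^ 2)
          else 0)) fun w => (Measurable.ennreal_tsum fun w' =>
    (hm1 c p w).mul (hm1 c' p' w')).aemeasurable]
  have hstep : ∀ w, ∫⁻ ω, ∑' w', (if G.dist w c < G.dist w p then
        ENNReal.ofReal (θ ^ (2 * G.dist c w) * Wt G θ (fun c p => m c p ω.2) c w ^ 2) else 0)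
      * (if G.dist w' c' < G.dist w' p' then
        ENNReal.ofReal (θ ^ (2 * G.dist c' w') * Wt G θ (fun c p => m c p ω.2) c' w' ^ 2)
          else 0) ∂P
      = (∫⁻ ω, (if G.dist w c < G.dist w p then
        ENNReal.ofReal (θ ^ (2 * G.dist c w) * Wt G θ (fun c p => m c p ω.2) c w ^ 2) else 0) ∂P)
        * ∫⁻ ω, Rb2 G θ (fun c p => m c p ω.2) c' p' ∂P := by
    intro w
    rw [lintegral_tsum (f := fun w' (ω : Cfg V) => (if G.dist w c < G.dist w p then
        ENNReal.ofReal (θ ^ (2 * G.dist c w) * Wt G θ (fun c p => m c p ω.2) c w ^ 2) else 0)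
      * (if G.dist w' c' < G.dist w' p' then
        ENNReal.ofReal (θ ^ (2 * G.dist c' w') * Wt G θ (fun c p => m c p ω.2) c' w' ^ 2)
          else 0)) fun w' => ((hm1 c p w).mul (hm1 c' p' w')).aemeasurable]
    have e1 : ∫⁻ ω, Rb2 G θ (fun c p => m c p ω.2) c' p' ∂P
        = ∑' w', ∫⁻ ω, (if G.dist w' c' < G.dist w' p' then
        ENNReal.ofReal (θ ^ (2 * G.dist c' w') * Wt G θ (fun c p => m c p ω.2) c' w' ^ 2)
          else 0) ∂P := by
      rw [← lintegral_tsum fun w' => (hm1 c' p' w').aemeasurable]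
      rfl
    rw [e1, ← ENNReal.tsum_mul_left]
    apply tsum_congr
    intro w'
    exact Rb2_terms_indep he0 hθ0.le hθ1 hG h h' hdis w w'
  rw [tsum_congr hstep, ENNReal.tsum_mul_right]
  have e2 : ∑' w, ∫⁻ ω, (if G.dist w c < G.dist w p then
        ENNReal.ofReal (θ ^ (2 * G.dist c w) * Wt G θ (fun c p => m c p ω.2) c w ^ 2) else 0) ∂P
      = ∫⁻ ω, Rb2 G θ (fun c p => m c p ω.2) c p ∂P := by
    rw [← lintegral_tsum fun w => (hm1 c p w).aemeasurable]
    rfl
  rw [e2, hmean c p h, hmean c' p' h']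

end Vale.Agent.P161c
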