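import Vale.Agent.P161c.EnvBasic

/-!
Second moment of the cavity magnetizations at the critical point: `x` is of order `√s`,
where `s` is the second moment of the own magnetizations.
-/

namespace Vale.Agent.P161c

open MeasureTheory SimpleGraph Vale.Agent.H13.P161

variable {V : Type*} {G : SimpleGraph V} [LocallyFinite G] [DecidableEq V] [Countable V]

section Helpers

variable {θ α : ℝ} {P : Measure (Cfg V)} {m : V → V → (V → ℝ) → ℝ}

/-- clipping to `[-1, 1]` -/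
noncomputable def clx (x : ℝ) : ℝ := max (-1) (min 1 x)

lemma clx_neg (x : ℝ) : clx (-x) = - clx x := by
  simp only [clx, max_def, min_def]
  split_ifs <;> linarith

lemma nice_clx : Nice clx := by
  refine ⟨by unfold clx; fun_prop, 1, fun x => ?_⟩
  rw [abs_le]
  exact ⟨le_max_left _ _, max_le (by norm_num) (min_le_left _ _)⟩

lemma clx_of_abs_le {x : ℝ} (h : |x| ≤ 1) : clx x = x := by
  rw [abs_le] at h
  unfold clx
  rw [min_eq_right h.2, max_eq_right h.1]

omit [LocallyFinite G] [DecidableEq V] [Countable V] in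
lemma self_br {c p : V} (h : G.Adj c p) : c ∈ br G c p := by
  change G.dist c c < G.dist c p
  rw [dist_eq_one_iff_adj.mpr h]
  simp

omit [LocallyFinite G] [DecidableEq V] [Countable V] in
lemma not_self_br {c g : V} (h : G.Adj c g) : c ∉ br G g c := by
  intro hc
  have h1 : G.dist c g < G.dist c c := hc
  simp at h1

omit [Countable V] in
lemma int_cav_zero (he : CavEnv0 G θ α P m) (c p : V) : ∫ ω, m c p ω.2 ∂P = 0 :=
  integral_odd he (nice_obs (nice_cav he c p)).measurable (fun ω => he.odd c p ω.2)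

omit [Countable V] in
lemma int_spin_zero (he : CavEnv0 G θ α P m) (c : V) : ∫ ω, spinVal (ω.1 c) ∂P = 0 :=
  integral_odd he (nice_spin' c).measurable (fun ω => spinVal_neg _)

omit [Countable V] in
lemma int_cav_self (he : CavEnv0 G θ α P m) {c p : V} (h : G.Adj c p) :
    ∫ ω, m c p ω.2 * spinVal (ω.1 c) ∂P = ∫ ω, (m c p ω.2) ^ 2 ∂P := by
  rw [he.tower c p h (m c p) (nice_cav he c p) (he.dep c p)]
  simp only [pow_two]

omit [Countable V] in
lemma int_cav_parent (he : CavEnv0 G θ α P m) {c g : V} (h : G.Adj c g) :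
    ∫ ω, m g c ω.2 * spinVal (ω.1 c) ∂P = θ * ∫ ω, (m g c ω.2) ^ 2 ∂P := by
  have hprob := he.prob
  have hd : DepOn (br G c g) (fun ω : Cfg V => spinVal (ω.1 c)) := by
    intro ω ω' hω
    change spinVal (ω.1 c) = spinVal (ω'.1 c)
    rw [(hω c (self_br h)).1]
  rw [he.markov g c h.symm (fun ω => m g c ω.2) (fun ω => spinVal (ω.1 c))
    (nice_obs (nice_cav he g c)) (nice_spin' c) (he.dep g c).depOn hd, int_cav_zero he,
    int_cav_self he h.symm]
  have e : ∫ ω, spinVal (ω.1 c) * spinVal (ω.1 c) ∂P = 1 := by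
    simp only [spinVal_mul_self]
    simp
  rw [e]
  ring

lemma int_cav_cav (he : CavEnv0 G θ α P m) (hG : G.IsTree) {c g g' : V} (h : G.Adj c g)
    (h' : G.Adj c g') (hne : g ≠ g') :
    ∫ ω, m g c ω.2 * m g' c ω.2 ∂P
      = θ ^ 2 * (∫ ω, (m g c ω.2) ^ 2 ∂P) * ∫ ω, (m g' c ω.2) ^ 2 ∂P := by
  rw [he.markov g c h.symm (fun ω => m g c ω.2) (fun ω => m g' c ω.2)
    (nice_obs (nice_cav he g c)) (nice_obs (nice_cav he g' c)) (he.dep g c).depOn
    ((he.dep g' c).mono (br_subset hG h h' hne.symm)).depOn, int_cav_zero he,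
    int_cav_self he h.symm, int_cav_parent he h']
  ring

lemma star_down (he : CavEnv0 G θ α P m) (hG : G.IsTree) (c : V) (S : Finset V)
    (hS : ∀ g ∈ S, G.Adj c g) :
    ∫ ω, (∏ g ∈ S, (1 - θ * m g c ω.2)) * (1 + spinVal (ω.1 c)) ∂P
      = ∏ g ∈ S, (1 - θ ^ 2 * ∫ ω, (m g c ω.2) ^ 2 ∂P) := by
  have hprob := he.prob
  have nf : ∀ g, Nice (fun ω : Cfg V => 1 - θ * m g c ω.2) :=
    fun g => (Nice.const 1).sub ((Nice.const θ).mul (nice_obs (nice_cav he g c)))
  have ns : Nice (fun ω : Cfg V => 1 + spinVal (ω.1 c)) := (Nice.const 1).add (nice_spin' c)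
  induction S using Finset.induction_on with
  | empty =>
    simp only [Finset.prod_empty, one_mul]
    rw [(Nice.const 1).integral_add' (nice_spin' c), int_spin_zero he]
    simp
  | insert g S hg ih =>
    have hS' : ∀ x ∈ S, G.Adj c x := fun x hx => hS x (Finset.mem_insert_of_mem hx)
    have hcg : G.Adj c g := hS g (Finset.mem_insert_self _ _)
    have nP : Nice (fun ω : Cfg V => (∏ g ∈ S, (1 - θ * m g c ω.2)) * (1 + spinVal (ω.1 c))) :=
      (Nice.prod S (fun g _ => nf g)).mul ns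
    have hfac := he.markov c g hcg
      (fun ω => (∏ g ∈ S, (1 - θ * m g c ω.2)) * (1 + spinVal (ω.1 c)))
      (fun ω => 1 - θ * m g c ω.2) nP (nf g)
      (by
        intro ω ω' hω
        change (∏ x ∈ S, (1 - θ * m x c ω.2)) * (1 + spinVal (ω.1 c))
          = (∏ x ∈ S, (1 - θ * m x c ω'.2)) * (1 + spinVal (ω'.1 c))
        rw [(hω c (self_br hcg)).1]
        congr 1
        apply Finset.prod_congr rfl
        intro x hx
        have hne : x ≠ g := fun e => hg (e ▸ hx)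
        rw [he.dep x c ω.2 ω'.2
          (fun w hw => (hω w (br_subset hG hcg (hS' x hx) hne hw)).2)])
      (by
        intro ω ω' hω
        change 1 - θ * m g c ω.2 = 1 - θ * m g c ω'.2
        rw [he.dep g c ω.2 ω'.2 (fun w hw => (hω w hw).2)])
    have e1 : ∀ ω : Cfg V, (∏ x ∈ insert g S, (1 - θ * m x c ω.2)) * (1 + spinVal (ω.1 c))
        = ((∏ x ∈ S, (1 - θ * m x c ω.2)) * (1 + spinVal (ω.1 c))) * (1 - θ * m g c ω.2) := by
      intro ω
      rw [Finset.prod_insert hg]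
      ring
    have e2 : ∀ ω : Cfg V, ((∏ x ∈ S, (1 - θ * m x c ω.2)) * (1 + spinVal (ω.1 c)))
        * spinVal (ω.1 c) = (∏ x ∈ S, (1 - θ * m x c ω.2)) * (1 + spinVal (ω.1 c)) := by
      intro ω
      linear_combination (∏ x ∈ S, (1 - θ * m x c ω.2)) * spinVal_mul_self (ω.1 c)
    have e3 : ∫ ω, (1 - θ * m g c ω.2) ∂P = 1 := by
      rw [(Nice.const 1).integral_sub' ((Nice.const θ).mul (nice_obs (nice_cav he g c))),
        integral_const_mul, int_cav_zero he]
      simp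
    have e4 : ∫ ω, (1 - θ * m g c ω.2) * spinVal (ω.1 g) ∂P
        = - (θ * ∫ ω, (m g c ω.2) ^ 2 ∂P) := by
      have e : ∀ ω : Cfg V, (1 - θ * m g c ω.2) * spinVal (ω.1 g)
          = spinVal (ω.1 g) - θ * (m g c ω.2 * spinVal (ω.1 g)) := fun ω => by ring
      simp only [e]
      rw [(nice_spin' g).integral_sub'
        ((Nice.const θ).mul ((nice_obs (nice_cav he g c)).mul (nice_spin' g))),
        integral_const_mul, int_cav_self he hcg.symm, int_spin_zero he]
      ring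
    simp only [e1]
    rw [hfac]
    simp only [e2]
    rw [e3, e4, ih hS', Finset.prod_insert hg]
    ring

lemma pow_lower {y : ℝ} (hy0 : 0 ≤ y) (hy1 : y ≤ 1) (n : ℕ) :
    1 - ((n : ℝ) + 2) * y + ((n : ℝ) + 1) * y ^ 2 ≤ (1 - y) ^ (n + 2) := by
  have h1 : 1 + (n : ℝ) * (-y) ≤ (1 + (-y)) ^ n := one_add_mul_le_pow (by linarith) n
  have h2 : (1 - y) ^ (n + 2) = (1 - y) ^ 2 * (1 + (-y)) ^ n := by
    rw [pow_add, mul_comm]
    congr 1
  rw [h2]
  have h3 : (1 - y) ^ 2 * (1 + (n : ℝ) * (-y)) ≤ (1 - y) ^ 2 * (1 + (-y)) ^ n :=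
    mul_le_mul_of_nonneg_left h1 (sq_nonneg _)
  have h4 : 0 ≤ (n : ℝ) * y ^ 2 * (1 - y) :=
    mul_nonneg (mul_nonneg (Nat.cast_nonneg n) (sq_nonneg _)) (by linarith)
  nlinarith

lemma own_sq_nonneg_le (he : CavEnv0 G θ α P m) (hα1 : α < 1) (c : V) {s : ℝ}
    (hs : ∫ ω, (ω.2 c) ^ 2 ∂P = s) :
    0 ≤ s ∧ s ≤ 1 ∧ ∫ ω, clx (ω.2 c) ^ 2 ∂P = s ∧
      ∫ ω, clx (ω.2 c) * spinVal (ω.1 c) ∂P = s := by
  have hprob := he.prob
  have hc : ∀ᵐ ω ∂P, clx (ω.2 c) = ω.2 c := by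
    filter_upwards [he.own_bound] with ω hω
    exact clx_of_abs_le ((hω c).trans hα1.le)
  have h1 : ∫ ω, clx (ω.2 c) ^ 2 ∂P = s := by
    rw [← hs]
    apply integral_congr_ae
    filter_upwards [hc] with ω hω
    rw [hω]
  have nc : Nice (fun ω : Cfg V => clx (ω.2 c)) :=
    nice_clx.comp ((measurable_pi_apply c).comp measurable_snd)
  refine ⟨?_, ?_, h1, ?_⟩
  · rw [← hs]
    exact integral_nonneg (fun ω => sq_nonneg _)
  · rw [← h1]
    have : ∫ ω, clx (ω.2 c) ^ 2 ∂P ≤ ∫ _ω : Cfg V, (1 : ℝ) ∂P := by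
      apply (nc.pow 2).integral_mono' (Nice.const 1)
      intro ω
      have hb : |clx (ω.2 c)| ≤ 1 := by
        unfold clx
        rw [abs_le]
        exact ⟨le_max_left _ _, max_le (by norm_num) (min_le_left _ _)⟩
      rw [← sq_abs]
      exact pow_le_one₀ (abs_nonneg _) hb
    simpa using this
  · rw [he.tower_own c clx nice_clx, ← hs]
    apply integral_congr_ae
    filter_upwards [hc] with ω hω
    rw [hω]
    ring

/-- upper bound: the information of the branch is at most that of independent sources -/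
lemma x_upper (he : CavEnv0 G θ α P m) (hG : G.IsTree) (hθ0 : 0 ≤ θ) (hθ1 : θ < 1)
    (hα1 : α < 1) {c p : V} (h : G.Adj c p) {s : ℝ} (hs : ∫ ω, (ω.2 c) ^ 2 ∂P = s) :
    ∫ ω, (m c p ω.2) ^ 2 ∂P ≤ 1 - (1 - s) * ∏ g ∈ (G.neighborFinset c).erase p,
      (1 - θ ^ 2 * ∫ ω, (m g c ω.2) ^ 2 ∂P) := by
  have hprob := he.prob
  obtain ⟨hs0, hs1, hsc, hss⟩ := own_sq_nonneg_le he hα1 c hs
  set S := (G.neighborFinset c).erase p with hS
  have hSadj : ∀ g ∈ S, G.Adj c g ∧ g ≠ p := by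
    intro g hg
    rw [hS, Finset.mem_erase, mem_neighborFinset] at hg
    exact ⟨hg.2, hg.1⟩
  set Qp : ℝ := ∏ g ∈ S, (1 - θ ^ 2 * ∫ ω, (m g c ω.2) ^ 2 ∂P) with hQp
  have ncl : Nice (fun ω : Cfg V => clx (ω.2 c)) :=
    nice_clx.comp ((measurable_pi_apply c).comp measurable_snd)
  have nB0 : Nice (fun a : V → ℝ => ∏ g ∈ S, (1 - θ * m g c a)) :=
    Nice.prod S (fun g _ => (Nice.const 1).sub ((Nice.const θ).mul (nice_cav he g c)))
  have nA0 : Nice (fun a : V → ℝ => ∏ g ∈ S, (1 + θ * m g c a)) :=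
    Nice.prod S (fun g _ => (Nice.const 1).add ((Nice.const θ).mul (nice_cav he g c)))
  have nclv : Nice (fun a : V → ℝ => clx (a c)) := nice_clx.comp (measurable_pi_apply c)
  have nB : Nice (fun a : V → ℝ => (1 - clx (a c)) * ∏ g ∈ S, (1 - θ * m g c a)) :=
    ((Nice.const 1).sub nclv).mul nB0
  have nA : Nice (fun a : V → ℝ => (1 + clx (a c)) * ∏ g ∈ S, (1 + θ * m g c a)) :=
    ((Nice.const 1).add nclv).mul nA0
  have nm : Nice (fun ω : Cfg V => m c p ω.2) := nice_obs (nice_cav he c p)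
  -- dependence
  have hdepc : ∀ g ∈ S, ∀ a a' : V → ℝ, (∀ w, w ≠ c → a w = a' w) → m g c a = m g c a' := by
    intro g hg a a' haa
    apply he.dep g c
    intro w hw
    apply haa
    rintro rfl
    exact not_self_br (hSadj g hg).1 hw
  have hBdep : ObsDepOn (br G c p) (fun a : V → ℝ =>
      (1 - clx (a c)) * ∏ g ∈ S, (1 - θ * m g c a)) := by
    intro a a' haa
    change (1 - clx (a c)) * ∏ g ∈ S, (1 - θ * m g c a)
      = (1 - clx (a' c)) * ∏ g ∈ S, (1 - θ * m g c a')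
    rw [haa c (self_br h)]
    congr 1
    apply Finset.prod_congr rfl
    intro g hg
    rw [he.dep g c a a' (fun w hw => haa w
      (br_subset hG h (hSadj g hg).1 (hSadj g hg).2 hw))]
  -- first moment identity
  have M1 : ∫ ω, ((1 - clx (ω.2 c)) * ∏ g ∈ S, (1 - θ * m g c ω.2)) * (1 + m c p ω.2) ∂P
      = (1 - s) * Qp := by
    have e1 : ∫ ω, ((1 - clx (ω.2 c)) * ∏ g ∈ S, (1 - θ * m g c ω.2)) * (1 + m c p ω.2) ∂P
        = ∫ ω, ((1 - clx (ω.2 c)) * ∏ g ∈ S, (1 - θ * m g c ω.2)) * (1 + spinVal (ω.1 c)) ∂P := by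
      have t := he.tower c p h _ nB hBdep
      have e : ∀ (u v : ℝ), u * (1 + v) = u + u * v := fun u v => by ring
      simp only [e]
      rw [(nice_obs nB).integral_add' ((nice_obs nB).mul nm),
        (nice_obs nB).integral_add' ((nice_obs nB).mul (nice_spin' c)), t]
    rw [e1]
    have nH : Nice (fun ω : Cfg V => (∏ g ∈ S, (1 - θ * m g c ω.2)) * (1 + spinVal (ω.1 c))) :=
      (nice_obs nB0).mul ((Nice.const 1).add (nice_spin' c))
    have o := he.own c (fun x => 1 - clx x)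
      (fun ω => (∏ g ∈ S, (1 - θ * m g c ω.2)) * (1 + spinVal (ω.1 c)))
      ((Nice.const 1).sub nice_clx) nH
      (by
        intro σ a a' haa
        change (∏ g ∈ S, (1 - θ * m g c a)) * (1 + spinVal (σ c))
          = (∏ g ∈ S, (1 - θ * m g c a')) * (1 + spinVal (σ c))
        congr 1
        apply Finset.prod_congr rfl
        intro g hg
        rw [hdepc g hg a a' haa])
    have e2 : ∀ ω : Cfg V, ((1 - clx (ω.2 c)) * ∏ g ∈ S, (1 - θ * m g c ω.2))
        * (1 + spinVal (ω.1 c))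
        = (1 - clx (ω.2 c)) * ((∏ g ∈ S, (1 - θ * m g c ω.2)) * (1 + spinVal (ω.1 c))) :=
      fun ω => by ring
    simp only [e2]
    rw [o]
    have e3 : ∀ ω : Cfg V, ((∏ g ∈ S, (1 - θ * m g c ω.2)) * (1 + spinVal (ω.1 c)))
        * spinVal (ω.1 c) = (∏ g ∈ S, (1 - θ * m g c ω.2)) * (1 + spinVal (ω.1 c)) := by
      intro ω
      linear_combination (∏ g ∈ S, (1 - θ * m g c ω.2)) * spinVal_mul_self (ω.1 c)
    simp only [e3]
    rw [star_down he hG c S (fun g hg => (hSadj g hg).1)]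
    have e4 : ∫ ω : Cfg V, (1 - clx (ω.2 c)) ∂P = 1 := by
      rw [(Nice.const 1).integral_sub' ncl]
      have : ∫ ω : Cfg V, clx (ω.2 c) ∂P = 0 :=
        integral_odd he ncl.measurable (fun ω => clx_neg _)
      rw [this]
      simp
    have e5 : ∫ ω : Cfg V, (1 - clx (ω.2 c)) * spinVal (ω.1 c) ∂P = - s := by
      have e : ∀ ω : Cfg V, (1 - clx (ω.2 c)) * spinVal (ω.1 c)
          = spinVal (ω.1 c) - clx (ω.2 c) * spinVal (ω.1 c) := fun ω => by ring
      simp only [e]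
      rw [(nice_spin' c).integral_sub' (ncl.mul (nice_spin' c)), int_spin_zero he, hss]
      ring
    rw [e4, e5]
    ring
  -- second moment identity
  have M2 : ∫ ω, ((1 + clx (ω.2 c)) * ∏ g ∈ S, (1 + θ * m g c ω.2))
      * ((1 - clx (ω.2 c)) * ∏ g ∈ S, (1 - θ * m g c ω.2)) ∂P = (1 - s) * Qp := by
    have e1 : ∀ ω : Cfg V, ((1 + clx (ω.2 c)) * ∏ g ∈ S, (1 + θ * m g c ω.2))
        * ((1 - clx (ω.2 c)) * ∏ g ∈ S, (1 - θ * m g c ω.2))
        = (1 - clx (ω.2 c) ^ 2) * ∏ g ∈ S, (1 - θ ^ 2 * (m g c ω.2) ^ 2) := by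
      intro ω
      have e : ∏ g ∈ S, (1 - θ ^ 2 * (m g c ω.2) ^ 2)
          = (∏ g ∈ S, (1 + θ * m g c ω.2)) * ∏ g ∈ S, (1 - θ * m g c ω.2) := by
        rw [← Finset.prod_mul_distrib]
        apply Finset.prod_congr rfl
        intro g _
        ring
      rw [e]
      ring
    simp only [e1]
    have nH : ∀ g, Nice (fun ω : Cfg V => 1 - θ ^ 2 * (m g c ω.2) ^ 2) :=
      fun g => (Nice.const 1).sub ((Nice.const _).mul ((nice_obs (nice_cav he g c)).pow 2))
    rw [indep_own he c (F := fun x => 1 - clx x ^ 2)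
      (H := fun ω => ∏ g ∈ S, (1 - θ ^ 2 * (m g c ω.2) ^ 2))
      ((Nice.const 1).sub (nice_clx.pow 2)) (Nice.prod S (fun g _ => nH g))
      (fun x => by rw [clx_neg, neg_sq])
      (by
        intro σ a a' haa
        apply Finset.prod_congr rfl
        intro g hg
        change 1 - θ ^ 2 * (m g c a) ^ 2 = 1 - θ ^ 2 * (m g c a') ^ 2
        rw [hdepc g hg a a' haa])]
    rw [indep_prod he hG S (fun g => g) (fun _ => c) (fun g hg => (hSadj g hg).1.symm)
      (fun g hg g' hg' hne => br_disjoint hG (hSadj g hg).1 (hSadj g' hg').1 hne)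
      (fun g ω => 1 - θ ^ 2 * (m g c ω.2) ^ 2) (fun g _ => nH g)
      (by
        intro g _ ω ω' hω
        change 1 - θ ^ 2 * (m g c ω.2) ^ 2 = 1 - θ ^ 2 * (m g c ω'.2) ^ 2
        rw [he.dep g c ω.2 ω'.2 (fun w hw => (hω w hw).2)])
      (by
        intro g _ ω
        change 1 - θ ^ 2 * (m g c (fun v => - ω.2 v)) ^ 2 = 1 - θ ^ 2 * (m g c ω.2) ^ 2
        rw [he.odd, neg_sq])]
    have e2 : ∫ ω : Cfg V, (1 - clx (ω.2 c) ^ 2) ∂P = 1 - s := by
      rw [(Nice.const 1).integral_sub' (ncl.pow 2), hsc]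
      simp
    rw [e2]
    congr 1
    apply Finset.prod_congr rfl
    intro g _
    rw [(Nice.const 1).integral_sub'
      ((Nice.const _).mul ((nice_obs (nice_cav he g c)).pow 2)), integral_const_mul]
    simp
  -- pointwise inequality
  have hpt : ∀ᵐ ω ∂P, 2 * (((1 - clx (ω.2 c)) * ∏ g ∈ S, (1 - θ * m g c ω.2)) * (1 + m c p ω.2))
      - ((1 + clx (ω.2 c)) * ∏ g ∈ S, (1 + θ * m g c ω.2))
        * ((1 - clx (ω.2 c)) * ∏ g ∈ S, (1 - θ * m g c ω.2)) ≤ 1 - (m c p ω.2) ^ 2 := by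
    filter_upwards [he.own_bound, he.recur] with ω hown hrec
    have hcl : clx (ω.2 c) = ω.2 c := clx_of_abs_le ((hown c).trans hα1.le)
    rw [hcl]
    have hr := hrec c p h
    rw [← hS] at hr
    have hfac : ∀ g, 0 < 1 + θ * m g c ω.2 ∧ 0 < 1 - θ * m g c ω.2 := by
      intro g
      have h1 := abs_le.mp (he.bound g c ω.2)
      constructor <;> nlinarith
    have hac := abs_le.mp (hown c)
    set A := (1 + ω.2 c) * ∏ g ∈ S, (1 + θ * m g c ω.2) with hA
    set B := (1 - ω.2 c) * ∏ g ∈ S, (1 - θ * m g c ω.2) with hB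
    have hA0 : 0 < A := mul_pos (by linarith) (Finset.prod_pos fun g _ => (hfac g).1)
    have hB0 : 0 < B := mul_pos (by linarith) (Finset.prod_pos fun g _ => (hfac g).2)
    set y := m c p ω.2 with hy
    have hAB : 0 < A + B := by linarith
    have hy' : y = (A - B) / (A + B) := by
      rw [eq_div_iff hAB.ne']
      exact hr
    have e1 : 1 - y ^ 2 = 4 * A * B / (A + B) ^ 2 := by
      rw [hy']
      field_simp
      ring
    have e2 : B * (1 + y) = 2 * A * B / (A + B) := by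
      rw [hy']
      field_simp
      ring
    rw [e1, e2, le_div_iff₀ (pow_pos hAB 2)]
    have e3 : (2 * (2 * A * B / (A + B)) - A * B) * (A + B) ^ 2
        = 4 * A * B * (A + B) - A * B * (A + B) ^ 2 := by
      field_simp
      ring
    rw [e3]
    have : 0 ≤ A * B * (A + B - 2) ^ 2 := mul_nonneg (mul_pos hA0 hB0).le (sq_nonneg _)
    nlinarith
  have n1 : Nice (fun ω : Cfg V => 2 * (((1 - clx (ω.2 c)) * ∏ g ∈ S, (1 - θ * m g c ω.2))
      * (1 + m c p ω.2))) :=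
    (Nice.const 2).mul ((nice_obs nB).mul ((Nice.const 1).add nm))
  have n2 : Nice (fun ω : Cfg V => ((1 + clx (ω.2 c)) * ∏ g ∈ S, (1 + θ * m g c ω.2))
        * ((1 - clx (ω.2 c)) * ∏ g ∈ S, (1 - θ * m g c ω.2))) :=
    (nice_obs nA).mul (nice_obs nB)
  have hint := integral_mono_ae ((n1.sub n2).integrable P)
    (((Nice.const 1).sub (nm.pow 2)).integrable P) hpt
  rw [n1.integral_sub' n2, integral_const_mul, M1, M2,
    (Nice.const 1).integral_sub' (nm.pow 2)] at hint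
  simp only [integral_const, probReal_univ, smul_eq_mul, mul_one, one_mul] at hint
  linarith

/-- lower bound by the linear estimator -/
lemma x_lower (he : CavEnv0 G θ α P m) (hG : G.IsTree) (hα1 : α < 1) {c p : V}
    (h : G.Adj c p) {s x : ℝ} (hs : ∫ ω, (ω.2 c) ^ 2 ∂P = s)
    (hx : ∀ g ∈ (G.neighborFinset c).erase p, ∫ ω, (m g c ω.2) ^ 2 ∂P = x) (hx0 : 0 ≤ x)
    {b : ℕ} (hb : ((G.neighborFinset c).erase p).card = b) (hcrit : (b : ℝ) * θ ^ 2 = 1) :
    s + x ≤ ∫ ω, (m c p ω.2) ^ 2 ∂P + 2 * s * x + x ^ 2 := by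
  have hprob := he.prob
  obtain ⟨hs0, hs1, hsc, hss⟩ := own_sq_nonneg_le he hα1 c hs
  set S := (G.neighborFinset c).erase p with hS
  have hSadj : ∀ g ∈ S, G.Adj c g ∧ g ≠ p := by
    intro g hg
    rw [hS, Finset.mem_erase, mem_neighborFinset] at hg
    exact ⟨hg.2, hg.1⟩
  have ncl : Nice (fun ω : Cfg V => clx (ω.2 c)) :=
    nice_clx.comp ((measurable_pi_apply c).comp measurable_snd)
  have nclv : Nice (fun a : V → ℝ => clx (a c)) := nice_clx.comp (measurable_pi_apply c)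
  have nm : Nice (fun ω : Cfg V => m c p ω.2) := nice_obs (nice_cav he c p)
  have nR : Nice (fun a : V → ℝ => ∑ g ∈ S, m g c a) := Nice.sum S (fun g _ => nice_cav he g c)
  have nT : Nice (fun a : V → ℝ => clx (a c) + θ * ∑ g ∈ S, m g c a) :=
    nclv.add ((Nice.const θ).mul nR)
  have hTdep : ObsDepOn (br G c p) (fun a : V → ℝ => clx (a c) + θ * ∑ g ∈ S, m g c a) := by
    intro a a' haa
    change clx (a c) + θ * ∑ g ∈ S, m g c a = clx (a' c) + θ * ∑ g ∈ S, m g c a'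
    rw [haa c (self_br h)]
    congr 2
    apply Finset.sum_congr rfl
    intro g hg
    exact he.dep g c a a' (fun w hw => haa w (br_subset hG h (hSadj g hg).1 (hSadj g hg).2 hw))
  -- correlation of the estimator with the spin
  have hR1 : ∫ ω, (∑ g ∈ S, m g c ω.2) * spinVal (ω.1 c) ∂P = b * (θ * x) := by
    simp only [Finset.sum_mul]
    rw [integral_finsetSum _ (fun g _ =>
      ((nice_obs (nice_cav he g c)).mul (nice_spin' c)).integrable P)]
    rw [Finset.sum_congr rfl (fun g hg => by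
      rw [int_cav_parent he (hSadj g hg).1, hx g hg]), Finset.sum_const, hb, nsmul_eq_mul]
  have hT1 : ∫ ω, (clx (ω.2 c) + θ * ∑ g ∈ S, m g c ω.2) * spinVal (ω.1 c) ∂P = s + x := by
    have e : ∀ ω : Cfg V, (clx (ω.2 c) + θ * ∑ g ∈ S, m g c ω.2) * spinVal (ω.1 c)
        = clx (ω.2 c) * spinVal (ω.1 c) + θ * ((∑ g ∈ S, m g c ω.2) * spinVal (ω.1 c)) :=
      fun ω => by ring
    simp only [e]
    rw [(ncl.mul (nice_spin' c)).integral_add'
      ((Nice.const θ).mul ((nice_obs nR).mul (nice_spin' c))), integral_const_mul, hR1, hss]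
    linear_combination x * hcrit
  have hTm : ∫ ω, (clx (ω.2 c) + θ * ∑ g ∈ S, m g c ω.2) * m c p ω.2 ∂P = s + x := by
    rw [← hT1]
    exact (he.tower c p h _ nT hTdep).symm
  -- second moment of the estimator
  have hR2 : ∫ ω, (∑ g ∈ S, m g c ω.2) ^ 2 ∂P ≤ b * x + (b : ℝ) ^ 2 * (θ ^ 2 * x ^ 2) := by
    have e : ∀ ω : Cfg V, (∑ g ∈ S, m g c ω.2) ^ 2
        = ∑ g ∈ S, ∑ g' ∈ S, m g c ω.2 * m g' c ω.2 := by
      intro ω
      rw [sq, Finset.sum_mul_sum]
    simp only [e]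
    rw [integral_finsetSum _ (fun g _ => (Nice.sum S (fun g' _ =>
      (nice_obs (nice_cav he g c)).mul (nice_obs (nice_cav he g' c)))).integrable P)]
    have e2 : ∀ g ∈ S, ∫ ω, ∑ g' ∈ S, m g c ω.2 * m g' c ω.2 ∂P
        ≤ x + b * (θ ^ 2 * x ^ 2) := by
      intro g hg
      rw [integral_finsetSum _ (fun g' _ =>
        ((nice_obs (nice_cav he g c)).mul (nice_obs (nice_cav he g' c))).integrable P)]
      have e3 : ∀ g' ∈ S, ∫ ω, m g c ω.2 * m g' c ω.2 ∂P
          ≤ (if g' = g then x else 0) + θ ^ 2 * x ^ 2 := by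
        intro g' hg'
        by_cases hgg : g' = g
        · rw [if_pos hgg, hgg]
          have : ∫ ω, m g c ω.2 * m g c ω.2 ∂P = x := by
            rw [← hx g hg]
            simp only [pow_two]
          rw [this]
          have : 0 ≤ θ ^ 2 * x ^ 2 := by positivity
          linarith
        · rw [if_neg hgg, int_cav_cav he hG (hSadj g hg).1 (hSadj g' hg').1 (Ne.symm hgg),
            hx g hg, hx g' hg']
          apply le_of_eq
          ring
      calc ∑ g' ∈ S, ∫ ω, m g c ω.2 * m g' c ω.2 ∂P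
          ≤ ∑ g' ∈ S, ((if g' = g then x else 0) + θ ^ 2 * x ^ 2) := Finset.sum_le_sum e3
        _ = x + b * (θ ^ 2 * x ^ 2) := by
          rw [Finset.sum_add_distrib, Finset.sum_ite_eq', if_pos hg, Finset.sum_const, hb,
            nsmul_eq_mul]
    calc ∑ g ∈ S, ∫ ω, ∑ g' ∈ S, m g c ω.2 * m g' c ω.2 ∂P
        ≤ ∑ _g ∈ S, (x + b * (θ ^ 2 * x ^ 2)) := Finset.sum_le_sum e2
      _ = b * x + (b : ℝ) ^ 2 * (θ ^ 2 * x ^ 2) := by
        rw [Finset.sum_const, hb, nsmul_eq_mul]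
        ring
  have haR : ∫ ω, clx (ω.2 c) * (∑ g ∈ S, m g c ω.2) ∂P = s * (b * (θ * x)) := by
    have o := he.own c clx (fun ω => ∑ g ∈ S, m g c ω.2) nice_clx (nice_obs nR)
      (by
        intro σ a a' haa
        apply Finset.sum_congr rfl
        intro g hg
        apply he.dep g c
        intro w hw
        apply haa
        rintro rfl
        exact not_self_br (hSadj g hg).1 hw)
    rw [o, hss, hR1]
    have : ∫ ω : Cfg V, clx (ω.2 c) ∂P = 0 :=
      integral_odd he ncl.measurable (fun ω => clx_neg _)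
    rw [this]
    ring
  have hT2 : ∫ ω, (clx (ω.2 c) + θ * ∑ g ∈ S, m g c ω.2) ^ 2 ∂P ≤ s + x + 2 * s * x + x ^ 2 := by
    have e : ∀ ω : Cfg V, (clx (ω.2 c) + θ * ∑ g ∈ S, m g c ω.2) ^ 2
        = (clx (ω.2 c) ^ 2 + (2 * θ) * (clx (ω.2 c) * (∑ g ∈ S, m g c ω.2)))
          + θ ^ 2 * (∑ g ∈ S, m g c ω.2) ^ 2 := fun ω => by ring
    simp only [e]
    rw [((ncl.pow 2).add ((Nice.const _).mul (ncl.mul (nice_obs nR)))).integral_add'
      ((Nice.const _).mul ((nice_obs nR).pow 2)),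
      (ncl.pow 2).integral_add' ((Nice.const _).mul (ncl.mul (nice_obs nR))),
      integral_const_mul, integral_const_mul, hsc, haR]
    have h1 : θ ^ 2 * ∫ ω, (∑ g ∈ S, m g c ω.2) ^ 2 ∂P
        ≤ θ ^ 2 * (b * x + (b : ℝ) ^ 2 * (θ ^ 2 * x ^ 2)) :=
      mul_le_mul_of_nonneg_left hR2 (sq_nonneg _)
    have h2 : θ ^ 2 * (b * x + (b : ℝ) ^ 2 * (θ ^ 2 * x ^ 2)) = x + x ^ 2 := by
      linear_combination (x + x ^ 2 * (b * θ ^ 2 + 1)) * hcrit
    have h3 : 2 * θ * (s * (b * (θ * x))) = 2 * s * x := by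
      linear_combination (2 * s * x) * hcrit
    rw [h3]
    linarith
  -- expand the square
  have e0 : 0 ≤ ∫ ω, (m c p ω.2 - (clx (ω.2 c) + θ * ∑ g ∈ S, m g c ω.2)) ^ 2 ∂P :=
    integral_nonneg (fun ω => sq_nonneg _)
  rw [nm.integral_sub_sq (nice_obs nT)] at e0
  have e1 : ∫ ω, m c p ω.2 * (clx (ω.2 c) + θ * ∑ g ∈ S, m g c ω.2) ∂P = s + x := by
    rw [← hTm]
    congr 1
    ext ω
    ring
  rw [e1] at e0
  linarith

end Helpers

/-- The second moment `x` of the cavity magnetizations at the critical point is of order `√s`.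
Upper bound: `x ≤ 1 - (1 - s) (1 - θ² x)^(d-1)` (`x_upper`); lower bound: the linear estimator
`a_c + θ Σ m_g` (`x_lower`) gives `s ≤ 2 s x + x²`. -/
theorem env_second_moment {d : ℕ} (hd : 3 ≤ d) {θ : ℝ} (hθ0 : 0 < θ) (hθ1 : θ < 1)
    (hcrit : ((d : ℝ) - 1) * θ ^ 2 = 1) {α : ℝ} (hα0 : 0 ≤ α) (hα1 : α < 1)
    (hG : G.IsTree) (hreg : ∀ v, G.degree v = d) :
    ∃ K : ℝ, 0 < K ∧ ∀ (P : Measure (Cfg V)) (m : V → V → (V → ℝ) → ℝ), CavEnv G θ α P m →
      ∀ s : ℝ, (∀ v, ∫ ω, (ω.2 v) ^ 2 ∂P = s) → ∀ c p, G.Adj c p →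
        Real.sqrt s / K ≤ ∫ ω, (m c p ω.2) ^ 2 ∂P ∧ ∫ ω, (m c p ω.2) ^ 2 ∂P ≤ K * Real.sqrt s := by
  have hθ2 : 0 < θ ^ 2 := by positivity
  have hθ21 : θ ^ 2 < 1 := by nlinarith
  refine ⟨4 / θ ^ 2, by positivity, ?_⟩
  intro P m he s hs c p h
  have he0 := he.toCavEnv0
  have hprob := he0.prob
  set x := ∫ ω, (m c p ω.2) ^ 2 ∂P with hxdef
  have hsq : Nice (fun x : ℝ => clx x ^ 2) := nice_clx.pow 2
  have hclm : ∀ c p (ω : Cfg V), clx (m c p ω.2) = m c p ω.2 :=
    fun c p ω => clx_of_abs_le (he0.bound c p ω.2)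
  have hxall : ∀ c' p', G.Adj c' p' → ∫ ω, (m c' p' ω.2) ^ 2 ∂P = x := by
    intro c' p' h'
    have := env_hom he hG (by omega : 2 ≤ d) hreg hsq h' h
    simpa only [hclm] using this
  have hx0 : 0 ≤ x := integral_nonneg (fun ω => sq_nonneg _)
  have hx1 : x ≤ 1 := by
    have : ∫ ω, (m c p ω.2) ^ 2 ∂P ≤ ∫ _ω : Cfg V, (1 : ℝ) ∂P := by
      apply ((nice_obs (nice_cav he0 c p)).pow 2).integral_mono' (Nice.const 1)
      intro ω
      rw [← sq_abs]
      exact pow_le_one₀ (abs_nonneg _) (he0.bound c p ω.2)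
    simpa using this
  obtain ⟨hs0, hs1, -, -⟩ := own_sq_nonneg_le he0 hα1 c (hs c)
  set S := (G.neighborFinset c).erase p with hS
  have hcard : S.card = d - 1 := by
    rw [hS, Finset.card_erase_of_mem ((mem_neighborFinset _ _ _).mpr h),
      card_neighborFinset_eq_degree, hreg]
  have hSadj : ∀ g ∈ S, G.Adj c g := by
    intro g hg
    rw [hS, Finset.mem_erase, mem_neighborFinset] at hg
    exact hg.2
  have hcrit' : ((d - 1 : ℕ) : ℝ) * θ ^ 2 = 1 := by
    rw [Nat.cast_sub (by omega)]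
    simpa using hcrit
  have hK : (4 : ℝ) ≤ 4 / θ ^ 2 := by
    rw [le_div_iff₀ hθ2]
    nlinarith
  have hsqs : Real.sqrt s ≤ 1 := by
    rw [Real.sqrt_le_one]
    exact hs1
  constructor
  · -- lower bound
    have hl := x_lower he0 hG hα1 h (hs c)
      (fun g hg => hxall g c (hSadj g hg).symm) hx0 hcard hcrit'
    change s + x ≤ x + 2 * s * x + x ^ 2 at hl
    rw [div_le_iff₀ (by positivity)]
    have h4 : 4 * x ≤ x * (4 / θ ^ 2) := by
      rw [mul_comm 4 x]
      exact mul_le_mul_of_nonneg_left hK hx0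
    refine le_trans ?_ h4
    by_cases hq : 1 / 4 ≤ x
    · linarith
    · push Not at hq
      have h5 : s ≤ 2 * x ^ 2 := by nlinarith
      rw [Real.sqrt_le_left (by positivity)]
      nlinarith
  · -- upper bound
    have hu := x_upper he0 hG hθ0.le hθ1 hα1 h (hs c)
    rw [← hS, Finset.prod_congr rfl (fun g hg => by
      rw [hxall g c (hSadj g hg).symm] : ∀ g ∈ S,
        (1 - θ ^ 2 * ∫ ω, (m g c ω.2) ^ 2 ∂P) = 1 - θ ^ 2 * x), Finset.prod_const, hcard] at hu
    change x ≤ 1 - (1 - s) * (1 - θ ^ 2 * x) ^ (d - 1) at hu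
    obtain ⟨n, hn⟩ : ∃ n, d - 1 = n + 2 := ⟨d - 3, by omega⟩
    rw [hn] at hu hcrit'
    have hy0 : 0 ≤ θ ^ 2 * x := by positivity
    have hy1 : θ ^ 2 * x ≤ 1 := by nlinarith
    have hp := pow_lower hy0 hy1 n
    push_cast at hcrit'
    have hby : ((n : ℝ) + 2) * (θ ^ 2 * x) = x := by
      linear_combination x * hcrit'
    rw [hby] at hp
    have hn1 : (1 : ℝ) ≤ (n : ℝ) + 1 := by
      have : (0 : ℝ) ≤ n := Nat.cast_nonneg n
      linarith
    have hsqy : (θ ^ 2 * x) ^ 2 ≤ ((n : ℝ) + 1) * (θ ^ 2 * x) ^ 2 := by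
      have : 0 ≤ (θ ^ 2 * x) ^ 2 := sq_nonneg _
      nlinarith
    have hp2 : 1 - x + (θ ^ 2 * x) ^ 2 ≤ (1 - θ ^ 2 * x) ^ (n + 2) := by linarith
    have hu2 : x ≤ 1 - (1 - s) * (1 - x + (θ ^ 2 * x) ^ 2) := by
      have := mul_le_mul_of_nonneg_left hp2 (by linarith : 0 ≤ 1 - s)
      linarith
    rw [div_mul_eq_mul_div, le_div_iff₀ hθ2]
    have hfin : x * θ ^ 2 ≤ 4 * Real.sqrt s := by
      by_cases hq : s ≤ 1 / 2
      · have h6 : (θ ^ 2 * x) ^ 2 ≤ 2 * s := by nlinarith [sq_nonneg (θ ^ 2 * x)]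
        have h7 : θ ^ 2 * x ≤ Real.sqrt (2 * s) := by
          apply Real.le_sqrt_of_sq_le
          exact h6
        have h8 : Real.sqrt (2 * s) ≤ 4 * Real.sqrt s := by
          rw [Real.sqrt_le_left (by positivity), mul_pow, Real.sq_sqrt hs0]
          linarith
        linarith
      · push Not at hq
        have h6 : (1 / 2 : ℝ) ≤ Real.sqrt s := by
          apply Real.le_sqrt_of_sq_le
          linarith
        nlinarith
    exact hfin

end Vale.Agent.P161c
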