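import Vale.Agent.P161c.Flow
import Vale.Agent.P161c.Levy

/-!
Quenched state of the process: limits along the exhaustion, and continuity from the left in time.
-/

namespace Vale.Agent.P161c

open MeasureTheory SimpleGraph Vale.Agent.H13.P161 Filter Topology

variable {V : Type*} [Countable V] [DecidableEq V] {G : SimpleGraph V} [LocallyFinite G]
  {μ : Measure (V → ℤˣ)} [IsProbabilityMeasure μ] {T : ℕ → Finset V}

omit [IsProbabilityMeasure μ] [Countable V] in
lemma abs_comb_le_one {x z : ℝ} (hx : |x| ≤ 1) (hz : |z| ≤ 1) : |comb x z| ≤ 1 := by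
  have h1 := abs_le.mp hx
  have h2 := abs_le.mp hz
  have h3 : 0 ≤ 1 + x * z := by nlinarith
  unfold comb
  rw [abs_div, abs_of_nonneg h3]
  apply div_le_one_of_le₀ _ h3
  rw [abs_le]
  constructor <;> nlinarith

omit [IsProbabilityMeasure μ] [Countable V] [DecidableEq V] [LocallyFinite G] in
lemma WtAux_mem {θ : ℝ} (hθ0 : 0 ≤ θ) (hθ1 : θ < 1) {m : V → V → ℝ} (hm : ∀ c p, |m c p| ≤ 1)
    (v : V) (n : ℕ) (w : V) : 0 ≤ WtAux G θ m v n w ∧ WtAux G θ m v n w ≤ 1 := by
  induction n generalizing w with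
  | zero => simp [WtAux]
  | succ n ih =>
    have h1 := phi_bd hθ0 hθ1 (hm w (par G v w))
    have h2 := ih (par G v w)
    exact ⟨mul_nonneg h2.1 h1.1, mul_le_one₀ h2.2 h1.1 h1.2.1⟩

omit [IsProbabilityMeasure μ] [Countable V] [DecidableEq V] [LocallyFinite G] in
lemma abs_mag_le_one {θ : ℝ} (hθ0 : 0 ≤ θ) (hθ1 : θ < 1) {m : V → V → ℝ}
    (hm : ∀ c p, |m c p| ≤ 1) (v : V) : |mag G θ m v| ≤ 1 := by
  unfold mag
  split_ifs with h
  · unfold magE
    apply abs_comb_le_one (hm _ _)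
    rw [abs_mul, abs_of_nonneg hθ0]
    exact mul_le_one₀ hθ1.le (abs_nonneg _) (hm _ _)
  · simp

omit [IsProbabilityMeasure μ] [Countable V] [DecidableEq V] [LocallyFinite G] in
lemma abs_Cv_le_one {θ : ℝ} (hθ0 : 0 ≤ θ) (hθ1 : θ < 1) {m : V → V → ℝ}
    (hm : ∀ c p, |m c p| ≤ 1) (v w : V) : |Cv G θ m v w| ≤ 1 := by
  unfold Cv Wt
  have h1 := abs_mag_le_one (G := G) hθ0 hθ1 hm v
  have h2 := WtAux_mem (G := G) hθ0 hθ1 hm v (G.dist v w) w
  have h3 : mag G θ m v ^ 2 ≤ 1 := by
    have := sq_le_of_abs_le_aux h1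
    simpa using this
  have h4 : 0 ≤ 1 - mag G θ m v ^ 2 ∧ 1 - mag G θ m v ^ 2 ≤ 1 := by
    have := sq_nonneg (mag G θ m v)
    constructor <;> linarith
  have h5 : 0 ≤ θ ^ G.dist v w ∧ θ ^ G.dist v w ≤ 1 :=
    ⟨pow_nonneg hθ0 _, pow_le_one₀ hθ0 hθ1.le⟩
  rw [abs_of_nonneg (mul_nonneg (mul_nonneg h4.1 h5.1) h2.1)]
  exact mul_le_one₀ (mul_le_one₀ h4.2 h5.1 h5.2) h2.1 h2.2

omit [Countable V] [DecidableEq V] [LocallyFinite G] in
lemma abs_cavT_le (U : Site V → unitInterval) (k : ℕ) (t : ℝ) (y : Site V → ℝ) (c p : V) :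
    |cavT G μ T U k t y c p| ≤ 1 :=
  abs_limOr0_le zero_le_one
    (fun n => abs_post_le (ak_bounds (k + 1)).1 (ak_bounds (k + 1)).2 c _ _)

omit [Countable V] [DecidableEq V] [LocallyFinite G] in
lemma abs_CT_le_one {θ : ℝ} (hθ0 : 0 ≤ θ) (hθ1 : θ < 1) (U : Site V → unitInterval) (k : ℕ)
    (t : ℝ) (v w : V) (y : Site V → ℝ) : |CT G θ μ T U k t v w y| ≤ 1 :=
  abs_Cv_le_one hθ0 hθ1 (fun c p => abs_cavT_le U k t y c p) v w

omit [LocallyFinite G] in
lemma abs_MT_le_one (U : Site V → unitInterval) (k : ℕ) (t : ℝ) (v : V) (y : Site V → ℝ) :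
    |MT μ T U k t v y| ≤ 1 :=
  abs_postI_le (ak_bounds _).1 (ak_bounds _).2 _ _

omit [IsProbabilityMeasure μ] [Countable V] [DecidableEq V] [LocallyFinite G] in
lemma CT_msk {θ : ℝ} (U : Site V → unitInterval) (k : ℕ) (t : ℝ) (v w : V) (y : Site V → ℝ) :
    CT G θ μ T U k t v w (msk (cut U k t) y) = CT G θ μ T U k t v w y := by
  have h : cavT G μ T U k t (msk (cut U k t) y) = cavT G μ T U k t y := by
    ext c p
    unfold cavT aT
    rw [aF_msk]
  unfold CT
  rw [h]

lemma measurable_obsmsk (c : Site V → ℝ) (S : Set (Site V)) :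
    Measurable (fun p : (V → ℤˣ) × (Site V → unitInterval) =>
      ((p.1, fun w l => msk S (obsR c p.1 p.2) (l, w)) : (V → ℤˣ) × (V → ℕ → ℝ))) := by
  apply measurable_fst.prodMk
  rw [measurable_pi_iff]; intro w
  rw [measurable_pi_iff]; intro l
  have h := (measurable_pi_apply (X := fun _ : Site V => ℝ) (l, w)).comp
    ((measurable_msk S).comp (measurable_obsR c))
  exact h

/-- `env_limits` for the quenched channels at time `(k, t)` (`isChan_site` with `n = k + 1`,
`S = cut U k t`, transferred with `obsM_eq` and `own_msk` exactly as in `tower_q`). -/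
theorem limits_q {d : ℕ} (hreg : ∀ v, G.degree v = d) (hd : 1 ≤ d) (hG : G.IsTree) {θ : ℝ}
    (hθ0 : 0 ≤ θ) (hθ1 : θ < 1) (hflip : μ.map (fun σ : V → ℤˣ => fun v => - σ v) = μ)
    (hμ : EdgeFactor G θ μ) (hT : Monotone T) (hTu : ∀ v, ∃ n, v ∈ T n)
    (U : Site V → unitInterval) (k : ℕ) (t : ℝ) :
    ∀ᵐ p ∂(BM μ),
      (∀ v, Tendsto (fun n => post μ (ak (k + 1)) v (T n) (aT U k t (obsR (cs U) p.1 p.2))) atTop
        (𝓝 (MT μ T U k t v (obsR (cs U) p.1 p.2)))) ∧
      (∀ v, MT μ T U k t v (obsR (cs U) p.1 p.2)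
        = mag G θ (cavT G μ T U k t (obsR (cs U) p.1 p.2)) v) ∧
      (∀ v w, Tendsto (fun n =>
          corr μ (ak (k + 1)) v w (T n) (aT U k t (obsR (cs U) p.1 p.2))
            - post μ (ak (k + 1)) v (T n) (aT U k t (obsR (cs U) p.1 p.2))
              * post μ (ak (k + 1)) w (T n) (aT U k t (obsR (cs U) p.1 p.2))) atTop
        (𝓝 (CT G θ μ T U k t v w (obsR (cs U) p.1 p.2)))) := by
  have h := env_limits (G := G) (μ := μ) hreg hd (ak_bounds (k + 1)).1 (ak_bounds (k + 1)).2 hG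
    hθ0 hθ1 hflip hμ
    (fun w => isChan_site (k + 1) (abs_cs_le U) (fun j (hj : j ∈ cut U k t) => cut_lt hj) w) hT hTu
  rw [obsM_eq] at h
  have h' := ae_of_ae_map (measurable_obsmsk (cs U) (cut U k t)).aemeasurable h
  filter_upwards [h'] with p hp
  simp only [own_msk] at hp
  obtain ⟨_, h2, h3, h4⟩ := hp
  exact ⟨h2, h3, h4⟩

/-- two-point version of `tower_q` -/
lemma tower_q2 {d : ℕ} (hreg : ∀ v, G.degree v = d) (hd : 1 ≤ d) (hG : G.IsTree) {θ : ℝ}
    (hθ0 : 0 ≤ θ) (hθ1 : θ < 1) (hflip : μ.map (fun σ : V → ℤˣ => fun v => - σ v) = μ)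
    (hμ : EdgeFactor G θ μ) (hT : Monotone T) (hTu : ∀ v, ∃ n, v ∈ T n)
    (U : Site V → unitInterval) (k : ℕ) (t : ℝ) (v w : V) {f : (Site V → ℝ) → ℝ} (hf : Nice f)
    (hfS : ∀ y, f y = f (msk (cut U k t) y)) :
    ∫ p, f (obsR (cs U) p.1 p.2) * (spinVal (p.1 v) * spinVal (p.1 w)) ∂(BM μ)
      = ∫ p, f (obsR (cs U) p.1 p.2) * (CT G θ μ T U k t v w (obsR (cs U) p.1 p.2)
        + MT μ T U k t v (obsR (cs U) p.1 p.2) * MT μ T U k t w (obsR (cs U) p.1 p.2)) ∂(BM μ) := by
  have mu : Measurable (fun (yf : V → ℕ → ℝ) (i : Site V) => yf i.2 i.1) := by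
    rw [measurable_pi_iff]; intro i
    exact (measurable_pi_apply _).comp (measurable_pi_apply _)
  have hk' : Nice (fun yf : V → ℕ → ℝ => f (fun i : Site V => yf i.2 i.1)) := hf.comp mu
  have mm := measurable_obsmsk (cs U) (cut U k t)
  have hch : ∀ w, IsChan (iidLabels ℕ) (ak (k + 1))
      (chY (fun l => cs U (l, w)) {l | (l, w) ∈ cut U k t})
      (chb (k + 1) (fun l => cs U (l, w)) {l | (l, w) ∈ cut U k t}) := fun w =>
    isChan_site (k + 1) (abs_cs_le U) (fun j (hj : j ∈ cut U k t) => cut_lt hj) w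
  have mown : Measurable (fun yf : V → ℕ → ℝ =>
      own (fun w => chb (k + 1) (fun l => cs U (l, w)) {l | (l, w) ∈ cut U k t}) yf) := by
    rw [measurable_pi_iff]; intro w
    exact (hch w).measb.comp (measurable_pi_apply w)
  have h := tower_corrI (G := G) (μ := μ) hreg hd (ak_bounds (k + 1)).1 (ak_bounds (k + 1)).2 hG
    hθ0 hθ1 hflip hμ hch hT hTu v w hk'
  rw [obsM_eq, integral_map mm.aemeasurable, integral_map mm.aemeasurable] at h
  · simp only [own_msk] at h
    have e : ∀ y : Site V → ℝ, f (fun i : Site V => msk (cut U k t) y (i.1, i.2)) = f y := by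
      intro y
      exact (hfS y).symm
    simp only [e] at h
    exact h
  · apply Measurable.aestronglyMeasurable
    apply (hk'.1.comp measurable_snd).mul
    have m1 : Measurable (fun yf : V → ℕ → ℝ => Cv G θ (fun c p => cavI G μ (ak (k + 1)) T c p
        (own (fun w => chb (k + 1) (fun l => cs U (l, w)) {l | (l, w) ∈ cut U k t}) yf)) v w) :=
      (measurable_Cv v w).comp (measurable_pi_iff.mpr fun c => measurable_pi_iff.mpr fun p =>
        (measurable_cavI c p).comp mown)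
    have m2 : ∀ v, Measurable (fun yf : V → ℕ → ℝ => postI μ (ak (k + 1)) T v
        (own (fun w => chb (k + 1) (fun l => cs U (l, w)) {l | (l, w) ∈ cut U k t}) yf)) :=
      fun v => (measurable_postI v (ak (k + 1))).comp mown
    exact (m1.add ((m2 v).mul (m2 w))).comp measurable_snd
  · apply Measurable.aestronglyMeasurable
    exact (hk'.1.comp measurable_snd).mul
      (((nice_spin v).1.comp measurable_fst).mul ((nice_spin w).1.comp measurable_fst))

omit [IsProbabilityMeasure μ] [LocallyFinite G] [Countable V] [DecidableEq V] in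
lemma cut_mono (U : Site V → unitInterval) (k : ℕ) {t t' : ℝ} (h : t ≤ t') :
    cut U k t ⊆ cut U k t' := by
  intro j hj
  rcases hj with hj | hj
  · exact Or.inl hj
  · exact Or.inr ⟨hj.1, lt_of_lt_of_le hj.2 h⟩

lemma measurable_CTy {θ : ℝ} (U : Site V → unitInterval) (k : ℕ) (t : ℝ) (v w : V) :
    Measurable (fun y : Site V → ℝ => CT G θ μ T U k t v w y) :=
  (measurable_Cv v w).comp (measurable_pi_iff.mpr fun c => measurable_pi_iff.mpr fun p =>
    (measurable_cavI c p).comp (measurable_aF (k + 1) (cs U) (cut U k t)))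

lemma measurable_MTy (U : Site V → unitInterval) (k : ℕ) (t : ℝ) (v : V) :
    Measurable (fun y : Site V → ℝ => MT μ T U k t v y) :=
  (nice_MS (k + 1) (cs U) (cut U k t) v).1

/-- Levy's theorem for the masked observations -/
lemma levy_cut (U : Site V → unitInterval) (k : ℕ) {s : ℕ → ℝ} {r : ℝ} (hs : Monotone s)
    (hlim : Tendsto s atTop (𝓝 r)) {X : (V → ℤˣ) × (Site V → unitInterval) → ℝ}
    (hX : Measurable X) (hXb : ∀ p, |X p| ≤ 2) {M : ℝ → (Site V → ℝ) → ℝ}
    (hM : ∀ t, Measurable (M t)) (hMb : ∀ t y, |M t y| ≤ 2)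
    (hMm : ∀ t y, M t (msk (cut U k t) y) = M t y)
    (hMt : ∀ t, ∀ f : (Site V → ℝ) → ℝ, Nice f → (∀ y, f y = f (msk (cut U k t) y)) →
      ∫ p, f (obsR (cs U) p.1 p.2) * X p ∂(BM μ)
        = ∫ p, f (obsR (cs U) p.1 p.2) * M t (obsR (cs U) p.1 p.2) ∂(BM μ)) :
    ∀ᵐ p ∂(BM μ), Tendsto (fun N => M (s N) (obsR (cs U) p.1 p.2)) atTop
      (𝓝 (M r (obsR (cs U) p.1 p.2))) := by
  have hsr : ∀ n, s n ≤ r := fun n => hs.ge_of_tendsto hlim n
  have hmsk : ∀ t, Measurable (fun p : (V → ℤˣ) × (Site V → unitInterval) =>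
      msk (cut U k t) (obsR (cs U) p.1 p.2)) := fun t =>
    (measurable_msk (cut U k t)).comp (measurable_obsR (cs U))
  have htest : ∀ t, ∀ f : (Site V → ℝ) → ℝ, Measurable f → (∀ e, |f e| ≤ 1) →
      ∫ p, f (msk (cut U k t) (obsR (cs U) p.1 p.2)) * X p ∂(BM μ)
        = ∫ p, f (msk (cut U k t) (obsR (cs U) p.1 p.2))
          * M t (msk (cut U k t) (obsR (cs U) p.1 p.2)) ∂(BM μ) := by
    intro t f hf hfb
    have h1 := hMt t (fun y => f (msk (cut U k t) y))
      ⟨hf.comp (measurable_msk _), 1, fun y => hfb _⟩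
      (fun y => by rw [msk_msk (le_refl _)])
    simp only [hMm]
    exact h1
  have h := levy_maps (BM μ) (fun N p => msk (cut U k (s N)) (obsR (cs U) p.1 p.2))
    (fun N => hmsk (s N))
    (fun n => ⟨msk (cut U k (s n)), measurable_msk _, by
      funext p
      exact (msk_msk (cut_mono U k (hs (Nat.le_succ n))) _).symm⟩)
    (fun p => msk (cut U k r) (obsR (cs U) p.1 p.2)) (hmsk r)
    (fun n => ⟨msk (cut U k (s n)), measurable_msk _, by
      funext p
      exact (msk_msk (cut_mono U k (hsr n)) _).symm⟩)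
    (by
      rw [← measurable_iff_comap_le]
      rw [@measurable_pi_iff]
      intro i
      by_cases hi : i ∈ cut U k r
      · have hN : ∃ N, i ∈ cut U k (s N) := by
          rcases hi with hi | hi
          · exact ⟨0, Or.inl hi⟩
          · obtain ⟨N, hN⟩ := (hlim.eventually (lt_mem_nhds hi.2)).exists
            exact ⟨N, Or.inr ⟨hi.1, hN⟩⟩
        obtain ⟨N, hN⟩ := hN
        have e : (fun p : (V → ℤˣ) × (Site V → unitInterval) =>
            msk (cut U k r) (obsR (cs U) p.1 p.2) i)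
            = (fun y : Site V → ℝ => y i) ∘ (fun p : (V → ℤˣ) × (Site V → unitInterval) =>
              msk (cut U k (s N)) (obsR (cs U) p.1 p.2)) := by
          funext p
          simp only [msk, Function.comp_apply, if_pos hi, if_pos hN]
        rw [e]
        refine Measurable.mono ?_ (le_iSup (fun n => MeasurableSpace.comap
          (fun p : (V → ℤˣ) × (Site V → unitInterval) =>
            msk (cut U k (s n)) (obsR (cs U) p.1 p.2)) inferInstance) N) le_rfl
        exact (measurable_pi_apply i).comp (comap_measurable _)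
      · have e : (fun p : (V → ℤˣ) × (Site V → unitInterval) =>
            msk (cut U k r) (obsR (cs U) p.1 p.2) i) = fun _ => 0 := by
          funext p
          simp only [msk, if_neg hi]
        rw [e]
        exact measurable_const)
    X hX 2 hXb (fun N => M (s N)) (fun N => hM (s N)) (fun N e => hMb (s N) e)
    (fun N f hf hfb => htest (s N) f hf hfb) (M r) (hM r) (fun e => hMb r e)
    (fun f hf hfb => htest r f hf hfb)
  filter_upwards [h] with p hp
  simp only [hMm] at hp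
  exact hp

/-- Left continuity in time: Levy's upward theorem `levy_maps` on `BM μ` with `E = Site V → ℝ`,
`f N p = msk (cut U k (s N)) (obsR (cs U) p.1 p.2)`, `f' p = msk (cut U k r) (obsR (cs U) p.1 p.2)`
(`cut U k (s N) ⊆ cut U k r` and `cut U k r = ⋃ cut U k (s N)` because `U j < r` implies
`U j < s N` eventually), with `X = σ_v` (versions `MT`, `tower_q`) and `X = σ_v σ_w` (versions
`CT + MT * MT`; the analogue of `tower_q` from `tower_corrI`); `MT_msk` and `aF_msk`. -/
theorem levy_time {d : ℕ} (hreg : ∀ v, G.degree v = d) (hd : 1 ≤ d) (hG : G.IsTree) {θ : ℝ}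
    (hθ0 : 0 ≤ θ) (hθ1 : θ < 1) (hflip : μ.map (fun σ : V → ℤˣ => fun v => - σ v) = μ)
    (hμ : EdgeFactor G θ μ) (hT : Monotone T) (hTu : ∀ v, ∃ n, v ∈ T n)
    (U : Site V → unitInterval) (k : ℕ) {s : ℕ → ℝ} {r : ℝ} (hs : Monotone s)
    (hlim : Tendsto s atTop (𝓝 r)) :
    ∀ᵐ p ∂(BM μ),
      (∀ v, Tendsto (fun N => MT μ T U k (s N) v (obsR (cs U) p.1 p.2)) atTop
        (𝓝 (MT μ T U k r v (obsR (cs U) p.1 p.2)))) ∧
      (∀ v w, Tendsto (fun N => CT G θ μ T U k (s N) v w (obsR (cs U) p.1 p.2)) atTop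
        (𝓝 (CT G θ μ T U k r v w (obsR (cs U) p.1 p.2)))) := by
  have h1 : ∀ v, ∀ᵐ p ∂(BM μ), Tendsto (fun N => MT μ T U k (s N) v (obsR (cs U) p.1 p.2)) atTop
      (𝓝 (MT μ T U k r v (obsR (cs U) p.1 p.2))) := by
    intro v
    apply levy_cut U k hs hlim (X := fun p => spinVal (p.1 v))
      ((nice_spin v).1.comp measurable_fst) (fun p => by rw [abs_spinVal]; norm_num)
      (M := fun t y => MT μ T U k t v y) (fun t => measurable_MTy U k t v)
      (fun t y => (abs_MT_le_one U k t v y).trans (by norm_num))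
      (fun t y => MT_msk U k t v y)
    intro t f hf hfS
    exact tower_q hT hTu (k + 1) (abs_cs_le U) (fun j (hj : j ∈ cut U k t) => cut_lt hj) v hf hfS
  have h2 : ∀ v w, ∀ᵐ p ∂(BM μ), Tendsto (fun N => CT G θ μ T U k (s N) v w (obsR (cs U) p.1 p.2)
        + MT μ T U k (s N) v (obsR (cs U) p.1 p.2) * MT μ T U k (s N) w (obsR (cs U) p.1 p.2)) atTop
      (𝓝 (CT G θ μ T U k r v w (obsR (cs U) p.1 p.2)
        + MT μ T U k r v (obsR (cs U) p.1 p.2) * MT μ T U k r w (obsR (cs U) p.1 p.2))) := by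
    intro v w
    apply levy_cut U k hs hlim (X := fun p => spinVal (p.1 v) * spinVal (p.1 w))
      (((nice_spin v).1.comp measurable_fst).mul ((nice_spin w).1.comp measurable_fst))
      (fun p => by rw [abs_mul, abs_spinVal, abs_spinVal]; norm_num)
      (M := fun t y => CT G θ μ T U k t v w y + MT μ T U k t v y * MT μ T U k t w y)
      (fun t => (measurable_CTy U k t v w).add ((measurable_MTy U k t v).mul
        (measurable_MTy U k t w)))
      (fun t y => by
        refine (abs_add_le _ _).trans ?_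
        rw [abs_mul]
        have a1 := abs_CT_le_one (G := G) (μ := μ) (T := T) hθ0 hθ1 U k t v w y
        have a2 := mul_le_one₀ (abs_MT_le_one (μ := μ) (T := T) U k t v y) (abs_nonneg _)
          (abs_MT_le_one (μ := μ) (T := T) U k t w y)
        linarith)
      (fun t y => by rw [CT_msk, MT_msk, MT_msk])
    intro t f hf hfS
    exact tower_q2 hreg hd hG hθ0 hθ1 hflip hμ hT hTu U k t v w hf hfS
  filter_upwards [ae_all_iff.mpr h1, ae_all_iff.mpr fun v => ae_all_iff.mpr (h2 v)] with p hp1 hp2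
  refine ⟨hp1, fun v w => ?_⟩
  have h3 := (hp2 v w).sub ((hp1 v).mul (hp1 w))
  simpa only [add_sub_cancel_right] using h3

/-- crude bounds of the covariance: `|CT| ≤ 2` almost surely, from `limits_q` and `abs_corr_le`,
`abs_post_le` -/
theorem abs_CT_le_two {d : ℕ} (hreg : ∀ v, G.degree v = d) (hd : 1 ≤ d) (hG : G.IsTree) {θ : ℝ}
    (hθ0 : 0 ≤ θ) (hθ1 : θ < 1) (hflip : μ.map (fun σ : V → ℤˣ => fun v => - σ v) = μ)
    (hμ : EdgeFactor G θ μ) (hT : Monotone T) (hTu : ∀ v, ∃ n, v ∈ T n)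
    (U : Site V → unitInterval) (k : ℕ) (t : ℝ) :
    ∀ᵐ p ∂(BM μ), ∀ v w, |CT G θ μ T U k t v w (obsR (cs U) p.1 p.2)| ≤ 2 := by
  filter_upwards with p
  intro v w
  exact (abs_CT_le_one hθ0 hθ1 U k t v w _).trans (by norm_num)

/-- joint measurability of the covariance in labels, time and observations (`measurable_aT`,
`measurable_cavI`, `measurable_Cv`) -/
theorem measurable_CT {θ : ℝ} (k : ℕ) (v w : V) : Measurable
    (fun q : (Site V → unitInterval) × (ℝ × (Site V → ℝ)) =>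
      CT G θ μ T q.1 k q.2.1 v w q.2.2) :=
  (measurable_Cv v w).comp (measurable_pi_iff.mpr fun c => measurable_pi_iff.mpr fun p =>
    (measurable_cavI c p).comp (measurable_aT k))

end Vale.Agent.P161c
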