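import Vale.Agent.P161c.Coup3
import Vale.Agent.P161c.StateQ

/-!
Jumps in the relative product: bounds and orthogonality.
-/

set_option linter.unusedSectionVars false
set_option linter.unusedVariables false

namespace Vale.Agent.P161c

open MeasureTheory SimpleGraph Vale.Agent.H13.P161 Filter Topology

section Bounds

variable {V : Type*} {G : SimpleGraph V} {θ : ℝ}

lemma phi_mem_e (hθ0 : 0 ≤ θ) (hθ1 : θ < 1) {x : ℝ} (hx : |x| ≤ 1) :
    0 ≤ phi θ x ∧ phi θ x ≤ 1 := by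
  have h1 : x ^ 2 ≤ 1 := by
    rw [← sq_abs]
    have := abs_nonneg x
    nlinarith
  have h0 : 0 ≤ x ^ 2 := sq_nonneg x
  have hθ2 : θ ^ 2 < 1 := by nlinarith
  have hd : 0 < 1 - θ ^ 2 * x ^ 2 := by nlinarith [sq_nonneg θ]
  unfold phi
  constructor
  · exact div_nonneg (by linarith) hd.le
  · rw [div_le_one hd]
    nlinarith

lemma WtAux_mem_e (hθ0 : 0 ≤ θ) (hθ1 : θ < 1) {m : V → V → ℝ} (hm : ∀ c p, |m c p| ≤ 1) (v : V) :
    ∀ (n : ℕ) (w : V), 0 ≤ WtAux G θ m v n w ∧ WtAux G θ m v n w ≤ 1 := by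
  intro n
  induction n with
  | zero => intro w; simp [WtAux]
  | succ n ih =>
    intro w
    obtain ⟨h1, h2⟩ := ih (par G v w)
    obtain ⟨h3, h4⟩ := phi_mem_e hθ0 hθ1 (hm w (par G v w))
    unfold WtAux
    exact ⟨mul_nonneg h1 h3, mul_le_one₀ h2 h3 h4⟩

lemma abs_comb_le_one_e {x z : ℝ} (hx : |x| ≤ 1) (hz : |z| < 1) : |comb x z| ≤ 1 := by
  have hd : 0 < 1 + x * z := by
    have h1 : |x * z| < 1 := by
      rw [abs_mul]
      calc |x| * |z| ≤ 1 * |z| := mul_le_mul_of_nonneg_right hx (abs_nonneg _)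
        _ < 1 := by linarith
    linarith [(abs_lt.mp h1).1]
  rw [abs_le] at hx
  rw [abs_lt] at hz
  unfold comb
  rw [abs_div, abs_of_pos hd, div_le_one hd, abs_le]
  constructor
  · nlinarith [mul_nonneg (by linarith [hx.1] : (0 : ℝ) ≤ 1 + x) (by linarith [hz.1] : (0 : ℝ) ≤ 1 + z)]
  · nlinarith [mul_nonneg (by linarith [hx.2] : (0 : ℝ) ≤ 1 - x) (by linarith [hz.2] : (0 : ℝ) ≤ 1 - z)]

lemma abs_mag_le_one_e (hθ0 : 0 ≤ θ) (hθ1 : θ < 1) {m : V → V → ℝ} (hm : ∀ c p, |m c p| ≤ 1)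
    (c : V) : |mag G θ m c| ≤ 1 := by
  unfold mag
  split_ifs with h
  · unfold magE
    apply abs_comb_le_one_e (hm _ _)
    rw [abs_mul, abs_of_nonneg hθ0]
    have := hm h.choose c
    nlinarith [abs_nonneg (m h.choose c)]
  · simp

lemma Cv_mem_e (hθ0 : 0 ≤ θ) (hθ1 : θ < 1) {m : V → V → ℝ} (hm : ∀ c p, |m c p| ≤ 1) (v w : V) :
    0 ≤ Cv G θ m v w ∧ Cv G θ m v w ≤ 1 := by
  have h1 := abs_mag_le_one_e (G := G) hθ0 hθ1 hm v
  have h2 : mag G θ m v ^ 2 ≤ 1 := by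
    rw [← sq_abs]
    nlinarith [abs_nonneg (mag G θ m v)]
  obtain ⟨h3, h4⟩ := WtAux_mem_e (G := G) hθ0 hθ1 hm v (G.dist v w) w
  have h5 : θ ^ G.dist v w ≤ 1 := pow_le_one₀ hθ0 hθ1.le
  have h6 : 0 ≤ θ ^ G.dist v w := pow_nonneg hθ0 _
  have h7 : 0 ≤ 1 - mag G θ m v ^ 2 := by linarith
  have h8 : 1 - mag G θ m v ^ 2 ≤ 1 := by linarith [sq_nonneg (mag G θ m v)]
  unfold Cv Wt
  constructor
  · exact mul_nonneg (mul_nonneg h7 h6) h3
  · calc (1 - mag G θ m v ^ 2) * θ ^ G.dist v w * WtAux G θ m v (G.dist v w) w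
        ≤ 1 * 1 := by
          apply mul_le_mul _ h4 h3 (by norm_num)
          exact mul_le_one₀ h8 h6 h5
      _ = 1 := one_mul 1

end Bounds

variable {V : Type*} [Countable V] [DecidableEq V] {G : SimpleGraph V} [LocallyFinite G]
  {μ : Measure (V → ℤˣ)} [IsProbabilityMeasure μ] {T : ℕ → Finset V} {θ : ℝ}

lemma abs_cavT_le_e (U : Site V → unitInterval) (k : ℕ) (t : ℝ) (y : Site V → ℝ) (c p : V) :
    |cavT G μ T U k t y c p| ≤ 1 := by
  unfold cavT cavI
  apply limOr0_bound zero_le_one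
  intro n
  exact abs_post_le (ak_bounds _).1 (ak_bounds _).2 _ _ _

lemma CT_mem (hθ0 : 0 ≤ θ) (hθ1 : θ < 1) (U : Site V → unitInterval) (k : ℕ) (t : ℝ) (v w : V)
    (y : Site V → ℝ) : 0 ≤ CT G θ μ T U k t v w y ∧ CT G θ μ T U k t v w y ≤ 1 :=
  Cv_mem_e hθ0 hθ1 (abs_cavT_le_e U k t y) v w

lemma nice_CT (hθ0 : 0 ≤ θ) (hθ1 : θ < 1) (k : ℕ) (v w : V) : Nice
    (fun q : (Site V → unitInterval) × (ℝ × (Site V → ℝ)) =>
      CT G θ μ T q.1 k q.2.1 v w q.2.2) :=
  ⟨measurable_CT k v w, 1, fun q => by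
    obtain ⟨h1, h2⟩ := CT_mem (G := G) (μ := μ) (T := T) hθ0 hθ1 q.1 k q.2.1 v w q.2.2
    rw [abs_of_nonneg h1]
    exact h2⟩

lemma nice_CTi (hθ0 : 0 ≤ θ) (hθ1 : θ < 1) (v : V) (i : Site V) : Nice
    (fun q : (Site V → unitInterval) × (Site V → ℝ) =>
      CT G θ μ T q.1 i.1 ((q.1 i : unitInterval) : ℝ) v i.2 q.2) := by
  have h : Measurable (fun q : (Site V → unitInterval) × (Site V → ℝ) =>
      (q.1, (((q.1 i : unitInterval) : ℝ), q.2))) :=
    measurable_fst.prodMk ((measurable_subtype_coe.comp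
      ((measurable_pi_apply i).comp measurable_fst)).prodMk measurable_snd)
  have h2 := (nice_CT (G := G) (μ := μ) (T := T) hθ0 hθ1 i.1 v i.2).comp h
  exact h2

lemma nice_MTi (i : Site V) : Nice
    (fun q : (Site V → unitInterval) × (Site V → ℝ) =>
      MT μ T q.1 i.1 ((q.1 i : unitInterval) : ℝ) i.2 q.2) :=
  ⟨measurable_MTi i, 1, fun q => abs_MT_le _ _ _ _ _⟩

/-- jump at the site `i` as a function of past and current observation -/
noncomputable def JK (G : SimpleGraph V) (θ : ℝ) (μ : Measure (V → ℤˣ)) (T : ℕ → Finset V) (v : V)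
    (i : Site V) (U : Site V → unitInterval) (y : Site V → ℝ) (q : ℝ) : ℝ :=
  cs U i * q * CT G θ μ T U i.1 (U i) v i.2 y
    / (1 + cs U i * q * MT μ T U i.1 (U i) i.2 y)

lemma den_ge_e {c q M : ℝ} (hc : |c| ≤ 1 / 2) (hq : |q| ≤ 1) (hM : |M| ≤ 1) :
    1 / 2 ≤ 1 + c * q * M := by
  have h : |c * q * M| ≤ 1 / 2 := by
    rw [abs_mul, abs_mul]
    have h1 : |c| * |q| ≤ 1 / 2 * 1 := mul_le_mul hc hq (abs_nonneg _) (by norm_num)
    have h2 : |c| * |q| * |M| ≤ 1 / 2 * 1 * 1 :=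
      mul_le_mul h1 hM (abs_nonneg _) (by norm_num)
    linarith
  have := (abs_le.mp h).1
  linarith

lemma abs_JK_le (hθ0 : 0 ≤ θ) (hθ1 : θ < 1) (v : V) (i : Site V) (U : Site V → unitInterval)
    (y : Site V → ℝ) {q : ℝ} (hq : |q| ≤ 1) : |JK G θ μ T v i U y q| ≤ 1 := by
  have hd := den_ge_e (abs_cs_le U i) hq (abs_MT_le (μ := μ) (T := T) U i.1 (U i) i.2 y)
  obtain ⟨h1, h2⟩ := CT_mem (G := G) (μ := μ) (T := T) hθ0 hθ1 U i.1 (U i) v i.2 y
  unfold JK
  rw [abs_div, abs_of_pos (by linarith : 0 < 1 + cs U i * q * MT μ T U i.1 (U i) i.2 y),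
    div_le_one (by linarith), abs_mul, abs_mul, abs_of_nonneg h1]
  have h3 : |cs U i| * |q| ≤ 1 / 2 * 1 :=
    mul_le_mul (abs_cs_le U i) hq (abs_nonneg _) (by norm_num)
  have h4 : |cs U i| * |q| * CT G θ μ T U i.1 (U i) v i.2 y ≤ 1 / 2 * 1 * 1 :=
    mul_le_mul h3 h2 h1 (by norm_num)
  linarith

lemma JT_eq (k : ℕ) (t1 t2 : ℝ) (v w : V) (U : Site V → unitInterval) (y : Site V → ℝ) :
    JT G θ μ T k t1 t2 v w U y = coI t1 t2 (U (k, w)) * JK G θ μ T v (k, w) U y (cl (y (k, w))) := by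
  unfold JT coI JK
  by_cases h : t1 ≤ (U (k, w) : ℝ) ∧ (U (k, w) : ℝ) < t2
  · rw [if_pos h, if_pos h, one_mul]
  · rw [if_neg h, if_neg h, zero_mul]

lemma measurable_JK (hθ0 : 0 ≤ θ) (hθ1 : θ < 1) (v : V) (i : Site V) : Measurable
    (fun r : ((Site V → unitInterval) × (Site V → ℝ)) × ℝ => JK G θ μ T v i r.1.1 r.1.2 r.2) := by
  have h0 : Measurable (fun r : ((Site V → unitInterval) × (Site V → ℝ)) × ℝ => cs r.1.1 i) :=
    (measurable_pi_apply i).comp (measurable_cs.comp (measurable_fst.comp measurable_fst))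
  have h1 : Measurable (fun r : ((Site V → unitInterval) × (Site V → ℝ)) × ℝ =>
      CT G θ μ T r.1.1 i.1 ((r.1.1 i : unitInterval) : ℝ) v i.2 r.1.2) := by
    have h := (nice_CTi (G := G) (μ := μ) (T := T) hθ0 hθ1 v i).1.comp
      (measurable_fst : Measurable (Prod.fst : ((Site V → unitInterval) × (Site V → ℝ)) × ℝ → _))
    simpa only [Function.comp_def] using h
  have h2 : Measurable (fun r : ((Site V → unitInterval) × (Site V → ℝ)) × ℝ =>
      MT μ T r.1.1 i.1 ((r.1.1 i : unitInterval) : ℝ) i.2 r.1.2) := by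
    have h := (measurable_MTi (μ := μ) (T := T) i).comp
      (measurable_fst : Measurable (Prod.fst : ((Site V → unitInterval) × (Site V → ℝ)) × ℝ → _))
    simpa only [Function.comp_def] using h
  have h3 : Measurable (fun r : ((Site V → unitInterval) × (Site V → ℝ)) × ℝ => r.2) :=
    measurable_snd
  unfold JK
  exact (((h0.mul h3).mul h1).div (((h0.mul h3).mul h2).const_add 1))

lemma nice_JT_e (hθ0 : 0 ≤ θ) (hθ1 : θ < 1) (k : ℕ) (t1 t2 : ℝ) (v w : V) : Nice
    (fun q : (Site V → unitInterval) × (Site V → ℝ) => JT G θ μ T k t1 t2 v w q.1 q.2) := by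
  have m1 : Measurable (fun q : (Site V → unitInterval) × (Site V → ℝ) =>
      (q, cl (q.2 (k, w)))) :=
    measurable_id.prodMk (measurable_cl.comp ((measurable_pi_apply (k, w)).comp measurable_snd))
  have m2 : Measurable (fun q : (Site V → unitInterval) × (Site V → ℝ) =>
      JK G θ μ T v (k, w) q.1 q.2 (cl (q.2 (k, w)))) := by
    have h := (measurable_JK (G := G) (μ := μ) (T := T) hθ0 hθ1 v (k, w)).comp m1
    simpa only [Function.comp_def] using h
  have n2 : Nice (fun q : (Site V → unitInterval) × (Site V → ℝ) =>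
      JK G θ μ T v (k, w) q.1 q.2 (cl (q.2 (k, w)))) :=
    ⟨m2, 1, fun q => abs_JK_le hθ0 hθ1 v (k, w) q.1 q.2 (abs_cl_le _)⟩
  have n1 : Nice (fun q : (Site V → unitInterval) × (Site V → ℝ) => coI t1 t2 (q.1 (k, w))) :=
    (nice_coI t1 t2).comp ((measurable_pi_apply (k, w)).comp measurable_fst)
  have := n1.mul n2
  simp only [JT_eq]
  exact this

/-- the jump is centered given the past -/
lemma integral_JK (v : V) (i : Site V) (U : Site V → unitInterval) (y : Site V → ℝ) :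
    ∫ x : unitInterval, JK G θ μ T v i U y (Qc (cs U i * MT μ T U i.1 (U i) i.2 y) x) = 0 := by
  have hc := abs_cs_MT_lt (μ := μ) (T := T) U i i.1 (U i) i.2 y
  rw [integral_Qc hc (fun q => JK G θ μ T v i U y q)]
  set c := cs U i with hcdef
  set M := MT μ T U i.1 (U i) i.2 y with hM
  set C := CT G θ μ T U i.1 (U i) v i.2 y with hC
  have e : ∀ x : unitInterval, JK G θ μ T v i U y (2 * (x : ℝ) - 1) * (1 + c * M * (2 * (x : ℝ) - 1))
      = c * C * (2 * (x : ℝ) - 1) := by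
    intro x
    have hd := den_ge_e (abs_cs_le U i) (abs_two_mul_sub_one_le x)
      (abs_MT_le (μ := μ) (T := T) U i.1 (U i) i.2 y)
    rw [← hcdef, ← hM] at hd
    unfold JK
    rw [← hcdef, ← hM, ← hC]
    have h1 : 1 + c * (2 * (x : ℝ) - 1) * M ≠ 0 := by linarith
    have h2 : 1 + c * M * (2 * (x : ℝ) - 1) = 1 + c * (2 * (x : ℝ) - 1) * M := by ring
    rw [h2, div_mul_cancel₀ _ h1]
    ring
  simp only [e]
  rw [integral_const_mul, integral_centered, mul_zero]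

variable (hT : Monotone T) (hTu : ∀ v, ∃ n, v ∈ T n)

omit [LocallyFinite G] in
lemma measurable_obs_eq (i : Site V) : MeasurableSet {q : Om V × (Site V → ℝ) |
    |q.2 i| ≤ 1 ∧ q.2 i = Qc (cs q.1.1 i * MT μ T q.1.1 i.1 (q.1.1 i) i.2 q.2) (q.1.2 i)} := by
  have mi : Measurable (fun q : Om V × (Site V → ℝ) => q.2 i) :=
    (measurable_pi_apply i).comp measurable_snd
  apply MeasurableSet.inter
  · exact measurableSet_le mi.abs measurable_const
  · apply measurableSet_eq_fun mi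
    have h1 : Measurable (fun q : Om V × (Site V → ℝ) => (q.1.1, q.2)) := by fun_prop
    have h2 : Measurable (fun q : Om V × (Site V → ℝ) =>
        MT μ T q.1.1 i.1 ((q.1.1 i : unitInterval) : ℝ) i.2 q.2) := by
      have h := (measurable_MTi (μ := μ) (T := T) i).comp h1
      simpa only [Function.comp_def] using h
    have h3 : Measurable (fun q : Om V × (Site V → ℝ) => cs q.1.1 i) :=
      (measurable_pi_apply i).comp (measurable_cs.comp (measurable_fst.comp measurable_fst))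
    have h4 : Measurable (fun q : Om V × (Site V → ℝ) => ((q.1.2 i : unitInterval) : ℝ)) :=
      measurable_subtype_coe.comp ((measurable_pi_apply i).comp
        (measurable_snd.comp measurable_fst))
    exact measurable_Qc.comp ((h3.mul h2).prodMk h4)

omit [LocallyFinite G] in
/-- the observations are recovered from the innovations, law version -/
lemma QM_obs_eq (i : Site V) : ∀ᵐ q ∂(QM μ T), |q.2 i| ≤ 1 ∧
    q.2 i = Qc (cs q.1.1 i * MT μ T q.1.1 i.1 (q.1.1 i) i.2 q.2) (q.1.2 i) := by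
  unfold QM
  rw [ae_map_iff measurable_toQ.aemeasurable (measurable_obs_eq i)]
  apply Eventually.of_forall
  intro q
  have hy : |obsR (cs q.1) q.2.1 q.2.2 i| ≤ 1 := abs_obsR_le (abs_cs_le q.1) _ _ i
  exact ⟨hy, obs_of_inn q.1 hy⟩

omit [LocallyFinite G] in
lemma relP_obs_left (i : Site V) : ∀ᵐ q ∂(relP (QM μ T)), |q.2.1 i| ≤ 1 ∧
    q.2.1 i = Qc (cs q.1.1 i * MT μ T q.1.1 i.1 (q.1.1 i) i.2 q.2.1) (q.1.2 i) := by
  have m : Measurable (fun q : Om V × ((Site V → ℝ) × (Site V → ℝ)) => (q.1, q.2.1)) :=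
    measurable_fst.prodMk (measurable_fst.comp measurable_snd)
  have h := QM_obs_eq (μ := μ) (T := T) i
  rw [← relP_map_left (Q := QM μ T)] at h
  exact ae_of_ae_map m.aemeasurable h

omit [LocallyFinite G] in
lemma relP_obs_right (i : Site V) : ∀ᵐ q ∂(relP (QM μ T)), |q.2.2 i| ≤ 1 ∧
    q.2.2 i = Qc (cs q.1.1 i * MT μ T q.1.1 i.1 (q.1.1 i) i.2 q.2.2) (q.1.2 i) := by
  have m : Measurable (fun q : Om V × ((Site V → ℝ) × (Site V → ℝ)) => (q.1, q.2.2)) :=
    measurable_fst.prodMk (measurable_snd.comp measurable_snd)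
  have h := QM_obs_eq (μ := μ) (T := T) i
  rw [← relP_map_right (Q := QM μ T)] at h
  exact ae_of_ae_map m.aemeasurable h

include hT hTu

/-- orthogonality of a jump to functionals of the two pasts -/
lemma relP_JT_left (hθ0 : 0 ≤ θ) (hθ1 : θ < 1) (k : ℕ) (t1 t2 : ℝ) (v w : V)
    {H F : (Site V → unitInterval) × (Site V → ℝ) → ℝ} (hH : Nice H)
    (hHS : ∀ U y, H (U, y) = H (U, msk (cut U k (U (k, w))) y)) (hF : Nice F)
    (hFS : ∀ U y, F (U, y) = F (U, msk (cut U k (U (k, w))) y)) :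
    ∫ q, JT G θ μ T k t1 t2 v w q.1.1 q.2.1 * (H (q.1.1, q.2.1) * F (q.1.1, q.2.2))
      ∂(relP (QM μ T)) = 0 := by
  set i : Site V := (k, w) with hi
  set K : (Site V → unitInterval) × ((Site V → ℝ) × unitInterval) → ℝ := fun r =>
    coI t1 t2 (r.1 i) * JK G θ μ T v i r.1 r.2.1
      (Qc (cs r.1 i * MT μ T r.1 i.1 (r.1 i) i.2 r.2.1) r.2.2) * H (r.1, r.2.1) with hK
  have m1 : Measurable (fun r : (Site V → unitInterval) × ((Site V → ℝ) × unitInterval) =>
      (r.1, r.2.1)) := by fun_prop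
  have mM : Measurable (fun r : (Site V → unitInterval) × ((Site V → ℝ) × unitInterval) =>
      MT μ T r.1 i.1 ((r.1 i : unitInterval) : ℝ) i.2 r.2.1) := by
    have h := (measurable_MTi (μ := μ) (T := T) i).comp m1
    simpa only [Function.comp_def] using h
  have mc : Measurable (fun r : (Site V → unitInterval) × ((Site V → ℝ) × unitInterval) =>
      cs r.1 i) := (measurable_pi_apply i).comp (measurable_cs.comp measurable_fst)
  have mx : Measurable (fun r : (Site V → unitInterval) × ((Site V → ℝ) × unitInterval) =>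
      ((r.2.2 : unitInterval) : ℝ)) :=
    measurable_subtype_coe.comp (measurable_snd.comp measurable_snd)
  have mq : Measurable (fun r : (Site V → unitInterval) × ((Site V → ℝ) × unitInterval) =>
      Qc (cs r.1 i * MT μ T r.1 i.1 (r.1 i) i.2 r.2.1) r.2.2) :=
    measurable_Qc.comp ((mc.mul mM).prodMk mx)
  have mJ : Measurable (fun r : (Site V → unitInterval) × ((Site V → ℝ) × unitInterval) =>
      JK G θ μ T v i r.1 r.2.1 (Qc (cs r.1 i * MT μ T r.1 i.1 (r.1 i) i.2 r.2.1) r.2.2)) := by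
    have h := (measurable_JK (G := G) (μ := μ) (T := T) hθ0 hθ1 v i).comp (m1.prodMk mq)
    simpa only [Function.comp_def] using h
  have nJ : Nice (fun r : (Site V → unitInterval) × ((Site V → ℝ) × unitInterval) =>
      JK G θ μ T v i r.1 r.2.1 (Qc (cs r.1 i * MT μ T r.1 i.1 (r.1 i) i.2 r.2.1) r.2.2)) :=
    ⟨mJ, 1, fun r => abs_JK_le hθ0 hθ1 v i r.1 r.2.1
      (abs_Qc_le (abs_cs_MT_lt r.1 i _ _ _ _) r.2.2.2.1 r.2.2.2.2)⟩
  have nK : Nice K :=
    (((nice_coI t1 t2).comp ((measurable_pi_apply i).comp measurable_fst)).mul nJ).mul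
      (hH.comp m1)
  have hKS : ∀ U y x, K (U, (y, x)) = K (U, (msk (cut U i.1 (U i)) y, x)) := by
    intro U y x
    simp only [hK]
    have e1 : ∀ q, JK G θ μ T v i U (msk (cut U i.1 (U i)) y) q = JK G θ μ T v i U y q := by
      intro q
      unfold JK
      rw [CT_msk, MT_msk]
    rw [e1, MT_msk, hHS U y]
  have h := relP_innov (μ := μ) hT hTu i nK hKS hF hFS
  have e0 : ∀ q : Om V × ((Site V → ℝ) × (Site V → ℝ)),
      (∫ x : unitInterval, K (q.1.1, (q.2.1, x))) = 0 := by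
    intro q
    simp only [hK]
    have : ∀ x : unitInterval, coI t1 t2 (q.1.1 i) * JK G θ μ T v i q.1.1 q.2.1
        (Qc (cs q.1.1 i * MT μ T q.1.1 i.1 (q.1.1 i) i.2 q.2.1) x) * H (q.1.1, q.2.1)
        = (coI t1 t2 (q.1.1 i) * H (q.1.1, q.2.1)) * JK G θ μ T v i q.1.1 q.2.1
        (Qc (cs q.1.1 i * MT μ T q.1.1 i.1 (q.1.1 i) i.2 q.2.1) x) := fun x => by ring
    simp only [this]
    rw [integral_const_mul, integral_JK, mul_zero]
  simp only [e0, zero_mul, integral_zero] at h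
  rw [← h]
  apply integral_congr_ae
  filter_upwards [relP_obs_left (μ := μ) (T := T) i] with q hq
  simp only [hK]
  rw [JT_eq, cl_of_abs_le hq.1]
  conv_lhs => rw [← hi]
  rw [← hq.2]
  ring

lemma relP_JT_right (hθ0 : 0 ≤ θ) (hθ1 : θ < 1) (k : ℕ) (t1 t2 : ℝ) (v w : V)
    {H F : (Site V → unitInterval) × (Site V → ℝ) → ℝ} (hH : Nice H)
    (hHS : ∀ U y, H (U, y) = H (U, msk (cut U k (U (k, w))) y)) (hF : Nice F)
    (hFS : ∀ U y, F (U, y) = F (U, msk (cut U k (U (k, w))) y)) :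
    ∫ q, JT G θ μ T k t1 t2 v w q.1.1 q.2.2 * (H (q.1.1, q.2.1) * F (q.1.1, q.2.2))
      ∂(relP (QM μ T)) = 0 := by
  have h := relP_JT_left (G := G) (μ := μ) hT hTu hθ0 hθ1 k t1 t2 v w hF hFS hH hHS
  rw [← h]
  have m1 : Measurable (fun q : Om V × ((Site V → ℝ) × (Site V → ℝ)) => (q.1.1, q.2.1)) := by
    fun_prop
  have m2 : Measurable (fun q : Om V × ((Site V → ℝ) × (Site V → ℝ)) => (q.1.1, q.2.2)) := by
    fun_prop
  have n : Nice (fun q : Om V × ((Site V → ℝ) × (Site V → ℝ)) =>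
      JT G θ μ T k t1 t2 v w q.1.1 q.2.1 * (F (q.1.1, q.2.1) * H (q.1.1, q.2.2))) :=
    ((nice_JT_e (G := G) (μ := μ) (T := T) hθ0 hθ1 k t1 t2 v w).comp m1).mul
      ((hF.comp m1).mul (hH.comp m2))
  rw [← relP_swap n]
  congr 1
  ext q
  ring

end Vale.Agent.P161c
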