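import Vale.Agent.P161c.EnvBasic

/-!
Exponential decay of the path products by the screening of own observations.
-/

namespace Vale.Agent.P161c

open MeasureTheory SimpleGraph Vale.Agent.H13.P161

variable {V : Type*} {G : SimpleGraph V} [LocallyFinite G] [DecidableEq V] [Countable V]

/-- own screening: for `c` with neighbours `p ≠ g` and `F ≥ 0` a functional of the observations in
the branch of `g` away from `c`: `E[F (m c p)²] ≥ E[a_c²] E[F]`.
Proof: `E[F m_c a_c] = E[F σ_c a_c]` (`tower`, with `a_c` clipped), `= E[F] E[a_c²]` by `own` applied to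
`a_c` and `H = F σ_c` (`σ_c² = 1`, `E a_c = 0` by `flip`) and `tower_own`; and
`E[F a_c²] = E[F] E[a_c²]` (`indep_own`).  Cauchy-Schwarz. -/
lemma own_screen {θ α : ℝ} {P : Measure (Cfg V)} {m : V → V → (V → ℝ) → ℝ}
    (he : CavEnv0 G θ α P m) (hα0 : 0 ≤ α) (hα1 : α < 1) (hG : G.IsTree) {c p g : V}
    (hp : G.Adj c p) (hg : G.Adj c g) (hgp : g ≠ p)
    {F : (V → ℝ) → ℝ} (hF : Nice F) (hF0 : ∀ a, 0 ≤ F a) (hFd : ObsDepOn (br G g c) F) :
    (∫ ω, (ω.2 c) ^ 2 ∂P) * (∫ ω, F ω.2 ∂P) ≤ ∫ ω, F ω.2 * (m c p ω.2) ^ 2 ∂P := by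
  have hprob := he.prob
  have hmc := nice_cav he c p
  set clip : ℝ → ℝ := fun x => max (-1) (min 1 x) with hclip
  have hcodd : ∀ x, clip (-x) = - clip x := by
    intro x
    simp only [hclip, max_def, min_def]
    split_ifs <;> linarith
  have hcm : Measurable clip := by
    simp only [hclip]
    fun_prop
  have hcb : ∀ x, |clip x| ≤ 1 := by
    intro x
    rw [abs_le]
    exact ⟨le_max_left _ _, max_le (by norm_num) (min_le_left _ _)⟩
  have hcn : Nice clip := ⟨hcm, 1, hcb⟩
  have hceq : ∀ᵐ ω ∂P, clip (ω.2 c) = ω.2 c := by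
    filter_upwards [he.own_bound] with ω hω
    have h1 := abs_le.mp (hω c)
    simp only [hclip]
    rw [min_eq_right (by linarith), max_eq_right (by linarith)]
  set T : (V → ℝ) → ℝ := fun a => clip (a c) with hTdef
  have hT : Nice T := hcn.comp (measurable_pi_apply c)
  have hcc : c ∈ br G c p := by
    show G.dist c c < G.dist c p
    rw [dist_eq_one_iff_adj.mpr hp]; simp
  have hcg : c ∉ br G g c := by
    show ¬ (G.dist c g < G.dist c c)
    simp
  have hsq : ∫ ω, (ω.2 c) ^ 2 ∂P = ∫ ω, T ω.2 ^ 2 ∂P := by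
    apply integral_congr_ae
    filter_upwards [hceq] with ω hω
    show (ω.2 c) ^ 2 = clip (ω.2 c) ^ 2
    rw [hω]
  have hTs : ∫ ω, T ω.2 * spinVal (ω.1 c) ∂P = ∫ ω, T ω.2 ^ 2 ∂P := by
    show ∫ ω, clip (ω.2 c) * spinVal (ω.1 c) ∂P = _
    rw [he.tower_own c clip hcn]
    apply integral_congr_ae
    filter_upwards [hceq] with ω hω
    have hω' : clip (ω.2 c) = ω.2 c := hω
    show clip (ω.2 c) * ω.2 c = clip (ω.2 c) ^ 2
    rw [hω']
    ring
  -- tower
  have e1 : ∫ ω, (F ω.2 * T ω.2) * spinVal (ω.1 c) ∂P = ∫ ω, (F ω.2 * T ω.2) * m c p ω.2 ∂P := by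
    apply he.tower c p hp (fun a => F a * T a) (hF.mul hT)
    intro a a' haa
    show F a * T a = F a' * T a'
    have h1 : T a = T a' := by
      show clip (a c) = clip (a' c)
      rw [haa c hcc]
    rw [hFd a a' fun w hw => haa w (br_subset hG hp hg hgp hw), h1]
  have hmean : ∫ ω, T ω.2 ∂P = 0 := by
    apply integral_odd he (nice_obs hT).measurable
    intro ω
    exact hcodd (ω.2 c)
  have hFindep : ∀ (a a' : V → ℝ), (∀ w, w ≠ c → a w = a' w) → F a = F a' := by
    intro a a' haa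
    apply hFd
    intro w hw
    apply haa
    rintro rfl
    exact hcg hw
  have e2 : ∫ ω, T ω.2 * (F ω.2 * spinVal (ω.1 c)) ∂P
      = (∫ ω, F ω.2 ∂P) * (∫ ω, T ω.2 ^ 2 ∂P) := by
    have h := he.own c clip (fun ω => F ω.2 * spinVal (ω.1 c)) hcn
      ((nice_obs hF).mul (nice_spin' c)) (by
        intro σ a a' haa
        show F a * spinVal (σ c) = F a' * spinVal (σ c)
        rw [hFindep a a' haa])
    have h1 : ∫ ω, clip (ω.2 c) ∂P = 0 := hmean
    have h2 : ∫ ω, clip (ω.2 c) * spinVal (ω.1 c) ∂P = ∫ ω, T ω.2 ^ 2 ∂P := hTs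
    have h3 : ∫ ω, F ω.2 * spinVal (ω.1 c) * spinVal (ω.1 c) ∂P = ∫ ω, F ω.2 ∂P := by
      apply integral_congr_ae
      filter_upwards with ω
      rw [mul_assoc, spinVal_mul_self, mul_one]
    have h4 : ∫ ω, T ω.2 * (F ω.2 * spinVal (ω.1 c)) ∂P
        = ∫ ω, clip (ω.2 c) * (F ω.2 * spinVal (ω.1 c)) ∂P := rfl
    rw [h4, h, h1, h2, h3]
    ring
  have e3 : ∫ ω, T ω.2 ^ 2 * F ω.2 ∂P = (∫ ω, T ω.2 ^ 2 ∂P) * (∫ ω, F ω.2 ∂P) := by
    apply indep_own he c (F := fun x => clip x ^ 2) (H := fun ω => F ω.2) (hcn.pow 2) (nice_obs hF)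
    · intro x
      show clip (-x) ^ 2 = clip x ^ 2
      rw [hcodd, neg_sq]
    · intro σ a a' haa
      exact hFindep a a' haa
  -- expand the square
  have hn1 : Nice (fun ω : Cfg V => F ω.2 * (m c p ω.2) ^ 2) :=
    (nice_obs hF).mul ((nice_obs hmc).pow 2)
  have hn2 : Nice (fun ω : Cfg V => 2 * ((F ω.2 * T ω.2) * m c p ω.2)) :=
    (Nice.const 2).mul (((nice_obs hF).mul (nice_obs hT)).mul (nice_obs hmc))
  have hn3 : Nice (fun ω : Cfg V => T ω.2 ^ 2 * F ω.2) :=
    ((nice_obs hT).pow 2).mul (nice_obs hF)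
  have e4 : 0 ≤ ∫ ω, F ω.2 * (m c p ω.2 - T ω.2) ^ 2 ∂P :=
    integral_nonneg fun ω => mul_nonneg (hF0 _) (sq_nonneg _)
  have e5 : ∫ ω, F ω.2 * (m c p ω.2 - T ω.2) ^ 2 ∂P
      = ∫ ω, F ω.2 * (m c p ω.2) ^ 2 ∂P - 2 * ∫ ω, (F ω.2 * T ω.2) * m c p ω.2 ∂P
        + ∫ ω, T ω.2 ^ 2 * F ω.2 ∂P := by
    have e : ∀ ω : Cfg V, F ω.2 * (m c p ω.2 - T ω.2) ^ 2
        = (F ω.2 * (m c p ω.2) ^ 2 - 2 * ((F ω.2 * T ω.2) * m c p ω.2))
          + T ω.2 ^ 2 * F ω.2 := fun ω => by ring
    simp only [e]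
    rw [(hn1.sub hn2).integral_add' hn3, hn1.integral_sub' hn2, integral_const_mul]
  have e6 : ∫ ω, (F ω.2 * T ω.2) * spinVal (ω.1 c) ∂P
      = ∫ ω, T ω.2 * (F ω.2 * spinVal (ω.1 c)) ∂P := by
    apply integral_congr_ae
    filter_upwards with ω
    ring
  rw [e5, ← e1, e6, e2, e3] at e4
  rw [hsq]
  linarith

omit [LocallyFinite G] [DecidableEq V] [Countable V] in
/-- path products lie in `[0,1]` if the cavity magnetizations are bounded by one -/
lemma Wt_mem {θ : ℝ} (hθ0 : 0 ≤ θ) (hθ1 : θ < 1) (hG : G.Connected) {x : V → V → ℝ}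
    (hx : ∀ c p, |x c p| ≤ 1) (v w : V) : 0 ≤ Wt G θ x v w ∧ Wt G θ x v w ≤ 1 := by
  apply bcast_induction (o := v) hG (P := fun w => 0 ≤ Wt G θ x v w ∧ Wt G θ x v w ≤ 1)
  · simp
  · intro w hw ih
    rw [Wt_tail hG hw]
    have h1 := one_sub_phi hθ0 hθ1 (hx w (par G v w))
    have hx2 : (x w (par G v w)) ^ 2 ≤ 1 := by
      rw [← sq_abs]
      have := abs_nonneg (x w (par G v w))
      have := hx w (par G v w)
      nlinarith
    have ht : 0 ≤ 1 - θ ^ 2 := by nlinarith
    have h2 : 0 ≤ phi θ (x w (par G v w)) := by linarith [h1.2]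
    have h3 : phi θ (x w (par G v w)) ≤ 1 := by
      have := mul_nonneg ht (sq_nonneg (x w (par G v w)))
      linarith [h1.1]
    exact ⟨mul_nonneg ih.1 h2, mul_le_one₀ ih.2 h2 h3⟩

/-- the path product from `v` through its neighbour `g` depends on the observations in the branch
of `g` only -/
lemma Wt_dep_path {θ α : ℝ} {P : Measure (Cfg V)} {m : V → V → (V → ℝ) → ℝ}
    (he : CavEnv0 G θ α P m) (hG : G.IsTree) (n : ℕ) :
    ∀ {v g w : V}, G.dist g w = n → G.Adj v g → w ∈ br G g v →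
      ObsDepOn (br G g v) (fun a => Wt G θ (fun c p => m c p a) v w) := by
  induction n with
  | zero =>
    intro v g w hd hvg hw a a' haa
    have hgw : g = w := by
      have := hG.connected.dist_eq_zero_iff.mp hd
      exact this
    subst hgw
    show Wt G θ (fun c p => m c p a) v g = Wt G θ (fun c p => m c p a') v g
    rw [(Wt_head hG hvg hw).1, (Wt_head hG hvg hw).1, Wt_self, Wt_self, he.dep g v a a' haa]
  | succ n ih =>
    intro v g w hd hvg hw a a' haa
    show Wt G θ (fun c p => m c p a) v w = Wt G θ (fun c p => m c p a') v w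
    have hgw : g ≠ w := by
      rintro rfl
      simp at hd
    -- the next vertex
    have hp := par_spec (o := w) hG.connected hgw
    set g' := par G w g with hg'
    have c1 : G.dist w g = G.dist g w := G.dist_comm
    have c2 : G.dist w g' = G.dist g' w := G.dist_comm
    have hw' : w ∈ br G g' g := by
      show G.dist w g' < G.dist w g
      omega
    have hne : g' ≠ v := by
      intro h
      have h1 : G.dist w g < G.dist w v := hw
      rw [← h] at h1
      omega
    have hd' : G.dist g' w = n := by omega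
    have hih := ih hd' hp.1 hw' a a' (fun u hu => haa u (br_subset hG hvg.symm hp.1 hne hu))
    have hih' : Wt G θ (fun c p => m c p a) g w = Wt G θ (fun c p => m c p a') g w := hih
    rw [(Wt_head hG hvg hw).1, (Wt_head hG hvg hw).1, he.dep g v a a' haa, hih']

/-- exponential decay.  Induction on the distance with `Wt_head`: for `g` the neighbour of `v`
towards `w`, `Wt v w = phi (m g v) Wt g w`, `Wt g w` is a functional of the observations in the branch
of the next vertex, `phi² ≤ phi ≤ 1 - (1 - θ²) m²` and `own_screen`. -/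
theorem path_decay {θ α : ℝ} {P : Measure (Cfg V)} {m : V → V → (V → ℝ) → ℝ}
    (he : CavEnv0 G θ α P m) (hθ0 : 0 ≤ θ) (hθ1 : θ < 1) (hα0 : 0 ≤ α) (hα1 : α < 1)
    (hG : G.IsTree) {s : ℝ} (hs0 : 0 ≤ s) (hs1 : s ≤ 1) (v w : V)
    (hs : ∀ x, G.dist v w = G.dist v x + G.dist x w → x ≠ v → x ≠ w → s ≤ ∫ ω, (ω.2 x) ^ 2 ∂P) :
    ∫ ω, (Wt G θ (fun c p => m c p ω.2) v w) ^ 2 ∂P
      ≤ (1 - (1 - θ ^ 2) * s) ^ (G.dist v w - 1) := by
  have hprob := he.prob
  have hconn := hG.connected
  have hW : ∀ (v w : V) (a : V → ℝ), 0 ≤ Wt G θ (fun c p => m c p a) v w ∧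
      Wt G θ (fun c p => m c p a) v w ≤ 1 := fun v w a =>
    Wt_mem hθ0 hθ1 hconn (fun c p => he.bound c p a) v w
  have hWm : ∀ v w : V, Nice (fun a : V → ℝ => Wt G θ (fun c p => m c p a) v w) := by
    intro v w
    refine ⟨?_, 1, fun a => ?_⟩
    · apply (measurable_Wt (G := G) (θ := θ) v w).comp
      rw [measurable_pi_iff]
      intro c
      rw [measurable_pi_iff]
      intro p
      exact he.meas c p
    · rw [abs_of_nonneg (hW v w a).1]
      exact (hW v w a).2
  have ht0 : 0 < 1 - θ ^ 2 := by nlinarith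
  have hfac : 0 ≤ 1 - (1 - θ ^ 2) * s := by nlinarith [sq_nonneg θ]
  -- crude bound
  have hcrude : ∀ v w : V, ∫ ω, (Wt G θ (fun c p => m c p ω.2) v w) ^ 2 ∂P ≤ 1 := by
    intro v w
    have h := Nice.integral_mono' ((nice_obs (hWm v w)).pow 2) (Nice.const (1 : ℝ)) P
      (fun ω => pow_le_one₀ (hW v w ω.2).1 (hW v w ω.2).2)
    simpa using h
  obtain ⟨n, hn⟩ : ∃ n, G.dist v w = n := ⟨_, rfl⟩
  induction n generalizing v with
  | zero =>
    rw [hn]
    simpa using hcrude v w
  | succ n ih =>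
    rw [hn]
    have hwv : v ≠ w := by
      rintro rfl
      simp at hn
    have hp := par_spec (o := w) hconn hwv
    set g := par G w v with hg
    have c1 : G.dist w v = G.dist v w := G.dist_comm
    have c2 : G.dist w g = G.dist g w := G.dist_comm
    have hgw : G.dist g w = n := by omega
    have hwbr : w ∈ br G g v := by
      show G.dist w g < G.dist w v
      omega
    rcases Nat.eq_zero_or_pos n with h0 | hpos
    · subst h0
      simpa using hcrude v w
    · have hgw' : g ≠ w := by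
        intro h
        rw [h] at hgw
        simp at hgw
        omega
      -- induction hypothesis at g
      have hcond : ∀ x, G.dist g w = G.dist g x + G.dist x w → x ≠ g → x ≠ w →
          s ≤ ∫ ω, (ω.2 x) ^ 2 ∂P := by
        intro x hx hxg hxw
        have t1 : G.dist v x ≤ G.dist v g + G.dist g x := hconn.dist_triangle
        have t2 : G.dist v w ≤ G.dist v x + G.dist x w := hconn.dist_triangle
        have t3 : G.dist v g = 1 := dist_eq_one_iff_adj.mpr hp.1
        apply hs x (by omega) _ hxw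
        rintro rfl
        simp at t2
        have t4 : G.dist g x = 1 := by rw [G.dist_comm]; exact t3
        simp at t1
        omega
      have hIH := ih g hcond hgw
      rw [hgw] at hIH
      -- s ≤ E a_g^2
      have hsg : s ≤ ∫ ω, (ω.2 g) ^ 2 ∂P := by
        apply hs g _ (G.ne_of_adj hp.1).symm hgw'
        have t3 : G.dist v g = 1 := dist_eq_one_iff_adj.mpr hp.1
        omega
      -- the next vertex after g
      have hp2 := par_spec (o := w) hconn hgw'
      set g' := par G w g with hg'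
      have c3 : G.dist w g' = G.dist g' w := G.dist_comm
      have hw' : w ∈ br G g' g := by
        show G.dist w g' < G.dist w g
        omega
      have hne : g' ≠ v := by
        intro h
        have h1 : G.dist w g < G.dist w v := hwbr
        rw [← h] at h1
        omega
      set F : (V → ℝ) → ℝ := fun a => (Wt G θ (fun c p => m c p a) g w) ^ 2 with hFdef
      have hFn : Nice F := (hWm g w).pow 2
      have hFd : ObsDepOn (br G g' g) F := by
        intro a a' haa
        have h1 : Wt G θ (fun c p => m c p a) g w = Wt G θ (fun c p => m c p a') g w :=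
          Wt_dep_path he hG (G.dist g' w) rfl hp2.1 hw' a a' haa
        show (Wt G θ (fun c p => m c p a) g w) ^ 2 = (Wt G θ (fun c p => m c p a') g w) ^ 2
        rw [h1]
      have hscr := own_screen he hα0 hα1 hG hp.1.symm hp2.1 hne hFn (fun a => sq_nonneg _) hFd
      -- pointwise bound
      have hpt : ∀ ω : Cfg V, (Wt G θ (fun c p => m c p ω.2) v w) ^ 2
          ≤ F ω.2 - (1 - θ ^ 2) * (F ω.2 * (m g v ω.2) ^ 2) := by
        intro ω
        rw [(Wt_head hG hp.1 hwbr).1]
        have h1 := one_sub_phi hθ0 hθ1 (he.bound g v ω.2)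
        have hx2 : (m g v ω.2) ^ 2 ≤ 1 := by
          rw [← sq_abs]
          have := abs_nonneg (m g v ω.2)
          have := he.bound g v ω.2
          nlinarith
        have h2 : 0 ≤ phi θ (m g v ω.2) := by linarith [h1.2]
        have h3 : phi θ (m g v ω.2) ≤ 1 := by
          have := mul_nonneg ht0.le (sq_nonneg (m g v ω.2))
          linarith [h1.1]
        have h4 : phi θ (m g v ω.2) ^ 2 ≤ 1 - (1 - θ ^ 2) * (m g v ω.2) ^ 2 := by
          nlinarith [h1.1]
        have hF0 : 0 ≤ F ω.2 := sq_nonneg _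
        calc (phi θ (m g v ω.2) * Wt G θ (fun c p => m c p ω.2) g w) ^ 2
            = phi θ (m g v ω.2) ^ 2 * F ω.2 := by rw [mul_pow]
          _ ≤ (1 - (1 - θ ^ 2) * (m g v ω.2) ^ 2) * F ω.2 :=
              mul_le_mul_of_nonneg_right h4 hF0
          _ = F ω.2 - (1 - θ ^ 2) * (F ω.2 * (m g v ω.2) ^ 2) := by ring
      have hNF : Nice (fun ω : Cfg V => F ω.2) := nice_obs hFn
      have hNm : Nice (fun ω : Cfg V => (1 - θ ^ 2) * (F ω.2 * (m g v ω.2) ^ 2)) :=
        (Nice.const _).mul (hNF.mul ((nice_obs (nice_cav he g v)).pow 2))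
      have h5 := Nice.integral_mono' ((nice_obs (hWm v w)).pow 2) (hNF.sub hNm) P hpt
      rw [hNF.integral_sub' hNm, integral_const_mul] at h5
      have hF0' : 0 ≤ ∫ ω, F ω.2 ∂P := integral_nonneg fun ω => sq_nonneg _
      have h6 : s * ∫ ω, F ω.2 ∂P ≤ ∫ ω, F ω.2 * (m g v ω.2) ^ 2 ∂P :=
        (mul_le_mul_of_nonneg_right hsg hF0').trans hscr
      have h7 : ∫ ω, (Wt G θ (fun c p => m c p ω.2) v w) ^ 2 ∂P
          ≤ (1 - (1 - θ ^ 2) * s) * ∫ ω, F ω.2 ∂P := by
        have := mul_le_mul_of_nonneg_left h6 ht0.le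
        calc ∫ ω, (Wt G θ (fun c p => m c p ω.2) v w) ^ 2 ∂P
            ≤ ∫ ω, F ω.2 ∂P - (1 - θ ^ 2) * ∫ ω, F ω.2 * (m g v ω.2) ^ 2 ∂P := h5
          _ ≤ _ := by linarith
      have h8 : (n + 1 - 1 : ℕ) = (n - 1) + 1 := by omega
      rw [h8, pow_succ, mul_comm]
      exact h7.trans (mul_le_mul_of_nonneg_left hIH hfac)

end Vale.Agent.P161c
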