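import Vale.Agent.P161c.Flow

/-!
The own magnetizations at time `(k, t)` under the annealed law are those of the environment
`envKT`; transfer of all environment bounds to both copies of the relative product.
-/

set_option linter.unusedSectionVars false
set_option linter.unusedVariables false

namespace Vale.Agent.P161c

open MeasureTheory SimpleGraph Vale.Agent.H13.P161 Filter Topology

/-! ### Rearrangement of the product space -/

section Unz

variable {I : Type*}

/-- split a family indexed by `I × Bool` -/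
def unzB (x : I × Bool → unitInterval) : (I → unitInterval) × (I → unitInterval) :=
  (fun l => x (l, false), fun l => x (l, true))

lemma measurable_unzB : Measurable (unzB (I := I)) := by
  apply Measurable.prodMk
  · rw [measurable_pi_iff]; intro i; exact measurable_pi_apply _
  · rw [measurable_pi_iff]; intro i; exact measurable_pi_apply _

lemma map_unzB : (iidLabels (I × Bool)).map unzB = (iidLabels I).prod (iidLabels I) := by
  classical
  set Q := iidLabels (I × Bool) with hQ
  set A : Set (I × Bool) := {p | p.2 = true} with hA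
  have hmix := measurePreserving_mix
    (fun _ : I × Bool => (volume : Measure unitInterval)) A
  set f1 : (I × Bool → unitInterval) → (I → unitInterval) := fun w l => w (l, false) with hf1
  set f2 : (I × Bool → unitInterval) → (I → unitInterval) := fun w l => w (l, true) with hf2
  have mf1 : Measurable f1 := by
    rw [measurable_pi_iff]; intro i; exact measurable_pi_apply _
  have mf2 : Measurable f2 := by
    rw [measurable_pi_iff]; intro i; exact measurable_pi_apply _
  have inj1 : Function.Injective (fun i : I => ((i, false) : I × Bool)) := by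
    intro a b h
    simpa using h
  have inj2 : Function.Injective (fun i : I => ((i, true) : I × Bool)) := by
    intro a b h
    simpa using h
  have e1 : Q.map f1 = iidLabels I :=
    Measure.map_infinitePi_infinitePi_of_inj
      (P := fun _ : I × Bool => (volume : Measure unitInterval)) inj1
  have e2 : Q.map f2 = iidLabels I :=
    Measure.map_infinitePi_infinitePi_of_inj
      (P := fun _ : I × Bool => (volume : Measure unitInterval)) inj2
  have e3 : (Q.prod Q).map (fun p => mix A p.1 p.2) = Q := hmix.map_eq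
  calc Q.map unzB = ((Q.prod Q).map (fun p => mix A p.1 p.2)).map unzB := by rw [e3]
    _ = (Q.prod Q).map (unzB ∘ (fun p => mix A p.1 p.2)) :=
        Measure.map_map measurable_unzB hmix.measurable
    _ = (Q.prod Q).map (Prod.map f1 f2) := by
        congr 1
    _ = (Q.map f1).prod (Q.map f2) := (Measure.map_prod_map Q Q mf1 mf2).symm
    _ = _ := by rw [e1, e2]

end Unz

section Grp

variable {V : Type*}

/-- group labels and driving noise by vertices -/
def grp (p : (Site V → unitInterval) × (Site V → unitInterval)) :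
    V → (ℕ → unitInterval) × (ℕ → unitInterval) :=
  fun w => (fun l => p.1 (l, w), fun l => p.2 (l, w))

lemma measurable_grp : Measurable (grp (V := V)) := by
  rw [measurable_pi_iff]
  intro w
  apply Measurable.prodMk
  · rw [measurable_pi_iff]; intro i
    exact (measurable_pi_apply _).comp measurable_fst
  · rw [measurable_pi_iff]; intro i
    exact (measurable_pi_apply _).comp measurable_snd

lemma map_grp : ((iidLabels (Site V)).prod (iidLabels (Site V))).map grp
    = Measure.infinitePi (fun _ : V => (iidLabels ℕ).prod (iidLabels ℕ)) := by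
  -- all variables indexed by `V × (ℕ × Bool)`
  have mr : Measurable (fun (x : V × (ℕ × Bool) → unitInterval) (p : Site V × Bool) =>
      x (p.1.2, (p.1.1, p.2))) := by
    rw [measurable_pi_iff]; intro p; exact measurable_pi_apply _
  have h1 : (iidLabels (V × (ℕ × Bool))).map (fun x (p : Site V × Bool) =>
      x (p.1.2, (p.1.1, p.2))) = iidLabels (Site V × Bool) :=
    Measure.map_infinitePi_infinitePi_of_inj
      (P := fun _ : V × (ℕ × Bool) => (volume : Measure unitInterval))
      (f := fun p : Site V × Bool => ((p.1.2, (p.1.1, p.2)) : V × (ℕ × Bool))) (by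
        rintro ⟨⟨a, b⟩, c⟩ ⟨⟨a', b'⟩, c'⟩ h
        simp only [Prod.mk.injEq] at h
        obtain ⟨h1, h2, h3⟩ := h
        rw [h1, h2, h3])
  have h2 := Measure.infinitePi_map_curry (ι := V) (κ := ℕ × Bool) (X := unitInterval)
    (fun _ _ => (volume : Measure unitInterval))
  have h3 := Measure.infinitePi_map_pi (fun _ : V => iidLabels (ℕ × Bool))
    (f := fun _ => unzB) (fun _ => measurable_unzB)
  rw [← map_unzB, ← h1, Measure.map_map measurable_unzB mr,
    Measure.map_map measurable_grp (measurable_unzB.comp mr)]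
  have h4 : (grp ∘ (unzB ∘ (fun (x : V × (ℕ × Bool) → unitInterval) (p : Site V × Bool) =>
      x (p.1.2, (p.1.1, p.2)))) : (V × (ℕ × Bool) → unitInterval) → _)
      = (fun (x : V → (ℕ × Bool → unitInterval)) w => unzB (x w)) ∘
        (MeasurableEquiv.curry V (ℕ × Bool) unitInterval) := rfl
  have m3 : Measurable (fun (x : V → (ℕ × Bool → unitInterval)) w => unzB (x w)) := by
    rw [measurable_pi_iff]; intro w
    exact measurable_unzB.comp (measurable_pi_apply w)
  rw [h4, ← Measure.map_map m3 (MeasurableEquiv.curry V (ℕ × Bool) unitInterval).measurable]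
  have h5 : (iidLabels (V × (ℕ × Bool))).map (MeasurableEquiv.curry V (ℕ × Bool) unitInterval)
      = Measure.infinitePi (fun _ : V => iidLabels (ℕ × Bool)) := h2
  rw [h5, h3, map_unzB]

end Grp

variable {V : Type*} [Countable V] [DecidableEq V] {G : SimpleGraph V} {μ : Measure (V → ℤˣ)}
  [IsProbabilityMeasure μ] {T : ℕ → Finset V}

lemma map_AM_grp : (AM μ).map (fun q => (q.2.1, grp (q.1, q.2.2)))
    = μ.prod (Measure.infinitePi (fun _ : V => (iidLabels ℕ).prod (iidLabels ℕ))) := by
  set L := iidLabels (Site V) with hL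
  have mre : Measurable (fun q : (Site V → unitInterval) × ((V → ℤˣ) × (Site V → unitInterval)) =>
      (q.2.1, (q.1, q.2.2))) := by fun_prop
  have h1 : (AM μ).map (fun q => (q.2.1, (q.1, q.2.2))) = μ.prod (L.prod L) := by
    have := Measure.isProbabilityMeasure_map (μ := AM μ) mre.aemeasurable
    apply Measure.ext_prod₃
    intro s t u hs ht hu
    rw [Measure.map_apply mre (hs.prod (ht.prod hu)), Measure.prod_prod, Measure.prod_prod]
    have e : (fun q : (Site V → unitInterval) × ((V → ℤˣ) × (Site V → unitInterval)) =>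
        (q.2.1, (q.1, q.2.2))) ⁻¹' (s ×ˢ t ×ˢ u) = t ×ˢ (s ×ˢ u) := by
      ext q
      simp only [Set.mem_preimage, Set.mem_prod]
      tauto
    rw [e]
    unfold AM BM
    rw [Measure.prod_prod, Measure.prod_prod]
    ring
  have h2 : (AM μ).map (fun q => (q.2.1, grp (q.1, q.2.2)))
      = ((AM μ).map (fun q => (q.2.1, (q.1, q.2.2)))).map (Prod.map id grp) := by
    rw [Measure.map_map (measurable_id.prodMap measurable_grp) mre]
    rfl
  rw [h2, h1, ← Measure.map_prod_map μ (L.prod L) measurable_id measurable_grp, Measure.map_id,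
    map_grp]

lemma ow_zero (n : ℕ) : ow n (fun _ => 0) = 0 := by
  unfold ow
  simp

lemma own_vertex (k : ℕ) (t : ℝ) (U : Site V → unitInterval) (σ : V → ℤˣ)
    (ζ : Site V → unitInterval) (w : V) :
    anb k t (anY k t (σ w) (fun l => U (l, w), fun l => ζ (l, w)))
      = aT U k t (obsR (cs U) σ ζ) w := by
  unfold anb anY chb chY aT aF
  congr 1
  funext l
  by_cases hl : l ∈ cutN (fun l => U (l, w)) k t
  · have hl' : (l, w) ∈ cut U k t := hl
    simp only [if_pos hl, if_pos hl']
    rfl
  · have hl' : (l, w) ∉ cut U k t := hl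
    simp only [if_neg hl, if_neg hl']

lemma own_zero (s : ℤˣ) (x : (ℕ → unitInterval) × (ℕ → unitInterval)) :
    anb 0 0 (anY 0 0 s x) = 0 := by
  unfold anb anY chb chY
  have h : ∀ l, l ∉ cutN x.1 0 0 := by
    intro l hl
    simp only [cutN, Set.mem_ofPred_eq] at hl
    rcases hl with h | ⟨_, h⟩
    · omega
    · exact absurd h (not_lt.mpr (x.1 l).2.1)
  simp only [if_neg (h _)]
  exact ow_zero _

/-- Law of spins and own magnetizations, vertex-dependent times.  Rearrangement: under `AM μ` the
families `(U (·, w), ζ (·, w))` over the vertices `w` are i.i.d. with law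
`(iidLabels ℕ).prod (iidLabels ℕ)` (`map_curry_labels`, `infinitePi_map_curry`, or
`map_splitCfg`-style arguments), and
`aT U k t (obsR (cs U) σ ζ) w = anb k t (anY k t (σ w) (U (·, w), ζ (·, w)))`; `anb 0 0 = 0`. -/
theorem law_aV (A : Set V) (τ : V → ℝ) (k : ℕ) :
    (AM μ).map (fun q => ((q.2.1, aV A τ k q.1 (obsR (cs q.1) q.2.1 q.2.2)) : Cfg V))
      = envV μ A τ k := by
  classical
  set Y : V → ℤˣ → (ℕ → unitInterval) × (ℕ → unitInterval) → (ℕ → unitInterval) × (ℕ → ℝ) :=
    fun w : V => if w ∈ A then anY k (τ w) else anY 0 0 with hY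
  set b : V → (ℕ → unitInterval) × (ℕ → ℝ) → ℝ :=
    fun w : V => if w ∈ A then anb k (τ w) else anb 0 0 with hb
  have mY : ∀ w s, Measurable (Y w s) := by
    intro w s
    rw [hY]
    by_cases hw : w ∈ A
    · simp only [if_pos hw]; exact measurable_anY k (τ w) s
    · simp only [if_neg hw]; exact measurable_anY 0 0 s
  have mb : ∀ w, Measurable (b w) := by
    intro w
    rw [hb]
    by_cases hw : w ∈ A
    · simp only [if_pos hw]; exact measurable_anb k (τ w)
    · simp only [if_neg hw]; exact measurable_anb 0 0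
  have m1 : Measurable (fun x : (V → ℤˣ) × (V → (ℕ → unitInterval) × (ℕ → unitInterval)) =>
      ((x.1, fun w => Y w (x.1 w) (x.2 w)) :
        (V → ℤˣ) × (V → (ℕ → unitInterval) × (ℕ → ℝ)))) := measurable_obsmap mY
  have m2 : Measurable (fun ω : (V → ℤˣ) × (V → (ℕ → unitInterval) × (ℕ → ℝ)) =>
      ((ω.1, fun w => b w (ω.2 w)) : Cfg V)) := by
    refine measurable_fst.prodMk ?_
    rw [measurable_pi_iff]; intro w
    exact (mb w).comp ((measurable_pi_apply w).comp measurable_snd)
  have m0 : Measurable (fun q : (Site V → unitInterval) × ((V → ℤˣ) × (Site V → unitInterval)) =>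
      (q.2.1, grp (q.1, q.2.2))) := by
    refine (measurable_fst.comp measurable_snd).prodMk (measurable_grp.comp ?_)
    exact measurable_fst.prodMk (measurable_snd.comp measurable_snd)
  have e : (fun q : (Site V → unitInterval) × ((V → ℤˣ) × (Site V → unitInterval)) =>
      ((q.2.1, aV A τ k q.1 (obsR (cs q.1) q.2.1 q.2.2)) : Cfg V))
      = (fun ω : (V → ℤˣ) × (V → (ℕ → unitInterval) × (ℕ → ℝ)) =>
          ((ω.1, fun w => b w (ω.2 w)) : Cfg V)) ∘
        ((fun x : (V → ℤˣ) × (V → (ℕ → unitInterval) × (ℕ → unitInterval)) =>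
          ((x.1, fun w => Y w (x.1 w) (x.2 w)) :
            (V → ℤˣ) × (V → (ℕ → unitInterval) × (ℕ → ℝ)))) ∘
          (fun q => (q.2.1, grp (q.1, q.2.2)))) := by
    funext q
    refine Prod.ext rfl ?_
    funext w
    simp only [Function.comp, aV, hY, hb, grp]
    by_cases hw : w ∈ A
    · simp only [if_pos hw]
      exact (own_vertex k (τ w) q.1 q.2.1 q.2.2 w).symm
    · simp only [if_neg hw]
      exact (own_zero _ _).symm
  have h : envV μ A τ k = ((μ.prod (Measure.infinitePi
      (fun _ : V => (iidLabels ℕ).prod (iidLabels ℕ)))).map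
      (fun x : (V → ℤˣ) × (V → (ℕ → unitInterval) × (ℕ → unitInterval)) =>
      ((x.1, fun w => Y w (x.1 w) (x.2 w)) :
        (V → ℤˣ) × (V → (ℕ → unitInterval) × (ℕ → ℝ))))).map
      (fun ω => ((ω.1, fun w => b w (ω.2 w)) : Cfg V)) := rfl
  rw [h, e, ← Measure.map_map m2 (m1.comp m0), ← Measure.map_map m1 m0, map_AM_grp]


lemma measurable_aTQ (k : ℕ) (t : ℝ) :
    Measurable (fun q : Om V × (Site V → ℝ) => aT q.1.1 k t q.2) := by
  have h := measurable_aT (V := V) k
  have h2 : Measurable (fun q : Om V × (Site V → ℝ) => (q.1.1, (t, q.2))) := by fun_prop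
  have h3 := h.comp h2
  simpa only [Function.comp_def] using h3

lemma aV_univ (k : ℕ) (t : ℝ) (U : Site V → unitInterval) (y : Site V → ℝ) :
    aV Set.univ (fun _ => t) k U y = aT U k t y := by
  funext w
  simp only [aV]
  rw [if_pos (Set.mem_univ w)]

theorem law_aT (k : ℕ) (t : ℝ) :
    (QM μ T).map (fun q => aT q.1.1 k t q.2) = (envKT μ k t).map Prod.snd := by
  classical
  have hV : envV μ Set.univ (fun _ => t) k = envKT μ k t := by
    unfold envV envKT
    simp only [Set.mem_univ, if_true]
  rw [← hV, ← law_aV Set.univ (fun _ => t) k]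
  unfold QM
  rw [Measure.map_map (measurable_aTQ k t) measurable_toQ, Measure.map_map measurable_snd]
  · congr 1
    funext q
    simp only [Function.comp, toQ, aV_univ]
  · refine (measurable_fst.comp measurable_snd).prodMk ?_
    have h : Measurable (fun q : (Site V → unitInterval) × ((V → ℤˣ) × (Site V → unitInterval)) =>
        aT q.1 k t (obsR (cs q.1) q.2.1 q.2.2)) := by
      have h1 := measurable_aT (V := V) k
      have h2 : Measurable (fun q : (Site V → unitInterval) ×
          ((V → ℤˣ) × (Site V → unitInterval)) =>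
          (q.1, (t, obsR (cs q.1) q.2.1 q.2.2))) :=
        measurable_fst.prodMk (measurable_const.prodMk measurable_yA)
      have h3 := h1.comp h2
      simpa only [Function.comp_def] using h3
    simp only [aV_univ]
    exact h

/-- the same in the relative product (`relP_map_left`) -/
theorem law_aT_left (k : ℕ) (t : ℝ) :
    (relP (QM μ T)).map (fun q => aT q.1.1 k t q.2.1) = (envKT μ k t).map Prod.snd := by
  have m : Measurable (fun q : Om V × ((Site V → ℝ) × (Site V → ℝ)) => (q.1, q.2.1)) :=
    measurable_fst.prodMk (measurable_fst.comp measurable_snd)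
  rw [← law_aT (μ := μ) (T := T) k t]
  conv_rhs => rw [← relP_map_left (Q := QM μ T)]
  rw [Measure.map_map (measurable_aTQ k t) m]
  rfl

theorem law_aT_right (k : ℕ) (t : ℝ) :
    (relP (QM μ T)).map (fun q => aT q.1.1 k t q.2.2) = (envKT μ k t).map Prod.snd := by
  have m : Measurable (fun q : Om V × ((Site V → ℝ) × (Site V → ℝ)) => (q.1, q.2.2)) :=
    measurable_fst.prodMk (measurable_snd.comp measurable_snd)
  rw [← law_aT (μ := μ) (T := T) k t]
  conv_rhs => rw [← relP_map_right (Q := QM μ T)]
  rw [Measure.map_map (measurable_aTQ k t) m]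
  rfl

/-! ### Transfer of integrals -/

section TransferInt

variable {Ω Ω' A : Type*} [MeasurableSpace Ω] [MeasurableSpace Ω'] [MeasurableSpace A]
  {P : Measure Ω} {P' : Measure Ω'} {f : Ω → A} {f' : Ω' → A}

omit [Countable V] [DecidableEq V] in
lemma lint_transfer (hf : Measurable f) (hf' : Measurable f') (h : P.map f = P'.map f')
    {Γ : A → ENNReal} (hΓ : Measurable Γ) : ∫⁻ ω, Γ (f ω) ∂P = ∫⁻ ω, Γ (f' ω) ∂P' := by
  rw [← lintegral_map hΓ hf, h, lintegral_map hΓ hf']

omit [Countable V] [DecidableEq V] in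
lemma setLint_transfer (hf : Measurable f) (hf' : Measurable f') (h : P.map f = P'.map f')
    {Γ : A → ENNReal} (hΓ : Measurable Γ) {S : Set A} (hS : MeasurableSet S) :
    ∫⁻ ω in {ω | f ω ∈ S}, Γ (f ω) ∂P = ∫⁻ ω in {ω | f' ω ∈ S}, Γ (f' ω) ∂P' := by
  have h1 := setLIntegral_map (μ := P) hS hΓ hf
  have h2 := setLIntegral_map (μ := P') hS hΓ hf'
  rw [h] at h1
  exact h1.symm.trans h2

omit [Countable V] [DecidableEq V] in
lemma ae_transfer (hf : Measurable f) (hf' : Measurable f') (h : P.map f = P'.map f')
    {S : Set A} (hS : MeasurableSet S) (h' : ∀ᵐ ω ∂P', f' ω ∈ S) : ∀ᵐ ω ∂P, f ω ∈ S := by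
  have h1 : ∀ᵐ a ∂(P'.map f'), a ∈ S := (ae_map_iff hf'.aemeasurable hS).mpr h'
  rw [← h] at h1
  exact ae_of_ae_map hf.aemeasurable h1

end TransferInt

/-- cavity field as a functional of the own magnetizations -/
noncomputable def cavK (G : SimpleGraph V) (μ : Measure (V → ℤˣ)) (T : ℕ → Finset V) (k : ℕ)
    (a : V → ℝ) (c p : V) : ℝ := cavI G μ (ak (k + 1)) T c p a

lemma measurable_cavK (k : ℕ) : Measurable (cavK G μ T k) := by
  rw [measurable_pi_iff]; intro c
  rw [measurable_pi_iff]; intro p
  exact measurable_cavI c p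

lemma measurableSet_isCavity (θ α : ℝ) :
    MeasurableSet {m : V → V → ℝ | IsCavity G θ α m} := by
  have e : {m : V → V → ℝ | IsCavity G θ α m}
      = (⋂ c, ⋂ p, ⋂ (_ : G.Adj c p), {m : V → V → ℝ | |m c p| ≤ α}) ∩
        (⋂ c, ⋂ p, ⋂ q, ⋂ (_ : G.Adj c p), ⋂ (_ : G.Adj c q),
          {m : V → V → ℝ | magE θ m c p = magE θ m c q}) := by
    ext m
    simp only [Set.mem_ofPred_eq, Set.mem_inter_iff, Set.mem_iInter]
    exact ⟨fun h => ⟨h.1, h.2⟩, fun h => ⟨h.1, h.2⟩⟩
  rw [e]
  have mc : ∀ c p : V, Measurable (fun m : V → V → ℝ => m c p) := fun c p =>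
    (measurable_pi_apply p).comp (measurable_pi_apply c)
  have mE : ∀ c p : V, Measurable (fun m : V → V → ℝ => magE θ m c p) := by
    intro c p
    unfold magE comb
    have h1 := mc c p
    have h2 := mc p c
    fun_prop
  refine .inter ?_ ?_
  · refine .iInter fun c => .iInter fun p => .iInter fun _ => ?_
    exact measurableSet_le (mc c p).abs measurable_const
  · refine .iInter fun c => .iInter fun p => .iInter fun q => .iInter fun _ => .iInter fun _ => ?_
    exact measurableSet_eq_fun (mE c p) (mE c q)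

variable [LocallyFinite G]

section General

variable {Ω : Type*} [MeasurableSpace Ω] {P : Measure Ω} {f : Ω → V → ℝ}

/-- transfer of `EnvB` along an equality of laws of the field of own magnetizations -/
lemma envB_transfer {θ : ℝ} {C : ℕ → ℝ} {y : ℝ} {r : ENNReal} {k : ℕ} {t : ℝ}
    (hf : Measurable f) (hlaw : P.map f = (envKT μ k t).map Prod.snd)
    (h : EnvB G θ C y r (envKT μ k t) (fun ω c p => cavI G μ (ak (k + 1)) T c p ω.2)) :
    EnvB G θ C y r P (fun ω c p => cavI G μ (ak (k + 1)) T c p (f ω)) where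
  mom j c p hcp := by
    have m : Measurable (fun a : V → ℝ =>
        ENNReal.ofReal (|cavI G μ (ak (k + 1)) T c p a| ^ (2 * j))) :=
      (((measurable_cavI c p).abs).pow_const _).ennreal_ofReal
    have e := lint_transfer hf measurable_snd hlaw m
    rw [e]
    exact h.mom j c p hcp
  momR j v := by
    have m : Measurable (fun a : V → ℝ => (Rf G θ (cavK G μ T k a) v) ^ j) :=
      ((measurable_Rf v).comp (measurable_cavK k)).pow_const _
    have e := lint_transfer hf measurable_snd hlaw m
    exact e.trans_le (h.momR j v)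
  mean c p hcp := by
    have m : Measurable (fun a : V → ℝ => Rb2 G θ (cavK G μ T k a) c p) :=
      (measurable_Rb2 c p).comp (measurable_cavK k)
    have e := lint_transfer hf measurable_snd hlaw m
    exact e.trans (h.mean c p hcp)
  uncorr c p c' p' hcp hcp' hd := by
    have m : Measurable (fun a : V → ℝ => Rb2 G θ (cavK G μ T k a) c p *
        Rb2 G θ (cavK G μ T k a) c' p') :=
      ((measurable_Rb2 c p).comp (measurable_cavK k)).mul
        ((measurable_Rb2 c' p').comp (measurable_cavK k))
    have e := lint_transfer hf measurable_snd hlaw m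
    exact e.trans (h.uncorr c p c' p' hcp hcp' hd)

lemma tailR_transfer {θ : ℝ} {b : ℕ} {K κ : ℝ} {k : ℕ} {t : ℝ}
    (hf : Measurable f) (hlaw : P.map f = (envKT μ k t).map Prod.snd)
    (h : TailR G θ b K κ (envKT μ k t) (fun ω c p => cavI G μ (ak (k + 1)) T c p ω.2)) :
    TailR G θ b K κ P (fun ω c p => cavI G μ (ak (k + 1)) T c p (f ω)) := by
  intro v L
  have m0 : Measurable (fun a : V → ℝ => Rf G θ (cavK G μ T k a) v) :=
    (measurable_Rf v).comp (measurable_cavK k)
  have hS : MeasurableSet {a : V → ℝ | ENNReal.ofReal (K * κ + K * L) <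
      Rf G θ (cavK G μ T k a) v} := measurableSet_lt measurable_const m0
  have e := setLint_transfer hf measurable_snd hlaw (m0.pow_const 2) hS
  exact e.trans_le (h v L)

lemma isCavity_transfer {θ α : ℝ} {k : ℕ} {t : ℝ}
    (hf : Measurable f) (hlaw : P.map f = (envKT μ k t).map Prod.snd)
    (h : ∀ᵐ ω ∂(envKT μ k t), IsCavity G θ α (fun c p => cavI G μ (ak (k + 1)) T c p ω.2)) :
    ∀ᵐ ω ∂P, IsCavity G θ α (fun c p => cavI G μ (ak (k + 1)) T c p (f ω)) := by
  have hS : MeasurableSet {a : V → ℝ | IsCavity G θ α (cavK G μ T k a)} :=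
    (measurable_cavK k) (measurableSet_isCavity θ α)
  exact ae_transfer hf measurable_snd hlaw hS h

end General

lemma measurable_aTleft (k : ℕ) (t : ℝ) :
    Measurable (fun q : Om V × ((Site V → ℝ) × (Site V → ℝ)) => aT q.1.1 k t q.2.1) := by
  have h : Measurable (fun q : Om V × ((Site V → ℝ) × (Site V → ℝ)) => (q.1, q.2.1)) :=
    measurable_fst.prodMk (measurable_fst.comp measurable_snd)
  have h3 := (measurable_aTQ k t).comp h
  simpa only [Function.comp_def] using h3

lemma measurable_aTright (k : ℕ) (t : ℝ) :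
    Measurable (fun q : Om V × ((Site V → ℝ) × (Site V → ℝ)) => aT q.1.1 k t q.2.2) := by
  have h : Measurable (fun q : Om V × ((Site V → ℝ) × (Site V → ℝ)) => (q.1, q.2.2)) :=
    measurable_fst.prodMk (measurable_snd.comp measurable_snd)
  have h3 := (measurable_aTQ k t).comp h
  simpa only [Function.comp_def] using h3

/-- transfer of `EnvB`: all clauses are integrals of measurable functionals of the field of own
magnetizations (`measurable_cavI`; measurability of `Rf`, `Rb2` as countable sums) -/
theorem envB_relP {θ : ℝ} {C : ℕ → ℝ} {y : ℝ} {r : ENNReal} {k : ℕ} {t : ℝ}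
    (h : EnvB G θ C y r (envKT μ k t) (fun ω c p => cavI G μ (ak (k + 1)) T c p ω.2)) :
    EnvB G θ C y r (relP (QM μ T)) (fun ω c p => cavT G μ T ω.1.1 k t ω.2.1 c p) ∧
      EnvB G θ C y r (relP (QM μ T)) (fun ω c p => cavT G μ T ω.1.1 k t ω.2.2 c p) :=
  ⟨envB_transfer (measurable_aTleft k t) (law_aT_left k t) h,
    envB_transfer (measurable_aTright k t) (law_aT_right k t) h⟩

theorem tailR_relP {θ : ℝ} {b : ℕ} {K κ : ℝ} {k : ℕ} {t : ℝ}
    (h : TailR G θ b K κ (envKT μ k t) (fun ω c p => cavI G μ (ak (k + 1)) T c p ω.2)) :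
    TailR G θ b K κ (relP (QM μ T)) (fun ω c p => cavT G μ T ω.1.1 k t ω.2.1 c p) ∧
      TailR G θ b K κ (relP (QM μ T)) (fun ω c p => cavT G μ T ω.1.1 k t ω.2.2 c p) :=
  ⟨tailR_transfer (measurable_aTleft k t) (law_aT_left k t) h,
    tailR_transfer (measurable_aTright k t) (law_aT_right k t) h⟩

theorem isCavity_relP {θ α : ℝ} {k : ℕ} {t : ℝ}
    (h : ∀ᵐ ω ∂(envKT μ k t), IsCavity G θ α (fun c p => cavI G μ (ak (k + 1)) T c p ω.2)) :
    (∀ᵐ ω ∂(relP (QM μ T)), IsCavity G θ α (fun c p => cavT G μ T ω.1.1 k t ω.2.1 c p)) ∧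
      (∀ᵐ ω ∂(relP (QM μ T)), IsCavity G θ α (fun c p => cavT G μ T ω.1.1 k t ω.2.2 c p)) :=
  ⟨isCavity_transfer (measurable_aTleft k t) (law_aT_left k t) h,
    isCavity_transfer (measurable_aTright k t) (law_aT_right k t) h⟩

end Vale.Agent.P161c
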