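import Vale.Agent.P161c.StateQ
import Vale.Agent.P161c.Transfer
import Vale.Agent.P161c.PathDecay

/-!
The increments of the magnetization are the square-summable sums of the jumps.
-/

set_option linter.unusedSectionVars false
set_option linter.unusedVariables false

namespace Vale.Agent.P161c

open MeasureTheory SimpleGraph Vale.Agent.H13.P161 Filter Topology

variable {V : Type*} [Countable V] [DecidableEq V] {G : SimpleGraph V} [LocallyFinite G]
  {μ : Measure (V → ℤˣ)} [IsProbabilityMeasure μ] {T : ℕ → Finset V}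

open Classical in
/-- finite-volume jump -/
noncomputable def JF (μ : Measure (V → ℤˣ)) (F : Finset V) (k : ℕ) (t1 t2 : ℝ) (v w : V)
    (U : Site V → unitInterval) (y : Site V → ℝ) : ℝ :=
  if t1 ≤ (U (k, w) : ℝ) ∧ (U (k, w) : ℝ) < t2 then
    cs U (k, w) * cl (y (k, w)) *
      (corr μ (ak (k + 1)) v w F (aT U k (U (k, w)) y)
        - post μ (ak (k + 1)) v F (aT U k (U (k, w)) y)
          * post μ (ak (k + 1)) w F (aT U k (U (k, w)) y))
      / (1 + cs U (k, w) * cl (y (k, w)) * post μ (ak (k + 1)) w F (aT U k (U (k, w)) y))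
  else 0

omit [Countable V] [DecidableEq V] in
lemma aT_eq_of_cut {U : Site V → unitInterval} {k : ℕ} {t t' : ℝ} {x : V}
    (h : ∀ l, (l, x) ∈ cut U k t ↔ (l, x) ∈ cut U k t') (y : Site V → ℝ) :
    aT U k t y x = aT U k t' y x := by
  unfold aT aF
  congr 1
  ext l
  by_cases hl : (l, x) ∈ cut U k t
  · rw [if_pos hl, if_pos ((h l).mp hl)]
  · rw [if_neg hl, if_neg (fun hh => hl ((h l).mpr hh))]

omit [Countable V] [DecidableEq V] in
lemma mem_cut_congr {U : Site V → unitInterval} {k : ℕ} {t t' : ℝ} {x : V}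
    (h : (U (k, x) : ℝ) < t ↔ (U (k, x) : ℝ) < t') (l : ℕ) :
    (l, x) ∈ cut U k t ↔ (l, x) ∈ cut U k t' := by
  simp only [cut, Set.mem_ofPred_eq]
  constructor
  · rintro (h1 | ⟨h1, h2⟩)
    · exact Or.inl h1
    · refine Or.inr ⟨h1, ?_⟩
      rw [h1] at h2 ⊢
      exact h.mp h2
  · rintro (h1 | ⟨h1, h2⟩)
    · exact Or.inl h1
    · refine Or.inr ⟨h1, ?_⟩
      rw [h1] at h2 ⊢
      exact h.mpr h2

omit [Countable V] [DecidableEq V] in
lemma abs_z_le (U : Site V → unitInterval) (y : Site V → ℝ) (i : Site V) :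
    |cs U i * cl (y i)| ≤ 1 / 2 := by
  rw [abs_mul]
  calc |cs U i| * |cl (y i)| ≤ 1 / 2 * 1 :=
        mul_le_mul (abs_cs_le U i) (abs_cl_le _) (abs_nonneg _) (by norm_num)
    _ = 1 / 2 := by ring

/-- Telescoping in finite volume: induction on the number of vertices `w ∈ F` with label in
`[t1, t2)`.  If there is none, `aT U k t2 y` and `aT U k t1 y` agree on `F` (`post_congr`).
Otherwise let `w` be the vertex with the largest such label `r = U (k, w)`: on `F`, `aT U k t2 y` is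
`Function.update (aT U k r y) w (comb (aT U k r y w) z)` with `z = cs U (k, w) * cl (y (k, w))` (`ow_update`,
labels in round `k` are distinct), so `post_update_sub` gives the jump, and `[t1, r)` contains one
vertex less. -/
lemma telescope_fin (F : Finset V) (k : ℕ) {t1 t2 : ℝ} (h12 : t1 ≤ t2) (v : V)
    (U : Site V → unitInterval) (hU : NoTieAll U) (y : Site V → ℝ) :
    post μ (ak (k + 1)) v F (aT U k t2 y) - post μ (ak (k + 1)) v F (aT U k t1 y)
      = ∑ w ∈ F, JF μ F k t1 t2 v w U y := by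
  classical
  have key : ∀ (n : ℕ) (t2 : ℝ), t1 ≤ t2 →
      (F.filter (fun w => t1 ≤ (U (k, w) : ℝ) ∧ (U (k, w) : ℝ) < t2)).card = n →
      post μ (ak (k + 1)) v F (aT U k t2 y) - post μ (ak (k + 1)) v F (aT U k t1 y)
      = ∑ w ∈ F, JF μ F k t1 t2 v w U y := by
    intro n
    induction n with
    | zero =>
      intro t2 h12 hc
      rw [Finset.card_eq_zero, Finset.filter_eq_empty_iff] at hc
      have h1 : post μ (ak (k + 1)) v F (aT U k t2 y) = post μ (ak (k + 1)) v F (aT U k t1 y) := by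
        apply post_congr
        intro w hw
        apply aT_eq_of_cut
        apply mem_cut_congr
        have := hc hw
        constructor
        · intro h
          by_contra h'
          exact this ⟨not_lt.mp h', h⟩
        · intro h
          exact lt_of_lt_of_le h h12
      rw [h1, sub_self]
      symm
      apply Finset.sum_eq_zero
      intro w hw
      unfold JF
      rw [if_neg (hc hw)]
    | succ n ih =>
      intro t2 h12 hc
      set A := F.filter (fun w => t1 ≤ (U (k, w) : ℝ) ∧ (U (k, w) : ℝ) < t2) with hA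
      have hne : A.Nonempty := by rw [← Finset.card_pos]; omega
      obtain ⟨w, hwA, hmax⟩ := Finset.exists_max_image A (fun w => (U (k, w) : ℝ)) hne
      have hwF : w ∈ F := (Finset.mem_filter.mp hwA).1
      have hw1 : t1 ≤ (U (k, w) : ℝ) := (Finset.mem_filter.mp hwA).2.1
      have hw2 : (U (k, w) : ℝ) < t2 := (Finset.mem_filter.mp hwA).2.2
      set r : ℝ := (U (k, w) : ℝ) with hr
      have hlt : ∀ x ∈ F, x ≠ w → (t1 ≤ (U (k, x) : ℝ) ∧ (U (k, x) : ℝ) < t2) →
          (U (k, x) : ℝ) < r := by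
        intro x hx hxw h
        have hxA : x ∈ A := Finset.mem_filter.mpr ⟨hx, h⟩
        refine lt_of_le_of_ne (hmax x hxA) ?_
        intro he
        have hsub : U (k, x) = U (k, w) := Subtype.ext he
        refine hU (k, x) (k, w) ?_ hsub
        intro hh
        exact hxw (Prod.mk.inj hh).2
      have hfil : F.filter (fun x => t1 ≤ (U (k, x) : ℝ) ∧ (U (k, x) : ℝ) < r) = A.erase w := by
        ext x
        rw [Finset.mem_filter, Finset.mem_erase, hA, Finset.mem_filter]
        constructor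
        · rintro ⟨h1, h2, h3⟩
          refine ⟨?_, h1, h2, h3.trans hw2⟩
          rintro rfl
          exact lt_irrefl _ h3
        · rintro ⟨h1, h2, h3⟩
          exact ⟨h2, h3.1, hlt x h2 h1 h3⟩
      have hih := ih r hw1 (by rw [hfil, Finset.card_erase_of_mem hwA]; omega)
      set z := cs U (k, w) * cl (y (k, w)) with hz
      have hz1 : |z| ≤ 1 / 2 := abs_z_le U y (k, w)
      have hat : aT U k t2 y w = comb (aT U k r y w) z := by
        have h1 : ∀ l, |(fun l => if (l, w) ∈ cut U k r then cs U (l, w) * cl (y (l, w)) else 0) l|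
            ≤ 1 / 2 := by
          intro l
          dsimp only
          split_ifs
          · exact abs_z_le U y (l, w)
          · simp
        have hkr : (k, w) ∉ cut U k r := by
          simp only [cut, Set.mem_ofPred_eq, not_or, not_and, not_lt]
          exact ⟨le_refl _, fun _ => le_of_eq hr⟩
        have h2 := ow_update (k + 1)
          (fun l => if (l, w) ∈ cut U k r then cs U (l, w) * cl (y (l, w)) else 0) h1
          (Nat.lt_succ_self k) (if_neg hkr) z hz1
        have h3 : aT U k r y w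
          = ow (k + 1) (fun l => if (l, w) ∈ cut U k r then cs U (l, w) * cl (y (l, w)) else 0) := by
          rfl
        rw [h3, ← h2]
        unfold aT aF
        congr 1
        ext l
        by_cases hlk : l = k
        · subst hlk
          have : (l, w) ∈ cut U l t2 := Or.inr ⟨rfl, hw2⟩
          rw [if_pos this, Function.update_self]
        · rw [Function.update_of_ne hlk]
          have : (l, w) ∈ cut U k t2 ↔ (l, w) ∈ cut U k r := by
            simp only [cut, Set.mem_ofPred_eq, hlk, false_and, or_false]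
          by_cases hl : (l, w) ∈ cut U k t2
          · rw [if_pos hl]
            exact (if_pos (this.mp hl)).symm
          · rw [if_neg hl]
            exact (if_neg (fun hh => hl (this.mpr hh))).symm
      have hup : post μ (ak (k + 1)) v F (aT U k t2 y)
          = post μ (ak (k + 1)) v F (Function.update (aT U k r y) w (comb (aT U k r y w) z)) := by
        apply post_congr
        intro x hx
        by_cases hxw : x = w
        · subst hxw
          rw [Function.update_self, hat]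
        · rw [Function.update_of_ne hxw]
          apply aT_eq_of_cut
          apply mem_cut_congr
          constructor
          · intro h
            by_cases h' : t1 ≤ (U (k, x) : ℝ)
            · exact hlt x hx hxw ⟨h', h⟩
            · exact lt_of_lt_of_le (not_le.mp h') hw1
          · intro h
            exact h.trans hw2
      have hsub := post_update_sub (μ := μ) (ak_bounds (k + 1)).1 (ak_bounds (k + 1)).2 v w hwF
        (aT U k r y) z (lt_of_le_of_lt hz1 (by norm_num))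
        (abs_aF_le (k + 1) (abs_cs_le U) (cut U k r) y w) (by
          rw [← hat]
          exact abs_aF_le (k + 1) (abs_cs_le U) (cut U k t2) y w)
      rw [← hup] at hsub
      have e1 : ∑ x ∈ F, JF μ F k t1 t2 v x U y
          = JF μ F k t1 t2 v w U y + ∑ x ∈ F.erase w, JF μ F k t1 t2 v x U y :=
        (Finset.add_sum_erase F _ hwF).symm
      have e2 : ∑ x ∈ F, JF μ F k t1 r v x U y
          = JF μ F k t1 r v w U y + ∑ x ∈ F.erase w, JF μ F k t1 r v x U y :=
        (Finset.add_sum_erase F _ hwF).symm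
      have e3 : JF μ F k t1 r v w U y = 0 := by
        unfold JF
        rw [if_neg]
        rintro ⟨_, h⟩
        exact lt_irrefl _ h
      have e4 : ∑ x ∈ F.erase w, JF μ F k t1 t2 v x U y = ∑ x ∈ F.erase w, JF μ F k t1 r v x U y := by
        apply Finset.sum_congr rfl
        intro x hx
        have hxw := Finset.ne_of_mem_erase hx
        have hxF := Finset.mem_of_mem_erase hx
        unfold JF
        by_cases h : t1 ≤ (U (k, x) : ℝ) ∧ (U (k, x) : ℝ) < t2
        · rw [if_pos h, if_pos ⟨h.1, hlt x hxF hxw h⟩]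
        · rw [if_neg h, if_neg]
          rintro ⟨h1, h2⟩
          exact h ⟨h1, h2.trans hw2⟩
      have e5 : JF μ F k t1 t2 v w U y
          = post μ (ak (k + 1)) v F (aT U k t2 y) - post μ (ak (k + 1)) v F (aT U k r y) := by
        rw [hsub]
        unfold JF
        rw [if_pos ⟨hw1, hw2⟩]
      rw [e1, e4, e5]
      rw [e2, e3, zero_add] at hih
      rw [← hih]
      ring
  exact key _ t2 h12 rfl

omit [Countable V] in
lemma ow_zero' (n : ℕ) : ow n (fun _ => 0) = 0 := by
  unfold ow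
  simp

open Classical in
/-- the restriction of a cut to the vertices of `F` gives the same own magnetizations on `F` and
zero off `F` -/
lemma aF_restrict (n : ℕ) (c : Site V → ℝ) (S : Set (Site V)) (F : Finset V) (y : Site V → ℝ) :
    (∀ x ∈ F, aF n c {j | j ∈ S ∧ j.2 ∈ F} y x = aF n c S y x) ∧
    (∀ x, x ∉ F → aF n c {j | j ∈ S ∧ j.2 ∈ F} y x = 0) := by
  constructor
  · intro x hx
    unfold aF
    congr 1
    ext l
    by_cases h : (l, x) ∈ S
    · have h' : (l, x) ∈ {j : Site V | j ∈ S ∧ j.2 ∈ F} := ⟨h, hx⟩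
      rw [if_pos h, if_pos h']
    · have h' : (l, x) ∉ {j : Site V | j ∈ S ∧ j.2 ∈ F} := fun hh => h hh.1
      rw [if_neg h, if_neg h']
  · intro x hx
    unfold aF
    refine (congrArg (ow n) (funext fun l => if_neg ?_)).trans (ow_zero' n)
    intro h
    exact hx h.2

omit [Countable V] in
/-- side information vanishing off `T n`: the infinite-volume posterior is a finite-volume one -/
lemma postI_eq_post (hT : Monotone T) {α : ℝ} (hα0 : 0 ≤ α) (n : ℕ) (v : V) {a : V → ℝ}
    (ha : ∀ x, x ∉ T n → a x = 0) : postI μ α T v a = post μ α v (T n) a := by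
  unfold postI
  apply limOr0_eq
  apply tendsto_const_nhds.congr'
  filter_upwards [eventually_ge_atTop n] with m hm
  symm
  exact post_drop hα0 v (hT hm) (fun w _ hw => ha w hw)

omit [Countable V] in
/-- the denominators of the jumps -/
lemma den_ge {z p : ℝ} (hz : |z| ≤ 1 / 2) (hp : |p| ≤ 1) : 1 / 2 ≤ 1 + z * p := by
  have h1 : |z * p| ≤ 1 / 2 := by
    rw [abs_mul]
    calc |z| * |p| ≤ 1 / 2 * 1 := mul_le_mul hz hp (abs_nonneg _) (by norm_num)
      _ = 1 / 2 := by ring
  have := neg_le_of_abs_le h1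
  linarith

/-- one jump as a function of `z = c q`, covariance `C` and magnetization `M` -/
lemma abs_jump_le {z C M : ℝ} (hz : |z| ≤ 1 / 2) (hM : |M| ≤ 1) :
    |z * C / (1 + z * M)| ≤ |C| := by
  have h := den_ge hz hM
  rw [abs_div, abs_of_pos (by linarith : 0 < 1 + z * M), div_le_iff₀ (by linarith), abs_mul]
  nlinarith [abs_nonneg C, abs_nonneg z]

omit [Countable V] in
lemma abs_JF_le (F : Finset V) (k : ℕ) (t1 t2 : ℝ) (v w : V) (U : Site V → unitInterval)
    (y : Site V → ℝ) : |JF μ F k t1 t2 v w U y| ≤ 2 := by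
  unfold JF
  split_ifs
  · refine (abs_jump_le (abs_z_le U y (k, w))
      (abs_post_le (ak_bounds _).1 (ak_bounds _).2 _ _ _)).trans ?_
    have h1 := abs_corr_le (μ := μ) (ak_bounds (k + 1)).1 (ak_bounds (k + 1)).2 v w F
      (aT U k (U (k, w)) y)
    have h2 := abs_post_le (μ := μ) (ak_bounds (k + 1)).1 (ak_bounds (k + 1)).2 v F
      (aT U k (U (k, w)) y)
    have h3 := abs_post_le (μ := μ) (ak_bounds (k + 1)).1 (ak_bounds (k + 1)).2 w F
      (aT U k (U (k, w)) y)
    refine (abs_sub _ _).trans ?_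
    rw [abs_mul]
    have : |post μ (ak (k + 1)) v F (aT U k (U (k, w)) y)|
        * |post μ (ak (k + 1)) w F (aT U k (U (k, w)) y)| ≤ 1 * 1 :=
      mul_le_mul h2 h3 (abs_nonneg _) (by norm_num)
    linarith
  · simp

/-- joint measurability of own magnetizations at the label time -/
lemma measurable_aTi (k : ℕ) (w : V) : Measurable
    (fun q : (Site V → unitInterval) × (Site V → ℝ) =>
      aT q.1 k ((q.1 (k, w) : unitInterval) : ℝ) q.2) := by
  have h : Measurable (fun q : (Site V → unitInterval) × (Site V → ℝ) =>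
      (q.1, (((q.1 (k, w) : unitInterval) : ℝ), q.2))) :=
    measurable_fst.prodMk ((measurable_subtype_coe.comp
      ((measurable_pi_apply (k, w)).comp measurable_fst)).prodMk measurable_snd)
  have h3 := (measurable_aT (V := V) k).comp h
  simpa only [Function.comp_def] using h3

lemma nice_JF (F : Finset V) (k : ℕ) (t1 t2 : ℝ) (v w : V) : Nice
    (fun q : (Site V → unitInterval) × (Site V → ℝ) => JF μ F k t1 t2 v w q.1 q.2) := by
  refine ⟨?_, 2, fun q => abs_JF_le F k t1 t2 v w q.1 q.2⟩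
  have mU : Measurable (fun q : (Site V → unitInterval) × (Site V → ℝ) =>
      ((q.1 (k, w) : unitInterval) : ℝ)) :=
    measurable_subtype_coe.comp ((measurable_pi_apply (k, w)).comp measurable_fst)
  have mz : Measurable (fun q : (Site V → unitInterval) × (Site V → ℝ) =>
      cs q.1 (k, w) * cl (q.2 (k, w))) :=
    ((measurable_pi_apply (k, w)).comp (measurable_cs.comp measurable_fst)).mul
      (measurable_cl.comp ((measurable_pi_apply (k, w)).comp measurable_snd))
  have ma := measurable_aTi (V := V) k w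
  have m1 := (measurable_corr (μ := μ) (α := ak (k + 1)) v w F).comp ma
  have m2 := (measurable_post (μ := μ) (α := ak (k + 1)) v F).comp ma
  have m3 := (measurable_post (μ := μ) (α := ak (k + 1)) w F).comp ma
  unfold JF
  apply Measurable.ite
  · exact (measurableSet_le measurable_const mU).inter (measurableSet_lt mU measurable_const)
  · exact (mz.mul (m1.sub (m2.mul m3))).div ((mz.mul m3).const_add 1)
  · exact measurable_const

/-- the conditional mean of a jump vanishes -/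
lemma jump_mean_zero {c M C : ℝ} (hc : |c| ≤ 1 / 2) (hM : |M| ≤ 1) :
    ∫ x : unitInterval, c * cl (Qc (c * M) x) * C / (1 + c * cl (Qc (c * M) x) * M) = 0 := by
  have hcM : |c * M| < 1 := abs_c_mul_lt hc hM
  rw [integral_Qc hcM (fun q => c * cl q * C / (1 + c * cl q * M))]
  have e : ∀ x : unitInterval, c * cl (2 * (x : ℝ) - 1) * C / (1 + c * cl (2 * (x : ℝ) - 1) * M)
      * (1 + c * M * (2 * (x : ℝ) - 1)) = c * C * (2 * (x : ℝ) - 1) := by
    intro x
    have hx : |2 * (x : ℝ) - 1| ≤ 1 := abs_two_mul_sub_one_le x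
    have hcl : cl (2 * (x : ℝ) - 1) = 2 * (x : ℝ) - 1 := by
      unfold cl
      rw [abs_le] at hx
      rw [min_eq_right hx.2, max_eq_right hx.1]
    rw [hcl]
    have h2 : 0 < 1 + c * (2 * (x : ℝ) - 1) * M := by
      have := den_ge (z := c * (2 * (x : ℝ) - 1)) (p := M) (by
        rw [abs_mul]
        calc |c| * |2 * (x : ℝ) - 1| ≤ 1 / 2 * 1 := mul_le_mul hc hx (abs_nonneg _) (by norm_num)
          _ = 1 / 2 := by ring) hM
      linarith
    have h3 : 1 + c * M * (2 * (x : ℝ) - 1) = 1 + c * (2 * (x : ℝ) - 1) * M := by ring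
    rw [h3, div_mul_cancel₀ _ h2.ne']
    ring
  simp only [e]
  rw [integral_const_mul, integral_centered, mul_zero]

/-- the finite cut of the sites in `F` processed before the time `(k, t)` -/
def cutF (F : Finset V) (U : Site V → unitInterval) (k : ℕ) (t : ℝ) : Set (Site V) :=
  {j | j ∈ cut U k t ∧ j.2 ∈ F}

lemma aF_cutF_eq (F : Finset V) (U : Site V → unitInterval) (k : ℕ) (t : ℝ) (y : Site V → ℝ) :
    ∀ x ∈ F, aF (k + 1) (cs U) (cutF F U k t) y x = aT U k t y x :=
  (aF_restrict (k + 1) (cs U) (cut U k t) F y).1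

lemma aF_cutF_zero (F : Finset V) (U : Site V → unitInterval) (k : ℕ) (t : ℝ) (y : Site V → ℝ) :
    ∀ x, x ∉ F → aF (k + 1) (cs U) (cutF F U k t) y x = 0 :=
  (aF_restrict (k + 1) (cs U) (cut U k t) F y).2

lemma aT_dep (F : Finset V) (U : Site V → unitInterval) (k : ℕ) {t t' : ℝ} (htt : t ≤ t')
    (y : Site V → ℝ) : ∀ x ∈ F, aT U k t (msk (cutF F U k t') y) x = aT U k t y x := by
  intro x hx
  unfold aT aF
  congr 1
  ext l
  by_cases h : (l, x) ∈ cut U k t
  · rw [if_pos h, if_pos h]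
    have h' : (l, x) ∈ cutF F U k t' := by
      refine ⟨?_, hx⟩
      rcases h with h | h
      · exact Or.inl h
      · exact Or.inr ⟨h.1, lt_of_lt_of_le h.2 htt⟩
    simp [msk, h']
  · rw [if_neg h, if_neg h]

lemma orth_aux (hT : Monotone T) (hTu : ∀ v, ∃ n, v ∈ T n) (n k : ℕ) (t1 t2 : ℝ) (v : V)
    {w w' : V} (hw : w ∈ T n) (hw' : w' ∈ T n)
    (U : Site V → unitInterval) (hlt : (U (k, w) : ℝ) < (U (k, w') : ℝ)) :
    ∫ p, JF μ (T n) k t1 t2 v w U (obsR (cs U) p.1 p.2)
      * JF μ (T n) k t1 t2 v w' U (obsR (cs U) p.1 p.2) ∂(BM μ) = 0 := by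
  by_cases hc : t1 ≤ (U (k, w') : ℝ) ∧ (U (k, w') : ℝ) < t2
  swap
  · have e : ∀ p : (V → ℤˣ) × (Site V → unitInterval),
        JF μ (T n) k t1 t2 v w U (obsR (cs U) p.1 p.2)
          * JF μ (T n) k t1 t2 v w' U (obsR (cs U) p.1 p.2) = 0 := by
      intro p
      have : JF μ (T n) k t1 t2 v w' U (obsR (cs U) p.1 p.2) = 0 := by
        unfold JF
        rw [if_neg hc]
      rw [this, mul_zero]
    simp only [e, integral_zero]
  set F := T n with hF
  set i : Site V := (k, w') with hi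
  set t : ℝ := (U i : ℝ) with ht
  set S : Set (Site V) := cutF F U k t with hS
  set cov : (Site V → ℝ) → ℝ := fun y => corr μ (ak (k + 1)) v w' F (aT U k t y)
    - post μ (ak (k + 1)) v F (aT U k t y) * post μ (ak (k + 1)) w' F (aT U k t y) with hcov
  set M : (Site V → ℝ) → ℝ := fun y => post μ (ak (k + 1)) w' F (aT U k t y) with hM
  set H : (Site V → ℝ) × ℝ → ℝ := fun q => JF μ F k t1 t2 v w U q.1
    * (cs U i * cl q.2 * cov q.1 / (1 + cs U i * cl q.2 * M q.1)) with hH
  have hM1 : ∀ y, |M y| ≤ 1 := fun y => abs_post_le (ak_bounds _).1 (ak_bounds _).2 _ _ _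
  have hcl : ∀ s : ℝ, |cs U i * cl s| ≤ 1 / 2 := by
    intro s
    rw [abs_mul]
    calc |cs U i| * |cl s| ≤ 1 / 2 * 1 :=
          mul_le_mul (abs_cs_le U i) (abs_cl_le _) (abs_nonneg _) (by norm_num)
      _ = 1 / 2 := by ring
  have hcov2 : ∀ y, |cov y| ≤ 2 := by
    intro y
    have h1 := abs_corr_le (μ := μ) (ak_bounds (k + 1)).1 (ak_bounds (k + 1)).2 v w' F (aT U k t y)
    have h2 := abs_post_le (μ := μ) (ak_bounds (k + 1)).1 (ak_bounds (k + 1)).2 v F (aT U k t y)
    have h3 := abs_post_le (μ := μ) (ak_bounds (k + 1)).1 (ak_bounds (k + 1)).2 w' F (aT U k t y)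
    refine (abs_sub _ _).trans ?_
    rw [abs_mul]
    have : |post μ (ak (k + 1)) v F (aT U k t y)|
        * |post μ (ak (k + 1)) w' F (aT U k t y)| ≤ 1 * 1 :=
      mul_le_mul h2 h3 (abs_nonneg _) (by norm_num)
    linarith
  have maT : Measurable (fun y : Site V → ℝ => aT U k t y) := by
    have h := (measurable_aT (V := V) k).comp
      (measurable_const.prodMk (measurable_const.prodMk measurable_id) :
        Measurable (fun y : Site V → ℝ => (U, (t, y))))
    simpa only [Function.comp_def] using h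
  have mcov : Measurable cov := by
    have m1 := (measurable_corr (μ := μ) (α := ak (k + 1)) v w' F).comp maT
    have m2 := (measurable_post (μ := μ) (α := ak (k + 1)) v F).comp maT
    have m3 := (measurable_post (μ := μ) (α := ak (k + 1)) w' F).comp maT
    exact m1.sub (m2.mul m3)
  have mM : Measurable M := (measurable_post (μ := μ) (α := ak (k + 1)) w' F).comp maT
  have nJ : Nice (fun y : Site V → ℝ => JF μ F k t1 t2 v w U y) :=
    (nice_JF F k t1 t2 v w).comp (measurable_const.prodMk measurable_id)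
  have nH : Nice H := by
    refine (nJ.comp measurable_fst).mul ⟨?_, 2, ?_⟩
    · have m1 : Measurable (fun q : (Site V → ℝ) × ℝ => cs U i * cl q.2) :=
        (measurable_cl.comp measurable_snd).const_mul _
      exact (m1.mul (mcov.comp measurable_fst)).div
        ((m1.mul (mM.comp measurable_fst)).const_add 1)
    · intro q
      exact (abs_jump_le (hcl q.2) (hM1 q.1)).trans (hcov2 q.1)
  -- dependence on the past
  have hdep1 : ∀ y, ∀ x ∈ F, aT U k t (msk S y) x = aT U k t y x := fun y =>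
    aT_dep F U k (le_refl t) y
  have hdep2 : ∀ y, ∀ x ∈ F, aT U k (U (k, w)) (msk S y) x = aT U k (U (k, w)) y x := fun y =>
    aT_dep F U k hlt.le y
  have hkw : (k, w) ∈ S := ⟨Or.inr ⟨rfl, hlt⟩, hw⟩
  have hHS : ∀ y s, H (y, s) = H (msk S y, s) := by
    intro y s
    have c1 : cov (msk S y) = cov y := by
      simp only [hcov]
      rw [corr_congr v w' (hdep1 y), post_congr v (hdep1 y), post_congr w' (hdep1 y)]
    have c2 : M (msk S y) = M y := by
      simp only [hM]
      rw [post_congr w' (hdep1 y)]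
    have c3 : JF μ F k t1 t2 v w U (msk S y) = JF μ F k t1 t2 v w U y := by
      unfold JF
      rw [corr_congr v w (hdep2 y), post_congr v (hdep2 y), post_congr w (hdep2 y)]
      have : msk S y (k, w) = y (k, w) := by simp [msk, hkw]
      rw [this]
    simp only [hH]
    rw [c1, c2, c3]
  have hiS : i ∉ S := fun h => mem_cut_self U i h.1
  have hSk : ∀ j ∈ S, j.1 < k + 1 := fun j hj => cut_lt hj.1
  have hstep := innov_step (μ := μ) hT hTu (k + 1) (abs_cs_le U) hSk hiS nH hHS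
  have hpI : ∀ y : Site V → ℝ, postI μ (ak (k + 1)) T i.2 (aF (k + 1) (cs U) S y) = M y := by
    intro y
    rw [postI_eq_post hT (ak_bounds (k + 1)).1 n i.2 (aF_cutF_zero F U k t y)]
    exact post_congr w' (aF_cutF_eq F U k t y)
  have e1 : ∀ p : (V → ℤˣ) × (Site V → unitInterval),
      JF μ F k t1 t2 v w U (obsR (cs U) p.1 p.2)
        * JF μ F k t1 t2 v w' U (obsR (cs U) p.1 p.2)
      = H (obsR (cs U) p.1 p.2, obsR (cs U) p.1 p.2 i) := by
    intro p
    simp only [hH]
    congr 1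
    unfold JF
    rw [if_pos hc]
  simp only [e1]
  rw [hstep]
  have e2 : ∀ p : (V → ℤˣ) × (Site V → unitInterval), (∫ x : unitInterval, H (obsR (cs U) p.1 p.2,
      Qc (cs U i * postI μ (ak (k + 1)) T i.2 (aF (k + 1) (cs U) S (obsR (cs U) p.1 p.2))) x))
      = 0 := by
    intro p
    rw [hpI]
    simp only [hH]
    rw [integral_const_mul, jump_mean_zero (abs_cs_le U i) (hM1 _), mul_zero]
  simp only [e2, integral_zero]

/-- Orthogonality in finite volume.  Say `U (k, w) < U (k, w')` and let `S` be the set of the sites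
`(l, x)` with `x ∈ F` in `cut U k (U (k, w'))`; both `JF .. w` and the posteriors in `JF .. w'` are
functionals of `msk S y`, with `postI μ α T v (aF (k+1) (cs U) S y) = post μ α v F (aT U k _ y)` because
`aF` vanishes off `F` (`post_drop`; `F = T n`).  `innov_step` with this `S` and `i = (k, w')` replaces
`y i` by `Qc (c M) x`, and `∫ c q / (1 + c q M)` over the law of `q = Qc (c M) x` is `∫ c q dq / 2 = 0`
(`integral_Qc`). -/
lemma orth_fin (hT : Monotone T) (hTu : ∀ v, ∃ n, v ∈ T n) (n k : ℕ) (t1 t2 : ℝ) (v : V)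
    {w w' : V} (hw : w ∈ T n) (hw' : w' ∈ T n) (hne : w ≠ w')
    (U : Site V → unitInterval) (hU : NoTieAll U) :
    ∫ p, JF μ (T n) k t1 t2 v w U (obsR (cs U) p.1 p.2)
      * JF μ (T n) k t1 t2 v w' U (obsR (cs U) p.1 p.2) ∂(BM μ) = 0 := by
  have h : (U (k, w) : ℝ) ≠ (U (k, w') : ℝ) := by
    intro he
    refine hU (k, w) (k, w') ?_ (Subtype.ext he)
    intro hh
    exact hne (Prod.mk.inj hh).2
  rcases lt_or_gt_of_ne h with h | h
  · exact orth_aux hT hTu n k t1 t2 v hw hw' U h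
  · have e : ∀ p : (V → ℤˣ) × (Site V → unitInterval),
        JF μ (T n) k t1 t2 v w U (obsR (cs U) p.1 p.2)
          * JF μ (T n) k t1 t2 v w' U (obsR (cs U) p.1 p.2)
        = JF μ (T n) k t1 t2 v w' U (obsR (cs U) p.1 p.2)
          * JF μ (T n) k t1 t2 v w U (obsR (cs U) p.1 p.2) := fun p => mul_comm _ _
    simp only [e]
    exact orth_aux hT hTu n k t1 t2 v hw' hw U h

/-- balls in trees are convex -/
lemma ball_convex (hG : G.IsTree) {o v w x : V} (h : G.dist v w = G.dist v x + G.dist x w) :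
    G.dist o x ≤ max (G.dist o v) (G.dist o w) := by
  by_cases hxv : v = x
  · rw [hxv]; exact le_max_left _ _
  by_cases hxw : w = x
  · rw [hxw]; exact le_max_right _ _
  obtain ⟨g, hg, hgd⟩ := exists_parent hG.connected hxv
  obtain ⟨g', hg', hgd'⟩ := exists_parent hG.connected hxw
  have hne : g ≠ g' := by
    rintro rfl
    have t1 : G.dist v w ≤ G.dist v g + G.dist g w := hG.connected.dist_triangle
    have c1 : G.dist g w = G.dist w g := G.dist_comm
    have c2 : G.dist x w = G.dist w x := G.dist_comm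
    omega
  have e1 := hG.dist_eq_dist_add_one_of_adj o hg
  have e2 := hG.dist_eq_dist_add_one_of_adj o hg'
  rcases e1 with e1 | e1
  · rcases e2 with e2 | e2
    · exact absurd (parent_unique hG hg hg' e1 e2) hne
    · have := dist_across' hG hg' (x := o) (y := w) (by omega) (by omega)
      have : G.dist o x ≤ G.dist o w := by omega
      exact this.trans (le_max_right _ _)
  · have := dist_across' hG hg (x := o) (y := v) (by omega) (by omega)
    have : G.dist o x ≤ G.dist o v := by omega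
    exact this.trans (le_max_left _ _)

/-- second moment of the own magnetizations, vertex-dependent channels -/
lemma own_sq_gen {Λ E : Type*} [MeasurableSpace Λ] [MeasurableSpace E] {lam : Measure Λ}
    [IsProbabilityMeasure lam] {α : ℝ}
    {Y : V → ℤˣ → Λ → E} {b : V → E → ℝ} (hA : ∀ w, IsChan lam α (Y w) (b w)) (hα1 : α < 1)
    (hflip : μ.map (fun σ : V → ℤˣ => fun v => - σ v) = μ) (v : V) :
    ∫ ω, (ω.2 v) ^ 2 ∂(envM μ lam Y b)
      = (∫ x, (b v (Y v 1 x)) ^ 2 ∂lam + ∫ x, (b v (Y v (-1) x)) ^ 2 ∂lam) / 2 := by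
  have h1 := (env_single (μ := μ) hA hflip v (nice_clx.pow 2)).1
  have e : ∀ y, clx (b v y) = b v y := fun y => clx_of_abs_le (((hA v).bound y).trans hα1.le)
  have e2 : ∫ ω, (ω.2 v) ^ 2 ∂(envM μ lam Y b) = ∫ ω, clx (ω.2 v) ^ 2 ∂(envM μ lam Y b) := by
    apply integral_congr_ae
    filter_upwards [env_own_bound (μ := μ) hA] with ω hω
    rw [clx_of_abs_le ((hω v).trans hα1.le)]
  rw [e2, h1]
  simp only [e]

open Classical in
lemma isChan_anV (A : Set V) (τ : V → ℝ) (k : ℕ) (w : V) :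
    IsChan ((iidLabels ℕ).prod (iidLabels ℕ)) (ak (k + 1))
      (if w ∈ A then anY k (τ w) else anY 0 0) (if w ∈ A then anb k (τ w) else anb 0 0) := by
  by_cases h : w ∈ A
  · rw [if_pos h, if_pos h]
    exact isChan_an k (τ w)
  · rw [if_neg h, if_neg h]
    have h0 := isChan_an 0 0
    refine ⟨h0.measY, h0.measb, ?_, h0.flip, h0.bayes⟩
    intro y
    rw [anb_zero, if_neg (not_lt.mpr (y.1 0).2.1), abs_zero]
    exact (ak_bounds (k + 1)).1

lemma isProb_envV (A : Set V) (τ : V → ℝ) (k : ℕ) : IsProbabilityMeasure (envV μ A τ k) := by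
  classical
  unfold envV
  exact isProb_envM (μ := μ) (fun w => isChan_anV A τ k w)

lemma cavEnv0_V (hG : G.IsTree) {θ : ℝ} (hθ0 : 0 ≤ θ) (hθ1 : θ < 1)
    (hflip : μ.map (fun σ : V → ℤˣ => fun v => - σ v) = μ) (hμ : EdgeFactor G θ μ)
    (hT : Monotone T) (hTu : ∀ v, ∃ n, v ∈ T n) (A : Set V) (τ : V → ℝ) (k : ℕ) :
    CavEnv0 G θ (ak (k + 1)) (envV μ A τ k) (cavI G μ (ak (k + 1)) T) := by
  classical
  unfold envV
  exact cavEnv0_of_chan (μ := μ) (ak_bounds (k + 1)).1 (ak_bounds (k + 1)).2 hG hθ0 hθ1 hflip hμ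
    (fun w => isChan_anV A τ k w) hT hTu

lemma own_sq_V (hflip : μ.map (fun σ : V → ℤˣ => fun v => - σ v) = μ) {A : Set V} {τ : V → ℝ}
    {k : ℕ} {x : V} (hx : x ∈ A) {s : ℝ} (h0 : 0 ≤ τ x) (h1 : τ x ≤ 1 / 2) (hs1 : s ≤ 1 / 288)
    (hs : k = 0 → s ≤ τ x ^ 3 / 36) :
    s ≤ ∫ ω, (ω.2 x) ^ 2 ∂(envV μ A τ k) := by
  classical
  unfold envV
  rw [own_sq_gen (μ := μ) (fun w => isChan_anV A τ k w) (ak_bounds (k + 1)).2 hflip x]
  rw [if_pos hx, if_pos hx]
  rcases Nat.eq_zero_or_pos k with hk | hk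
  · subst hk
    rw [second_moment_an_zero _ h0 h1 1, second_moment_an_zero _ h0 h1 (-1)]
    have := hs rfl
    linarith
  · have a1 := second_moment_an_ge k (τ x) hk 1
    have a2 := second_moment_an_ge k (τ x) hk (-1)
    linarith

lemma cavI_eq_cavF (hT : Monotone T) {α : ℝ} (hα0 : 0 ≤ α) (n : ℕ) {a : V → ℝ}
    (ha : ∀ x, x ∉ T n → a x = 0) (c p : V) : cavI G μ α T c p a = cavF G μ α (T n) a c p := by
  unfold cavI
  apply limOr0_eq
  apply tendsto_const_nhds.congr'
  filter_upwards [eventually_ge_atTop n] with m hm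
  symm
  apply post_drop hα0 c (inBr_mono (hT hm) c p)
  intro x hx hx'
  apply ha
  intro hxn
  rw [mem_inBr] at hx hx'
  exact hx' ⟨hxn, hx.2⟩

lemma measurable_aV (A : Set V) (τ : V → ℝ) (k : ℕ) : Measurable
    (fun q : (Site V → unitInterval) × (Site V → ℝ) => aV A τ k q.1 q.2) := by
  classical
  rw [measurable_pi_iff]
  intro w
  unfold aV
  by_cases h : w ∈ A
  · simp only [if_pos h]
    have h2 : Measurable (fun q : (Site V → unitInterval) × (Site V → ℝ) =>
        (q.1, (τ w, q.2))) := measurable_fst.prodMk (measurable_const.prodMk measurable_snd)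
    have h3 := (measurable_pi_apply w).comp ((measurable_aT (V := V) k).comp h2)
    simpa only [Function.comp_def] using h3
  · simp only [if_neg h]
    exact measurable_const

lemma measurable_yA' : Measurable
    (fun q : (Site V → unitInterval) × ((V → ℤˣ) × (Site V → unitInterval)) =>
      (q.1, obsR (cs q.1) q.2.1 q.2.2)) := measurable_fst.prodMk measurable_yA

/-- path products of finite-volume cavity fields are bounded measurable -/
lemma nice_WtF {θ' : ℝ} (hθ0 : 0 ≤ θ') (hθ1 : θ' < 1) (hG : G.IsTree) (α : ℝ) (hα0 : 0 ≤ α) (hα1 : α < 1)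
    (F : Finset V) (v w : V) : Nice (fun a : V → ℝ => Wt G θ' (cavF G μ α F a) v w) := by
  refine ⟨?_, 1, fun a => ?_⟩
  · apply (measurable_Wt (G := G) (θ := θ') v w).comp
    rw [measurable_pi_iff]; intro c
    rw [measurable_pi_iff]; intro p
    exact measurable_post c (inBr G c p F)
  · have h := Wt_mem hθ0 hθ1 hG.connected (x := cavF G μ α F a)
      (fun c p => abs_post_le hα0 hα1 c _ a) v w
    rw [abs_of_nonneg h.1]
    exact h.2

/-- the jump is dominated by the path product -/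
lemma JF_sq_le {d : ℕ} (hreg : ∀ v, G.degree v = d) (hd : 1 ≤ d) (hG : G.IsTree) {θ : ℝ}
    (hθ0 : 0 ≤ θ) (hθ1 : θ < 1) (hμ : EdgeFactor G θ μ) (F : Finset V) (k : ℕ) (t1 t2 : ℝ)
    (v w : V) (U : Site V → unitInterval) (y : Site V → ℝ) :
    (JF μ F k t1 t2 v w U y) ^ 2
      ≤ (if t1 ≤ (U (k, w) : ℝ) ∧ (U (k, w) : ℝ) < t2 then (1 : ℝ) else 0)
        * (θ ^ (2 * G.dist v w)
          * (Wt G θ (cavF G μ (ak (k + 1)) F (aT U k (U (k, w)) y)) v w) ^ 2) := by
  unfold JF
  split_ifs with h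
  · rw [one_mul]
    have hdeg : ∀ v : V, ∃ p, G.Adj v p := by
      intro v
      have h1 : 0 < G.degree v := by rw [hreg v]; omega
      exact (G.degree_pos_iff_exists_adj v).mp h1
    have hC := corr_eq_Cv (μ := μ) (ak_bounds (k + 1)).1 (ak_bounds (k + 1)).2 hG hθ0 hθ1 hμ hdeg
      v w F (aT U k (U (k, w)) y)
    have hmag := post_eq_mag (μ := μ) (ak_bounds (k + 1)).1 (ak_bounds (k + 1)).2 hG hθ0 hθ1 hμ
      (hdeg v) F (aT U k (U (k, w)) y)
    have hp := abs_post_le (μ := μ) (ak_bounds (k + 1)).1 (ak_bounds (k + 1)).2 v F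
      (aT U k (U (k, w)) y)
    have hW := Wt_mem hθ0 hθ1 hG.connected (x := cavF G μ (ak (k + 1)) F (aT U k (U (k, w)) y))
      (fun c p => abs_post_le (ak_bounds (k + 1)).1 (ak_bounds (k + 1)).2 c _ _) v w
    have hj := abs_jump_le (C := corr μ (ak (k + 1)) v w F (aT U k (U (k, w)) y)
      - post μ (ak (k + 1)) v F (aT U k (U (k, w)) y)
          * post μ (ak (k + 1)) w F (aT U k (U (k, w)) y)) (abs_z_le U y (k, w))
      (abs_post_le (μ := μ) (ak_bounds (k + 1)).1 (ak_bounds (k + 1)).2 w F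
        (aT U k (U (k, w)) y))
    refine (sq_le_sq' (neg_le_of_abs_le hj) (le_of_abs_le hj)).trans ?_
    rw [sq_abs, hC]
    unfold Cv
    rw [← hmag]
    set P := post μ (ak (k + 1)) v F (aT U k (U (k, w)) y)
    set W := Wt G θ (cavF G μ (ak (k + 1)) F (aT U k (U (k, w)) y)) v w
    have hP2 : P ^ 2 ≤ 1 := by
      rw [← sq_abs]; exact pow_le_one₀ (abs_nonneg _) hp
    have e : ((1 - P ^ 2) * θ ^ G.dist v w * W) ^ 2
        = (1 - P ^ 2) ^ 2 * (θ ^ (2 * G.dist v w) * W ^ 2) := by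
      rw [mul_comm 2 (G.dist v w), pow_mul]; ring
    rw [e]
    have h1 : (1 - P ^ 2) ^ 2 ≤ 1 := by
      apply pow_le_one₀ (by linarith)
      have := sq_nonneg P
      linarith
    have h2 : 0 ≤ θ ^ (2 * G.dist v w) * W ^ 2 := by positivity
    calc (1 - P ^ 2) ^ 2 * (θ ^ (2 * G.dist v w) * W ^ 2)
        ≤ 1 * (θ ^ (2 * G.dist v w) * W ^ 2) := mul_le_mul_of_nonneg_right h1 h2
      _ = _ := one_mul _
  · simp

/-- times of the vertices when the label of `(k, w)` is `r` -/
noncomputable def tauw (w : V) (r : ℝ) : V → ℝ := fun x => if x = w then 0 else r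

/-- the field at the label time of `(k, w)` does not depend on the label, except through the time -/
lemma aT_update_label (A : Finset V) (k : ℕ) (w : V) (U : Site V → unitInterval) (r : unitInterval)
    (σ : V → ℤˣ) (ζ : Site V → unitInterval) :
    ∀ x ∈ A, aT (Function.update U (k, w) r) k ((Function.update U (k, w) r (k, w) : unitInterval) : ℝ)
        (obsR (cs (Function.update U (k, w) r)) σ ζ) x
      = aV (A : Set V) (tauw w (r : ℝ)) k U (obsR (cs U) σ ζ) x := by
  classical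
  intro x hx
  unfold aV
  rw [if_pos (show x ∈ (A : Set V) from hx), Function.update_self]
  unfold aT aF
  congr 1
  ext l
  by_cases hl : (l, x) = (k, w)
  · obtain ⟨h1, h2⟩ := Prod.mk.inj hl
    subst h1
    subst h2
    have n1 : (l, x) ∉ cut (Function.update U (l, x) r) l (r : ℝ) := by
      simp [cut]
    have n2 : (l, x) ∉ cut U l (tauw x (r : ℝ) x) := by
      simp only [cut, Set.mem_ofPred_eq, not_or, not_and, not_lt, tauw, if_true]
      exact ⟨le_refl _, fun _ => (U (l, x)).2.1⟩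
    rw [if_neg n1, if_neg n2]
  · have e1 : Function.update U (k, w) r (l, x) = U (l, x) := Function.update_of_ne hl _ _
    have e2 : cs (Function.update U (k, w) r) (l, x) = cs U (l, x) := by
      unfold cs
      rw [e1]
    have e3 : obsR (cs (Function.update U (k, w) r)) σ ζ (l, x) = obsR (cs U) σ ζ (l, x) := by
      unfold obsR
      rw [e2]
    have e4 : (l, x) ∈ cut (Function.update U (k, w) r) k (r : ℝ)
        ↔ (l, x) ∈ cut U k (tauw w (r : ℝ) x) := by
      simp only [cut, Set.mem_ofPred_eq, e1, tauw]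
      by_cases hxw : x = w
      · have hlk : l ≠ k := by
          rintro rfl
          exact hl (by rw [hxw])
        simp [hlk]
      · simp [hxw]
    rw [e2, e3]
    by_cases hm : (l, x) ∈ cut (Function.update U (k, w) r) k (r : ℝ)
    · rw [if_pos hm, if_pos (e4.mp hm)]
    · rw [if_neg hm, if_neg (fun hh => hm (e4.mpr hh))]

lemma cavF_congr {α : ℝ} {F : Finset V} {a a' : V → ℝ} (h : ∀ x ∈ F, a x = a' x) :
    cavF G μ α F a = cavF G μ α F a' := by
  ext c p
  unfold cavF
  apply post_congr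
  intro x hx
  rw [mem_inBr] at hx
  exact h x hx.1

/-- expected squared path product, for labels of `(k, w)` in `[t1, t2)` -/
lemma Wt_AM_le (hG : G.IsTree) {θ : ℝ}
    (hθ0 : 0 ≤ θ) (hθ1 : θ < 1) (hflip : μ.map (fun σ : V → ℤˣ => fun v => - σ v) = μ)
    (hμ : EdgeFactor G θ μ) {o : V} (hTb : ∀ n x, x ∈ T n ↔ G.dist o x ≤ n)
    (k : ℕ) {r s : ℝ} (h1 : 0 ≤ r) (h2 : r ≤ 1 / 2)
    (hs0 : 0 ≤ s) (hs1 : s ≤ 1 / 288) (hs : k = 0 → s ≤ r ^ 3 / 36) (n : ℕ) {v w : V}
    (hv : v ∈ T n) (hw : w ∈ T n) :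
    ∫ q, (Wt G θ (cavF G μ (ak (k + 1)) (T n)
        (aV (T n : Set V) (tauw w r) k q.1 (obsR (cs q.1) q.2.1 q.2.2))) v w) ^ 2 ∂(AM μ)
      ≤ (1 - (1 - θ ^ 2) * s) ^ (G.dist v w - 1) := by
  have hT : Monotone T := by
    intro a b hab x hx
    rw [hTb] at hx ⊢
    exact hx.trans hab
  have hTu : ∀ v, ∃ n, v ∈ T n := fun v => ⟨G.dist o v, (hTb _ _).mpr le_rfl⟩
  have hα := ak_bounds (k + 1)
  have e1 : ∀ q : (Site V → unitInterval) × ((V → ℤˣ) × (Site V → unitInterval)),
      cavF G μ (ak (k + 1)) (T n) (aV (T n : Set V) (tauw w r) k q.1 (obsR (cs q.1) q.2.1 q.2.2))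
      = fun c p => cavI G μ (ak (k + 1)) T c p
        (aV (T n : Set V) (tauw w r) k q.1 (obsR (cs q.1) q.2.1 q.2.2)) := by
    intro q
    ext c p
    symm
    apply cavI_eq_cavF hT hα.1 n
    intro x hx
    unfold aV
    exact if_neg hx
  simp only [e1]
  have nW : Nice (fun a : V → ℝ => (Wt G θ (fun c p => cavI G μ (ak (k + 1)) T c p a) v w) ^ 2) := by
    apply Nice.pow
    refine ⟨?_, 1, fun a => ?_⟩
    · apply (measurable_Wt (G := G) (θ := θ) v w).comp
      rw [measurable_pi_iff]; intro c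
      rw [measurable_pi_iff]; intro p
      exact measurable_cavI c p
    · have h := Wt_mem hθ0 hθ1 hG.connected (x := fun c p => cavI G μ (ak (k + 1)) T c p a)
        (fun c p => abs_limOr0_le zero_le_one
          (fun n => abs_post_le hα.1 hα.2 c _ a)) v w
      rw [abs_of_nonneg h.1]
      exact h.2
  have mm : Measurable (fun q : (Site V → unitInterval) × ((V → ℤˣ) × (Site V → unitInterval)) =>
      ((q.2.1, aV (T n : Set V) (tauw w r) k q.1 (obsR (cs q.1) q.2.1 q.2.2)) : Cfg V)) := by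
    apply (measurable_fst.comp measurable_snd).prodMk
    have h := (measurable_aV (T n : Set V) (tauw w r) k).comp (measurable_yA' (V := V))
    simpa only [Function.comp_def] using h
  have e2 : ∫ q, (Wt G θ (fun c p => cavI G μ (ak (k + 1)) T c p
        (aV (T n : Set V) (tauw w r) k q.1 (obsR (cs q.1) q.2.1 q.2.2))) v w) ^ 2 ∂(AM μ)
      = ∫ ω, (Wt G θ (fun c p => cavI G μ (ak (k + 1)) T c p ω.2) v w) ^ 2
          ∂(envV μ (T n : Set V) (tauw w r) k) := by
    rw [← law_aV, integral_map mm.aemeasurable]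
    exact (nW.1.comp measurable_snd).aestronglyMeasurable
  rw [e2]
  have he := cavEnv0_V (μ := μ) hG hθ0 hθ1 hflip hμ hT hTu (T n : Set V) (tauw w r) k
  apply path_decay he hθ0 hθ1 hα.1 hα.2 hG hs0 (by linarith) v w
  intro x hx hxv hxw
  have hxT : x ∈ T n := by
    rw [hTb]
    have h := ball_convex hG (o := o) hx
    have a1 := (hTb n v).mp hv
    have a2 := (hTb n w).mp hw
    exact h.trans (max_le a1 a2)
  have ht : tauw w r x = r := by
    unfold tauw
    rw [if_neg hxw]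
  apply own_sq_V hflip (show x ∈ (T n : Set V) from hxT) (by rw [ht]; exact h1)
    (by rw [ht]; exact h2) hs1
  rw [ht]
  exact hs

/-- Domination.  `|JF| ≤ |corr - post * post|`, which is `Cv G θ (cavF G μ α (T n) a) v w`
(`corr_eq_Cv`) `≤ θ ^ dist * Wt`.  Integrate first over the label `U (k, w) = r` (`integral_update_iid`): the
field `aT U k r y` on `T n` is `aV (T n) τ k U y` with `τ x = r` for `x ≠ w` and `τ w = 0`, which does not
depend on the label of `(k, w)`; its law is `envV μ (T n) τ k` (`law_aV`), a `CavEnv0` by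
`cavEnv0_of_chan` (`isChan_an`, and `anY 0 0`, `anb 0 0 = 0` at inactive vertices), with
`cavI G μ α T c p a = cavF G μ α (T n) a c p` as `a` vanishes off `T n`.  `path_decay` with `s`
the lower bound of the second moments of the own magnetizations at the inner vertices of the path
(in `T n` by `ball_convex`): `s = 1 / 288` for `k ≥ 1` (`second_moment_an_ge`), `s = t1 ^ 3 / 36` for
`k = 0` (`second_moment_an_zero`). -/
lemma dom_fin {d : ℕ} (hreg : ∀ v, G.degree v = d) (hd : 1 ≤ d) (hG : G.IsTree) {θ : ℝ}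
    (hθ0 : 0 ≤ θ) (hθ1 : θ < 1) (hflip : μ.map (fun σ : V → ℤˣ => fun v => - σ v) = μ)
    (hμ : EdgeFactor G θ μ) {o : V} (hTb : ∀ n x, x ∈ T n ↔ G.dist o x ≤ n)
    (k : ℕ) {t1 t2 s : ℝ} (h1 : 0 ≤ t1) (h2 : t2 ≤ 1 / 2)
    (hs0 : 0 ≤ s) (hs1 : s ≤ 1 / 288) (hs : k = 0 → s ≤ t1 ^ 3 / 36) (n : ℕ) {v w : V}
    (hv : v ∈ T n) (hw : w ∈ T n) :
    ∫ q, (JF μ (T n) k t1 t2 v w q.1 (obsR (cs q.1) q.2.1 q.2.2)) ^ 2 ∂(AM μ)
      ≤ θ ^ (2 * G.dist v w) * (1 - (1 - θ ^ 2) * s) ^ (G.dist v w - 1) := by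
  classical
  have hα := ak_bounds (k + 1)
  set ind : ℝ → ℝ := fun u => if t1 ≤ u ∧ u < t2 then (1 : ℝ) else 0 with hind
  have mind : Measurable ind := by
    apply Measurable.ite _ measurable_const measurable_const
    exact measurableSet_Ico
  have nind : Nice ind := ⟨mind, 1, fun u => by simp only [hind]; split_ifs <;> simp⟩
  set W2 : (V → ℝ) → ℝ := fun a => (Wt G θ (cavF G μ (ak (k + 1)) (T n) a) v w) ^ 2 with hW2
  have nW2 : Nice W2 := (nice_WtF hθ0 hθ1 hG (ak (k + 1)) hα.1 hα.2 (T n) v w).pow 2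
  set Ψ : (Site V → unitInterval) × ((V → ℤˣ) × (Site V → unitInterval)) → ℝ := fun q =>
    ind (q.1 (k, w) : ℝ) * W2 (aT q.1 k (q.1 (k, w)) (obsR (cs q.1) q.2.1 q.2.2)) with hΨ
  have mlab : Measurable (fun q : (Site V → unitInterval) × ((V → ℤˣ) × (Site V → unitInterval)) =>
      ((q.1 (k, w) : unitInterval) : ℝ)) :=
    measurable_subtype_coe.comp ((measurable_pi_apply (k, w)).comp measurable_fst)
  have maT : Measurable (fun q : (Site V → unitInterval) × ((V → ℤˣ) × (Site V → unitInterval)) =>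
      aT q.1 k (q.1 (k, w)) (obsR (cs q.1) q.2.1 q.2.2)) := by
    have h := (measurable_aTi (V := V) k w).comp (measurable_yA' (V := V))
    simpa only [Function.comp_def] using h
  have nΨ : Nice Ψ := (nind.comp mlab).mul (nW2.comp maT)
  have nJ : Nice (fun q : (Site V → unitInterval) × ((V → ℤˣ) × (Site V → unitInterval)) =>
      (JF μ (T n) k t1 t2 v w q.1 (obsR (cs q.1) q.2.1 q.2.2)) ^ 2) := by
    apply Nice.pow
    exact (nice_JF (μ := μ) (T n) k t1 t2 v w).comp (measurable_yA' (V := V))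
  have b1 : ∫ q, (JF μ (T n) k t1 t2 v w q.1 (obsR (cs q.1) q.2.1 q.2.2)) ^ 2 ∂(AM μ)
      ≤ θ ^ (2 * G.dist v w) * ∫ q, Ψ q ∂(AM μ) := by
    rw [← integral_const_mul]
    apply nJ.integral_mono' ((Nice.const _).mul nΨ)
    intro q
    refine (JF_sq_le hreg hd hG hθ0 hθ1 hμ (T n) k t1 t2 v w q.1 _).trans (le_of_eq ?_)
    simp only [hΨ, hind, hW2]
    ring
  refine b1.trans (mul_le_mul_of_nonneg_left ?_ (pow_nonneg hθ0 _))
  have hbd0 : 0 ≤ (1 - (1 - θ ^ 2) * s) ^ (G.dist v w - 1) := by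
    apply pow_nonneg
    have : 0 ≤ θ ^ 2 := sq_nonneg θ
    have : θ ^ 2 ≤ 1 := pow_le_one₀ hθ0 hθ1.le
    nlinarith
  have nψ : Nice (fun U : Site V → unitInterval => ∫ p, Ψ (U, p) ∂(BM μ)) :=
    nΨ.integral_right (BM μ)
  have s1 : ∫ q, Ψ q ∂(AM μ) = ∫ U, (∫ p, Ψ (U, p) ∂(BM μ)) ∂(iidLabels (Site V)) := by
    unfold AM
    exact nΨ.integral_prod _ _
  have mup : Measurable (fun x : (Site V → unitInterval) × unitInterval =>
      Function.update x.1 (k, w) x.2) := measurable_update_pair (X := fun _ : Site V => unitInterval) (k, w)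
  rw [s1, integral_update_iid (k, w) nψ, (nψ.comp mup).integral_integral_swap]
  have hr : ∀ r : unitInterval,
      ∫ U, (∫ p, Ψ (Function.update U (k, w) r, p) ∂(BM μ)) ∂(iidLabels (Site V))
      ≤ (1 - (1 - θ ^ 2) * s) ^ (G.dist v w - 1) := by
    intro r
    have eΨ : ∀ (U : Site V → unitInterval) (p : (V → ℤˣ) × (Site V → unitInterval)),
        Ψ (Function.update U (k, w) r, p)
        = ind (r : ℝ) * W2 (aV (T n : Set V) (tauw w (r : ℝ)) k U (obsR (cs U) p.1 p.2)) := by
      intro U p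
      simp only [hΨ]
      congr 1
      · rw [Function.update_self]
      · simp only [hW2]
        rw [cavF_congr (aT_update_label (T n) k w U r p.1 p.2)]
    simp only [eΨ, integral_const_mul]
    have nq : Nice (fun q : (Site V → unitInterval) × ((V → ℤˣ) × (Site V → unitInterval)) =>
        W2 (aV (T n : Set V) (tauw w (r : ℝ)) k q.1 (obsR (cs q.1) q.2.1 q.2.2))) := by
      have h := (measurable_aV (T n : Set V) (tauw w (r : ℝ)) k).comp (measurable_yA' (V := V))
      exact nW2.comp (by simpa only [Function.comp_def] using h)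
    have s2 : ∫ U, (∫ p, W2 (aV (T n : Set V) (tauw w (r : ℝ)) k U (obsR (cs U) p.1 p.2)) ∂(BM μ))
          ∂(iidLabels (Site V))
        = ∫ q, W2 (aV (T n : Set V) (tauw w (r : ℝ)) k q.1 (obsR (cs q.1) q.2.1 q.2.2)) ∂(AM μ) := by
      unfold AM
      exact (nq.integral_prod _ _).symm
    rw [s2]
    by_cases hc : t1 ≤ (r : ℝ) ∧ (r : ℝ) < t2
    · have : ind (r : ℝ) = 1 := by simp only [hind]; rw [if_pos hc]
      rw [this, one_mul]
      apply Wt_AM_le hG hθ0 hθ1 hflip hμ hTb k r.2.1 (hc.2.le.trans h2) hs0 hs1 _ n hv hw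
      intro hk
      refine (hs hk).trans ?_
      have : t1 ^ 3 ≤ (r : ℝ) ^ 3 := pow_le_pow_left₀ h1 hc.1 3
      linarith
    · have : ind (r : ℝ) = 0 := by simp only [hind]; rw [if_neg hc]
      rw [this, zero_mul]
      exact hbd0
  have nr : Nice (fun r : unitInterval => ∫ U, (∫ p, Ψ (Function.update U (k, w) r, p) ∂(BM μ))
      ∂(iidLabels (Site V))) := (nψ.comp mup).integral_left (iidLabels (Site V))
  calc ∫ r : unitInterval, ∫ U, (∫ p, Ψ (Function.update U (k, w) r, p) ∂(BM μ))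
        ∂(iidLabels (Site V))
      ≤ ∫ _r : unitInterval, (1 - (1 - θ ^ 2) * s) ^ (G.dist v w - 1) :=
        nr.integral_mono' (Nice.const _) volume hr
    _ = _ := by simp

/-- two-level dominated convergence -/
lemma tendsto_AM {f : ℕ → (Site V → unitInterval) × ((V → ℤˣ) × (Site V → unitInterval)) → ℝ}
    {g : (Site V → unitInterval) × ((V → ℤˣ) × (Site V → unitInterval)) → ℝ}
    (hf : ∀ n, Nice (f n)) (hg : Nice g) {C : ℝ} (hC : ∀ n q, |f n q| ≤ C)
    (hlim : ∀ U, ∀ᵐ p ∂(BM μ), Tendsto (fun n => f n (U, p)) atTop (𝓝 (g (U, p)))) :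
    Tendsto (fun n => ∫ q, f n q ∂(AM μ)) atTop (𝓝 (∫ q, g q ∂(AM μ))) := by
  have e1 : ∀ n, ∫ q, f n q ∂(AM μ) = ∫ U, ∫ p, f n (U, p) ∂(BM μ) ∂(iidLabels (Site V)) := by
    intro n
    unfold AM
    exact (hf n).integral_prod _ _
  have e2 : ∫ q, g q ∂(AM μ) = ∫ U, ∫ p, g (U, p) ∂(BM μ) ∂(iidLabels (Site V)) := by
    unfold AM
    exact hg.integral_prod _ _
  simp only [e1, e2]
  have hCn : 0 ≤ C := (abs_nonneg _).trans (hC 0 Classical.ofNonempty)
  apply tendsto_integral_of_dominated_convergence (fun _ => C)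
  · intro n
    exact ((hf n).integral_right (BM μ)).1.aestronglyMeasurable
  · exact integrable_const C
  · intro n
    refine Eventually.of_forall (fun U => ?_)
    calc ‖∫ p, f n (U, p) ∂(BM μ)‖ ≤ ∫ p, ‖f n (U, p)‖ ∂(BM μ) := norm_integral_le_integral_norm _
      _ ≤ ∫ _p, C ∂(BM μ) := by
        apply integral_mono
        · exact (((hf n).comp measurable_prodMk_left).integrable _).norm
        · exact integrable_const C
        · intro p
          exact hC n (U, p)
      _ = C := by simp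
  · refine Eventually.of_forall (fun U => ?_)
    apply tendsto_integral_of_dominated_convergence (fun _ => C)
    · intro n
      exact ((hf n).comp measurable_prodMk_left).1.aestronglyMeasurable
    · exact integrable_const C
    · intro n
      exact Eventually.of_forall (fun p => hC n (U, p))
    · exact hlim U

/-- magnetizations are bounded by one if the cavity magnetizations are -/
lemma abs_mag_le_one' {θ : ℝ} (hθ0 : 0 ≤ θ) (hθ1 : θ < 1) {x : V → V → ℝ}
    (hx : ∀ c p, |x c p| ≤ 1) (v : V) : |mag G θ x v| ≤ 1 := by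
  unfold mag
  split_ifs with h
  · unfold magE comb
    set a := x v h.choose
    set b := θ * x h.choose v
    have ha : |a| ≤ 1 := hx _ _
    have hb : |b| < 1 := by
      simp only [b]
      rw [abs_mul, abs_of_nonneg hθ0]
      calc θ * |x h.choose v| ≤ θ * 1 := mul_le_mul_of_nonneg_left (hx _ _) hθ0
        _ < 1 := by linarith
    have ha' := abs_le.mp ha
    have hb' := abs_lt.mp hb
    have hab : |a * b| < 1 := by
      rw [abs_mul]
      calc |a| * |b| ≤ 1 * |b| := mul_le_mul_of_nonneg_right ha (abs_nonneg _)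
        _ < 1 := by linarith
    have hpos : 0 < 1 + a * b := by
      have := (abs_lt.mp hab).1
      linarith
    rw [abs_div, abs_of_pos hpos, div_le_one hpos, abs_le]
    constructor
    · nlinarith
    · nlinarith
  · simp

lemma abs_CT_le_one_p {θ : ℝ} (hθ0 : 0 ≤ θ) (hθ1 : θ < 1) (hG : G.IsTree)
    (U : Site V → unitInterval) (k : ℕ) (t : ℝ) (v w : V) (y : Site V → ℝ) :
    |CT G θ μ T U k t v w y| ≤ 1 := by
  have hb : ∀ c p, |cavT G μ T U k t y c p| ≤ 1 := fun c p =>
    abs_limOr0_le zero_le_one (fun n => abs_post_le (ak_bounds (k + 1)).1 (ak_bounds (k + 1)).2 c _ _)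
  have h1 := abs_mag_le_one' (G := G) hθ0 hθ1 hb v
  have h2 := Wt_mem hθ0 hθ1 hG.connected hb v w
  unfold CT Cv
  have h3 : mag G θ (cavT G μ T U k t y) v ^ 2 ≤ 1 := by
    rw [← sq_abs]; exact pow_le_one₀ (abs_nonneg _) h1
  have h4 : 0 ≤ mag G θ (cavT G μ T U k t y) v ^ 2 := sq_nonneg _
  have h5 : θ ^ G.dist v w ≤ 1 := pow_le_one₀ hθ0 hθ1.le
  have h6 : 0 ≤ θ ^ G.dist v w := pow_nonneg hθ0 _
  have h7 : 0 ≤ (1 - mag G θ (cavT G μ T U k t y) v ^ 2) * θ ^ G.dist v w :=
    mul_nonneg (by linarith) h6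
  rw [abs_of_nonneg (mul_nonneg h7 h2.1)]
  have h8 : (1 - mag G θ (cavT G μ T U k t y) v ^ 2) * θ ^ G.dist v w ≤ 1 :=
    mul_le_one₀ (by linarith) h6 h5
  exact mul_le_one₀ h8 h2.1 h2.2

lemma abs_JT_le {θ : ℝ} (hθ0 : 0 ≤ θ) (hθ1 : θ < 1) (hG : G.IsTree) (k : ℕ) (t1 t2 : ℝ) (v w : V)
    (U : Site V → unitInterval) (y : Site V → ℝ) : |JT G θ μ T k t1 t2 v w U y| ≤ 1 := by
  unfold JT
  split_ifs
  · exact (abs_jump_le (abs_z_le U y (k, w)) (abs_MT_le U k _ w y)).trans
      (abs_CT_le_one_p hθ0 hθ1 hG U k _ v w y)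
  · simp

lemma nice_JT {θ : ℝ} (hθ0 : 0 ≤ θ) (hθ1 : θ < 1) (hG : G.IsTree) (k : ℕ) (t1 t2 : ℝ) (v w : V) :
    Nice (fun q : (Site V → unitInterval) × (Site V → ℝ) => JT G θ μ T k t1 t2 v w q.1 q.2) := by
  refine ⟨?_, 1, fun q => abs_JT_le hθ0 hθ1 hG k t1 t2 v w q.1 q.2⟩
  have mU : Measurable (fun q : (Site V → unitInterval) × (Site V → ℝ) =>
      ((q.1 (k, w) : unitInterval) : ℝ)) :=
    measurable_subtype_coe.comp ((measurable_pi_apply (k, w)).comp measurable_fst)
  have mz : Measurable (fun q : (Site V → unitInterval) × (Site V → ℝ) =>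
      cs q.1 (k, w) * cl (q.2 (k, w))) :=
    ((measurable_pi_apply (k, w)).comp (measurable_cs.comp measurable_fst)).mul
      (measurable_cl.comp ((measurable_pi_apply (k, w)).comp measurable_snd))
  have mT : Measurable (fun q : (Site V → unitInterval) × (Site V → ℝ) =>
      (q.1, (((q.1 (k, w) : unitInterval) : ℝ), q.2))) :=
    measurable_fst.prodMk (mU.prodMk measurable_snd)
  have m1 := (measurable_CT (G := G) (μ := μ) (T := T) (θ := θ) k v w).comp mT
  have m2 := (measurable_MT (μ := μ) (T := T) k w).comp mT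
  simp only [Function.comp_def] at m1 m2
  unfold JT
  apply Measurable.ite
  · exact (measurableSet_le measurable_const mU).inter (measurableSet_lt mU measurable_const)
  · exact (mz.mul m1).div ((mz.mul m2).const_add 1)
  · exact measurable_const

/-- the summable majorant -/
noncomputable def kap (G : SimpleGraph V) (θ s : ℝ) (v w : V) : ℝ :=
  θ ^ (2 * G.dist v w) * (1 - (1 - θ ^ 2) * s) ^ (G.dist v w - 1)

lemma kap_summable {d : ℕ} (hreg : ∀ v, G.degree v = d) (hd : 3 ≤ d) (hG : G.IsTree) {θ : ℝ}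
    (hθ0 : 0 < θ) (hθ1 : θ < 1) (hcrit : ((d : ℝ) - 1) * θ ^ 2 = 1) {s : ℝ} (hs0 : 0 < s)
    (hs1 : s ≤ 1 / 288) (v : V) : Summable (kap G θ s v) ∧ ∀ w, 0 ≤ kap G θ s v w := by
  have h1 : 0 < θ ^ 2 := by positivity
  have h2 : θ ^ 2 < 1 := pow_lt_one₀ hθ0.le hθ1 (by norm_num)
  set q : ℝ := 1 - (1 - θ ^ 2) * s with hq
  have hq0 : 0 < q := by rw [hq]; nlinarith
  have hq1 : q < 1 := by rw [hq]; nlinarith
  have hnn : ∀ w, 0 ≤ kap G θ s v w := fun w => by
    unfold kap
    positivity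
  refine ⟨?_, hnn⟩
  set x : ℝ := θ ^ 2 * q with hx
  have hx0 : 0 < x := by positivity
  have hdx : ((d : ℝ) - 1) * x < 1 := by
    rw [hx, ← mul_assoc, hcrit, one_mul]
    exact hq1
  have hle : ∀ w, kap G θ s v w ≤ q⁻¹ * x ^ G.dist v w := by
    intro w
    unfold kap
    rw [← hq]
    rcases Nat.eq_zero_or_pos (G.dist v w) with h | h
    · rw [h]
      simp only [mul_zero, pow_zero, Nat.zero_sub, mul_one]
      exact (one_le_inv₀ hq0).mpr hq1.le
    · obtain ⟨m, hm⟩ : ∃ m, G.dist v w = m + 1 := ⟨G.dist v w - 1, by omega⟩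
      rw [hm, hx, mul_pow, pow_mul, Nat.add_sub_cancel, pow_succ q m]
      apply le_of_eq
      field_simp
  refine summable_of_sum_le (c := q⁻¹ * (2 / (1 - ((d : ℝ) - 1) * x))) hnn (fun F => ?_)
  calc ∑ w ∈ F, kap G θ s v w ≤ ∑ w ∈ F, q⁻¹ * x ^ G.dist v w :=
        Finset.sum_le_sum (fun w _ => hle w)
    _ = q⁻¹ * ∑ w ∈ F, x ^ G.dist v w := by rw [Finset.mul_sum]
    _ ≤ _ := mul_le_mul_of_nonneg_left
        (sum_pow_dist_le' hG.connected (by omega) hreg v hx0.le hdx F) (inv_nonneg.mpr hq0.le)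

/-- second moment of a sum of orthogonal functions -/
lemma sum_orth_sq {Ω ι : Type*} [MeasurableSpace Ω] [DecidableEq ι] (P : Measure Ω)
    [IsProbabilityMeasure P] (A : Finset ι) (f : ι → Ω → ℝ) (hf : ∀ i ∈ A, Nice (f i))
    (ho : ∀ i ∈ A, ∀ j ∈ A, i ≠ j → ∫ ω, f i ω * f j ω ∂P = 0) :
    ∫ ω, (∑ i ∈ A, f i ω) ^ 2 ∂P = ∑ i ∈ A, ∫ ω, (f i ω) ^ 2 ∂P := by
  have e : ∀ ω, (∑ i ∈ A, f i ω) ^ 2 = ∑ i ∈ A, ∑ j ∈ A, f i ω * f j ω := by
    intro ω
    rw [sq, Finset.sum_mul_sum]
  simp only [e]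
  rw [integral_finsetSum _ (fun i hi => (Nice.sum A
    (fun j hj => (hf i hi).mul (hf j hj))).integrable P)]
  apply Finset.sum_congr rfl
  intro i hi
  rw [integral_finsetSum _ (fun j hj => ((hf i hi).mul (hf j hj)).integrable P)]
  rw [Finset.sum_eq_single i]
  · congr 1
    ext ω
    ring
  · intro j hj hji
    exact ho i hi j hj (Ne.symm hji)
  · intro h
    exact absurd hi h


/-- finite-volume difference of increment and jumps -/
noncomputable def DFn (μ : Measure (V → ℤˣ)) (F : Finset V) (k : ℕ) (t1 t2 : ℝ) (v : V)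
    (B : Finset V) (U : Site V → unitInterval) (y : Site V → ℝ) : ℝ :=
  post μ (ak (k + 1)) v F (aT U k t2 y) - post μ (ak (k + 1)) v F (aT U k t1 y)
    - ∑ w ∈ B, JF μ F k t1 t2 v w U y

/-- difference of increment and jumps -/
noncomputable def DIn (G : SimpleGraph V) (θ : ℝ) (μ : Measure (V → ℤˣ)) (T : ℕ → Finset V)
    (k : ℕ) (t1 t2 : ℝ) (v : V)
    (B : Finset V) (U : Site V → unitInterval) (y : Site V → ℝ) : ℝ :=
  MT μ T U k t2 v y - MT μ T U k t1 v y - ∑ w ∈ B, JT G θ μ T k t1 t2 v w U y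

lemma measurable_time (t : ℝ) : Measurable (fun q : (Site V → unitInterval) × (Site V → ℝ) =>
      (q.1, (t, q.2))) := measurable_fst.prodMk (measurable_const.prodMk measurable_snd)

lemma nice_postT (F : Finset V) (k : ℕ) (t : ℝ) (v : V) :
    Nice (fun q : (Site V → unitInterval) × (Site V → ℝ) =>
      post μ (ak (k + 1)) v F (aT q.1 k t q.2)) := by
  refine ⟨?_, 1, fun q => abs_post_le (ak_bounds _).1 (ak_bounds _).2 _ _ _⟩
  have h := (measurable_post (μ := μ) (α := ak (k + 1)) v F).comp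
    ((measurable_aT (V := V) k).comp (measurable_time t))
  simpa only [Function.comp_def] using h

lemma nice_DFn (F : Finset V) (k : ℕ) (t1 t2 : ℝ) (v : V) (B : Finset V) :
    Nice (fun q : (Site V → unitInterval) × (Site V → ℝ) => DFn μ F k t1 t2 v B q.1 q.2) := by
  unfold DFn
  exact ((nice_postT F k t2 v).sub (nice_postT F k t1 v)).sub
    (Nice.sum B (fun w _ => nice_JF F k t1 t2 v w))

lemma nice_MTt (k : ℕ) (t : ℝ) (v : V) :
    Nice (fun q : (Site V → unitInterval) × (Site V → ℝ) => MT μ T q.1 k t v q.2) := by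
  have h := (nice_MT (μ := μ) (T := T) k v).comp (measurable_time t)
  exact h

lemma nice_onY {F : (Site V → unitInterval) × (Site V → ℝ) → ℝ} (hF : Nice F) :
    Nice (fun q : (Site V → unitInterval) × ((V → ℤˣ) × (Site V → unitInterval)) =>
      F (q.1, obsR (cs q.1) q.2.1 q.2.2)) :=
  hF.comp measurable_yA'

lemma integral_onY {F : (Site V → unitInterval) × (Site V → ℝ) → ℝ} (hF : Nice F) :
    ∫ q, F (q.1, obsR (cs q.1) q.2.1 q.2.2) ∂(AM μ)
      = ∫ U, (∫ p, F (U, obsR (cs U) p.1 p.2) ∂(BM μ)) ∂(iidLabels (Site V)) := by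
  unfold AM
  exact (nice_onY hF).integral_prod _ _

lemma nice_onY_inner {F : (Site V → unitInterval) × (Site V → ℝ) → ℝ} (hF : Nice F) :
    Nice (fun U => ∫ p, F (U, obsR (cs U) p.1 p.2) ∂(BM μ)) :=
  (nice_onY hF).integral_right (BM μ)

lemma nice_onY_slice {F : (Site V → unitInterval) × (Site V → ℝ) → ℝ} (hF : Nice F)
    (U : Site V → unitInterval) :
    Nice (fun p : (V → ℤˣ) × (Site V → unitInterval) => F (U, obsR (cs U) p.1 p.2)) := by
  have h := (nice_onY hF).comp (measurable_prodMk_left (x := U))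
  exact h

lemma nice_DIn {θ : ℝ} (hθ0 : 0 ≤ θ) (hθ1 : θ < 1) (hG : G.IsTree) (k : ℕ) (t1 t2 : ℝ) (v : V)
    (B : Finset V) :
    Nice (fun q : (Site V → unitInterval) × (Site V → ℝ) => DIn G θ μ T k t1 t2 v B q.1 q.2) := by
  unfold DIn
  have n2 := Nice.sum B (fun w _ => nice_JT (μ := μ) (T := T) hθ0 hθ1 hG k t1 t2 v w)
  exact ((nice_MTt k t2 v).sub (nice_MTt k t1 v)).sub n2

lemma abs_DFn_sq_le (F : Finset V) (k : ℕ) (t1 t2 : ℝ) (v : V) (B : Finset V)
    (U : Site V → unitInterval) (y : Site V → ℝ) :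
    |DFn μ F k t1 t2 v B U y ^ 2| ≤ (2 + 2 * B.card) ^ 2 := by
  rw [abs_pow]
  apply pow_le_pow_left₀ (abs_nonneg _)
  unfold DFn
  have a1 := abs_post_le (μ := μ) (ak_bounds (k + 1)).1 (ak_bounds (k + 1)).2 v F (aT U k t2 y)
  have a2 := abs_post_le (μ := μ) (ak_bounds (k + 1)).1 (ak_bounds (k + 1)).2 v F (aT U k t1 y)
  have a3 : |∑ w ∈ B, JF μ F k t1 t2 v w U y| ≤ 2 * B.card := by
    calc |∑ w ∈ B, JF μ F k t1 t2 v w U y|
        ≤ ∑ w ∈ B, |JF μ F k t1 t2 v w U y| := Finset.abs_sum_le_sum_abs _ _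
      _ ≤ ∑ _w ∈ B, (2 : ℝ) := Finset.sum_le_sum (fun w _ => abs_JF_le _ _ _ _ _ _ _ _)
      _ = 2 * B.card := by rw [Finset.sum_const, nsmul_eq_mul]; ring
  refine (abs_sub _ _).trans ?_
  have := abs_sub (post μ (ak (k + 1)) v F (aT U k t2 y)) (post μ (ak (k + 1)) v F (aT U k t1 y))
  linarith

lemma integral_DIn_QM {θ : ℝ} (hθ0 : 0 ≤ θ) (hθ1 : θ < 1) (hG : G.IsTree) (k : ℕ) (t1 t2 : ℝ)
    (v : V) (B : Finset V) :
    ∫ q, (DIn G θ μ T k t1 t2 v B q.1.1 q.2) ^ 2 ∂(QM μ T)
      = ∫ q, (DIn G θ μ T k t1 t2 v B q.1 (obsR (cs q.1) q.2.1 q.2.2)) ^ 2 ∂(AM μ) := by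
  unfold QM
  have mUy : Measurable (fun q : Om V × (Site V → ℝ) => (q.1.1, q.2)) :=
    (measurable_fst.comp measurable_fst).prodMk measurable_snd
  have h := ((nice_DIn (μ := μ) (T := T) hθ0 hθ1 hG k t1 t2 v B).comp mUy).pow 2
  rw [integral_map measurable_toQ.aemeasurable h.1.aestronglyMeasurable]
  simp only [toQ]

lemma tendsto_DFn {d : ℕ} (hreg : ∀ v, G.degree v = d) (hd : 1 ≤ d) (hG : G.IsTree) {θ : ℝ}
    (hθ0 : 0 ≤ θ) (hθ1 : θ < 1)
    (hflip : μ.map (fun σ : V → ℤˣ => fun v => - σ v) = μ)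
    (hμ : EdgeFactor G θ μ) (hT : Monotone T) (hTu : ∀ v, ∃ n, v ∈ T n)
    (k : ℕ) (t1 t2 : ℝ) (v : V) (B : Finset V) (U : Site V → unitInterval) :
    ∀ᵐ p ∂(BM μ), Tendsto (fun n => DFn μ (T n) k t1 t2 v B U (obsR (cs U) p.1 p.2)) atTop
      (𝓝 (DIn G θ μ T k t1 t2 v B U (obsR (cs U) p.1 p.2))) := by
  have l2 := limits_q (μ := μ) (T := T) hreg hd hG hθ0 hθ1 hflip hμ hT hTu U k t2
  have l1 := limits_q (μ := μ) (T := T) hreg hd hG hθ0 hθ1 hflip hμ hT hTu U k t1
  have lw : ∀ᵐ p ∂(BM μ), ∀ w ∈ B,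
      (∀ v, Tendsto (fun n => post μ (ak (k + 1)) v (T n)
        (aT U k (U (k, w)) (obsR (cs U) p.1 p.2))) atTop
        (𝓝 (MT μ T U k (U (k, w)) v (obsR (cs U) p.1 p.2)))) ∧
      (∀ v w', Tendsto (fun n =>
          corr μ (ak (k + 1)) v w' (T n) (aT U k (U (k, w)) (obsR (cs U) p.1 p.2))
            - post μ (ak (k + 1)) v (T n) (aT U k (U (k, w)) (obsR (cs U) p.1 p.2))
              * post μ (ak (k + 1)) w' (T n) (aT U k (U (k, w)) (obsR (cs U) p.1 p.2))) atTop
        (𝓝 (CT G θ μ T U k (U (k, w)) v w' (obsR (cs U) p.1 p.2)))) := by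
    rw [Filter.eventually_all_finset]
    intro w _
    filter_upwards [limits_q (μ := μ) (T := T) hreg hd hG hθ0 hθ1 hflip hμ hT hTu
      U k (U (k, w))] with p hp
    exact ⟨hp.1, hp.2.2⟩
  filter_upwards [l1, l2, lw] with p hp1 hp2 hpw
  unfold DFn DIn
  apply Tendsto.sub
  · exact (hp2.1 v).sub (hp1.1 v)
  · apply tendsto_finsetSum
    intro w hw
    obtain ⟨q1, q2⟩ := hpw w hw
    unfold JF JT
    by_cases hc : t1 ≤ (U (k, w) : ℝ) ∧ (U (k, w) : ℝ) < t2
    · simp only [if_pos hc]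
      apply Tendsto.div
      · exact (q2 v w).const_mul _
      · exact ((q1 w).const_mul _).const_add 1
      · have := den_ge (abs_z_le U (obsR (cs U) p.1 p.2) (k, w))
          (abs_MT_le (μ := μ) (T := T) U k (U (k, w)) w (obsR (cs U) p.1 p.2))
        linarith
    · simp only [if_neg hc]
      exact tendsto_const_nhds

/-- finite-volume form of the bound -/
lemma DFn_sq_le {d : ℕ} (hreg : ∀ v, G.degree v = d) (hd : 1 ≤ d) (hG : G.IsTree) {θ : ℝ}
    (hθ0 : 0 ≤ θ) (hθ1 : θ < 1)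
    (hflip : μ.map (fun σ : V → ℤˣ => fun v => - σ v) = μ)
    (hμ : EdgeFactor G θ μ) {o : V} (hTb : ∀ n x, x ∈ T n ↔ G.dist o x ≤ n)
    (k : ℕ) {t1 t2 s : ℝ} (h1 : 0 ≤ t1) (h12 : t1 ≤ t2) (h2 : t2 ≤ 1 / 2)
    (hs0 : 0 ≤ s) (hs1 : s ≤ 1 / 288) (hs : k = 0 → s ≤ t1 ^ 3 / 36) (n : ℕ) {v : V}
    (hv : v ∈ T n) {B : Finset V} (hB : B ⊆ T n) :
    ∫ q, (DFn μ (T n) k t1 t2 v B q.1 (obsR (cs q.1) q.2.1 q.2.2)) ^ 2 ∂(AM μ)
      ≤ ∑ w ∈ T n \ B, kap G θ s v w := by
  have hT : Monotone T := by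
    intro a b hab x hx
    rw [hTb] at hx ⊢
    exact hx.trans hab
  have hTu : ∀ v, ∃ n, v ∈ T n := fun v => ⟨G.dist o v, (hTb _ _).mpr le_rfl⟩
  set A : Finset V := T n \ B with hA
  have hAT : ∀ w ∈ A, w ∈ T n := fun w hw => (Finset.mem_sdiff.mp hw).1
  have nF : ∀ w, Nice (fun q : (Site V → unitInterval) × (Site V → ℝ) =>
      (JF μ (T n) k t1 t2 v w q.1 q.2) ^ 2) := fun w => (nice_JF (T n) k t1 t2 v w).pow 2
  have eD : ∀ U, NoTieAll U → ∀ y, DFn μ (T n) k t1 t2 v B U y
      = ∑ w ∈ A, JF μ (T n) k t1 t2 v w U y := by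
    intro U hU y
    unfold DFn
    rw [telescope_fin (T n) k h12 v U hU, ← Finset.sum_sdiff hB]
    ring
  have s1 := integral_onY (μ := μ) ((nice_DFn (μ := μ) (T n) k t1 t2 v B).pow 2)
  have s2 : ∫ U, (∫ p, (DFn μ (T n) k t1 t2 v B U (obsR (cs U) p.1 p.2)) ^ 2 ∂(BM μ))
        ∂(iidLabels (Site V))
      = ∫ U, (∑ w ∈ A, ∫ p, (JF μ (T n) k t1 t2 v w U (obsR (cs U) p.1 p.2)) ^ 2 ∂(BM μ))
          ∂(iidLabels (Site V)) := by
    apply integral_congr_ae
    filter_upwards [noTieAll_ae (V := V)] with U hU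
    simp only [eD U hU]
    apply sum_orth_sq (BM μ) A (fun w p => JF μ (T n) k t1 t2 v w U (obsR (cs U) p.1 p.2))
    · intro w _
      exact nice_onY_slice (nice_JF (T n) k t1 t2 v w) U
    · intro w hw w' hw' hne
      exact orth_fin hT hTu n k t1 t2 v (hAT w hw) (hAT w' hw') hne U hU
  refine (le_of_eq (s1.trans s2)).trans ?_
  rw [integral_finsetSum _ (fun w _ => (nice_onY_inner (μ := μ) (nF w)).integrable _)]
  apply Finset.sum_le_sum
  intro w hw
  have h := dom_fin (μ := μ) hreg hd hG hθ0 hθ1 hflip hμ hTb k h1 h2 hs0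
    hs1 hs n hv (hAT w hw)
  exact (le_of_eq (integral_onY (μ := μ) (nF w)).symm).trans h

/-- Convergence of the jump series.  For `B` fixed and `n` large (`v ∈ T n`, `B ⊆ T n`), by
`telescope_fin` and `orth_fin` the finite-volume analogue of the left side is
`∑ w ∈ T n \ B, ∫ JF²`, at most `∑ w ∉ B, κ w` with `κ w` the right side of `dom_fin`; `κ` is summable by
`sum_pow_dist_le'` (`(d - 1) θ² = 1`, ratio `x = θ² (1 - (1 - θ²) s)`).  Let `n → ∞` with `limits_q` at the
times `t1`, `t2`, `U (k, w)` and bounded convergence (everything is bounded by constants). -/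
theorem parseval {d : ℕ} (hreg : ∀ v, G.degree v = d) (hd : 3 ≤ d) (hG : G.IsTree) {θ : ℝ}
    (hθ0 : 0 < θ) (hθ1 : θ < 1) (hcrit : ((d : ℝ) - 1) * θ ^ 2 = 1)
    (hflip : μ.map (fun σ : V → ℤˣ => fun v => - σ v) = μ)
    (hμ : EdgeFactor G θ μ) {o : V} (hTb : ∀ n x, x ∈ T n ↔ G.dist o x ≤ n)
    (k : ℕ) (v : V) {t1 t2 : ℝ} (h0 : 0 ≤ t1) (h01 : k = 0 → 0 < t1) (h12 : t1 ≤ t2)
    (h2 : t2 ≤ 1 / 2) :
    ∃ κ : V → ℝ, Summable κ ∧ (∀ w, 0 ≤ κ w) ∧ ∀ B : Finset V,
      ∫ q, (MT μ T q.1.1 k t2 v q.2 - MT μ T q.1.1 k t1 v q.2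
          - ∑ w ∈ B, JT G θ μ T k t1 t2 v w q.1.1 q.2) ^ 2 ∂(QM μ T)
        ≤ ∑' w, κ w - ∑ w ∈ B, κ w := by
  have hT : Monotone T := by
    intro a b hab x hx
    rw [hTb] at hx ⊢
    exact hx.trans hab
  have hTu : ∀ v, ∃ n, v ∈ T n := fun v => ⟨G.dist o v, (hTb _ _).mpr le_rfl⟩
  obtain ⟨s, hs0, hs1, hsk⟩ : ∃ s : ℝ, 0 < s ∧ s ≤ 1 / 288 ∧ (k = 0 → s ≤ t1 ^ 3 / 36) := by
    by_cases hk : k = 0
    · have := h01 hk
      exact ⟨min (t1 ^ 3 / 36) (1 / 288), lt_min (by positivity) (by norm_num), min_le_right _ _,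
        fun _ => min_le_left _ _⟩
    · exact ⟨1 / 288, by norm_num, le_rfl, fun h => absurd h hk⟩
  obtain ⟨hsum, hnn⟩ := kap_summable hreg hd hG hθ0 hθ1 hcrit hs0 hs1 v
  refine ⟨kap G θ s v, hsum, hnn, fun B => ?_⟩
  have hL := integral_DIn_QM (μ := μ) (T := T) hθ0.le hθ1 hG k t1 t2 v B
  have hL' : ∫ q, (MT μ T q.1.1 k t2 v q.2 - MT μ T q.1.1 k t1 v q.2
          - ∑ w ∈ B, JT G θ μ T k t1 t2 v w q.1.1 q.2) ^ 2 ∂(QM μ T)
      = ∫ q, (DIn G θ μ T k t1 t2 v B q.1 (obsR (cs q.1) q.2.1 q.2.2)) ^ 2 ∂(AM μ) := hL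
  rw [hL']
  have hconv := tendsto_AM (μ := μ)
    (f := fun n q => (DFn μ (T n) k t1 t2 v B q.1 (obsR (cs q.1) q.2.1 q.2.2)) ^ 2)
    (g := fun q => (DIn G θ μ T k t1 t2 v B q.1 (obsR (cs q.1) q.2.1 q.2.2)) ^ 2)
    (fun n => nice_onY ((nice_DFn (μ := μ) (T n) k t1 t2 v B).pow 2))
    (nice_onY ((nice_DIn (μ := μ) (T := T) hθ0.le hθ1 hG k t1 t2 v B).pow 2))
    (fun n q => abs_DFn_sq_le (μ := μ) (T n) k t1 t2 v B q.1 _)
    (fun U => by
      filter_upwards [tendsto_DFn (μ := μ) (T := T) hreg (by omega) hG hθ0.le hθ1 hflip hμ hT hTu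
        k t1 t2 v B U] with p hp
      exact hp.pow 2)
  refine le_of_tendsto hconv ?_
  obtain ⟨nv, hnv⟩ := hTu v
  have hBn : ∃ N, B ⊆ T N := by
    choose f hf using hTu
    refine ⟨B.sup f, fun w hw => hT (Finset.le_sup hw) (hf w)⟩
  obtain ⟨nB, hnB⟩ := hBn
  filter_upwards [eventually_ge_atTop (max nv nB)] with n hn
  have hvn : v ∈ T n := hT ((le_max_left _ _).trans hn) hnv
  have hBn : B ⊆ T n := hnB.trans (hT ((le_max_right _ _).trans hn))
  refine (DFn_sq_le (μ := μ) hreg (by omega) hG hθ0.le hθ1 hflip hμ hTb k h0 h12 h2 hs0.le hs1 hsk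
    n hvn hBn).trans ?_
  have h1 : ∑ w ∈ T n, kap G θ s v w ≤ ∑' w, kap G θ s v w :=
    hsum.sum_le_tsum _ (fun w _ => hnn w)
  rw [← Finset.sum_sdiff hBn] at h1
  linarith

end Vale.Agent.P161c
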