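import Vale.Agent.P161c.Evol1
import Vale.Agent.P161c.Parseval

/-!
Energy identity for the difference of the two copies.
-/

set_option linter.unusedSectionVars false
set_option linter.unusedVariables false

namespace Vale.Agent.P161c

open MeasureTheory SimpleGraph Vale.Agent.H13.P161 Filter Topology

variable {V : Type*} [Countable V] [DecidableEq V] {G : SimpleGraph V} [LocallyFinite G]
  {μ : Measure (V → ℤˣ)} [IsProbabilityMeasure μ] {T : ℕ → Finset V} {θ : ℝ}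

lemma meas_left : Measurable (fun q : Om V × ((Site V → ℝ) × (Site V → ℝ)) => (q.1.1, q.2.1)) := by
  fun_prop

lemma meas_right : Measurable (fun q : Om V × ((Site V → ℝ) × (Site V → ℝ)) => (q.1.1, q.2.2)) := by
  fun_prop

/-- difference of a functional on the two copies -/
def dif (F : (Site V → unitInterval) × (Site V → ℝ) → ℝ)
    (q : Om V × ((Site V → ℝ) × (Site V → ℝ))) : ℝ := F (q.1.1, q.2.1) - F (q.1.1, q.2.2)

lemma nice_dif {F : (Site V → unitInterval) × (Site V → ℝ) → ℝ} (hF : Nice F) : Nice (dif F) :=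
  (hF.comp meas_left).sub (hF.comp meas_right)

/-- the jump functional -/
noncomputable def jf (G : SimpleGraph V) (θ : ℝ) (μ : Measure (V → ℤˣ)) (T : ℕ → Finset V) (k : ℕ)
    (t1 t2 : ℝ) (v w : V) (r : (Site V → unitInterval) × (Site V → ℝ)) : ℝ :=
  JT G θ μ T k t1 t2 v w r.1 r.2

/-- the magnetization functional -/
noncomputable def mf (μ : Measure (V → ℤˣ)) (T : ℕ → Finset V) (k : ℕ) (t : ℝ) (v : V)
    (r : (Site V → unitInterval) × (Site V → ℝ)) : ℝ := MT μ T r.1 k t v r.2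

lemma nice_jf (hθ0 : 0 ≤ θ) (hθ1 : θ < 1) (k : ℕ) (t1 t2 : ℝ) (v w : V) :
    Nice (jf G θ μ T k t1 t2 v w) := nice_JT_e hθ0 hθ1 k t1 t2 v w

lemma nice_mf (k : ℕ) (t : ℝ) (v : V) : Nice (mf μ T k t v) := by
  refine ⟨?_, 1, fun r => abs_MT_le _ _ _ _ _⟩
  have h : Measurable (fun q : (Site V → unitInterval) × (Site V → ℝ) =>
      (q.1, ((t : ℝ), q.2))) := by fun_prop
  have h2 := (measurable_MT (μ := μ) (T := T) k v).comp h
  unfold mf
  simpa only [Function.comp_def] using h2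

lemma ae_noTie_relP (hT : Monotone T) (hTu : ∀ v, ∃ n, v ∈ T n) :
    ∀ᵐ q ∂(relP (QM μ T)), NoTieAll q.1.1 := by
  have h1 : ∀ᵐ o ∂(PP V), NoTieAll o.1 := by
    unfold PP
    exact Measure.quasiMeasurePreserving_fst.ae (noTieAll_ae (V := V))
  rw [← QM_fst (μ := μ) hT hTu] at h1
  have h2 : ∀ᵐ q ∂(QM μ T), NoTieAll q.1.1 := ae_of_ae_map measurable_fst.aemeasurable h1
  rw [← relP_map_left (Q := QM μ T)] at h2
  have m : Measurable (fun q : Om V × ((Site V → ℝ) × (Site V → ℝ)) => (q.1, q.2.1)) :=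
    measurable_fst.prodMk (measurable_fst.comp measurable_snd)
  exact ae_of_ae_map m.aemeasurable h2

lemma cut_mono_of_lt {U : Site V → unitInterval} {k : ℕ} {t t' : ℝ} (h : t ≤ t') :
    cut U k t ⊆ cut U k t' := by
  intro j hj
  rcases hj with hj | hj
  · exact Or.inl hj
  · exact Or.inr ⟨hj.1, hj.2.trans_le h⟩

lemma MT_msk' (U : Site V → unitInterval) {k : ℕ} {t : ℝ} {S : Set (Site V)}
    (h : cut U k t ⊆ S) (v : V) (y : Site V → ℝ) :
    MT μ T U k t v (msk S y) = MT μ T U k t v y := by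
  rw [← MT_msk U k t v (msk S y), msk_msk h, MT_msk]

lemma CT_msk' (U : Site V → unitInterval) {k : ℕ} {t : ℝ} {S : Set (Site V)}
    (h : cut U k t ⊆ S) (v w : V) (y : Site V → ℝ) :
    CT G θ μ T U k t v w (msk S y) = CT G θ μ T U k t v w y := by
  rw [← CT_msk U k t v w (msk S y), msk_msk h, CT_msk]

lemma msk_mem {S : Set (Site V)} {i : Site V} (h : i ∈ S) (y : Site V → ℝ) : msk S y i = y i := by
  classical
  unfold msk
  rw [if_pos h]

lemma JT_msk' (U : Site V → unitInterval) {k : ℕ} {t1 t2 : ℝ} {w : V} {S : Set (Site V)}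
    (h : cut U k (U (k, w)) ⊆ S) (hi : ((k, w) : Site V) ∈ S) (v : V) (y : Site V → ℝ) :
    JT G θ μ T k t1 t2 v w U (msk S y) = JT G θ μ T k t1 t2 v w U y := by
  unfold JT
  rw [CT_msk' U h, MT_msk' U h, msk_mem hi]

lemma jf_coI (k : ℕ) (t1 t2 : ℝ) (v w : V) (r : (Site V → unitInterval) × (Site V → ℝ)) :
    jf G θ μ T k t1 t2 v w r = geI t1 (r.1 (k, w)) * jf G θ μ T k t1 t2 v w r := by
  unfold jf
  rw [JT_eq]
  by_cases h : t1 ≤ (r.1 (k, w) : ℝ)
  · unfold geI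
    rw [if_pos h, one_mul]
  · have : coI t1 t2 (r.1 (k, w)) = 0 := by
      unfold coI
      rw [if_neg (fun hh => h hh.1)]
    rw [this]
    ring

variable (hT : Monotone T) (hTu : ∀ v, ∃ n, v ∈ T n)

include hT hTu

lemma ortho_gen (hθ0 : 0 ≤ θ) (hθ1 : θ < 1) (k : ℕ) (t1 t2 : ℝ) (v w : V)
    {H : (Site V → unitInterval) × (Site V → ℝ) → ℝ} (hH : Nice H)
    (hHS : ∀ U y, H (U, y) = H (U, msk (cut U k (U (k, w))) y)) :
    ∫ q, dif H q * dif (jf G θ μ T k t1 t2 v w) q ∂(relP (QM μ T)) = 0 := by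
  have n1 : Nice (fun _ : (Site V → unitInterval) × (Site V → ℝ) => (1 : ℝ)) := Nice.const 1
  have nj := nice_jf (G := G) (μ := μ) (T := T) hθ0 hθ1 k t1 t2 v w
  have a1 := relP_JT_left (G := G) (μ := μ) hT hTu hθ0 hθ1 k t1 t2 v w hH hHS n1 (fun _ _ => rfl)
  have a2 := relP_JT_left (G := G) (μ := μ) hT hTu hθ0 hθ1 k t1 t2 v w n1 (fun _ _ => rfl) hH hHS
  have a3 := relP_JT_right (G := G) (μ := μ) hT hTu hθ0 hθ1 k t1 t2 v w hH hHS n1 (fun _ _ => rfl)
  have a4 := relP_JT_right (G := G) (μ := μ) hT hTu hθ0 hθ1 k t1 t2 v w n1 (fun _ _ => rfl) hH hHS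
  have b1 := (nj.comp (meas_left (V := V))).mul ((hH.comp meas_left).mul (n1.comp meas_right))
  have b2 := (nj.comp (meas_left (V := V))).mul ((n1.comp meas_left).mul (hH.comp meas_right))
  have b3 := (nj.comp (meas_right (V := V))).mul ((hH.comp meas_left).mul (n1.comp meas_right))
  have b4 := (nj.comp (meas_right (V := V))).mul ((n1.comp meas_left).mul (hH.comp meas_right))
  have e : ∀ q : Om V × ((Site V → ℝ) × (Site V → ℝ)),
      dif H q * dif (jf G θ μ T k t1 t2 v w) q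
      = ((jf G θ μ T k t1 t2 v w (q.1.1, q.2.1) * (H (q.1.1, q.2.1) * 1)
        - jf G θ μ T k t1 t2 v w (q.1.1, q.2.1) * (1 * H (q.1.1, q.2.2)))
        - jf G θ μ T k t1 t2 v w (q.1.1, q.2.2) * (H (q.1.1, q.2.1) * 1))
        + jf G θ μ T k t1 t2 v w (q.1.1, q.2.2) * (1 * H (q.1.1, q.2.2)) := by
    intro q
    unfold dif
    ring
  simp only [e]
  rw [((b1.sub b2).sub b3).integral_add' b4, (b1.sub b2).integral_sub' b3, b1.integral_sub' b2]
  unfold jf
  rw [a1, a2, a3, a4]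
  ring

lemma ortho_DK (hθ0 : 0 ≤ θ) (hθ1 : θ < 1) (k : ℕ) (t1 t2 : ℝ) (v w : V) :
    ∫ q, dif (mf μ T k t1 v) q * dif (jf G θ μ T k t1 t2 v w) q ∂(relP (QM μ T)) = 0 := by
  have nH : Nice (fun r : (Site V → unitInterval) × (Site V → ℝ) =>
      geI t1 (r.1 (k, w)) * mf μ T k t1 v r) :=
    ((nice_geI t1).comp ((measurable_pi_apply (k, w)).comp measurable_fst)).mul
      (nice_mf (μ := μ) (T := T) k t1 v)
  have h := ortho_gen (G := G) (μ := μ) hT hTu hθ0 hθ1 k t1 t2 v w nH (fun U y => by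
    simp only [geI, mf]
    by_cases hh : t1 ≤ (U (k, w) : ℝ)
    · rw [MT_msk' U (cut_mono_of_lt hh)]
    · rw [if_neg hh]; ring)
  rw [← h]
  congr 1
  ext q
  have e1 := jf_coI (G := G) (θ := θ) (μ := μ) (T := T) k t1 t2 v w (q.1.1, q.2.1)
  have e2 := jf_coI (G := G) (θ := θ) (μ := μ) (T := T) k t1 t2 v w (q.1.1, q.2.2)
  simp only at e1 e2
  unfold dif
  simp only
  by_cases hh : t1 ≤ (q.1.1 (k, w) : ℝ)
  · have : geI t1 (q.1.1 (k, w)) = 1 := by unfold geI; rw [if_pos hh]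
    rw [this]
    ring
  · have : geI t1 (q.1.1 (k, w)) = 0 := by unfold geI; rw [if_neg hh]
    rw [this] at e1 e2
    rw [e1, e2, this]
    ring

lemma ortho_KK_lt (hθ0 : 0 ≤ θ) (hθ1 : θ < 1) (k : ℕ) (t1 t2 : ℝ) (v w w' : V) :
    ∫ q, (if (q.1.1 (k, w) : ℝ) < q.1.1 (k, w') then
        dif (jf G θ μ T k t1 t2 v w) q * dif (jf G θ μ T k t1 t2 v w') q else 0)
      ∂(relP (QM μ T)) = 0 := by
  have nI : Nice (fun r : (Site V → unitInterval) × (Site V → ℝ) =>
      if (r.1 (k, w) : ℝ) < r.1 (k, w') then (1 : ℝ) else 0) := by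
    refine ⟨?_, 1, fun r => ?_⟩
    · apply Measurable.ite _ measurable_const measurable_const
      exact measurableSet_lt
        (measurable_subtype_coe.comp ((measurable_pi_apply (k, w)).comp measurable_fst))
        (measurable_subtype_coe.comp ((measurable_pi_apply (k, w')).comp measurable_fst))
    · beta_reduce
      split_ifs <;> simp
  have nH := nI.mul (nice_jf (G := G) (μ := μ) (T := T) hθ0 hθ1 k t1 t2 v w)
  have h := ortho_gen (G := G) (μ := μ) hT hTu hθ0 hθ1 k t1 t2 v w' nH (fun U y => by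
    simp only [jf]
    by_cases hh : (U (k, w) : ℝ) < U (k, w')
    · rw [JT_msk' U (cut_mono_of_lt hh.le) (Or.inr ⟨rfl, hh⟩)]
    · rw [if_neg hh]; ring)
  refine Eq.trans ?_ h
  congr 1
  ext q
  unfold dif
  simp only
  by_cases hh : (q.1.1 (k, w) : ℝ) < q.1.1 (k, w')
  · simp only [if_pos hh]
    ring
  · simp only [if_neg hh]
    ring

lemma ortho_KK (hθ0 : 0 ≤ θ) (hθ1 : θ < 1) (k : ℕ) (t1 t2 : ℝ) (v : V) {w w' : V} (hne : w ≠ w') :
    ∫ q, dif (jf G θ μ T k t1 t2 v w) q * dif (jf G θ μ T k t1 t2 v w') q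
      ∂(relP (QM μ T)) = 0 := by
  have h1 := ortho_KK_lt (G := G) (μ := μ) hT hTu hθ0 hθ1 k t1 t2 v w w'
  have h2 := ortho_KK_lt (G := G) (μ := μ) hT hTu hθ0 hθ1 k t1 t2 v w' w
  have nj := nice_dif (nice_jf (G := G) (μ := μ) (T := T) hθ0 hθ1 k t1 t2 v w)
  have nj' := nice_dif (nice_jf (G := G) (μ := μ) (T := T) hθ0 hθ1 k t1 t2 v w')
  have mlt : ∀ a b : V, MeasurableSet {q : Om V × ((Site V → ℝ) × (Site V → ℝ)) |
      (q.1.1 (k, a) : ℝ) < q.1.1 (k, b)} := fun a b =>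
    measurableSet_lt
      (measurable_subtype_coe.comp ((measurable_pi_apply (k, a)).comp
        (measurable_fst.comp measurable_fst)))
      (measurable_subtype_coe.comp ((measurable_pi_apply (k, b)).comp
        (measurable_fst.comp measurable_fst)))
  have nI : ∀ (a b : V) (f : Om V × ((Site V → ℝ) × (Site V → ℝ)) → ℝ), Nice f →
      Nice (fun q : Om V × ((Site V → ℝ) × (Site V → ℝ)) =>
        if (q.1.1 (k, a) : ℝ) < q.1.1 (k, b) then f q else 0) := by
    intro a b f hf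
    obtain ⟨C, hC⟩ := hf.2
    refine ⟨Measurable.ite (mlt a b) hf.1 measurable_const, |C|, fun q => ?_⟩
    beta_reduce
    split_ifs
    · exact (hC q).trans (le_abs_self C)
    · simp
  have n1 := nI w w' _ (nj.mul nj')
  have n2 := nI w' w _ (nj'.mul nj)
  have e : ∫ q, dif (jf G θ μ T k t1 t2 v w) q * dif (jf G θ μ T k t1 t2 v w') q
      ∂(relP (QM μ T))
      = ∫ q, ((if (q.1.1 (k, w) : ℝ) < q.1.1 (k, w') then
        dif (jf G θ μ T k t1 t2 v w) q * dif (jf G θ μ T k t1 t2 v w') q else 0)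
        + (if (q.1.1 (k, w') : ℝ) < q.1.1 (k, w) then
        dif (jf G θ μ T k t1 t2 v w') q * dif (jf G θ μ T k t1 t2 v w) q else 0))
      ∂(relP (QM μ T)) := by
    apply integral_congr_ae
    filter_upwards [ae_noTie_relP (μ := μ) hT hTu] with q hq
    have hne' : ((k, w) : Site V) ≠ (k, w') := fun h => hne (Prod.mk.inj h).2
    have h3 : (q.1.1 (k, w) : ℝ) ≠ q.1.1 (k, w') := fun h => hq _ _ hne' (Subtype.ext h)
    rcases lt_or_gt_of_ne h3 with h | h
    · rw [if_pos h, if_neg (not_lt.mpr h.le), add_zero]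
    · rw [if_neg (not_lt.mpr h.le), if_pos h, zero_add, mul_comm]
  rw [e, n1.integral_add' n2, h1, h2, add_zero]

/-- energy identity for finitely many jumps -/
lemma energy_fin (hθ0 : 0 ≤ θ) (hθ1 : θ < 1) (k : ℕ) (t1 t2 : ℝ) (v : V) (B : Finset V) :
    ∫ q, (dif (mf μ T k t1 v) q + ∑ w ∈ B, dif (jf G θ μ T k t1 t2 v w) q) ^ 2
        ∂(relP (QM μ T))
      = Dsq μ T k t1 v + ∑ w ∈ B, ∫ q, dif (jf G θ μ T k t1 t2 v w) q ^ 2 ∂(relP (QM μ T)) := by
  have nD := nice_dif (nice_mf (μ := μ) (T := T) k t1 v)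
  have nJ : ∀ w, Nice (dif (jf G θ μ T k t1 t2 v w)) := fun w =>
    nice_dif (nice_jf (G := G) (μ := μ) (T := T) hθ0 hθ1 k t1 t2 v w)
  induction B using Finset.induction_on with
  | empty =>
    simp only [Finset.sum_empty, add_zero]
    rfl
  | insert a B ha ih =>
    rw [Finset.sum_insert ha]
    have nS : Nice (fun q : Om V × ((Site V → ℝ) × (Site V → ℝ)) =>
        dif (mf μ T k t1 v) q + ∑ w ∈ B, dif (jf G θ μ T k t1 t2 v w) q) :=
      nD.add (Nice.sum _ (fun w _ => nJ w))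
    have e : ∀ q : Om V × ((Site V → ℝ) × (Site V → ℝ)),
        (dif (mf μ T k t1 v) q + ∑ w ∈ insert a B, dif (jf G θ μ T k t1 t2 v w) q) ^ 2
        = ((dif (mf μ T k t1 v) q + ∑ w ∈ B, dif (jf G θ μ T k t1 t2 v w) q) ^ 2
          + 2 * ((dif (mf μ T k t1 v) q + ∑ w ∈ B, dif (jf G θ μ T k t1 t2 v w) q)
            * dif (jf G θ μ T k t1 t2 v a) q))
          + dif (jf G θ μ T k t1 t2 v a) q ^ 2 := by
      intro q
      rw [Finset.sum_insert ha]
      ring
    simp only [e]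
    rw [((nS.pow 2).add ((Nice.const 2).mul (nS.mul (nJ a)))).integral_add' ((nJ a).pow 2),
      (nS.pow 2).integral_add' ((Nice.const 2).mul (nS.mul (nJ a))), ih, integral_const_mul]
    have cross : ∫ q, (dif (mf μ T k t1 v) q + ∑ w ∈ B, dif (jf G θ μ T k t1 t2 v w) q)
            * dif (jf G θ μ T k t1 t2 v a) q ∂(relP (QM μ T)) = 0 := by
      have e2 : ∀ q : Om V × ((Site V → ℝ) × (Site V → ℝ)),
          (dif (mf μ T k t1 v) q + ∑ w ∈ B, dif (jf G θ μ T k t1 t2 v w) q)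
            * dif (jf G θ μ T k t1 t2 v a) q
          = dif (mf μ T k t1 v) q * dif (jf G θ μ T k t1 t2 v a) q
            + ∑ w ∈ B, dif (jf G θ μ T k t1 t2 v w) q * dif (jf G θ μ T k t1 t2 v a) q := by
        intro q
        rw [add_mul, Finset.sum_mul]
      simp only [e2]
      rw [(nD.mul (nJ a)).integral_add' (Nice.sum _ (fun w _ => (nJ w).mul (nJ a))),
        ortho_DK (G := G) (μ := μ) hT hTu hθ0 hθ1 k t1 t2 v a, zero_add, integral_finsetSum]
      · apply Finset.sum_eq_zero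
        intro w hw
        exact ortho_KK (G := G) (μ := μ) hT hTu hθ0 hθ1 k t1 t2 v (fun h => ha (h ▸ hw))
      · intro w _
        exact ((nJ w).mul (nJ a)).integrable _
    rw [cross]
    ring

/-- remainder of the jump expansion -/
lemma remainder_le (hθ0 : 0 ≤ θ) (hθ1 : θ < 1) (k : ℕ) (t1 t2 : ℝ) (v : V) (B : Finset V) {τ : ℝ}
    (h : ∫ q, (MT μ T q.1.1 k t2 v q.2 - MT μ T q.1.1 k t1 v q.2
          - ∑ w ∈ B, JT G θ μ T k t1 t2 v w q.1.1 q.2) ^ 2 ∂(QM μ T) ≤ τ) :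
    ∫ q, (dif (mf μ T k t2 v) q - (dif (mf μ T k t1 v) q
        + ∑ w ∈ B, dif (jf G θ μ T k t1 t2 v w) q)) ^ 2 ∂(relP (QM μ T)) ≤ 4 * τ := by
  set R : Om V × (Site V → ℝ) → ℝ := fun q => MT μ T q.1.1 k t2 v q.2 - MT μ T q.1.1 k t1 v q.2
          - ∑ w ∈ B, JT G θ μ T k t1 t2 v w q.1.1 q.2 with hR
  have mo : Measurable (fun q : Om V × (Site V → ℝ) => (q.1.1, q.2)) := by fun_prop
  have nR : Nice R := by
    have n1 := (nice_mf (μ := μ) (T := T) k t2 v).comp mo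
    have n2 := (nice_mf (μ := μ) (T := T) k t1 v).comp mo
    have n3 : Nice (fun q : Om V × (Site V → ℝ) =>
        ∑ w ∈ B, jf G θ μ T k t1 t2 v w (q.1.1, q.2)) :=
      Nice.sum _ (fun w _ => (nice_jf (G := G) (μ := μ) (T := T) hθ0 hθ1 k t1 t2 v w).comp mo)
    exact (n1.sub n2).sub n3
  have i1 := integral_relP_left (Q := QM μ T) (nR.pow 2)
  have i2 := integral_relP_right (Q := QM μ T) (nR.pow 2)
  have m1 : Measurable (fun q : Om V × ((Site V → ℝ) × (Site V → ℝ)) => (q.1, q.2.1)) :=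
    measurable_fst.prodMk (measurable_fst.comp measurable_snd)
  have m2 : Measurable (fun q : Om V × ((Site V → ℝ) × (Site V → ℝ)) => (q.1, q.2.2)) :=
    measurable_fst.prodMk (measurable_snd.comp measurable_snd)
  have nR1 := (nR.pow 2).comp m1
  have nR2 := (nR.pow 2).comp m2
  have e : ∀ q : Om V × ((Site V → ℝ) × (Site V → ℝ)),
      dif (mf μ T k t2 v) q - (dif (mf μ T k t1 v) q
        + ∑ w ∈ B, dif (jf G θ μ T k t1 t2 v w) q) = R (q.1, q.2.1) - R (q.1, q.2.2) := by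
    intro q
    simp only [hR, dif, mf, jf, Finset.sum_sub_distrib]
    ring
  have h1 : ∫ q, (dif (mf μ T k t2 v) q - (dif (mf μ T k t1 v) q
        + ∑ w ∈ B, dif (jf G θ μ T k t1 t2 v w) q)) ^ 2 ∂(relP (QM μ T))
      ≤ ∫ q, (2 * R (q.1, q.2.1) ^ 2 + 2 * R (q.1, q.2.2) ^ 2) ∂(relP (QM μ T)) := by
    apply Nice.integral_mono'
    · have : Nice (fun q : Om V × ((Site V → ℝ) × (Site V → ℝ)) =>
          (R (q.1, q.2.1) - R (q.1, q.2.2)) ^ 2) := ((nR.comp m1).sub (nR.comp m2)).pow 2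
      simpa only [e] using this
    · exact ((Nice.const 2).mul nR1).add ((Nice.const 2).mul nR2)
    · intro q
      rw [e]
      nlinarith [sq_nonneg (R (q.1, q.2.1) + R (q.1, q.2.2))]
  refine h1.trans ?_
  rw [((Nice.const 2).mul nR1).integral_add' ((Nice.const 2).mul nR2), integral_const_mul,
    integral_const_mul, i1, i2]
  linarith

omit hT hTu in
/-- from approximate identities to an inequality -/
lemma sq_limit {a b : ℝ} (ha : 0 ≤ a) (hb : 0 ≤ b) {τ : ℕ → ℝ} (hτ : Tendsto τ atTop (𝓝 0))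
    (h : ∀ n, ∀ ε : ℝ, 0 < ε → a ≤ (1 + ε) * b + (1 + 1 / ε) * τ n) : a ≤ b := by
  have h1 : ∀ ε : ℝ, 0 < ε → a ≤ (1 + ε) * b := by
    intro ε hε
    have : Tendsto (fun n => (1 + ε) * b + (1 + 1 / ε) * τ n) atTop
        (𝓝 ((1 + ε) * b + (1 + 1 / ε) * 0)) := (hτ.const_mul _).const_add _
    rw [mul_zero, add_zero] at this
    exact ge_of_tendsto' this (fun n => h n ε hε)
  by_contra hcon
  push Not at hcon
  rcases hb.eq_or_lt with hb0 | hb0
  · have := h1 1 one_pos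
    rw [← hb0] at this hcon
    linarith
  · have h2 := h1 ((a - b) / (2 * b)) (by apply div_pos <;> linarith)
    have h3 : (1 + (a - b) / (2 * b)) * b = b + (a - b) / 2 := by
      field_simp
    rw [h3] at h2
    linarith

omit hT hTu in
lemma sq_split {x y ε : ℝ} (hε : 0 < ε) : (x + y) ^ 2 ≤ (1 + ε) * x ^ 2 + (1 + 1 / ε) * y ^ 2 := by
  have h : 0 ≤ (ε * x - y) ^ 2 / ε := div_nonneg (sq_nonneg _) hε.le
  have e : (1 + ε) * x ^ 2 + (1 + 1 / ε) * y ^ 2 - (x + y) ^ 2 = (ε * x - y) ^ 2 / ε := by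
    field_simp
    ring
  linarith

/-- the energy at the later time is the energy at the earlier time plus the energies of the jumps -/
theorem energy {d : ℕ} (hreg : ∀ v, G.degree v = d) (hd : 3 ≤ d) (hG : G.IsTree)
    (hθ0 : 0 < θ) (hθ1 : θ < 1) (hcrit : ((d : ℝ) - 1) * θ ^ 2 = 1)
    (hflip : μ.map (fun σ : V → ℤˣ => fun v => - σ v) = μ)
    (hμ : EdgeFactor G θ μ) {o : V} (hTb : ∀ n x, x ∈ T n ↔ G.dist o x ≤ n)
    (k : ℕ) (v : V) {t1 t2 : ℝ} (h0 : 0 ≤ t1) (h01 : k = 0 → 0 < t1) (h12 : t1 ≤ t2)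
    (h2 : t2 ≤ 1 / 2) :
    Dsq μ T k t1 v ≤ Dsq μ T k t2 v ∧
      ∀ S : ℝ, 0 ≤ S → (∀ B : Finset V, ∑ w ∈ B, ∫ q, dif (jf G θ μ T k t1 t2 v w) q ^ 2
        ∂(relP (QM μ T)) ≤ S) → Dsq μ T k t2 v ≤ Dsq μ T k t1 v + S := by
  obtain ⟨κ, hκ, hκ0, hP⟩ := parseval (μ := μ) (T := T) hreg hd hG hθ0 hθ1 hcrit hflip hμ hTb k v
    h0 h01 h12 h2
  have nD1 := nice_dif (nice_mf (μ := μ) (T := T) k t1 v)
  have nD2 := nice_dif (nice_mf (μ := μ) (T := T) k t2 v)
  have nJ : ∀ w, Nice (dif (jf G θ μ T k t1 t2 v w)) := fun w =>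
    nice_dif (nice_jf (G := G) (μ := μ) (T := T) hθ0.le hθ1 k t1 t2 v w)
  -- exhaustion by finite sets
  set τ : ℕ → ℝ := fun n => 4 * (∑' w, κ w - ∑ w ∈ T n, κ w) with hτ
  have hτlim : Tendsto τ atTop (𝓝 0) := by
    have hTat : Tendsto T atTop atTop := by
      rw [tendsto_atTop_atTop]
      intro F
      choose N hN using hTu
      refine ⟨F.sup N, fun n hn x hx => ?_⟩
      exact hT ((Finset.le_sup hx).trans hn) (hN x)
    have h1 : Tendsto (fun n => ∑ w ∈ T n, κ w) atTop (𝓝 (∑' w, κ w)) := hκ.hasSum.comp hTat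
    have h3 : Tendsto (fun n => 4 * (∑' w, κ w - ∑ w ∈ T n, κ w)) atTop
        (𝓝 (4 * (∑' w, κ w - ∑' w, κ w))) := (h1.const_sub _).const_mul 4
    rw [sub_self, mul_zero] at h3
    exact h3
  have hrem : ∀ n, ∫ q, (dif (mf μ T k t2 v) q - (dif (mf μ T k t1 v) q
        + ∑ w ∈ T n, dif (jf G θ μ T k t1 t2 v w) q)) ^ 2 ∂(relP (QM μ T)) ≤ τ n := fun n =>
    remainder_le (μ := μ) hT hTu hθ0.le hθ1 k t1 t2 v (T n) (hP (T n))
  have nA : ∀ n, Nice (fun q : Om V × ((Site V → ℝ) × (Site V → ℝ)) =>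
      dif (mf μ T k t1 v) q + ∑ w ∈ T n, dif (jf G θ μ T k t1 t2 v w) q) := fun n =>
    nD1.add (Nice.sum _ (fun w _ => nJ w))
  have hD1 : 0 ≤ Dsq μ T k t1 v := integral_nonneg (fun q => sq_nonneg _)
  have hD2 : 0 ≤ Dsq μ T k t2 v := integral_nonneg (fun q => sq_nonneg _)
  have hfin := fun n => energy_fin (G := G) (μ := μ) hT hTu hθ0.le hθ1 k t1 t2 v (T n)
  constructor
  · apply sq_limit hD1 hD2 hτlim
    intro n ε hε
    have s1 : Dsq μ T k t1 v ≤ ∫ q, (dif (mf μ T k t1 v) q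
        + ∑ w ∈ T n, dif (jf G θ μ T k t1 t2 v w) q) ^ 2 ∂(relP (QM μ T)) := by
      rw [hfin n]
      have : 0 ≤ ∑ w ∈ T n, ∫ q, dif (jf G θ μ T k t1 t2 v w) q ^ 2 ∂(relP (QM μ T)) :=
        Finset.sum_nonneg (fun w _ => integral_nonneg (fun q => sq_nonneg _))
      linarith
    have s2 : ∫ q, (dif (mf μ T k t1 v) q
        + ∑ w ∈ T n, dif (jf G θ μ T k t1 t2 v w) q) ^ 2 ∂(relP (QM μ T))
        ≤ ∫ q, ((1 + ε) * dif (mf μ T k t2 v) q ^ 2 + (1 + 1 / ε) * (dif (mf μ T k t2 v) q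
          - (dif (mf μ T k t1 v) q + ∑ w ∈ T n, dif (jf G θ μ T k t1 t2 v w) q)) ^ 2)
          ∂(relP (QM μ T)) := by
      apply Nice.integral_mono' ((nA n).pow 2)
        (((Nice.const _).mul (nD2.pow 2)).add ((Nice.const _).mul ((nD2.sub (nA n)).pow 2)))
      intro q
      have := sq_split (x := dif (mf μ T k t2 v) q) (y := -(dif (mf μ T k t2 v) q
          - (dif (mf μ T k t1 v) q + ∑ w ∈ T n, dif (jf G θ μ T k t1 t2 v w) q))) hε
      rw [neg_sq] at this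
      refine le_trans (le_of_eq ?_) this
      ring
    rw [((Nice.const _).mul (nD2.pow 2)).integral_add'
      ((Nice.const _).mul ((nD2.sub (nA n)).pow 2)), integral_const_mul, integral_const_mul] at s2
    have s3 := hrem n
    have hε1 : 0 < 1 + 1 / ε := by positivity
    have s4 := mul_le_mul_of_nonneg_left s3 hε1.le
    have s5 : ∫ q, dif (mf μ T k t2 v) q ^ 2 ∂(relP (QM μ T)) = Dsq μ T k t2 v := rfl
    rw [s5] at s2
    linarith
  · intro S hS hSB
    apply sq_limit hD2 (by linarith) hτlim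
    intro n ε hε
    have s2 : Dsq μ T k t2 v
        ≤ ∫ q, ((1 + ε) * (dif (mf μ T k t1 v) q
            + ∑ w ∈ T n, dif (jf G θ μ T k t1 t2 v w) q) ^ 2
          + (1 + 1 / ε) * (dif (mf μ T k t2 v) q
          - (dif (mf μ T k t1 v) q + ∑ w ∈ T n, dif (jf G θ μ T k t1 t2 v w) q)) ^ 2)
          ∂(relP (QM μ T)) := by
      apply Nice.integral_mono' (nD2.pow 2)
        (((Nice.const _).mul ((nA n).pow 2)).add ((Nice.const _).mul ((nD2.sub (nA n)).pow 2)))
      intro q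
      have := sq_split (x := dif (mf μ T k t1 v) q
        + ∑ w ∈ T n, dif (jf G θ μ T k t1 t2 v w) q) (y := (dif (mf μ T k t2 v) q
          - (dif (mf μ T k t1 v) q + ∑ w ∈ T n, dif (jf G θ μ T k t1 t2 v w) q))) hε
      refine le_trans (le_of_eq ?_) this
      ring
    rw [((Nice.const _).mul ((nA n).pow 2)).integral_add'
      ((Nice.const _).mul ((nD2.sub (nA n)).pow 2)), integral_const_mul, integral_const_mul,
      hfin n] at s2
    have s3 := hrem n
    have hε1 : 0 < 1 + 1 / ε := by positivity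
    have s4 := mul_le_mul_of_nonneg_left s3 hε1.le
    have s5 := hSB (T n)
    have s6 : (1 + ε) * (Dsq μ T k t1 v + ∑ w ∈ T n, ∫ q, dif (jf G θ μ T k t1 t2 v w) q ^ 2
        ∂(relP (QM μ T))) ≤ (1 + ε) * (Dsq μ T k t1 v + S) :=
      mul_le_mul_of_nonneg_left (by linarith) (by linarith)
    linarith

end Vale.Agent.P161c
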