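import Mathlib

/-!
Uniqueness lemmas for monotone functions satisfying a discrete integral inequality.
-/

namespace Vale.Agent.P161c

open Filter Topology

/-- Polynomial smallness.  Proof: for `δ ∈ (0, T)` iterate the inequality over a fine geometric or
uniform partition of `[δ, t]` (steps `h` with `C h ≤ 1/2` and ratio at most `2`):
`a t ≤ e^{2 C t} (a δ + 2 C t^{N+1})`, and let `δ → 0`. -/
theorem osgoodA {a : ℝ → ℝ} {T C : ℝ} {N : ℕ} (hT0 : 0 < T) (hT1 : T ≤ 1) (hC : 0 ≤ C)
    (ha0 : ∀ t, 0 ≤ a t) (hmono : ∀ s t, 0 < s → s ≤ t → t ≤ T → a s ≤ a t)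
    (hlim : Tendsto a (𝓝[>] 0) (𝓝 0))
    (hineq : ∀ s t, 0 < s → s < t → t ≤ T → t ≤ 2 * s →
      a t ≤ a s + (t - s) * C * (a t + t ^ N)) :
    ∃ C' : ℝ, 0 ≤ C' ∧ ∀ t, 0 < t → t ≤ T → a t ≤ C' * t ^ (N + 1) := by
  obtain ⟨t1, ht1⟩ : ∃ t1, t1 = min T (1 / (C + 1)) := ⟨_, rfl⟩
  have ht1p : 0 < t1 := by rw [ht1]; positivity
  have ht1T : t1 ≤ T := by rw [ht1]; exact min_le_left _ _
  have hCt1 : ∀ t, 0 < t → t ≤ t1 → C * t ≤ 1 := by
    intro t h0 h1
    have h2 : t ≤ 1 / (C + 1) := h1.trans (by rw [ht1]; exact min_le_right _ _)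
    rw [le_div_iff₀ (by linarith)] at h2
    nlinarith
  -- one dyadic step
  have step : ∀ t, 0 < t → t ≤ t1 →
      a t * Real.exp (-(2 * C * t)) ≤ a (t / 2) * Real.exp (-(2 * C * (t / 2))) +
        C * t ^ (N + 1) := by
    intro t h0 h1
    have hc := hCt1 t h0 h1
    have h := hineq (t / 2) t (by linarith) (by linarith) (h1.trans ht1T) (by linarith)
    have hp : 0 < t ^ N := by positivity
    have hCt : 0 ≤ C * t := by positivity
    -- `a t ≤ (1 + C t) (a (t/2) + C t^(N+1))`
    have h2 : a t ≤ (1 + C * t) * (a (t / 2) + C * t ^ (N + 1)) := by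
      have e1 : (t - t / 2) * C * (a t + t ^ N) = (C * t / 2) * a t + (C / 2) * t ^ (N + 1) := by
        ring
      rw [e1] at h
      have q : (1 - C * t / 2) * a t ≤ a (t / 2) + (C / 2) * t ^ (N + 1) := by linarith
      have hx : 0 ≤ a (t / 2) + (C / 2) * t ^ (N + 1) := by
        have := ha0 (t / 2)
        positivity
      have q2 : 1 ≤ (1 + C * t) * (1 - C * t / 2) := by nlinarith
      have hat := ha0 t
      calc a t ≤ (1 + C * t) * (1 - C * t / 2) * a t := by nlinarith
        _ = (1 + C * t) * ((1 - C * t / 2) * a t) := by ring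
        _ ≤ (1 + C * t) * (a (t / 2) + (C / 2) * t ^ (N + 1)) := by
            apply mul_le_mul_of_nonneg_left q (by linarith)
        _ ≤ (1 + C * t) * (a (t / 2) + C * t ^ (N + 1)) := by
            apply mul_le_mul_of_nonneg_left _ (by linarith)
            have : 0 ≤ C * t ^ (N + 1) := by positivity
            linarith
    have h3 : 1 + C * t ≤ Real.exp (C * t) := by
      have := Real.add_one_le_exp (C * t)
      linarith
    have h4 : a t ≤ Real.exp (C * t) * (a (t / 2) + C * t ^ (N + 1)) := by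
      refine h2.trans (mul_le_mul_of_nonneg_right h3 ?_)
      have := ha0 (t / 2)
      positivity
    calc a t * Real.exp (-(2 * C * t))
        ≤ Real.exp (C * t) * (a (t / 2) + C * t ^ (N + 1)) * Real.exp (-(2 * C * t)) :=
          mul_le_mul_of_nonneg_right h4 (Real.exp_pos _).le
      _ = (a (t / 2) + C * t ^ (N + 1)) * Real.exp (-(2 * C * (t / 2))) := by
          have : Real.exp (-(2 * C * (t / 2))) = Real.exp (C * t) * Real.exp (-(2 * C * t)) := by
            rw [← Real.exp_add]
            congr 1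
            ring
          rw [this]
          ring
      _ = a (t / 2) * Real.exp (-(2 * C * (t / 2))) +
          C * t ^ (N + 1) * Real.exp (-(2 * C * (t / 2))) := by ring
      _ ≤ _ := by
          have h5 : Real.exp (-(2 * C * (t / 2))) ≤ 1 := by
            apply Real.exp_le_one_iff.2
            linarith
          have h6 : 0 ≤ C * t ^ (N + 1) := by positivity
          nlinarith
  have iter : ∀ n : ℕ, ∀ t, 0 < t → t ≤ t1 →
      a t * Real.exp (-(2 * C * t)) ≤ a (t / 2 ^ n) * Real.exp (-(2 * C * (t / 2 ^ n))) +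
        2 * C * t ^ (N + 1) * (1 - (1 / 2) ^ n) := by
    intro n
    induction n with
    | zero =>
      intro t h0 h1
      simp
    | succ n ih =>
      intro t h0 h1
      have h2 := step t h0 h1
      have h3 := ih (t / 2) (by linarith) (by linarith)
      have e1 : t / 2 / 2 ^ n = t / 2 ^ (n + 1) := by
        rw [div_div, pow_succ, mul_comm]
      rw [e1] at h3
      have h4 : (t / 2) ^ (N + 1) ≤ t ^ (N + 1) / 2 := by
        rw [div_pow]
        apply div_le_div_of_nonneg_left (by positivity) (by norm_num)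
        calc (2 : ℝ) = 2 ^ 1 := by norm_num
          _ ≤ 2 ^ (N + 1) := pow_le_pow_right₀ (by norm_num) (by omega)
      have h5 : (0 : ℝ) ≤ 1 - (1 / 2) ^ n := by
        have : ((1 : ℝ) / 2) ^ n ≤ 1 := pow_le_one₀ (by norm_num) (by norm_num)
        linarith
      have h6 : 2 * C * (t / 2) ^ (N + 1) * (1 - (1 / 2) ^ n) ≤
          2 * C * (t ^ (N + 1) / 2) * (1 - (1 / 2) ^ n) := by
        apply mul_le_mul_of_nonneg_right _ h5
        apply mul_le_mul_of_nonneg_left h4 (by linarith)
      have e2 : 2 * C * t ^ (N + 1) * (1 - (1 / 2) ^ (n + 1)) =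
          C * t ^ (N + 1) + 2 * C * (t ^ (N + 1) / 2) * (1 - (1 / 2) ^ n) := by
        rw [pow_succ]
        ring
      rw [e2]
      linarith
  have small : ∀ t, 0 < t → t ≤ t1 → a t ≤ Real.exp (2 * C) * (2 * C) * t ^ (N + 1) := by
    intro t h0 h1
    have hlim2 : Tendsto (fun n : ℕ => a (t / 2 ^ n)) atTop (𝓝 0) := by
      apply hlim.comp
      rw [tendsto_nhdsWithin_iff]
      constructor
      · have : Tendsto (fun n : ℕ => t * (1 / 2 : ℝ) ^ n) atTop (𝓝 (t * 0)) :=
          (tendsto_pow_atTop_nhds_zero_of_lt_one (by norm_num) (by norm_num)).const_mul t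
        rw [mul_zero] at this
        refine this.congr (fun n => ?_)
        rw [one_div, inv_pow, div_eq_mul_inv]
      · exact Eventually.of_forall fun n => by
          simp only [Set.mem_Ioi]
          positivity
    have h2 : a t * Real.exp (-(2 * C * t)) ≤ 2 * C * t ^ (N + 1) := by
      have hb : ∀ n : ℕ, a t * Real.exp (-(2 * C * t)) ≤ a (t / 2 ^ n) + 2 * C * t ^ (N + 1) := by
        intro n
        refine (iter n t h0 h1).trans ?_
        have h3 : Real.exp (-(2 * C * (t / 2 ^ n))) ≤ 1 := by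
          apply Real.exp_le_one_iff.2
          have : 0 ≤ 2 * C * (t / 2 ^ n) := by positivity
          linarith
        have h4 := ha0 (t / 2 ^ n)
        have h5 : (0 : ℝ) < (1 / 2) ^ n := by positivity
        have h6 : 0 ≤ 2 * C * t ^ (N + 1) := by positivity
        nlinarith
      have h7 : Tendsto (fun n : ℕ => a (t / 2 ^ n) + 2 * C * t ^ (N + 1)) atTop
          (𝓝 (0 + 2 * C * t ^ (N + 1))) := hlim2.add_const _
      rw [zero_add] at h7
      exact ge_of_tendsto' h7 hb
    have h8 : a t = a t * Real.exp (-(2 * C * t)) * Real.exp (2 * C * t) := by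
      rw [mul_assoc, ← Real.exp_add]
      simp
    rw [h8]
    have h9 : Real.exp (2 * C * t) ≤ Real.exp (2 * C) := by
      apply Real.exp_le_exp.2
      have : t ≤ 1 := h1.trans (ht1T.trans hT1)
      nlinarith
    calc a t * Real.exp (-(2 * C * t)) * Real.exp (2 * C * t)
        ≤ (2 * C * t ^ (N + 1)) * Real.exp (2 * C * t) :=
          mul_le_mul_of_nonneg_right h2 (Real.exp_pos _).le
      _ ≤ (2 * C * t ^ (N + 1)) * Real.exp (2 * C) :=
          mul_le_mul_of_nonneg_left h9 (by positivity)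
      _ = _ := by ring
  refine ⟨Real.exp (2 * C) * (2 * C) + a T / t1 ^ (N + 1), ?_, ?_⟩
  · have := ha0 T
    positivity
  · intro t h0 h1
    have hT := ha0 T
    have hp : 0 < t ^ (N + 1) := by positivity
    have hp1 : 0 < t1 ^ (N + 1) := by positivity
    rcases le_or_gt t t1 with h2 | h2
    · have := small t h0 h2
      have h3 : 0 ≤ a T / t1 ^ (N + 1) := by positivity
      nlinarith
    · have h3 : a t ≤ a T := hmono t T h0 h1 le_rfl
      have h4 : t1 ^ (N + 1) ≤ t ^ (N + 1) := pow_le_pow_left₀ ht1p.le h2.le _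
      have h5 : a T ≤ a T / t1 ^ (N + 1) * t ^ (N + 1) := by
        rw [div_mul_eq_mul_div, le_div_iff₀ hp1]
        exact mul_le_mul_of_nonneg_left h4 hT
      have h6 : 0 ≤ Real.exp (2 * C) * (2 * C) * t ^ (N + 1) := by positivity
      nlinarith

/-- Choice of the scale. -/
theorem osgood_scale (b : ℕ) (hb : 2 ≤ b) (y : ℝ) (hy : 0 ≤ y) :
    ∃ L : ℕ, y ≤ (b : ℝ) ^ L ∧ (L : ℝ) ^ 2 ≤ 4 * y := by
  rcases le_or_gt y 1 with h | h
  · exact ⟨0, by simpa using h, by simpa using hy⟩
  · have hex : ∃ L : ℕ, y ≤ (2 : ℝ) ^ L := by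
      obtain ⟨L, hL⟩ := pow_unbounded_of_one_lt y (one_lt_two)
      exact ⟨L, hL.le⟩
    classical
    have h1 := Nat.find_spec hex
    obtain ⟨L, hL⟩ : ∃ L, L = Nat.find hex := ⟨_, rfl⟩
    rw [← hL] at h1
    have hL0 : L ≠ 0 := by
      intro h0
      rw [h0] at h1
      simp at h1
      linarith
    obtain ⟨n, rfl⟩ := Nat.exists_eq_succ_of_ne_zero hL0
    have h2 : ¬ y ≤ (2 : ℝ) ^ n := Nat.find_min hex (by omega)
    push Not at h2
    have h3 : ∀ n : ℕ, ((n : ℝ) + 1) ^ 2 ≤ 4 * 2 ^ n := by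
      intro n
      induction n with
      | zero => norm_num
      | succ k ih =>
        rcases (by omega : k = 0 ∨ k = 1 ∨ 2 ≤ k) with rfl | rfl | hk
        · norm_num
        · norm_num
        · have hk' : (2 : ℝ) ≤ k := by exact_mod_cast hk
          rw [pow_succ (2 : ℝ) k]
          push_cast
          nlinarith
    refine ⟨n + 1, h1.trans ?_, ?_⟩
    · apply pow_le_pow_left₀ (by norm_num)
      exact_mod_cast hb
    · push_cast
      have := h3 n
      linarith

/-- One step: a lower bound of `a t` gives a lower bound of `a s`. -/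
theorem osgood_step {at' as' h C b' G R θ : ℝ} (hC : 0 < C) (hat : Real.exp (-G) ≤ at')
    (hL : C * G ≤ b')
    (hin : at' ≤ as' + h * C * (R * at' + Real.exp (-b' / C)))
    (hh : 0 ≤ h) (hθ : h * C * (R + 1) ≤ θ) (hθ0 : 0 ≤ θ) (hθ2 : θ ≤ 1 / 2) :
    Real.exp (-(G + 2 * θ)) ≤ as' := by
  have h1 : Real.exp (-b' / C) ≤ at' := by
    refine le_trans ?_ hat
    apply Real.exp_le_exp.2
    rw [neg_div, neg_le_neg_iff, le_div_iff₀ hC]
    linarith
  have hpos : 0 < at' := lt_of_lt_of_le (Real.exp_pos _) hat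
  have h2 : h * C * (R * at' + Real.exp (-b' / C)) ≤ θ * at' := by
    have hhC : 0 ≤ h * C := by positivity
    calc h * C * (R * at' + Real.exp (-b' / C)) ≤ h * C * (R * at' + at') :=
          mul_le_mul_of_nonneg_left (by linarith) hhC
      _ = (h * C * (R + 1)) * at' := by ring
      _ ≤ θ * at' := mul_le_mul_of_nonneg_right hθ hpos.le
  have h3 : (1 - θ) * at' ≤ as' := by linarith
  have h5 : Real.exp (-(2 * θ)) ≤ 1 - θ := by
    have h6 := Real.add_one_le_exp (2 * θ)
    have h7 : Real.exp (-(2 * θ)) * Real.exp (2 * θ) = 1 := by rw [← Real.exp_add]; simp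
    have h8 := Real.exp_pos (-(2 * θ))
    have h9 : 1 ≤ (1 - θ) * Real.exp (2 * θ) := by nlinarith
    by_contra hcon
    push Not at hcon
    have h10 := Real.exp_pos (2 * θ)
    nlinarith
  calc Real.exp (-(G + 2 * θ)) = Real.exp (-(2 * θ)) * Real.exp (-G) := by
        rw [← Real.exp_add]
        congr 1
        ring
    _ ≤ (1 - θ) * Real.exp (-G) := mul_le_mul_of_nonneg_right h5 (Real.exp_pos _).le
    _ ≤ (1 - θ) * at' := mul_le_mul_of_nonneg_left hat (by linarith)
    _ ≤ as' := h3

/-- A positive number is at least `exp (-g)` for some `g ≥ 0`. -/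
theorem osgood_start {x : ℝ} (hx : 0 < x) : ∃ g : ℝ, 0 ≤ g ∧ Real.exp (-g) ≤ x := by
  refine ⟨max 0 (-Real.log x), le_max_left _ _, ?_⟩
  calc Real.exp (-max 0 (-Real.log x)) ≤ Real.exp (Real.log x) := by
        apply Real.exp_le_exp.2
        have := le_max_right 0 (-Real.log x)
        linarith
    _ = x := Real.exp_log hx

/-- Singular Osgood lemma.  Proof: if `a T' > 0`, put `t_k = T' (1 - λ)^k` with `λ` small; then
`a t_k ≥ exp (- C₃ (1 + λ k))`, contradicting `a s ≤ C_N s ^ N` for large `N`. -/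
theorem osgoodB {a : ℝ → ℝ} {T C : ℝ} {b : ℕ} (hb : 2 ≤ b) (hT0 : 0 < T) (hT1 : T ≤ 1) (hC : 0 < C)
    (ha0 : ∀ t, 0 ≤ a t) (hmono : ∀ s t, 0 < s → s ≤ t → t ≤ T → a s ≤ a t)
    (hpoly : ∀ N : ℕ, ∃ C' : ℝ, ∀ t, 0 < t → t ≤ T → a t ≤ C' * t ^ N)
    (hineq : ∀ s t, 0 < s → s < t → t ≤ T → t ≤ 2 * s → ∀ L : ℕ,
      a t ≤ a s + (t - s) * C * ((1 / s + (L : ℝ) ^ 2) * a t + Real.exp (-(b : ℝ) ^ L / C))) :
    ∀ t, 0 < t → t ≤ T → a t = 0 := by
  intro T' hT'0 hT'1
  by_contra hne
  have hpos : 0 < a T' := lt_of_le_of_ne (ha0 T') (Ne.symm hne)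
  obtain ⟨g0, hg0, hg⟩ := osgood_start hpos
  obtain ⟨K, hK⟩ : ∃ K, K = 8 * C ^ 2 := ⟨_, rfl⟩
  have hK0 : 0 < K := by rw [hK]; positivity
  obtain ⟨M, hM⟩ : ∃ M, M = Real.exp K * (g0 + 6 * C) := ⟨_, rfl⟩
  have hM0 : 0 < M := by rw [hM]; positivity
  obtain ⟨lam, hlam⟩ : ∃ lam, lam = 1 / (2 + 2 * (C * (3 + 4 * C * M))) := ⟨_, rfl⟩
  have hden : 0 < 2 + 2 * (C * (3 + 4 * C * M)) := by positivity
  have hlam0 : 0 < lam := by rw [hlam]; positivity
  have hlamd : lam * (2 + 2 * (C * (3 + 4 * C * M))) = 1 := by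
    rw [hlam]
    field_simp
  have hlam1 : lam ≤ 1 / 2 := by
    have : 0 ≤ lam * (2 * (C * (3 + 4 * C * M))) := by positivity
    linarith
  have hlam2 : lam * (C * (3 + 4 * C * M)) ≤ 1 / 2 := by linarith
  obtain ⟨t, ht⟩ : ∃ t : ℕ → ℝ, ∀ k, t k = T' * (1 - lam) ^ k := ⟨_, fun _ => rfl⟩
  obtain ⟨G, hG⟩ : ∃ G : ℕ → ℝ, ∀ k, G k = Real.exp (K * (T' - t k)) * (g0 + 6 * lam * C * k) :=
    ⟨_, fun _ => rfl⟩
  have hpw : ∀ k : ℕ, (1 - lam) ^ k ≤ 1 := fun k => pow_le_one₀ (by linarith) (by linarith)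
  have hpw0 : ∀ k : ℕ, 0 < (1 - lam) ^ k := fun k => pow_pos (by linarith) k
  have ht0 : ∀ k, 0 < t k := fun k => by rw [ht]; exact mul_pos hT'0 (hpw0 k)
  have htT : ∀ k, t k ≤ T' := fun k => by
    rw [ht]
    nlinarith [hpw k]
  have ht1 : ∀ k, t k ≤ 1 := fun k => (htT k).trans (hT'1.trans hT1)
  have hG0 : ∀ k, 0 ≤ G k := fun k => by rw [hG]; positivity
  have hGle : ∀ k, G k ≤ Real.exp K * (g0 + 6 * lam * C * k) := by
    intro k
    rw [hG]
    apply mul_le_mul_of_nonneg_right _ (by positivity)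
    apply Real.exp_le_exp.2
    have h1 : T' - t k ≤ 1 := by linarith [ht0 k, hT'1, hT1]
    nlinarith
  have htG : ∀ k, t k * G k ≤ M := by
    intro k
    have h1 : (1 - lam) ^ k * (1 + k * lam) ≤ 1 := by
      have h2 := one_add_mul_le_pow (a := lam) (by linarith) k
      calc (1 - lam) ^ k * (1 + k * lam) ≤ (1 - lam) ^ k * (1 + lam) ^ k :=
            mul_le_mul_of_nonneg_left h2 (hpw0 k).le
        _ = ((1 - lam) * (1 + lam)) ^ k := by rw [mul_pow]
        _ ≤ 1 := pow_le_one₀ (by nlinarith) (by nlinarith)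
    have h3 : (1 - lam) ^ k * (k * lam) ≤ 1 := by
      have := hpw0 k
      nlinarith
    have h4 : (1 - lam) ^ k * (g0 + 6 * lam * C * k) ≤ g0 + 6 * C := by
      have e : (1 - lam) ^ k * (g0 + 6 * lam * C * k) =
          (1 - lam) ^ k * g0 + 6 * C * ((1 - lam) ^ k * (k * lam)) := by ring
      rw [e]
      have h5 : (1 - lam) ^ k * g0 ≤ 1 * g0 := mul_le_mul_of_nonneg_right (hpw k) hg0
      have h6 : 6 * C * ((1 - lam) ^ k * (k * lam)) ≤ 6 * C * 1 :=
        mul_le_mul_of_nonneg_left h3 (by positivity)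
      linarith
    calc t k * G k ≤ (1 - lam) ^ k * (Real.exp K * (g0 + 6 * lam * C * k)) := by
          apply mul_le_mul _ (hGle k) (hG0 k) (hpw0 k).le
          rw [ht]
          have := hpw0 k
          have h7 : T' ≤ 1 := hT'1.trans hT1
          nlinarith
      _ = Real.exp K * ((1 - lam) ^ k * (g0 + 6 * lam * C * k)) := by ring
      _ ≤ Real.exp K * (g0 + 6 * C) := mul_le_mul_of_nonneg_left h4 (Real.exp_pos _).le
      _ = M := hM.symm
  have claim : ∀ k, Real.exp (-G k) ≤ a (t k) := by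
    intro k
    induction k with
    | zero =>
      have e0 : t 0 = T' := by rw [ht]; simp
      have e1 : G 0 = g0 := by rw [hG, e0]; simp
      rw [e0, e1]
      exact hg
    | succ k ih =>
      have hs : t (k + 1) = (1 - lam) * t k := by rw [ht, ht, pow_succ]; ring
      have hd : t k - t (k + 1) = lam * t k := by rw [hs]; ring
      have htk := ht0 k
      have hsk := ht0 (k + 1)
      have hlt : t (k + 1) < t k := by
        have : 0 < lam * t k := by positivity
        linarith
      have h2s : t k ≤ 2 * t (k + 1) := by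
        rw [hs]
        nlinarith
      obtain ⟨L, hL1, hL2⟩ := osgood_scale b hb (C * G k) (by have := hG0 k; positivity)
      have hin := hineq (t (k + 1)) (t k) hsk hlt ((htT k).trans hT'1) h2s L
      have hθ : (t k - t (k + 1)) * C * ((1 / t (k + 1) + (L : ℝ) ^ 2) + 1) ≤
          lam * (C * (3 + 4 * C * (t k * G k))) := by
        rw [hd]
        have h1 : t k / t (k + 1) ≤ 2 := by
          rw [div_le_iff₀ hsk]
          exact h2s
        have e : lam * t k * C * (1 / t (k + 1) + (L : ℝ) ^ 2 + 1) =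
            lam * C * (t k / t (k + 1) + t k * (L : ℝ) ^ 2 + t k) := by
          field_simp
        rw [e]
        have h2 : t k * (L : ℝ) ^ 2 ≤ t k * (4 * (C * G k)) := mul_le_mul_of_nonneg_left hL2 htk.le
        have h3 : t k / t (k + 1) + t k * (L : ℝ) ^ 2 + t k ≤ 3 + 4 * C * (t k * G k) := by
          have := ht1 k
          nlinarith
        calc lam * C * (t k / t (k + 1) + t k * (L : ℝ) ^ 2 + t k) ≤
            lam * C * (3 + 4 * C * (t k * G k)) :=
              mul_le_mul_of_nonneg_left h3 (by positivity)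
          _ = _ := by ring
      have hθ0 : 0 ≤ lam * (C * (3 + 4 * C * (t k * G k))) := by
        have := hG0 k
        positivity
      have hθ2 : lam * (C * (3 + 4 * C * (t k * G k))) ≤ 1 / 2 := by
        refine le_trans ?_ hlam2
        have := htG k
        gcongr
      have h := osgood_step hC ih hL1 hin (by linarith) hθ hθ0 hθ2
      refine le_trans ?_ h
      apply Real.exp_le_exp.2
      rw [neg_le_neg_iff]
      -- `G k + 2 θ ≤ G (k+1)`
      have hE : Real.exp (K * (T' - t (k + 1))) = Real.exp (K * (lam * t k)) *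
          Real.exp (K * (T' - t k)) := by
        rw [← Real.exp_add, ← hd]
        congr 1
        ring
      have hE1 : 1 ≤ Real.exp (K * (T' - t (k + 1))) := by
        apply Real.one_le_exp
        have := htT (k + 1)
        apply mul_nonneg hK0.le
        linarith
      have hE2 : 1 + K * (lam * t k) ≤ Real.exp (K * (lam * t k)) := by
        have := Real.add_one_le_exp (K * (lam * t k))
        linarith
      have e1 : G (k + 1) = Real.exp (K * (lam * t k)) * G k +
          Real.exp (K * (T' - t (k + 1))) * (6 * lam * C) := by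
        rw [hG (k + 1), hG k]
        push_cast
        rw [mul_add (6 * lam * C), ← add_assoc, mul_add, mul_one]
        rw [hE]
        ring
      rw [e1]
      have h1 : (1 + K * (lam * t k)) * G k ≤ Real.exp (K * (lam * t k)) * G k :=
        mul_le_mul_of_nonneg_right hE2 (hG0 k)
      have h2 : 1 * (6 * lam * C) ≤ Real.exp (K * (T' - t (k + 1))) * (6 * lam * C) :=
        mul_le_mul_of_nonneg_right hE1 (by positivity)
      have e2 : G k + 2 * (lam * (C * (3 + 4 * C * (t k * G k)))) =
          (1 + K * (lam * t k)) * G k + 1 * (6 * lam * C) := by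
        rw [hK]
        ring
      rw [e2]
      linarith
  obtain ⟨N, hN⟩ := exists_nat_ge (6 * Real.exp K * C + 1)
  obtain ⟨C', hC'⟩ := hpoly N
  obtain ⟨c, hc⟩ : ∃ c, c = max C' 1 := ⟨_, rfl⟩
  have hc1 : 1 ≤ c := by rw [hc]; exact le_max_right _ _
  have bound : ∀ k : ℕ, lam * k ≤ Real.log c + Real.exp K * g0 := by
    intro k
    have h1 := claim k
    have h2 := hC' (t k) (ht0 k) ((htT k).trans hT'1)
    have h3 : C' * t k ^ N ≤ c * Real.exp (-(lam * k * N)) := by
      have h4 : t k ^ N ≤ Real.exp (-(lam * k * N)) := by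
        have h5 : t k ≤ Real.exp (-(lam * k)) := by
          have h6 : (1 - lam) ≤ Real.exp (-lam) := by
            have := Real.add_one_le_exp (-lam)
            linarith
          calc t k ≤ (1 - lam) ^ k := by
                rw [ht]
                have := hpw0 k
                have h7 : T' ≤ 1 := hT'1.trans hT1
                nlinarith
            _ ≤ Real.exp (-lam) ^ k := pow_le_pow_left₀ (by linarith) h6 k
            _ = Real.exp (-(lam * k)) := by
                rw [← Real.exp_nat_mul]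
                congr 1
                ring
        calc t k ^ N ≤ Real.exp (-(lam * k)) ^ N := pow_le_pow_left₀ (ht0 k).le h5 N
          _ = Real.exp (-(lam * k * N)) := by
              rw [← Real.exp_nat_mul]
              congr 1
              ring
      have h8 : C' ≤ c := by rw [hc]; exact le_max_left _ _
      have h9 : 0 ≤ t k ^ N := pow_nonneg (ht0 k).le N
      calc C' * t k ^ N ≤ c * t k ^ N := mul_le_mul_of_nonneg_right h8 h9
        _ ≤ _ := mul_le_mul_of_nonneg_left h4 (by linarith)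
    have h4 : Real.exp (-G k) ≤ Real.exp (Real.log c + -(lam * k * N)) := by
      rw [Real.exp_add, Real.exp_log (by linarith)]
      exact h1.trans (h2.trans h3)
    have h5 := Real.exp_le_exp.1 h4
    have h6 := hGle k
    have h7 : (0 : ℝ) ≤ lam * k := by positivity
    have h8 : lam * k * (6 * Real.exp K * C + 1) ≤ lam * k * N :=
      mul_le_mul_of_nonneg_left hN h7
    nlinarith
  obtain ⟨k, hk⟩ := exists_nat_gt ((Real.log c + Real.exp K * g0) / lam)
  rw [div_lt_iff₀ hlam0] at hk
  have := bound k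
  linarith

/-- Nonsingular Osgood lemma. -/
theorem osgoodC {a : ℝ → ℝ} {T C : ℝ} {b : ℕ} (hb : 2 ≤ b) (hT0 : 0 < T) (hT1 : T ≤ 1) (hC : 0 < C)
    (ha0 : ∀ t, 0 ≤ a t) (hmono : ∀ s t, 0 ≤ s → s ≤ t → t ≤ T → a s ≤ a t)
    (hzero : a 0 = 0)
    (hineq : ∀ s t, 0 ≤ s → s < t → t ≤ T → ∀ L : ℕ,
      a t ≤ a s + (t - s) * C * ((1 + (L : ℝ) ^ 2) * a t + Real.exp (-(b : ℝ) ^ L / C))) :
    ∀ t, 0 ≤ t → t ≤ T → a t = 0 := by
  intro T' hT'0 hT'1
  by_contra hne
  have hpos : 0 < a T' := lt_of_le_of_ne (ha0 T') (Ne.symm hne)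
  have hT'p : 0 < T' := by
    rcases hT'0.eq_or_lt with h | h
    · exfalso
      rw [← h, hzero] at hpos
      exact lt_irrefl _ hpos
    · exact h
  obtain ⟨g0, hg0, hg⟩ := osgood_start hpos
  obtain ⟨K, hK⟩ : ∃ K, K = 4 * C + 8 * C ^ 2 := ⟨_, rfl⟩
  have hK0 : 0 < K := by rw [hK]; positivity
  obtain ⟨M, hM⟩ : ∃ M, M = (g0 + 1) * Real.exp K := ⟨_, rfl⟩
  have hM0 : 0 < M := by rw [hM]; positivity
  obtain ⟨n, hn⟩ := exists_nat_ge (2 * (C * (2 + 4 * C * M)) + 1)
  have hn1 : (1 : ℝ) ≤ n := by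
    have : 0 < C * (2 + 4 * C * M) := by positivity
    linarith
  have hn0 : (0 : ℝ) < n := by linarith
  obtain ⟨h, hh⟩ : ∃ h, h = T' / n := ⟨_, rfl⟩
  have hh0 : 0 < h := by rw [hh]; positivity
  have hh1 : h ≤ 1 / n := by
    rw [hh]
    exact div_le_div_of_nonneg_right (hT'1.trans hT1) hn0.le
  have hhn : h * n = T' := by rw [hh]; field_simp
  obtain ⟨G, hG⟩ : ∃ G : ℕ → ℝ, ∀ k, G k = (g0 + 1) * Real.exp (K * k / n) := ⟨_, fun _ => rfl⟩
  have hG1 : ∀ k, 1 ≤ G k := by
    intro k
    rw [hG]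
    have h1 : 1 ≤ Real.exp (K * k / n) := Real.one_le_exp (by positivity)
    nlinarith
  have hGM : ∀ k : ℕ, k ≤ n → G k ≤ M := by
    intro k hk
    rw [hG, hM]
    apply mul_le_mul_of_nonneg_left _ (by linarith)
    apply Real.exp_le_exp.2
    rw [div_le_iff₀ hn0]
    have : (k : ℝ) ≤ n := by exact_mod_cast hk
    exact mul_le_mul_of_nonneg_left this hK0.le
  have claim : ∀ k : ℕ, k ≤ n → Real.exp (-G k) ≤ a (T' - k * h) := by
    intro k
    induction k with
    | zero =>
      intro _
      have e0 : T' - ((0 : ℕ) : ℝ) * h = T' := by simp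
      rw [e0]
      refine le_trans ?_ hg
      apply Real.exp_le_exp.2
      rw [hG]
      simp
    | succ k ih =>
      intro hk
      have ih' := ih (by omega)
      have hkn : ((k : ℝ) + 1) ≤ n := by exact_mod_cast hk
      have hs0 : 0 ≤ T' - ((k + 1 : ℕ) : ℝ) * h := by
        push_cast
        nlinarith
      have hd : (T' - (k : ℝ) * h) - (T' - ((k + 1 : ℕ) : ℝ) * h) = h := by
        push_cast
        ring
      have htT : T' - (k : ℝ) * h ≤ T := by
        have : 0 ≤ (k : ℝ) * h := by positivity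
        linarith
      have hGk := hG1 k
      obtain ⟨L, hL1, hL2⟩ := osgood_scale b hb (C * G k) (by positivity)
      have hin := hineq (T' - ((k + 1 : ℕ) : ℝ) * h) (T' - (k : ℝ) * h) hs0 (by linarith) htT L
      rw [hd] at hin
      have hθ : h * C * ((1 + (L : ℝ) ^ 2) + 1) ≤ (1 / n) * (C * (2 + 4 * C * G k)) := by
        calc h * C * ((1 + (L : ℝ) ^ 2) + 1) ≤ (1 / n) * C * (2 + 4 * C * G k) := by
              apply mul_le_mul _ (by linarith) (by positivity) (by positivity)
              exact mul_le_mul_of_nonneg_right hh1 hC.le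
          _ = _ := by ring
      have hθ2 : (1 / n) * (C * (2 + 4 * C * G k)) ≤ 1 / 2 := by
        have h1 : C * (2 + 4 * C * G k) ≤ C * (2 + 4 * C * M) := by
          have := hGM k (by omega)
          gcongr
        rw [one_div, ← div_eq_inv_mul, div_le_iff₀ hn0]
        linarith
      have hst := osgood_step hC ih' hL1 hin hh0.le hθ (by positivity) hθ2
      refine le_trans ?_ hst
      apply Real.exp_le_exp.2
      rw [neg_le_neg_iff]
      have e1 : G (k + 1) = G k * Real.exp (K / n) := by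
        rw [hG, hG, mul_assoc, ← Real.exp_add]
        congr 2
        push_cast
        field_simp
      rw [e1]
      have h2 : 1 + K / n ≤ Real.exp (K / n) := by
        have := Real.add_one_le_exp (K / n)
        linarith
      have h3 : G k * (1 + K / n) ≤ G k * Real.exp (K / n) :=
        mul_le_mul_of_nonneg_left h2 (by linarith)
      refine le_trans ?_ h3
      have e2 : G k * (1 + K / n) = G k + (1 / n) * (4 * C * G k + 8 * C ^ 2 * G k) := by
        rw [hK]
        field_simp
      have e3 : G k + 2 * ((1 / n) * (C * (2 + 4 * C * G k))) =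
          G k + (1 / n) * (4 * C * 1 + 8 * C ^ 2 * G k) := by ring
      rw [e2, e3]
      gcongr
  have hlast := claim n le_rfl
  have e : T' - (n : ℝ) * h = 0 := by linarith
  rw [e, hzero] at hlast
  exact absurd hlast (not_le.2 (Real.exp_pos _))

end Vale.Agent.P161c
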