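import Vale.Agent.P161c.StageA2

/-!
Second comparison estimate for two coupled homogeneous cavity fields (polynomial accuracy).
-/

namespace Vale.Agent.P161c

open MeasureTheory SimpleGraph Vale.Agent.H13.P161

variable {V : Type*} {G : SimpleGraph V} [LocallyFinite G] [DecidableEq V] [Countable V]

omit [LocallyFinite G] [DecidableEq V] [Countable V] in
/-- the sum of the squared covariances is at most the screened susceptibility -/
lemma tsum_Cv_sq_le {θ α : ℝ} {m : V → V → ℝ} (hG : G.IsTree) (hθ0 : 0 ≤ θ) (hθ1 : θ < 1)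
    (hα0 : 0 ≤ α) (hα1 : α < 1) (hm : IsCavity G θ α m) (v : V) :
    ∑' w, ENNReal.ofReal (Cv G θ m v w ^ 2) ≤ Rf G θ m v := by
  unfold Rf
  apply ENNReal.tsum_le_tsum
  intro w
  apply ENNReal.ofReal_le_ofReal
  have hW := Wt_pos_le hθ0 hθ1 hα1 hG.connected hm v w
  have h1 := one_sub_mag_sq_pos hθ0 hθ1 hα0 hα1 hm v
  have h2 : 1 - mag G θ m v ^ 2 ≤ 1 := by nlinarith [sq_nonneg (mag G θ m v)]
  unfold Cv
  calc ((1 - mag G θ m v ^ 2) * θ ^ G.dist v w * Wt G θ m v w) ^ 2
      = (1 - mag G θ m v ^ 2) ^ 2 * (θ ^ (2 * G.dist v w) * Wt G θ m v w * Wt G θ m v w) := by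
        ring
    _ ≤ 1 * (θ ^ (2 * G.dist v w) * Wt G θ m v w * 1) := by
        have := hW.1.le
        gcongr
        · exact pow_le_one₀ h1.le h2
        · exact hW.2
    _ = _ := by ring

/-- an integral is at most the lower integral of the absolute value -/
lemma ofReal_integral_le {Ω : Type*} [MeasurableSpace Ω] {P : Measure Ω} (f : Ω → ℝ) :
    ENNReal.ofReal (∫ ω, f ω ∂P) ≤ ∫⁻ ω, ENNReal.ofReal |f ω| ∂P := by
  calc ENNReal.ofReal (∫ ω, f ω ∂P) ≤ ENNReal.ofReal |∫ ω, f ω ∂P| :=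
        ENNReal.ofReal_le_ofReal (le_abs_self _)
    _ = ‖∫ ω, f ω ∂P‖ₑ := by rw [← Real.norm_eq_abs, ofReal_norm]
    _ ≤ ∫⁻ ω, ‖f ω‖ₑ ∂P := enorm_integral_le_lintegral_enorm _
    _ = _ := by
        apply lintegral_congr
        intro ω
        rw [← Real.norm_eq_abs, ofReal_norm]

lemma ofReal_sum_le' {ι : Type*} (s : Finset ι) (f : ι → ℝ) :
    ENNReal.ofReal (∑ i ∈ s, f i) ≤ ∑ i ∈ s, ENNReal.ofReal (f i) := by
  classical
  induction s using Finset.induction_on with
  | empty => simp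
  | insert a s ha ih =>
    rw [Finset.sum_insert ha, Finset.sum_insert ha]
    exact ENNReal.ofReal_add_le.trans (add_le_add le_rfl ih)

/-- Second comparison estimate: `recenter`, `recenter_bound`, and for the second part
`lintegral_swap`, `Cv_symm`, `Σ_w Cv' v w ² ≤ Rf' v` and `trunc`. -/
theorem stageA {θ α : ℝ} (hG : G.IsTree) {d : ℕ} (hd : 3 ≤ d) (hreg : ∀ v, G.degree v = d)
    (hθ0 : 0 < θ) (hθ1 : θ < 1) (hcrit : ((d : ℝ) - 1) * θ ^ 2 = 1) (hα0 : 0 ≤ α) (hα1 : α < 1)
    (C : ℕ → ℝ) (N : ℕ) :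
    ∃ C' : ℝ, 0 ≤ C' ∧ ∀ {Ω : Type*} [MeasurableSpace Ω] (P : Measure Ω) [IsProbabilityMeasure P]
      (m m' : Ω → V → V → ℝ) (y : ℝ) (r : ENNReal), 0 < y → y ≤ 1 →
      (∀ c p, Measurable (fun ω => m ω c p)) → (∀ c p, Measurable (fun ω => m' ω c p)) →
      (∀ᵐ ω ∂P, IsCavity G θ α (m ω)) → (∀ᵐ ω ∂P, IsCavity G θ α (m' ω)) →
      Homog G P m m' → EnvB G θ C y r P m → EnvB G θ C y r P m' → ∀ v : V,
      ∑' w, ∫⁻ ω, ENNReal.ofReal ((Cv G θ (m ω) v w - Cv G θ (m' ω) v w) ^ 2
          + Cv G θ (m' ω) v w ^ 2 * (mag G θ (m ω) w - mag G θ (m' ω) w) ^ 2) ∂P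
        ≤ ENNReal.ofReal (C' / y ^ 80)
            * ∫⁻ ω, ENNReal.ofReal ((mag G θ (m ω) v - mag G θ (m' ω) v) ^ 2) ∂P
          + ENNReal.ofReal (C' * y ^ N) := by
  obtain ⟨C1, hC1, hb⟩ := recenter_bound (α := α) hG hd hreg hθ0 hθ1 hcrit hα0 hα1 C N
  obtain ⟨C2, hC2, ht⟩ := trunc C (N + 64)
  refine ⟨(d + 1) * C1 + (1 + C2), by positivity, ?_⟩
  intro Ω _ P hP m m' y r hy0 hy1 hm hm' hc hc' hhom henv henv' v
  have hmm := measurable_field hm
  have hmm' := measurable_field hm'
  have hR : ∀ v, ∫⁻ ω, Rf G θ (m ω) v ^ 2 ∂P < ⊤ := fun v =>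
    lt_of_le_of_lt (henv.momR 2 v) ENNReal.ofReal_lt_top
  have hR' : ∀ v, ∫⁻ ω, Rf G θ (m' ω) v ^ 2 ∂P < ⊤ := fun v =>
    lt_of_le_of_lt (henv'.momR 2 v) ENNReal.ofReal_lt_top
  obtain ⟨hb1, hb2⟩ := hb P m m' y r hy0 hy1 hm hm' hc hc' hhom henv henv' v
  have hrec := recenter hG (by omega : 2 ≤ d) hreg hθ0 hθ1 hα0 hα1 P m m' hm hm' hc hc' hhom
    hR hR' v
  have mC : ∀ w, Measurable (fun ω => Cv G θ (m ω) v w) := fun w => (measurable_Cv v w).comp hmm
  have mC' : ∀ w, Measurable (fun ω => Cv G θ (m' ω) v w) := fun w => (measurable_Cv v w).comp hmm'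
  have mM : ∀ w, Measurable (fun ω => mag G θ (m ω) w) := fun w => (measurable_mag w).comp hmm
  have mM' : ∀ w, Measurable (fun ω => mag G θ (m' ω) w) := fun w => (measurable_mag w).comp hmm'
  set A : ENNReal := ∫⁻ ω, ENNReal.ofReal ((mag G θ (m ω) v - mag G θ (m' ω) v) ^ 2) ∂P with hA
  -- first part
  have part1 : ∑' w, ∫⁻ ω, ENNReal.ofReal ((Cv G θ (m ω) v w - Cv G θ (m' ω) v w) ^ 2) ∂P
      ≤ (d + 1 : ENNReal) * (ENNReal.ofReal (C1 / y ^ 80) * A + ENNReal.ofReal (C1 * y ^ N)) := by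
    refine hrec.trans ?_
    rw [ENNReal.ofReal_mul (by norm_num)]
    have hhalf : ENNReal.ofReal (1 / 2) ≤ 1 := by
      rw [← ENNReal.ofReal_one]
      exact ENNReal.ofReal_le_ofReal (by norm_num)
    calc ENNReal.ofReal (1 / 2) * ENNReal.ofReal (∑ g ∈ G.neighborFinset v,
          ∫ ω, (Real.log (phi θ (m ω v g)) - Real.log (phi θ (m' ω v g)))
            * (S2 G θ (m ω) g v - S2 G θ (m' ω) g v) ∂P
          + ∫ ω, (Real.log (1 - mag G θ (m ω) v ^ 2) - Real.log (1 - mag G θ (m' ω) v ^ 2))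
            * (T2 G θ (m ω) v - T2 G θ (m' ω) v) ∂P)
        ≤ 1 * (∑ g ∈ G.neighborFinset v, ENNReal.ofReal
          (∫ ω, (Real.log (phi θ (m ω v g)) - Real.log (phi θ (m' ω v g)))
            * (S2 G θ (m ω) g v - S2 G θ (m' ω) g v) ∂P)
          + ENNReal.ofReal
            (∫ ω, (Real.log (1 - mag G θ (m ω) v ^ 2) - Real.log (1 - mag G θ (m' ω) v ^ 2))
            * (T2 G θ (m ω) v - T2 G θ (m' ω) v) ∂P)) := by
          gcongr
          refine ENNReal.ofReal_add_le.trans ?_
          gcongr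
          exact ofReal_sum_le' _ _
      _ ≤ 1 * (∑ g ∈ G.neighborFinset v,
            (ENNReal.ofReal (C1 / y ^ 80) * A + ENNReal.ofReal (C1 * y ^ N))
          + (ENNReal.ofReal (C1 / y ^ 80) * A + ENNReal.ofReal (C1 * y ^ N))) := by
          gcongr with g hg
          · exact (ofReal_integral_le _).trans (hb1 g ((G.mem_neighborFinset _ _).mp hg))
          · exact (ofReal_integral_le _).trans hb2
      _ = _ := by
          rw [Finset.sum_const, nsmul_eq_mul, G.card_neighborFinset_eq_degree, hreg]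
          ring
  -- second part
  have part2 : ∑' w, ∫⁻ ω, ENNReal.ofReal (Cv G θ (m' ω) v w ^ 2
      * (mag G θ (m ω) w - mag G θ (m' ω) w) ^ 2) ∂P
      ≤ ENNReal.ofReal (1 / y ^ 65) * A + ENNReal.ofReal (C2 * y ^ N) := by
    have hswap : ∀ w, ∫⁻ ω, ENNReal.ofReal (Cv G θ (m' ω) v w ^ 2
        * (mag G θ (m ω) w - mag G θ (m' ω) w) ^ 2) ∂P
        = ∫⁻ ω, ENNReal.ofReal ((mag G θ (m ω) v - mag G θ (m' ω) v) ^ 2)
          * ENNReal.ofReal (Cv G θ (m' ω) v w ^ 2) ∂P := by
      intro w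
      have h1 := lintegral_swap hG (by omega : 2 ≤ d) hreg hm hm' hhom
        (fun v w x => ENNReal.ofReal (Cv G θ x.2 v w ^ 2 * (mag G θ x.1 w - mag G θ x.2 w) ^ 2))
        (fun v w => ((((measurable_Cv v w).comp measurable_snd).pow_const 2).mul
          ((((measurable_mag w).comp measurable_fst).sub
            ((measurable_mag w).comp measurable_snd)).pow_const 2)).ennreal_ofReal)
        (fun g v w => by
          filter_upwards [hc, hc'] with ω h1 h2
          rw [Cv_iso hG h2 g, mag_iso h1 g, mag_iso h2 g]) v w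
      refine h1.trans ?_
      apply lintegral_congr_ae
      filter_upwards [hc'] with ω h2
      rw [Cv_symm hθ0.le hθ1 hα0 hα1 hG h2 w v, mul_comm, ENNReal.ofReal_mul (sq_nonneg _)]
    have hmz : ∀ w, Measurable (fun ω => ENNReal.ofReal ((mag G θ (m ω) v - mag G θ (m' ω) v) ^ 2)
          * ENNReal.ofReal (Cv G θ (m' ω) v w ^ 2)) := fun w =>
      (((mM v).sub (mM' v)).pow_const 2).ennreal_ofReal.mul ((mC' w).pow_const 2).ennreal_ofReal
    rw [tsum_congr hswap, ← lintegral_tsum (fun w => (hmz w).aemeasurable)]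
    have hRfm : Measurable (fun ω => Rf G θ (m' ω) v) := (measurable_Rf v).comp hmm'
    calc ∫⁻ ω, ∑' w, ENNReal.ofReal ((mag G θ (m ω) v - mag G θ (m' ω) v) ^ 2)
            * ENNReal.ofReal (Cv G θ (m' ω) v w ^ 2) ∂P
        ≤ ∫⁻ ω, ENNReal.ofReal (1 / y ^ 64)
            * (ENNReal.ofReal ((mag G θ (m ω) v - mag G θ (m' ω) v) ^ 2)
              * (ENNReal.ofReal (y ^ 64) * Rf G θ (m' ω) v)) ∂P := by
          apply lintegral_mono_ae
          filter_upwards [hc'] with ω h2
          rw [ENNReal.tsum_mul_left]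
          have h3 := tsum_Cv_sq_le hG hθ0.le hθ1 hα0 hα1 h2 v
          have e : ENNReal.ofReal (1 / y ^ 64)
            * (ENNReal.ofReal ((mag G θ (m ω) v - mag G θ (m' ω) v) ^ 2)
              * (ENNReal.ofReal (y ^ 64) * Rf G θ (m' ω) v))
              = ENNReal.ofReal ((mag G θ (m ω) v - mag G θ (m' ω) v) ^ 2)
                * ((ENNReal.ofReal (1 / y ^ 64) * ENNReal.ofReal (y ^ 64)) * Rf G θ (m' ω) v) := by
            ring
          rw [e, ← ENNReal.ofReal_mul (by positivity), one_div_mul_cancel (by positivity),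
            ENNReal.ofReal_one, one_mul]
          gcongr
      _ = ENNReal.ofReal (1 / y ^ 64)
            * ∫⁻ ω, (ENNReal.ofReal ((mag G θ (m ω) v - mag G θ (m' ω) v) ^ 2)
              * (ENNReal.ofReal (y ^ 64) * Rf G θ (m' ω) v)) ∂P :=
          lintegral_const_mul' _ _ ENNReal.ofReal_ne_top
      _ ≤ ENNReal.ofReal (1 / y ^ 64) * (ENNReal.ofReal (1 / y) * A
            + ENNReal.ofReal (C2 * y ^ (N + 64))) := by
          gcongr
          apply ht P y (fun ω => ENNReal.ofReal (y ^ 64) * Rf G θ (m' ω) v)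
            (fun ω => ENNReal.ofReal ((mag G θ (m ω) v - mag G θ (m' ω) v) ^ 2)) hy0 hy1
            (hRfm.const_mul _) (((mM v).sub (mM' v)).pow_const 2).ennreal_ofReal
          · intro q
            calc ∫⁻ ω, (ENNReal.ofReal (y ^ 64) * Rf G θ (m' ω) v) ^ q ∂P
                = ∫⁻ ω, ENNReal.ofReal (y ^ (64 * q)) * Rf G θ (m' ω) v ^ q ∂P := by
                  apply lintegral_congr
                  intro ω
                  rw [mul_pow, ← ENNReal.ofReal_pow (by positivity), ← pow_mul]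
              _ = ENNReal.ofReal (y ^ (64 * q)) * ∫⁻ ω, Rf G θ (m' ω) v ^ q ∂P :=
                  lintegral_const_mul' _ _ ENNReal.ofReal_ne_top
              _ ≤ ENNReal.ofReal (y ^ (64 * q)) * ENNReal.ofReal (C q / y ^ (64 * q)) := by
                  gcongr
                  exact henv'.momR q v
              _ = ENNReal.ofReal (C q) := by
                  rw [← ENNReal.ofReal_mul (by positivity)]
                  congr 1
                  field_simp
          · filter_upwards [hc, hc'] with ω h1 h2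
            have h0 := (aMag_lt_one hθ0.le hθ1 hα0 hα1).2
            have h3 := abs_mag_le hθ0.le hθ1 hα0 hα1 h1 v
            have h4 := abs_mag_le hθ0.le hθ1 hα0 hα1 h2 v
            have h5 : |mag G θ (m ω) v - mag G θ (m' ω) v| ≤ 2 := by
              refine (abs_sub _ _).trans ?_
              linarith
            have h6 : (mag G θ (m ω) v - mag G θ (m' ω) v) ^ 2 ≤ 4 := by
              rw [← sq_abs]
              have := abs_nonneg (mag G θ (m ω) v - mag G θ (m' ω) v)
              nlinarith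
            calc ENNReal.ofReal ((mag G θ (m ω) v - mag G θ (m' ω) v) ^ 2) ≤ ENNReal.ofReal 4 :=
                  ENNReal.ofReal_le_ofReal h6
              _ = 4 := by norm_num
      _ = _ := by
          rw [mul_add, ← mul_assoc, ← ENNReal.ofReal_mul (by positivity),
            ← ENNReal.ofReal_mul (by positivity)]
          congr 2
          · congr 1
            field_simp
          · rw [pow_add]
            field_simp
  calc ∑' w, ∫⁻ ω, ENNReal.ofReal ((Cv G θ (m ω) v w - Cv G θ (m' ω) v w) ^ 2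
          + Cv G θ (m' ω) v w ^ 2 * (mag G θ (m ω) w - mag G θ (m' ω) w) ^ 2) ∂P
      = ∑' w, ∫⁻ ω, ENNReal.ofReal ((Cv G θ (m ω) v w - Cv G θ (m' ω) v w) ^ 2) ∂P
        + ∑' w, ∫⁻ ω, ENNReal.ofReal (Cv G θ (m' ω) v w ^ 2
            * (mag G θ (m ω) w - mag G θ (m' ω) w) ^ 2) ∂P := by
        rw [← ENNReal.tsum_add]
        apply tsum_congr
        intro w
        have hmz : Measurable (fun ω => ENNReal.ofReal
            ((Cv G θ (m ω) v w - Cv G θ (m' ω) v w) ^ 2)) :=
          (((mC w).sub (mC' w)).pow_const 2).ennreal_ofReal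
        rw [← lintegral_add_left hmz]
        apply lintegral_congr
        intro ω
        rw [ENNReal.ofReal_add (sq_nonneg _) (by positivity)]
    _ ≤ (d + 1 : ENNReal) * (ENNReal.ofReal (C1 / y ^ 80) * A + ENNReal.ofReal (C1 * y ^ N))
        + (ENNReal.ofReal (1 / y ^ 65) * A + ENNReal.ofReal (C2 * y ^ N)) := add_le_add part1 part2
    _ ≤ (ENNReal.ofReal ((d + 1) * C1 / y ^ 80) * A + ENNReal.ofReal ((d + 1) * C1 * y ^ N))
        + (ENNReal.ofReal ((1 + C2) / y ^ 80) * A + ENNReal.ofReal ((1 + C2) * y ^ N)) := by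
        have e : (d + 1 : ENNReal) = ENNReal.ofReal ((d : ℝ) + 1) := by
          rw [ENNReal.ofReal_add (by positivity) (by norm_num)]; simp
        apply add_le_add
        · rw [e, mul_add, ← mul_assoc, ← ENNReal.ofReal_mul (by positivity),
            ← ENNReal.ofReal_mul (by positivity)]
          apply le_of_eq
          congr 2
          · congr 1
            ring
          · ring
        · refine add_le_add (mul_le_mul' (ENNReal.ofReal_le_ofReal ?_) le_rfl)
            (ENNReal.ofReal_le_ofReal ?_)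
          · have h1 : y ^ 80 ≤ y ^ 65 := pow_le_pow_of_le_one hy0.le hy1 (by norm_num)
            calc 1 / y ^ 65 ≤ 1 / y ^ 80 := one_div_le_one_div_of_le (by positivity) h1
              _ ≤ (1 + C2) / y ^ 80 := by gcongr; linarith
          · have hyN : 0 < y ^ N := by positivity
            nlinarith
    _ = _ := by
        have e1 : ((d + 1) * C1 + (1 + C2)) / y ^ 80
            = (d + 1) * C1 / y ^ 80 + (1 + C2) / y ^ 80 := by ring
        have e2 : ((d + 1) * C1 + (1 + C2)) * y ^ N = (d + 1) * C1 * y ^ N + (1 + C2) * y ^ N := by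
          ring
        rw [e1, e2, ENNReal.ofReal_add (p := (d + 1) * C1 / y ^ 80) (by positivity)
          (by positivity), ENNReal.ofReal_add (p := (d + 1) * C1 * y ^ N)
            (by positivity) (by positivity)]
        ring

end Vale.Agent.P161c
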