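import Vale.Agent.P161c.TreeRec
import Vale.Agent.P161c.Real
import Vale.Agent.P161c.Trans

/-!
First comparison estimate for two coupled homogeneous cavity fields.
-/

namespace Vale.Agent.P161c

open MeasureTheory SimpleGraph Vale.Agent.H13.P161

variable {V : Type*} {G : SimpleGraph V} [LocallyFinite G] [DecidableEq V] [Countable V]

omit [DecidableEq V] [Countable V] in
/-- Mass transport for functionals of the pair of fields: the expectation of an
automorphism-covariant functional of a pair of vertices is symmetric.  (Use `exists_iso_pair` with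
`(v, w)` and `(w, v)`.) -/
lemma lintegral_swap (hG : G.IsTree) {d : ℕ} (hd : 2 ≤ d) (hreg : ∀ v, G.degree v = d)
    {Ω : Type*} [MeasurableSpace Ω] {P : Measure Ω} {m m' : Ω → V → V → ℝ}
    (hm : ∀ c p, Measurable (fun ω => m ω c p)) (hm' : ∀ c p, Measurable (fun ω => m' ω c p))
    (hhom : Homog G P m m')
    (f : V → V → (V → V → ℝ) × (V → V → ℝ) → ENNReal) (hf : ∀ v w, Measurable (f v w))
    (hcov : ∀ (g : G ≃g G) v w, ∀ᵐ ω ∂P,
      f v w (fun c p => m ω (g c) (g p), fun c p => m' ω (g c) (g p)) = f (g v) (g w) (m ω, m' ω))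
    (v w : V) :
    ∫⁻ ω, f v w (m ω, m' ω) ∂P = ∫⁻ ω, f w v (m ω, m' ω) ∂P := by
  obtain ⟨g, hgv, hgw⟩ := exists_iso_pair hG hd hreg (v := v) (w := w) (v' := w) (w' := v)
    G.dist_comm
  have hpair : Measurable (fun ω => ((m ω, m' ω) : (V → V → ℝ) × (V → V → ℝ))) :=
    (measurable_pi_lambda _ fun c => measurable_pi_lambda _ fun p => hm c p).prodMk
      (measurable_pi_lambda _ fun c => measurable_pi_lambda _ fun p => hm' c p)
  have hpairg : Measurable (fun ω => ((fun c p => m ω (g c) (g p),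
      fun c p => m' ω (g c) (g p)) : (V → V → ℝ) × (V → V → ℝ))) :=
    (measurable_pi_lambda _ fun c => measurable_pi_lambda _ fun p => hm (g c) (g p)).prodMk
      (measurable_pi_lambda _ fun c => measurable_pi_lambda _ fun p => hm' (g c) (g p))
  calc ∫⁻ ω, f v w (m ω, m' ω) ∂P
      = ∫⁻ z, f v w z ∂(P.map (fun ω => ((m ω, m' ω) : (V → V → ℝ) × (V → V → ℝ)))) :=
        (lintegral_map (hf v w) hpair).symm
    _ = ∫⁻ z, f v w z ∂(P.map (fun ω => ((fun c p => m ω (g c) (g p),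
          fun c p => m' ω (g c) (g p)) : (V → V → ℝ) × (V → V → ℝ)))) := by rw [hhom g]
    _ = ∫⁻ ω, f v w (fun c p => m ω (g c) (g p), fun c p => m' ω (g c) (g p)) ∂P :=
        lintegral_map (hf v w) hpairg
    _ = ∫⁻ ω, f (g v) (g w) (m ω, m' ω) ∂P := lintegral_congr_ae (hcov g v w)
    _ = ∫⁻ ω, f w v (m ω, m' ω) ∂P := by rw [hgv, hgw]

omit [LocallyFinite G] [DecidableEq V] [Countable V] in
/-- the vertices of the path to `w` are those of the path to `par G v w` and `w` -/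
lemma onpath_step (hG : G.IsTree) {v w : V} (hw : w ≠ v) (x : V) :
    (G.dist v w = G.dist v x + G.dist x w) ↔
      (G.dist v (par G v w) = G.dist v x + G.dist x (par G v w)) ∨ x = w := by
  obtain ⟨hadj, hd⟩ := par_spec (G := G) (o := v) hG.1 hw
  set p := par G v w with hp
  rcases lt_or_ge (G.dist x p) (G.dist x w) with h1 | h1
  · have h2 : G.dist x w = G.dist x p + 1 := by
      have := hadj.symm.diff_dist_adj (u := x)
      omega
    constructor
    · intro h
      left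
      omega
    · rintro (h | h)
      · omega
      · subst h
        rw [G.dist_self] at h1
        omega
  · have h3 : G.dist x p ≠ G.dist x w := by
      intro h4
      have := hG.dist_ne_of_adj x hadj
      omega
    have h4 : G.dist x w < G.dist x p := lt_of_le_of_ne h1 (Ne.symm h3)
    have h5 := dist_across' hG hadj (x := x) (y := v) h4 (by
      rw [G.dist_comm (u := v), G.dist_comm (u := v)] at *
      omega)
    have h6 : G.dist v x = G.dist x v := G.dist_comm
    have h7 : G.dist p v = G.dist v p := G.dist_comm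
    constructor
    · intro h
      right
      have : G.dist x w = 0 := by omega
      exact (hG.1.dist_eq_zero_iff).1 this
    · rintro (h | h)
      · omega
      · subst h
        rw [G.dist_self]
        omega

lemma abs_add_abs_sq_le (x y : ℝ) : (|x| + |y|) ^ 2 ≤ 2 * (x ^ 2 + y ^ 2) := by
  nlinarith [sq_nonneg (|x| - |y|), sq_abs x, sq_abs y]

/-- combination of a size bound with a Lipschitz bound -/
lemma size_lip_comb {k a a' x x' : ℝ} (hk : 0 < k) (h4 : |a - a'| ≤ k * (|x| + |x'|) * |x - x'|)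
    (h5 : x ^ 2 ≤ k * a) (h6 : x' ^ 2 ≤ k * a') :
    (a - a') ^ 2 ≤ 2 * k ^ 3 * (a + a') * (x - x') ^ 2 := by
  have h7 : (a - a') ^ 2 ≤ (k * (|x| + |x'|) * |x - x'|) ^ 2 := by
    rw [← sq_abs (a - a')]
    exact pow_le_pow_left₀ (abs_nonneg _) h4 2
  have h8 : (|x| + |x'|) ^ 2 ≤ 2 * k * (a + a') := by
    have := abs_add_abs_sq_le x x'
    linarith
  calc (a - a') ^ 2 ≤ (k * (|x| + |x'|) * |x - x'|) ^ 2 := h7
    _ = k ^ 2 * (|x| + |x'|) ^ 2 * (x - x') ^ 2 := by
        rw [mul_pow, mul_pow, sq_abs]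
    _ ≤ k ^ 2 * (2 * k * (a + a')) * (x - x') ^ 2 := by gcongr
    _ = 2 * k ^ 3 * (a + a') * (x - x') ^ 2 := by ring

/-- Cauchy-Schwarz in the form of a recursion step -/
lemma cs_step {K X Y P p S s : ℝ} (hK : 0 ≤ K) (hP : 0 ≤ P) (hp : 0 ≤ p) (hS : 0 ≤ S)
    (hs : 0 ≤ s) (hX : X ^ 2 ≤ K * P * S) (hY : Y ^ 2 ≤ K * p * s) :
    (X + Y) ^ 2 ≤ K * (P + p) * (S + s) := by
  have h1 : |X * Y| ≤ K * (P * s + p * S) / 2 := by
    apply abs_le_of_sq_le_sq
    · have h2 : (X * Y) ^ 2 ≤ (K * P * S) * (K * p * s) := by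
        rw [mul_pow]
        exact mul_le_mul hX hY (sq_nonneg _) (by positivity)
      nlinarith [sq_nonneg (K * (P * s - p * S))]
    · positivity
  have h3 : X * Y ≤ K * (P * s + p * S) / 2 := (le_abs_self _).trans h1
  nlinarith

omit [LocallyFinite G] [DecidableEq V] [Countable V] in
/-- sum over the vertices of the path from `v` to `w` of `D` -/
lemma path_sum_step (hG : G.IsTree) {v w : V} (hw : w ≠ v) (D : V → ENNReal) :
    (∑' x, if G.dist v w = G.dist v x + G.dist x w then D x else 0)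
      = (∑' x, if G.dist v (par G v w) = G.dist v x + G.dist x (par G v w) then D x else 0)
        + D w := by
  classical
  have h1 : ∀ x, (if G.dist v w = G.dist v x + G.dist x w then D x else 0)
      = (if G.dist v (par G v w) = G.dist v x + G.dist x (par G v w) then D x else 0)
        + (if x = w then D w else 0) := by
    intro x
    have h2 := onpath_step hG hw x
    obtain ⟨hadj, hd⟩ := par_spec (G := G) (o := v) hG.1 hw
    by_cases hx : x = w
    · subst hx
      have h3 : ¬ (G.dist v (par G v x) = G.dist v x + G.dist x (par G v x)) := by omega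
      have h4 : G.dist v x = G.dist v x + G.dist x x := by simp
      rw [if_pos h4, if_neg h3, if_pos rfl, zero_add]
    · rw [if_neg hx, add_zero]
      have h3 : (G.dist v w = G.dist v x + G.dist x w) ↔
          (G.dist v (par G v w) = G.dist v x + G.dist x (par G v w)) := by
        rw [h2]
        exact ⟨fun h => h.resolve_right hx, Or.inl⟩
      simp only [h3]
  rw [tsum_congr h1, ENNReal.tsum_add, tsum_ite_eq]

omit [LocallyFinite G] [DecidableEq V] [Countable V] in
lemma path_sum_self (hG : G.IsTree) (v : V) (D : V → ENNReal) :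
    (∑' x, if G.dist v v = G.dist v x + G.dist x v then D x else 0) = D v := by
  classical
  have h1 : ∀ x, (if G.dist v v = G.dist v x + G.dist x v then D x else 0)
      = if x = v then D v else 0 := by
    intro x
    by_cases hx : x = v
    · subst hx
      simp
    · rw [if_neg hx, if_neg]
      intro h
      rw [G.dist_self] at h
      have : G.dist x v = 0 := by omega
      exact hx ((hG.1.dist_eq_zero_iff).1 this)
  rw [tsum_congr h1, tsum_ite_eq]

omit [LocallyFinite G] [DecidableEq V] [Countable V] in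
/-- difference of the logarithms of the covariances along a path -/
lemma log_path_aux {θ α : ℝ} (hG : G.IsTree) (hθ0 : 0 < θ) (hθ1 : θ < 1) (hα0 : 0 ≤ α)
    (hα1 : α < 1) :
    ∃ K : ℝ, 0 < K ∧ ∀ m m' : V → V → ℝ, IsCavity G θ α m → IsCavity G θ α m' →
      ∀ v w : V, ∃ T : ℝ, (mag G θ m w - mag G θ m' w) ^ 2 ≤ T ∧
        (∑' x, if G.dist v w = G.dist v x + G.dist x w then
          ENNReal.ofReal ((mag G θ m x - mag G θ m' x) ^ 2) else 0) = ENNReal.ofReal T ∧
        ((- Real.log (1 - mag G θ m v ^ 2) - Real.log (Wt G θ m v w))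
          - (- Real.log (1 - mag G θ m' v ^ 2) - Real.log (Wt G θ m' v w))) ^ 2
        ≤ K * ((- Real.log (1 - mag G θ m v ^ 2) - Real.log (Wt G θ m v w))
          + (- Real.log (1 - mag G θ m' v ^ 2) - Real.log (Wt G θ m' v w)))
          * (2 * T - (mag G θ m w - mag G θ m' w) ^ 2) := by
  obtain ⟨K1, hK1, h1⟩ := phi_sub_le hθ0.le hθ1 hα0 hα1
  obtain ⟨ha0, ha1⟩ := aMag_lt_one hθ0.le hθ1 hα0 hα1
  obtain ⟨K2, hK2, h2⟩ := log_one_sub_sq_le ha0 ha1
  obtain ⟨K3, hK3, h3⟩ := cavity_inversion hθ0.le hθ1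
  set K : ℝ := 2 * K2 ^ 3 + 4 * K1 ^ 3 * K3 ^ 2 with hK
  have hKpos : 0 < K := by positivity
  refine ⟨K, hKpos, fun m m' hm hm' v => ?_⟩
  -- sign of the logarithms
  have hlog1 : ∀ μ : V → V → ℝ, IsCavity G θ α μ → 0 ≤ - Real.log (1 - mag G θ μ v ^ 2) := by
    intro μ hμ
    have := one_sub_mag_sq_pos hθ0.le hθ1 hα0 hα1 hμ v
    have h5 : Real.log (1 - mag G θ μ v ^ 2) ≤ 0 :=
      Real.log_nonpos this.le (by nlinarith [sq_nonneg (mag G θ μ v)])
    linarith
  have hlog2 : ∀ μ : V → V → ℝ, IsCavity G θ α μ → ∀ w, 0 ≤ - Real.log (Wt G θ μ v w) := by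
    intro μ hμ w
    obtain ⟨h4, h5⟩ := Wt_pos_le hθ0.le hθ1 hα1 hG.1 hμ v w
    have := Real.log_nonpos h4.le h5
    linarith
  refine bcast_induction (G := G) (o := v) hG.1 (P := fun w => ∃ T : ℝ,
        (mag G θ m w - mag G θ m' w) ^ 2 ≤ T ∧
        (∑' x, if G.dist v w = G.dist v x + G.dist x w then
          ENNReal.ofReal ((mag G θ m x - mag G θ m' x) ^ 2) else 0) = ENNReal.ofReal T ∧
        ((- Real.log (1 - mag G θ m v ^ 2) - Real.log (Wt G θ m v w))
          - (- Real.log (1 - mag G θ m' v ^ 2) - Real.log (Wt G θ m' v w))) ^ 2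
        ≤ K * ((- Real.log (1 - mag G θ m v ^ 2) - Real.log (Wt G θ m v w))
          + (- Real.log (1 - mag G θ m' v ^ 2) - Real.log (Wt G θ m' v w)))
          * (2 * T - (mag G θ m w - mag G θ m' w) ^ 2)) ?_ ?_
  · refine ⟨(mag G θ m v - mag G θ m' v) ^ 2, le_rfl, path_sum_self hG v _, ?_⟩
    simp only [Wt_self, Real.log_one, sub_zero]
    obtain ⟨h4, _, h6⟩ := h2 _ _ (abs_mag_le hθ0.le hθ1 hα0 hα1 hm v)
      (abs_mag_le hθ0.le hθ1 hα0 hα1 hm' v)
    obtain ⟨_, _, h6'⟩ := h2 _ _ (abs_mag_le hθ0.le hθ1 hα0 hα1 hm' v)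
      (abs_mag_le hθ0.le hθ1 hα0 hα1 hm v)
    have h7 := size_lip_comb (a := - Real.log (1 - mag G θ m v ^ 2))
      (a' := - Real.log (1 - mag G θ m' v ^ 2)) (x := mag G θ m v) (x' := mag G θ m' v) hK2 (by
        rw [show - Real.log (1 - mag G θ m v ^ 2) - - Real.log (1 - mag G θ m' v ^ 2)
          = -(Real.log (1 - mag G θ m v ^ 2) - Real.log (1 - mag G θ m' v ^ 2)) by ring, abs_neg]
        exact h4) h6 h6'
    have h8 := hlog1 m hm
    have h9 := hlog1 m' hm'
    calc _ ≤ 2 * K2 ^ 3 * (- Real.log (1 - mag G θ m v ^ 2) + - Real.log (1 - mag G θ m' v ^ 2))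
          * (mag G θ m v - mag G θ m' v) ^ 2 := h7
      _ ≤ K * (- Real.log (1 - mag G θ m v ^ 2) + - Real.log (1 - mag G θ m' v ^ 2))
          * (mag G θ m v - mag G θ m' v) ^ 2 := by
          have : 2 * K2 ^ 3 ≤ K := by
            have : 0 ≤ 4 * K1 ^ 3 * K3 ^ 2 := by positivity
            linarith
          gcongr
      _ = _ := by ring
  · intro w hw ih
    obtain ⟨hadj, hd⟩ := par_spec (G := G) (o := v) hG.1 hw
    obtain ⟨T, hT1, hT2, hT3⟩ := ih
    set p := par G v w with hp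
    set δ : ℝ := (mag G θ m w - mag G θ m' w) ^ 2 with hδ
    set δ' : ℝ := (mag G θ m p - mag G θ m' p) ^ 2 with hδ'
    have hδ0 : 0 ≤ δ := sq_nonneg _
    have hδ'0 : 0 ≤ δ' := sq_nonneg _
    refine ⟨T + δ, by linarith, ?_, ?_⟩
    · rw [path_sum_step hG hw, hT2, ENNReal.ofReal_add (by linarith) hδ0]
    · have e1 := log_Wt_tail hθ0.le hθ1 hα1 hG.1 hm hw
      have e2 := log_Wt_tail hθ0.le hθ1 hα1 hG.1 hm' hw
      rw [← hp] at e1 e2
      obtain ⟨_, _, h6, h7⟩ := h1 (m w p) (m' w p) (hm.bound _ _ hadj) (hm'.bound _ _ hadj)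
      obtain ⟨_, _, _, h7'⟩ := h1 (m' w p) (m w p) (hm'.bound _ _ hadj) (hm.bound _ _ hadj)
      have h8 := size_lip_comb (a := - Real.log (phi θ (m w p)))
        (a' := - Real.log (phi θ (m' w p))) (x := m w p) (x' := m' w p) hK1 (by
          rw [show - Real.log (phi θ (m w p)) - - Real.log (phi θ (m' w p))
            = -(Real.log (phi θ (m w p)) - Real.log (phi θ (m' w p))) by ring, abs_neg]
          exact h6) h7 h7'
      have hb : ∀ μ : V → V → ℝ, IsCavity G θ α μ → ∀ c q, G.Adj c q → |μ c q| ≤ 1 :=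
        fun μ hμ c q hcq => (hμ.bound c q hcq).trans hα1.le
      have h9 := h3 (m w p) (m p w) (m' w p) (m' p w) (hb m hm _ _ hadj) (hb m hm _ _ hadj.symm)
        (hb m' hm' _ _ hadj) (hb m' hm' _ _ hadj.symm)
      have e3 : comb (m w p) (θ * m p w) = mag G θ m w := (mag_eq hm hadj).symm
      have e4 : comb (m' w p) (θ * m' p w) = mag G θ m' w := (mag_eq hm' hadj).symm
      have e5 : comb (m p w) (θ * m w p) = mag G θ m p := (mag_eq hm hadj.symm).symm
      have e6 : comb (m' p w) (θ * m' w p) = mag G θ m' p := (mag_eq hm' hadj.symm).symm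
      rw [e3, e4, e5, e6] at h9
      have h10 : (m w p - m' w p) ^ 2 ≤ 2 * K3 ^ 2 * (δ + δ') := by
        have h11 : |m w p - m' w p| ≤ K3 * (|mag G θ m w - mag G θ m' w|
            + |mag G θ m p - mag G θ m' p|) := by
          have := abs_nonneg (m p w - m' p w)
          linarith
        calc (m w p - m' w p) ^ 2 = |m w p - m' w p| ^ 2 := (sq_abs _).symm
          _ ≤ (K3 * (|mag G θ m w - mag G θ m' w| + |mag G θ m p - mag G θ m' p|)) ^ 2 :=
            pow_le_pow_left₀ (abs_nonneg _) h11 2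
          _ = K3 ^ 2 * (|mag G θ m w - mag G θ m' w| + |mag G θ m p - mag G θ m' p|) ^ 2 := by
            rw [mul_pow]
          _ ≤ K3 ^ 2 * (2 * (δ + δ')) := by
            have : (|mag G θ m w - mag G θ m' w| + |mag G θ m p - mag G θ m' p|) ^ 2
                ≤ 2 * (δ + δ') := abs_add_abs_sq_le _ _
            gcongr
          _ = 2 * K3 ^ 2 * (δ + δ') := by ring
      have hpos1 : 0 ≤ - Real.log (phi θ (m w p)) := by
        have h11 := (hm.bound _ _ hadj).trans_lt hα1
        obtain ⟨h12, h13⟩ := phi_nonneg_le hθ0.le hθ1 h11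
        have := Real.log_nonpos h12.le h13
        linarith
      have hpos2 : 0 ≤ - Real.log (phi θ (m' w p)) := by
        have h11 := (hm'.bound _ _ hadj).trans_lt hα1
        obtain ⟨h12, h13⟩ := phi_nonneg_le hθ0.le hθ1 h11
        have := Real.log_nonpos h12.le h13
        linarith
      have h14 : (- Real.log (phi θ (m w p)) - - Real.log (phi θ (m' w p))) ^ 2
          ≤ K * (- Real.log (phi θ (m w p)) + - Real.log (phi θ (m' w p))) * (δ + δ') := by
        calc _ ≤ 2 * K1 ^ 3 * (- Real.log (phi θ (m w p)) + - Real.log (phi θ (m' w p)))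
              * (m w p - m' w p) ^ 2 := h8
          _ ≤ 2 * K1 ^ 3 * (- Real.log (phi θ (m w p)) + - Real.log (phi θ (m' w p)))
              * (2 * K3 ^ 2 * (δ + δ')) := by gcongr
          _ = (4 * K1 ^ 3 * K3 ^ 2) * (- Real.log (phi θ (m w p)) + - Real.log (phi θ (m' w p)))
              * (δ + δ') := by ring
          _ ≤ _ := by
            have : 4 * K1 ^ 3 * K3 ^ 2 ≤ K := by
              have : 0 ≤ 2 * K2 ^ 3 := by positivity
              linarith
            gcongr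
      have h15 := hlog1 m hm
      have h16 := hlog1 m' hm'
      have h17 := hlog2 m hm p
      have h18 := hlog2 m' hm' p
      have h19 := cs_step hKpos.le (P := (- Real.log (1 - mag G θ m v ^ 2)
          - Real.log (Wt G θ m v p)) + (- Real.log (1 - mag G θ m' v ^ 2)
          - Real.log (Wt G θ m' v p)))
        (p := (- Real.log (phi θ (m w p)) + - Real.log (phi θ (m' w p))))
        (S := 2 * T - δ') (s := δ + δ') (by linarith) (by linarith) (by linarith) (by linarith)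
        hT3 h14
      rw [e1, e2]
      calc _ = _ := by ring
        _ ≤ _ := h19
        _ = _ := by ring

omit [LocallyFinite G] [DecidableEq V] [Countable V] in
/-- Deterministic pathwise estimate.  With `A = - log (Wt v w) - log (1 - mag v ²)` (so that
`Cv v w = θ^n e^{-A}`), `|A - A'| ≤ K Σ_{x on the path} (size) (difference)` by `phi_sub_le` and
`log_one_sub_sq_le`, hence by Cauchy-Schwarz and `x² ≤ K (- log (phi θ x))`:
`(A - A')² ≤ K (A + A') S`, `S` the sum of the squared differences of `m x (par G v x)` and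
`mag v`; `exp_compare` then gives `(Cv - Cv')² ≤ K θ^n (Cv + Cv') S`, and by `cavity_inversion`
`S ≤ K Σ_{x ∈ path} (mag x - mag' x)²` (path including both ends). -/
lemma Cv_sub_sq_le {θ α : ℝ} (hG : G.IsTree) (hθ0 : 0 < θ) (hθ1 : θ < 1) (hα0 : 0 ≤ α)
    (hα1 : α < 1) :
    ∃ K : ℝ, 0 < K ∧ ∀ m m' : V → V → ℝ, IsCavity G θ α m → IsCavity G θ α m' →
      ∀ v w : V, ENNReal.ofReal ((Cv G θ m v w - Cv G θ m' v w) ^ 2)
        ≤ ENNReal.ofReal K * ∑' x, if G.dist v w = G.dist v x + G.dist x w then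
          ENNReal.ofReal (θ ^ G.dist v w * (Cv G θ m v w + Cv G θ m' v w)
            * (mag G θ m x - mag G θ m' x) ^ 2) else 0 := by
  obtain ⟨K, hK, h1⟩ := log_path_aux (G := G) hG hθ0 hθ1 hα0 hα1
  refine ⟨4 * K, by positivity, fun m m' hm hm' v w => ?_⟩
  obtain ⟨T, hT1, hT2, hT3⟩ := h1 m m' hm hm' v w
  have hδ0 : 0 ≤ (mag G θ m w - mag G θ m' w) ^ 2 := sq_nonneg _
  set A := - Real.log (1 - mag G θ m v ^ 2) - Real.log (Wt G θ m v w) with hA
  set A' := - Real.log (1 - mag G θ m' v ^ 2) - Real.log (Wt G θ m' v w) with hA'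
  have hfac : ∀ μ : V → V → ℝ, IsCavity G θ α μ →
      0 ≤ - Real.log (1 - mag G θ μ v ^ 2) - Real.log (Wt G θ μ v w) ∧
      Cv G θ μ v w = θ ^ G.dist v w
        * Real.exp (-(- Real.log (1 - mag G θ μ v ^ 2) - Real.log (Wt G θ μ v w))) := by
    intro μ hμ
    have h2 := one_sub_mag_sq_pos hθ0.le hθ1 hα0 hα1 hμ v
    obtain ⟨h4, h5⟩ := Wt_pos_le hθ0.le hθ1 hα1 hG.1 hμ v w
    have h6 : Real.log (1 - mag G θ μ v ^ 2) ≤ 0 :=
      Real.log_nonpos h2.le (by nlinarith [sq_nonneg (mag G θ μ v)])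
    have h7 := Real.log_nonpos h4.le h5
    refine ⟨by linarith, ?_⟩
    rw [show -(- Real.log (1 - mag G θ μ v ^ 2) - Real.log (Wt G θ μ v w))
      = Real.log (1 - mag G θ μ v ^ 2) + Real.log (Wt G θ μ v w) by ring, Real.exp_add,
      Real.exp_log h2, Real.exp_log h4, Cv]
    ring
  obtain ⟨hA0, hC⟩ := hfac m hm
  obtain ⟨hA'0, hC'⟩ := hfac m' hm'
  rw [← hA] at hA0 hC
  rw [← hA'] at hA'0 hC'
  have h2 := exp_compare hK.le hA0 hA'0 (S := 2 * T - (mag G θ m w - mag G θ m' w) ^ 2)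
    (by linarith) hT3
  have hθn : 0 ≤ θ ^ G.dist v w := by positivity
  have hcc : 0 ≤ θ ^ G.dist v w * (Cv G θ m v w + Cv G θ m' v w) := by
    have := (Cv_pos hθ0 hθ1 hα0 hα1 hG.1 hm v w).le
    have := (Cv_pos hθ0 hθ1 hα0 hα1 hG.1 hm' v w).le
    positivity
  have hT0 : 0 ≤ T := hδ0.trans hT1
  have h3 : (Cv G θ m v w - Cv G θ m' v w) ^ 2
      ≤ 4 * K * (θ ^ G.dist v w * (Cv G θ m v w + Cv G θ m' v w) * T) := by
    have hE : 0 ≤ Real.exp (-A) + Real.exp (-A') := by positivity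
    calc (Cv G θ m v w - Cv G θ m' v w) ^ 2
        = (θ ^ G.dist v w) ^ 2 * (Real.exp (-A) - Real.exp (-A')) ^ 2 := by
          rw [hC, hC']; ring
      _ ≤ (θ ^ G.dist v w) ^ 2 * (2 * K * (Real.exp (-A) + Real.exp (-A'))
          * (2 * T - (mag G θ m w - mag G θ m' w) ^ 2)) := by gcongr
      _ ≤ (θ ^ G.dist v w) ^ 2 * (2 * K * (Real.exp (-A) + Real.exp (-A')) * (2 * T)) := by
          gcongr
          linarith
      _ = 4 * K * (θ ^ G.dist v w * (Cv G θ m v w + Cv G θ m' v w) * T) := by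
          rw [hC, hC']; ring
  calc ENNReal.ofReal ((Cv G θ m v w - Cv G θ m' v w) ^ 2)
      ≤ ENNReal.ofReal (4 * K * (θ ^ G.dist v w * (Cv G θ m v w + Cv G θ m' v w) * T)) :=
        ENNReal.ofReal_le_ofReal h3
    _ = ENNReal.ofReal (4 * K) * (ENNReal.ofReal (θ ^ G.dist v w
          * (Cv G θ m v w + Cv G θ m' v w)) * ENNReal.ofReal T) := by
        rw [ENNReal.ofReal_mul (by positivity), ENNReal.ofReal_mul hcc]
    _ = _ := by
        rw [← hT2, ← ENNReal.tsum_mul_left]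
        congr 1
        refine tsum_congr fun x => ?_
        split_ifs
        · rw [ENNReal.ofReal_mul hcc]
        · rw [mul_zero]

/-- the transported quantity in the first comparison estimate -/
noncomputable def SB (G : SimpleGraph V) (θ : ℝ) (μ a b : V → V → ℝ) (v x : V) : ENNReal :=
  ENNReal.ofReal (θ ^ (2 * G.dist x v) * Wt G θ μ x v) * Rf G θ μ x
    * ENNReal.ofReal ((mag G θ a x - mag G θ b x) ^ 2)

omit [LocallyFinite G] [DecidableEq V] [Countable V] in
lemma SB_iso {θ α : ℝ} (hG : G.IsTree) {μ a b : V → V → ℝ} (ha : IsCavity G θ α a)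
    (hb : IsCavity G θ α b) (g : G ≃g G) (v x : V) :
    SB G θ (fun c p => μ (g c) (g p)) (fun c p => a (g c) (g p)) (fun c p => b (g c) (g p)) v x
      = SB G θ μ a b (g v) (g x) := by
  rw [SB, SB, Wt_iso hG, Rf_iso hG, mag_iso ha, mag_iso hb, dist_iso]

omit [LocallyFinite G] [DecidableEq V] in
lemma measurable_SB {θ : ℝ} {Z : Type*} [MeasurableSpace Z] {μ a b : Z → V → V → ℝ}
    (hμ : Measurable μ) (ha : Measurable a) (hb : Measurable b) (v x : V) :
    Measurable (fun z => SB G θ (μ z) (a z) (b z) v x) := by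
  unfold SB
  have h1 : Measurable (fun z => Wt G θ (μ z) x v) := (measurable_Wt x v).comp hμ
  have h2 : Measurable (fun z => Rf G θ (μ z) x) := (measurable_Rf x).comp hμ
  have h3 : Measurable (fun z => mag G θ (a z) x) := (measurable_mag x).comp ha
  have h4 : Measurable (fun z => mag G θ (b z) x) := (measurable_mag x).comp hb
  exact ((h1.const_mul _).ennreal_ofReal.mul h2).mul ((h3.sub h4).pow_const 2).ennreal_ofReal

omit [LocallyFinite G] [DecidableEq V] [Countable V] in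
/-- sum over the vertices beyond `x` -/
lemma tsum_beyond_le {θ α : ℝ} (hG : G.IsTree) (hθ0 : 0 < θ) (hθ1 : θ < 1) (hα0 : 0 ≤ α)
    (hα1 : α < 1) {μ : V → V → ℝ} (hμ : IsCavity G θ α μ) (v x : V) {δ : ℝ} (hδ : 0 ≤ δ) :
    (∑' w, if G.dist v w = G.dist v x + G.dist x w then
      ENNReal.ofReal (θ ^ G.dist v w * Cv G θ μ v w * δ) else 0)
      ≤ ENNReal.ofReal (θ ^ (2 * G.dist x v) * Wt G θ μ x v) * Rf G θ μ x
        * ENNReal.ofReal δ := by
  rw [Rf, ← ENNReal.tsum_mul_left, ← ENNReal.tsum_mul_right]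
  refine ENNReal.tsum_le_tsum fun w => ?_
  split_ifs with h
  · obtain ⟨h1, h2⟩ := Wt_pos_le hθ0.le hθ1 hα1 hG.1 hμ x v
    obtain ⟨h3, h4⟩ := Wt_pos_le hθ0.le hθ1 hα1 hG.1 hμ x w
    rw [← ENNReal.ofReal_mul (by positivity), ← ENNReal.ofReal_mul (by positivity)]
    apply ENNReal.ofReal_le_ofReal
    apply mul_le_mul_of_nonneg_right _ hδ
    rw [Cv_factor hθ0.le hθ1 hα0 hα1 hG hμ h]
    have h5 : G.dist x v = G.dist v x := G.dist_comm
    have h6 := one_sub_mag_sq_pos hθ0.le hθ1 hα0 hα1 hμ x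
    calc θ ^ G.dist v w * ((1 - mag G θ μ x ^ 2) * θ ^ G.dist v w * Wt G θ μ x v * Wt G θ μ x w)
        = (1 - mag G θ μ x ^ 2) * (θ ^ (2 * G.dist x v) * Wt G θ μ x v
          * (θ ^ (2 * G.dist x w) * Wt G θ μ x w)) := by
          rw [h, h5]; ring
      _ ≤ 1 * (θ ^ (2 * G.dist x v) * Wt G θ μ x v
          * (θ ^ (2 * G.dist x w) * Wt G θ μ x w)) := by
          apply mul_le_mul_of_nonneg_right _ (by positivity)
          nlinarith [sq_nonneg (mag G θ μ x)]
      _ = _ := one_mul _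
  · exact bot_le

omit [DecidableEq V] in
/-- the transported sum -/
lemma tsum_lintegral_SB {θ α : ℝ} (hG : G.IsTree) {d : ℕ} (hd : 2 ≤ d)
    (hreg : ∀ v, G.degree v = d)
    {Ω : Type*} [MeasurableSpace Ω] {P : Measure Ω} {m m' : Ω → V → V → ℝ}
    (hm : ∀ c p, Measurable (fun ω => m ω c p)) (hm' : ∀ c p, Measurable (fun ω => m' ω c p))
    (hc : ∀ᵐ ω ∂P, IsCavity G θ α (m ω)) (hc' : ∀ᵐ ω ∂P, IsCavity G θ α (m' ω))
    (hhom : Homog G P m m')
    (sel : (V → V → ℝ) × (V → V → ℝ) → V → V → ℝ) (hsel : sel = Prod.fst ∨ sel = Prod.snd)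
    (v : V) :
    ∑' x, ∫⁻ ω, SB G θ (sel (m ω, m' ω)) (m ω) (m' ω) v x ∂P
      = ∫⁻ ω, ENNReal.ofReal ((mag G θ (m ω) v - mag G θ (m' ω) v) ^ 2)
        * Rf G θ (sel (m ω, m' ω)) v ^ 2 ∂P := by
  have hselm : Measurable sel := by
    rcases hsel with rfl | rfl
    · exact measurable_fst
    · exact measurable_snd
  have hmm : Measurable (fun ω => m ω) :=
    measurable_pi_lambda _ fun c => measurable_pi_lambda _ fun p => hm c p
  have hmm' : Measurable (fun ω => m' ω) :=
    measurable_pi_lambda _ fun c => measurable_pi_lambda _ fun p => hm' c p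
  have hpm : Measurable (fun ω => sel (m ω, m' ω)) := hselm.comp (hmm.prodMk hmm')
  have h1 : ∀ x, ∫⁻ ω, SB G θ (sel (m ω, m' ω)) (m ω) (m' ω) v x ∂P
      = ∫⁻ ω, SB G θ (sel (m ω, m' ω)) (m ω) (m' ω) x v ∂P := by
    intro x
    refine lintegral_swap hG hd hreg hm hm' hhom
      (fun v x z => SB G θ (sel z) z.1 z.2 v x) (fun v w => measurable_SB hselm
        measurable_fst measurable_snd v w) ?_ v x
    intro g v w
    filter_upwards [hc, hc'] with ω h2 h3
    rcases hsel with rfl | rfl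
    · exact SB_iso hG h2 h3 g v w
    · exact SB_iso hG h2 h3 g v w
  rw [tsum_congr h1, ← lintegral_tsum (fun x => (measurable_SB hpm hmm hmm' x v).aemeasurable)]
  apply lintegral_congr
  intro ω
  unfold SB
  rw [ENNReal.tsum_mul_right, ENNReal.tsum_mul_right, ← Rf, mul_comm]
  congr 1
  exact (pow_two _).symm

/-- First comparison estimate.
Proof: sum `Cv_sub_sq_le` over `w`; by `Cv_factor`, for `x` on the path,
`θ^n Cv v w ≤ (θ^(2 dist x v) Wt x v) (θ^(2 dist x w) Wt x w)`.  For fixed `x` sum over `w` beyond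
`x` first (at most `θ^(2 dist x v) Wt x v * Rf x * (mag x - mag' x)²`), then use `lintegral_swap`
for the pair `(v, x)` and sum over `x`: the total is at most `K E[(mag v - mag' v)² (Rf v)²]`,
for both fields.  The second part: `Cv' v w ² (mag w - mag' w)²` is, after `lintegral_swap` and
`Cv_symm`, `Cv' v w ² (mag v - mag' v)²`, and `Σ_w Cv' v w ² ≤ Rf' v ≤ (Rf' v)²`. -/
theorem stageB {θ α : ℝ} (hG : G.IsTree) {d : ℕ} (hd : 2 ≤ d) (hreg : ∀ v, G.degree v = d)
    (hθ0 : 0 < θ) (hθ1 : θ < 1) (hα0 : 0 ≤ α) (hα1 : α < 1) :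
    ∃ K : ℝ, 0 < K ∧ ∀ {Ω : Type*} [MeasurableSpace Ω] (P : Measure Ω) [IsProbabilityMeasure P]
      (m m' : Ω → V → V → ℝ),
      (∀ c p, Measurable (fun ω => m ω c p)) → (∀ c p, Measurable (fun ω => m' ω c p)) →
      (∀ᵐ ω ∂P, IsCavity G θ α (m ω)) → (∀ᵐ ω ∂P, IsCavity G θ α (m' ω)) →
      Homog G P m m' → ∀ v : V,
      ∑' w, ∫⁻ ω, ENNReal.ofReal ((Cv G θ (m ω) v w - Cv G θ (m' ω) v w) ^ 2
          + Cv G θ (m' ω) v w ^ 2 * (mag G θ (m ω) w - mag G θ (m' ω) w) ^ 2) ∂P
        ≤ ENNReal.ofReal K * ∫⁻ ω, ENNReal.ofReal ((mag G θ (m ω) v - mag G θ (m' ω) v) ^ 2)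
            * (Rf G θ (m ω) v ^ 2 + Rf G θ (m' ω) v ^ 2) ∂P := by
  obtain ⟨K, hK, h1⟩ := Cv_sub_sq_le (G := G) hG hθ0 hθ1 hα0 hα1
  refine ⟨K + 1, by positivity, ?_⟩
  intro Ω _ P _ m m' hm hm' hc hc' hhom v
  have hmm : Measurable (fun ω => m ω) :=
    measurable_pi_lambda _ fun c => measurable_pi_lambda _ fun p => hm c p
  have hmm' : Measurable (fun ω => m' ω) :=
    measurable_pi_lambda _ fun c => measurable_pi_lambda _ fun p => hm' c p
  have mmag : ∀ x, Measurable (fun ω => mag G θ (m ω) x) :=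
    fun x => (measurable_mag x).comp hmm
  have mmag' : ∀ x, Measurable (fun ω => mag G θ (m' ω) x) :=
    fun x => (measurable_mag x).comp hmm'
  have mCv : ∀ v w, Measurable (fun ω => Cv G θ (m ω) v w) :=
    fun v w => (measurable_Cv v w).comp hmm
  have mCv' : ∀ v w, Measurable (fun ω => Cv G θ (m' ω) v w) :=
    fun v w => (measurable_Cv v w).comp hmm'
  have mRf : Measurable (fun ω => Rf G θ (m ω) v) := (measurable_Rf v).comp hmm
  have mRf' : Measurable (fun ω => Rf G θ (m' ω) v) := (measurable_Rf v).comp hmm'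
  set D : Ω → ENNReal := fun ω => ENNReal.ofReal ((mag G θ (m ω) v - mag G θ (m' ω) v) ^ 2)
    with hD
  have mD : Measurable D := (((mmag v).sub (mmag' v)).pow_const 2).ennreal_ofReal
  -- the two transported sums
  have hS1 : ∑' x, ∫⁻ ω, SB G θ (m ω) (m ω) (m' ω) v x ∂P
      = ∫⁻ ω, D ω * Rf G θ (m ω) v ^ 2 ∂P :=
    tsum_lintegral_SB hG hd hreg hm hm' hc hc' hhom Prod.fst (Or.inl rfl) v
  have hS2 : ∑' x, ∫⁻ ω, SB G θ (m' ω) (m ω) (m' ω) v x ∂P
      = ∫⁻ ω, D ω * Rf G θ (m' ω) v ^ 2 ∂P :=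
    tsum_lintegral_SB hG hd hreg hm hm' hc hc' hhom Prod.snd (Or.inr rfl) v
  -- first part
  have hI : ∑' w, ∫⁻ ω, ENNReal.ofReal ((Cv G θ (m ω) v w - Cv G θ (m' ω) v w) ^ 2) ∂P
      ≤ ENNReal.ofReal K * ∫⁻ ω, D ω * (Rf G θ (m ω) v ^ 2 + Rf G θ (m' ω) v ^ 2) ∂P := by
    have hmeas : ∀ w x, Measurable (fun ω => if G.dist v w = G.dist v x + G.dist x w then
          ENNReal.ofReal (θ ^ G.dist v w * (Cv G θ (m ω) v w + Cv G θ (m' ω) v w)
            * (mag G θ (m ω) x - mag G θ (m' ω) x) ^ 2) else 0) := by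
      intro w x
      by_cases h : G.dist v w = G.dist v x + G.dist x w
      · simp only [if_pos h]
        exact ((((mCv v w).add (mCv' v w)).const_mul _).mul
          (((mmag x).sub (mmag' x)).pow_const 2)).ennreal_ofReal
      · simp only [if_neg h]
        exact measurable_const
    calc ∑' w, ∫⁻ ω, ENNReal.ofReal ((Cv G θ (m ω) v w - Cv G θ (m' ω) v w) ^ 2) ∂P
        ≤ ∑' w, ∫⁻ ω, ENNReal.ofReal K * ∑' x, (if G.dist v w = G.dist v x + G.dist x w then
          ENNReal.ofReal (θ ^ G.dist v w * (Cv G θ (m ω) v w + Cv G θ (m' ω) v w)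
            * (mag G θ (m ω) x - mag G θ (m' ω) x) ^ 2) else 0) ∂P := by
          refine ENNReal.tsum_le_tsum fun w => lintegral_mono_ae ?_
          filter_upwards [hc, hc'] with ω h2 h3
          exact h1 _ _ h2 h3 v w
      _ = ENNReal.ofReal K * ∑' x, ∑' w, ∫⁻ ω, (if G.dist v w = G.dist v x + G.dist x w then
          ENNReal.ofReal (θ ^ G.dist v w * (Cv G θ (m ω) v w + Cv G θ (m' ω) v w)
            * (mag G θ (m ω) x - mag G θ (m' ω) x) ^ 2) else 0) ∂P := by
          rw [ENNReal.tsum_comm, ← ENNReal.tsum_mul_left]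
          refine tsum_congr fun w => ?_
          rw [lintegral_const_mul _ (Measurable.ennreal_tsum fun x => hmeas w x),
            lintegral_tsum fun x => (hmeas w x).aemeasurable]
      _ ≤ ENNReal.ofReal K * ∑' x, (∫⁻ ω, SB G θ (m ω) (m ω) (m' ω) v x ∂P
            + ∫⁻ ω, SB G θ (m' ω) (m ω) (m' ω) v x ∂P) := by
          refine mul_le_mul_right (ENNReal.tsum_le_tsum fun x => ?_) _
          rw [← lintegral_tsum fun w => (hmeas w x).aemeasurable,
            ← lintegral_add_left (measurable_SB hmm hmm hmm' v x)]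
          refine lintegral_mono_ae ?_
          filter_upwards [hc, hc'] with ω h2 h3
          refine le_trans ?_ (add_le_add
            (tsum_beyond_le hG hθ0 hθ1 hα0 hα1 h2 v x (sq_nonneg (mag G θ (m ω) x
              - mag G θ (m' ω) x)))
            (tsum_beyond_le hG hθ0 hθ1 hα0 hα1 h3 v x (sq_nonneg (mag G θ (m ω) x
              - mag G θ (m' ω) x))))
          rw [← ENNReal.tsum_add]
          refine ENNReal.tsum_le_tsum fun w => ?_
          split_ifs with h
          · have h4 := (Cv_pos hθ0 hθ1 hα0 hα1 hG.1 h2 v w).le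
            have h5 := (Cv_pos hθ0 hθ1 hα0 hα1 hG.1 h3 v w).le
            rw [← ENNReal.ofReal_add (by positivity) (by positivity)]
            apply ENNReal.ofReal_le_ofReal
            apply le_of_eq
            ring
          · simp
      _ = ENNReal.ofReal K * ∫⁻ ω, D ω * (Rf G θ (m ω) v ^ 2 + Rf G θ (m' ω) v ^ 2) ∂P := by
          have h2 : Measurable (fun ω => D ω * Rf G θ (m ω) v ^ 2) := mD.mul (mRf.pow_const 2)
          rw [ENNReal.tsum_add, hS1, hS2, ← lintegral_add_left h2]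
          congr 1
          exact lintegral_congr fun ω => (mul_add _ _ _).symm
  -- second part
  have hII : ∑' w, ∫⁻ ω, ENNReal.ofReal (Cv G θ (m' ω) v w ^ 2
      * (mag G θ (m ω) w - mag G θ (m' ω) w) ^ 2) ∂P
      ≤ ∫⁻ ω, D ω * (Rf G θ (m ω) v ^ 2 + Rf G θ (m' ω) v ^ 2) ∂P := by
    have h2 : ∀ w, ∫⁻ ω, ENNReal.ofReal (Cv G θ (m' ω) v w ^ 2
        * (mag G θ (m ω) w - mag G θ (m' ω) w) ^ 2) ∂P
        = ∫⁻ ω, ENNReal.ofReal (Cv G θ (m' ω) w v ^ 2
        * (mag G θ (m ω) v - mag G θ (m' ω) v) ^ 2) ∂P := by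
      intro w
      refine lintegral_swap hG hd hreg hm hm' hhom
        (fun v w z => ENNReal.ofReal (Cv G θ z.2 v w ^ 2
        * (mag G θ z.1 w - mag G θ z.2 w) ^ 2)) ?_ ?_ v w
      · intro v w
        exact ((((measurable_Cv v w).comp measurable_snd).pow_const 2).mul
          ((((measurable_mag w).comp measurable_fst).sub
            ((measurable_mag w).comp measurable_snd)).pow_const 2)).ennreal_ofReal
      · intro g v w
        filter_upwards [hc, hc'] with ω h3 h4
        simp only [Cv_iso hG h4 g, mag_iso h3 g, mag_iso h4 g]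
    have h20 : ∀ w, Measurable (fun ω => ENNReal.ofReal (Cv G θ (m' ω) w v ^ 2
        * (mag G θ (m ω) v - mag G θ (m' ω) v) ^ 2)) := fun w =>
      (((mCv' w v).pow_const 2).mul (((mmag v).sub (mmag' v)).pow_const 2)).ennreal_ofReal
    rw [tsum_congr h2, ← lintegral_tsum (fun w => (h20 w).aemeasurable)]
    refine lintegral_mono_ae ?_
    filter_upwards [hc'] with ω h3
    calc ∑' w, ENNReal.ofReal (Cv G θ (m' ω) w v ^ 2
        * (mag G θ (m ω) v - mag G θ (m' ω) v) ^ 2)
        ≤ ∑' w, ENNReal.ofReal (θ ^ (2 * G.dist v w) * Wt G θ (m' ω) v w) * D ω := by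
          refine ENNReal.tsum_le_tsum fun w => ?_
          obtain ⟨h4, h5⟩ := Wt_pos_le hθ0.le hθ1 hα1 hG.1 h3 v w
          rw [hD, ← ENNReal.ofReal_mul (by positivity)]
          apply ENNReal.ofReal_le_ofReal
          apply mul_le_mul_of_nonneg_right _ (sq_nonneg _)
          rw [Cv_symm hθ0.le hθ1 hα0 hα1 hG h3 w v, Cv]
          have h6 := one_sub_mag_sq_pos hθ0.le hθ1 hα0 hα1 h3 v
          have h7 : 1 - mag G θ (m' ω) v ^ 2 ≤ 1 := by nlinarith [sq_nonneg (mag G θ (m' ω) v)]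
          calc ((1 - mag G θ (m' ω) v ^ 2) * θ ^ G.dist v w * Wt G θ (m' ω) v w) ^ 2
              = (1 - mag G θ (m' ω) v ^ 2) ^ 2 * (θ ^ (2 * G.dist v w)
                * (Wt G θ (m' ω) v w * Wt G θ (m' ω) v w)) := by ring
            _ ≤ 1 ^ 2 * (θ ^ (2 * G.dist v w) * (1 * Wt G θ (m' ω) v w)) := by gcongr
            _ = θ ^ (2 * G.dist v w) * Wt G θ (m' ω) v w := by ring
      _ = Rf G θ (m' ω) v * D ω := by rw [ENNReal.tsum_mul_right, ← Rf]
      _ ≤ Rf G θ (m' ω) v ^ 2 * D ω := by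
          refine mul_le_mul_left ?_ _
          have h4 := one_le_Rf (G := G) (θ := θ) (m := m' ω) v
          calc Rf G θ (m' ω) v = 1 * Rf G θ (m' ω) v := (one_mul _).symm
            _ ≤ Rf G θ (m' ω) v * Rf G θ (m' ω) v := mul_le_mul_left h4 _
            _ = _ := (pow_two _).symm
      _ ≤ D ω * (Rf G θ (m ω) v ^ 2 + Rf G θ (m' ω) v ^ 2) := by
          rw [mul_comm]
          exact mul_le_mul_right le_add_self _
  calc ∑' w, ∫⁻ ω, ENNReal.ofReal ((Cv G θ (m ω) v w - Cv G θ (m' ω) v w) ^ 2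
          + Cv G θ (m' ω) v w ^ 2 * (mag G θ (m ω) w - mag G θ (m' ω) w) ^ 2) ∂P
      = ∑' w, ∫⁻ ω, ENNReal.ofReal ((Cv G θ (m ω) v w - Cv G θ (m' ω) v w) ^ 2) ∂P
        + ∑' w, ∫⁻ ω, ENNReal.ofReal (Cv G θ (m' ω) v w ^ 2
          * (mag G θ (m ω) w - mag G θ (m' ω) w) ^ 2) ∂P := by
        rw [← ENNReal.tsum_add]
        refine tsum_congr fun w => ?_
        have h2 : Measurable (fun ω => ENNReal.ofReal
            ((Cv G θ (m ω) v w - Cv G θ (m' ω) v w) ^ 2)) :=
          (((mCv v w).sub (mCv' v w)).pow_const 2).ennreal_ofReal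
        rw [← lintegral_add_left h2]
        refine lintegral_congr fun ω => ?_
        rw [ENNReal.ofReal_add (sq_nonneg _) (by positivity)]
    _ ≤ ENNReal.ofReal K * ∫⁻ ω, D ω * (Rf G θ (m ω) v ^ 2 + Rf G θ (m' ω) v ^ 2) ∂P
        + ∫⁻ ω, D ω * (Rf G θ (m ω) v ^ 2 + Rf G θ (m' ω) v ^ 2) ∂P := add_le_add hI hII
    _ = ENNReal.ofReal (K + 1) * ∫⁻ ω, D ω * (Rf G θ (m ω) v ^ 2 + Rf G θ (m' ω) v ^ 2) ∂P := by
        rw [ENNReal.ofReal_add hK.le zero_le_one, ENNReal.ofReal_one, add_mul, one_mul]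

end Vale.Agent.P161c
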