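import Vale.Agent.P161c.InvQ
import Vale.Agent.P161c.Transfer
import Vale.Agent.P161c.StateQ
import Vale.Agent.P161c.StageA
import Vale.Agent.P161c.StageB
import Vale.Agent.P161c.Osgood

/-!
From the evolution inequality to uniqueness, round by round.
-/

namespace Vale.Agent.P161c

open MeasureTheory SimpleGraph Vale.Agent.H13.P161 Filter Topology

variable {V : Type*} [Countable V] [DecidableEq V] {G : SimpleGraph V} [LocallyFinite G]
  {μ : Measure (V → ℤˣ)} [IsProbabilityMeasure μ] {T : ℕ → Finset V}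

omit [Countable V] [DecidableEq V] [IsProbabilityMeasure μ] in
lemma rd_post_level {α α' : ℝ} {a : V → ℝ} (ha : ∀ w, |a w| ≤ α) (haa : α ≤ α') (v : V)
    (F : Finset V) : post μ α v F a = post μ α' v F a := by
  have e : ∀ σ, wgt α F a σ = wgt α' F a σ := by
    intro σ
    unfold wgt
    apply Finset.prod_congr rfl
    intro w _
    rw [clip_of_abs_le (ha w), clip_of_abs_le ((ha w).trans haa)]
  unfold post Zp
  simp only [e]

lemma rd_ak_mono (n : ℕ) : ak n ≤ ak (n + 1) := by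
  unfold ak
  have h : (1 : ℝ) ≤ 3 ^ n := one_le_pow₀ (by norm_num)
  rw [div_le_div_iff₀ (by positivity) (by positivity), pow_succ]
  nlinarith

omit [Countable V] [DecidableEq V] in
lemma rd_aT_round (U : Site V → unitInterval) (k : ℕ) (y : Site V → ℝ) :
    aT U (k + 1) 0 y = aT U k (1 / 2) y := by
  classical
  funext w
  unfold aT aF
  rw [ow_succ_zero (k + 1)]
  · apply ow_congr
    intro l hl
    by_cases h1 : l < k
    · have m1 : (l, w) ∈ cut U (k + 1) 0 := Or.inl (by show l < k + 1; omega)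
      have m2 : (l, w) ∈ cut U k (1 / 2) := Or.inl h1
      rw [if_pos m1, if_pos m2]
    · have hlk : l = k := by omega
      subst hlk
      have m1 : (l, w) ∈ cut U (l + 1) 0 := Or.inl (by show l < l + 1; omega)
      rw [if_pos m1]
      by_cases h2 : ((U (l, w) : unitInterval) : ℝ) < 1 / 2
      · have m2 : (l, w) ∈ cut U l (1 / 2) := Or.inr ⟨rfl, h2⟩
        rw [if_pos m2]
      · have m2 : (l, w) ∉ cut U l (1 / 2) := by
          rintro (h | ⟨_, h⟩)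
          · exact absurd h (by show ¬ l < l; omega)
          · exact h2 h
        rw [if_neg m2]
        have h3 : cs U (l, w) = 0 := by
          unfold cs str
          rw [if_neg h2]
        rw [h3, zero_mul]
  · have m1 : (k + 1, w) ∉ cut U (k + 1) 0 := by
      rintro (h | ⟨_, h⟩)
      · exact absurd h (by show ¬ k + 1 < k + 1; omega)
      · exact absurd h (not_lt.mpr (U (k + 1, w)).2.1)
    rw [if_neg m1]

set_option linter.unusedSectionVars false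

/-- The end of round `k` is the start of round `k + 1`: the labels at least `1 / 2` have strength `0`
(`ow_succ_zero`, `ow_congr`), and the clipping levels `ak (k + 1) ≤ ak (k + 2)` are inactive
(`abs_aF_le`). -/
lemma MT_round (U : Site V → unitInterval) (k : ℕ) (v : V) (y : Site V → ℝ) :
    MT μ T U (k + 1) 0 v y = MT μ T U k (1 / 2) v y := by
  unfold MT
  rw [rd_aT_round]
  unfold postI
  congr 1
  funext n
  exact (rd_post_level (fun w => abs_aF_le (k + 1) (abs_cs_le U) _ y w) (rd_ak_mono (k + 1)) v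
    (T n)).symm

lemma Dsq_round (k : ℕ) (v : V) : Dsq μ T (k + 1) 0 v = Dsq μ T k (1 / 2) v := by
  unfold Dsq
  simp only [MT_round]

/-- Split of the weight by the tail bound. -/
lemma tail_split {Ω : Type*} [MeasurableSpace Ω] {P : Measure Ω} [IsProbabilityMeasure P]
    {f : Ω → ℝ} (hf : Measurable f) (hf0 : ∀ ω, 0 ≤ f ω) (hf4 : ∀ ω, f ω ≤ 4)
    {R : Ω → ENNReal} (hR : Measurable R) {A E : ℝ} (hA : 0 ≤ A) (hE : 0 ≤ E)
    (h : ∫⁻ ω in {ω | ENNReal.ofReal A < R ω}, (R ω) ^ 2 ∂P ≤ ENNReal.ofReal E) :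
    ∫⁻ ω, ENNReal.ofReal (f ω) * R ω ^ 2 ∂P
      ≤ ENNReal.ofReal (A ^ 2 * ∫ ω, f ω ∂P + 4 * E) := by
  have hS : MeasurableSet {ω | ENNReal.ofReal A < R ω} := measurableSet_lt measurable_const hR
  have hfn : Nice f := ⟨hf, 4, fun ω => by rw [abs_of_nonneg (hf0 ω)]; exact hf4 ω⟩
  have hpt : ∀ ω, ENNReal.ofReal (f ω) * R ω ^ 2
      ≤ ENNReal.ofReal (A ^ 2) * ENNReal.ofReal (f ω)
        + {ω | ENNReal.ofReal A < R ω}.indicator (fun ω => ENNReal.ofReal 4 * R ω ^ 2) ω := by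
    intro ω
    by_cases hω : ENNReal.ofReal A < R ω
    · rw [Set.indicator_of_mem (by exact hω)]
      refine le_trans ?_ le_add_self
      gcongr
      exact hf4 ω
    · rw [Set.indicator_of_notMem (by exact hω), add_zero, mul_comm]
      have : R ω ≤ ENNReal.ofReal A := not_lt.mp hω
      rw [ENNReal.ofReal_pow hA]
      gcongr
  calc ∫⁻ ω, ENNReal.ofReal (f ω) * R ω ^ 2 ∂P
      ≤ ∫⁻ ω, (ENNReal.ofReal (A ^ 2) * ENNReal.ofReal (f ω)
        + {ω | ENNReal.ofReal A < R ω}.indicator (fun ω => ENNReal.ofReal 4 * R ω ^ 2) ω) ∂P :=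
        lintegral_mono hpt
    _ = ENNReal.ofReal (A ^ 2) * ∫⁻ ω, ENNReal.ofReal (f ω) ∂P
        + ENNReal.ofReal 4 * ∫⁻ ω in {ω | ENNReal.ofReal A < R ω}, R ω ^ 2 ∂P := by
        have mf : Measurable (fun ω => ENNReal.ofReal (A ^ 2) * ENNReal.ofReal (f ω)) :=
          measurable_const.mul hf.ennreal_ofReal
        rw [lintegral_add_left mf,
          lintegral_const_mul' _ _ ENNReal.ofReal_ne_top, lintegral_indicator hS,
          lintegral_const_mul' _ _ ENNReal.ofReal_ne_top]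
    _ ≤ ENNReal.ofReal (A ^ 2) * ENNReal.ofReal (∫ ω, f ω ∂P)
        + ENNReal.ofReal 4 * ENNReal.ofReal E := by
        rw [ofReal_integral_eq_lintegral_ofReal (hfn.integrable P) (Eventually.of_forall hf0)]
        gcongr
    _ = _ := by
        rw [← ENNReal.ofReal_mul (by positivity), ← ENNReal.ofReal_mul (by norm_num),
          ← ENNReal.ofReal_add (mul_nonneg (by positivity) (integral_nonneg hf0)) (by positivity)]


/-! ### transfer -/

lemma rd_ae_QM {p : (Site V → unitInterval) → (Site V → ℝ) → Prop}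
    (hm : MeasurableSet {q : Om V × (Site V → ℝ) | p q.1.1 q.2})
    (h : ∀ U, ∀ᵐ x ∂(BM μ), p U (obsR (cs U) x.1 x.2)) :
    ∀ᵐ q ∂(QM μ T), p q.1.1 q.2 := by
  unfold QM
  rw [ae_map_iff measurable_toQ.aemeasurable hm]
  unfold AM
  have hm2 : MeasurableSet {x : (Site V → unitInterval) × ((V → ℤˣ) × (Site V → unitInterval)) |
      p (toQ μ T x).1.1 (toQ μ T x).2} := measurable_toQ hm
  rw [Measure.ae_prod_iff_ae_ae hm2]
  exact Eventually.of_forall h

lemma rd_ae_relP {p : Om V × (Site V → ℝ) → Prop} (h : ∀ᵐ q ∂(QM μ T), p q) :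
    ∀ᵐ q ∂(relP (QM μ T)), p (q.1, q.2.1) ∧ p (q.1, q.2.2) := by
  have m1 : Measurable (fun q : Om V × ((Site V → ℝ) × (Site V → ℝ)) => (q.1, q.2.1)) :=
    measurable_fst.prodMk (measurable_fst.comp measurable_snd)
  have m2 : Measurable (fun q : Om V × ((Site V → ℝ) × (Site V → ℝ)) => (q.1, q.2.2)) :=
    measurable_fst.prodMk (measurable_snd.comp measurable_snd)
  have h1 : ∀ᵐ q ∂((relP (QM μ T)).map (fun q => (q.1, q.2.1))), p q := by
    rw [relP_map_left]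
    exact h
  have h2 : ∀ᵐ q ∂((relP (QM μ T)).map (fun q => (q.1, q.2.2))), p q := by
    rw [relP_map_right]
    exact h
  filter_upwards [ae_of_ae_map m1.aemeasurable h1, ae_of_ae_map m2.aemeasurable h2] with q a b
  exact ⟨a, b⟩

lemma rd_meas_aT (k : ℕ) (t : ℝ) :
    Measurable (fun q : (Site V → unitInterval) × (Site V → ℝ) => aT q.1 k t q.2) := by
  have h := (measurable_aT (V := V) k).comp
    ((measurable_fst (α := Site V → unitInterval) (β := Site V → ℝ)).prodMk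
      ((measurable_const (a := t)).prodMk measurable_snd))
  exact h

lemma rd_meas_MT (k : ℕ) (t : ℝ) (v : V) :
    Measurable (fun q : (Site V → unitInterval) × (Site V → ℝ) => MT μ T q.1 k t v q.2) :=
  (measurable_postI v (ak (k + 1))).comp (rd_meas_aT k t)

lemma rd_meas_cavT (k : ℕ) (t : ℝ) (c p : V) :
    Measurable (fun q : (Site V → unitInterval) × (Site V → ℝ) => cavT G μ T q.1 k t q.2 c p) :=
  (measurable_cavI c p).comp (rd_meas_aT k t)

lemma rd_meas_cavT' (k : ℕ) (t : ℝ) :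
    Measurable (fun q : (Site V → unitInterval) × (Site V → ℝ) => cavT G μ T q.1 k t q.2) :=
  measurable_pi_lambda _ fun c => measurable_pi_lambda _ fun p => rd_meas_cavT k t c p

lemma rd_m1 : Measurable (fun q : Om V × ((Site V → ℝ) × (Site V → ℝ)) => (q.1.1, q.2.1)) :=
  (measurable_fst.comp measurable_fst).prodMk (measurable_fst.comp measurable_snd)

lemma rd_m2 : Measurable (fun q : Om V × ((Site V → ℝ) × (Site V → ℝ)) => (q.1.1, q.2.2)) :=
  (measurable_fst.comp measurable_fst).prodMk (measurable_snd.comp measurable_snd)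

/-- `MT` is the magnetization of the cavity field for both copies (`limits_q`, through
`integral_QM`-style disintegration of `QM` and `relP_map_left`, `relP_map_right`). -/
lemma MT_eq_mag_relP {d : ℕ} (hreg : ∀ v, G.degree v = d) (hd : 1 ≤ d) (hG : G.IsTree) {θ : ℝ}
    (hθ0 : 0 ≤ θ) (hθ1 : θ < 1) (hflip : μ.map (fun σ : V → ℤˣ => fun v => - σ v) = μ)
    (hμ : EdgeFactor G θ μ) (hT : Monotone T) (hTu : ∀ v, ∃ n, v ∈ T n) (k : ℕ) (t : ℝ) :
    ∀ᵐ q ∂(relP (QM μ T)), ∀ v,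
      MT μ T q.1.1 k t v q.2.1 = mag G θ (cavT G μ T q.1.1 k t q.2.1) v ∧
      MT μ T q.1.1 k t v q.2.2 = mag G θ (cavT G μ T q.1.1 k t q.2.2) v := by
  have h1 : ∀ᵐ q ∂(QM μ T), ∀ v,
      MT μ T q.1.1 k t v q.2 = mag G θ (cavT G μ T q.1.1 k t q.2) v := by
    apply rd_ae_QM (p := fun U y => ∀ v, MT μ T U k t v y = mag G θ (cavT G μ T U k t y) v)
    · have e : {q : Om V × (Site V → ℝ) | ∀ v,
          MT μ T q.1.1 k t v q.2 = mag G θ (cavT G μ T q.1.1 k t q.2) v}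
          = ⋂ v, {q : Om V × (Site V → ℝ) |
            MT μ T q.1.1 k t v q.2 = mag G θ (cavT G μ T q.1.1 k t q.2) v} := by
        ext q
        simp
      rw [e]
      apply MeasurableSet.iInter
      intro v
      have m0 : Measurable (fun q : Om V × (Site V → ℝ) => (q.1.1, q.2)) :=
        (measurable_fst.comp measurable_fst).prodMk measurable_snd
      have mA := (rd_meas_MT (μ := μ) (T := T) k t v).comp m0
      simp only [Function.comp_def] at mA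
      have mB := (rd_meas_cavT' (G := G) (μ := μ) (T := T) k t).comp m0
      simp only [Function.comp_def] at mB
      have mC := (measurable_mag (G := G) (θ := θ) v).comp mB
      simp only [Function.comp_def] at mC
      exact measurableSet_eq_fun mA mC
    · intro U
      filter_upwards [limits_q hreg hd hG hθ0 hθ1 hflip hμ hT hTu U k t] with p hp
      exact hp.2.1
  filter_upwards [rd_ae_relP h1] with q hq v
  exact ⟨hq.1 v, hq.2 v⟩


/-! ### dyadic times -/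

/-- dyadic approximation from below -/
noncomputable def rdy (N : ℕ) (r : ℝ) : ℝ := (⌊2 ^ N * r⌋₊ : ℝ) / 2 ^ N

lemma rdy_le (N : ℕ) {r : ℝ} (hr : 0 ≤ r) : rdy N r ≤ r := by
  unfold rdy
  rw [div_le_iff₀ (by positivity), mul_comm]
  exact Nat.floor_le (by positivity)

lemma rdy_nonneg (N : ℕ) (r : ℝ) : 0 ≤ rdy N r := by
  unfold rdy
  positivity

lemma rdy_gt (N : ℕ) (r : ℝ) : r - (1 / 2) ^ N < rdy N r := by
  unfold rdy
  have h : (0 : ℝ) < 2 ^ N := by positivity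
  rw [lt_div_iff₀ h, sub_mul, one_div, inv_pow, inv_mul_cancel₀ h.ne']
  have := Nat.lt_floor_add_one (2 ^ N * r)
  linarith

lemma rdy_mono {r : ℝ} (hr : 0 ≤ r) : Monotone (fun N => rdy N r) := by
  apply monotone_nat_of_le_succ
  intro N
  unfold rdy
  rw [div_le_div_iff₀ (by positivity) (by positivity)]
  have h1 : (⌊2 ^ N * r⌋₊ : ℝ) ≤ 2 ^ N * r := Nat.floor_le (by positivity)
  have h2 : 2 * ⌊2 ^ N * r⌋₊ ≤ ⌊2 ^ (N + 1) * r⌋₊ := by
    apply Nat.le_floor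
    push_cast
    rw [pow_succ]
    linarith
  have h3 : (2 : ℝ) * (⌊2 ^ N * r⌋₊ : ℝ) ≤ (⌊2 ^ (N + 1) * r⌋₊ : ℝ) := by exact_mod_cast h2
  have h4 : (0 : ℝ) < 2 ^ N := by positivity
  calc (⌊2 ^ N * r⌋₊ : ℝ) * 2 ^ (N + 1) = (2 * (⌊2 ^ N * r⌋₊ : ℝ)) * 2 ^ N := by ring
    _ ≤ (⌊2 ^ (N + 1) * r⌋₊ : ℝ) * 2 ^ N := mul_le_mul_of_nonneg_right h3 h4.le

lemma rdy_tendsto {r : ℝ} (hr : 0 ≤ r) : Tendsto (fun N => rdy N r) atTop (𝓝 r) := by
  have h1 : Tendsto (fun N : ℕ => r - (1 / 2 : ℝ) ^ N) atTop (𝓝 (r - 0)) :=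
    tendsto_const_nhds.sub (tendsto_pow_atTop_nhds_zero_of_lt_one (by norm_num) (by norm_num))
  rw [sub_zero] at h1
  exact tendsto_of_tendsto_of_tendsto_of_le_of_le h1 tendsto_const_nhds
    (fun N => (rdy_gt N r).le) (fun N => rdy_le N hr)

lemma rdy_measurable (N : ℕ) : Measurable (rdy N) := by
  unfold rdy
  have h : Measurable (fun r : ℝ => ⌊2 ^ N * r⌋₊) :=
    Nat.measurable_floor.comp (measurable_const.mul measurable_id)
  exact (measurable_from_top.comp h).div_const _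

lemma rd_left_cont {d : ℕ} (hreg : ∀ v, G.degree v = d) (hd : 1 ≤ d) (hG : G.IsTree) {θ : ℝ}
    (hθ0 : 0 ≤ θ) (hθ1 : θ < 1) (hflip : μ.map (fun σ : V → ℤˣ => fun v => - σ v) = μ)
    (hμ : EdgeFactor G θ μ) (hT : Monotone T) (hTu : ∀ v, ∃ n, v ∈ T n) (i : Site V) :
    ∀ᵐ q ∂(QM μ T), Tendsto (fun N => MT μ T q.1.1 i.1 (rdy N (q.1.1 i)) i.2 q.2) atTop
      (𝓝 (MT μ T q.1.1 i.1 (q.1.1 i) i.2 q.2)) := by
  apply rd_ae_QM (p := fun U y => Tendsto (fun N => MT μ T U i.1 (rdy N (U i)) i.2 y) atTop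
      (𝓝 (MT μ T U i.1 (U i) i.2 y)))
  · have m0 : Measurable (fun q : Om V × (Site V → ℝ) => ((q.1.1 i : unitInterval) : ℝ)) :=
      measurable_subtype_coe.comp ((measurable_pi_apply i).comp
        (measurable_fst.comp measurable_fst))
    have m1 : ∀ f : ℝ → ℝ, Measurable f → Measurable (fun q : Om V × (Site V → ℝ) =>
        MT μ T q.1.1 i.1 (f (q.1.1 i)) i.2 q.2) := by
      intro f hf
      have m2 : Measurable (fun q : Om V × (Site V → ℝ) =>
          (q.1.1, (f ((q.1.1 i : unitInterval) : ℝ), q.2))) :=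
        (measurable_fst.comp measurable_fst).prodMk ((hf.comp m0).prodMk measurable_snd)
      have m3 := (measurable_MT (μ := μ) (T := T) i.1 i.2).comp m2
      simp only [Function.comp_def] at m3
      exact m3
    have m4 := fun N => m1 (rdy N) (rdy_measurable N)
    have m5 := m1 id measurable_id
    simp only [id] at m5
    exact measurableSet_tendsto_fun m4 m5
  · intro U
    filter_upwards [levy_time hreg hd hG hθ0 hθ1 hflip hμ hT hTu U i.1
      (rdy_mono (U i).2.1) (rdy_tendsto (U i).2.1)] with p hp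
    exact hp.1 i.2

lemma rd_obs : ∀ᵐ q ∂(QM μ T), ∀ i,
    q.2 i = Qc (cs q.1.1 i * MT μ T q.1.1 i.1 (q.1.1 i) i.2 q.2) (q.1.2 i) := by
  unfold QM
  rw [ae_map_iff measurable_toQ.aemeasurable]
  · apply Eventually.of_forall
    intro x i
    have hy : |obsR (cs x.1) x.2.1 x.2.2 i| ≤ 1 := abs_obsR_le (abs_cs_le x.1) x.2.1 x.2.2 i
    exact obs_of_inn x.1 hy
  · have e : {q : Om V × (Site V → ℝ) | ∀ i,
        q.2 i = Qc (cs q.1.1 i * MT μ T q.1.1 i.1 (q.1.1 i) i.2 q.2) (q.1.2 i)}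
        = ⋂ i, {q : Om V × (Site V → ℝ) |
          q.2 i = Qc (cs q.1.1 i * MT μ T q.1.1 i.1 (q.1.1 i) i.2 q.2) (q.1.2 i)} := by
      ext q
      simp
    rw [e]
    apply MeasurableSet.iInter
    intro i
    have m0 : Measurable (fun q : Om V × (Site V → ℝ) => (q.1.1, q.2)) :=
      (measurable_fst.comp measurable_fst).prodMk measurable_snd
    have m1 := (measurable_MTi (μ := μ) (T := T) i).comp m0
    simp only [Function.comp_def] at m1
    have m2 : Measurable (fun q : Om V × (Site V → ℝ) => cs q.1.1 i) :=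
      (measurable_pi_apply i).comp (measurable_cs.comp (measurable_fst.comp measurable_fst))
    have m3 : Measurable (fun q : Om V × (Site V → ℝ) => ((q.1.2 i : unitInterval) : ℝ)) :=
      measurable_subtype_coe.comp ((measurable_pi_apply i).comp
        (measurable_snd.comp measurable_fst))
    have m4 := measurable_Qc.comp ((m2.mul m1).prodMk m3)
    simp only [Function.comp_def, Pi.mul_apply] at m4
    exact measurableSet_eq_fun ((measurable_pi_apply i).comp measurable_snd) m4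

lemma rd_agree {k : ℕ} {t : ℝ} {v : V} (h : Dsq μ T k t v = 0) :
    ∀ᵐ q ∂(relP (QM μ T)), MT μ T q.1.1 k t v q.2.1 = MT μ T q.1.1 k t v q.2.2 := by
  have m1 := (rd_meas_MT (μ := μ) (T := T) k t v).comp (rd_m1 (V := V))
  have m2 := (rd_meas_MT (μ := μ) (T := T) k t v).comp (rd_m2 (V := V))
  simp only [Function.comp_def] at m1 m2
  have n1 : Nice (fun q : Om V × ((Site V → ℝ) × (Site V → ℝ)) => MT μ T q.1.1 k t v q.2.1) :=
    ⟨m1, 1, fun q => abs_MT_le _ _ _ _ _⟩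
  have n2 : Nice (fun q : Om V × ((Site V → ℝ) × (Site V → ℝ)) => MT μ T q.1.1 k t v q.2.2) :=
    ⟨m2, 1, fun q => abs_MT_le _ _ _ _ _⟩
  unfold Dsq at h
  have h2 := (integral_eq_zero_iff_of_nonneg (fun q => sq_nonneg _)
    (((n1.sub n2).pow 2).integrable (relP (QM μ T)))).mp h
  filter_upwards [h2] with q hq
  have h3 : (MT μ T q.1.1 k t v q.2.1 - MT μ T q.1.1 k t v q.2.2) ^ 2 = 0 := hq
  have h4 := pow_eq_zero_iff (two_ne_zero) |>.mp h3
  linarith

/-- If the two copies agree at all fixed times, the observations agree.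
Proof: for each site `i` with label `U i = r < 1 / 2` take dyadic (or rational) times `s N` increasing
to `r` (for `r = 0` in round `0` the strength is `0`; `r > 0` almost surely): `MT` agrees at the times
`s N` (countably many), hence at `r` by `levy_time` (both copies, through `relP_map_left/right`), and
`obs_of_inn` expresses `y i` through `MT` at time `(i.1, r)` and the innovation (the second component
of `q.1` is `inn` of both copies almost surely under `relP`, by `toQ`).  For `r ≥ 1 / 2` the strength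
is `0`. -/
theorem determined_of_Dsq {d : ℕ} (hreg : ∀ v, G.degree v = d) (hd : 1 ≤ d) (hG : G.IsTree) {θ : ℝ}
    (hθ0 : 0 ≤ θ) (hθ1 : θ < 1) (hflip : μ.map (fun σ : V → ℤˣ => fun v => - σ v) = μ)
    (hμ : EdgeFactor G θ μ) (hT : Monotone T) (hTu : ∀ v, ∃ n, v ∈ T n)
    (h : ∀ (v : V) (k : ℕ) (t : ℝ), 0 ≤ t → (k = 0 → 0 < t) → t ≤ 1 / 2 → Dsq μ T k t v = 0) :
    ∀ᵐ q ∂(relP (QM μ T)), q.2.1 = q.2.2 := by
  have h1 : ∀ᵐ q ∂(relP (QM μ T)), ∀ (v : V) (k N j : ℕ), (k = 0 → 0 < (j : ℝ) / 2 ^ N) →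
      (j : ℝ) / 2 ^ N ≤ 1 / 2 →
      MT μ T q.1.1 k ((j : ℝ) / 2 ^ N) v q.2.1 = MT μ T q.1.1 k ((j : ℝ) / 2 ^ N) v q.2.2 := by
    rw [ae_all_iff]; intro v
    rw [ae_all_iff]; intro k
    rw [ae_all_iff]; intro N
    rw [ae_all_iff]; intro j
    by_cases hc : (k = 0 → 0 < (j : ℝ) / 2 ^ N) ∧ (j : ℝ) / 2 ^ N ≤ 1 / 2
    · filter_upwards [rd_agree (h v k ((j : ℝ) / 2 ^ N) (by positivity) hc.1 hc.2)] with q hq _ _
      exact hq
    · filter_upwards with q a b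
      exact absurd ⟨a, b⟩ hc
  have h2 : ∀ᵐ q ∂(QM μ T), ∀ i : Site V,
      Tendsto (fun N => MT μ T q.1.1 i.1 (rdy N (q.1.1 i)) i.2 q.2) atTop
      (𝓝 (MT μ T q.1.1 i.1 (q.1.1 i) i.2 q.2)) := by
    rw [ae_all_iff]
    intro i
    exact rd_left_cont hreg hd hG hθ0 hθ1 hflip hμ hT hTu i
  filter_upwards [h1, rd_ae_relP h2, rd_ae_relP (rd_obs (μ := μ) (T := T))] with q a b c
  funext i
  rw [c.1 i, c.2 i]
  congr 1
  by_cases hU : ((q.1.1 i : unitInterval) : ℝ) < 1 / 2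
  · by_cases h0 : i.1 = 0 ∧ ((q.1.1 i : unitInterval) : ℝ) = 0
    · have hz : cs q.1.1 i = 0 := by
        unfold cs str
        rw [if_pos hU, if_pos h0.1, h0.2, zero_div]
      rw [hz, zero_mul, zero_mul]
    · congr 1
      refine tendsto_nhds_unique (b.1 i) ((b.2 i).congr' ?_)
      have hr := (q.1.1 i).2.1
      have hev : ∀ᶠ N in atTop, i.1 = 0 → 0 < rdy N ((q.1.1 i : unitInterval) : ℝ) := by
        by_cases hi : i.1 = 0
        · have hpos : 0 < ((q.1.1 i : unitInterval) : ℝ) :=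
            lt_of_le_of_ne hr (fun e => h0 ⟨hi, e.symm⟩)
          filter_upwards [(rdy_tendsto hr).eventually (lt_mem_nhds hpos)] with N hN _
          exact hN
        · exact Eventually.of_forall (fun N hi' => absurd hi' hi)
      filter_upwards [hev] with N hN
      exact (a i.2 i.1 N _ hN ((rdy_le N hr).trans hU.le)).symm
  · have hz : cs q.1.1 i = 0 := by
      unfold cs str
      rw [if_neg hU]
    rw [hz, zero_mul, zero_mul]

/-! ### energies -/

lemma rd_Dsq_nonneg (k : ℕ) (t : ℝ) (v : V) : 0 ≤ Dsq μ T k t v :=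
  integral_nonneg fun _ => sq_nonneg _

lemma rd_nice_MT1 (k : ℕ) (t : ℝ) (v : V) :
    Nice (fun q : Om V × ((Site V → ℝ) × (Site V → ℝ)) => MT μ T q.1.1 k t v q.2.1) := by
  have m1 := (rd_meas_MT (μ := μ) (T := T) k t v).comp (rd_m1 (V := V))
  simp only [Function.comp_def] at m1
  exact ⟨m1, 1, fun q => abs_MT_le _ _ _ _ _⟩

lemma rd_nice_MT2 (k : ℕ) (t : ℝ) (v : V) :
    Nice (fun q : Om V × ((Site V → ℝ) × (Site V → ℝ)) => MT μ T q.1.1 k t v q.2.2) := by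
  have m1 := (rd_meas_MT (μ := μ) (T := T) k t v).comp (rd_m2 (V := V))
  simp only [Function.comp_def] at m1
  exact ⟨m1, 1, fun q => abs_MT_le _ _ _ _ _⟩

lemma rd_nice_sq (k : ℕ) (t : ℝ) (v : V) :
    Nice (fun q : Om V × ((Site V → ℝ) × (Site V → ℝ)) =>
      (MT μ T q.1.1 k t v q.2.1 - MT μ T q.1.1 k t v q.2.2) ^ 2) :=
  ((rd_nice_MT1 k t v).sub (rd_nice_MT2 k t v)).pow 2

lemma rd_ofReal_Dsq (k : ℕ) (t : ℝ) (v : V) :
    ENNReal.ofReal (Dsq μ T k t v) = ∫⁻ q, ENNReal.ofReal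
      ((MT μ T q.1.1 k t v q.2.1 - MT μ T q.1.1 k t v q.2.2) ^ 2) ∂(relP (QM μ T)) :=
  ofReal_integral_eq_lintegral_ofReal ((rd_nice_sq k t v).integrable _)
    (Eventually.of_forall fun _ => sq_nonneg _)

lemma rd_meas_c1 (k : ℕ) (t : ℝ) (c p : V) : Measurable
    (fun q : Om V × ((Site V → ℝ) × (Site V → ℝ)) => cavT G μ T q.1.1 k t q.2.1 c p) := by
  have m1 := (rd_meas_cavT (G := G) (μ := μ) (T := T) k t c p).comp (rd_m1 (V := V))
  simp only [Function.comp_def] at m1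
  exact m1

lemma rd_meas_c2 (k : ℕ) (t : ℝ) (c p : V) : Measurable
    (fun q : Om V × ((Site V → ℝ) × (Site V → ℝ)) => cavT G μ T q.1.1 k t q.2.2 c p) := by
  have m1 := (rd_meas_cavT (G := G) (μ := μ) (T := T) k t c p).comp (rd_m2 (V := V))
  simp only [Function.comp_def] at m1
  exact m1

lemma rd_meas_R1 {θ : ℝ} (k : ℕ) (t : ℝ) (v : V) : Measurable
    (fun q : Om V × ((Site V → ℝ) × (Site V → ℝ)) => Rf G θ (cavT G μ T q.1.1 k t q.2.1) v) := by
  have m1 := (rd_meas_cavT' (G := G) (μ := μ) (T := T) k t).comp (rd_m1 (V := V))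
  simp only [Function.comp_def] at m1
  have m2 := (measurable_Rf (G := G) (θ := θ) v).comp m1
  simp only [Function.comp_def] at m2
  exact m2

lemma rd_meas_R2 {θ : ℝ} (k : ℕ) (t : ℝ) (v : V) : Measurable
    (fun q : Om V × ((Site V → ℝ) × (Site V → ℝ)) => Rf G θ (cavT G μ T q.1.1 k t q.2.2) v) := by
  have m1 := (rd_meas_cavT' (G := G) (μ := μ) (T := T) k t).comp (rd_m2 (V := V))
  simp only [Function.comp_def] at m1
  have m2 := (measurable_Rf (G := G) (θ := θ) v).comp m1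
  simp only [Function.comp_def] at m2
  exact m2

lemma rd_sq_le_four (q : Om V × ((Site V → ℝ) × (Site V → ℝ))) (k : ℕ) (t : ℝ) (v : V) :
    (MT μ T q.1.1 k t v q.2.1 - MT μ T q.1.1 k t v q.2.2) ^ 2 ≤ 4 := by
  have h1 := abs_le.mp (abs_MT_le (μ := μ) (T := T) q.1.1 k t v q.2.1)
  have h2 := abs_le.mp (abs_MT_le (μ := μ) (T := T) q.1.1 k t v q.2.2)
  nlinarith

/-- energy bound from the tail bounds -/
lemma rd_gE_tail {θ KB K₁ κ : ℝ} {b k : ℕ} {t : ℝ} {v : V} (hKB : 0 ≤ KB) (hK₁ : 0 ≤ K₁)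
    (hκ : 0 ≤ κ)
    (hB : gE G θ μ T k t v ≤ ENNReal.ofReal KB * ∫⁻ ω, ENNReal.ofReal
      ((mag G θ (cavT G μ T ω.1.1 k t ω.2.1) v - mag G θ (cavT G μ T ω.1.1 k t ω.2.2) v) ^ 2)
      * (Rf G θ (cavT G μ T ω.1.1 k t ω.2.1) v ^ 2 + Rf G θ (cavT G μ T ω.1.1 k t ω.2.2) v ^ 2)
      ∂(relP (QM μ T)))
    (hMT : ∀ᵐ q ∂(relP (QM μ T)), ∀ v,
      MT μ T q.1.1 k t v q.2.1 = mag G θ (cavT G μ T q.1.1 k t q.2.1) v ∧
      MT μ T q.1.1 k t v q.2.2 = mag G θ (cavT G μ T q.1.1 k t q.2.2) v)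
    (h1 : TailR G θ b K₁ κ (relP (QM μ T)) (fun ω c p => cavT G μ T ω.1.1 k t ω.2.1 c p))
    (h2 : TailR G θ b K₁ κ (relP (QM μ T)) (fun ω c p => cavT G μ T ω.1.1 k t ω.2.2 c p))
    (L : ℕ) :
    gE G θ μ T k t v ≤ ENNReal.ofReal (KB * (2 * ((K₁ * κ + K₁ * L) ^ 2 * Dsq μ T k t v
      + 4 * (K₁ * Real.exp (- (b : ℝ) ^ L / K₁))))) := by
  refine hB.trans ?_
  have hE : 0 ≤ K₁ * Real.exp (- (b : ℝ) ^ L / K₁) := mul_nonneg hK₁ (Real.exp_pos _).le
  have hA : 0 ≤ K₁ * κ + K₁ * L := by positivity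
  have s1 := tail_split (P := relP (QM μ T)) (rd_nice_sq (μ := μ) (T := T) k t v).1
    (fun q => sq_nonneg _) (fun q => rd_sq_le_four q k t v)
    (rd_meas_R1 (G := G) (μ := μ) (T := T) (θ := θ) k t v) hA hE (h1 v L)
  have s2 := tail_split (P := relP (QM μ T)) (rd_nice_sq (μ := μ) (T := T) k t v).1
    (fun q => sq_nonneg _) (fun q => rd_sq_le_four q k t v)
    (rd_meas_R2 (G := G) (μ := μ) (T := T) (θ := θ) k t v) hA hE (h2 v L)
  rw [ENNReal.ofReal_mul hKB]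
  gcongr
  calc
    _ = ∫⁻ ω, (ENNReal.ofReal
        ((MT μ T ω.1.1 k t v ω.2.1 - MT μ T ω.1.1 k t v ω.2.2) ^ 2)
          * Rf G θ (cavT G μ T ω.1.1 k t ω.2.1) v ^ 2
        + ENNReal.ofReal
        ((MT μ T ω.1.1 k t v ω.2.1 - MT μ T ω.1.1 k t v ω.2.2) ^ 2)
          * Rf G θ (cavT G μ T ω.1.1 k t ω.2.2) v ^ 2) ∂(relP (QM μ T)) := by
        apply lintegral_congr_ae
        filter_upwards [hMT] with ω hω
        rw [(hω v).1, (hω v).2, mul_add]
    _ = ∫⁻ ω, ENNReal.ofReal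
        ((MT μ T ω.1.1 k t v ω.2.1 - MT μ T ω.1.1 k t v ω.2.2) ^ 2)
          * Rf G θ (cavT G μ T ω.1.1 k t ω.2.1) v ^ 2 ∂(relP (QM μ T))
        + ∫⁻ ω, ENNReal.ofReal
        ((MT μ T ω.1.1 k t v ω.2.1 - MT μ T ω.1.1 k t v ω.2.2) ^ 2)
          * Rf G θ (cavT G μ T ω.1.1 k t ω.2.2) v ^ 2 ∂(relP (QM μ T)) := by
        have m1 : Measurable (fun ω : Om V × ((Site V → ℝ) × (Site V → ℝ)) => ENNReal.ofReal
            ((MT μ T ω.1.1 k t v ω.2.1 - MT μ T ω.1.1 k t v ω.2.2) ^ 2)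
            * Rf G θ (cavT G μ T ω.1.1 k t ω.2.1) v ^ 2) :=
          (rd_nice_sq k t v).1.ennreal_ofReal.mul ((rd_meas_R1 k t v).pow_const 2)
        exact lintegral_add_left m1 _
    _ ≤ _ := by
        refine (add_le_add s1 s2).trans (le_of_eq ?_)
        have hn : 0 ≤ (K₁ * κ + K₁ * L) ^ 2 * Dsq μ T k t v
            + 4 * (K₁ * Real.exp (- (b : ℝ) ^ L / K₁)) := by
          have := rd_Dsq_nonneg (μ := μ) (T := T) k t v
          positivity
        rw [← two_mul, ENNReal.ofReal_mul (by norm_num : (0 : ℝ) ≤ 2)]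
        congr 1
        simp

/-- energy bound of polynomial type -/
lemma rd_gE_poly {θ C' y : ℝ} {N k : ℕ} {t : ℝ} {v : V} (hC : 0 ≤ C') (hy : 0 < y)
    (hA : gE G θ μ T k t v ≤ ENNReal.ofReal (C' / y ^ 80) * ∫⁻ ω, ENNReal.ofReal
      ((mag G θ (cavT G μ T ω.1.1 k t ω.2.1) v - mag G θ (cavT G μ T ω.1.1 k t ω.2.2) v) ^ 2)
      ∂(relP (QM μ T)) + ENNReal.ofReal (C' * y ^ N))
    (hMT : ∀ᵐ q ∂(relP (QM μ T)), ∀ v,
      MT μ T q.1.1 k t v q.2.1 = mag G θ (cavT G μ T q.1.1 k t q.2.1) v ∧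
      MT μ T q.1.1 k t v q.2.2 = mag G θ (cavT G μ T q.1.1 k t q.2.2) v) :
    gE G θ μ T k t v ≤ ENNReal.ofReal (C' / y ^ 80 * Dsq μ T k t v + C' * y ^ N) := by
  have e : ∫⁻ ω, ENNReal.ofReal
      ((mag G θ (cavT G μ T ω.1.1 k t ω.2.1) v - mag G θ (cavT G μ T ω.1.1 k t ω.2.2) v) ^ 2)
      ∂(relP (QM μ T)) = ENNReal.ofReal (Dsq μ T k t v) := by
    rw [rd_ofReal_Dsq]
    apply lintegral_congr_ae
    filter_upwards [hMT] with ω hω
    rw [(hω v).1, (hω v).2]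
  rw [e] at hA
  refine hA.trans (le_of_eq ?_)
  rw [← ENNReal.ofReal_mul (by positivity),
    ← ENNReal.ofReal_add (mul_nonneg (by positivity) (rd_Dsq_nonneg k t v)) (by positivity)]

/-- the distance of the copies is small if the fields are small -/
lemma rd_Dsq_small {θ α M : ℝ} {k : ℕ} {t : ℝ} {v p : V} (hθ0 : 0 ≤ θ) (hθ1 : θ < 1)
    (hα0 : 0 ≤ α) (hα1 : α < 1) (hM : 0 ≤ M) (hvp : G.Adj v p)
    (hc1 : ∀ᵐ ω ∂(relP (QM μ T)), IsCavity G θ α (fun c p => cavT G μ T ω.1.1 k t ω.2.1 c p))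
    (hc2 : ∀ᵐ ω ∂(relP (QM μ T)), IsCavity G θ α (fun c p => cavT G μ T ω.1.1 k t ω.2.2 c p))
    (hMT : ∀ᵐ q ∂(relP (QM μ T)), ∀ v,
      MT μ T q.1.1 k t v q.2.1 = mag G θ (cavT G μ T q.1.1 k t q.2.1) v ∧
      MT μ T q.1.1 k t v q.2.2 = mag G θ (cavT G μ T q.1.1 k t q.2.2) v)
    (h1 : ∀ c p, G.Adj c p → ∫⁻ ω, ENNReal.ofReal (|cavT G μ T ω.1.1 k t ω.2.1 c p| ^ (2 * 1))
      ∂(relP (QM μ T)) ≤ ENNReal.ofReal M)
    (h2 : ∀ c p, G.Adj c p → ∫⁻ ω, ENNReal.ofReal (|cavT G μ T ω.1.1 k t ω.2.2 c p| ^ (2 * 1))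
      ∂(relP (QM μ T)) ≤ ENNReal.ofReal M) :
    Dsq μ T k t v ≤ 16 * M := by
  have e1 : ENNReal.ofReal (Dsq μ T k t v) ≤ ENNReal.ofReal (16 * M) := by
    rw [rd_ofReal_Dsq]
    calc
      _ ≤ ∫⁻ q, ENNReal.ofReal 4 *
          ((ENNReal.ofReal (|cavT G μ T q.1.1 k t q.2.1 v p| ^ (2 * 1))
            + ENNReal.ofReal (|cavT G μ T q.1.1 k t q.2.1 p v| ^ (2 * 1)))
          + (ENNReal.ofReal (|cavT G μ T q.1.1 k t q.2.2 v p| ^ (2 * 1))
            + ENNReal.ofReal (|cavT G μ T q.1.1 k t q.2.2 p v| ^ (2 * 1))))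
          ∂(relP (QM μ T)) := by
          apply lintegral_mono_ae
          filter_upwards [hc1, hc2, hMT] with q a b c
          have a1 := abs_mag_le_add hθ0 hθ1 hα0 hα1 a hvp
          have b1 := abs_mag_le_add hθ0 hθ1 hα0 hα1 b hvp
          have c1 : MT μ T q.1.1 k t v q.2.1
              = mag G θ (fun c p => cavT G μ T q.1.1 k t q.2.1 c p) v := (c v).1
          have c2 : MT μ T q.1.1 k t v q.2.2
              = mag G θ (fun c p => cavT G μ T q.1.1 k t q.2.2 c p) v := (c v).2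
          rw [c1, c2, ← ENNReal.ofReal_add (by positivity) (by positivity),
            ← ENNReal.ofReal_add (by positivity) (by positivity),
            ← ENNReal.ofReal_add (by positivity) (by positivity),
            ← ENNReal.ofReal_mul (by norm_num)]
          apply ENNReal.ofReal_le_ofReal
          rw [mul_one]
          generalize mag G θ (fun c p => cavT G μ T q.1.1 k t q.2.1 c p) v = X at *
          generalize mag G θ (fun c p => cavT G μ T q.1.1 k t q.2.2 c p) v = Y at *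
          generalize |cavT G μ T q.1.1 k t q.2.1 v p| = x1 at *
          generalize |cavT G μ T q.1.1 k t q.2.1 p v| = x2 at *
          generalize |cavT G μ T q.1.1 k t q.2.2 v p| = y1 at *
          generalize |cavT G μ T q.1.1 k t q.2.2 p v| = y2 at *
          have hX : X ^ 2 ≤ (x1 + x2) ^ 2 := by
            rw [← sq_abs X]
            exact pow_le_pow_left₀ (abs_nonneg _) a1 2
          have hY : Y ^ 2 ≤ (y1 + y2) ^ 2 := by
            rw [← sq_abs Y]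
            exact pow_le_pow_left₀ (abs_nonneg _) b1 2
          nlinarith [sq_nonneg (X + Y), sq_nonneg (x1 - x2), sq_nonneg (y1 - y2)]
      _ = ENNReal.ofReal 4 *
          ((∫⁻ q, ENNReal.ofReal (|cavT G μ T q.1.1 k t q.2.1 v p| ^ (2 * 1)) ∂(relP (QM μ T))
            + ∫⁻ q, ENNReal.ofReal (|cavT G μ T q.1.1 k t q.2.1 p v| ^ (2 * 1)) ∂(relP (QM μ T)))
          + (∫⁻ q, ENNReal.ofReal (|cavT G μ T q.1.1 k t q.2.2 v p| ^ (2 * 1)) ∂(relP (QM μ T))
            + ∫⁻ q, ENNReal.ofReal (|cavT G μ T q.1.1 k t q.2.2 p v| ^ (2 * 1))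
              ∂(relP (QM μ T)))) := by
          have m1 : ∀ c p, Measurable (fun q : Om V × ((Site V → ℝ) × (Site V → ℝ)) =>
              ENNReal.ofReal (|cavT G μ T q.1.1 k t q.2.1 c p| ^ (2 * 1))) := fun c p =>
            ((rd_meas_c1 (G := G) (μ := μ) (T := T) k t c p).abs.pow_const (2 * 1)).ennreal_ofReal
          have m2 : ∀ c p, Measurable (fun q : Om V × ((Site V → ℝ) × (Site V → ℝ)) =>
              ENNReal.ofReal (|cavT G μ T q.1.1 k t q.2.2 c p| ^ (2 * 1))) := fun c p =>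
            ((rd_meas_c2 (G := G) (μ := μ) (T := T) k t c p).abs.pow_const (2 * 1)).ennreal_ofReal
          have m3 : Measurable (fun q : Om V × ((Site V → ℝ) × (Site V → ℝ)) =>
              ENNReal.ofReal (|cavT G μ T q.1.1 k t q.2.1 v p| ^ (2 * 1))
                + ENNReal.ofReal (|cavT G μ T q.1.1 k t q.2.1 p v| ^ (2 * 1))) :=
            (m1 v p).add (m1 p v)
          rw [lintegral_const_mul' _ _ ENNReal.ofReal_ne_top,
            lintegral_add_left m3, lintegral_add_left (m1 v p),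
            lintegral_add_left (m2 v p)]
      _ ≤ ENNReal.ofReal 4 * ((ENNReal.ofReal M + ENNReal.ofReal M)
          + (ENNReal.ofReal M + ENNReal.ofReal M)) := by
          gcongr
          · exact h1 v p hvp
          · exact h1 p v hvp.symm
          · exact h2 v p hvp
          · exact h2 p v hvp.symm
      _ = _ := by
          rw [← ENNReal.ofReal_add hM hM, ← ENNReal.ofReal_add (by positivity) (by positivity),
            ← ENNReal.ofReal_mul (by norm_num)]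
          congr 1
          ring
  exact (ENNReal.ofReal_le_ofReal_iff (by positivity)).mp e1

/-! ### numerics -/

lemma rd_exp_le {x K C : ℝ} (hx : 0 ≤ x) (hK : 0 < K) (hC : K ≤ C) :
    Real.exp (-x / K) ≤ Real.exp (-x / C) := by
  apply Real.exp_le_exp.mpr
  rw [neg_div, neg_div, neg_le_neg_iff]
  exact div_le_div_of_nonneg_left hx hK hC

lemma rd_num_later {K KB K₁ L a e eC h : ℝ} (hK : 0 ≤ K) (hKB : 0 ≤ KB) (hK₁ : 0 ≤ K₁)
    (ha : 0 ≤ a) (he : 0 ≤ e) (hee : e ≤ eC) (hh : 0 ≤ h) :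
    K * 1 ^ 2 * h * (KB * (2 * ((K₁ * 1 + K₁ * L) ^ 2 * a + 4 * (K₁ * e))))
      ≤ h * (16 * K * KB * K₁ ^ 2 + 8 * K * KB * K₁ + K₁) * ((1 + L ^ 2) * a + eC) := by
  have h1 : (K₁ * 1 + K₁ * L) ^ 2 ≤ 2 * K₁ ^ 2 * (1 + L ^ 2) := by
    nlinarith [sq_nonneg (K₁ * (1 - L))]
  have hC0 : 0 ≤ 16 * K * KB * K₁ ^ 2 + 8 * K * KB * K₁ + K₁ := by positivity
  have h2 : K * KB * (2 * ((K₁ * 1 + K₁ * L) ^ 2 * a))
      ≤ (16 * K * KB * K₁ ^ 2 + 8 * K * KB * K₁ + K₁) * ((1 + L ^ 2) * a) := by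
    calc K * KB * (2 * ((K₁ * 1 + K₁ * L) ^ 2 * a))
        ≤ K * KB * (2 * (2 * K₁ ^ 2 * (1 + L ^ 2) * a)) := by gcongr
      _ = (4 * K * KB * K₁ ^ 2) * ((1 + L ^ 2) * a) := by ring
      _ ≤ _ := by
        apply mul_le_mul_of_nonneg_right _ (by positivity)
        have e1 : 0 ≤ K * KB * K₁ ^ 2 := by positivity
        have e2 : 0 ≤ K * KB * K₁ := by positivity
        nlinarith
  have h3 : K * KB * (2 * (4 * (K₁ * e)))
      ≤ (16 * K * KB * K₁ ^ 2 + 8 * K * KB * K₁ + K₁) * eC := by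
    calc K * KB * (2 * (4 * (K₁ * e))) = (8 * K * KB * K₁) * e := by ring
      _ ≤ (16 * K * KB * K₁ ^ 2 + 8 * K * KB * K₁ + K₁) * eC := by
        apply mul_le_mul _ hee he hC0
        have e1 : 0 ≤ 16 * K * KB * K₁ ^ 2 := by positivity
        linarith
  calc _ = h * (K * KB * (2 * ((K₁ * 1 + K₁ * L) ^ 2 * a)) + K * KB * (2 * (4 * (K₁ * e)))) := by
        ring
    _ ≤ h * ((16 * K * KB * K₁ ^ 2 + 8 * K * KB * K₁ + K₁) * ((1 + L ^ 2) * a)
        + (16 * K * KB * K₁ ^ 2 + 8 * K * KB * K₁ + K₁) * eC) :=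
        mul_le_mul_of_nonneg_left (add_le_add h2 h3) hh
    _ = _ := by ring

lemma rd_num_zero {K KB K₁ L a e eC s t : ℝ} (hK : 0 ≤ K) (hKB : 0 ≤ KB) (hK₁ : 0 ≤ K₁)
    (ha : 0 ≤ a) (he : 0 ≤ e) (hee : e ≤ eC) (hs : 0 < s) (hst : s < t) (ht : t ≤ 1 / 2)
    (hts : t ≤ 2 * s) :
    K * t ^ 2 * (t - s) * (KB * (2 * (2 * K₁ ^ 2 * (1 / s ^ 3 + L ^ 2) * a + 4 * (K₁ * e))))
      ≤ (t - s) * (16 * K * KB * K₁ ^ 2 + 8 * K * KB * K₁ + K₁)
        * ((1 / s + L ^ 2) * a + eC) := by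
  have hC0 : 0 ≤ 16 * K * KB * K₁ ^ 2 + 8 * K * KB * K₁ + K₁ := by positivity
  have ht0 : 0 < t := hs.trans hst
  have ht2 : t ^ 2 ≤ 1 := by nlinarith
  have ht3 : t ^ 2 ≤ 4 * s ^ 2 := by nlinarith
  have h1 : t ^ 2 * (1 / s ^ 3 + L ^ 2) ≤ 4 * (1 / s + L ^ 2) := by
    have e1 : t ^ 2 * (1 / s ^ 3) ≤ 4 * (1 / s) := by
      calc t ^ 2 * (1 / s ^ 3) ≤ 4 * s ^ 2 * (1 / s ^ 3) := by gcongr
        _ = 4 * (1 / s) := by field_simp
    have e2 : t ^ 2 * L ^ 2 ≤ 4 * L ^ 2 := by nlinarith [sq_nonneg L]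
    linarith
  have h2 : K * KB * (2 * (2 * K₁ ^ 2 * (t ^ 2 * (1 / s ^ 3 + L ^ 2)) * a))
      ≤ (16 * K * KB * K₁ ^ 2 + 8 * K * KB * K₁ + K₁) * ((1 / s + L ^ 2) * a) := by
    calc K * KB * (2 * (2 * K₁ ^ 2 * (t ^ 2 * (1 / s ^ 3 + L ^ 2)) * a))
        ≤ K * KB * (2 * (2 * K₁ ^ 2 * (4 * (1 / s + L ^ 2)) * a)) := by gcongr
      _ = (16 * K * KB * K₁ ^ 2) * ((1 / s + L ^ 2) * a) := by ring
      _ ≤ _ := by
        apply mul_le_mul_of_nonneg_right _ (by positivity)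
        have e2 : 0 ≤ 8 * K * KB * K₁ := by positivity
        linarith
  have h3 : K * KB * (2 * (4 * (K₁ * e)) * t ^ 2)
      ≤ (16 * K * KB * K₁ ^ 2 + 8 * K * KB * K₁ + K₁) * eC := by
    calc K * KB * (2 * (4 * (K₁ * e)) * t ^ 2) ≤ K * KB * (2 * (4 * (K₁ * e)) * 1) := by gcongr
      _ = (8 * K * KB * K₁) * e := by ring
      _ ≤ (16 * K * KB * K₁ ^ 2 + 8 * K * KB * K₁ + K₁) * eC := by
        apply mul_le_mul _ hee he hC0
        have e1 : 0 ≤ 16 * K * KB * K₁ ^ 2 := by positivity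
        linarith
  calc _ = (t - s) * (K * KB * (2 * (2 * K₁ ^ 2 * (t ^ 2 * (1 / s ^ 3 + L ^ 2)) * a))
        + K * KB * (2 * (4 * (K₁ * e)) * t ^ 2)) := by ring
    _ ≤ (t - s) * ((16 * K * KB * K₁ ^ 2 + 8 * K * KB * K₁ + K₁) * ((1 / s + L ^ 2) * a)
        + (16 * K * KB * K₁ ^ 2 + 8 * K * KB * K₁ + K₁) * eC) :=
        mul_le_mul_of_nonneg_left (add_le_add h2 h3) (by linarith)
    _ = _ := by ring

/-- `y ^ (-80)` against the time -/
lemma rd_y80 {y s K : ℝ} (hy : 0 < y) (hs : 0 < s) (hs1 : s ≤ 1) (hK : 0 < K)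
    (h : s ^ (3 / 2 : ℝ) / K ≤ y ^ 64) : 1 / y ^ 80 ≤ (K + 1) ^ 2 / s ^ 2 := by
  have e1 : (s ^ (3 / 2 : ℝ)) ^ 5 = s ^ (15 / 2 : ℝ) := by
    rw [← Real.rpow_natCast, ← Real.rpow_mul hs.le]
    norm_num
  have e2 : s ^ 8 ≤ s ^ (15 / 2 : ℝ) := by
    rw [← Real.rpow_natCast]
    apply Real.rpow_le_rpow_of_exponent_ge hs hs1
    norm_num
  have h0 : 0 ≤ s ^ (3 / 2 : ℝ) / K := by positivity
  have e3 : s ^ 8 ≤ (K + 1) ^ 8 * (y ^ 80) ^ 4 := by
    have e4 : (s ^ (3 / 2 : ℝ) / K) ^ 5 ≤ (y ^ 64) ^ 5 := pow_le_pow_left₀ h0 h 5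
    rw [div_pow, e1, div_le_iff₀ (by positivity)] at e4
    have e5 : K ^ 5 ≤ (K + 1) ^ 8 := by
      calc K ^ 5 ≤ (K + 1) ^ 5 := pow_le_pow_left₀ hK.le (by linarith) 5
        _ ≤ (K + 1) ^ 8 := pow_le_pow_right₀ (by linarith) (by norm_num)
    calc s ^ 8 ≤ s ^ (15 / 2 : ℝ) := e2
      _ ≤ (y ^ 64) ^ 5 * K ^ 5 := e4
      _ ≤ (y ^ 64) ^ 5 * (K + 1) ^ 8 := by gcongr
      _ = _ := by ring
  have e6 : s ^ 2 ≤ (K + 1) ^ 2 * y ^ 80 := by
    have : (s ^ 2) ^ 4 ≤ ((K + 1) ^ 2 * y ^ 80) ^ 4 := by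
      calc (s ^ 2) ^ 4 = s ^ 8 := by ring
        _ ≤ (K + 1) ^ 8 * (y ^ 80) ^ 4 := e3
        _ = _ := by ring
    exact le_of_pow_le_pow_left₀ (by norm_num) (by positivity) this
  rw [div_le_div_iff₀ (by positivity) (by positivity)]
  linarith

/-- One later round: `Dsq μ T k 0 v = 0` gives `Dsq μ T k t v = 0`, by `osgoodC`, `stageB`,
`env_round_later`, `tailR_relP`, `tail_split` with `A = K + K L`. -/
theorem round_later {d : ℕ} (hd : 3 ≤ d) {θ : ℝ} (hθ0 : 0 < θ) (hθ1 : θ < 1)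
    (hcrit : ((d : ℝ) - 1) * θ ^ 2 = 1) (hG : G.IsTree) (hreg : ∀ v, G.degree v = d)
    (hflip : μ.map (fun σ : V → ℤˣ => fun v => - σ v) = μ) (hμ : EdgeFactor G θ μ)
    (hinv : ∀ g : G ≃g G, μ.map (fun σ : V → ℤˣ => fun v => σ (g v)) = μ)
    (hT : Monotone T) (hTu : ∀ v, ∃ n, v ∈ T n) {K : ℝ} (hEV : EVineq G θ μ T K) (v : V) (k : ℕ)
    (hk : 1 ≤ k) (h0 : Dsq μ T k 0 v = 0) (t : ℝ) (ht0 : 0 ≤ t) (ht : t ≤ 1 / 2) :
    Dsq μ T k t v = 0 := by
  have hK := hEV.nonneg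
  obtain ⟨K₁, α', hK₁0, hα'0, hα'1, hE⟩ :=
    env_round_later hd hθ0 hθ1 hcrit hG hreg hflip hμ hinv hT hTu k hk
  obtain ⟨KB, hKB0, hB⟩ := stageB (G := G) hG (by omega : 2 ≤ d) hreg hθ0 hθ1 hα'0 hα'1
  have hne : ∀ {p : Prop}, k = 0 → p := fun h => absurd h (by omega)
  refine osgoodC (a := fun t => Dsq μ T k t v) (T := 1 / 2)
    (C := 16 * K * KB * K₁ ^ 2 + 8 * K * KB * K₁ + K₁) (b := d - 1) (by omega) (by norm_num)
    (by norm_num) (by positivity) (fun t => rd_Dsq_nonneg k t v)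
    (fun s t hs hst ht => hEV.mono k v s t hs hne hst ht) h0 ?_ t ht0 ht
  intro s t hs hst ht L
  have hb0 : (0 : ℝ) ≤ ((d - 1 : ℕ) : ℝ) ^ L := by positivity
  have ha0 : 0 ≤ Dsq μ T k t v := rd_Dsq_nonneg k t v
  have hineq := hEV.ineq k v s t 1
    (KB * (2 * ((K₁ * 1 + K₁ * L) ^ 2 * Dsq μ T k t v
      + 4 * (K₁ * Real.exp (- ((d - 1 : ℕ) : ℝ) ^ L / K₁))))) hs hne hst.le ht zero_le_one hne
    (fun _ => le_rfl) (by positivity) (fun s' hs' hs't => by
      obtain ⟨hTail, hCav⟩ := hE s' (hs.trans hs')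
      have hc := isCavity_relP (μ := μ) (T := T) hCav
      have ht' := tailR_relP (μ := μ) (T := T) hTail
      have hH := homog_relP (μ := μ) (T := T) (G := G) hT hTu hinv k s'
      have hMT := MT_eq_mag_relP hreg (by omega) hG hθ0.le hθ1 hflip hμ hT hTu k s'
      have hB' := hB (relP (QM μ T)) (fun ω c p => cavT G μ T ω.1.1 k s' ω.2.1 c p)
        (fun ω c p => cavT G μ T ω.1.1 k s' ω.2.2 c p) (fun c p => rd_meas_c1 k s' c p)
        (fun c p => rd_meas_c2 k s' c p) hc.1 hc.2 hH v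
      refine (rd_gE_tail hKB0.le hK₁0.le zero_le_one hB' hMT ht'.1 ht'.2 L).trans ?_
      apply ENNReal.ofReal_le_ofReal
      have hm : Dsq μ T k s' v ≤ Dsq μ T k t v :=
        hEV.mono k v s' t (hs.trans hs') hne hs't.le ht
      gcongr)
  refine hineq.trans ?_
  have := rd_num_later (L := (L : ℝ)) hK hKB0.le hK₁0.le ha0
    (Real.exp_pos (- ((d - 1 : ℕ) : ℝ) ^ L / K₁)).le
    (rd_exp_le hb0 hK₁0 (by
      have : 0 ≤ 16 * K * KB * K₁ ^ 2 := by positivity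
      have : 0 ≤ 8 * K * KB * K₁ := by positivity
      linarith : K₁ ≤ 16 * K * KB * K₁ ^ 2 + 8 * K * KB * K₁ + K₁))
    (by linarith : 0 ≤ t - s)
  linarith

lemma rd_num_poly {K CA K₀ a s t : ℝ} {N : ℕ} (hK : 0 ≤ K) (hCA : 0 ≤ CA) (hK₀ : 0 < K₀)
    (ha : 0 ≤ a) (hs : 0 < s) (hst : s < t) (ht : t ≤ 1 / 2) (hts : t ≤ 2 * s) :
    K * t ^ 2 * (t - s) * (CA * ((K₀ + 1) ^ 2 / s ^ 2) * a + CA * (K₀ ^ N * t ^ N))
      ≤ (t - s) * (K * (4 * CA * (K₀ + 1) ^ 2 + CA * K₀ ^ N)) * (a + t ^ N) := by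
  have ht0 : 0 < t := hs.trans hst
  have ht2 : t ^ 2 ≤ 1 := by nlinarith
  have ht3 : t ^ 2 ≤ 4 * s ^ 2 := by nlinarith
  have h1 : t ^ 2 * (CA * ((K₀ + 1) ^ 2 / s ^ 2) * a) ≤ (4 * CA * (K₀ + 1) ^ 2) * a := by
    calc t ^ 2 * (CA * ((K₀ + 1) ^ 2 / s ^ 2) * a)
        ≤ 4 * s ^ 2 * (CA * ((K₀ + 1) ^ 2 / s ^ 2) * a) := by gcongr
      _ = _ := by field_simp
  have h2 : t ^ 2 * (CA * (K₀ ^ N * t ^ N)) ≤ (CA * K₀ ^ N) * t ^ N := by
    calc t ^ 2 * (CA * (K₀ ^ N * t ^ N)) ≤ 1 * (CA * (K₀ ^ N * t ^ N)) := by gcongr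
      _ = _ := by ring
  have hp : 0 < t ^ N := by positivity
  have e1 : 0 ≤ (4 * CA * (K₀ + 1) ^ 2) * t ^ N := by positivity
  have e2 : 0 ≤ (CA * K₀ ^ N) * a := by positivity
  calc _ = (t - s) * (K * (t ^ 2 * (CA * ((K₀ + 1) ^ 2 / s ^ 2) * a)
        + t ^ 2 * (CA * (K₀ ^ N * t ^ N)))) := by ring
    _ ≤ (t - s) * (K * ((4 * CA * (K₀ + 1) ^ 2) * a + (CA * K₀ ^ N) * t ^ N)) := by
        apply mul_le_mul_of_nonneg_left _ (by linarith)
        apply mul_le_mul_of_nonneg_left _ hK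
        linarith
    _ ≤ (t - s) * (K * ((4 * CA * (K₀ + 1) ^ 2 + CA * K₀ ^ N) * (a + t ^ N))) := by
        apply mul_le_mul_of_nonneg_left _ (by linarith)
        apply mul_le_mul_of_nonneg_left _ hK
        nlinarith
    _ = _ := by ring

lemma rd_rpow_le {s : ℝ} (hs : 0 < s) (hs1 : s ≤ 1) : s ^ (3 / 2 : ℝ) ≤ s := by
  have h : s ^ (3 / 2 : ℝ) ≤ s ^ (1 : ℝ) := by
    apply Real.rpow_le_rpow_of_exponent_ge hs hs1
    norm_num
  rwa [Real.rpow_one] at h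

/-- Round `0`: `Dsq μ T 0 t v = 0` for `0 < t ≤ 1 / 2`.
With `a t = Dsq μ T 0 t v`: `0 ≤ a`, monotone by `EVineq.mono`; `a → 0` at `0` since `MT = mag` is bounded by the
cavity magnetizations (`abs_mag_le_add`) whose second moments are at most `C 1 * y ^ 64 ≤ K t ^ (3/2)`
(`env_round_zero`, `EnvB.mom`).  For every `N`, `osgoodA` applies: `stageA` (with `homog_relP`,
`envB_relP`, `isCavity_relP`) bounds `gE` at time `s' ∈ [s, t)` by `C' / y ^ 80 * a s' + C' y ^ N'`,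
`y ^ (-80) = (y ^ 64) ^ (-5/4) ≤ K s ^ (-15/8)`, and the factor `ρ ^ 2 = t ^ 2 ≤ 4 s ^ 2`.  Then `osgoodB`:
`stageB`, `tailR_relP`, `tail_split` with `A = K / s' ^ (3/2) + K L`, `ρ ^ 2 = t ^ 2 ≤ 4 s ^ 2`,
`b = d - 1`. (`EVineq` needs a finite bound `g`; use the bounds just described.) -/
theorem round_zero {d : ℕ} (hd : 3 ≤ d) {θ : ℝ} (hθ0 : 0 < θ) (hθ1 : θ < 1)
    (hcrit : ((d : ℝ) - 1) * θ ^ 2 = 1) (hG : G.IsTree) (hreg : ∀ v, G.degree v = d)
    (hflip : μ.map (fun σ : V → ℤˣ => fun v => - σ v) = μ) (hμ : EdgeFactor G θ μ)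
    (hinv : ∀ g : G ≃g G, μ.map (fun σ : V → ℤˣ => fun v => σ (g v)) = μ)
    (hT : Monotone T) (hTu : ∀ v, ∃ n, v ∈ T n) {K : ℝ} (hEV : EVineq G θ μ T K) (v : V) (t : ℝ)
    (ht0 : 0 < t) (ht : t ≤ 1 / 2) : Dsq μ T 0 t v = 0 := by
  have hK := hEV.nonneg
  obtain ⟨K₀, α', C, hK₀, hα'0, hα'1, hE⟩ :=
    env_round_zero hd hθ0 hθ1 hcrit hG hreg hflip hμ hinv hT hTu
  obtain ⟨KB, hKB0, hB⟩ := stageB (G := G) hG (by omega : 2 ≤ d) hreg hθ0 hθ1 hα'0 hα'1
  have hMT := fun s => MT_eq_mag_relP (μ := μ) (T := T) hreg (by omega) hG hθ0.le hθ1 hflip hμ hT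
    hTu 0 s
  have hH := fun s => homog_relP (μ := μ) (T := T) (G := G) hT hTu hinv 0 s
  have hmono : ∀ s t, 0 < s → s ≤ t → t ≤ 1 / 2 → Dsq μ T 0 s v ≤ Dsq μ T 0 t v :=
    fun s t hs hst ht => hEV.mono 0 v s t hs.le (fun _ => hs) hst ht
  obtain ⟨p, hvp⟩ : ∃ p, G.Adj v p := by
    apply (G.degree_pos_iff_exists_adj v).mp
    rw [hreg]
    omega
  -- small at time zero
  have hsmall : ∀ s, 0 < s → s ≤ 1 / 2 → Dsq μ T 0 s v ≤ 16 * (|C 1| * (K₀ * s)) := by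
    intro s hs hs2
    obtain ⟨y, r, hy0, hy1, hyl, hyu, hEB, hTail, hCav⟩ := hE s hs hs2
    have hc := isCavity_relP (μ := μ) (T := T) hCav
    have hEB' := envB_relP (μ := μ) (T := T) hEB
    have hle : ENNReal.ofReal (C 1 * y ^ (64 * 1)) ≤ ENNReal.ofReal (|C 1| * (K₀ * s)) := by
      apply ENNReal.ofReal_le_ofReal
      rw [mul_one]
      calc C 1 * y ^ 64 ≤ |C 1| * y ^ 64 := by
            apply mul_le_mul_of_nonneg_right (le_abs_self _) (by positivity)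
        _ ≤ |C 1| * (K₀ * s) := by
            apply mul_le_mul_of_nonneg_left _ (abs_nonneg _)
            refine hyu.trans ?_
            exact mul_le_mul_of_nonneg_left (rd_rpow_le hs (by linarith)) hK₀.le
    exact rd_Dsq_small hθ0.le hθ1 hα'0 hα'1 (by positivity) hvp hc.1 hc.2 (hMT s)
      (fun c p h => (hEB'.1.mom 1 c p h).trans hle)
      (fun c p h => (hEB'.2.mom 1 c p h).trans hle)
  have hlim : Tendsto (fun t => Dsq μ T 0 t v) (𝓝[>] 0) (𝓝 0) := by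
    have h1 : Tendsto (fun s : ℝ => 16 * (|C 1| * (K₀ * s))) (𝓝[>] 0) (𝓝 0) := by
      have h2 : Tendsto (fun s : ℝ => 16 * (|C 1| * (K₀ * s))) (𝓝 0)
          (𝓝 (16 * (|C 1| * (K₀ * 0)))) := by
        apply Continuous.tendsto
        fun_prop
      rw [mul_zero, mul_zero, mul_zero] at h2
      exact h2.mono_left nhdsWithin_le_nhds
    refine tendsto_of_tendsto_of_tendsto_of_le_of_le' tendsto_const_nhds h1
      (Eventually.of_forall fun s => rd_Dsq_nonneg 0 s v) ?_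
    have h3 : Set.Ioo (0 : ℝ) (1 / 2) ∈ 𝓝[>] (0 : ℝ) := Ioo_mem_nhdsGT (by norm_num)
    filter_upwards [h3] with s hs
    exact hsmall s hs.1 hs.2.le
  -- polynomial smallness
  have hpoly : ∀ N : ℕ, ∃ C' : ℝ, ∀ t, 0 < t → t ≤ 1 / 2 → Dsq μ T 0 t v ≤ C' * t ^ N := by
    intro N
    obtain ⟨CA, hCA0, hA⟩ := stageA (G := G) hG hd hreg hθ0 hθ1 hcrit hα'0 hα'1 C (64 * N)
    obtain ⟨C', hC'0, hC'⟩ := osgoodA (a := fun t => Dsq μ T 0 t v) (T := 1 / 2)
      (C := K * (4 * CA * (K₀ + 1) ^ 2 + CA * K₀ ^ N)) (N := N) (by norm_num) (by norm_num)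
      (by positivity) (fun t => rd_Dsq_nonneg 0 t v) hmono hlim (by
        intro s t hs hst ht hts
        have hs1 : s ≤ 1 := by linarith
        have ha0 : 0 ≤ Dsq μ T 0 t v := rd_Dsq_nonneg 0 t v
        have ht0 : 0 < t := hs.trans hst
        have hineq := hEV.ineq 0 v s t t
          (CA * ((K₀ + 1) ^ 2 / s ^ 2) * Dsq μ T 0 t v + CA * (K₀ ^ N * t ^ N)) hs.le
          (fun _ => hs) hst.le ht ht0.le (fun _ => le_rfl) (fun h => absurd h (by norm_num))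
          (by positivity) (fun s' hs' hs't => by
            have hs'0 : 0 < s' := hs.trans_le hs'
            have hs'2 : s' ≤ 1 / 2 := hs't.le.trans ht
            obtain ⟨y, r, hy0, hy1, hyl, hyu, hEB, hTail, hCav⟩ := hE s' hs'0 hs'2
            have hc := isCavity_relP (μ := μ) (T := T) hCav
            have hEB' := envB_relP (μ := μ) (T := T) hEB
            have hA' := hA (relP (QM μ T)) (fun ω c p => cavT G μ T ω.1.1 0 s' ω.2.1 c p)
              (fun ω c p => cavT G μ T ω.1.1 0 s' ω.2.2 c p) y r hy0 hy1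
              (fun c p => rd_meas_c1 0 s' c p) (fun c p => rd_meas_c2 0 s' c p) hc.1 hc.2
              (hH s') hEB'.1 hEB'.2 v
            refine (rd_gE_poly hCA0 hy0 hA' (hMT s')).trans ?_
            apply ENNReal.ofReal_le_ofReal
            have hm : Dsq μ T 0 s' v ≤ Dsq μ T 0 t v := hmono s' t hs'0 hs't.le ht
            have h1 : CA / y ^ 80 ≤ CA * ((K₀ + 1) ^ 2 / s ^ 2) := by
              rw [div_eq_mul_one_div]
              apply mul_le_mul_of_nonneg_left _ hCA0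
              refine (rd_y80 hy0 hs'0 (by linarith) hK₀ hyl).trans ?_
              gcongr
            have h2 : y ^ (64 * N) ≤ K₀ ^ N * t ^ N := by
              rw [pow_mul, ← mul_pow]
              apply pow_le_pow_left₀ (by positivity)
              refine hyu.trans ?_
              apply mul_le_mul_of_nonneg_left _ hK₀.le
              exact (rd_rpow_le hs'0 (by linarith)).trans hs't.le
            apply add_le_add
            · exact mul_le_mul h1 hm (rd_Dsq_nonneg 0 s' v) (by positivity)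
            · exact mul_le_mul_of_nonneg_left h2 hCA0)
        refine hineq.trans ?_
        have := rd_num_poly (N := N) hK hCA0 hK₀ ha0 hs hst ht hts
        linarith)
    refine ⟨C', fun t ht0 ht => (hC' t ht0 ht).trans ?_⟩
    apply mul_le_mul_of_nonneg_left _ hC'0
    exact pow_le_pow_of_le_one ht0.le (by linarith) (Nat.le_succ N)
  refine osgoodB (a := fun t => Dsq μ T 0 t v) (T := 1 / 2)
    (C := 16 * K * KB * K₀ ^ 2 + 8 * K * KB * K₀ + K₀) (b := d - 1) (by omega) (by norm_num)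
    (by norm_num) (by positivity) (fun t => rd_Dsq_nonneg 0 t v) hmono hpoly ?_ t ht0 ht
  intro s t hs hst ht hts L
  have hs1 : s ≤ 1 := by linarith
  have ht0 : 0 < t := hs.trans hst
  have hb0 : (0 : ℝ) ≤ ((d - 1 : ℕ) : ℝ) ^ L := by positivity
  have ha0 : 0 ≤ Dsq μ T 0 t v := rd_Dsq_nonneg 0 t v
  have hineq := hEV.ineq 0 v s t t
    (KB * (2 * (2 * K₀ ^ 2 * (1 / s ^ 3 + (L : ℝ) ^ 2) * Dsq μ T 0 t v
      + 4 * (K₀ * Real.exp (- ((d - 1 : ℕ) : ℝ) ^ L / K₀))))) hs.le (fun _ => hs) hst.le ht ht0.le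
    (fun _ => le_rfl) (fun h => absurd h (by norm_num)) (by positivity) (fun s' hs' hs't => by
      have hs'0 : 0 < s' := hs.trans_le hs'
      have hs'2 : s' ≤ 1 / 2 := hs't.le.trans ht
      obtain ⟨y, r, hy0, hy1, hyl, hyu, hEB, hTail, hCav⟩ := hE s' hs'0 hs'2
      have hc := isCavity_relP (μ := μ) (T := T) hCav
      have ht' := tailR_relP (μ := μ) (T := T) hTail
      have hB' := hB (relP (QM μ T)) (fun ω c p => cavT G μ T ω.1.1 0 s' ω.2.1 c p)
        (fun ω c p => cavT G μ T ω.1.1 0 s' ω.2.2 c p) (fun c p => rd_meas_c1 0 s' c p)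
        (fun c p => rd_meas_c2 0 s' c p) hc.1 hc.2 (hH s') v
      refine (rd_gE_tail hKB0.le hK₀.le (by positivity) hB' (hMT s') ht'.1 ht'.2 L).trans ?_
      apply ENNReal.ofReal_le_ofReal
      have hm : Dsq μ T 0 s' v ≤ Dsq μ T 0 t v := hmono s' t hs'0 hs't.le ht
      have h1 : (K₀ * (1 / s' ^ (3 / 2 : ℝ)) + K₀ * L) ^ 2
          ≤ 2 * K₀ ^ 2 * (1 / s ^ 3 + (L : ℝ) ^ 2) := by
        have e1 : (1 / s' ^ (3 / 2 : ℝ)) ^ 2 ≤ 1 / s ^ 3 := by
          have e2 : (s' ^ (3 / 2 : ℝ)) ^ 2 = s' ^ 3 := by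
            rw [← Real.rpow_natCast, ← Real.rpow_mul hs'0.le, ← Real.rpow_natCast]
            norm_num
          rw [div_pow, one_pow, e2]
          gcongr
        have e3 : (K₀ * (1 / s' ^ (3 / 2 : ℝ)) + K₀ * L) ^ 2
            ≤ 2 * K₀ ^ 2 * ((1 / s' ^ (3 / 2 : ℝ)) ^ 2 + (L : ℝ) ^ 2) := by
          nlinarith [sq_nonneg (K₀ * (1 / s' ^ (3 / 2 : ℝ)) - K₀ * L)]
        refine e3.trans ?_
        gcongr
      apply mul_le_mul_of_nonneg_left _ hKB0.le
      apply mul_le_mul_of_nonneg_left _ (by norm_num)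
      apply add_le_add _ le_rfl
      exact mul_le_mul h1 hm (rd_Dsq_nonneg 0 s' v) (by positivity))
  refine hineq.trans ?_
  have := rd_num_zero (L := (L : ℝ)) hK hKB0.le hK₀.le ha0
    (Real.exp_pos (- ((d - 1 : ℕ) : ℝ) ^ L / K₀)).le
    (rd_exp_le hb0 hK₀ (by
      have : 0 ≤ 16 * K * KB * K₀ ^ 2 := by positivity
      have : 0 ≤ 8 * K * KB * K₀ := by positivity
      linarith : K₀ ≤ 16 * K * KB * K₀ ^ 2 + 8 * K * KB * K₀ + K₀)) hs hst ht hts
  linarith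

theorem Dsq_eq_zero {d : ℕ} (hd : 3 ≤ d) {θ : ℝ} (hθ0 : 0 < θ) (hθ1 : θ < 1)
    (hcrit : ((d : ℝ) - 1) * θ ^ 2 = 1) (hG : G.IsTree) (hreg : ∀ v, G.degree v = d)
    (hflip : μ.map (fun σ : V → ℤˣ => fun v => - σ v) = μ) (hμ : EdgeFactor G θ μ)
    (hinv : ∀ g : G ≃g G, μ.map (fun σ : V → ℤˣ => fun v => σ (g v)) = μ)
    (hT : Monotone T) (hTu : ∀ v, ∃ n, v ∈ T n) {K : ℝ} (hEV : EVineq G θ μ T K) (v : V) (k : ℕ)
    (t : ℝ) (ht0 : 0 ≤ t) (hk : k = 0 → 0 < t) (ht : t ≤ 1 / 2) :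
    Dsq μ T k t v = 0 := by
  induction k generalizing t with
  | zero =>
    exact round_zero hd hθ0 hθ1 hcrit hG hreg hflip hμ hinv hT hTu hEV v t (hk rfl) ht
  | succ k ih =>
    apply round_later hd hθ0 hθ1 hcrit hG hreg hflip hμ hinv hT hTu hEV v (k + 1) (by omega) _ t
      ht0 ht
    rw [Dsq_round]
    exact ih (1 / 2) (by norm_num) (fun _ => by norm_num) le_rfl

end Vale.Agent.P161c
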