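import Vale.Agent.P161c.Evol2
import Vale.Agent.P161c.Rounds

/-!
The evolution inequality.
-/

set_option linter.unusedSectionVars false
set_option linter.unusedVariables false

namespace Vale.Agent.P161c

open MeasureTheory SimpleGraph Vale.Agent.H13.P161 Filter Topology

section Algebra

/-- the jumps are Lipschitz in the state -/
lemma jump_lip {c M M' C C' q q' : ℝ} (hc : |c| ≤ 1 / 2) (hM : |M| ≤ 1) (hM' : |M'| ≤ 1)
    (hC' : 0 ≤ C') (hq : |q| ≤ 1) (hq' : |q'| ≤ 1) (hqq : |q - q'| ≤ |c| * |M - M'|) :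
    (c * q * C / (1 + c * q * M) - c * q' * C' / (1 + c * q' * M')) ^ 2
      ≤ 32 * c ^ 2 * ((C - C') ^ 2 + C' ^ 2 * (M - M') ^ 2) := by
  have hd := den_ge_e hc hq hM
  have hd' := den_ge_e hc hq' hM'
  set D := 1 + c * q * M with hD
  set D' := 1 + c * q' * M' with hD'
  have e : c * q * C / D - c * q' * C' / D'
      = c * q * (C - C') / D + C' * ((c * (q - q') + c ^ 2 * q * q' * (M' - M)) / (D * D')) := by
    have h1 : D ≠ 0 := by linarith
    have h2 : D' ≠ 0 := by linarith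
    field_simp
    rw [hD, hD']
    ring
  have c0 := abs_nonneg c
  have a1 : |c * q * (C - C') / D| ≤ 2 * |c| * |C - C'| := by
    rw [abs_div, abs_of_pos (by linarith : 0 < D), div_le_iff₀ (by linarith), abs_mul, abs_mul]
    have h1 : |c| * |q| * |C - C'| ≤ |c| * 1 * |C - C'| := by gcongr
    have h2 : 2 * |c| * |C - C'| * (1 / 2) ≤ 2 * |c| * |C - C'| * D := by
      apply mul_le_mul_of_nonneg_left hd (by positivity)
    linarith
  have a2 : |(c * (q - q') + c ^ 2 * q * q' * (M' - M)) / (D * D')| ≤ 4 * |c| * |M - M'| := by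
    have hDD : 1 / 4 ≤ D * D' := by nlinarith
    rw [abs_div, abs_of_pos (by linarith : 0 < D * D'), div_le_iff₀ (by linarith)]
    have h1 : |c * (q - q')| ≤ 1 / 2 * (|c| * |M - M'|) := by
      rw [abs_mul]
      exact mul_le_mul hc hqq (abs_nonneg _) (by norm_num)
    have h2 : |c ^ 2 * q * q' * (M' - M)| ≤ 1 / 2 * (|c| * |M - M'|) := by
      have e2 : |c ^ 2 * q * q' * (M' - M)| = |c| * |c| * |q| * |q'| * |M - M'| := by
        rw [abs_mul, abs_mul, abs_mul, abs_pow, sq, abs_sub_comm M' M]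
      rw [e2]
      have h3 : |c| * |c| * |q| * |q'| * |M - M'| ≤ 1 / 2 * |c| * 1 * 1 * |M - M'| := by gcongr
      linarith
    have h3 : |c * (q - q') + c ^ 2 * q * q' * (M' - M)| ≤ |c| * |M - M'| := by
      refine (abs_add_le _ _).trans ?_
      linarith
    have h4 : 4 * |c| * |M - M'| * (1 / 4) ≤ 4 * |c| * |M - M'| * (D * D') :=
      mul_le_mul_of_nonneg_left hDD (by positivity)
    linarith
  rw [e]
  set X := c * q * (C - C') / D with hX
  set Y := (c * (q - q') + c ^ 2 * q * q' * (M' - M)) / (D * D') with hY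
  have b1 : X ^ 2 ≤ 4 * c ^ 2 * (C - C') ^ 2 := by
    have := mul_self_le_mul_self (abs_nonneg X) a1
    have e1 : |X| * |X| = X ^ 2 := by rw [← sq, sq_abs]
    have e2 : 2 * |c| * |C - C'| * (2 * |c| * |C - C'|) = 4 * c ^ 2 * (C - C') ^ 2 := by
      rw [← sq_abs c, ← sq_abs (C - C')]; ring
    rw [e1, e2] at this
    exact this
  have b2 : Y ^ 2 ≤ 16 * c ^ 2 * (M - M') ^ 2 := by
    have := mul_self_le_mul_self (abs_nonneg Y) a2
    have e1 : |Y| * |Y| = Y ^ 2 := by rw [← sq, sq_abs]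
    have e2 : 4 * |c| * |M - M'| * (4 * |c| * |M - M'|) = 16 * c ^ 2 * (M - M') ^ 2 := by
      rw [← sq_abs c, ← sq_abs (M - M')]; ring
    rw [e1, e2] at this
    exact this
  have b3 : (C' * Y) ^ 2 ≤ 16 * c ^ 2 * (C' ^ 2 * (M - M') ^ 2) := by
    have := mul_le_mul_of_nonneg_left b2 (sq_nonneg C')
    nlinarith
  have b4 : (X + C' * Y) ^ 2 ≤ 2 * X ^ 2 + 2 * (C' * Y) ^ 2 := by
    nlinarith [sq_nonneg (X - C' * Y)]
  have b5 : 0 ≤ c ^ 2 * (C - C') ^ 2 := by positivity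
  nlinarith

end Algebra

section Grid

/-- dyadic approximation from below of `u` in `[t1, t2)` -/
noncomputable def sN (t1 t2 : ℝ) (N : ℕ) (u : ℝ) : ℝ :=
  t1 + (⌊2 ^ N * ((u - t1) / (t2 - t1))⌋₊ : ℝ) * ((t2 - t1) / 2 ^ N)

lemma sN_eq {t1 t2 : ℝ} (h12 : t1 < t2) (N : ℕ) (u : ℝ) :
    sN t1 t2 N u = t1 + (t2 - t1) * rdy N ((u - t1) / (t2 - t1)) := by
  unfold sN rdy
  ring

lemma sN_mono {t1 t2 : ℝ} (h12 : t1 < t2) {u : ℝ} (hu : t1 ≤ u) :
    Monotone (fun N => sN t1 t2 N u) := by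
  intro N N' h
  simp only [sN_eq h12]
  have h0 : 0 ≤ (u - t1) / (t2 - t1) := div_nonneg (by linarith) (by linarith)
  have := rdy_mono h0 h
  simp only at this
  have h3 : 0 ≤ t2 - t1 := by linarith
  nlinarith

lemma sN_tendsto {t1 t2 : ℝ} (h12 : t1 < t2) {u : ℝ} (hu : t1 ≤ u) :
    Tendsto (fun N => sN t1 t2 N u) atTop (𝓝 u) := by
  simp only [sN_eq h12]
  have h0 : 0 ≤ (u - t1) / (t2 - t1) := div_nonneg (by linarith) (by linarith)
  have h1 := ((rdy_tendsto h0).const_mul (t2 - t1)).const_add t1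
  have e : t1 + (t2 - t1) * ((u - t1) / (t2 - t1)) = u := by
    have : t2 - t1 ≠ 0 := by linarith
    field_simp
    ring
  rw [e] at h1
  exact h1

lemma sN_measurable {t1 t2 : ℝ} (h12 : t1 < t2) (N : ℕ) : Measurable (sN t1 t2 N) := by
  have e : sN t1 t2 N = fun u => t1 + (t2 - t1) * rdy N ((u - t1) / (t2 - t1)) := by
    funext u; exact sN_eq h12 N u
  rw [e]
  have h1 : Measurable (fun u : ℝ => (u - t1) / (t2 - t1)) := by fun_prop
  exact (((rdy_measurable N).comp h1).const_mul _).const_add _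

/-- grid points -/
noncomputable def gp (t1 t2 : ℝ) (N j : ℕ) : ℝ := t1 + (j : ℝ) * ((t2 - t1) / 2 ^ N)

/-- only one cell contains `u` -/
lemma grid_sum {t1 t2 : ℝ} (h12 : t1 < t2) (N : ℕ) (u : unitInterval) (f : ℝ → ℝ) :
    ∑ j ∈ Finset.range (2 ^ N), coI (gp t1 t2 N j) (gp t1 t2 N (j + 1)) u * f (gp t1 t2 N j)
      = coI t1 t2 u * f (sN t1 t2 N u) := by
  have hh : 0 < (t2 - t1) / 2 ^ N := div_pos (by linarith) (by positivity)
  have h2N : (0 : ℝ) < 2 ^ N := by positivity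
  by_cases hu : t1 ≤ (u : ℝ) ∧ (u : ℝ) < t2
  · set x : ℝ := 2 ^ N * (((u : ℝ) - t1) / (t2 - t1)) with hx
    have hx0 : 0 ≤ x := by
      apply mul_nonneg h2N.le
      exact div_nonneg (by linarith [hu.1]) (by linarith)
    have hx1 : x < 2 ^ N := by
      have : ((u : ℝ) - t1) / (t2 - t1) < 1 := by
        rw [div_lt_one (by linarith)]; linarith [hu.2]
      nlinarith
    have hux : (u : ℝ) = t1 + x * ((t2 - t1) / 2 ^ N) := by
      rw [hx]
      have : t2 - t1 ≠ 0 := by linarith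
      field_simp
      ring
    have hmem : ⌊x⌋₊ ∈ Finset.range (2 ^ N) := by
      rw [Finset.mem_range, Nat.floor_lt hx0]
      exact_mod_cast hx1
    rw [Finset.sum_eq_single_of_mem _ hmem]
    · have c1 : coI (gp t1 t2 N ⌊x⌋₊) (gp t1 t2 N (⌊x⌋₊ + 1)) u = 1 := by
        unfold coI gp
        rw [if_pos]
        constructor
        · rw [hux]
          have := Nat.floor_le hx0
          nlinarith
        · rw [hux]
          have := Nat.lt_floor_add_one x
          push_cast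
          nlinarith
      have c2 : coI t1 t2 u = 1 := by
        unfold coI
        rw [if_pos hu]
      rw [c1, c2]
      rfl
    · intro j _ hj
      have : coI (gp t1 t2 N j) (gp t1 t2 N (j + 1)) u = 0 := by
        unfold coI gp
        rw [if_neg]
        rintro ⟨h1, h2⟩
        apply hj
        rw [hux] at h1 h2
        have h3 : (j : ℝ) ≤ x := by
          by_contra hcon
          push Not at hcon
          nlinarith
        have h4 : x < (j : ℝ) + 1 := by
          by_contra hcon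
          push Not at hcon
          push_cast at h2
          nlinarith
        symm
        rw [Nat.floor_eq_iff hx0]
        exact ⟨h3, h4⟩
      rw [this, zero_mul]
  · have c2 : coI t1 t2 u = 0 := by
      unfold coI
      rw [if_neg hu]
    rw [c2, zero_mul]
    apply Finset.sum_eq_zero
    intro j hj
    have : coI (gp t1 t2 N j) (gp t1 t2 N (j + 1)) u = 0 := by
      unfold coI gp
      rw [if_neg]
      rintro ⟨h1, h2⟩
      apply hu
      have hj' : (j : ℝ) + 1 ≤ 2 ^ N := by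
        have := Finset.mem_range.mp hj
        exact_mod_cast this
      constructor
      · have : 0 ≤ (j : ℝ) * ((t2 - t1) / 2 ^ N) := by positivity
        linarith
      · push_cast at h2
        have h3 : ((j : ℝ) + 1) * ((t2 - t1) / 2 ^ N) ≤ 2 ^ N * ((t2 - t1) / 2 ^ N) :=
          mul_le_mul_of_nonneg_right hj' hh.le
        have h4 : (2 : ℝ) ^ N * ((t2 - t1) / 2 ^ N) = t2 - t1 := by field_simp
        linarith
    rw [this, zero_mul]

end Grid

variable {V : Type*} [Countable V] [DecidableEq V] {G : SimpleGraph V} [LocallyFinite G]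
  {μ : Measure (V → ℤˣ)} [IsProbabilityMeasure μ] {T : ℕ → Finset V} {θ : ℝ}

lemma PastF.const (i : Site V) (s c : ℝ) : PastF i s (fun _ => c) :=
  ⟨Nice.const c, fun _ _ => rfl, fun _ _ _ _ _ => rfl⟩

lemma PastF.mul {i : Site V} {s : ℝ} {F F' : (Site V → unitInterval) × (Site V → ℝ) → ℝ}
    (h : PastF i s F) (h' : PastF i s F') : PastF i s (fun r => F r * F' r) :=
  ⟨h.nice.mul h'.nice, fun U y => by rw [h.past U y, h'.past U y],
    fun U y x h1 h2 => by rw [h.lab U y x h1 h2, h'.lab U y x h1 h2]⟩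

lemma aT_update (U : Site V → unitInterval) (k : ℕ) (w : V) {s : ℝ} {x : unitInterval}
    (h1 : s ≤ (U (k, w) : ℝ)) (h2 : s ≤ (x : ℝ)) (y : Site V → ℝ) :
    aT (Function.update U (k, w) x) k s y = aT U k s y := by
  unfold aT
  have hc := cut_update_self U (k, w) h1 h2
  simp only at hc
  rw [hc]
  apply aF_congr
  · intro j hj
    apply cs_update_of_ne
    rintro rfl
    exact notMem_cut_of_le U (k, w) h1 hj
  · intro j _
    rfl

lemma pastF_mf (k : ℕ) (s : ℝ) (v w : V) : PastF ((k, w) : Site V) s (mf μ T k s v) where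
  nice := nice_mf k s v
  past := fun U y => by
    simp only [mf]
    rw [MT_msk]
  lab := fun U y x h1 h2 => by
    simp only [mf, MT]
    rw [aT_update U k w h1 h2]

/-- the covariance functional -/
noncomputable def cf (G : SimpleGraph V) (θ : ℝ) (μ : Measure (V → ℤˣ)) (T : ℕ → Finset V) (k : ℕ)
    (s : ℝ) (v w : V) (r : (Site V → unitInterval) × (Site V → ℝ)) : ℝ :=
  CT G θ μ T r.1 k s v w r.2

lemma nice_cf (hθ0 : 0 ≤ θ) (hθ1 : θ < 1) (k : ℕ) (s : ℝ) (v w : V) :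
    Nice (cf G θ μ T k s v w) := by
  refine ⟨?_, 1, fun r => ?_⟩
  · have h : Measurable (fun q : (Site V → unitInterval) × (Site V → ℝ) =>
      (q.1, ((s : ℝ), q.2))) := by fun_prop
    have h2 := (measurable_CT (G := G) (μ := μ) (T := T) (θ := θ) k v w).comp h
    unfold cf
    simpa only [Function.comp_def] using h2
  · obtain ⟨h1, h2⟩ := CT_mem (G := G) (μ := μ) (T := T) hθ0 hθ1 r.1 k s v w r.2
    unfold cf
    rw [abs_of_nonneg h1]
    exact h2

lemma pastF_cf (hθ0 : 0 ≤ θ) (hθ1 : θ < 1) (k : ℕ) (s : ℝ) (v w w' : V) :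
    PastF ((k, w') : Site V) s (cf G θ μ T k s v w) where
  nice := nice_cf hθ0 hθ1 k s v w
  past := fun U y => by
    simp only [cf]
    rw [CT_msk]
  lab := fun U y x h1 h2 => by
    have e : cavT G μ T (Function.update U (k, w') x) k s y = cavT G μ T U k s y := by
      funext c p
      unfold cavT
      rw [aT_update U k w' h1 h2]
    simp only [cf, CT]
    rw [e]

/-- local energy at time `(k, s)` -/
noncomputable def gw (G : SimpleGraph V) (θ : ℝ) (μ : Measure (V → ℤˣ)) (T : ℕ → Finset V) (k : ℕ)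
    (v w : V) (s : ℝ) (q : Om V × ((Site V → ℝ) × (Site V → ℝ))) : ℝ :=
  (cf G θ μ T k s v w (q.1.1, q.2.1) - cf G θ μ T k s v w (q.1.1, q.2.2)) ^ 2
    + cf G θ μ T k s v w (q.1.1, q.2.2) ^ 2
      * (mf μ T k s w (q.1.1, q.2.1) - mf μ T k s w (q.1.1, q.2.2)) ^ 2

lemma nice_gw (hθ0 : 0 ≤ θ) (hθ1 : θ < 1) (k : ℕ) (v w : V) (s : ℝ) :
    Nice (gw G θ μ T k v w s) := by
  have n1 := (nice_cf (G := G) (μ := μ) (T := T) hθ0 hθ1 k s v w).comp (meas_left (V := V))
  have n2 := (nice_cf (G := G) (μ := μ) (T := T) hθ0 hθ1 k s v w).comp (meas_right (V := V))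
  have n3 := (nice_mf (μ := μ) (T := T) k s w).comp (meas_left (V := V))
  have n4 := (nice_mf (μ := μ) (T := T) k s w).comp (meas_right (V := V))
  exact ((n1.sub n2).pow 2).add ((n2.pow 2).mul ((n3.sub n4).pow 2))

lemma gw_nonneg (k : ℕ) (v w : V) (s : ℝ) (q : Om V × ((Site V → ℝ) × (Site V → ℝ))) :
    0 ≤ gw G θ μ T k v w s q := by
  unfold gw
  positivity

lemma gw_le (hθ0 : 0 ≤ θ) (hθ1 : θ < 1) (k : ℕ) (v w : V) (s : ℝ)
    (q : Om V × ((Site V → ℝ) × (Site V → ℝ))) : gw G θ μ T k v w s q ≤ 8 := by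
  obtain ⟨a1, a2⟩ := CT_mem (G := G) (μ := μ) (T := T) hθ0 hθ1 q.1.1 k s v w q.2.1
  obtain ⟨b1, b2⟩ := CT_mem (G := G) (μ := μ) (T := T) hθ0 hθ1 q.1.1 k s v w q.2.2
  have c1 := abs_le.mp (abs_MT_le (μ := μ) (T := T) q.1.1 k s w q.2.1)
  have c2 := abs_le.mp (abs_MT_le (μ := μ) (T := T) q.1.1 k s w q.2.2)
  unfold gw cf mf
  simp only
  set C := CT G θ μ T q.1.1 k s v w q.2.1
  set C' := CT G θ μ T q.1.1 k s v w q.2.2
  set M := MT μ T q.1.1 k s w q.2.1
  set M' := MT μ T q.1.1 k s w q.2.2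
  have h1 : (C - C') ^ 2 ≤ 1 := by nlinarith
  have h2 : (M - M') ^ 2 ≤ 4 := by nlinarith
  have h3 : C' ^ 2 ≤ 1 := by nlinarith
  have h4 : C' ^ 2 * (M - M') ^ 2 ≤ 1 * 4 := mul_le_mul h3 h2 (sq_nonneg _) (by norm_num)
  linarith

/-- the two families of factors -/
noncomputable def fac1 (G : SimpleGraph V) (θ : ℝ) (μ : Measure (V → ℤˣ)) (T : ℕ → Finset V)
    (k : ℕ) (s : ℝ) (v w : V) : Fin 6 → (Site V → unitInterval) × (Site V → ℝ) → ℝ :=
  ![fun r => cf G θ μ T k s v w r * cf G θ μ T k s v w r,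
    fun r => (-2) * cf G θ μ T k s v w r,
    fun _ => 1,
    fun r => mf μ T k s w r * mf μ T k s w r,
    fun r => (-2) * mf μ T k s w r,
    fun _ => 1]

noncomputable def fac2 (G : SimpleGraph V) (θ : ℝ) (μ : Measure (V → ℤˣ)) (T : ℕ → Finset V)
    (k : ℕ) (s : ℝ) (v w : V) : Fin 6 → (Site V → unitInterval) × (Site V → ℝ) → ℝ :=
  ![fun _ => 1,
    fun r => cf G θ μ T k s v w r,
    fun r => cf G θ μ T k s v w r * cf G θ μ T k s v w r,
    fun r => cf G θ μ T k s v w r * cf G θ μ T k s v w r,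
    fun r => (cf G θ μ T k s v w r * cf G θ μ T k s v w r) * mf μ T k s w r,
    fun r => (cf G θ μ T k s v w r * cf G θ μ T k s v w r)
      * (mf μ T k s w r * mf μ T k s w r)]

lemma gw_eq (k : ℕ) (v w : V) (s : ℝ) (q : Om V × ((Site V → ℝ) × (Site V → ℝ))) :
    gw G θ μ T k v w s q = ∑ l : Fin 6, fac1 G θ μ T k s v w l (q.1.1, q.2.1)
      * fac2 G θ μ T k s v w l (q.1.1, q.2.2) := by
  rw [Fin.sum_univ_six]
  unfold gw fac1 fac2
  simp
  ring

lemma pastF_fac1 (hθ0 : 0 ≤ θ) (hθ1 : θ < 1) (k : ℕ) (s : ℝ) (v w : V) (l : Fin 6) :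
    PastF ((k, w) : Site V) s (fac1 G θ μ T k s v w l) := by
  have hc := pastF_cf (G := G) (μ := μ) (T := T) hθ0 hθ1 k s v w w
  have hm := pastF_mf (μ := μ) (T := T) k s w w
  have h1 := PastF.const ((k, w) : Site V) s 1
  have h2 := PastF.const ((k, w) : Site V) s (-2)
  fin_cases l
  · exact hc.mul hc
  · exact h2.mul hc
  · exact h1
  · exact hm.mul hm
  · exact h2.mul hm
  · exact h1

lemma pastF_fac2 (hθ0 : 0 ≤ θ) (hθ1 : θ < 1) (k : ℕ) (s : ℝ) (v w : V) (l : Fin 6) :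
    PastF ((k, w) : Site V) s (fac2 G θ μ T k s v w l) := by
  have hc := pastF_cf (G := G) (μ := μ) (T := T) hθ0 hθ1 k s v w w
  have hm := pastF_mf (μ := μ) (T := T) k s w w
  have h1 := PastF.const ((k, w) : Site V) s 1
  fin_cases l
  · exact h1
  · exact hc
  · exact hc.mul hc
  · exact hc.mul hc
  · exact (hc.mul hc).mul hm
  · exact (hc.mul hc).mul (hm.mul hm)

variable (hT : Monotone T) (hTu : ∀ v, ∃ n, v ∈ T n)

include hT hTu

/-- one cell of the grid -/
lemma palm_cell (hθ0 : 0 ≤ θ) (hθ1 : θ < 1) (k : ℕ) (v w : V) {s s' : ℝ} (hs0 : 0 ≤ s)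
    (hs : s ≤ 1 / 2) (hss : s ≤ s') :
    ∫ q, coI s s' (q.1.1 (k, w)) * gw G θ μ T k v w s q ∂(relP (QM μ T))
      ≤ 2 * (s' - s) * ∫ q, gw G θ μ T k v w s q ∂(relP (QM μ T)) := by
  have h := relP_label_sum (μ := μ) hT hTu (Finset.univ : Finset (Fin 6)) (i := ((k, w) : Site V))
    hs0 hs hss (fun l _ => pastF_fac1 (G := G) (μ := μ) (T := T) hθ0 hθ1 k s v w l)
    (fun l _ => pastF_fac2 (G := G) (μ := μ) (T := T) hθ0 hθ1 k s v w l) (fun q => by
      rw [← gw_eq]; exact gw_nonneg k v w s q)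
  simp only [← gw_eq] at h
  exact h

/-- the grid sum -/
lemma palm_grid (hθ0 : 0 ≤ θ) (hθ1 : θ < 1) (k : ℕ) (v w : V) {t1 t2 : ℝ} (h0 : 0 ≤ t1)
    (h12 : t1 < t2) (h2 : t2 ≤ 1 / 2) (N : ℕ) :
    ∫ q, coI t1 t2 (q.1.1 (k, w)) * gw G θ μ T k v w (sN t1 t2 N (q.1.1 (k, w))) q
        ∂(relP (QM μ T))
      ≤ ∑ j ∈ Finset.range (2 ^ N), 2 * ((t2 - t1) / 2 ^ N)
          * ∫ q, gw G θ μ T k v w (gp t1 t2 N j) q ∂(relP (QM μ T)) := by
  have hh : 0 < (t2 - t1) / 2 ^ N := div_pos (by linarith) (by positivity)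
  have e : ∀ q : Om V × ((Site V → ℝ) × (Site V → ℝ)),
      coI t1 t2 (q.1.1 (k, w)) * gw G θ μ T k v w (sN t1 t2 N (q.1.1 (k, w))) q
      = ∑ j ∈ Finset.range (2 ^ N), coI (gp t1 t2 N j) (gp t1 t2 N (j + 1)) (q.1.1 (k, w))
          * gw G θ μ T k v w (gp t1 t2 N j) q := fun q =>
    (grid_sum h12 N (q.1.1 (k, w)) (fun s => gw G θ μ T k v w s q)).symm
  simp only [e]
  have nn : ∀ j, Nice (fun q : Om V × ((Site V → ℝ) × (Site V → ℝ)) =>
      coI (gp t1 t2 N j) (gp t1 t2 N (j + 1)) (q.1.1 (k, w))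
          * gw G θ μ T k v w (gp t1 t2 N j) q) := fun j =>
    ((nice_coI _ _).comp ((measurable_pi_apply (k, w)).comp
      (measurable_fst.comp measurable_fst))).mul (nice_gw hθ0 hθ1 k v w _)
  rw [integral_finsetSum _ (fun j _ => (nn j).integrable _)]
  apply Finset.sum_le_sum
  intro j hj
  have hj' : (j : ℝ) + 1 ≤ 2 ^ N := by
    have := Finset.mem_range.mp hj
    exact_mod_cast this
  have g1 : 0 ≤ gp t1 t2 N j := by unfold gp; positivity
  have g2 : gp t1 t2 N j ≤ 1 / 2 := by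
    unfold gp
    have h3 : (j : ℝ) * ((t2 - t1) / 2 ^ N) ≤ 2 ^ N * ((t2 - t1) / 2 ^ N) :=
      mul_le_mul_of_nonneg_right (by linarith) hh.le
    have h4 : (2 : ℝ) ^ N * ((t2 - t1) / 2 ^ N) = t2 - t1 := by field_simp
    linarith
  have g3 : gp t1 t2 N (j + 1) - gp t1 t2 N j = (t2 - t1) / 2 ^ N := by
    unfold gp
    push_cast
    ring
  have h := palm_cell (G := G) (μ := μ) hT hTu hθ0 hθ1 k v w g1 g2
    (s' := gp t1 t2 N (j + 1)) (by linarith)
  rw [g3] at h
  exact h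

omit hT hTu in
/-- the local energy at a random time -/
lemma nice_gw_at (hθ0 : 0 ≤ θ) (hθ1 : θ < 1) (k : ℕ) (v w : V)
    {τ : Om V × ((Site V → ℝ) × (Site V → ℝ)) → ℝ} (hτ : Measurable τ) :
    Nice (fun q => gw G θ μ T k v w (τ q) q) := by
  refine ⟨?_, 8, fun q => ?_⟩
  · have ma : Measurable (fun q : Om V × ((Site V → ℝ) × (Site V → ℝ)) =>
        (q.1.1, (τ q, q.2.1))) := by fun_prop
    have mb : Measurable (fun q : Om V × ((Site V → ℝ) × (Site V → ℝ)) =>
        (q.1.1, (τ q, q.2.2))) := by fun_prop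
    have c1 := (measurable_CT (G := G) (μ := μ) (T := T) (θ := θ) k v w).comp ma
    have c2 := (measurable_CT (G := G) (μ := μ) (T := T) (θ := θ) k v w).comp mb
    have c3 := (measurable_MT (μ := μ) (T := T) k w).comp ma
    have c4 := (measurable_MT (μ := μ) (T := T) k w).comp mb
    simp only [Function.comp_def] at c1 c2 c3 c4
    unfold gw cf mf
    exact ((c1.sub c2).pow_const 2).add ((c2.pow_const 2).mul ((c3.sub c4).pow_const 2))
  · rw [abs_of_nonneg (gw_nonneg k v w _ q)]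
    exact gw_le hθ0 hθ1 k v w _ q

omit hT hTu in
lemma measurable_lab (k : ℕ) (w : V) :
    Measurable (fun q : Om V × (Site V → ℝ) => ((q.1.1 (k, w) : unitInterval) : ℝ)) :=
  measurable_subtype_coe.comp ((measurable_pi_apply (k, w)).comp
    (measurable_fst.comp measurable_fst))

/-- left continuity at the label of the site -/
lemma cont_QM {d : ℕ} (hreg : ∀ v, G.degree v = d) (hd : 1 ≤ d) (hG : G.IsTree)
    (hθ0 : 0 ≤ θ) (hθ1 : θ < 1) (hflip : μ.map (fun σ : V → ℤˣ => fun v => - σ v) = μ)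
    (hμ : EdgeFactor G θ μ) (k : ℕ) (v w : V) {t1 t2 : ℝ} (h12 : t1 < t2) :
    ∀ᵐ q ∂(QM μ T), ¬ t1 ≤ (q.1.1 (k, w) : ℝ) ∨
      (Tendsto (fun N => CT G θ μ T q.1.1 k (sN t1 t2 N (q.1.1 (k, w))) v w q.2) atTop
        (𝓝 (CT G θ μ T q.1.1 k (q.1.1 (k, w)) v w q.2)) ∧
      Tendsto (fun N => MT μ T q.1.1 k (sN t1 t2 N (q.1.1 (k, w))) w q.2) atTop
        (𝓝 (MT μ T q.1.1 k (q.1.1 (k, w)) w q.2))) := by
  apply rd_ae_QM (p := fun U y => ¬ t1 ≤ (U (k, w) : ℝ) ∨
      (Tendsto (fun N => CT G θ μ T U k (sN t1 t2 N (U (k, w))) v w y) atTop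
        (𝓝 (CT G θ μ T U k (U (k, w)) v w y)) ∧
      Tendsto (fun N => MT μ T U k (sN t1 t2 N (U (k, w))) w y) atTop
        (𝓝 (MT μ T U k (U (k, w)) w y))))
  · have ml := measurable_lab (V := V) k w
    have m0 : ∀ N : ℕ, Measurable (fun q : Om V × (Site V → ℝ) =>
        (q.1.1, (sN t1 t2 N ((q.1.1 (k, w) : unitInterval) : ℝ), q.2))) := fun N =>
      (measurable_fst.comp measurable_fst).prodMk
        (((sN_measurable h12 N).comp ml).prodMk measurable_snd)
    have m1 : Measurable (fun q : Om V × (Site V → ℝ) =>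
        (q.1.1, (((q.1.1 (k, w) : unitInterval) : ℝ), q.2))) :=
      (measurable_fst.comp measurable_fst).prodMk (ml.prodMk measurable_snd)
    apply MeasurableSet.union
    · exact (measurableSet_le measurable_const ml).compl
    · apply MeasurableSet.inter
      · apply measurableSet_tendsto_fun
        · intro N
          have h := (measurable_CT (G := G) (μ := μ) (T := T) (θ := θ) k v w).comp (m0 N)
          simpa only [Function.comp_def] using h
        · have h := (measurable_CT (G := G) (μ := μ) (T := T) (θ := θ) k v w).comp m1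
          simpa only [Function.comp_def] using h
      · apply measurableSet_tendsto_fun
        · intro N
          have h := (measurable_MT (μ := μ) (T := T) k w).comp (m0 N)
          simpa only [Function.comp_def] using h
        · have h := (measurable_MT (μ := μ) (T := T) k w).comp m1
          simpa only [Function.comp_def] using h
  · intro U
    by_cases hu : t1 ≤ (U (k, w) : ℝ)
    · have h := levy_time (G := G) (μ := μ) hreg hd hG hθ0 hθ1 hflip hμ hT hTu U k
        (sN_mono h12 hu) (sN_tendsto h12 hu)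
      filter_upwards [h] with p hp
      exact Or.inr ⟨hp.2 v w, hp.1 w⟩
    · exact Eventually.of_forall (fun p => Or.inl hu)

/-- Palm bound for finitely many vertices -/
lemma palm_bound {d : ℕ} (hreg : ∀ v, G.degree v = d) (hd : 1 ≤ d) (hG : G.IsTree)
    (hθ0 : 0 ≤ θ) (hθ1 : θ < 1) (hflip : μ.map (fun σ : V → ℤˣ => fun v => - σ v) = μ)
    (hμ : EdgeFactor G θ μ) (k : ℕ) (v : V) {t1 t2 : ℝ} (h0 : 0 ≤ t1) (h12 : t1 < t2)
    (h2 : t2 ≤ 1 / 2) (B : Finset V) {g : ℝ}
    (hg : ∀ s, t1 ≤ s → s < t2 → ∑ w ∈ B, ∫ q, gw G θ μ T k v w s q ∂(relP (QM μ T)) ≤ g) :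
    ∑ w ∈ B, ∫ q, coI t1 t2 (q.1.1 (k, w)) * gw G θ μ T k v w (q.1.1 (k, w)) q
        ∂(relP (QM μ T)) ≤ 2 * (t2 - t1) * g := by
  have hlim : Tendsto (fun N => ∑ w ∈ B, ∫ q, coI t1 t2 (q.1.1 (k, w))
        * gw G θ μ T k v w (sN t1 t2 N (q.1.1 (k, w))) q ∂(relP (QM μ T))) atTop
      (𝓝 (∑ w ∈ B, ∫ q, coI t1 t2 (q.1.1 (k, w)) * gw G θ μ T k v w (q.1.1 (k, w)) q
        ∂(relP (QM μ T)))) := by
    apply tendsto_finset_sum
    intro w _
    have ml : Measurable (fun q : Om V × ((Site V → ℝ) × (Site V → ℝ)) =>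
        ((q.1.1 (k, w) : unitInterval) : ℝ)) :=
      measurable_subtype_coe.comp ((measurable_pi_apply (k, w)).comp
        (measurable_fst.comp measurable_fst))
    have nc : Nice (fun q : Om V × ((Site V → ℝ) × (Site V → ℝ)) =>
        coI t1 t2 (q.1.1 (k, w))) :=
      (nice_coI _ _).comp ((measurable_pi_apply (k, w)).comp
        (measurable_fst.comp measurable_fst))
    apply tendsto_integral_of_dominated_convergence (fun _ => (8 : ℝ))
    · intro N
      exact (nc.mul (nice_gw_at (G := G) (μ := μ) (T := T) hθ0 hθ1 k v w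
        ((sN_measurable h12 N).comp ml))).1.aestronglyMeasurable
    · exact integrable_const _
    · intro N
      apply Eventually.of_forall
      intro q
      have h1 := gw_nonneg (G := G) (θ := θ) (μ := μ) (T := T) k v w
        (sN t1 t2 N (q.1.1 (k, w))) q
      have h3 := gw_le (G := G) (μ := μ) (T := T) hθ0 hθ1 k v w
        (sN t1 t2 N (q.1.1 (k, w))) q
      rw [Real.norm_eq_abs, abs_mul, abs_of_nonneg h1]
      have h4 : |coI t1 t2 (q.1.1 (k, w))| ≤ 1 := by
        unfold coI; split_ifs <;> simp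
      calc _ ≤ 1 * 8 := mul_le_mul h4 h3 h1 (by norm_num)
        _ = 8 := by norm_num
    · have h := cont_QM (G := G) (μ := μ) hT hTu hreg hd hG hθ0 hθ1 hflip hμ k v w h12
      filter_upwards [rd_ae_relP h] with q hq
      obtain ⟨ha, hb⟩ := hq
      by_cases hu : t1 ≤ (q.1.1 (k, w) : ℝ)
      · have ha' := ha.resolve_left (not_not.mpr hu)
        have hb' := hb.resolve_left (not_not.mpr hu)
        apply Tendsto.const_mul
        unfold gw cf mf
        exact ((ha'.1.sub hb'.1).pow 2).add ((hb'.1.pow 2).mul ((ha'.2.sub hb'.2).pow 2))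
      · have : coI t1 t2 (q.1.1 (k, w)) = 0 := by
          unfold coI
          rw [if_neg (fun h => hu h.1)]
        simp only [this, zero_mul]
        exact tendsto_const_nhds
  apply le_of_tendsto' hlim
  intro N
  have hh : 0 < (t2 - t1) / 2 ^ N := div_pos (by linarith) (by positivity)
  calc ∑ w ∈ B, ∫ q, coI t1 t2 (q.1.1 (k, w))
        * gw G θ μ T k v w (sN t1 t2 N (q.1.1 (k, w))) q ∂(relP (QM μ T))
      ≤ ∑ w ∈ B, ∑ j ∈ Finset.range (2 ^ N), 2 * ((t2 - t1) / 2 ^ N)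
          * ∫ q, gw G θ μ T k v w (gp t1 t2 N j) q ∂(relP (QM μ T)) :=
        Finset.sum_le_sum (fun w _ =>
          palm_grid (G := G) (μ := μ) hT hTu hθ0 hθ1 k v w h0 h12 h2 N)
    _ = ∑ j ∈ Finset.range (2 ^ N), 2 * ((t2 - t1) / 2 ^ N)
          * ∑ w ∈ B, ∫ q, gw G θ μ T k v w (gp t1 t2 N j) q ∂(relP (QM μ T)) := by
        rw [Finset.sum_comm]
        apply Finset.sum_congr rfl
        intro j _
        rw [Finset.mul_sum]
    _ ≤ ∑ j ∈ Finset.range (2 ^ N), 2 * ((t2 - t1) / 2 ^ N) * g := by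
        apply Finset.sum_le_sum
        intro j hj
        have hj' : (j : ℝ) + 1 ≤ 2 ^ N := by
          have := Finset.mem_range.mp hj
          exact_mod_cast this
        apply mul_le_mul_of_nonneg_left _ (by positivity)
        apply hg
        · unfold gp
          have : 0 ≤ (j : ℝ) * ((t2 - t1) / 2 ^ N) := by positivity
          linarith
        · unfold gp
          have h3 : ((j : ℝ) + 1) * ((t2 - t1) / 2 ^ N) ≤ 2 ^ N * ((t2 - t1) / 2 ^ N) :=
            mul_le_mul_of_nonneg_right hj' hh.le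
          have h4 : (2 : ℝ) ^ N * ((t2 - t1) / 2 ^ N) = t2 - t1 := by field_simp
          nlinarith
    _ = 2 * (t2 - t1) * g := by
        rw [Finset.sum_const, Finset.card_range, nsmul_eq_mul]
        push_cast
        field_simp

omit hT hTu in
/-- pointwise bound of the squared difference of the jumps -/
lemma jump_ae (hθ0 : 0 ≤ θ) (hθ1 : θ < 1) (k : ℕ) (t1 t2 ρ : ℝ) (v w : V) (hρ0 : 0 ≤ ρ)
    (hρ : k = 0 → t2 ≤ ρ) (hρ' : 1 ≤ k → 1 ≤ ρ) :
    ∀ᵐ q ∂(relP (QM μ T)), dif (jf G θ μ T k t1 t2 v w) q ^ 2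
      ≤ 32 * ρ ^ 2 * (coI t1 t2 (q.1.1 (k, w)) * gw G θ μ T k v w (q.1.1 (k, w)) q) := by
  filter_upwards [relP_obs_left (μ := μ) (T := T) ((k, w) : Site V),
    relP_obs_right (μ := μ) (T := T) ((k, w) : Site V)] with q h1 h2
  unfold dif jf
  simp only
  rw [JT_eq, JT_eq, cl_of_abs_le h1.1, cl_of_abs_le h2.1]
  by_cases hu : t1 ≤ (q.1.1 (k, w) : ℝ) ∧ (q.1.1 (k, w) : ℝ) < t2
  · have hc1 : coI t1 t2 (q.1.1 (k, w)) = 1 := by unfold coI; rw [if_pos hu]
    rw [hc1, one_mul, one_mul, one_mul]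
    set i : Site V := (k, w) with hi
    have hci := abs_cs_le q.1.1 i
    have hM := abs_MT_le (μ := μ) (T := T) q.1.1 k (q.1.1 i) w q.2.1
    have hM' := abs_MT_le (μ := μ) (T := T) q.1.1 k (q.1.1 i) w q.2.2
    have hC' := (CT_mem (G := G) (μ := μ) (T := T) hθ0 hθ1 q.1.1 k (q.1.1 i) v w q.2.2).1
    have hqq : |q.2.1 i - q.2.2 i| ≤ |cs q.1.1 i| * |MT μ T q.1.1 k (q.1.1 i) w q.2.1
        - MT μ T q.1.1 k (q.1.1 i) w q.2.2| := by
      have h1' := h1.2
      have h2' := h2.2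
      rw [h1', h2']
      have b : ∀ M : ℝ, |M| ≤ 1 → |cs q.1.1 i * M| ≤ 1 / 2 := by
        intro M hM
        rw [abs_mul]
        calc |cs q.1.1 i| * |M| ≤ 1 / 2 * 1 := mul_le_mul hci hM (abs_nonneg _) (by norm_num)
          _ = 1 / 2 := by norm_num
      have h3 := Qc_lip (ε := 1 / 2) (by norm_num) (b _ hM) (b _ hM')
        (q.1.2 i).2.1 (q.1.2 i).2.2 (q.1.2 i).2.1 (q.1.2 i).2.2
      rw [sub_self, abs_zero, zero_add, ← mul_sub, abs_mul] at h3
      refine h3.trans (le_of_eq ?_)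
      ring
    have hcs : cs q.1.1 i ^ 2 ≤ ρ ^ 2 := by
      obtain ⟨s1, s2⟩ := str_bounds k (q.1.1 i)
      have hcle : cs q.1.1 i ≤ ρ := by
        show str k (q.1.1 i) ≤ ρ
        rcases Nat.eq_zero_or_pos k with hk | hk
        · have hρk := hρ hk
          unfold str
          split_ifs
          · have := hu.2
            have := (q.1.1 i).2.1
            linarith
          · exact hρ0
        · have := hρ' hk
          linarith
      have h0 : 0 ≤ cs q.1.1 i := s1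
      nlinarith
    have hj := jump_lip (C := CT G θ μ T q.1.1 k (q.1.1 i) v w q.2.1) hci hM hM' hC' h1.1 h2.1 hqq
    have hgw := gw_nonneg (G := G) (θ := θ) (μ := μ) (T := T) k v w (q.1.1 i) q
    have e3 : (CT G θ μ T q.1.1 k (q.1.1 i) v w q.2.1
        - CT G θ μ T q.1.1 k (q.1.1 i) v w q.2.2) ^ 2
        + CT G θ μ T q.1.1 k (q.1.1 i) v w q.2.2 ^ 2 * (MT μ T q.1.1 k (q.1.1 i) w q.2.1
          - MT μ T q.1.1 k (q.1.1 i) w q.2.2) ^ 2 = gw G θ μ T k v w (q.1.1 i) q := rfl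
    rw [e3] at hj
    calc (JK G θ μ T v i q.1.1 q.2.1 (q.2.1 i) - JK G θ μ T v i q.1.1 q.2.2 (q.2.2 i)) ^ 2
        ≤ 32 * cs q.1.1 i ^ 2 * gw G θ μ T k v w (q.1.1 i) q := hj
      _ ≤ 32 * ρ ^ 2 * gw G θ μ T k v w (q.1.1 i) q := by
          apply mul_le_mul_of_nonneg_right _ hgw
          linarith
  · have hc1 : coI t1 t2 (q.1.1 (k, w)) = 0 := by unfold coI; rw [if_neg hu]
    rw [hc1]
    simp

/-- bound of finitely many local energies by `gE` -/
lemma gw_sum_le {d : ℕ} (hreg : ∀ v, G.degree v = d) (hd : 1 ≤ d) (hG : G.IsTree)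
    (hθ0 : 0 ≤ θ) (hθ1 : θ < 1) (hflip : μ.map (fun σ : V → ℤˣ => fun v => - σ v) = μ)
    (hμ : EdgeFactor G θ μ) (k : ℕ) (v : V) (s : ℝ) (B : Finset V) {g : ℝ} (hg0 : 0 ≤ g)
    (hg : gE G θ μ T k s v ≤ ENNReal.ofReal g) :
    ∑ w ∈ B, ∫ q, gw G θ μ T k v w s q ∂(relP (QM μ T)) ≤ g := by
  have hmag := MT_eq_mag_relP (G := G) (μ := μ) (T := T) hreg hd hG hθ0 hθ1 hflip hμ hT hTu k s
  have h1 : ∀ w, ENNReal.ofReal (∫ q, gw G θ μ T k v w s q ∂(relP (QM μ T)))
      = ∫⁻ ω, ENNReal.ofReal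
    ((Cv G θ (cavT G μ T ω.1.1 k s ω.2.1) v w - Cv G θ (cavT G μ T ω.1.1 k s ω.2.2) v w) ^ 2
      + Cv G θ (cavT G μ T ω.1.1 k s ω.2.2) v w ^ 2
        * (mag G θ (cavT G μ T ω.1.1 k s ω.2.1) w
          - mag G θ (cavT G μ T ω.1.1 k s ω.2.2) w) ^ 2) ∂(relP (QM μ T)) := by
    intro w
    rw [ofReal_integral_eq_lintegral_ofReal
      ((nice_gw (G := G) (μ := μ) (T := T) hθ0 hθ1 k v w s).integrable _)
      (Eventually.of_forall (fun q => gw_nonneg k v w s q))]
    apply lintegral_congr_ae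
    filter_upwards [hmag] with q hq
    unfold gw cf mf CT
    simp only
    rw [(hq w).1, (hq w).2]
  have h2 : ENNReal.ofReal (∑ w ∈ B, ∫ q, gw G θ μ T k v w s q ∂(relP (QM μ T)))
      ≤ ENNReal.ofReal g := by
    rw [ENNReal.ofReal_sum_of_nonneg (fun w _ => integral_nonneg (fun q => gw_nonneg k v w s q))]
    simp only [h1]
    refine le_trans ?_ hg
    unfold gE
    exact ENNReal.sum_le_tsum B
  exact (ENNReal.ofReal_le_ofReal_iff hg0).mp h2

/-- the evolution inequality -/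
theorem evineq {d : ℕ} (hreg : ∀ v, G.degree v = d) (hd : 3 ≤ d) (hG : G.IsTree)
    (hθ0 : 0 < θ) (hθ1 : θ < 1) (hcrit : ((d : ℝ) - 1) * θ ^ 2 = 1)
    (hflip : μ.map (fun σ : V → ℤˣ => fun v => - σ v) = μ)
    (hμ : EdgeFactor G θ μ) {o : V} (hTb : ∀ n x, x ∈ T n ↔ G.dist o x ≤ n) :
    EVineq G θ μ T 64 where
  nonneg := by norm_num
  mono := fun k v t1 t2 h0 h01 h12 h2 =>
    (energy (G := G) (μ := μ) hT hTu hreg hd hG hθ0 hθ1 hcrit hflip hμ hTb k v h0 h01 h12 h2).1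
  ineq := by
    intro k v t1 t2 ρ g h0 h01 h12 h2 hρ0 hρ hρ' hg0 hg
    rcases h12.eq_or_lt with heq | hlt
    · subst heq
      simp
    · apply (energy (G := G) (μ := μ) hT hTu hreg hd hG hθ0 hθ1 hcrit hflip hμ hTb k v h0 h01
        h12 h2).2
      · have : 0 ≤ t2 - t1 := by linarith
        positivity
      · intro B
        have hb := palm_bound (G := G) (μ := μ) hT hTu hreg (by omega) hG hθ0.le hθ1 hflip hμ k v
          h0 hlt h2 B (g := g) (fun s hs1 hs2 =>
            gw_sum_le (G := G) (μ := μ) hT hTu hreg (by omega) hG hθ0.le hθ1 hflip hμ k v s B hg0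
              (hg s hs1 hs2))
        have hterm : ∀ w ∈ B, ∫ q, dif (jf G θ μ T k t1 t2 v w) q ^ 2 ∂(relP (QM μ T))
            ≤ 32 * ρ ^ 2 * ∫ q, coI t1 t2 (q.1.1 (k, w))
              * gw G θ μ T k v w (q.1.1 (k, w)) q ∂(relP (QM μ T)) := by
          intro w _
          rw [← integral_const_mul]
          have ml : Measurable (fun q : Om V × ((Site V → ℝ) × (Site V → ℝ)) =>
              ((q.1.1 (k, w) : unitInterval) : ℝ)) :=
            measurable_subtype_coe.comp ((measurable_pi_apply (k, w)).comp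
              (measurable_fst.comp measurable_fst))
          have nc : Nice (fun q : Om V × ((Site V → ℝ) × (Site V → ℝ)) =>
              coI t1 t2 (q.1.1 (k, w))) :=
            (nice_coI _ _).comp ((measurable_pi_apply (k, w)).comp
              (measurable_fst.comp measurable_fst))
          apply integral_mono_ae
          · exact ((nice_dif (nice_jf (G := G) (μ := μ) (T := T) hθ0.le hθ1 k t1 t2 v w)).pow
              2).integrable _
          · exact ((Nice.const _).mul (nc.mul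
              (nice_gw_at (G := G) (μ := μ) (T := T) hθ0.le hθ1 k v w ml))).integrable _
          · exact jump_ae (G := G) (μ := μ) (T := T) hθ0.le hθ1 k t1 t2 ρ v w hρ0 hρ hρ'
        calc ∑ w ∈ B, ∫ q, dif (jf G θ μ T k t1 t2 v w) q ^ 2 ∂(relP (QM μ T))
            ≤ ∑ w ∈ B, 32 * ρ ^ 2 * ∫ q, coI t1 t2 (q.1.1 (k, w))
              * gw G θ μ T k v w (q.1.1 (k, w)) q ∂(relP (QM μ T)) := Finset.sum_le_sum hterm
          _ = 32 * ρ ^ 2 * ∑ w ∈ B, ∫ q, coI t1 t2 (q.1.1 (k, w))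
              * gw G θ μ T k v w (q.1.1 (k, w)) q ∂(relP (QM μ T)) := by
              rw [Finset.mul_sum]
          _ ≤ 32 * ρ ^ 2 * (2 * (t2 - t1) * g) := mul_le_mul_of_nonneg_left hb (by positivity)
          _ = 64 * ρ ^ 2 * (t2 - t1) * g := by ring

end Vale.Agent.P161c
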