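import Vale.Agent.P161c.TreeAlg
import Vale.Agent.P161c.Real

/-!
Finite-volume posterior magnetizations of the free Ising measure given own magnetizations
(side information) `a w` at the vertices `w` of a finite set `F`.
-/

namespace Vale.Agent.P161c

open MeasureTheory SimpleGraph Vale.Agent.H13.P161

/-- clipping to `[-α, α]` -/
noncomputable def clip (α x : ℝ) : ℝ := max (-α) (min α x)

lemma abs_clip_le {α : ℝ} (hα : 0 ≤ α) (x : ℝ) : |clip α x| ≤ α := by
  unfold clip
  rw [abs_le]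
  exact ⟨le_max_left _ _, max_le (by linarith) (min_le_left _ _)⟩

lemma clip_of_abs_le {α x : ℝ} (h : |x| ≤ α) : clip α x = x := by
  unfold clip
  rw [abs_le] at h
  rw [min_eq_right h.2, max_eq_right h.1]

lemma clip_neg {α : ℝ} (hα : 0 ≤ α) (x : ℝ) : clip α (-x) = - clip α x := by
  unfold clip
  rcases le_total x α with h1 | h1
  · rcases le_total (-α) x with h2 | h2
    · rw [min_eq_right h1, max_eq_right h2, min_eq_right (by linarith), max_eq_right (by linarith)]
    · rw [min_eq_right h1, max_eq_left h2, min_eq_left (by linarith), max_eq_right (by linarith)]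
      ring
  · rw [min_eq_left h1, max_eq_right (by linarith : -α ≤ α), min_eq_right (by linarith),
      max_eq_left (by linarith)]

lemma measurable_clip (α : ℝ) : Measurable (clip α) := by
  unfold clip; fun_prop

/-- bound for the clipping without sign assumption -/
lemma abs_clip_le_abs (α x : ℝ) : |clip α x| ≤ |α| := by
  rcases le_total 0 α with h | h
  · rw [abs_of_nonneg h]
    exact abs_clip_le h x
  · unfold clip
    rw [max_eq_left ((min_le_left _ _).trans (by linarith)), abs_neg]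

variable {V : Type*} {G : SimpleGraph V}

/-- likelihood of the side information on `F` -/
noncomputable def wgt (α : ℝ) (F : Finset V) (a : V → ℝ) (σ : V → ℤˣ) : ℝ :=
  ∏ w ∈ F, (1 + clip α (a w) * spinVal (σ w))

/-- normalization -/
noncomputable def Zp (μ : Measure (V → ℤˣ)) (α : ℝ) (F : Finset V) (a : V → ℝ) : ℝ :=
  ∫ σ, wgt α F a σ ∂μ

/-- posterior magnetization at `v` -/
noncomputable def post (μ : Measure (V → ℤˣ)) (α : ℝ) (v : V) (F : Finset V) (a : V → ℝ) : ℝ :=
  (∫ σ, wgt α F a σ * spinVal (σ v) ∂μ) / Zp μ α F a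

/-- posterior two-point function -/
noncomputable def corr (μ : Measure (V → ℤˣ)) (α : ℝ) (v w : V) (F : Finset V) (a : V → ℝ) : ℝ :=
  (∫ σ, wgt α F a σ * (spinVal (σ v) * spinVal (σ w)) ∂μ) / Zp μ α F a

open Classical in
/-- the part of `F` in the branch of `c` away from `p` -/
noncomputable def inBr (G : SimpleGraph V) (c p : V) (F : Finset V) : Finset V :=
  F.filter (fun w => G.dist w c < G.dist w p)

/-- finite-volume cavity magnetizations -/
noncomputable def cavF (G : SimpleGraph V) (μ : Measure (V → ℤˣ)) (α : ℝ) (F : Finset V)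
    (a : V → ℝ) (c p : V) : ℝ := post μ α c (inBr G c p F) a

lemma spinVal_one' : spinVal 1 = 1 := by simp [spinVal]

lemma spinVal_neg_one' : spinVal (-1) = -1 := by simp [spinVal]

lemma spinVal_neg' (s : ℤˣ) : spinVal (-s) = - spinVal s := by simp [spinVal]

lemma mem_inBr {c p w : V} {F : Finset V} :
    w ∈ inBr G c p F ↔ w ∈ F ∧ G.dist w c < G.dist w p := by
  classical
  unfold inBr
  rw [Finset.mem_filter]

lemma self_side {c p : V} (h : G.Adj c p) : G.dist c c < G.dist c p := by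
  have : G.dist c p = 1 := dist_eq_one_iff_adj.mpr h
  simp [this]

lemma wgt_congr {α : ℝ} {F : Finset V} {a a' : V → ℝ} (h : ∀ w ∈ F, a w = a' w) (σ : V → ℤˣ) :
    wgt α F a σ = wgt α F a' σ := by
  unfold wgt
  apply Finset.prod_congr rfl
  intro w hw
  rw [h w hw]

lemma wgt_congr_spin {α : ℝ} {F : Finset V} {a : V → ℝ} {σ σ' : V → ℤˣ}
    (h : ∀ w ∈ F, σ w = σ' w) : wgt α F a σ = wgt α F a σ' := by
  unfold wgt
  apply Finset.prod_congr rfl
  intro w hw
  rw [h w hw]

lemma wgt_erase [DecidableEq V] {α : ℝ} {F : Finset V} {w : V} (hw : w ∈ F) (a : V → ℝ)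
    (σ : V → ℤˣ) :
    wgt α F a σ = (1 + clip α (a w) * spinVal (σ w)) * wgt α (F.erase w) a σ := by
  unfold wgt
  exact (Finset.mul_prod_erase F _ hw).symm

lemma wgt_edge (hG : G.IsTree) {c p : V} (h : G.Adj c p) {α : ℝ} (F : Finset V) (a : V → ℝ)
    (σ : V → ℤˣ) :
    wgt α F a σ = wgt α (inBr G c p F) a σ * wgt α (inBr G p c F) a σ := by
  classical
  have e : inBr G p c F = F.filter (fun w => ¬ G.dist w c < G.dist w p) := by
    ext w
    rw [mem_inBr, Finset.mem_filter]
    have := hG.dist_ne_of_adj w h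
    constructor
    · rintro ⟨h1, h2⟩; exact ⟨h1, by omega⟩
    · rintro ⟨h1, h2⟩; exact ⟨h1, by omega⟩
  have e' : inBr G c p F = F.filter (fun w => G.dist w c < G.dist w p) := by
    ext w
    rw [mem_inBr, Finset.mem_filter]
  rw [e, e']
  unfold wgt
  exact (Finset.prod_filter_mul_prod_filter_not F _ _).symm

lemma site_ge {α : ℝ} (hα0 : 0 ≤ α) (x : ℝ) (s : ℤˣ) :
    1 - α ≤ 1 + clip α x * spinVal s := by
  have h : |clip α x * spinVal s| ≤ α := by
    rw [abs_mul, abs_spinVal, mul_one]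
    exact abs_clip_le hα0 x
  linarith [neg_le_of_abs_le h]

lemma site_pos {α : ℝ} (hα0 : 0 ≤ α) (hα1 : α < 1) (x : ℝ) (s : ℤˣ) :
    0 < 1 + clip α x * spinVal s := by
  linarith [site_ge hα0 x s]

lemma wgt_ge {α : ℝ} (hα0 : 0 ≤ α) (hα1 : α < 1) (F : Finset V) (a : V → ℝ) (σ : V → ℤˣ) :
    (1 - α) ^ F.card ≤ wgt α F a σ := by
  unfold wgt
  rw [← Finset.prod_const]
  apply Finset.prod_le_prod
  · intro i _; linarith
  · intro i _; exact site_ge hα0 _ _

section

variable {μ : Measure (V → ℤˣ)} [IsProbabilityMeasure μ] {α : ℝ}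

lemma nice_wgt_joint (F : Finset V) :
    Nice (fun x : (V → ℝ) × (V → ℤˣ) => wgt α F x.1 x.2) := by
  unfold wgt
  apply Nice.prod
  intro j _
  apply (Nice.const 1).add
  have h1 : Nice (fun x : (V → ℝ) × (V → ℤˣ) => clip α (x.1 j)) :=
    ⟨(measurable_clip α).comp ((measurable_pi_apply j).comp measurable_fst), |α|,
      fun p => abs_clip_le_abs α _⟩
  exact h1.mul ((nice_spin j).comp measurable_snd)

lemma nice_wgt (F : Finset V) (a : V → ℝ) : Nice (wgt α F a) := by
  unfold wgt
  exact Nice.prod F (fun j _ => nice_site (fun s => 1 + clip α (a j) * spinVal s) j)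

lemma wgt_pos (hα0 : 0 ≤ α) (hα1 : α < 1) (F : Finset V) (a : V → ℝ) (σ : V → ℤˣ) :
    0 < wgt α F a σ := by
  exact Finset.prod_pos (fun w _ => site_pos hα0 hα1 _ _)

lemma Zp_pos (hα0 : 0 ≤ α) (hα1 : α < 1) (F : Finset V) (a : V → ℝ) : 0 < Zp μ α F a := by
  have h1 : (1 - α) ^ F.card ≤ Zp μ α F a := by
    have : ∫ _σ : V → ℤˣ, (1 - α) ^ F.card ∂μ ≤ Zp μ α F a :=
      (Nice.const _).integral_mono' (nice_wgt F a) μ (fun σ => wgt_ge hα0 hα1 F a σ)
    simpa using this
  exact lt_of_lt_of_le (pow_pos (by linarith) _) h1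

lemma abs_num_le (hα0 : 0 ≤ α) (hα1 : α < 1) (v : V) (F : Finset V) (a : V → ℝ) :
    |∫ σ, wgt α F a σ * spinVal (σ v) ∂μ| ≤ Zp μ α F a := by
  calc |∫ σ, wgt α F a σ * spinVal (σ v) ∂μ|
      ≤ ∫ σ, |wgt α F a σ * spinVal (σ v)| ∂μ := abs_integral_le_integral_abs
    _ = ∫ σ, wgt α F a σ ∂μ := by
      congr 1
      ext σ
      rw [abs_mul, abs_spinVal, mul_one, abs_of_pos (wgt_pos hα0 hα1 F a σ)]

lemma den_pos (hα0 : 0 ≤ α) (hα1 : α < 1) (w : V) (F : Finset V) (a : V → ℝ) {z : ℝ}
    (hz : |z| < 1) : 0 < Zp μ α F a + z * ∫ σ, wgt α F a σ * spinVal (σ w) ∂μ := by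
  have hZ := Zp_pos (μ := μ) hα0 hα1 F a
  have h1 : |z * ∫ σ, wgt α F a σ * spinVal (σ w) ∂μ| < Zp μ α F a := by
    rw [abs_mul]
    calc |z| * |∫ σ, wgt α F a σ * spinVal (σ w) ∂μ| ≤ |z| * Zp μ α F a :=
          mul_le_mul_of_nonneg_left (abs_num_le hα0 hα1 w F a) (abs_nonneg _)
      _ < 1 * Zp μ α F a := mul_lt_mul_of_pos_right hz hZ
      _ = Zp μ α F a := one_mul _
  linarith [neg_lt_of_abs_lt h1]

lemma abs_post_le (hα0 : 0 ≤ α) (hα1 : α < 1) (v : V) (F : Finset V) (a : V → ℝ) :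
    |post μ α v F a| ≤ 1 := by
  unfold post
  rw [abs_div, abs_of_pos (Zp_pos hα0 hα1 F a), div_le_one (Zp_pos hα0 hα1 F a)]
  exact abs_num_le hα0 hα1 v F a

lemma measurable_post (v : V) (F : Finset V) : Measurable (post μ α v F) := by
  have h1 : Nice (fun x : (V → ℝ) × (V → ℤˣ) => wgt α F x.1 x.2 * spinVal (x.2 v)) :=
    (nice_wgt_joint F).mul ((nice_spin v).comp measurable_snd)
  exact (h1.integral_right μ).1.div ((nice_wgt_joint F).integral_right μ).1

lemma measurable_corr (v w : V) (F : Finset V) : Measurable (corr μ α v w F) := by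
  have h1 : Nice (fun x : (V → ℝ) × (V → ℤˣ) =>
      wgt α F x.1 x.2 * (spinVal (x.2 v) * spinVal (x.2 w))) :=
    (nice_wgt_joint F).mul (((nice_spin v).mul (nice_spin w)).comp measurable_snd)
  exact (h1.integral_right μ).1.div ((nice_wgt_joint F).integral_right μ).1

lemma abs_corr_le (hα0 : 0 ≤ α) (hα1 : α < 1) (v w : V) (F : Finset V) (a : V → ℝ) :
    |corr μ α v w F a| ≤ 1 := by
  unfold corr
  rw [abs_div, abs_of_pos (Zp_pos hα0 hα1 F a), div_le_one (Zp_pos hα0 hα1 F a)]
  calc |∫ σ, wgt α F a σ * (spinVal (σ v) * spinVal (σ w)) ∂μ|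
      ≤ ∫ σ, |wgt α F a σ * (spinVal (σ v) * spinVal (σ w))| ∂μ := abs_integral_le_integral_abs
    _ = ∫ σ, wgt α F a σ ∂μ := by
      congr 1
      ext σ
      rw [abs_mul, abs_mul, abs_spinVal, abs_spinVal, mul_one, mul_one,
        abs_of_pos (wgt_pos hα0 hα1 F a σ)]

lemma post_congr (v : V) {F : Finset V} {a a' : V → ℝ} (h : ∀ w ∈ F, a w = a' w) :
    post μ α v F a = post μ α v F a' := by
  unfold post Zp
  simp only [wgt_congr (α := α) h]

lemma corr_congr (v w : V) {F : Finset V} {a a' : V → ℝ} (h : ∀ w ∈ F, a w = a' w) :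
    corr μ α v w F a = corr μ α v w F a' := by
  unfold corr Zp
  simp only [wgt_congr (α := α) h]

/-- side information equal to zero can be dropped -/
lemma post_drop (hα0 : 0 ≤ α) (v : V) {F F' : Finset V} (hF : F ⊆ F') {a : V → ℝ}
    (h : ∀ w ∈ F', w ∉ F → a w = 0) : post μ α v F' a = post μ α v F a := by
  have e : ∀ σ : V → ℤˣ, wgt α F' a σ = wgt α F a σ := by
    intro σ
    unfold wgt
    rw [← Finset.prod_subset hF]
    intro w hw hwF
    rw [h w hw hwF, clip_of_abs_le (by simpa using hα0)]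
    ring
  unfold post Zp
  simp only [e]

/-- flip symmetry -/
lemma post_neg (hα0 : 0 ≤ α)
    (hflip : μ.map (fun σ : V → ℤˣ => fun v => - σ v) = μ) (v : V) (F : Finset V) (a : V → ℝ) :
    post μ α v F (fun w => - a w) = - post μ α v F a := by
  have mneg : Measurable (fun σ : V → ℤˣ => fun v => - σ v) := by
    rw [measurable_pi_iff]
    intro v
    exact (measurable_of_finite (fun s : ℤˣ => -s)).comp (measurable_pi_apply v)
  have e : ∀ σ : V → ℤˣ, wgt α F (fun w => - a w) (fun v => - σ v) = wgt α F a σ := by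
    intro σ
    unfold wgt
    apply Finset.prod_congr rfl
    intro w _
    rw [clip_neg hα0, spinVal_neg']
    ring
  have e1 : ∫ σ, wgt α F (fun w => - a w) σ * spinVal (σ v) ∂μ
      = - ∫ σ, wgt α F a σ * spinVal (σ v) ∂μ := by
    have h1 : ∫ σ, wgt α F (fun w => - a w) σ * spinVal (σ v) ∂μ
        = ∫ σ, wgt α F (fun w => - a w) σ * spinVal (σ v)
            ∂(μ.map (fun σ : V → ℤˣ => fun v => - σ v)) := by rw [hflip]
    rw [h1, integral_map mneg.aemeasurable
      ((nice_wgt F _).mul (nice_spin v)).1.aestronglyMeasurable, ← integral_neg]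
    congr 1
    ext σ
    rw [e, spinVal_neg']
    ring
  have e2 : ∫ σ, wgt α F (fun w => - a w) σ ∂μ = ∫ σ, wgt α F a σ ∂μ := by
    have h1 : ∫ σ, wgt α F (fun w => - a w) σ ∂μ
        = ∫ σ, wgt α F (fun w => - a w) σ
            ∂(μ.map (fun σ : V → ℤˣ => fun v => - σ v)) := by rw [hflip]
    rw [h1, integral_map mneg.aemeasurable (nice_wgt F _).1.aestronglyMeasurable]
    simp only [e]
  unfold post Zp
  rw [e1, e2, neg_div]

lemma one_add_pos (hα0 : 0 ≤ α) (hα1 : α < 1) (w : V) (F : Finset V) (a : V → ℝ) {z : ℝ}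
    (hz : |z| < 1) : 0 < 1 + z * post μ α w F a := by
  have h1 : |z * post μ α w F a| < 1 := by
    rw [abs_mul]
    calc |z| * |post μ α w F a| ≤ |z| * 1 :=
          mul_le_mul_of_nonneg_left (abs_post_le hα0 hα1 w F a) (abs_nonneg _)
      _ < 1 := by linarith
  linarith [neg_lt_of_abs_lt h1]

/-- Bayes update: one more observation with value `z` at the vertex `w`, i.e. the own
magnetization `a w` is replaced by `comb (a w) z`.
(`(1 + a σ)(1 + z σ) = (1 + a z)(1 + comb a z σ)`.) -/
lemma post_update [DecidableEq V] (hα0 : 0 ≤ α) (hα1 : α < 1) (v w : V) {F : Finset V}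
    (hw : w ∈ F) (a : V → ℝ) (z : ℝ) (hz : |z| < 1) (ha : |a w| ≤ α) (haz : |comb (a w) z| ≤ α) :
    post μ α v F (Function.update a w (comb (a w) z))
      = (post μ α v F a + z * corr μ α v w F a) / (1 + z * post μ α w F a) := by
  set z' := comb (a w) z with hz'
  have ha1 : |a w| < 1 := lt_of_le_of_lt ha hα1
  have haz1 : 0 < 1 + a w * z := by
    have : |a w * z| < 1 := by
      rw [abs_mul]
      calc |a w| * |z| ≤ |a w| * 1 := mul_le_mul_of_nonneg_left hz.le (abs_nonneg _)
        _ < 1 := by linarith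
    linarith [neg_lt_of_abs_lt this]
  have key : ∀ σ : V → ℤˣ, wgt α F (Function.update a w z') σ
      = (wgt α F a σ + z * (wgt α F a σ * spinVal (σ w))) / (1 + a w * z) := by
    intro σ
    have h1 : wgt α F (Function.update a w z') σ
        = (1 + z' * spinVal (σ w)) * wgt α (F.erase w) a σ := by
      rw [wgt_erase hw, Function.update_self, clip_of_abs_le haz,
        wgt_congr (a := Function.update a w z') (a' := a)
          (fun x hx => Function.update_of_ne (Finset.ne_of_mem_erase hx) _ _)]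
    have h2 : wgt α F a σ = (1 + a w * spinVal (σ w)) * wgt α (F.erase w) a σ := by
      rw [wgt_erase hw, clip_of_abs_le ha]
    rw [h1, h2, eq_div_iff haz1.ne', hz']
    have h3 := spinVal_mul_self (σ w)
    have h4 : comb (a w) z * (1 + a w * z) = a w + z := by
      unfold comb
      exact div_mul_cancel₀ _ haz1.ne'
    linear_combination (wgt α (F.erase w) a σ * spinVal (σ w)) * h4
      - (z * a w * wgt α (F.erase w) a σ) * h3
  have nW := nice_wgt (α := α) F a
  have hZ : Zp μ α F (Function.update a w z')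
      = (Zp μ α F a + z * ∫ σ, wgt α F a σ * spinVal (σ w) ∂μ) / (1 + a w * z) := by
    unfold Zp
    simp only [key]
    rw [integral_div, nW.integral_add' ((Nice.const z).mul (nW.mul (nice_spin w))),
      integral_const_mul]
  have hN : ∫ σ, wgt α F (Function.update a w z') σ * spinVal (σ v) ∂μ
      = ((∫ σ, wgt α F a σ * spinVal (σ v) ∂μ)
          + z * ∫ σ, wgt α F a σ * (spinVal (σ v) * spinVal (σ w)) ∂μ) / (1 + a w * z) := by
    have e : ∀ σ : V → ℤˣ, wgt α F (Function.update a w z') σ * spinVal (σ v)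
        = (wgt α F a σ * spinVal (σ v)
            + z * (wgt α F a σ * (spinVal (σ v) * spinVal (σ w)))) / (1 + a w * z) := by
      intro σ
      rw [key]
      ring
    simp only [e]
    rw [integral_div, (nW.mul (nice_spin v)).integral_add'
      ((Nice.const z).mul (nW.mul ((nice_spin v).mul (nice_spin w)))), integral_const_mul]
  have hZ0 := Zp_pos (μ := μ) hα0 hα1 F a
  have hden : 0 < Zp μ α F a + z * ∫ σ, wgt α F a σ * spinVal (σ w) ∂μ :=
    den_pos hα0 hα1 w F a hz
  unfold post corr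
  rw [hZ, hN, div_div_div_cancel_right₀ haz1.ne']
  set Z := Zp μ α F a
  set N := ∫ σ, wgt α F a σ * spinVal (σ v) ∂μ
  set K := ∫ σ, wgt α F a σ * (spinVal (σ v) * spinVal (σ w)) ∂μ
  set M := ∫ σ, wgt α F a σ * spinVal (σ w) ∂μ
  have h1 : N / Z + z * (K / Z) = (N + z * K) / Z := by ring
  have h2 : 1 + z * (M / Z) = (Z + z * M) / Z := by
    field_simp
  rw [h1, h2, div_div_div_cancel_right₀ hZ0.ne']

/-- the same in terms of the covariance -/
lemma post_update_sub [DecidableEq V] (hα0 : 0 ≤ α) (hα1 : α < 1) (v w : V) {F : Finset V}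
    (hw : w ∈ F) (a : V → ℝ) (z : ℝ) (hz : |z| < 1) (ha : |a w| ≤ α) (haz : |comb (a w) z| ≤ α) :
    post μ α v F (Function.update a w (comb (a w) z)) - post μ α v F a
      = z * (corr μ α v w F a - post μ α v F a * post μ α w F a)
          / (1 + z * post μ α w F a) := by
  rw [post_update hα0 hα1 v w hw a z hz ha haz]
  have h1 : 0 < 1 + z * post μ α w F a := one_add_pos hα0 hα1 w F a hz
  rw [eq_div_iff h1.ne', sub_mul, div_mul_cancel₀ _ h1.ne']
  ring

variable {θ : ℝ}

omit [IsProbabilityMeasure μ] in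
/-- general form of the factorization across an edge -/
lemma edge_gen (hG : G.IsTree) (hμ : EdgeFactor G θ μ) {c p : V} (h : G.Adj c p) (F : Finset V)
    (a : V → ℝ) {f g : (V → ℤˣ) → ℝ} (hf : Nice f) (hg : Nice g)
    (hf' : ∀ σ σ' : V → ℤˣ, (∀ x, G.dist x c < G.dist x p → σ x = σ' x) → f σ = f σ')
    (hg' : ∀ σ σ' : V → ℤˣ, (∀ x, G.dist x p < G.dist x c → σ x = σ' x) → g σ = g σ') :
    ∫ σ, wgt α F a σ * (f σ * g σ) ∂μ
      = (∫ σ, wgt α (inBr G c p F) a σ * f σ ∂μ) * (∫ σ, wgt α (inBr G p c F) a σ * g σ ∂μ)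
        + θ * (∫ σ, wgt α (inBr G c p F) a σ * f σ * spinVal (σ c) ∂μ)
          * (∫ σ, wgt α (inBr G p c F) a σ * g σ * spinVal (σ p) ∂μ) := by
  rw [← hμ c p h (fun σ => wgt α (inBr G c p F) a σ * f σ)
    (fun σ => wgt α (inBr G p c F) a σ * g σ) ((nice_wgt _ a).mul hf) ((nice_wgt _ a).mul hg)
    (fun σ σ' hh => by
      rw [hf' σ σ' hh, wgt_congr_spin (fun w hw => hh w (mem_inBr.mp hw).2)])
    (fun σ σ' hh => by
      rw [hg' σ σ' hh, wgt_congr_spin (fun w hw => hh w (mem_inBr.mp hw).2)])]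
  congr 1
  ext σ
  rw [wgt_edge hG h F a σ]
  ring

omit [IsProbabilityMeasure μ] in
lemma edge_Z (hG : G.IsTree) (hμ : EdgeFactor G θ μ) {c p : V} (h : G.Adj c p) (F : Finset V)
    (a : V → ℝ) :
    ∫ σ, wgt α F a σ ∂μ
      = (∫ σ, wgt α (inBr G c p F) a σ ∂μ) * (∫ σ, wgt α (inBr G p c F) a σ ∂μ)
        + θ * (∫ σ, wgt α (inBr G c p F) a σ * spinVal (σ c) ∂μ)
          * (∫ σ, wgt α (inBr G p c F) a σ * spinVal (σ p) ∂μ) := by
  have := edge_gen (α := α) hG hμ h F a (f := fun _ => 1) (g := fun _ => 1)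
    (Nice.const 1) (Nice.const 1) (fun _ _ _ => rfl) (fun _ _ _ => rfl)
  simpa only [mul_one] using this

omit [IsProbabilityMeasure μ] in
lemma edge_Nc (hG : G.IsTree) (hμ : EdgeFactor G θ μ) {c p : V} (h : G.Adj c p) (F : Finset V)
    (a : V → ℝ) :
    ∫ σ, wgt α F a σ * spinVal (σ c) ∂μ
      = (∫ σ, wgt α (inBr G c p F) a σ * spinVal (σ c) ∂μ)
          * (∫ σ, wgt α (inBr G p c F) a σ ∂μ)
        + θ * (∫ σ, wgt α (inBr G c p F) a σ ∂μ)
          * (∫ σ, wgt α (inBr G p c F) a σ * spinVal (σ p) ∂μ) := by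
  have := edge_gen (α := α) hG hμ h F a (f := fun σ => spinVal (σ c)) (g := fun _ => 1)
    (nice_spin c) (Nice.const 1) (fun σ σ' hh => by rw [hh c (self_side h)]) (fun _ _ _ => rfl)
  simp only [mul_one] at this
  rw [this]
  have e : ∀ σ : V → ℤˣ, wgt α (inBr G c p F) a σ * spinVal (σ c) * spinVal (σ c)
      = wgt α (inBr G c p F) a σ := by
    intro σ; rw [mul_assoc, spinVal_mul_self, mul_one]
  simp only [e]

omit [IsProbabilityMeasure μ] in
/-- the weight of a branch factorizes over the children -/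
lemma wgt_inBr [LocallyFinite G] [DecidableEq V] (hG : G.IsTree) {c p : V} (h : G.Adj c p)
    (F : Finset V) (a : V → ℝ) (hc : c ∈ F) (σ : V → ℤˣ) :
    wgt α (inBr G c p F) a σ
      = (1 + clip α (a c) * spinVal (σ c))
        * ∏ g ∈ (G.neighborFinset c).erase p, wgt α (inBr G g c F) a σ := by
  have hset : inBr G c p F
      = insert c (((G.neighborFinset c).erase p).biUnion (fun g => inBr G g c F)) := by
    ext w
    rw [mem_inBr, Finset.mem_insert, Finset.mem_biUnion]
    constructor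
    · rintro ⟨hw, hd⟩
      by_cases hwc : w = c
      · exact Or.inl hwc
      · right
        obtain ⟨g, hg, hgd⟩ := exists_parent hG.connected hwc
        refine ⟨g, ?_, ?_⟩
        · rw [Finset.mem_erase, mem_neighborFinset]
          refine ⟨?_, hg⟩
          rintro rfl
          omega
        · rw [mem_inBr]
          exact ⟨hw, by omega⟩
    · rintro (rfl | ⟨g, hg, hw⟩)
      · exact ⟨hc, self_side h⟩
      · rw [Finset.mem_erase, mem_neighborFinset] at hg
        rw [mem_inBr] at hw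
        refine ⟨hw.1, ?_⟩
        have h1 := hG.dist_eq_dist_add_one_of_adj w hg.2
        have h2 := hG.dist_eq_dist_add_one_of_adj w h
        rcases h2 with h2 | h2
        · exfalso
          exact hg.1 (parent_unique hG hg.2 h (by omega) h2)
        · omega
  have hnot : c ∉ ((G.neighborFinset c).erase p).biUnion (fun g => inBr G g c F) := by
    rw [Finset.mem_biUnion]
    rintro ⟨g, hg, hw⟩
    rw [mem_inBr] at hw
    simp at hw
  have hdisj : ((((G.neighborFinset c).erase p : Finset V)) : Set V).PairwiseDisjoint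
      (fun g => inBr G g c F) := by
    intro g hg g' hg' hne
    rw [Finset.mem_coe, Finset.mem_erase, mem_neighborFinset] at hg hg'
    rw [Function.onFun, Finset.disjoint_left]
    intro w hw hw'
    rw [mem_inBr] at hw hw'
    have h1 := hG.dist_eq_dist_add_one_of_adj w hg.2
    have h2 := hG.dist_eq_dist_add_one_of_adj w hg'.2
    exact hne (parent_unique hG (u := w) hg.2 hg'.2 (by omega) (by omega))
  rw [hset]
  unfold wgt
  rw [Finset.prod_insert hnot, Finset.prod_biUnion hdisj]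

/-- integrals of functions that factorize over the branches at a vertex -/
lemma star_integral [DecidableEq V] (hG : G.IsTree)
    (hflip : μ.map (fun σ : V → ℤˣ => fun v => - σ v) = μ)
    (hμ : EdgeFactor G θ μ) {c : V} (S : Finset V) (hS : ∀ g ∈ S, G.Adj c g)
    (H : V → (V → ℤˣ) → ℝ) (hH : ∀ g, Nice (H g))
    (hdep : ∀ g ∈ S, ∀ σ σ' : V → ℤˣ, (∀ x, G.dist x g < G.dist x c → σ x = σ' x) →
      H g σ = H g σ') (f : ℤˣ → ℝ) :
    ∫ σ, f (σ c) * ∏ g ∈ S, H g σ ∂μ
      = 1 / 2 * (f 1 * ∏ g ∈ S, ((∫ σ, H g σ ∂μ) + θ * ∫ σ, H g σ * spinVal (σ g) ∂μ)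
        + f (-1) * ∏ g ∈ S, ((∫ σ, H g σ ∂μ) - θ * ∫ σ, H g σ * spinVal (σ g) ∂μ)) := by
  have hmean : ∫ σ, spinVal (σ c) ∂μ = 0 := by
    have mneg : Measurable (fun σ : V → ℤˣ => fun v => - σ v) := by
      rw [measurable_pi_iff]
      intro v
      exact (measurable_of_finite (fun s : ℤˣ => -s)).comp (measurable_pi_apply v)
    have h1 : ∫ σ, spinVal (σ c) ∂μ
        = ∫ σ, spinVal (σ c) ∂(μ.map (fun σ : V → ℤˣ => fun v => - σ v)) := by rw [hflip]
    rw [integral_map mneg.aemeasurable (nice_spin c).1.aestronglyMeasurable] at h1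
    simp only [spinVal_neg', integral_neg] at h1
    linarith
  have hf : ∀ (f : ℤˣ → ℝ) (s : ℤˣ), f s = (f 1 + f (-1)) / 2 + (f 1 - f (-1)) / 2 * spinVal s := by
    intro f s
    rcases Int.units_eq_one_or s with hs | hs
    · rw [hs, spinVal_one']; ring
    · rw [hs, spinVal_neg_one']; ring
  induction S using Finset.induction_on generalizing f with
  | empty =>
    simp only [Finset.prod_empty, mul_one]
    have e : ∀ σ : V → ℤˣ, f (σ c) = (f 1 + f (-1)) / 2 + (f 1 - f (-1)) / 2 * spinVal (σ c) :=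
      fun σ => hf f _
    simp only [e]
    rw [(Nice.const _).integral_add' ((Nice.const _).mul (nice_spin c)), integral_const_mul, hmean]
    simp
    ring
  | insert g S hg ih =>
    have hS' : ∀ x ∈ S, G.Adj c x := fun x hx => hS x (Finset.mem_insert_of_mem hx)
    have hdep' : ∀ x ∈ S, ∀ σ σ' : V → ℤˣ, (∀ y, G.dist y x < G.dist y c → σ y = σ' y) →
        H x σ = H x σ' := fun x hx => hdep x (Finset.mem_insert_of_mem hx)
    have hcg : G.Adj c g := hS g (Finset.mem_insert_self _ _)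
    have ih1 := ih hS' hdep' f
    have ih2 := ih hS' hdep' (fun s => f s * spinVal s)
    have nP : Nice (fun σ : V → ℤˣ => ∏ x ∈ S, H x σ) := Nice.prod S (fun x _ => hH x)
    have hfac := hμ c g hcg (fun σ => f (σ c) * ∏ x ∈ S, H x σ) (H g)
      ((nice_site f c).mul nP) (hH g)
      (fun σ σ' hh => by
        rw [hh c (self_side hcg)]
        congr 1
        apply Finset.prod_congr rfl
        intro x hx
        apply hdep' x hx
        intro y hy
        apply hh
        have h1 := hG.dist_eq_dist_add_one_of_adj y (hS' x hx)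
        have h2 := hG.dist_eq_dist_add_one_of_adj y hcg
        rcases h2 with h2 | h2
        · exfalso
          have := parent_unique hG (hS' x hx) hcg (by omega) h2
          exact hg (this ▸ hx)
        · omega)
      (hdep g (Finset.mem_insert_self _ _))
    have e1 : ∀ σ : V → ℤˣ, f (σ c) * ∏ x ∈ insert g S, H x σ
        = (f (σ c) * ∏ x ∈ S, H x σ) * H g σ := by
      intro σ
      rw [Finset.prod_insert hg]
      ring
    have e2 : ∀ σ : V → ℤˣ, (f (σ c) * ∏ x ∈ S, H x σ) * spinVal (σ c)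
        = (f (σ c) * spinVal (σ c)) * ∏ x ∈ S, H x σ := fun σ => by ring
    simp only [e1]
    rw [hfac]
    simp only [e2]
    rw [ih1, ih2, Finset.prod_insert hg, Finset.prod_insert hg, spinVal_one', spinVal_neg_one']
    ring

/-- the magnetization at `c` combines the two sides of the edge `c p` (by `EdgeFactor`; the
weight factorizes over the two sides, see the proof of `cov_bound` in `Cov.lean`) -/
lemma post_edge (hα0 : 0 ≤ α) (hα1 : α < 1) (hG : G.IsTree) (hθ0 : 0 ≤ θ) (hθ1 : θ < 1)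
    (hμ : EdgeFactor G θ μ) {c p : V} (h : G.Adj c p) (F : Finset V) (a : V → ℝ) :
    post μ α c F a = magE θ (cavF G μ α F a) c p := by
  classical
  set A := ∫ σ, wgt α (inBr G c p F) a σ ∂μ with hA
  set B := ∫ σ, wgt α (inBr G c p F) a σ * spinVal (σ c) ∂μ with hB
  set C := ∫ σ, wgt α (inBr G p c F) a σ ∂μ with hC
  set E := ∫ σ, wgt α (inBr G p c F) a σ * spinVal (σ p) ∂μ with hE
  have hApos : 0 < A := Zp_pos hα0 hα1 _ a
  have hCpos : 0 < C := Zp_pos hα0 hα1 _ a
  have f1 : ∫ σ, wgt α F a σ ∂μ = A * C + θ * B * E := edge_Z hG hμ h F a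
  have f2 : ∫ σ, wgt α F a σ * spinVal (σ c) ∂μ = B * C + θ * A * E := edge_Nc hG hμ h F a
  have hm1 : cavF G μ α F a c p = B / A := rfl
  have hm2 : cavF G μ α F a p c = E / C := rfl
  have hZ : 0 < A * C + θ * B * E := by rw [← f1]; exact Zp_pos hα0 hα1 F a
  unfold magE comb
  rw [hm1, hm2]
  unfold post Zp
  rw [f1, f2]
  have h1 : B / A + θ * (E / C) = (B * C + θ * A * E) / (A * C) := by
    field_simp
  have h2 : 1 + B / A * (θ * (E / C)) = (A * C + θ * B * E) / (A * C) := by
    field_simp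
  rw [h1, h2, div_div_div_cancel_right₀ (mul_pos hApos hCpos).ne']

/-- two-point function of an edge with factorization: for `v` on the side of `c`
(`v ∈ br G c p`), the covariance of `σ_v` and `σ_p` is the covariance of `σ_v` and `σ_c` computed
on the side of `c`, times the edge factor; this is the induction step for `corr_eq_Cv`. -/
lemma cov_step (hα0 : 0 ≤ α) (hα1 : α < 1) (hG : G.IsTree) (hθ0 : 0 ≤ θ) (hθ1 : θ < 1)
    (hμ : EdgeFactor G θ μ) {v c p : V} (h : G.Adj c p) (hv : v ∈ br G c p) (F : Finset V)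
    (a : V → ℝ) :
    corr μ α v p F a - post μ α v F a * post μ α p F a
      = (corr μ α v c F a - post μ α v F a * post μ α c F a)
        * (θ * phi θ (cavF G μ α F a p c)) := by
  classical
  set A := ∫ σ, wgt α (inBr G c p F) a σ ∂μ with hA
  set B := ∫ σ, wgt α (inBr G c p F) a σ * spinVal (σ c) ∂μ with hB
  set Av := ∫ σ, wgt α (inBr G c p F) a σ * spinVal (σ v) ∂μ with hAv
  set Bv := ∫ σ, wgt α (inBr G c p F) a σ * (spinVal (σ v) * spinVal (σ c)) ∂μ with hBv
  set C := ∫ σ, wgt α (inBr G p c F) a σ ∂μ with hC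
  set E := ∫ σ, wgt α (inBr G p c F) a σ * spinVal (σ p) ∂μ with hE
  have hApos : 0 < A := Zp_pos hα0 hα1 _ a
  have hCpos : 0 < C := Zp_pos hα0 hα1 _ a
  have hEC : |E| ≤ C := abs_num_le hα0 hα1 p _ a
  have f1 : ∫ σ, wgt α F a σ ∂μ = A * C + θ * B * E := edge_Z hG hμ h F a
  have f2 : ∫ σ, wgt α F a σ * spinVal (σ c) ∂μ = B * C + θ * A * E := edge_Nc hG hμ h F a
  have f3 : ∫ σ, wgt α F a σ * spinVal (σ p) ∂μ = A * E + θ * B * C := by
    have := edge_gen (α := α) hG hμ h F a (f := fun _ => 1) (g := fun σ => spinVal (σ p))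
      (Nice.const 1) (nice_spin p) (fun _ _ _ => rfl)
      (fun σ σ' hh => by rw [hh p (self_side h.symm)])
    simp only [one_mul, mul_one] at this
    rw [this]
    have e : ∀ σ : V → ℤˣ, wgt α (inBr G p c F) a σ * spinVal (σ p) * spinVal (σ p)
        = wgt α (inBr G p c F) a σ := by
      intro σ; rw [mul_assoc, spinVal_mul_self, mul_one]
    simp only [e]
    rfl
  have f4 : ∫ σ, wgt α F a σ * spinVal (σ v) ∂μ = Av * C + θ * Bv * E := by
    have := edge_gen (α := α) hG hμ h F a (f := fun σ => spinVal (σ v)) (g := fun _ => 1)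
      (nice_spin v) (Nice.const 1) (fun σ σ' hh => by rw [hh v hv]) (fun _ _ _ => rfl)
    simp only [mul_one] at this
    rw [this]
    simp only [mul_assoc]
    rfl
  have f5 : ∫ σ, wgt α F a σ * (spinVal (σ v) * spinVal (σ p)) ∂μ = Av * E + θ * Bv * C := by
    have := edge_gen (α := α) hG hμ h F a (f := fun σ => spinVal (σ v)) (g := fun σ => spinVal (σ p))
      (nice_spin v) (nice_spin p) (fun σ σ' hh => by rw [hh v hv])
      (fun σ σ' hh => by rw [hh p (self_side h.symm)])
    rw [this]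
    have e : ∀ σ : V → ℤˣ, wgt α (inBr G p c F) a σ * spinVal (σ p) * spinVal (σ p)
        = wgt α (inBr G p c F) a σ := by
      intro σ; rw [mul_assoc, spinVal_mul_self, mul_one]
    simp only [e]
    simp only [mul_assoc]
    rfl
  have f6 : ∫ σ, wgt α F a σ * (spinVal (σ v) * spinVal (σ c)) ∂μ = Bv * C + θ * Av * E := by
    have := edge_gen (α := α) hG hμ h F a (f := fun σ => spinVal (σ v) * spinVal (σ c)) (g := fun _ => 1)
      ((nice_spin v).mul (nice_spin c)) (Nice.const 1)
      (fun σ σ' hh => by rw [hh v hv, hh c (self_side h)]) (fun _ _ _ => rfl)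
    simp only [mul_one] at this
    rw [this]
    have e : ∀ σ : V → ℤˣ, wgt α (inBr G c p F) a σ * (spinVal (σ v) * spinVal (σ c))
        * spinVal (σ c) = wgt α (inBr G c p F) a σ * spinVal (σ v) := by
      intro σ
      have := spinVal_mul_self (σ c)
      linear_combination (wgt α (inBr G c p F) a σ * spinVal (σ v)) * this
    simp only [e]
    simp only [mul_assoc]
    rfl
  have hm2 : cavF G μ α F a p c = E / C := rfl
  have hZ : 0 < A * C + θ * B * E := by rw [← f1]; exact Zp_pos hα0 hα1 F a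
  have hE2 : E ^ 2 ≤ C ^ 2 := by
    rw [← sq_abs]; exact pow_le_pow_left₀ (abs_nonneg _) hEC 2
  have hden : 0 < C ^ 2 - θ ^ 2 * E ^ 2 := by
    have h1 : θ ^ 2 < 1 := by nlinarith
    have h2 : 0 < C ^ 2 := by positivity
    have h3 : θ ^ 2 * E ^ 2 ≤ θ ^ 2 * C ^ 2 := mul_le_mul_of_nonneg_left hE2 (sq_nonneg _)
    nlinarith
  unfold corr post phi
  unfold Zp
  rw [hm2, f1, f2, f3, f4, f5, f6]
  have hphi : (1 - (E / C) ^ 2) / (1 - θ ^ 2 * (E / C) ^ 2)
      = (C ^ 2 - E ^ 2) / (C ^ 2 - θ ^ 2 * E ^ 2) := by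
    have h1 : 1 - (E / C) ^ 2 = (C ^ 2 - E ^ 2) / C ^ 2 := by field_simp
    have h2 : 1 - θ ^ 2 * (E / C) ^ 2 = (C ^ 2 - θ ^ 2 * E ^ 2) / C ^ 2 := by field_simp
    rw [h1, h2, div_div_div_cancel_right₀ (pow_pos hCpos 2).ne']
  rw [hphi]
  have hZ' := hZ.ne'
  have hd' := hden.ne'
  have g1 : (Av * E + θ * Bv * C) / (A * C + θ * B * E)
      - (Av * C + θ * Bv * E) / (A * C + θ * B * E) * ((A * E + θ * B * C) / (A * C + θ * B * E))
      = (θ * (Bv * A - Av * B) * (C ^ 2 - E ^ 2)) / (A * C + θ * B * E) ^ 2 := by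
    rw [eq_div_iff (pow_ne_zero 2 hZ')]
    have k1 : (Av * E + θ * Bv * C) / (A * C + θ * B * E) * (A * C + θ * B * E)
        = Av * E + θ * Bv * C := div_mul_cancel₀ _ hZ'
    have k2 : (Av * C + θ * Bv * E) / (A * C + θ * B * E) * (A * C + θ * B * E)
        = Av * C + θ * Bv * E := div_mul_cancel₀ _ hZ'
    have k3 : (A * E + θ * B * C) / (A * C + θ * B * E) * (A * C + θ * B * E)
        = A * E + θ * B * C := div_mul_cancel₀ _ hZ'
    generalize (Av * E + θ * Bv * C) / (A * C + θ * B * E) = x1 at *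
    generalize (Av * C + θ * Bv * E) / (A * C + θ * B * E) = x2 at *
    generalize (A * E + θ * B * C) / (A * C + θ * B * E) = x3 at *
    generalize hZe : A * C + θ * B * E = Z at *
    have k4 : (x1 - x2 * x3) * Z ^ 2 = (x1 * Z) * Z - (x2 * Z) * (x3 * Z) := by ring
    rw [k4, k1, k2, k3, ← hZe]
    ring
  have g2 : (Bv * C + θ * Av * E) / (A * C + θ * B * E)
      - (Av * C + θ * Bv * E) / (A * C + θ * B * E) * ((B * C + θ * A * E) / (A * C + θ * B * E))
      = ((Bv * A - Av * B) * (C ^ 2 - θ ^ 2 * E ^ 2)) / (A * C + θ * B * E) ^ 2 := by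
    rw [eq_div_iff (pow_ne_zero 2 hZ')]
    have k1 : (Bv * C + θ * Av * E) / (A * C + θ * B * E) * (A * C + θ * B * E)
        = Bv * C + θ * Av * E := div_mul_cancel₀ _ hZ'
    have k2 : (Av * C + θ * Bv * E) / (A * C + θ * B * E) * (A * C + θ * B * E)
        = Av * C + θ * Bv * E := div_mul_cancel₀ _ hZ'
    have k3 : (B * C + θ * A * E) / (A * C + θ * B * E) * (A * C + θ * B * E)
        = B * C + θ * A * E := div_mul_cancel₀ _ hZ'
    generalize (Bv * C + θ * Av * E) / (A * C + θ * B * E) = x1 at *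
    generalize (Av * C + θ * Bv * E) / (A * C + θ * B * E) = x2 at *
    generalize (B * C + θ * A * E) / (A * C + θ * B * E) = x3 at *
    generalize hZe : A * C + θ * B * E = Z at *
    have k4 : (x1 - x2 * x3) * Z ^ 2 = (x1 * Z) * Z - (x2 * Z) * (x3 * Z) := by ring
    rw [k4, k1, k2, k3, ← hZe]
    ring
  rw [g1, g2]
  rw [div_mul_eq_mul_div, div_left_inj' (pow_ne_zero 2 hZ')]
  have g3 : (C ^ 2 - θ ^ 2 * E ^ 2) * ((C ^ 2 - E ^ 2) / (C ^ 2 - θ ^ 2 * E ^ 2)) = C ^ 2 - E ^ 2 :=
    mul_div_cancel₀ _ hd'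
  linear_combination (- θ * (Bv * A - Av * B)) * g3

/-- recursion for the cavity magnetizations (product form) -/
lemma cavF_recur [LocallyFinite G] [DecidableEq V] (hα0 : 0 ≤ α) (hα1 : α < 1) (hG : G.IsTree)
    (hθ0 : 0 ≤ θ) (hθ1 : θ < 1)
    (hflip : μ.map (fun σ : V → ℤˣ => fun v => - σ v) = μ)
    (hμ : EdgeFactor G θ μ) {c p : V} (h : G.Adj c p) (F : Finset V) (a : V → ℝ) (hc : c ∈ F) :
    cavF G μ α F a c p *
      ((1 + clip α (a c)) * ∏ g ∈ (G.neighborFinset c).erase p, (1 + θ * cavF G μ α F a g c)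
        + (1 - clip α (a c)) * ∏ g ∈ (G.neighborFinset c).erase p, (1 - θ * cavF G μ α F a g c))
      = (1 + clip α (a c)) * ∏ g ∈ (G.neighborFinset c).erase p, (1 + θ * cavF G μ α F a g c)
        - (1 - clip α (a c)) * ∏ g ∈ (G.neighborFinset c).erase p,
            (1 - θ * cavF G μ α F a g c) := by
  have hsplit : ∀ σ : V → ℤˣ, wgt α (inBr G c p F) a σ
      = (1 + clip α (a c) * spinVal (σ c))
        * ∏ g ∈ (G.neighborFinset c).erase p, wgt α (inBr G g c F) a σ :=
    fun σ => wgt_inBr hG h F a hc σ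
  set S := (G.neighborFinset c).erase p with hS
  set κ := clip α (a c) with hκ
  have hSadj : ∀ g ∈ S, G.Adj c g := by
    intro g hg
    rw [hS, Finset.mem_erase, mem_neighborFinset] at hg
    exact hg.2
  have hstar := star_integral hG hflip hμ S hSadj
    (fun g => wgt α (inBr G g c F) a) (fun g => nice_wgt _ a)
    (fun g _ σ σ' hh => wgt_congr_spin (fun w hw => hh w (mem_inBr.mp hw).2))
  have hZ : Zp μ α (inBr G c p F) a = 1 / 2 * ((1 + κ) * ∏ g ∈ S, ((∫ σ, wgt α (inBr G g c F) a σ ∂μ)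
        + θ * ∫ σ, wgt α (inBr G g c F) a σ * spinVal (σ g) ∂μ)
      + (1 - κ) * ∏ g ∈ S, ((∫ σ, wgt α (inBr G g c F) a σ ∂μ)
        - θ * ∫ σ, wgt α (inBr G g c F) a σ * spinVal (σ g) ∂μ)) := by
    have := hstar (fun s => 1 + κ * spinVal s)
    unfold Zp
    simp only [hsplit]
    rw [this]
    simp only [spinVal_one', spinVal_neg_one']
    ring
  have hN : ∫ σ, wgt α (inBr G c p F) a σ * spinVal (σ c) ∂μ
      = 1 / 2 * ((1 + κ) * ∏ g ∈ S, ((∫ σ, wgt α (inBr G g c F) a σ ∂μ)
        + θ * ∫ σ, wgt α (inBr G g c F) a σ * spinVal (σ g) ∂μ)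
      - (1 - κ) * ∏ g ∈ S, ((∫ σ, wgt α (inBr G g c F) a σ ∂μ)
        - θ * ∫ σ, wgt α (inBr G g c F) a σ * spinVal (σ g) ∂μ)) := by
    have := hstar (fun s => (1 + κ * spinVal s) * spinVal s)
    have e : ∀ σ : V → ℤˣ, wgt α (inBr G c p F) a σ * spinVal (σ c)
        = ((1 + κ * spinVal (σ c)) * spinVal (σ c)) * ∏ g ∈ S, wgt α (inBr G g c F) a σ := by
      intro σ
      rw [hsplit]
      ring
    simp only [e]
    rw [this]
    simp only [spinVal_one', spinVal_neg_one']
    ring
  have hprod1 : ∏ g ∈ S, ((∫ σ, wgt α (inBr G g c F) a σ ∂μ)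
        + θ * ∫ σ, wgt α (inBr G g c F) a σ * spinVal (σ g) ∂μ)
      = (∏ g ∈ S, Zp μ α (inBr G g c F) a) * ∏ g ∈ S, (1 + θ * cavF G μ α F a g c) := by
    rw [← Finset.prod_mul_distrib]
    apply Finset.prod_congr rfl
    intro g _
    have hZg := Zp_pos (μ := μ) hα0 hα1 (inBr G g c F) a
    have : cavF G μ α F a g c * Zp μ α (inBr G g c F) a
        = ∫ σ, wgt α (inBr G g c F) a σ * spinVal (σ g) ∂μ := div_mul_cancel₀ _ hZg.ne'
    rw [← this]
    unfold Zp
    ring
  have hprod2 : ∏ g ∈ S, ((∫ σ, wgt α (inBr G g c F) a σ ∂μ)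
        - θ * ∫ σ, wgt α (inBr G g c F) a σ * spinVal (σ g) ∂μ)
      = (∏ g ∈ S, Zp μ α (inBr G g c F) a) * ∏ g ∈ S, (1 - θ * cavF G μ α F a g c) := by
    rw [← Finset.prod_mul_distrib]
    apply Finset.prod_congr rfl
    intro g _
    have hZg := Zp_pos (μ := μ) hα0 hα1 (inBr G g c F) a
    have : cavF G μ α F a g c * Zp μ α (inBr G g c F) a
        = ∫ σ, wgt α (inBr G g c F) a σ * spinVal (σ g) ∂μ := div_mul_cancel₀ _ hZg.ne'
    rw [← this]
    unfold Zp
    ring
  rw [hprod1, hprod2] at hZ hN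
  set K := ∏ g ∈ S, Zp μ α (inBr G g c F) a with hK
  have hKpos : 0 < K := Finset.prod_pos (fun g _ => Zp_pos hα0 hα1 _ a)
  set P := ∏ g ∈ S, (1 + θ * cavF G μ α F a g c) with hP
  set Q := ∏ g ∈ S, (1 - θ * cavF G μ α F a g c) with hQ
  have hcp : cavF G μ α F a c p * Zp μ α (inBr G c p F) a
      = ∫ σ, wgt α (inBr G c p F) a σ * spinVal (σ c) ∂μ :=
    div_mul_cancel₀ _ (Zp_pos hα0 hα1 _ a).ne'
  rw [hZ, hN] at hcp
  have hfin : (K / 2) * (cavF G μ α F a c p * ((1 + κ) * P + (1 - κ) * Q))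
      = (K / 2) * ((1 + κ) * P - (1 - κ) * Q) := by
    linear_combination hcp
  have hK2 : K / 2 ≠ 0 := (half_pos hKpos).ne'
  exact mul_left_cancel₀ hK2 hfin

/-- uniform bound for the finite-volume cavity magnetizations and consistency -/
lemma cavF_isCavity [LocallyFinite G] {d : ℕ} (hreg : ∀ v, G.degree v = d)
    (hα0 : 0 ≤ α) (hα1 : α < 1) (hG : G.IsTree) (hθ0 : 0 ≤ θ) (hθ1 : θ < 1)
    (hflip : μ.map (fun σ : V → ℤˣ => fun v => - σ v) = μ)
    (hμ : EdgeFactor G θ μ) :
    ∃ α' : ℝ, 0 ≤ α' ∧ α' < 1 ∧ ∀ (F : Finset V) (a : V → ℝ),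
      IsCavity G θ α' (cavF G μ α F a) := by
  classical
  set ρ := (1 - θ) / (1 + θ) with hρ
  have hρ0 : 0 < ρ := div_pos (by linarith) (by linarith)
  have hρ1 : ρ ≤ 1 := by
    rw [hρ, div_le_one (by linarith)]
    linarith
  have hρd1 : ρ ^ d ≤ 1 := pow_le_one₀ hρ0.le hρ1
  have hρd0 : 0 < ρ ^ d := pow_pos hρ0 d
  refine ⟨1 - (1 - α) * ρ ^ d, ?_, ?_, ?_⟩
  · nlinarith
  · nlinarith [mul_pos (sub_pos.mpr hα1) hρd0]
  intro F a
  refine ⟨?_, ?_⟩
  · intro c p hcp
    -- reduce to c ∈ F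
    have key : ∀ (F : Finset V) (a : V → ℝ), c ∈ F →
        |cavF G μ α F a c p| ≤ 1 - (1 - α) * ρ ^ d := by
      intro F a hc
      have hrec := cavF_recur hα0 hα1 hG hθ0 hθ1 hflip hμ hcp F a hc
      set S := (G.neighborFinset c).erase p with hS
      have hScard : S.card ≤ d := by
        rw [hS]
        calc _ ≤ (G.neighborFinset c).card := Finset.card_le_card (Finset.erase_subset _ _)
          _ = d := by rw [card_neighborFinset_eq_degree, hreg]
      set κ := clip α (a c) with hκ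
      have hκ1 : |κ| ≤ α := abs_clip_le hα0 _
      rw [abs_le] at hκ1
      set P := ∏ g ∈ S, (1 + θ * cavF G μ α F a g c) with hP
      set Q := ∏ g ∈ S, (1 - θ * cavF G μ α F a g c) with hQ
      have hb : ∀ g, |θ * cavF G μ α F a g c| ≤ θ := by
        intro g
        rw [abs_mul, abs_of_nonneg hθ0]
        exact mul_le_of_le_one_right hθ0 (abs_post_le hα0 hα1 _ _ _)
      have hP1 : (1 - θ) ^ S.card ≤ P := by
        rw [hP, ← Finset.prod_const]
        apply Finset.prod_le_prod
        · intro i _; linarith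
        · intro g _; linarith [neg_le_of_abs_le (hb g)]
      have hP2 : P ≤ (1 + θ) ^ S.card := by
        rw [hP, ← Finset.prod_const]
        apply Finset.prod_le_prod
        · intro g _; linarith [neg_le_of_abs_le (hb g)]
        · intro g _; linarith [le_of_abs_le (hb g)]
      have hQ1 : (1 - θ) ^ S.card ≤ Q := by
        rw [hQ, ← Finset.prod_const]
        apply Finset.prod_le_prod
        · intro i _; linarith
        · intro g _; linarith [le_of_abs_le (hb g)]
      have hQ2 : Q ≤ (1 + θ) ^ S.card := by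
        rw [hQ, ← Finset.prod_const]
        apply Finset.prod_le_prod
        · intro g _; linarith [le_of_abs_le (hb g)]
        · intro g _; linarith [neg_le_of_abs_le (hb g)]
      have ht0 : 0 < (1 - θ) ^ S.card := pow_pos (by linarith) _
      have hT0 : 0 < (1 + θ) ^ S.card := pow_pos (by linarith) _
      set t := (1 - θ) ^ S.card with ht
      set T := (1 + θ) ^ S.card with hT
      have htT : ρ ^ d * T ≤ t := by
        have h1 : ρ ^ d ≤ ρ ^ S.card := pow_le_pow_of_le_one hρ0.le hρ1 hScard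
        have h2 : ρ ^ S.card * T = t := by
          rw [hT, ht, ← mul_pow, hρ, div_mul_cancel₀ _ (by linarith : (1 + θ) ≠ 0)]
        calc ρ ^ d * T ≤ ρ ^ S.card * T := mul_le_mul_of_nonneg_right h1 hT0.le
          _ = t := h2
      set D := (1 + κ) * P + (1 - κ) * Q with hD
      have hPpos : 0 < P := lt_of_lt_of_le ht0 hP1
      have hQpos : 0 < Q := lt_of_lt_of_le ht0 hQ1
      have hDpos : 0 < D := by
        have h1 : 0 < 1 + κ := by linarith
        have h2 : 0 < 1 - κ := by linarith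
        positivity
      have hDle : D ≤ 2 * T := by
        have h1 : 0 ≤ 1 + κ := by linarith
        have h2 : 0 ≤ 1 - κ := by linarith
        calc D ≤ (1 + κ) * T + (1 - κ) * T :=
              add_le_add (mul_le_mul_of_nonneg_left hP2 h1) (mul_le_mul_of_nonneg_left hQ2 h2)
          _ = 2 * T := by ring
      set m := cavF G μ α F a c p with hm
      have e1 : (1 - m) * D = 2 * ((1 - κ) * Q) := by linear_combination (-1 : ℝ) * hrec
      have e2 : (1 + m) * D = 2 * ((1 + κ) * P) := by linear_combination hrec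
      have l1 : (1 - α) * ρ ^ d * D ≤ 2 * ((1 - κ) * Q) := by
        calc (1 - α) * ρ ^ d * D ≤ (1 - α) * ρ ^ d * (2 * T) := by
              apply mul_le_mul_of_nonneg_left hDle
              exact mul_nonneg (by linarith) hρd0.le
          _ = 2 * ((1 - α) * (ρ ^ d * T)) := by ring
          _ ≤ 2 * ((1 - α) * t) := by
              have := mul_le_mul_of_nonneg_left htT (by linarith : 0 ≤ 1 - α)
              linarith
          _ ≤ 2 * ((1 - κ) * Q) := by
              have := mul_le_mul (by linarith : 1 - α ≤ 1 - κ) hQ1 ht0.le (by linarith)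
              linarith
      have l2 : (1 - α) * ρ ^ d * D ≤ 2 * ((1 + κ) * P) := by
        calc (1 - α) * ρ ^ d * D ≤ (1 - α) * ρ ^ d * (2 * T) := by
              apply mul_le_mul_of_nonneg_left hDle
              exact mul_nonneg (by linarith) hρd0.le
          _ = 2 * ((1 - α) * (ρ ^ d * T)) := by ring
          _ ≤ 2 * ((1 - α) * t) := by
              have := mul_le_mul_of_nonneg_left htT (by linarith : 0 ≤ 1 - α)
              linarith
          _ ≤ 2 * ((1 + κ) * P) := by
              have := mul_le_mul (by linarith : 1 - α ≤ 1 + κ) hP1 ht0.le (by linarith)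
              linarith
      have r1 : (1 - α) * ρ ^ d ≤ 1 - m := by
        rw [← e1] at l1
        exact le_of_mul_le_mul_right l1 hDpos
      have r2 : (1 - α) * ρ ^ d ≤ 1 + m := by
        rw [← e2] at l2
        exact le_of_mul_le_mul_right l2 hDpos
      rw [abs_le]
      constructor <;> linarith
    by_cases hc : c ∈ F
    · exact key F a hc
    · have h1 := key (insert c F) (Function.update a c 0) (Finset.mem_insert_self _ _)
      have h2 : cavF G μ α (insert c F) (Function.update a c 0) c p = cavF G μ α F a c p := by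
        unfold cavF
        have hsub : inBr G c p F ⊆ inBr G c p (insert c F) := by
          intro w hw
          rw [mem_inBr] at hw ⊢
          exact ⟨Finset.mem_insert_of_mem hw.1, hw.2⟩
        rw [post_drop hα0 c hsub]
        · apply post_congr
          intro w hw
          apply Function.update_of_ne
          rintro rfl
          exact hc (mem_inBr.mp hw).1
        · intro w hw hwF
          have hwc : w = c := by
            by_contra hne
            apply hwF
            rw [mem_inBr] at hw ⊢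
            exact ⟨(Finset.mem_insert.mp hw.1).resolve_left hne, hw.2⟩
          subst hwc
          exact Function.update_self _ _ _
      rwa [h2] at h1
  · intro c p q hcp hcq
    rw [← post_edge hα0 hα1 hG hθ0 hθ1 hμ hcp F a, ← post_edge hα0 hα1 hG hθ0 hθ1 hμ hcq F a]

lemma post_eq_mag [LocallyFinite G] (hα0 : 0 ≤ α) (hα1 : α < 1) (hG : G.IsTree)
    (hθ0 : 0 ≤ θ) (hθ1 : θ < 1)
    (hμ : EdgeFactor G θ μ) {v : V} (hv : ∃ p, G.Adj v p) (F : Finset V) (a : V → ℝ) :
    post μ α v F a = mag G θ (cavF G μ α F a) v := by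
  unfold mag
  rw [dif_pos hv]
  exact post_edge hα0 hα1 hG hθ0 hθ1 hμ hv.choose_spec F a

/-- the posterior covariance is the path product (induction on the distance, `cov_step`) -/
lemma corr_eq_Cv [LocallyFinite G] (hα0 : 0 ≤ α) (hα1 : α < 1) (hG : G.IsTree)
    (hθ0 : 0 ≤ θ) (hθ1 : θ < 1)
    (hμ : EdgeFactor G θ μ) (hdeg : ∀ v : V, ∃ p, G.Adj v p) (v w : V) (F : Finset V)
    (a : V → ℝ) :
    corr μ α v w F a - post μ α v F a * post μ α w F a = Cv G θ (cavF G μ α F a) v w := by
  refine bcast_induction (G := G) (o := v)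
    (P := fun w => corr μ α v w F a - post μ α v F a * post μ α w F a
      = Cv G θ (cavF G μ α F a) v w) hG.connected ?_ ?_ w
  · have h1 : corr μ α v v F a = 1 := by
      unfold corr
      have e : ∀ σ : V → ℤˣ, wgt α F a σ * (spinVal (σ v) * spinVal (σ v)) = wgt α F a σ := by
        intro σ; rw [spinVal_mul_self, mul_one]
      simp only [e]
      exact div_self (Zp_pos hα0 hα1 F a).ne'
    unfold Cv
    rw [h1, Wt_self, ← post_eq_mag hα0 hα1 hG hθ0 hθ1 hμ (hdeg v) F a, G.dist_self]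
    ring
  · intro w hw ih
    obtain ⟨hadj, hd⟩ := par_spec hG.connected hw
    have hstep := cov_step (μ := μ) hα0 hα1 hG hθ0 hθ1 hμ (v := v) (c := par G v w) (p := w)
      hadj.symm (by
        change G.dist v (par G v w) < G.dist v w
        omega) F a
    rw [hstep, ih]
    unfold Cv
    rw [Wt_tail hG.connected hw, hd, pow_succ]
    ring

end

end Vale.Agent.P161c
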