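import Vale.Agent.P161c.Coup
import Vale.Agent.P161c.EnvFinal

/-!
Fields at time `(k, t)`, jumps, vertex-dependent times, action of automorphisms.
-/

namespace Vale.Agent.P161c

open MeasureTheory SimpleGraph Vale.Agent.H13.P161 Filter Topology

variable {V : Type*}

/-- action of an automorphism on families indexed by sites -/
def actS {G : SimpleGraph V} (g : G ≃g G) {X : Type*} (x : Site V → X) : Site V → X :=
  fun i => x (i.1, g i.2)

/-- action of an automorphism on labels, innovations and observations -/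
def actQ {G : SimpleGraph V} (g : G ≃g G) (q : Om V × (Site V → ℝ)) : Om V × (Site V → ℝ) :=
  ((actS g q.1.1, actS g q.1.2), actS g q.2)

/-- cavity field at time `(k, t)` -/
noncomputable def cavT (G : SimpleGraph V) (μ : Measure (V → ℤˣ)) (T : ℕ → Finset V)
    (U : Site V → unitInterval) (k : ℕ) (t : ℝ) (y : Site V → ℝ) (c p : V) : ℝ :=
  cavI G μ (ak (k + 1)) T c p (aT U k t y)

/-- covariance at time `(k, t)` -/
noncomputable def CT (G : SimpleGraph V) (θ : ℝ) (μ : Measure (V → ℤˣ)) (T : ℕ → Finset V)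
    (U : Site V → unitInterval) (k : ℕ) (t : ℝ) (v w : V) (y : Site V → ℝ) : ℝ :=
  Cv G θ (cavT G μ T U k t y) v w

open Classical in
/-- jump of the magnetization at `v` when the site `(k, w)` is processed, if its label is in
`[t1, t2)` -/
noncomputable def JT (G : SimpleGraph V) (θ : ℝ) (μ : Measure (V → ℤˣ)) (T : ℕ → Finset V)
    (k : ℕ) (t1 t2 : ℝ) (v w : V) (U : Site V → unitInterval) (y : Site V → ℝ) : ℝ :=
  if t1 ≤ (U (k, w) : ℝ) ∧ (U (k, w) : ℝ) < t2 then
    cs U (k, w) * cl (y (k, w)) * CT G θ μ T U k (U (k, w)) v w y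
      / (1 + cs U (k, w) * cl (y (k, w)) * MT μ T U k (U (k, w)) w y)
  else 0

open Classical in
/-- own magnetizations with vertex-dependent times in round `k`, vertices outside `A` inactive -/
noncomputable def aV (A : Set V) (τ : V → ℝ) (k : ℕ) (U : Site V → unitInterval)
    (y : Site V → ℝ) : V → ℝ := fun w => if w ∈ A then aT U k (τ w) y w else 0

open Classical in
/-- the corresponding vertex-dependent annealed environment -/
noncomputable def envV (μ : Measure (V → ℤˣ)) (A : Set V) (τ : V → ℝ) (k : ℕ) : Measure (Cfg V) :=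
  envM μ ((iidLabels ℕ).prod (iidLabels ℕ)) (fun w : V => if w ∈ A then anY k (τ w) else anY 0 0)
    (fun w : V => if w ∈ A then anb k (τ w) else anb 0 0)

/-- squared distance of the two copies at time `(k, t)` -/
noncomputable def Dsq (μ : Measure (V → ℤˣ)) (T : ℕ → Finset V) [Countable V] [DecidableEq V]
    [IsProbabilityMeasure μ] (k : ℕ) (t : ℝ) (v : V) : ℝ :=
  ∫ q, (MT μ T q.1.1 k t v q.2.1 - MT μ T q.1.1 k t v q.2.2) ^ 2 ∂(relP (QM μ T))

/-- energy of the difference of the two copies at time `(k, t)`, seen from `v` -/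
noncomputable def gE (G : SimpleGraph V) (θ : ℝ) (μ : Measure (V → ℤˣ)) (T : ℕ → Finset V)
    [Countable V] [DecidableEq V] [IsProbabilityMeasure μ] (k : ℕ) (t : ℝ) (v : V) : ENNReal :=
  ∑' w, ∫⁻ ω, ENNReal.ofReal
    ((Cv G θ (cavT G μ T ω.1.1 k t ω.2.1) v w - Cv G θ (cavT G μ T ω.1.1 k t ω.2.2) v w) ^ 2
      + Cv G θ (cavT G μ T ω.1.1 k t ω.2.2) v w ^ 2
        * (mag G θ (cavT G μ T ω.1.1 k t ω.2.1) w
          - mag G θ (cavT G μ T ω.1.1 k t ω.2.2) w) ^ 2) ∂(relP (QM μ T))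

/-- the evolution inequality -/
structure EVineq (G : SimpleGraph V) (θ : ℝ) (μ : Measure (V → ℤˣ)) (T : ℕ → Finset V)
    [Countable V] [DecidableEq V] [IsProbabilityMeasure μ] (K : ℝ) : Prop where
  nonneg : 0 ≤ K
  mono : ∀ (k : ℕ) (v : V) (t1 t2 : ℝ), 0 ≤ t1 → (k = 0 → 0 < t1) → t1 ≤ t2 → t2 ≤ 1 / 2 →
    Dsq μ T k t1 v ≤ Dsq μ T k t2 v
  ineq : ∀ (k : ℕ) (v : V) (t1 t2 ρ g : ℝ), 0 ≤ t1 → (k = 0 → 0 < t1) → t1 ≤ t2 → t2 ≤ 1 / 2 →
    0 ≤ ρ → (k = 0 → t2 ≤ ρ) → (1 ≤ k → 1 ≤ ρ) → 0 ≤ g →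
    (∀ s, t1 ≤ s → s < t2 → gE G θ μ T k s v ≤ ENNReal.ofReal g) →
    Dsq μ T k t2 v ≤ Dsq μ T k t1 v + K * ρ ^ 2 * (t2 - t1) * g

end Vale.Agent.P161c
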