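import Vale.Agent.P161c.Chan

/-!
Quenched analysis: tower property and innovations for fixed labels.
-/

set_option linter.unusedSectionVars false
set_option linter.unusedVariables false

namespace Vale.Agent.P161c

open MeasureTheory SimpleGraph Vale.Agent.H13.P161 Filter Topology

variable {V : Type*}

/-- base measure: spins and driving uniform variables -/
noncomputable def BM (μ : Measure (V → ℤˣ)) : Measure ((V → ℤˣ) × (Site V → unitInterval)) :=
  μ.prod (iidLabels (Site V))

instance instProbBM (μ : Measure (V → ℤˣ)) [IsProbabilityMeasure μ] :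
    IsProbabilityMeasure (BM μ) := by unfold BM; infer_instance

/-- uncurried labels -/
lemma map_curry_labels [DecidableEq V] :
    (iidLabels (Site V)).map (fun ζ (w : V) (l : ℕ) => ζ (l, w))
      = Measure.infinitePi (fun _ : V => iidLabels ℕ) := by
  have h1 : (iidLabels (Site V)).map (fun ζ (p : V × ℕ) => ζ (p.2, p.1)) = iidLabels (V × ℕ) := by
    unfold iidLabels
    exact Measure.map_infinitePi_infinitePi_of_inj
      (P := fun _ : Site V => (volume : Measure unitInterval))
      (f := fun p : V × ℕ => ((p.2, p.1) : Site V)) (fun a b h => by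
        simp only [Prod.mk.injEq] at h
        exact Prod.ext h.2 h.1)
  have h2 := Measure.infinitePi_map_curry (ι := V) (κ := ℕ) (X := unitInterval)
    (fun _ _ => (volume : Measure unitInterval))
  have m1 : Measurable (fun (ζ : Site V → unitInterval) (p : V × ℕ) => ζ (p.2, p.1)) := by
    rw [measurable_pi_iff]; intro p; exact measurable_pi_apply _
  calc (iidLabels (Site V)).map (fun ζ (w : V) (l : ℕ) => ζ (l, w))
      = ((iidLabels (Site V)).map (fun ζ (p : V × ℕ) => ζ (p.2, p.1))).map
          (MeasurableEquiv.curry V ℕ unitInterval) := by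
        rw [Measure.map_map (MeasurableEquiv.curry V ℕ unitInterval).measurable m1]
        rfl
    _ = _ := by
        rw [h1]
        exact h2

lemma abs_cs_le (U : Site V → unitInterval) (i : Site V) : |cs U i| ≤ 1 / 2 := by
  have h := str_bounds i.1 (U i)
  unfold cs
  rw [abs_of_nonneg h.1]
  exact h.2

lemma abs_c_spin_lt {c : ℝ} (hc : |c| ≤ 1 / 2) (s : ℤˣ) : |c * spinVal s| < 1 := by
  rw [abs_mul, abs_spinVal, mul_one]; linarith

lemma abs_c_mul_lt {c x : ℝ} (hc : |c| ≤ 1 / 2) (hx : |x| ≤ 1) : |c * x| < 1 := by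
  rw [abs_mul]
  calc |c| * |x| ≤ 1 / 2 * 1 := mul_le_mul hc hx (abs_nonneg _) (by norm_num)
    _ < 1 := by norm_num

lemma measurable_obsR (c : Site V → ℝ) :
    Measurable (fun p : (V → ℤˣ) × (Site V → unitInterval) => obsR c p.1 p.2) := by
  rw [measurable_pi_iff]
  intro i
  unfold obsR
  have h1 : Measurable (fun p : (V → ℤˣ) × (Site V → unitInterval) =>
      c i * spinVal (p.1 i.2)) :=
    ((nice_spin i.2).1.comp measurable_fst).const_mul _
  have h2 : Measurable (fun p : (V → ℤˣ) × (Site V → unitInterval) =>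
      ((p.2 i : unitInterval) : ℝ)) :=
    measurable_subtype_coe.comp ((measurable_pi_apply i).comp measurable_snd)
  exact measurable_Qc.comp (h1.prodMk h2)

lemma abs_obsR_le {c : Site V → ℝ} (hc : ∀ i, |c i| ≤ 1 / 2) (σ : V → ℤˣ)
    (ζ : Site V → unitInterval) (i : Site V) : |obsR c σ ζ i| ≤ 1 :=
  abs_Qc_le (abs_c_spin_lt (hc i) _) (ζ i).2.1 (ζ i).2.2

lemma measurable_msk (S : Set (Site V)) : Measurable (msk S : (Site V → ℝ) → _) := by
  rw [measurable_pi_iff]
  intro i
  unfold msk
  by_cases h : i ∈ S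
  · simp only [if_pos h]; exact measurable_pi_apply i
  · simp only [if_neg h]; exact measurable_const

lemma msk_msk {S S' : Set (Site V)} (h : S ⊆ S') (y : Site V → ℝ) : msk S (msk S' y) = msk S y := by
  ext i
  unfold msk
  by_cases hi : i ∈ S
  · simp [hi, h hi]
  · simp [hi]

lemma msk_congr {S : Set (Site V)} {y y' : Site V → ℝ} (h : ∀ i ∈ S, y i = y' i) :
    msk S y = msk S y' := by
  ext i
  unfold msk
  by_cases hi : i ∈ S
  · simp [hi, h i hi]
  · simp [hi]

lemma msk_update [DecidableEq V] {S : Set (Site V)} {i : Site V} (hi : i ∉ S) (y : Site V → ℝ)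
    (q : ℝ) : msk S (Function.update y i q) = msk S y := by
  apply msk_congr
  intro j hj
  have hji : j ≠ i := by rintro rfl; exact hi hj
  exact Function.update_of_ne hji _ _

lemma aF_msk (n : ℕ) (c : Site V → ℝ) (S : Set (Site V)) (y : Site V → ℝ) :
    aF n c S (msk S y) = aF n c S y := by
  ext w
  unfold aF
  congr 1
  ext l
  by_cases h : (l, w) ∈ S <;> simp [msk, h]

lemma measurable_aF (n : ℕ) (c : Site V → ℝ) (S : Set (Site V)) :
    Measurable (aF n c S : (Site V → ℝ) → V → ℝ) := by
  rw [measurable_pi_iff]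
  intro w
  unfold aF
  apply (measurable_ow n).comp
  rw [measurable_pi_iff]
  intro l
  by_cases h : (l, w) ∈ S
  · simp only [if_pos h]
    exact (measurable_cl.comp (measurable_pi_apply _)).const_mul _
  · simp only [if_neg h]
    exact measurable_const

lemma abs_aF_le (n : ℕ) {c : Site V → ℝ} (hc : ∀ i, |c i| ≤ 1 / 2) (S : Set (Site V))
    (y : Site V → ℝ) (w : V) : |aF n c S y w| ≤ ak n := by
  apply (abs_ow_le n _ _).1
  intro l
  split_ifs
  · rw [abs_mul]
    calc |c (l, w)| * |cl (y (l, w))| ≤ 1 / 2 * 1 :=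
          mul_le_mul (hc _) (abs_cl_le _) (abs_nonneg _) (by norm_num)
      _ = 1 / 2 := by norm_num
  · simp

/-- the observation field as output of vertex channels -/
lemma obsM_eq [DecidableEq V] (μ : Measure (V → ℤˣ)) [IsProbabilityMeasure μ] (c : Site V → ℝ)
    (S : Set (Site V)) :
    obsM μ (iidLabels ℕ) (fun w => chY (fun l => c (l, w)) {l | (l, w) ∈ S})
      = (BM μ).map (fun p => (p.1, fun w l => msk S (obsR c p.1 p.2) (l, w))) := by
  classical
  unfold obsM BM
  have m1 : Measurable (fun (ζ : Site V → unitInterval) (w : V) (l : ℕ) => ζ (l, w)) := by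
    rw [measurable_pi_iff]; intro w
    rw [measurable_pi_iff]; intro l; exact measurable_pi_apply _
  rw [← map_curry_labels]
  have h : μ.prod ((iidLabels (Site V)).map (fun ζ (w : V) (l : ℕ) => ζ (l, w)))
      = (μ.prod (iidLabels (Site V))).map
          (Prod.map id (fun ζ (w : V) (l : ℕ) => ζ (l, w))) := by
    rw [← Measure.map_prod_map μ (iidLabels (Site V)) measurable_id m1, Measure.map_id]
  rw [h, Measure.map_map _ (measurable_id.prodMap m1)]
  · congr 1
  · apply measurable_fst.prodMk
    rw [measurable_pi_iff]; intro w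
    rw [measurable_pi_iff]; intro l
    unfold chY
    by_cases hl : l ∈ {l | (l, w) ∈ S}
    · simp only [if_pos hl]
      have h1 : Measurable (fun x : (V → ℤˣ) × (V → ℕ → unitInterval) =>
          c (l, w) * spinVal (x.1 w)) :=
        ((nice_spin w).1.comp measurable_fst).const_mul _
      have h2 : Measurable (fun x : (V → ℤˣ) × (V → ℕ → unitInterval) =>
          ((x.2 w l : unitInterval) : ℝ)) :=
        measurable_subtype_coe.comp
          ((measurable_pi_apply l).comp ((measurable_pi_apply w).comp measurable_snd))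
      exact measurable_Qc.comp (h1.prodMk h2)
    · simp only [if_neg hl]; exact measurable_const

section Quenched

variable [Countable V] [DecidableEq V] {μ : Measure (V → ℤˣ)} [IsProbabilityMeasure μ]
  {T : ℕ → Finset V} (hT : Monotone T) (hTu : ∀ v, ∃ n, v ∈ T n)

lemma isChan_site (n : ℕ) {c : Site V → ℝ} (hc : ∀ i, |c i| ≤ 1 / 2) {S : Set (Site V)}
    (hS : ∀ i ∈ S, i.1 < n) (w : V) :
    IsChan (iidLabels ℕ) (ak n) (chY (fun l => c (l, w)) {l | (l, w) ∈ S})
      (chb n (fun l => c (l, w)) {l | (l, w) ∈ S}) :=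
  isChan_ch n _ (fun l => hc _) _ (fun l hl => hS (l, w) hl)

lemma own_msk (n : ℕ) (c : Site V → ℝ) (S : Set (Site V)) (y : Site V → ℝ) :
    own (fun w => chb n (fun l => c (l, w)) {l | (l, w) ∈ S}) (fun w l => msk S y (l, w))
      = aF n c S y := by
  rw [← aF_msk]
  rfl

lemma measurable_postI (v : V) (α : ℝ) : Measurable (postI μ α T v) :=
  measurable_limOr0 (fun n => measurable_post v (T n))

lemma limOr0_bound {s : ℕ → ℝ} {B : ℝ} (hB : 0 ≤ B) (h : ∀ n, |s n| ≤ B) : |limOr0 s| ≤ B := by
  unfold limOr0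
  split_ifs with hl
  · exact le_of_tendsto (hl.choose_spec.abs) (Eventually.of_forall h)
  · simpa using hB

lemma abs_postI_le {α : ℝ} (hα0 : 0 ≤ α) (hα1 : α < 1) (v : V) (a : V → ℝ) :
    |postI μ α T v a| ≤ 1 :=
  limOr0_bound zero_le_one (fun n => abs_post_le hα0 hα1 v (T n) a)

lemma nice_postI {α : ℝ} (hα0 : 0 ≤ α) (hα1 : α < 1) (v : V) : Nice (postI μ α T v) :=
  ⟨measurable_postI v α, 1, abs_postI_le hα0 hα1 v⟩

lemma nice_MS (n : ℕ) (c : Site V → ℝ) (S : Set (Site V)) (v : V) :
    Nice (fun y : Site V → ℝ => postI μ (ak n) T v (aF n c S y)) :=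
  (nice_postI (ak_bounds n).1 (ak_bounds n).2 v).comp (measurable_aF n c S)

include hT hTu

lemma tower_q (n : ℕ) {c : Site V → ℝ} (hc : ∀ i, |c i| ≤ 1 / 2) {S : Set (Site V)}
    (hS : ∀ i ∈ S, i.1 < n) (v : V) {k : (Site V → ℝ) → ℝ} (hk : Nice k)
    (hkS : ∀ y, k y = k (msk S y)) :
    ∫ p, k (obsR c p.1 p.2) * spinVal (p.1 v) ∂(BM μ)
      = ∫ p, k (obsR c p.1 p.2) * postI μ (ak n) T v (aF n c S (obsR c p.1 p.2)) ∂(BM μ) := by
  have mu : Measurable (fun (yf : V → ℕ → ℝ) (i : Site V) => yf i.2 i.1) := by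
    rw [measurable_pi_iff]; intro i
    exact (measurable_pi_apply _).comp (measurable_pi_apply _)
  have hk' : Nice (fun yf : V → ℕ → ℝ => k (fun i : Site V => yf i.2 i.1)) := hk.comp mu
  have mm : Measurable (fun p : (V → ℤˣ) × (Site V → unitInterval) =>
      ((p.1, fun w l => msk S (obsR c p.1 p.2) (l, w)) : (V → ℤˣ) × (V → ℕ → ℝ))) := by
    apply measurable_fst.prodMk
    rw [measurable_pi_iff]; intro w
    rw [measurable_pi_iff]; intro l
    have h := (measurable_pi_apply (X := fun _ : Site V => ℝ) (l, w)).comp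
      ((measurable_msk S).comp (measurable_obsR c))
    exact h
  have h := tower_postI (μ := μ) (ak_bounds n).1 (ak_bounds n).2
    (fun w => isChan_site n hc hS w) hT hTu v hk'
  rw [obsM_eq, integral_map mm.aemeasurable, integral_map mm.aemeasurable] at h
  · simp only [own_msk] at h
    have e : ∀ y : Site V → ℝ, k (fun i : Site V => msk S y (i.1, i.2)) = k y := by
      intro y
      exact (hkS y).symm
    simp only [e] at h
    exact h
  · apply Measurable.aestronglyMeasurable
    apply (hk'.1.comp measurable_snd).mul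
    apply (measurable_postI v (ak n)).comp
    rw [measurable_pi_iff]; intro w
    exact (isChan_site n hc hS w).measb.comp ((measurable_pi_apply w).comp measurable_snd)
  · apply Measurable.aestronglyMeasurable
    exact (hk'.1.comp measurable_snd).mul ((nice_spin v).1.comp measurable_fst)

omit hT hTu in
lemma obsR_update (c : Site V → ℝ) (σ : V → ℤˣ) (ζ : Site V → unitInterval) (i : Site V)
    (x : unitInterval) :
    obsR c σ (Function.update ζ i x)
      = Function.update (obsR c σ ζ) i (Qc (c i * spinVal (σ i.2)) x) := by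
  ext j
  by_cases hj : j = i
  · subst hj; simp [obsR]
  · simp [obsR, hj]

omit hT hTu in
lemma nice_cent : Nice (fun x : unitInterval => 2 * (x : ℝ) - 1) :=
  ⟨(measurable_coe_unit.const_mul 2).sub_const 1, 1, abs_two_mul_sub_one_le⟩

omit hT hTu in
/-- zeroth and first moments of a test function in the new observation -/
lemma nice_momH {H : (Site V → ℝ) × ℝ → ℝ} (hH : Nice H) :
    Nice (fun y : Site V → ℝ => ∫ x : unitInterval, H (y, 2 * (x : ℝ) - 1)) ∧
    Nice (fun y : Site V → ℝ => ∫ x : unitInterval, H (y, 2 * (x : ℝ) - 1) * (2 * (x : ℝ) - 1)) := by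
  have m1 : Measurable (fun p : (Site V → ℝ) × unitInterval => (p.1, 2 * (p.2 : ℝ) - 1)) :=
    measurable_fst.prodMk (nice_cent.1.comp measurable_snd)
  have n1 := hH.comp m1
  have n2 := n1.mul (nice_cent.comp (measurable_snd (α := Site V → ℝ)))
  exact ⟨n1.integral_right volume, n2.integral_right volume⟩

omit hT hTu in
lemma integral_H_Qc {H : (Site V → ℝ) × ℝ → ℝ} (hH : Nice H) (y : Site V → ℝ) {c : ℝ}
    (hc : |c| < 1) :
    ∫ x : unitInterval, H (y, Qc c x)
      = (∫ x : unitInterval, H (y, 2 * (x : ℝ) - 1))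
        + c * ∫ x : unitInterval, H (y, 2 * (x : ℝ) - 1) * (2 * (x : ℝ) - 1) := by
  rw [integral_Qc hc (fun s => H (y, s))]
  have m1 : Measurable (fun x : unitInterval => ((y, 2 * (x : ℝ) - 1) : (Site V → ℝ) × ℝ)) :=
    measurable_const.prodMk nice_cent.1
  have n1 := hH.comp m1
  have n2 := n1.mul nice_cent
  rw [← integral_const_mul, ← integral_add (n1.integrable _) ((n2.integrable _).const_mul c)]
  congr 1
  ext x
  ring

lemma innov_step (n : ℕ) {c : Site V → ℝ} (hc : ∀ i, |c i| ≤ 1 / 2) {S : Set (Site V)}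
    (hS : ∀ i ∈ S, i.1 < n) {i : Site V} (hi : i ∉ S) {H : (Site V → ℝ) × ℝ → ℝ} (hH : Nice H)
    (hHS : ∀ y s, H (y, s) = H (msk S y, s)) :
    ∫ p, H (obsR c p.1 p.2, obsR c p.1 p.2 i) ∂(BM μ)
      = ∫ p, (∫ x : unitInterval, H (obsR c p.1 p.2,
          Qc (c i * postI μ (ak n) T i.2 (aF n c S (obsR c p.1 p.2))) x)) ∂(BM μ) := by
  set A : (Site V → ℝ) → ℝ := fun y => ∫ x : unitInterval, H (y, 2 * (x : ℝ) - 1) with hA
  set B : (Site V → ℝ) → ℝ :=
    fun y => ∫ x : unitInterval, H (y, 2 * (x : ℝ) - 1) * (2 * (x : ℝ) - 1) with hB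
  obtain ⟨nA, nB⟩ := nice_momH hH
  have mO := measurable_obsR c
  have mOi : Measurable (fun p : (V → ℤˣ) × (Site V → unitInterval) =>
      ((obsR c p.1 p.2, obsR c p.1 p.2 i) : (Site V → ℝ) × ℝ)) :=
    mO.prodMk ((measurable_pi_apply i).comp mO)
  have hBS : ∀ y, B y = B (msk S y) := by
    intro y
    simp only [hB]
    congr 1
    ext x
    rw [hHS]
  have hupd : ∀ (y : Site V → ℝ) (q s : ℝ), H (Function.update y i q, s) = H (y, s) := by
    intro y q s
    rw [hHS (Function.update y i q), msk_update hi, ← hHS]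
  -- left side
  have L : ∫ p, H (obsR c p.1 p.2, obsR c p.1 p.2 i) ∂(BM μ)
      = ∫ p, (A (obsR c p.1 p.2) + c i * (B (obsR c p.1 p.2) * spinVal (p.1 i.2))) ∂(BM μ) := by
    have nL := hH.comp mOi
    have nR : Nice (fun p : (V → ℤˣ) × (Site V → unitInterval) =>
        A (obsR c p.1 p.2) + c i * (B (obsR c p.1 p.2) * spinVal (p.1 i.2))) :=
      (nA.comp mO).add ((Nice.const _).mul ((nB.comp mO).mul ((nice_spin i.2).comp measurable_fst)))
    unfold BM
    rw [nL.integral_prod, nR.integral_prod]
    congr 1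
    ext σ
    have mσ : Measurable (fun ζ : Site V → unitInterval => ((σ, ζ) :
        (V → ℤˣ) × (Site V → unitInterval))) := measurable_prodMk_left
    rw [integral_update_iid i (nL.comp mσ), integral_update_iid i (nR.comp mσ)]
    congr 1
    ext ζ
    have e1 : ∀ x : unitInterval, H (obsR c σ (Function.update ζ i x),
        obsR c σ (Function.update ζ i x) i)
        = H (obsR c σ ζ, Qc (c i * spinVal (σ i.2)) x) := by
      intro x
      rw [obsR_update, hupd, Function.update_self]
    have e2 : ∀ x : unitInterval, A (obsR c σ (Function.update ζ i x))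
        + c i * (B (obsR c σ (Function.update ζ i x)) * spinVal (σ i.2))
        = A (obsR c σ ζ) + c i * (B (obsR c σ ζ) * spinVal (σ i.2)) := by
      intro x
      have a1 : A (obsR c σ (Function.update ζ i x)) = A (obsR c σ ζ) := by
        simp only [hA, obsR_update, hupd]
      have a2 : B (obsR c σ (Function.update ζ i x)) = B (obsR c σ ζ) := by
        simp only [hB, obsR_update, hupd]
      rw [a1, a2]
    simp only [e1, e2]
    rw [integral_H_Qc hH _ (abs_c_spin_lt (hc i) _)]
    simp only [integral_const, probReal_univ, smul_eq_mul, one_mul]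
    simp only [hA, hB]
    ring
  have Rr : ∀ p : (V → ℤˣ) × (Site V → unitInterval), (∫ x : unitInterval, H (obsR c p.1 p.2,
          Qc (c i * postI μ (ak n) T i.2 (aF n c S (obsR c p.1 p.2))) x))
      = A (obsR c p.1 p.2) + c i * (B (obsR c p.1 p.2)
          * postI μ (ak n) T i.2 (aF n c S (obsR c p.1 p.2))) := by
    intro p
    rw [integral_H_Qc hH _ (abs_c_mul_lt (hc i)
      (abs_postI_le (ak_bounds n).1 (ak_bounds n).2 _ _))]
    simp only [hA, hB]
    ring
  rw [L]
  simp only [Rr]
  have nM : Nice (fun p : (V → ℤˣ) × (Site V → unitInterval) =>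
      postI μ (ak n) T i.2 (aF n c S (obsR c p.1 p.2))) := (nice_MS n c S i.2).comp mO
  rw [(nA.comp mO).integral_add' ((Nice.const (c i)).mul ((nB.comp mO).mul
      ((nice_spin i.2).comp measurable_fst))),
    (nA.comp mO).integral_add' ((Nice.const (c i)).mul ((nB.comp mO).mul nM)),
    integral_const_mul, integral_const_mul, tower_q hT hTu n hc hS i.2 nB hBS]

omit [Countable V] [DecidableEq V] hT hTu in
lemma mem_cut_self (U : Site V → unitInterval) (i : Site V) : i ∉ cut U i.1 (U i) := by
  simp [cut]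

omit [Countable V] [DecidableEq V] hT hTu in
lemma mem_cut_iff (U : Site V → unitInterval) (j i : Site V) :
    j ∈ cut U i.1 (U i) ↔ before U j i := by
  simp only [cut, before, Set.mem_ofPred_eq]
  rfl

omit [Countable V] [DecidableEq V] hT hTu in
lemma cut_lt {U : Site V → unitInterval} {k : ℕ} {t : ℝ} {j : Site V} (h : j ∈ cut U k t) :
    j.1 < k + 1 := by
  rcases h with h | h
  · omega
  · omega

omit [Countable V] [DecidableEq V] hT hTu in
/-- a site outside of a cut is processed after all sites of the cut -/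
lemma cut_subset_of_notMem {U : Site V → unitInterval} {k : ℕ} {t : ℝ} {i : Site V}
    (h : i ∉ cut U k t) : cut U k t ⊆ cut U i.1 (U i) := by
  intro j hj
  simp only [cut, Set.mem_ofPred_eq, not_or, not_and, not_lt] at h hj ⊢
  rcases hj with hj | hj
  · left; omega
  · rcases Nat.lt_or_ge k i.1 with hki | hki
    · left; omega
    · have hk : i.1 = k := le_antisymm hki h.1
      right
      refine ⟨by omega, ?_⟩
      exact lt_of_lt_of_le hj.2 (h.2 hk)

omit [Countable V] hT hTu in
lemma cut_subset_cut {U : Site V → unitInterval} {i j : Site V} (h : before U j i) :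
    cut U j.1 (U j) ⊆ cut U i.1 (U i) := by
  intro l hl
  rw [mem_cut_iff] at hl ⊢
  exact before_trans hl h

omit [Countable V] [DecidableEq V] hT hTu in
/-- the innovation at `j` only depends on the observations up to `j` -/
lemma inn_congr (U : Site V → unitInterval) {y y' : Site V → ℝ} {j : Site V}
    (h : ∀ l ∈ cut U j.1 (U j), y l = y' l) (hj : y j = y' j) :
    inn μ T U y j = inn μ T U y' j := by
  unfold inn MT aT
  rw [← aF_msk _ _ _ y, ← aF_msk _ _ _ y', msk_congr h, hj]

omit hT hTu in
lemma abs_cs_MT_lt (U : Site V → unitInterval) (i : Site V) (k : ℕ) (t : ℝ) (v : V)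
    (y : Site V → ℝ) : |cs U i * MT μ T U k t v y| < 1 :=
  abs_c_mul_lt (abs_cs_le U i) (abs_postI_le (ak_bounds _).1 (ak_bounds _).2 _ _)

omit hT hTu in
lemma coe_inn (U : Site V → unitInterval) {y : Site V → ℝ} {i : Site V} (hy : |y i| ≤ 1) :
    ((inn μ T U y i : unitInterval) : ℝ) = Fc (cs U i * MT μ T U i.1 (U i) i.2 y) (y i) := by
  unfold inn
  exact congrArg Subtype.val (Set.projIcc_of_mem zero_le_one
    (Fc_mem (abs_cs_MT_lt U i _ _ _ _) hy))

omit hT hTu in
/-- the observation is recovered from the innovation -/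
lemma obs_of_inn (U : Site V → unitInterval) {y : Site V → ℝ} {i : Site V} (hy : |y i| ≤ 1) :
    y i = Qc (cs U i * MT μ T U i.1 (U i) i.2 y) (inn μ T U y i) := by
  rw [coe_inn U hy, Qc_Fc (abs_cs_MT_lt U i _ _ _ _) hy]

/-- the innovation at `i` is uniform and independent of the past observations -/
lemma inn_step (U : Site V → unitInterval) (i : Site V) {K : (Site V → ℝ) × unitInterval → ℝ}
    (hK : Nice K) (hKS : ∀ y x, K (y, x) = K (msk (cut U i.1 (U i)) y, x)) :
    ∫ p, K (obsR (cs U) p.1 p.2, inn μ T U (obsR (cs U) p.1 p.2) i) ∂(BM μ)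
      = ∫ p, (∫ x : unitInterval, K (obsR (cs U) p.1 p.2, x)) ∂(BM μ) := by
  set M : (Site V → ℝ) → ℝ := MT μ T U i.1 (U i) i.2 with hM
  have mM : Measurable M := (nice_MS (i.1 + 1) (cs U) (cut U i.1 (U i)) i.2).1
  set H : (Site V → ℝ) × ℝ → ℝ :=
    fun q => K (q.1, Set.projIcc (0 : ℝ) 1 zero_le_one (Fc (cs U i * M q.1) q.2)) with hH
  have mproj : Measurable (Set.projIcc (0 : ℝ) 1 zero_le_one) := continuous_projIcc.measurable
  have mH : Measurable (fun q : (Site V → ℝ) × ℝ =>
      ((q.1, Set.projIcc (0 : ℝ) 1 zero_le_one (Fc (cs U i * M q.1) q.2)) :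
        (Site V → ℝ) × unitInterval)) := by
    apply measurable_fst.prodMk
    apply mproj.comp
    exact measurable_Fc.comp (((mM.comp measurable_fst).const_mul _).prodMk measurable_snd)
  have nH : Nice H := hK.comp mH
  have hMS : ∀ y, M y = M (msk (cut U i.1 (U i)) y) := by
    intro y
    simp only [hM, MT, aT, aF_msk]
  have hHS : ∀ y s, H (y, s) = H (msk (cut U i.1 (U i)) y, s) := by
    intro y s
    simp only [hH]
    rw [← hMS y, hKS]
  have h := innov_step (μ := μ) hT hTu (i.1 + 1) (abs_cs_le U) (fun j hj => cut_lt hj)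
    (mem_cut_self U i) nH hHS
  calc ∫ p, K (obsR (cs U) p.1 p.2, inn μ T U (obsR (cs U) p.1 p.2) i) ∂(BM μ)
      = ∫ p, H (obsR (cs U) p.1 p.2, obsR (cs U) p.1 p.2 i) ∂(BM μ) := rfl
    _ = _ := h
    _ = _ := by
      congr 1
      ext p
      congr 1
      ext x
      have hlt : |cs U i * M (obsR (cs U) p.1 p.2)| < 1 := abs_cs_MT_lt U i _ _ _ _
      have e : postI μ (ak (i.1 + 1)) T i.2 (aF (i.1 + 1) (cs U) (cut U i.1 (U i))
          (obsR (cs U) p.1 p.2)) = M (obsR (cs U) p.1 p.2) := rfl
      simp only [hH]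
      rw [e, Fc_Qc x.2.1 x.2.2]
      congr 2
      exact Set.projIcc_val zero_le_one x

omit [Countable V] hT hTu in
lemma exists_last {U : Site V → unitInterval} {s : Finset (Site V)} (hne : s.Nonempty)
    (hnt : NoTie U s) : ∃ i ∈ s, ∀ j ∈ s, j ≠ i → before U j i := by
  obtain ⟨i, hi, hmax⟩ := Finset.exists_max_image s (fun i => toLex (i.1, U i)) hne
  refine ⟨i, hi, fun j hj hji => ?_⟩
  rw [before_iff]
  refine lt_of_le_of_ne (hmax j hj) ?_
  intro h
  have h2 : (j.1, U j) = (i.1, U i) := toLex.injective h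
  exact hnt j hj i hi hji (Prod.mk.inj h2).2

omit hT hTu in
lemma measurable_inn (U : Site V → unitInterval) (i : Site V) :
    Measurable (fun y : Site V → ℝ => inn μ T U y i) := by
  have mM : Measurable (MT μ T U i.1 (U i) i.2) :=
    (nice_MS (i.1 + 1) (cs U) (cut U i.1 (U i)) i.2).1
  have mproj : Measurable (Set.projIcc (0 : ℝ) 1 zero_le_one) := continuous_projIcc.measurable
  exact mproj.comp (measurable_Fc.comp ((mM.const_mul _).prodMk (measurable_pi_apply i)))

/-- peeling off finitely many innovations outside of a cut -/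
lemma inn_peel (U : Site V → unitInterval) (k : ℕ) (t : ℝ) (g : Site V → unitInterval → ℝ)
    (hg : ∀ i, Nice (g i)) {F : (Site V → ℝ) → ℝ} (hF : Nice F)
    (hFS : ∀ y, F y = F (msk (cut U k t) y)) :
    ∀ (n : ℕ) (s : Finset (Site V)), s.card = n → (∀ i ∈ s, i ∉ cut U k t) → NoTie U s →
    ∫ p, F (obsR (cs U) p.1 p.2) * ∏ i ∈ s, g i (inn μ T U (obsR (cs U) p.1 p.2) i) ∂(BM μ)
      = (∫ p, F (obsR (cs U) p.1 p.2) ∂(BM μ)) * ∏ i ∈ s, ∫ x, g i x := by
  intro n
  induction n with
  | zero =>
    intro s hs _ _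
    rw [Finset.card_eq_zero] at hs
    subst hs
    simp
  | succ n ih =>
    intro s hcard hs hnt
    have hne : s.Nonempty := by rw [← Finset.card_pos]; omega
    obtain ⟨i, hi, hlast⟩ := exists_last hne hnt
    have hsub : cut U k t ⊆ cut U i.1 (U i) := cut_subset_of_notMem (hs i hi)
    set F' : (Site V → ℝ) → ℝ := fun y => F y * ∏ j ∈ s.erase i, g j (inn μ T U y j) with hF'
    have nF' : Nice F' := hF.mul (Nice.prod _ (fun j _ => (hg j).comp (measurable_inn U j)))
    have hF'S : ∀ y, F' y = F' (msk (cut U i.1 (U i)) y) := by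
      intro y
      simp only [hF']
      congr 1
      · rw [hFS (msk (cut U i.1 (U i)) y), msk_msk hsub, ← hFS]
      · apply Finset.prod_congr rfl
        intro j hj
        have hb := hlast j (Finset.mem_of_mem_erase hj) (Finset.ne_of_mem_erase hj)
        congr 1
        apply inn_congr
        · intro l hl
          have hl' := cut_subset_cut hb hl
          simp [msk, hl']
        · have hj' := (mem_cut_iff U j i).mpr hb
          simp [msk, hj']
    have nK : Nice (fun q : (Site V → ℝ) × unitInterval => F' q.1 * g i q.2) :=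
      (nF'.comp measurable_fst).mul ((hg i).comp measurable_snd)
    have h := inn_step (μ := μ) hT hTu U i nK (fun y x => by simp only [hF'S y])
    have hprod : ∀ (f : Site V → ℝ), ∏ j ∈ s, f j = f i * ∏ j ∈ s.erase i, f j := fun f =>
      (Finset.mul_prod_erase s f hi).symm
    have e1 : ∀ p : (V → ℤˣ) × (Site V → unitInterval),
        F (obsR (cs U) p.1 p.2) * ∏ j ∈ s, g j (inn μ T U (obsR (cs U) p.1 p.2) j)
        = F' (obsR (cs U) p.1 p.2) * g i (inn μ T U (obsR (cs U) p.1 p.2) i) := by
      intro p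
      rw [hprod]
      simp only [hF']
      ring
    simp only [e1]
    rw [h]
    simp only [integral_const_mul]
    rw [integral_mul_const]
    have h2 := ih (s.erase i) (by rw [Finset.card_erase_of_mem hi]; omega)
      (fun j hj => hs j (Finset.mem_of_mem_erase hj))
      (hnt.mono (Finset.erase_subset _ _))
    rw [h2, hprod]
    ring

end Quenched

end Vale.Agent.P161c
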