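import Vale.Agent.P161c.Inn

/-!
Joint law of past observations and innovations.
-/

set_option linter.unusedSectionVars false
set_option linter.unusedVariables false

namespace Vale.Agent.P161c

open MeasureTheory SimpleGraph Vale.Agent.H13.P161 Filter Topology

/-- a measure with product values on rectangles over boxes is a product measure -/
lemma prod_iid_ext {α ι : Type*} [MeasurableSpace α] (P : Measure α) [IsProbabilityMeasure P]
    (ρ : Measure (α × (ι → unitInterval)))
    (h : ∀ (A : Set α), MeasurableSet A → ∀ (s : Finset ι) (t : ι → Set unitInterval),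
      (∀ i, MeasurableSet (t i)) →
      ρ (A ×ˢ (s : Set ι).pi t) = P A * ∏ i ∈ s, (volume : Measure unitInterval) (t i)) :
    P.prod (iidLabels ι) = ρ := by
  have hD : MeasurableSpace.generateFrom
      (squareCylinders (fun _ : ι => {s : Set unitInterval | MeasurableSet s}))
      = (inferInstance : MeasurableSpace (ι → unitInterval)) :=
    generateFrom_squareCylinders
  refine Measure.prod_eq_generateFrom (C := {s : Set α | MeasurableSet s})
    (D := squareCylinders (fun _ : ι => {s : Set unitInterval | MeasurableSet s}))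
    MeasurableSpace.generateFrom_measurableSet hD
    MeasurableSpace.isPiSystem_measurableSet
    (isPiSystem_squareCylinders (fun _ => MeasurableSpace.isPiSystem_measurableSet)
      (fun _ => by simp))
    ?_ ?_ ?_
  · exact ⟨fun _ => Set.univ, fun _ => MeasurableSet.univ, fun _ => by simp, Set.iUnion_const _⟩
  · refine ⟨fun _ => Set.univ, fun _ => ?_, fun _ => by simp, Set.iUnion_const _⟩
    exact ⟨∅, fun _ => Set.univ, fun _ _ => by simp, by simp⟩
  · rintro A hA B ⟨s, t, ht, rfl⟩
    have ht' : ∀ i, MeasurableSet (t i) := fun i => ht i (Set.mem_univ i)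
    rw [h A hA s t ht']
    congr 1
    unfold iidLabels
    rw [Measure.infinitePi_pi _ (fun i _ => ht' i)]

/-- integral of a finite product of functions of different labels -/
lemma integral_prod_iid {ι : Type*} [DecidableEq ι] (g : ι → unitInterval → ℝ)
    (hg : ∀ i, Nice (g i)) (s : Finset ι) :
    ∫ x, ∏ i ∈ s, g i (x i) ∂(iidLabels ι) = ∏ i ∈ s, ∫ x, g i x := by
  induction s using Finset.induction_on with
  | empty => simp
  | insert a s ha ih =>
    have hn : Nice (fun x : ι → unitInterval => ∏ i ∈ insert a s, g i (x i)) :=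
      Nice.prod _ (fun i _ => (hg i).comp (measurable_pi_apply i))
    rw [integral_update_iid a hn]
    have e : ∀ (x : ι → unitInterval) (u : unitInterval),
        ∏ i ∈ insert a s, g i (Function.update x a u i) = g a u * ∏ i ∈ s, g i (x i) := by
      intro x u
      rw [Finset.prod_insert ha, Function.update_self]
      congr 1
      apply Finset.prod_congr rfl
      intro j hj
      have hja : j ≠ a := fun h => ha (h ▸ hj)
      rw [Function.update_of_ne hja]
    simp only [e]
    simp only [integral_mul_const]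
    rw [integral_const_mul, ih, Finset.prod_insert ha]

variable {V : Type*} [Countable V] [DecidableEq V] {μ : Measure (V → ℤˣ)} [IsProbabilityMeasure μ]
  {T : ℕ → Finset V} (hT : Monotone T) (hTu : ∀ v, ∃ n, v ∈ T n)

/-- labels without ties -/
def NoTieAll (U : Site V → unitInterval) : Prop := ∀ i j : Site V, i ≠ j → U i ≠ U j

lemma NoTieAll.noTie {U : Site V → unitInterval} (h : NoTieAll U) (s : Finset (Site V)) :
    NoTie U s := fun i _ j _ hij => h i j hij

lemma noTieAll_ae : ∀ᵐ U ∂(iidLabels (Site V)), NoTieAll U := by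
  have h : ∀ i j : Site V, ∀ᵐ U ∂(iidLabels (Site V)), i ≠ j → U i ≠ U j := by
    intro i j
    by_cases hij : i = j
    · exact Eventually.of_forall (fun U h => absurd hij h)
    · filter_upwards [ae_ne_of_ne hij] with U hU
      exact fun _ => hU
  have h2 : ∀ᵐ U ∂(iidLabels (Site V)), ∀ i, ∀ j : Site V, i ≠ j → U i ≠ U j := by
    rw [ae_all_iff]; intro i; rw [ae_all_iff]; exact h i
  exact h2

include hT hTu

open Classical in
/-- joint law of the past observations and the innovations after the cut -/
lemma joint_law (U : Site V → unitInterval) (hU : NoTieAll U) (k : ℕ) (t : ℝ) :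
    ((BM μ).prod (iidLabels (Site V))).map (fun q =>
        (msk (cut U k t) (obsR (cs U) q.1.1 q.1.2),
          mix (cut U k t) (inn μ T U (obsR (cs U) q.1.1 q.1.2)) q.2))
      = ((BM μ).map (fun p => msk (cut U k t) (obsR (cs U) p.1 p.2))).prod
          (iidLabels (Site V)) := by
  set S := cut U k t with hS
  have mO := measurable_obsR (cs U)
  have mmO : Measurable (fun p : (V → ℤˣ) × (Site V → unitInterval) =>
      msk S (obsR (cs U) p.1 p.2)) := (measurable_msk S).comp mO
  have : IsProbabilityMeasure ((BM μ).map (fun p => msk S (obsR (cs U) p.1 p.2))) :=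
    Measure.isProbabilityMeasure_map mmO.aemeasurable
  have minn : Measurable (fun y : Site V → ℝ => inn μ T U y) := by
    rw [measurable_pi_iff]; exact fun i => measurable_inn U i
  have mmix : Measurable (fun q : ((V → ℤˣ) × (Site V → unitInterval)) × (Site V → unitInterval) =>
      mix S (inn μ T U (obsR (cs U) q.1.1 q.1.2)) q.2) :=
    (measurable_mix (X := fun _ : Site V => unitInterval) S).comp
      ((minn.comp (mO.comp measurable_fst)).prodMk measurable_snd)
  have mmap : Measurable (fun q : ((V → ℤˣ) × (Site V → unitInterval)) × (Site V → unitInterval) =>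
      (msk S (obsR (cs U) q.1.1 q.1.2),
        mix S (inn μ T U (obsR (cs U) q.1.1 q.1.2)) q.2)) :=
    (mmO.comp measurable_fst).prodMk mmix
  symm
  apply prod_iid_ext
  intro A hA s t' ht'
  have hbox : MeasurableSet ((s : Set (Site V)).pi t') :=
    MeasurableSet.pi s.countable_toSet (fun i _ => ht' i)
  rw [Measure.map_apply mmap (hA.prod hbox), Measure.map_apply mmO hA]
  -- real-valued version
  set F : (Site V → ℝ) → ℝ := fun y => (A.indicator (fun _ => (1 : ℝ))) (msk S y) with hF
  set g : Site V → unitInterval → ℝ := fun i => (t' i).indicator (fun _ => (1 : ℝ)) with hg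
  have nF : Nice F := ⟨(measurable_const.indicator hA).comp (measurable_msk S), 1, fun y => by
    simp only [hF]
    by_cases h : msk S y ∈ A <;> simp [h]⟩
  have ng : ∀ i, Nice (g i) := fun i => ⟨measurable_const.indicator (ht' i), 1, fun y => by
    simp only [hg]
    by_cases h : y ∈ t' i <;> simp [h]⟩
  have hFS : ∀ y, F y = F (msk S y) := by
    intro y
    simp only [hF, msk_msk (Set.Subset.refl S)]
  have key : ∫ q, F (obsR (cs U) q.1.1 q.1.2) *
        ∏ i ∈ s, g i (mix S (inn μ T U (obsR (cs U) q.1.1 q.1.2)) q.2 i)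
        ∂((BM μ).prod (iidLabels (Site V)))
      = (∫ p, F (obsR (cs U) p.1 p.2) ∂(BM μ)) * ∏ i ∈ s, ∫ x, g i x := by
    have nn : Nice (fun q : ((V → ℤˣ) × (Site V → unitInterval)) × (Site V → unitInterval) =>
        F (obsR (cs U) q.1.1 q.1.2) *
        ∏ i ∈ s, g i (mix S (inn μ T U (obsR (cs U) q.1.1 q.1.2)) q.2 i)) := by
      apply (nF.comp (mO.comp measurable_fst)).mul
      apply Nice.prod
      intro i _
      exact (ng i).comp ((measurable_pi_apply i).comp mmix)
    rw [nn.integral_prod]
    have e : ∀ (p : (V → ℤˣ) × (Site V → unitInterval)),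
        ∫ x, F (obsR (cs U) p.1 p.2) *
          ∏ i ∈ s, g i (mix S (inn μ T U (obsR (cs U) p.1 p.2)) x i) ∂(iidLabels (Site V))
        = (F (obsR (cs U) p.1 p.2) *
            ∏ i ∈ s.filter (fun i => i ∉ S), g i (inn μ T U (obsR (cs U) p.1 p.2) i))
          * ∏ i ∈ s.filter (fun i => i ∈ S), ∫ x, g i x := by
      intro p
      have e1 : ∀ x : Site V → unitInterval,
          ∏ i ∈ s, g i (mix S (inn μ T U (obsR (cs U) p.1 p.2)) x i)
          = (∏ i ∈ s.filter (fun i => i ∉ S), g i (inn μ T U (obsR (cs U) p.1 p.2) i))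
            * ∏ i ∈ s.filter (fun i => i ∈ S), g i (x i) := by
        intro x
        rw [← Finset.prod_filter_mul_prod_filter_not s (fun i => i ∈ S), mul_comm]
        congr 1
        · apply Finset.prod_congr rfl
          intro i hi
          have hi' := (Finset.mem_filter.mp hi).2
          simp [mix, hi']
        · apply Finset.prod_congr rfl
          intro i hi
          have hi' := (Finset.mem_filter.mp hi).2
          simp [mix, hi']
      simp only [e1]
      rw [integral_const_mul, integral_const_mul, integral_prod_iid g ng]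
      ring
    simp only [e]
    rw [integral_mul_const, inn_peel hT hTu U k t g ng nF hFS _ _ rfl
      (fun i hi => (Finset.mem_filter.mp hi).2) (hU.noTie _), mul_assoc]
    congr 1
    rw [mul_comm]
    exact Finset.prod_filter_mul_prod_filter_not s (fun i => i ∈ S) (fun i => ∫ x, g i x)
  -- conversion to measures
  have hgv : ∀ i, ∫ x, g i x = ((volume : Measure unitInterval) (t' i)).toReal := by
    intro i
    simp only [hg]
    rw [integral_indicator (ht' i)]
    simp [Measure.real]
  have hL : ∫ q, F (obsR (cs U) q.1.1 q.1.2) *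
        ∏ i ∈ s, g i (mix S (inn μ T U (obsR (cs U) q.1.1 q.1.2)) q.2 i)
        ∂((BM μ).prod (iidLabels (Site V)))
      = (((BM μ).prod (iidLabels (Site V))) ((fun q =>
        (msk S (obsR (cs U) q.1.1 q.1.2),
          mix S (inn μ T U (obsR (cs U) q.1.1 q.1.2)) q.2)) ⁻¹'
          (A ×ˢ (s : Set (Site V)).pi t'))).toReal := by
    have e : (fun q : ((V → ℤˣ) × (Site V → unitInterval)) × (Site V → unitInterval) =>
        F (obsR (cs U) q.1.1 q.1.2) *
        ∏ i ∈ s, g i (mix S (inn μ T U (obsR (cs U) q.1.1 q.1.2)) q.2 i))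
        = ((fun q : ((V → ℤˣ) × (Site V → unitInterval)) × (Site V → unitInterval) =>
        (msk S (obsR (cs U) q.1.1 q.1.2),
          mix S (inn μ T U (obsR (cs U) q.1.1 q.1.2)) q.2)) ⁻¹'
          (A ×ˢ (s : Set (Site V)).pi t')).indicator (fun _ => (1 : ℝ)) := by
      ext q
      by_cases hq : msk S (obsR (cs U) q.1.1 q.1.2) ∈ A
      · by_cases hb : ∀ i ∈ s, mix S (inn μ T U (obsR (cs U) q.1.1 q.1.2)) q.2 i ∈ t' i
        · rw [Set.indicator_of_mem]
          · simp only [hF, hg, Set.indicator_of_mem hq, one_mul]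
            apply Finset.prod_eq_one
            intro i hi
            rw [Set.indicator_of_mem (hb i hi)]
          · exact ⟨hq, fun i hi => hb i hi⟩
        · rw [Set.indicator_of_notMem]
          · push Not at hb
            obtain ⟨i, hi, hn⟩ := hb
            have : ∏ i ∈ s, g i (mix S (inn μ T U (obsR (cs U) q.1.1 q.1.2)) q.2 i) = 0 := by
              apply Finset.prod_eq_zero hi
              simp only [hg]
              rw [Set.indicator_of_notMem hn]
            rw [this, mul_zero]
          · rintro ⟨_, h2⟩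
            exact hb (fun i hi => h2 i hi)
      · rw [Set.indicator_of_notMem]
        · simp only [hF, Set.indicator_of_notMem hq, zero_mul]
        · rintro ⟨h1, _⟩
          exact hq h1
    rw [e, integral_indicator (mmap (hA.prod hbox))]
    simp [Measure.real]
  have hR : ∫ p, F (obsR (cs U) p.1 p.2) ∂(BM μ)
      = ((BM μ) ((fun p => msk S (obsR (cs U) p.1 p.2)) ⁻¹' A)).toReal := by
    have e : (fun p : (V → ℤˣ) × (Site V → unitInterval) => F (obsR (cs U) p.1 p.2))
        = ((fun p : (V → ℤˣ) × (Site V → unitInterval) =>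
            msk S (obsR (cs U) p.1 p.2)) ⁻¹' A).indicator (fun _ => (1 : ℝ)) := by
      ext p
      rfl
    rw [e, integral_indicator (mmO hA)]
    simp [Measure.real]
  have hfin := key
  rw [hL, hR] at hfin
  simp only [hgv] at hfin
  rw [← ENNReal.toReal_prod, ← ENNReal.toReal_mul] at hfin
  rw [ENNReal.toReal_eq_toReal_iff' (measure_ne_top _ _)] at hfin
  · exact hfin
  · apply ENNReal.mul_ne_top (measure_ne_top _ _)
    exact ENNReal.prod_ne_top (fun i _ => measure_ne_top _ _)

omit [Countable V] [DecidableEq V] hT hTu in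
lemma cut_subset_of_mem {U : Site V → unitInterval} {k : ℕ} {t : ℝ} {j : Site V}
    (h : j ∈ cut U k t) : cut U j.1 (U j) ⊆ cut U k t := by
  intro l hl
  simp only [cut, Set.mem_ofPred_eq] at h hl ⊢
  rcases h with h | h <;> rcases hl with hl | hl
  · left; omega
  · left; omega
  · left; omega
  · right; exact ⟨by omega, lt_trans hl.2 h.2⟩

omit hT hTu in
lemma measurable_innF (U : Site V → unitInterval) : Measurable (fun y : Site V → ℝ => inn μ T U y) := by
  rw [measurable_pi_iff]; exact fun i => measurable_inn U i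

open Classical in
/-- resampling of the innovations after a cut, quenched version -/
lemma inn_resample (U : Site V → unitInterval) (hU : NoTieAll U) (k : ℕ) (t : ℝ)
    {Γ : (Site V → ℝ) × (Site V → unitInterval) → ℝ} (hΓ : Nice Γ)
    (hΓS : ∀ y ξ, Γ (y, ξ) = Γ (msk (cut U k t) y, ξ)) :
    ∫ p, Γ (obsR (cs U) p.1 p.2, inn μ T U (obsR (cs U) p.1 p.2)) ∂(BM μ)
      = ∫ p, (∫ x, Γ (obsR (cs U) p.1 p.2,
          mix (cut U k t) x (inn μ T U (obsR (cs U) p.1 p.2))) ∂(iidLabels (Site V))) ∂(BM μ) := by
  set S := cut U k t with hS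
  have mO := measurable_obsR (cs U)
  have mmO : Measurable (fun p : (V → ℤˣ) × (Site V → unitInterval) =>
      msk S (obsR (cs U) p.1 p.2)) := (measurable_msk S).comp mO
  have minn := measurable_innF (μ := μ) (T := T) U
  have mmix : Measurable (fun q : ((V → ℤˣ) × (Site V → unitInterval)) × (Site V → unitInterval) =>
      mix S (inn μ T U (obsR (cs U) q.1.1 q.1.2)) q.2) :=
    (measurable_mix (X := fun _ : Site V => unitInterval) S).comp
      ((minn.comp (mO.comp measurable_fst)).prodMk measurable_snd)
  have mmap : Measurable (fun q : ((V → ℤˣ) × (Site V → unitInterval)) × (Site V → unitInterval) =>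
      (msk S (obsR (cs U) q.1.1 q.1.2),
        mix S (inn μ T U (obsR (cs U) q.1.1 q.1.2)) q.2)) :=
    (mmO.comp measurable_fst).prodMk mmix
  have hinnS : ∀ y : Site V → ℝ, ∀ j ∈ S, inn μ T U (msk S y) j = inn μ T U y j := by
    intro y j hj
    apply inn_congr
    · intro l hl
      have h2 : l ∈ S := cut_subset_of_mem hj hl
      simp [msk, h2]
    · simp [msk, hj]
  have hmixS : ∀ (y : Site V → ℝ) (η : Site V → unitInterval),
      mix S η (inn μ T U (msk S y)) = mix S η (inn μ T U y) := by
    intro y η
    ext j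
    by_cases hj : j ∈ S
    · simp only [mix, if_pos hj, hinnS y j hj]
    · simp only [mix, if_neg hj]
  set Λ : (Site V → ℝ) × (Site V → unitInterval) → ℝ :=
    fun w => Γ (w.1, mix S w.2 (inn μ T U w.1)) with hΛ
  have mJ : Measurable (fun w : (Site V → ℝ) × (Site V → unitInterval) =>
      (w.1, mix S w.2 (inn μ T U w.1))) :=
    measurable_fst.prodMk ((measurable_mix (X := fun _ : Site V => unitInterval) S).comp
      (measurable_snd.prodMk (minn.comp measurable_fst)))
  have nΛ : Nice Λ := hΓ.comp mJ
  have hlaw := joint_law (μ := μ) hT hTu U hU k t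
  have e1 : ∀ (p : (V → ℤˣ) × (Site V → unitInterval)) (x : Site V → unitInterval),
      Λ (msk S (obsR (cs U) p.1 p.2), mix S (inn μ T U (obsR (cs U) p.1 p.2)) x)
        = Γ (obsR (cs U) p.1 p.2, inn μ T U (obsR (cs U) p.1 p.2)) := by
    intro p x
    simp only [hΛ]
    rw [hmixS, ← hΓS]
    congr 2
    ext j
    by_cases hj : j ∈ S
    · simp [mix, hj]
    · simp [mix, hj]
  have e2 : ∀ (p : (V → ℤˣ) × (Site V → unitInterval)) (x : Site V → unitInterval),
      Λ (msk S (obsR (cs U) p.1 p.2), x)
        = Γ (obsR (cs U) p.1 p.2, mix S x (inn μ T U (obsR (cs U) p.1 p.2))) := by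
    intro p x
    simp only [hΛ]
    rw [hmixS, ← hΓS]
  calc ∫ p, Γ (obsR (cs U) p.1 p.2, inn μ T U (obsR (cs U) p.1 p.2)) ∂(BM μ)
      = ∫ p, (∫ x, Λ (msk S (obsR (cs U) p.1 p.2), mix S (inn μ T U (obsR (cs U) p.1 p.2)) x)
          ∂(iidLabels (Site V))) ∂(BM μ) := by
        simp only [e1]
        simp
    _ = ∫ q, Λ (msk S (obsR (cs U) q.1.1 q.1.2), mix S (inn μ T U (obsR (cs U) q.1.1 q.1.2)) q.2)
          ∂((BM μ).prod (iidLabels (Site V))) := ((nΛ.comp mmap).integral_prod _ _).symm
    _ = ∫ w, Λ w ∂(((BM μ).prod (iidLabels (Site V))).map (fun q =>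
        (msk S (obsR (cs U) q.1.1 q.1.2),
          mix S (inn μ T U (obsR (cs U) q.1.1 q.1.2)) q.2))) := by
        rw [integral_map mmap.aemeasurable nΛ.1.aestronglyMeasurable]
    _ = ∫ w, Λ w ∂(((BM μ).map (fun p => msk S (obsR (cs U) p.1 p.2))).prod
          (iidLabels (Site V))) := by rw [hlaw]
    _ = ∫ y, ∫ x, Λ (y, x) ∂(iidLabels (Site V))
          ∂((BM μ).map (fun p => msk S (obsR (cs U) p.1 p.2))) := by
        have : IsProbabilityMeasure ((BM μ).map (fun p => msk S (obsR (cs U) p.1 p.2))) :=
          Measure.isProbabilityMeasure_map mmO.aemeasurable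
        exact nΛ.integral_prod _ _
    _ = ∫ p, ∫ x, Λ (msk S (obsR (cs U) p.1 p.2), x) ∂(iidLabels (Site V)) ∂(BM μ) := by
        rw [integral_map mmO.aemeasurable
          (nΛ.integral_right (iidLabels (Site V))).1.aestronglyMeasurable]
    _ = _ := by simp only [e2]

end Vale.Agent.P161c
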