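import Vale.Agent.P161c.EnvConstr
import Vale.Agent.H13.P161.Limit

/-!
The observation process in rounds: strengths, cuts, own magnetizations, innovations.
-/

namespace Vale.Agent.P161c

open MeasureTheory SimpleGraph Vale.Agent.H13.P161 Filter Topology

/-! ### Vertex level -/

/-- combination of the first `n` observations `z` at one vertex -/
noncomputable def ow (n : ℕ) (z : ℕ → ℝ) : ℝ :=
  (∏ l ∈ Finset.range n, (1 + z l) - ∏ l ∈ Finset.range n, (1 - z l)) /
    (∏ l ∈ Finset.range n, (1 + z l) + ∏ l ∈ Finset.range n, (1 - z l))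

/-- bound for `ow n z` if all `|z l| ≤ 1/2` -/
noncomputable def ak (n : ℕ) : ℝ := ((3 : ℝ) ^ n - 1) / (3 ^ n + 1)

open Classical in
/-- masked observations at one vertex with strengths `c` and mask `S` -/
noncomputable def chY (c : ℕ → ℝ) (S : Set ℕ) (s : ℤˣ) (x : ℕ → unitInterval) : ℕ → ℝ :=
  fun l => if l ∈ S then Qc (c l * spinVal s) (x l) else 0

open Classical in
/-- own magnetization from the masked observations -/
noncomputable def chb (n : ℕ) (c : ℕ → ℝ) (S : Set ℕ) (y : ℕ → ℝ) : ℝ :=
  ow n (fun l => if l ∈ S then c l * cl (y l) else 0)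

/-- strength of the observation of round `l` with label `u` -/
noncomputable def str (l : ℕ) (u : unitInterval) : ℝ :=
  if (u : ℝ) < 1 / 2 then (if l = 0 then (u : ℝ) / 2 else 1 / 2) else 0

/-- labels (per round) processed before the time `(k, t)` -/
def cutN (u : ℕ → unitInterval) (k : ℕ) (t : ℝ) : Set ℕ := {l | l < k ∨ (l = k ∧ (u l : ℝ) < t)}

/-- annealed vertex channel at time `(k, t)` -/
noncomputable def anY (k : ℕ) (t : ℝ) (s : ℤˣ) (x : (ℕ → unitInterval) × (ℕ → unitInterval)) :
    (ℕ → unitInterval) × (ℕ → ℝ) :=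
  (x.1, chY (fun l => str l (x.1 l)) (cutN x.1 k t) s x.2)

/-- own magnetization of the annealed channel at time `(k, t)` -/
noncomputable def anb (k : ℕ) (t : ℝ) (y : (ℕ → unitInterval) × (ℕ → ℝ)) : ℝ :=
  chb (k + 1) (fun l => str l (y.1 l)) (cutN y.1 k t) y.2

/-! ### Site level -/

variable {V : Type*}

/-- strengths of all sites -/
noncomputable def cs (U : Site V → unitInterval) (i : Site V) : ℝ := str i.1 (U i)

/-- observations with strengths `c` -/
noncomputable def obsR (c : Site V → ℝ) (σ : V → ℤˣ) (ζ : Site V → unitInterval) : Site V → ℝ :=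
  fun i => Qc (c i * spinVal (σ i.2)) (ζ i)

open Classical in
/-- masked field -/
noncomputable def msk (S : Set (Site V)) (y : Site V → ℝ) : Site V → ℝ :=
  fun i => if i ∈ S then y i else 0

open Classical in
/-- own magnetizations from the observations in the cut `S` -/
noncomputable def aF (n : ℕ) (c : Site V → ℝ) (S : Set (Site V)) (y : Site V → ℝ) (w : V) : ℝ :=
  ow n (fun l => if (l, w) ∈ S then c (l, w) * cl (y (l, w)) else 0)

/-- sites processed before the time `(k, t)` -/
def cut (U : Site V → unitInterval) (k : ℕ) (t : ℝ) : Set (Site V) :=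
  {j | j.1 < k ∨ (j.1 = k ∧ (U j : ℝ) < t)}

/-- own magnetizations at time `(k, t)` -/
noncomputable def aT (U : Site V → unitInterval) (k : ℕ) (t : ℝ) (y : Site V → ℝ) : V → ℝ :=
  aF (k + 1) (cs U) (cut U k t) y

/-- magnetization at `v` at time `(k, t)` -/
noncomputable def MT (μ : Measure (V → ℤˣ)) (T : ℕ → Finset V) (U : Site V → unitInterval)
    (k : ℕ) (t : ℝ) (v : V) (y : Site V → ℝ) : ℝ :=
  postI μ (ak (k + 1)) T v (aT U k t y)

/-- the innovations -/
noncomputable def inn (μ : Measure (V → ℤˣ)) (T : ℕ → Finset V) (U : Site V → unitInterval)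
    (y : Site V → ℝ) : Site V → unitInterval :=
  fun i => Set.projIcc (0 : ℝ) 1 zero_le_one (Fc (cs U i * MT μ T U i.1 (U i) i.2 y) (y i))

end Vale.Agent.P161c
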