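import Vale.Agent.P161c.StageB

/-!
Recentering inequality for two coupled homogeneous cavity fields.
-/

namespace Vale.Agent.P161c

open MeasureTheory SimpleGraph Vale.Agent.H13.P161

section Defs

variable {V : Type*} (G : SimpleGraph V)

/-- sum of the squared covariances of all pairs separated by the edge `g v` -/
noncomputable def S2 (θ : ℝ) (m : V → V → ℝ) (g v : V) : ℝ :=
  Cv G θ m g v ^ 2 * (Rb2 G θ m g v).toReal * (Rb2 G θ m v g).toReal

/-- sum of the squared covariances from a vertex -/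
noncomputable def T2 (θ : ℝ) (m : V → V → ℝ) (v : V) : ℝ :=
  (∑' w, ENNReal.ofReal (Cv G θ m v w ^ 2)).toReal

end Defs

variable {V : Type*} {G : SimpleGraph V} [LocallyFinite G] [DecidableEq V] [Countable V]

section Recenter

variable {θ α : ℝ}

/-- `e` if the vertex `x ≠ v` is on the path from `v` to `w`, else `0` -/
noncomputable def opI (G : SimpleGraph V) (v x w : V) (e : ENNReal) : ENNReal :=
  @ite _ (x ≠ v ∧ w ∈ br G x (par G v x)) (Classical.propDecidable _) e 0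

omit [LocallyFinite G] [DecidableEq V] [Countable V] in
lemma opI_pos {v x w : V} {e : ENNReal} (h : x ≠ v ∧ w ∈ br G x (par G v x)) :
    opI G v x w e = e := by
  unfold opI
  rw [if_pos h]

omit [LocallyFinite G] [DecidableEq V] [Countable V] in
lemma opI_neg {v x w : V} {e : ENNReal} (h : ¬ (x ≠ v ∧ w ∈ br G x (par G v x))) :
    opI G v x w e = 0 := by
  unfold opI
  rw [if_neg h]

/-- sum along the path -/
noncomputable def pathSum (G : SimpleGraph V) (κ : V → V → ENNReal) (v w : V) : ENNReal :=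
  ∑' x, opI G v x w (κ x (par G v x))

omit [LocallyFinite G] [DecidableEq V] [Countable V] in
lemma pathSum_self (hG : G.IsTree) (κ : V → V → ENNReal) (v : V) : pathSum G κ v v = 0 := by
  unfold pathSum
  rw [ENNReal.tsum_eq_zero]
  intro x
  apply opI_neg
  rintro ⟨hx, hv⟩
  have h1 := par_spec hG.connected hx
  have h2 : G.dist v x < G.dist v (par G v x) := hv
  omega

omit [LocallyFinite G] [DecidableEq V] [Countable V] in
lemma onp_step (hG : G.IsTree) {v w x : V} (hw : w ≠ v) (hx : x ≠ v) (hxw : x ≠ w) :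
    w ∈ br G x (par G v x) ↔ par G v w ∈ br G x (par G v x) := by
  have h1 := par_spec hG.connected hw
  have h2 := par_spec hG.connected hx
  have d1 := hG.dist_ne_of_adj w h2.1
  have d2 := hG.dist_ne_of_adj (par G v w) h2.1
  constructor
  · intro h
    have h' : G.dist w x < G.dist w (par G v x) := h
    by_contra hcon
    have hcon' : ¬ G.dist (par G v w) x < G.dist (par G v w) (par G v x) := hcon
    have := side_adj hG h2.1 h' (by omega) h1.1
    exact hxw this.1.symm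
  · intro h
    have h' : G.dist (par G v w) x < G.dist (par G v w) (par G v x) := h
    by_contra hcon
    have hcon' : ¬ G.dist w x < G.dist w (par G v x) := hcon
    obtain ⟨e1, e2⟩ := side_adj hG h2.1 h' (by omega) h1.1.symm
    have e3 := h1.2
    have e4 := h2.2
    rw [e1] at e3
    rw [← e2] at e4
    omega

omit [LocallyFinite G] [Countable V] in
lemma pathSum_step (hG : G.IsTree) (κ : V → V → ENNReal) {v w : V} (hw : w ≠ v) :
    pathSum G κ v w = pathSum G κ v (par G v w) + κ w (par G v w) := by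
  have h1 := par_spec hG.connected hw
  have hww : w ∈ br G w (par G v w) := by
    change G.dist w w < G.dist w (par G v w)
    rw [dist_eq_one_iff_adj.mpr h1.1]
    simp
  have hpw : par G v w ∉ br G w (par G v w) := by
    intro h
    have h' : G.dist (par G v w) w < G.dist (par G v w) (par G v w) := h
    simp at h'
  have e : ∀ x, opI G v x w (κ x (par G v x))
      = opI G v x (par G v w) (κ x (par G v x)) + (if x = w then κ w (par G v w) else 0) := by
    intro x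
    by_cases hxw : x = w
    · subst hxw
      rw [if_pos rfl, opI_pos ⟨hw, hww⟩, opI_neg (fun h => hpw h.2), zero_add]
    · rw [if_neg hxw, add_zero]
      by_cases hx : x = v
      · rw [opI_neg (fun h => h.1 hx), opI_neg (fun h => h.1 hx)]
      · have hs := onp_step hG hw hx hxw
        by_cases h : w ∈ br G x (par G v x)
        · rw [opI_pos ⟨hx, h⟩, opI_pos ⟨hx, hs.mp h⟩]
        · rw [opI_neg (fun h' => h h'.2), opI_neg (fun h' => h (hs.mpr h'.2))]
  unfold pathSum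
  rw [tsum_congr e, ENNReal.tsum_add, tsum_ite_eq]

/-- positive part of the difference of the logarithms of the screening factors of a directed
edge -/
noncomputable def kpE (θ : ℝ) (x p : V) (q : (V → V → ℝ) × (V → V → ℝ)) : ENNReal :=
  ENNReal.ofReal (Real.log (phi θ (q.1 x p)) - Real.log (phi θ (q.2 x p)))

lemma measurable_phiA : Measurable (phi θ) := by
  unfold phi
  fun_prop

lemma measurable_logphi (x p : V) :
    Measurable (fun m : V → V → ℝ => Real.log (phi θ (m x p))) :=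
  Real.measurable_log.comp (measurable_phiA.comp
    ((measurable_pi_apply p).comp (measurable_pi_apply x)))

lemma measurable_kpE (x p : V) : Measurable (kpE (V := V) θ x p) := by
  unfold kpE
  exact (((measurable_logphi x p).comp measurable_fst).sub
    ((measurable_logphi x p).comp measurable_snd)).ennreal_ofReal

omit [Countable V] in
lemma pathSum_log (hG : G.IsTree) (hθ0 : 0 ≤ θ) (hθ1 : θ < 1) (hα1 : α < 1)
    {m m' : V → V → ℝ} (hm : IsCavity G θ α m) (hm' : IsCavity G θ α m') (v w : V) :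
    pathSum G (fun x p => kpE θ x p (m, m')) v w ≠ ⊤ ∧
    pathSum G (fun x p => kpE θ x p (m', m)) v w ≠ ⊤ ∧
    (pathSum G (fun x p => kpE θ x p (m, m')) v w).toReal
      - (pathSum G (fun x p => kpE θ x p (m', m)) v w).toReal
      = Real.log (Wt G θ m v w) - Real.log (Wt G θ m' v w) := by
  refine bcast_induction (G := G) (o := v)
    (P := fun w => pathSum G (fun x p => kpE θ x p (m, m')) v w ≠ ⊤ ∧
    pathSum G (fun x p => kpE θ x p (m', m)) v w ≠ ⊤ ∧
    (pathSum G (fun x p => kpE θ x p (m, m')) v w).toReal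
      - (pathSum G (fun x p => kpE θ x p (m', m)) v w).toReal
      = Real.log (Wt G θ m v w) - Real.log (Wt G θ m' v w)) hG.connected ?_ ?_ w
  · simp only [pathSum_self hG, Wt_self]
    simp
  · intro w hw ih
    obtain ⟨i1, i2, i3⟩ := ih
    rw [pathSum_step hG _ hw, pathSum_step hG _ hw]
    have k1 : kpE θ w (par G v w) (m, m') ≠ ⊤ := ENNReal.ofReal_ne_top
    have k2 : kpE θ w (par G v w) (m', m) ≠ ⊤ := ENNReal.ofReal_ne_top
    refine ⟨ENNReal.add_ne_top.mpr ⟨i1, k1⟩, ENNReal.add_ne_top.mpr ⟨i2, k2⟩, ?_⟩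
    rw [ENNReal.toReal_add i1 k1, ENNReal.toReal_add i2 k2,
      log_Wt_tail hθ0 hθ1 hα1 hG.connected hm hw, log_Wt_tail hθ0 hθ1 hα1 hG.connected hm' hw]
    have k3 : (kpE θ w (par G v w) (m, m')).toReal - (kpE θ w (par G v w) (m', m)).toReal
        = Real.log (phi θ (m w (par G v w))) - Real.log (phi θ (m' w (par G v w))) := by
      unfold kpE
      set a := Real.log (phi θ (m w (par G v w)))
      set b := Real.log (phi θ (m' w (par G v w)))
      rcases le_total a b with h | h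
      · rw [ENNReal.ofReal_of_nonpos (by linarith), ENNReal.toReal_zero,
          ENNReal.toReal_ofReal (by linarith)]
        ring
      · rw [ENNReal.ofReal_of_nonpos (by linarith : b - a ≤ 0), ENNReal.toReal_zero,
          ENNReal.toReal_ofReal (by linarith)]
        ring
    linarith

/-- positive part of the difference of `log (1 - mag²)` -/
noncomputable def vpE (G : SimpleGraph V) (θ : ℝ) (v : V)
    (q : (V → V → ℝ) × (V → V → ℝ)) : ENNReal :=
  ENNReal.ofReal (Real.log (1 - mag G θ q.1 v ^ 2) - Real.log (1 - mag G θ q.2 v ^ 2))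

lemma measurable_vpE (v : V) : Measurable (vpE G θ v) := by
  unfold vpE
  have h : Measurable (fun m : V → V → ℝ => Real.log (1 - mag G θ m v ^ 2)) :=
    Real.measurable_log.comp (((measurable_mag v).pow_const 2).const_sub 1)
  exact ((h.comp measurable_fst).sub (h.comp measurable_snd)).ennreal_ofReal

/-- pointwise inequality -/
lemma rc_pointwise (hG : G.IsTree) (hθ0 : 0 < θ) (hθ1 : θ < 1) (hα0 : 0 ≤ α) (hα1 : α < 1)
    {m m' : V → V → ℝ} (hm : IsCavity G θ α m) (hm' : IsCavity G θ α m') (v w : V) :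
    2 * ENNReal.ofReal ((Cv G θ m v w - Cv G θ m' v w) ^ 2)
      + ((vpE G θ v (m', m) + pathSum G (fun x p => kpE θ x p (m', m)) v w)
          * ENNReal.ofReal (Cv G θ m v w ^ 2)
        + (vpE G θ v (m, m') + pathSum G (fun x p => kpE θ x p (m, m')) v w)
          * ENNReal.ofReal (Cv G θ m' v w ^ 2))
    ≤ (vpE G θ v (m, m') + pathSum G (fun x p => kpE θ x p (m, m')) v w)
          * ENNReal.ofReal (Cv G θ m v w ^ 2)
      + (vpE G θ v (m', m) + pathSum G (fun x p => kpE θ x p (m', m)) v w)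
          * ENNReal.ofReal (Cv G θ m' v w ^ 2) := by
  obtain ⟨k1, k2, k3⟩ := pathSum_log hG hθ0.le hθ1 hα1 hm hm' v w
  have hC := Cv_pos hθ0 hθ1 hα0 hα1 hG.connected hm v w
  have hC' := Cv_pos hθ0 hθ1 hα0 hα1 hG.connected hm' v w
  have hlog := sq_sub_le_log hC hC'
  have hmag : ∀ {n : V → V → ℝ}, IsCavity G θ α n → 0 < 1 - mag G θ n v ^ 2 := by
    intro n hn
    have h1 := abs_mag_le hθ0.le hθ1 hα0 hα1 hn v
    have h2 := aMag_lt_one hθ0.le hθ1 hα0 hα1
    have h3 : mag G θ n v ^ 2 < 1 := by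
      rw [← sq_abs]
      have := abs_nonneg (mag G θ n v)
      nlinarith
    linarith
  have hexp : ∀ {n : V → V → ℝ}, IsCavity G θ α n →
      Real.log (Cv G θ n v w) = Real.log (1 - mag G θ n v ^ 2)
        + Real.log (θ ^ G.dist v w) + Real.log (Wt G θ n v w) := by
    intro n hn
    have hW := (Wt_pos_le hθ0.le hθ1 hα1 hG.connected hn v w).1
    unfold Cv
    rw [Real.log_mul (mul_pos (hmag hn) (pow_pos hθ0 _)).ne' hW.ne',
      Real.log_mul (hmag hn).ne' (pow_pos hθ0 _).ne']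
  have v3 : (vpE G θ v (m, m')).toReal - (vpE G θ v (m', m)).toReal
      = Real.log (1 - mag G θ m v ^ 2) - Real.log (1 - mag G θ m' v ^ 2) := by
    unfold vpE
    set a := Real.log (1 - mag G θ m v ^ 2)
    set b := Real.log (1 - mag G θ m' v ^ 2)
    rcases le_total a b with h | h
    · rw [ENNReal.ofReal_of_nonpos (by linarith), ENNReal.toReal_zero,
        ENNReal.toReal_ofReal (by linarith)]
      ring
    · rw [ENNReal.ofReal_of_nonpos (by linarith : b - a ≤ 0), ENNReal.toReal_zero,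
        ENNReal.toReal_ofReal (by linarith)]
      ring
  have v1 : vpE G θ v (m, m') ≠ ⊤ := ENNReal.ofReal_ne_top
  have v2 : vpE G θ v (m', m) ≠ ⊤ := ENNReal.ofReal_ne_top
  set A := vpE G θ v (m, m') + pathSum G (fun x p => kpE θ x p (m, m')) v w with hA
  set B := vpE G θ v (m', m) + pathSum G (fun x p => kpE θ x p (m', m)) v w with hB
  have hAt : A ≠ ⊤ := ENNReal.add_ne_top.mpr ⟨v1, k1⟩
  have hBt : B ≠ ⊤ := ENNReal.add_ne_top.mpr ⟨v2, k2⟩
  have hAB : A.toReal - B.toReal = Real.log (Cv G θ m v w) - Real.log (Cv G θ m' v w) := by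
    rw [hA, hB, ENNReal.toReal_add v1 k1, ENNReal.toReal_add v2 k2, hexp hm, hexp hm']
    linarith
  set C := Cv G θ m v w
  set C' := Cv G θ m' v w
  have a0 : 0 ≤ A.toReal := ENNReal.toReal_nonneg
  have b0 : 0 ≤ B.toReal := ENNReal.toReal_nonneg
  rw [← ENNReal.ofReal_toReal hAt, ← ENNReal.ofReal_toReal hBt]
  rw [← ENNReal.ofReal_mul b0, ← ENNReal.ofReal_mul a0, ← ENNReal.ofReal_mul a0,
    ← ENNReal.ofReal_mul b0, ← ENNReal.ofReal_add (by positivity) (by positivity),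
    ← ENNReal.ofReal_add (by positivity) (by positivity)]
  have h2 : (2 : ENNReal) * ENNReal.ofReal ((C - C') ^ 2) = ENNReal.ofReal (2 * (C - C') ^ 2) := by
    rw [ENNReal.ofReal_mul (by norm_num)]
    norm_num
  rw [h2, ← ENNReal.ofReal_add (by positivity) (by positivity)]
  apply ENNReal.ofReal_le_ofReal
  rw [← hAB] at hlog
  nlinarith

lemma Homog.swap {Ω : Type*} [MeasurableSpace Ω] {P : Measure Ω} {m m' : Ω → V → V → ℝ}
    (hm : ∀ c p, Measurable (fun ω => m ω c p)) (hm' : ∀ c p, Measurable (fun ω => m' ω c p))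
    (h : Homog G P m m') : Homog G P m' m := by
  intro g
  have M1 : Measurable (fun ω => ((fun c p => m ω (g c) (g p), fun c p => m' ω (g c) (g p)) :
      (V → V → ℝ) × (V → V → ℝ))) :=
    (measurable_pi_iff.mpr fun c => measurable_pi_iff.mpr fun p => hm _ _).prodMk
      (measurable_pi_iff.mpr fun c => measurable_pi_iff.mpr fun p => hm' _ _)
  have M2 : Measurable (fun ω => ((m ω, m' ω) : (V → V → ℝ) × (V → V → ℝ))) :=
    (measurable_pi_iff.mpr fun c => measurable_pi_iff.mpr fun p => hm _ _).prodMk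
      (measurable_pi_iff.mpr fun c => measurable_pi_iff.mpr fun p => hm' _ _)
  have e1 := congrArg (fun Q : Measure ((V → V → ℝ) × (V → V → ℝ)) => Q.map Prod.swap) (h g)
  change (P.map _).map Prod.swap = (P.map _).map Prod.swap at e1
  rw [Measure.map_map measurable_swap M1, Measure.map_map measurable_swap M2] at e1
  exact e1

/-- mass transport for path sums -/
lemma mt_edge (hG : G.IsTree) {d : ℕ} (hd : 2 ≤ d) (hreg : ∀ v, G.degree v = d)
    (hθ0 : 0 < θ) (hθ1 : θ < 1) (hα0 : 0 ≤ α) (hα1 : α < 1)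
    {Ω : Type*} [MeasurableSpace Ω] {P : Measure Ω} {m m' : Ω → V → V → ℝ}
    (hm : ∀ c p, Measurable (fun ω => m ω c p)) (hm' : ∀ c p, Measurable (fun ω => m' ω c p))
    (hc : ∀ᵐ ω ∂P, IsCavity G θ α (m ω)) (hhom : Homog G P m m')
    (κ : V → V → (V → V → ℝ) × (V → V → ℝ) → ENNReal) (hκ : ∀ x p, Measurable (κ x p))
    (hκcov : ∀ (g : G ≃g G) (x p : V) (q : (V → V → ℝ) × (V → V → ℝ)),
      κ x p (fun c p => q.1 (g c) (g p), fun c p => q.2 (g c) (g p)) = κ (g x) (g p) q)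
    (v : V) :
    ∫⁻ ω, ∑' w, pathSum G (fun x p => κ x p (m ω, m' ω)) v w
        * ENNReal.ofReal (Cv G θ (m ω) v w ^ 2) ∂P
      = ∑ g ∈ G.neighborFinset v, ∫⁻ ω, κ v g (m ω, m' ω)
          * (ENNReal.ofReal (Cv G θ (m ω) g v ^ 2) * Rb2 G θ (m ω) g v * Rb2 G θ (m ω) v g) ∂P := by
  classical
  have Mq : Measurable (fun ω => ((m ω, m' ω) : (V → V → ℝ) × (V → V → ℝ))) :=
    (measurable_pi_iff.mpr fun c => measurable_pi_iff.mpr fun p => hm _ _).prodMk
      (measurable_pi_iff.mpr fun c => measurable_pi_iff.mpr fun p => hm' _ _)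
  set f : V → V → (V → V → ℝ) × (V → V → ℝ) → ENNReal := fun v x q =>
    ∑' w, opI G v x w (κ x (par G v x) q * ENNReal.ofReal (Cv G θ q.1 v w ^ 2)) with hf
  have hfm : ∀ v x, Measurable (f v x) := by
    intro v x
    apply Measurable.tsum
    intro w
    by_cases h : x ≠ v ∧ w ∈ br G x (par G v x)
    · simp only [opI_pos h]
      exact (hκ _ _).mul ((((measurable_Cv v w).comp measurable_fst).pow_const 2).ennreal_ofReal)
    · simp only [opI_neg h]
      exact measurable_const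
  have hcov : ∀ (g : G ≃g G) v w, ∀ᵐ ω ∂P,
      f v w (fun c p => m ω (g c) (g p), fun c p => m' ω (g c) (g p))
        = f (g v) (g w) (m ω, m' ω) := by
    intro g v x
    filter_upwards [hc] with ω hω
    simp only [hf]
    rw [← g.toEquiv.tsum_eq (fun w => opI G (g v) (g x) w (κ (g x) (par G (g v) (g x)) (m ω, m' ω)
      * ENNReal.ofReal (Cv G θ (m ω) (g v) w ^ 2)))]
    apply tsum_congr
    intro w
    change _ = opI G (g v) (g x) (g w) (κ (g x) (par G (g v) (g x)) (m ω, m' ω)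
      * ENNReal.ofReal (Cv G θ (m ω) (g v) (g w) ^ 2))
    by_cases hx : x = v
    · rw [opI_neg (fun h => h.1 hx), opI_neg (fun h => h.1 (congrArg g hx))]
    · have hgx : g x ≠ g v := fun h => hx (g.injective h)
      rw [par_iso hG g hx]
      have hbr : w ∈ br G x (par G v x) ↔ g w ∈ br G (g x) (g (par G v x)) := by
        change G.dist w x < G.dist w (par G v x)
          ↔ G.dist (g w) (g x) < G.dist (g w) (g (par G v x))
        rw [dist_iso, dist_iso]
      have hC := Cv_iso hG hω g v w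
      by_cases h : w ∈ br G x (par G v x)
      · rw [opI_pos ⟨hx, h⟩, opI_pos (by rw [par_iso hG g hx]; exact ⟨hgx, hbr.mp h⟩)]
        rw [hC]
        congr 1
        exact hκcov g x (par G v x) (m ω, m' ω)
      · rw [opI_neg (fun h' => h h'.2), opI_neg (fun h' => h (hbr.mpr (by
          have := h'.2
          rwa [par_iso hG g hx] at this)))]
  have e1 : ∀ ω, ∑' w, pathSum G (fun x p => κ x p (m ω, m' ω)) v w
        * ENNReal.ofReal (Cv G θ (m ω) v w ^ 2) = ∑' x, f v x (m ω, m' ω) := by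
    intro ω
    simp only [hf]
    rw [ENNReal.tsum_comm]
    apply tsum_congr
    intro w
    unfold pathSum
    rw [← ENNReal.tsum_mul_right]
    apply tsum_congr
    intro x
    by_cases h : x ≠ v ∧ w ∈ br G x (par G v x)
    · rw [opI_pos h, opI_pos h]
    · rw [opI_neg h, opI_neg h, zero_mul]
  simp only [e1]
  rw [lintegral_tsum (f := fun x ω => f v x (m ω, m' ω))
    (fun x => ((hfm v x).comp Mq).aemeasurable)]
  have e2 : ∀ x, ∫⁻ ω, f v x (m ω, m' ω) ∂P = ∫⁻ ω, f x v (m ω, m' ω) ∂P := fun x =>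
    lintegral_swap hG hd hreg hm hm' hhom f hfm hcov v x
  simp only [e2]
  rw [← lintegral_tsum (f := fun x ω => f x v (m ω, m' ω))
    (fun x => ((hfm x v).comp Mq).aemeasurable)]
  have e3 : ∀ᵐ ω ∂P, ∑' x, f x v (m ω, m' ω)
      = ∑ g ∈ G.neighborFinset v, κ v g (m ω, m' ω)
          * (ENNReal.ofReal (Cv G θ (m ω) g v ^ 2) * Rb2 G θ (m ω) g v * Rb2 G θ (m ω) v g) := by
    filter_upwards [hc] with ω hω
    rw [tsum_full_decomp hG v (fun x => f x v (m ω, m' ω))]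
    have z : f v v (m ω, m' ω) = 0 := by
      simp only [hf]
      rw [ENNReal.tsum_eq_zero]
      intro w
      exact opI_neg (fun h => h.1 rfl)
    rw [z, zero_add]
    apply Finset.sum_congr rfl
    intro g hg
    have hvg : G.Adj v g := by simpa using hg
    rw [← tsum_Cv_sq_edge hθ0.le hθ1 hα0 hα1 hG hω hvg, ← ENNReal.tsum_mul_left,
      tsum_subtype (br G g v) (fun x => κ v g (m ω, m' ω)
        * ∑' w : (br G v g), ENNReal.ofReal (Cv G θ (m ω) x w ^ 2))]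
    apply tsum_congr
    intro x
    by_cases hx : G.dist x g < G.dist x v
    · rw [if_pos hx, Set.indicator_of_mem (show x ∈ br G g v from hx)]
      obtain ⟨hne, hpar⟩ := par_b (o := x) hG hvg.symm hx
      simp only [hf]
      rw [tsum_subtype (br G v g) (fun w => ENNReal.ofReal (Cv G θ (m ω) x w ^ 2)),
        ← ENNReal.tsum_mul_left]
      apply tsum_congr
      intro w
      by_cases hw : w ∈ br G v g
      · rw [opI_pos (by rw [hpar]; exact ⟨hne, hw⟩), Set.indicator_of_mem hw, hpar]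
      · rw [opI_neg (by rw [hpar]; exact fun h => hw h.2), Set.indicator_of_notMem hw, mul_zero]
    · rw [if_neg hx, Set.indicator_of_notMem (show x ∉ br G g v from hx)]
  rw [lintegral_congr_ae e3, lintegral_finsetSum]
  intro g _
  exact ((hκ v g).comp Mq).mul ((((((measurable_Cv g v).comp (measurable_fst.comp Mq)).pow_const
    2).ennreal_ofReal).mul ((measurable_Rb2 g v).comp (measurable_fst.comp Mq))).mul
    ((measurable_Rb2 v g).comp (measurable_fst.comp Mq)))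

/-- signed integrals in terms of lower integrals -/
lemma real_conv {Ω : Type*} [MeasurableSpace Ω] {P : Measure Ω} {δ : Ω → ℝ} (hδ : Measurable δ)
    {L : ℝ} (hL : ∀ᵐ ω ∂P, |δ ω| ≤ L) {S : Ω → ENNReal} (hS : Measurable S)
    (hSf : ∫⁻ ω, S ω ∂P < ⊤) :
    Integrable (fun ω => δ ω * (S ω).toReal) P ∧
    ∫ ω, δ ω * (S ω).toReal ∂P = (∫⁻ ω, ENNReal.ofReal (δ ω) * S ω ∂P).toReal
      - (∫⁻ ω, ENNReal.ofReal (- δ ω) * S ω ∂P).toReal ∧
    ∫⁻ ω, ENNReal.ofReal (δ ω) * S ω ∂P ≠ ⊤ ∧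
    ∫⁻ ω, ENNReal.ofReal (- δ ω) * S ω ∂P ≠ ⊤ := by
  have hfin : ∀ᵐ ω ∂P, S ω < ⊤ := ae_lt_top hS hSf.ne
  have hint : Integrable (fun ω => δ ω * (S ω).toReal) P := by
    refine ((integrable_toReal_of_lintegral_ne_top hS.aemeasurable hSf.ne).const_mul L).mono'
      (hδ.mul hS.ennreal_toReal).aestronglyMeasurable ?_
    filter_upwards [hL] with ω hω
    rw [Real.norm_eq_abs, abs_mul, abs_of_nonneg (ENNReal.toReal_nonneg (a := S ω))]
    exact mul_le_mul_of_nonneg_right hω ENNReal.toReal_nonneg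
  have bd : ∀ {η : Ω → ℝ}, (∀ᵐ ω ∂P, η ω ≤ L) → ∫⁻ ω, ENNReal.ofReal (η ω) * S ω ∂P ≠ ⊤ := by
    intro η hη
    have h1 : ∫⁻ ω, ENNReal.ofReal (η ω) * S ω ∂P ≤ ENNReal.ofReal L * ∫⁻ ω, S ω ∂P := by
      rw [← lintegral_const_mul _ hS]
      apply lintegral_mono_ae
      filter_upwards [hη] with ω hω
      gcongr
    exact ne_top_of_le_ne_top (ENNReal.mul_ne_top ENNReal.ofReal_ne_top hSf.ne) h1
  refine ⟨hint, ?_, bd (by filter_upwards [hL] with ω hω using le_of_abs_le hω),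
    bd (by filter_upwards [hL] with ω hω; linarith [neg_le_of_abs_le hω])⟩
  rw [integral_eq_lintegral_pos_part_sub_lintegral_neg_part hint]
  congr 2
  · apply lintegral_congr_ae
    filter_upwards [hfin] with ω hω
    rw [ENNReal.ofReal_mul' ENNReal.toReal_nonneg, ENNReal.ofReal_toReal hω.ne]
  · apply lintegral_congr_ae
    filter_upwards [hfin] with ω hω
    rw [← neg_mul, ENNReal.ofReal_mul' ENNReal.toReal_nonneg, ENNReal.ofReal_toReal hω.ne]

lemma lint4 {Ω : Type*} [MeasurableSpace Ω] {P : Measure Ω} {x1 x2 x3 x4 : Ω → ENNReal}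
    (h1 : Measurable x1) (h2 : Measurable x2) (h3 : Measurable x3) :
    ∫⁻ ω, ((x1 ω + x2 ω) + (x3 ω + x4 ω)) ∂P
      = (∫⁻ ω, x1 ω ∂P + ∫⁻ ω, x2 ω ∂P) + (∫⁻ ω, x3 ω ∂P + ∫⁻ ω, x4 ω ∂P) := by
  have e : Measurable (fun ω => x1 ω + x2 ω) := h1.add h2
  rw [lintegral_add_left e, lintegral_add_left h1, lintegral_add_left h3]

lemma mul_le_sq_add_sq (a b : ENNReal) : a * b ≤ a ^ 2 + b ^ 2 := by
  rcases le_total a b with h | h
  · calc a * b ≤ b * b := mul_le_mul_left h b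
      _ = b ^ 2 := (sq b).symm
      _ ≤ a ^ 2 + b ^ 2 := le_add_self
  · calc a * b ≤ a * a := mul_le_mul_right h a
      _ = a ^ 2 := (sq a).symm
      _ ≤ a ^ 2 + b ^ 2 := le_self_add

lemma Cv_nonneg_le_one (hG : G.IsTree) (hθ0 : 0 < θ) (hθ1 : θ < 1) (hα0 : 0 ≤ α) (hα1 : α < 1)
    {n : V → V → ℝ} (hn : IsCavity G θ α n) (v w : V) :
    0 ≤ Cv G θ n v w ∧ Cv G θ n v w ≤ 1 ∧
      Cv G θ n v w ^ 2 ≤ θ ^ (2 * G.dist v w) * Wt G θ n v w := by
  have h1 := abs_mag_le hθ0.le hθ1 hα0 hα1 hn v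
  have h2 := aMag_lt_one hθ0.le hθ1 hα0 hα1
  have hsq : mag G θ n v ^ 2 ≤ 1 := by
    rw [← sq_abs]
    exact pow_le_one₀ (abs_nonneg _) (h1.trans h2.2.le)
  obtain ⟨hW0, hW1⟩ := Wt_pos_le hθ0.le hθ1 hα1 hG.connected hn v w
  have hp0 : 0 ≤ θ ^ G.dist v w := pow_nonneg hθ0.le _
  have hp1 : θ ^ G.dist v w ≤ 1 := pow_le_one₀ hθ0.le hθ1.le
  have hm0 : 0 ≤ 1 - mag G θ n v ^ 2 := by linarith
  have hm1 : 1 - mag G θ n v ^ 2 ≤ 1 := by linarith [sq_nonneg (mag G θ n v)]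
  have hle : Cv G θ n v w ≤ θ ^ G.dist v w * Wt G θ n v w := by
    unfold Cv
    rw [mul_assoc]
    exact mul_le_of_le_one_left (mul_nonneg hp0 hW0.le) hm1
  have h0 : 0 ≤ Cv G θ n v w := (Cv_pos hθ0 hθ1 hα0 hα1 hG.connected hn v w).le
  refine ⟨h0, hle.trans (mul_le_one₀ hp1 hW0.le hW1), ?_⟩
  calc Cv G θ n v w ^ 2 ≤ (θ ^ G.dist v w * Wt G θ n v w) ^ 2 := pow_le_pow_left₀ h0 hle 2
    _ = θ ^ (2 * G.dist v w) * (Wt G θ n v w * Wt G θ n v w) := by rw [pow_mul']; ring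
    _ ≤ θ ^ (2 * G.dist v w) * Wt G θ n v w := by
      apply mul_le_mul_of_nonneg_left _ (by positivity)
      exact mul_le_of_le_one_left hW0.le hW1

lemma log_phi_bound (hθ0 : 0 ≤ θ) (hθ1 : θ < 1) (hα1 : α < 1) {x : ℝ} (hx : |x| ≤ α) :
    Real.log (1 - α ^ 2) ≤ Real.log (phi θ x) ∧ Real.log (phi θ x) ≤ 0 := by
  obtain ⟨h1, h2⟩ := phi_nonneg_le hθ0 hθ1 (lt_of_le_of_lt hx hα1)
  have h3 := (one_sub_phi hθ0 hθ1 (hx.trans hα1.le)).2
  have h4 : x ^ 2 ≤ α ^ 2 := by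
    rw [← sq_abs]
    exact pow_le_pow_left₀ (abs_nonneg _) hx 2
  have hα0 : 0 ≤ α := (abs_nonneg x).trans hx
  have h5 : 0 < 1 - α ^ 2 := by nlinarith
  exact ⟨Real.log_le_log h5 (by linarith), Real.log_nonpos h1.le h2⟩

end Recenter

/-- Recentering identity (inequality).
Proof.  By `sq_sub_le_log`, `(Cv - Cv')² ≤ (Cv² - Cv'²)(log Cv - log Cv') / 2`, and
`log Cv v w = log (1 - mag v ²) + n log θ + Σ_{x on the path, x ≠ v} log (phi θ (m x (par G v x)))`
(`log_Wt_tail`).  Sum over `w`.  The vertex term gives the second integral.  For the path terms let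
`h v x w = E[(log phi (m x (par G v x)) - log phi (m' x (par G v x))) (Cv v w ² - Cv' v w ²)]` for
`x ≠ v` on the path from `v` to `w`.  Choose `g` with `g v = x`, `g x = v` (`exists_iso_pair`);
by `Homog`, `h v x w = h x v (g w)`, and `g` maps `{w | x on path v w}` to
`{w' | v on path x w'} = br G v (par G x v)`.  Hence
`Σ_{x ≠ v} Σ_{w beyond x} h v x w = Σ_{x ≠ v} Σ_{w' ∈ br G v (par G x v)} h x v w'`; group the `x`
by the neighbour `g' = par G x v` of `v` and use `tsum_Cv_sq_edge` for both fields.  All sums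
converge absolutely since `log phi` is bounded and `E (Rf)² < ∞` (first do the same computation
in `ENNReal` with absolute values). -/
theorem recenter {θ α : ℝ} (hG : G.IsTree) {d : ℕ} (hd : 2 ≤ d) (hreg : ∀ v, G.degree v = d)
    (hθ0 : 0 < θ) (hθ1 : θ < 1) (hα0 : 0 ≤ α) (hα1 : α < 1)
    {Ω : Type*} [MeasurableSpace Ω] (P : Measure Ω) [IsProbabilityMeasure P]
    (m m' : Ω → V → V → ℝ)
    (hm : ∀ c p, Measurable (fun ω => m ω c p)) (hm' : ∀ c p, Measurable (fun ω => m' ω c p))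
    (hc : ∀ᵐ ω ∂P, IsCavity G θ α (m ω)) (hc' : ∀ᵐ ω ∂P, IsCavity G θ α (m' ω))
    (hhom : Homog G P m m')
    (hR : ∀ v, ∫⁻ ω, Rf G θ (m ω) v ^ 2 ∂P < ⊤) (hR' : ∀ v, ∫⁻ ω, Rf G θ (m' ω) v ^ 2 ∂P < ⊤)
    (v : V) :
    ∑' w, ∫⁻ ω, ENNReal.ofReal ((Cv G θ (m ω) v w - Cv G θ (m' ω) v w) ^ 2) ∂P
      ≤ ENNReal.ofReal ((1 / 2) * (∑ g ∈ G.neighborFinset v,
          ∫ ω, (Real.log (phi θ (m ω v g)) - Real.log (phi θ (m' ω v g)))
            * (S2 G θ (m ω) g v - S2 G θ (m' ω) g v) ∂P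
          + ∫ ω, (Real.log (1 - mag G θ (m ω) v ^ 2) - Real.log (1 - mag G θ (m' ω) v ^ 2))
            * (T2 G θ (m ω) v - T2 G θ (m' ω) v) ∂P)) := by
  classical
  have Mm : Measurable (fun ω => m ω) :=
    measurable_pi_iff.mpr fun c => measurable_pi_iff.mpr fun p => hm _ _
  have Mm' : Measurable (fun ω => m' ω) :=
    measurable_pi_iff.mpr fun c => measurable_pi_iff.mpr fun p => hm' _ _
  have Mq : Measurable (fun ω => ((m ω, m' ω) : (V → V → ℝ) × (V → V → ℝ))) := Mm.prodMk Mm'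
  have Mq' : Measurable (fun ω => ((m' ω, m ω) : (V → V → ℝ) × (V → V → ℝ))) := Mm'.prodMk Mm
  have hps : ∀ {q : Ω → (V → V → ℝ) × (V → V → ℝ)}, Measurable q → ∀ w,
      Measurable (fun ω => pathSum G (fun x p => kpE θ x p (q ω)) v w) := by
    intro q hq w
    apply Measurable.tsum
    intro x
    by_cases h : x ≠ v ∧ w ∈ br G x (par G v x)
    · simp only [opI_pos h]
      exact (measurable_kpE _ _).comp hq
    · simp only [opI_neg h]
      exact measurable_const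
  have hCm : ∀ w, Measurable (fun ω => ENNReal.ofReal (Cv G θ (m ω) v w ^ 2)) :=
    fun w => (((measurable_Cv v w).comp Mm).pow_const 2).ennreal_ofReal
  have hCm' : ∀ w, Measurable (fun ω => ENNReal.ofReal (Cv G θ (m' ω) v w ^ 2)) :=
    fun w => (((measurable_Cv v w).comp Mm').pow_const 2).ennreal_ofReal
  have hTm : Measurable (fun ω => ∑' w, ENNReal.ofReal (Cv G θ (m ω) v w ^ 2)) :=
    Measurable.tsum hCm
  have hTm' : Measurable (fun ω => ∑' w, ENNReal.ofReal (Cv G θ (m' ω) v w ^ 2)) :=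
    Measurable.tsum hCm'
  have hvm : Measurable (fun ω => vpE G θ v (m ω, m' ω)) := (measurable_vpE v).comp Mq
  have hvm' : Measurable (fun ω => vpE G θ v (m' ω, m ω)) := (measurable_vpE v).comp Mq'
  -- pointwise inequality summed over `w`
  have hpt : ∀ᵐ ω ∂P,
      2 * (∑' w, ENNReal.ofReal ((Cv G θ (m ω) v w - Cv G θ (m' ω) v w) ^ 2))
      + ((vpE G θ v (m' ω, m ω) * (∑' w, ENNReal.ofReal (Cv G θ (m ω) v w ^ 2))
          + ∑' w, pathSum G (fun x p => kpE θ x p (m' ω, m ω)) v w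
            * ENNReal.ofReal (Cv G θ (m ω) v w ^ 2))
        + (vpE G θ v (m ω, m' ω) * (∑' w, ENNReal.ofReal (Cv G θ (m' ω) v w ^ 2))
          + ∑' w, pathSum G (fun x p => kpE θ x p (m ω, m' ω)) v w
            * ENNReal.ofReal (Cv G θ (m' ω) v w ^ 2)))
      ≤ (vpE G θ v (m ω, m' ω) * (∑' w, ENNReal.ofReal (Cv G θ (m ω) v w ^ 2))
          + ∑' w, pathSum G (fun x p => kpE θ x p (m ω, m' ω)) v w
            * ENNReal.ofReal (Cv G θ (m ω) v w ^ 2))
        + (vpE G θ v (m' ω, m ω) * (∑' w, ENNReal.ofReal (Cv G θ (m' ω) v w ^ 2))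
          + ∑' w, pathSum G (fun x p => kpE θ x p (m' ω, m ω)) v w
            * ENNReal.ofReal (Cv G θ (m' ω) v w ^ 2)) := by
    filter_upwards [hc, hc'] with ω h1 h2
    have h3 := ENNReal.tsum_le_tsum (fun w => rc_pointwise hG hθ0 hθ1 hα0 hα1 h1 h2 v w)
    simp only [add_mul, ENNReal.tsum_add, ENNReal.tsum_mul_left] at h3
    exact h3
  have hI := lintegral_mono_ae hpt
  -- the four path terms
  have kcov : ∀ (g : G ≃g G) (x p : V) (q : (V → V → ℝ) × (V → V → ℝ)),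
      kpE θ x p (fun c p => q.1 (g c) (g p), fun c p => q.2 (g c) (g p)) = kpE θ (g x) (g p) q :=
    fun g x p q => rfl
  have kcov' : ∀ (g : G ≃g G) (x p : V) (q : (V → V → ℝ) × (V → V → ℝ)),
      kpE θ x p (Prod.swap (fun c p => q.1 (g c) (g p), fun c p => q.2 (g c) (g p)))
        = kpE θ (g x) (g p) q.swap := fun g x p q => rfl
  have hhom' := hhom.swap hm hm'
  have t1 := mt_edge hG hd hreg hθ0 hθ1 hα0 hα1 hm hm' hc hhom
    (fun x p q => kpE θ x p q) (fun x p => measurable_kpE x p) kcov v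
  have t2 := mt_edge hG hd hreg hθ0 hθ1 hα0 hα1 hm hm' hc hhom
    (fun x p q => kpE θ x p q.swap) (fun x p => (measurable_kpE x p).comp measurable_swap) kcov' v
  have t3 := mt_edge hG hd hreg hθ0 hθ1 hα0 hα1 hm' hm hc' hhom'
    (fun x p q => kpE θ x p q) (fun x p => measurable_kpE x p) kcov v
  have t4 := mt_edge hG hd hreg hθ0 hθ1 hα0 hα1 hm' hm hc' hhom'
    (fun x p q => kpE θ x p q.swap) (fun x p => (measurable_kpE x p).comp measurable_swap) kcov' v
  simp only [Prod.swap_prod_mk] at t1 t2 t3 t4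
  have hXw : ∀ w, Measurable (fun ω =>
      ENNReal.ofReal ((Cv G θ (m ω) v w - Cv G θ (m' ω) v w) ^ 2)) := fun w =>
    ((((measurable_Cv v w).comp Mm).sub ((measurable_Cv v w).comp Mm')).pow_const 2).ennreal_ofReal
  have hXs : Measurable (fun ω => ∑' w,
      ENNReal.ofReal ((Cv G θ (m ω) v w - Cv G θ (m' ω) v w) ^ 2)) := Measurable.tsum hXw
  have hXm : Measurable (fun ω => 2 * (∑' w,
      ENNReal.ofReal ((Cv G θ (m ω) v w - Cv G θ (m' ω) v w) ^ 2))) := hXs.const_mul 2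
  have hA1 : Measurable (fun ω => ∑' w, pathSum G (fun x p => kpE θ x p (m' ω, m ω)) v w
            * ENNReal.ofReal (Cv G θ (m ω) v w ^ 2)) :=
    Measurable.tsum (fun w => (hps Mq' w).mul (hCm w))
  have hA2 : Measurable (fun ω => ∑' w, pathSum G (fun x p => kpE θ x p (m ω, m' ω)) v w
            * ENNReal.ofReal (Cv G θ (m' ω) v w ^ 2)) :=
    Measurable.tsum (fun w => (hps Mq w).mul (hCm' w))
  have hA3 : Measurable (fun ω => ∑' w, pathSum G (fun x p => kpE θ x p (m ω, m' ω)) v w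
            * ENNReal.ofReal (Cv G θ (m ω) v w ^ 2)) :=
    Measurable.tsum (fun w => (hps Mq w).mul (hCm w))
  have hA4 : Measurable (fun ω => ∑' w, pathSum G (fun x p => kpE θ x p (m' ω, m ω)) v w
            * ENNReal.ofReal (Cv G θ (m' ω) v w ^ 2)) :=
    Measurable.tsum (fun w => (hps Mq' w).mul (hCm' w))
  have hv1 : Measurable (fun ω => vpE G θ v (m' ω, m ω)
      * ∑' w, ENNReal.ofReal (Cv G θ (m ω) v w ^ 2)) := hvm'.mul hTm
  have hv2 : Measurable (fun ω => vpE G θ v (m ω, m' ω)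
      * ∑' w, ENNReal.ofReal (Cv G θ (m' ω) v w ^ 2)) := hvm.mul hTm'
  have hv3 : Measurable (fun ω => vpE G θ v (m ω, m' ω)
      * ∑' w, ENNReal.ofReal (Cv G θ (m ω) v w ^ 2)) := hvm.mul hTm
  have hv4 : Measurable (fun ω => vpE G θ v (m' ω, m ω)
      * ∑' w, ENNReal.ofReal (Cv G θ (m' ω) v w ^ 2)) := hvm'.mul hTm'
  rw [lintegral_add_left hXm, lint4 hv1 hA1 hv2, lint4 hv3 hA3 hv4, t1, t2, t3, t4,
    lintegral_const_mul 2 hXs, lintegral_tsum (fun w => (hXw w).aemeasurable)] at hI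
  set X := ∑' w, ∫⁻ ω, ENNReal.ofReal ((Cv G θ (m ω) v w - Cv G θ (m' ω) v w) ^ 2) ∂P with hX
  -- finiteness
  have hTle : ∀ {n : V → V → ℝ}, IsCavity G θ α n →
      ∑' w, ENNReal.ofReal (Cv G θ n v w ^ 2) ≤ Rf G θ n v ^ 2 := by
    intro n hn
    have h1 : ∑' w, ENNReal.ofReal (Cv G θ n v w ^ 2) ≤ Rf G θ n v := by
      unfold Rf
      exact ENNReal.tsum_le_tsum (fun w => ENNReal.ofReal_le_ofReal
        (Cv_nonneg_le_one hG hθ0 hθ1 hα0 hα1 hn v w).2.2)
    have h2 := one_le_Rf (G := G) (θ := θ) (m := n) v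
    calc _ ≤ Rf G θ n v := h1
      _ = Rf G θ n v * 1 := (mul_one _).symm
      _ ≤ Rf G θ n v * Rf G θ n v := mul_le_mul_right h2 _
      _ = Rf G θ n v ^ 2 := (sq _).symm
  have hSle : ∀ {n : V → V → ℝ}, IsCavity G θ α n → ∀ g,
      ENNReal.ofReal (Cv G θ n g v ^ 2) * Rb2 G θ n g v * Rb2 G θ n v g
        ≤ Rf G θ n g ^ 2 + Rf G θ n v ^ 2 := by
    intro n hn g
    obtain ⟨c0, c1, -⟩ := Cv_nonneg_le_one hG hθ0 hθ1 hα0 hα1 hn g v
    have h1 : ENNReal.ofReal (Cv G θ n g v ^ 2) ≤ 1 := by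
      rw [ENNReal.ofReal_le_one]
      exact pow_le_one₀ c0 c1
    have h2 : Rb2 G θ n g v ≤ Rf G θ n g :=
      (Rb2_le_Rb hθ0.le hθ1 hα1 hG hn g v).trans (Rb_le_Rf g v)
    have h3 : Rb2 G θ n v g ≤ Rf G θ n v :=
      (Rb2_le_Rb hθ0.le hθ1 hα1 hG hn v g).trans (Rb_le_Rf v g)
    calc ENNReal.ofReal (Cv G θ n g v ^ 2) * Rb2 G θ n g v * Rb2 G θ n v g
        ≤ 1 * Rf G θ n g * Rf G θ n v := by gcongr
      _ = Rf G θ n g * Rf G θ n v := by rw [one_mul]
      _ ≤ _ := mul_le_sq_add_sq _ _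
  have hTf : ∫⁻ ω, ∑' w, ENNReal.ofReal (Cv G θ (m ω) v w ^ 2) ∂P < ⊤ := by
    refine lt_of_le_of_lt (lintegral_mono_ae ?_) (hR v)
    filter_upwards [hc] with ω hω using hTle hω
  have hTf' : ∫⁻ ω, ∑' w, ENNReal.ofReal (Cv G θ (m' ω) v w ^ 2) ∂P < ⊤ := by
    refine lt_of_le_of_lt (lintegral_mono_ae ?_) (hR' v)
    filter_upwards [hc'] with ω hω using hTle hω
  have hSf : ∀ g, ∫⁻ ω, ENNReal.ofReal (Cv G θ (m ω) g v ^ 2) * Rb2 G θ (m ω) g v
      * Rb2 G θ (m ω) v g ∂P < ⊤ := by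
    intro g
    have h1 : ∫⁻ ω, (Rf G θ (m ω) g ^ 2 + Rf G θ (m ω) v ^ 2) ∂P < ⊤ := by
      have hRm : Measurable (fun ω => Rf G θ (m ω) g ^ 2) :=
        ((measurable_Rf g).comp Mm).pow_const 2
      rw [lintegral_add_left hRm]
      exact ENNReal.add_lt_top.mpr ⟨hR g, hR v⟩
    refine lt_of_le_of_lt (lintegral_mono_ae ?_) h1
    filter_upwards [hc] with ω hω using hSle hω g
  have hSf' : ∀ g, ∫⁻ ω, ENNReal.ofReal (Cv G θ (m' ω) g v ^ 2) * Rb2 G θ (m' ω) g v
      * Rb2 G θ (m' ω) v g ∂P < ⊤ := by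
    intro g
    have h1 : ∫⁻ ω, (Rf G θ (m' ω) g ^ 2 + Rf G θ (m' ω) v ^ 2) ∂P < ⊤ := by
      have hRm : Measurable (fun ω => Rf G θ (m' ω) g ^ 2) :=
        ((measurable_Rf g).comp Mm').pow_const 2
      rw [lintegral_add_left hRm]
      exact ENNReal.add_lt_top.mpr ⟨hR' g, hR' v⟩
    refine lt_of_le_of_lt (lintegral_mono_ae ?_) h1
    filter_upwards [hc'] with ω hω using hSle hω g
  have hSm : ∀ g, Measurable (fun ω => ENNReal.ofReal (Cv G θ (m ω) g v ^ 2)
      * Rb2 G θ (m ω) g v * Rb2 G θ (m ω) v g) := fun g =>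
    (((((measurable_Cv g v).comp Mm).pow_const 2).ennreal_ofReal).mul
      ((measurable_Rb2 g v).comp Mm)).mul ((measurable_Rb2 v g).comp Mm)
  have hSm' : ∀ g, Measurable (fun ω => ENNReal.ofReal (Cv G θ (m' ω) g v ^ 2)
      * Rb2 G θ (m' ω) g v * Rb2 G θ (m' ω) v g) := fun g =>
    (((((measurable_Cv g v).comp Mm').pow_const 2).ennreal_ofReal).mul
      ((measurable_Rb2 g v).comp Mm')).mul ((measurable_Rb2 v g).comp Mm')
  -- bounds for the log differences
  set L := - Real.log (1 - α ^ 2) with hL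
  have hδm : ∀ g, Measurable (fun ω => Real.log (phi θ (m ω v g)) - Real.log (phi θ (m' ω v g))) :=
    fun g => ((measurable_logphi v g).comp Mm).sub ((measurable_logphi v g).comp Mm')
  have hδb : ∀ g, G.Adj v g → ∀ᵐ ω ∂P,
      |Real.log (phi θ (m ω v g)) - Real.log (phi θ (m' ω v g))| ≤ L := by
    intro g hg
    filter_upwards [hc, hc'] with ω h1 h2
    obtain ⟨a1, a2⟩ := log_phi_bound hθ0.le hθ1 hα1 (h1.bound v g hg)
    obtain ⟨b1, b2⟩ := log_phi_bound hθ0.le hθ1 hα1 (h2.bound v g hg)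
    rw [abs_le]
    constructor <;> linarith
  set L' := - Real.log (1 - (aMag θ α) ^ 2) with hL'
  have hηm : Measurable (fun ω => Real.log (1 - mag G θ (m ω) v ^ 2)
      - Real.log (1 - mag G θ (m' ω) v ^ 2)) :=
    (Real.measurable_log.comp ((((measurable_mag v).comp Mm).pow_const 2).const_sub 1)).sub
      (Real.measurable_log.comp ((((measurable_mag v).comp Mm').pow_const 2).const_sub 1))
  have hηb : ∀ᵐ ω ∂P, |Real.log (1 - mag G θ (m ω) v ^ 2)
      - Real.log (1 - mag G θ (m' ω) v ^ 2)| ≤ L' := by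
    have h2 := aMag_lt_one hθ0.le hθ1 hα0 hα1
    have h5 : 0 < 1 - (aMag θ α) ^ 2 := by nlinarith [h2.1, h2.2]
    have key : ∀ {n : V → V → ℝ}, IsCavity G θ α n →
        Real.log (1 - (aMag θ α) ^ 2) ≤ Real.log (1 - mag G θ n v ^ 2) ∧
          Real.log (1 - mag G θ n v ^ 2) ≤ 0 := by
      intro n hn
      have h1 := abs_mag_le hθ0.le hθ1 hα0 hα1 hn v
      have h4 : mag G θ n v ^ 2 ≤ (aMag θ α) ^ 2 := by
        rw [← sq_abs]
        exact pow_le_pow_left₀ (abs_nonneg _) h1 2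
      exact ⟨Real.log_le_log h5 (by linarith),
        Real.log_nonpos (by linarith) (by linarith [sq_nonneg (mag G θ n v)])⟩
    filter_upwards [hc, hc'] with ω h1 h3
    obtain ⟨a1, a2⟩ := key h1
    obtain ⟨b1, b2⟩ := key h3
    rw [abs_le]
    constructor <;> linarith
  -- conversion of the real integrals
  have hneg : ∀ a b : ℝ, - (a - b) = b - a := fun a b => by ring
  obtain ⟨i1, r1, f1, f1'⟩ := real_conv hηm hηb hTm hTf
  obtain ⟨i2, r2, f2, f2'⟩ := real_conv hηm hηb hTm' hTf'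
  simp only [hneg] at r1 r2 f1' f2'
  have hT0 : ∫ ω, (Real.log (1 - mag G θ (m ω) v ^ 2) - Real.log (1 - mag G θ (m' ω) v ^ 2))
            * (T2 G θ (m ω) v - T2 G θ (m' ω) v) ∂P
      = ((∫⁻ ω, vpE G θ v (m ω, m' ω) * (∑' w, ENNReal.ofReal (Cv G θ (m ω) v w ^ 2)) ∂P).toReal
        - (∫⁻ ω, vpE G θ v (m' ω, m ω) * (∑' w, ENNReal.ofReal (Cv G θ (m ω) v w ^ 2)) ∂P).toReal)
      - ((∫⁻ ω, vpE G θ v (m ω, m' ω) * (∑' w, ENNReal.ofReal (Cv G θ (m' ω) v w ^ 2)) ∂P).toReal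
        - (∫⁻ ω, vpE G θ v (m' ω, m ω) * (∑' w, ENNReal.ofReal (Cv G θ (m' ω) v w ^ 2)) ∂P).toReal)
      := by
    simp only [mul_sub]
    unfold T2
    rw [integral_sub i1 i2, r1, r2]
    rfl
  have hSg : ∀ g ∈ G.neighborFinset v,
      ∫ ω, (Real.log (phi θ (m ω v g)) - Real.log (phi θ (m' ω v g)))
            * (S2 G θ (m ω) g v - S2 G θ (m' ω) g v) ∂P
      = ((∫⁻ ω, kpE θ v g (m ω, m' ω) * (ENNReal.ofReal (Cv G θ (m ω) g v ^ 2)
            * Rb2 G θ (m ω) g v * Rb2 G θ (m ω) v g) ∂P).toReal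
        - (∫⁻ ω, kpE θ v g (m' ω, m ω) * (ENNReal.ofReal (Cv G θ (m ω) g v ^ 2)
            * Rb2 G θ (m ω) g v * Rb2 G θ (m ω) v g) ∂P).toReal)
      - ((∫⁻ ω, kpE θ v g (m ω, m' ω) * (ENNReal.ofReal (Cv G θ (m' ω) g v ^ 2)
            * Rb2 G θ (m' ω) g v * Rb2 G θ (m' ω) v g) ∂P).toReal
        - (∫⁻ ω, kpE θ v g (m' ω, m ω) * (ENNReal.ofReal (Cv G θ (m' ω) g v ^ 2)
            * Rb2 G θ (m' ω) g v * Rb2 G θ (m' ω) v g) ∂P).toReal) ∧
      ∫⁻ ω, kpE θ v g (m ω, m' ω) * (ENNReal.ofReal (Cv G θ (m ω) g v ^ 2)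
            * Rb2 G θ (m ω) g v * Rb2 G θ (m ω) v g) ∂P ≠ ⊤ ∧
      ∫⁻ ω, kpE θ v g (m' ω, m ω) * (ENNReal.ofReal (Cv G θ (m ω) g v ^ 2)
            * Rb2 G θ (m ω) g v * Rb2 G θ (m ω) v g) ∂P ≠ ⊤ ∧
      ∫⁻ ω, kpE θ v g (m ω, m' ω) * (ENNReal.ofReal (Cv G θ (m' ω) g v ^ 2)
            * Rb2 G θ (m' ω) g v * Rb2 G θ (m' ω) v g) ∂P ≠ ⊤ ∧
      ∫⁻ ω, kpE θ v g (m' ω, m ω) * (ENNReal.ofReal (Cv G θ (m' ω) g v ^ 2)
            * Rb2 G θ (m' ω) g v * Rb2 G θ (m' ω) v g) ∂P ≠ ⊤ := by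
    intro g hg
    have hvg : G.Adj v g := by simpa using hg
    obtain ⟨j1, s1, g1, g1'⟩ := real_conv (hδm g) (hδb g hvg) (hSm g) (hSf g)
    obtain ⟨j2, s2, g2, g2'⟩ := real_conv (hδm g) (hδb g hvg) (hSm' g) (hSf' g)
    simp only [hneg] at s1 s2 g1' g2'
    refine ⟨?_, g1, g1', g2, g2'⟩
    have hS2 : ∀ n : V → V → ℝ, S2 G θ n g v = (ENNReal.ofReal (Cv G θ n g v ^ 2)
        * Rb2 G θ n g v * Rb2 G θ n v g).toReal := by
      intro n
      unfold S2
      rw [ENNReal.toReal_mul, ENNReal.toReal_mul, ENNReal.toReal_ofReal (sq_nonneg _)]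
    simp only [mul_sub, hS2]
    rw [integral_sub j1 j2, s1, s2]
    rfl
  rw [hT0, Finset.sum_congr rfl (fun g hg => (hSg g hg).1)]
  -- final computation
  set a1 := ∫⁻ ω, vpE G θ v (m ω, m' ω) * (∑' w, ENNReal.ofReal (Cv G θ (m ω) v w ^ 2)) ∂P
  set a2 := ∫⁻ ω, vpE G θ v (m' ω, m ω) * (∑' w, ENNReal.ofReal (Cv G θ (m ω) v w ^ 2)) ∂P
  set a3 := ∫⁻ ω, vpE G θ v (m ω, m' ω) * (∑' w, ENNReal.ofReal (Cv G θ (m' ω) v w ^ 2)) ∂P
  set a4 := ∫⁻ ω, vpE G θ v (m' ω, m ω) * (∑' w, ENNReal.ofReal (Cv G θ (m' ω) v w ^ 2)) ∂P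
  set b1 := fun g => ∫⁻ ω, kpE θ v g (m ω, m' ω) * (ENNReal.ofReal (Cv G θ (m ω) g v ^ 2)
            * Rb2 G θ (m ω) g v * Rb2 G θ (m ω) v g) ∂P with hb1
  set b2 := fun g => ∫⁻ ω, kpE θ v g (m' ω, m ω) * (ENNReal.ofReal (Cv G θ (m ω) g v ^ 2)
            * Rb2 G θ (m ω) g v * Rb2 G θ (m ω) v g) ∂P with hb2
  set b3 := fun g => ∫⁻ ω, kpE θ v g (m ω, m' ω) * (ENNReal.ofReal (Cv G θ (m' ω) g v ^ 2)
            * Rb2 G θ (m' ω) g v * Rb2 G θ (m' ω) v g) ∂P with hb3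
  set b4 := fun g => ∫⁻ ω, kpE θ v g (m' ω, m ω) * (ENNReal.ofReal (Cv G θ (m' ω) g v ^ 2)
            * Rb2 G θ (m' ω) g v * Rb2 G θ (m' ω) v g) ∂P with hb4
  have A1 : a1 ≠ ⊤ := f1
  have A2 : a2 ≠ ⊤ := f1'
  have A3 : a3 ≠ ⊤ := f2
  have A4 : a4 ≠ ⊤ := f2'
  have B1 : ∑ g ∈ G.neighborFinset v, b1 g ≠ ⊤ :=
    ENNReal.sum_ne_top.mpr (fun g hg => (hSg g hg).2.1)
  have B2 : ∑ g ∈ G.neighborFinset v, b2 g ≠ ⊤ :=
    ENNReal.sum_ne_top.mpr (fun g hg => (hSg g hg).2.2.1)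
  have B3 : ∑ g ∈ G.neighborFinset v, b3 g ≠ ⊤ :=
    ENNReal.sum_ne_top.mpr (fun g hg => (hSg g hg).2.2.2.1)
  have B4 : ∑ g ∈ G.neighborFinset v, b4 g ≠ ⊤ :=
    ENNReal.sum_ne_top.mpr (fun g hg => (hSg g hg).2.2.2.2)
  have s1 : ∑ g ∈ G.neighborFinset v, (b1 g).toReal = (∑ g ∈ G.neighborFinset v, b1 g).toReal :=
    (ENNReal.toReal_sum (fun g hg => (hSg g hg).2.1)).symm
  have s2 : ∑ g ∈ G.neighborFinset v, (b2 g).toReal = (∑ g ∈ G.neighborFinset v, b2 g).toReal :=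
    (ENNReal.toReal_sum (fun g hg => (hSg g hg).2.2.1)).symm
  have s3 : ∑ g ∈ G.neighborFinset v, (b3 g).toReal = (∑ g ∈ G.neighborFinset v, b3 g).toReal :=
    (ENNReal.toReal_sum (fun g hg => (hSg g hg).2.2.2.1)).symm
  have s4 : ∑ g ∈ G.neighborFinset v, (b4 g).toReal = (∑ g ∈ G.neighborFinset v, b4 g).toReal :=
    (ENNReal.toReal_sum (fun g hg => (hSg g hg).2.2.2.2)).symm
  change X ≤ ENNReal.ofReal ((1 / 2) * (∑ g ∈ G.neighborFinset v,
    (((b1 g).toReal - (b2 g).toReal) - ((b3 g).toReal - (b4 g).toReal))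
      + ((a1.toReal - a2.toReal) - (a3.toReal - a4.toReal))))
  rw [Finset.sum_sub_distrib, Finset.sum_sub_distrib, Finset.sum_sub_distrib, s1, s2, s3, s4]
  change 2 * X + (a2 + (∑ g ∈ G.neighborFinset v, b2 g) + (a3 + (∑ g ∈ G.neighborFinset v, b3 g)))
    ≤ a1 + (∑ g ∈ G.neighborFinset v, b1 g) + (a4 + (∑ g ∈ G.neighborFinset v, b4 g)) at hI
  set c1 := ∑ g ∈ G.neighborFinset v, b1 g
  set c2 := ∑ g ∈ G.neighborFinset v, b2 g
  set c3 := ∑ g ∈ G.neighborFinset v, b3 g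
  set c4 := ∑ g ∈ G.neighborFinset v, b4 g
  have hfinR : a1 + c1 + (a4 + c4) ≠ ⊤ :=
    ENNReal.add_ne_top.mpr ⟨ENNReal.add_ne_top.mpr ⟨A1, B1⟩, ENNReal.add_ne_top.mpr ⟨A4, B4⟩⟩
  have hfinN : a2 + c2 + (a3 + c3) ≠ ⊤ :=
    ENNReal.add_ne_top.mpr ⟨ENNReal.add_ne_top.mpr ⟨A2, B2⟩, ENNReal.add_ne_top.mpr ⟨A3, B3⟩⟩
  have hfinX : 2 * X ≠ ⊤ := ne_top_of_le_ne_top hfinR (le_self_add.trans hI)
  have hfinX' : X ≠ ⊤ := by
    intro h
    rw [h] at hfinX
    simp at hfinX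
  have hI2 := ENNReal.toReal_mono hfinR hI
  rw [ENNReal.toReal_add hfinX hfinN, ENNReal.toReal_mul,
    ENNReal.toReal_add (ENNReal.add_ne_top.mpr ⟨A2, B2⟩) (ENNReal.add_ne_top.mpr ⟨A3, B3⟩),
    ENNReal.toReal_add A2 B2, ENNReal.toReal_add A3 B3,
    ENNReal.toReal_add (ENNReal.add_ne_top.mpr ⟨A1, B1⟩) (ENNReal.add_ne_top.mpr ⟨A4, B4⟩),
    ENNReal.toReal_add A1 B1, ENNReal.toReal_add A4 B4] at hI2
  rw [← ENNReal.ofReal_toReal hfinX']
  apply ENNReal.ofReal_le_ofReal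
  have h2r : (2 : ENNReal).toReal = 2 := by norm_num
  rw [h2r] at hI2
  linarith

end Vale.Agent.P161c
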