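import Vale.Agent.P161c.StageA2h

/-!
Bounds for the recentered terms.
-/

namespace Vale.Agent.P161c

open MeasureTheory SimpleGraph Vale.Agent.H13.P161

section Aux

variable {V : Type*} {Ω : Type*} [MeasurableSpace Ω]
  {G : SimpleGraph V} [LocallyFinite G] [DecidableEq V] [Countable V]
  {θ α K y : ℝ} {d : ℕ} {C : ℕ → ℝ} {r : ENNReal} {P : Measure Ω} {m m' : Ω → V → V → ℝ}

/-- numerical constant of the supremum bound -/
noncomputable def cS (d : ℕ) (K : ℝ) (C : ℕ → ℝ) (N : ℕ) : ℝ :=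
  2 * (16 * ((N + 130 : ℕ) : ℝ) ^ 2 * K ^ 2 * kD d K)
    + 2 * (8 * max (C 2) 0 + 16 * ((N + 130 : ℕ) : ℝ) ^ 2 * K ^ 2 * cT d C (N + 70)
      + 64 * ((N + 130 : ℕ) : ℝ) ^ 2 * cT d C (N + 70))
    + 4 * max (C 2) 0 * (2 * (256 * ((N + 130 : ℕ) : ℝ) ^ 2 * d ^ 2)) ^ (N + 128)

lemma kD_nonneg {K : ℝ} (hK : 1 ≤ K) (d : ℕ) : 0 ≤ kD d K := by unfold kD; positivity

lemma cS_nonneg {K : ℝ} (hK : 1 ≤ K) (d : ℕ) (C : ℕ → ℝ) (N : ℕ) : 0 ≤ cS d K C N := by
  have h1 := kD_nonneg hK d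
  have h2 := cT_nonneg d C (N + 70)
  have h3 := le_max_right (C 2) 0
  unfold cS
  positivity

/-- supremum bound for the susceptibility differences -/
lemma lintegral_dW_bound (S : Setup G θ α d K C y r P m m') {a : ℝ} (ha : 0 ≤ a)
    (hA : ∀ v, dA G θ P m m' v ≤ ENNReal.ofReal a) (N : ℕ) : ∀ c p, G.Adj c p →
    ∫⁻ ω, ENNReal.ofReal (dW G θ m m' ω c p ^ 2) ∂P
      ≤ ENNReal.ofReal (cS d K C N * (a / y ^ 67 + y ^ N)) := by
  have hy0 := S.hy0
  have hK1 := S.lip.one_le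
  have hc2 := le_max_right (C 2) 0
  set S0 : ENNReal := ⨆ e : {e : V × V // G.Adj e.1 e.2},
    ∫⁻ ω, ENNReal.ofReal (dW G θ m m' ω e.1.1 e.1.2 ^ 2) ∂P with hS0
  have hle : ∀ c p, G.Adj c p → ∫⁻ ω, ENNReal.ofReal (dW G θ m m' ω c p ^ 2) ∂P ≤ S0 :=
    fun c p h => le_iSup (fun e : {e : V × V // G.Adj e.1 e.2} =>
      ∫⁻ ω, ENNReal.ofReal (dW G θ m m' ω e.1.1 e.1.2 ^ 2) ∂P) ⟨(c, p), h⟩
  have htriv : S0 ≤ ENNReal.ofReal (4 * max (C 2) 0 / y ^ 128) :=
    iSup_le fun e => lintegral_dW_trivial S e.1.1 e.1.2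
  have hfin : S0 ≠ ⊤ := ne_top_of_le_ne_top ENNReal.ofReal_ne_top htriv
  have hs0 : 0 ≤ S0.toReal := ENNReal.toReal_nonneg
  have hSs : S0 = ENNReal.ofReal S0.toReal := (ENNReal.ofReal_toReal hfin).symm
  have hB : ∀ c p, G.Adj c p → ∫⁻ ω, ENNReal.ofReal (dW G θ m m' ω c p ^ 2) ∂P
      ≤ ENNReal.ofReal S0.toReal := fun c p h => (hle c p h).trans hSs.le
  obtain ⟨n, hn, hx⟩ := iter_count S.hθ0 S.hd S.hcrit S.hy0 S.hy1 (N + 130)
  have hstep := lintegral_dW_step S ha hs0 hA hB n (N + 70)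
  have hk := kD_nonneg hK1 d
  have ht := cT_nonneg d C (N + 70)
  have hθ0 := S.hθ0
  have h1 : S0.toReal ≤ 2 * (4 * (θ ^ (2 * n) * (max (C 2) 0 / y ^ 128)))
        + 2 * n ^ 2 * (2 * K ^ 2 / y ^ 64 * (kD d K * a / y + cT d C (N + 70) * y ^ (N + 70))
          + 8 * (4 * d ^ 2 * y ^ 127 * S0.toReal + cT d C (N + 70) * y ^ (N + 70))) := by
    refine ENNReal.toReal_le_of_le_ofReal (by positivity) ?_
    exact iSup_le fun e => hstep e.1.1 e.1.2 e.2
  have h2 : S0.toReal ≤ 4 * max (C 2) 0 / y ^ 128 :=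
    ENNReal.toReal_le_of_le_ofReal (by positivity) htriv
  have key := boot_real (K := K) (N := N) S.hy0 S.hy1 rfl hc2 ht hk ha hs0 hn hx h1 h2
  intro c p h
  exact (hB c p h).trans (ENNReal.ofReal_le_ofReal key)

/-- truncation constant -/
noncomputable def cT2 (d : ℕ) (C : ℕ → ℝ) (N : ℕ) : ℝ :=
  max (cZ d C (2 * 2)) 0 + max (cZ d C (2 * (2 * N + 2))) 0

lemma cT2_nonneg (d : ℕ) (C : ℕ → ℝ) (N : ℕ) : 0 ≤ cT2 d C N :=
  add_nonneg (le_max_right _ _) (le_max_right _ _)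

/-- mixed term -/
lemma lintegral_DW_Z (S : Setup G θ α d K C y r P m m') {a s : ℝ} (ha : 0 ≤ a) (hs : 0 ≤ s) (v : V)
    (hA : dA G θ P m m' v ≤ ENNReal.ofReal a)
    (hB : ∀ c p, G.Adj c p → ∫⁻ ω, ENNReal.ofReal (dW G θ m m' ω c p ^ 2) ∂P ≤ ENNReal.ofReal s)
    (N : ℕ) :
    ∫⁻ ω, ENNReal.ofReal (dt G θ (m ω) (m' ω) v * (wt G θ (m ω) (m' ω) v * y ^ 64)
        * zt G θ d y (m ω) (m' ω) v ^ 2) ∂P
      ≤ ENNReal.ofReal ((kD d K * a * y ^ 30 + 4 * d ^ 2 * y ^ 98 * s) / y + cT2 d C N * y ^ N) := by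
  have hy0 := S.hy0
  have hK1 := S.lip.one_le
  have hkD : 0 ≤ kD d K := kD_nonneg hK1 d
  have hz : ∀ ω, 0 ≤ zt G θ d y (m ω) (m' ω) v := fun ω =>
    le_trans (by positivity) (zt_basic (G := G) (θ := θ) (d := d) (m := m ω) (m' := m' ω) hy0 v)
  have hD : ∀ ω, 0 ≤ dt G θ (m ω) (m' ω) v := fun ω => dt_nonneg v
  have hw : ∀ ω, 0 ≤ wt G θ (m ω) (m' ω) v := fun ω => wt_nonneg v
  have mD := measurable_dt (G := G) (θ := θ) S.mm S.mm' v
  have mw := measurable_wt (G := G) (θ := θ) S.mm S.mm' v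
  have key := trunc_pow (P := P) hy0 2 2 N
    (Z := fun ω => ENNReal.ofReal (zt G θ d y (m ω) (m' ω) v))
    (F := fun ω => ENNReal.ofReal (dt G θ (m ω) (m' ω) v * (wt G θ (m ω) (m' ω) v * y ^ 64)))
    (CZ := cZ d C)
    (measurable_zt S.mm S.mm' v).ennreal_ofReal
    (mD.mul (mw.mul_const _)).ennreal_ofReal (mom_zt S v) (by
      filter_upwards [S.cav, S.cav'] with ω hc hc'
      rw [← ENNReal.ofReal_pow (hz ω)]
      apply ENNReal.ofReal_le_ofReal
      have h1 := dt_le_zt S.hθ0.le S.hθ1 S.hα0 S.hα1 S.hreg hc hc' v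
      have h2 := zt_basic (G := G) (θ := θ) (d := d) (m := m ω) (m' := m' ω) hy0 v
      have h3 := hD ω
      have h4 := hz ω
      have h5 := hw ω
      have h6 := wt_le_zt (G := G) (θ := θ) (d := d) (m := m ω) (m' := m' ω) hy0 v
      rw [sq]
      exact mul_le_mul (h1.trans h2) h6 (by positivity) h4)
  have h1 := lintegral_dt_sq S v
  have h2 := lintegral_wt_sq S hs hB v
  have hint : ∫⁻ ω, ENNReal.ofReal (dt G θ (m ω) (m' ω) v * (wt G θ (m ω) (m' ω) v * y ^ 64)) ∂P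
      ≤ ENNReal.ofReal (kD d K * a * y ^ 30 + 4 * d ^ 2 * y ^ 98 * s) := by
    calc ∫⁻ ω, ENNReal.ofReal (dt G θ (m ω) (m' ω) v * (wt G θ (m ω) (m' ω) v * y ^ 64)) ∂P
        ≤ ∫⁻ ω, (ENNReal.ofReal (y ^ 30) * ENNReal.ofReal (dt G θ (m ω) (m' ω) v ^ 2)
            + ENNReal.ofReal (1 / y ^ 30)
              * ENNReal.ofReal ((wt G θ (m ω) (m' ω) v * y ^ 64) ^ 2)) ∂P := by
          apply lintegral_mono
          intro ω
          dsimp only
          rw [← ENNReal.ofReal_mul (by positivity), ← ENNReal.ofReal_mul (by positivity),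
            ← ENNReal.ofReal_add (by positivity) (by positivity)]
          apply ENNReal.ofReal_le_ofReal
          generalize dt G θ (m ω) (m' ω) v = D
          generalize wt G θ (m ω) (m' ω) v * y ^ 64 = w
          have e1 : D * w = (y ^ 15 * D) * (w / y ^ 15) := by field_simp
          have e2 : y ^ 30 * D ^ 2 + 1 / y ^ 30 * w ^ 2 = (y ^ 15 * D) ^ 2 + (w / y ^ 15) ^ 2 := by
            field_simp
          rw [e1, e2]
          generalize y ^ 15 * D = p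
          generalize w / y ^ 15 = q
          nlinarith [sq_nonneg (p - q), sq_nonneg p, sq_nonneg q]
      _ = ENNReal.ofReal (y ^ 30) * ∫⁻ ω, ENNReal.ofReal (dt G θ (m ω) (m' ω) v ^ 2) ∂P
            + ENNReal.ofReal (1 / y ^ 30)
              * ∫⁻ ω, ENNReal.ofReal ((wt G θ (m ω) (m' ω) v * y ^ 64) ^ 2) ∂P := by
          rw [lintegral_add_left ((mD.pow_const 2).ennreal_ofReal.const_mul _),
            lintegral_const_mul' _ _ ENNReal.ofReal_ne_top,
            lintegral_const_mul' _ _ ENNReal.ofReal_ne_top]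
      _ ≤ ENNReal.ofReal (y ^ 30) * (ENNReal.ofReal (kD d K) * ENNReal.ofReal a)
            + ENNReal.ofReal (1 / y ^ 30) * ENNReal.ofReal (4 * d ^ 2 * y ^ 128 * s) := by
          gcongr
          exact h1.trans (by gcongr)
      _ = _ := by
          rw [← ENNReal.ofReal_mul hkD, ← ENNReal.ofReal_mul (by positivity),
            ← ENNReal.ofReal_mul (by positivity),
            ← ENNReal.ofReal_add (by positivity) (by positivity)]
          congr 1
          field_simp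
  have hT := cT2_nonneg d C N
  calc ∫⁻ ω, ENNReal.ofReal (dt G θ (m ω) (m' ω) v * (wt G θ (m ω) (m' ω) v * y ^ 64)
        * zt G θ d y (m ω) (m' ω) v ^ 2) ∂P
      = ∫⁻ ω, ENNReal.ofReal (dt G θ (m ω) (m' ω) v * (wt G θ (m ω) (m' ω) v * y ^ 64))
          * ENNReal.ofReal (zt G θ d y (m ω) (m' ω) v) ^ 2 ∂P := by
        apply lintegral_congr
        intro ω
        have h3 := hD ω
        have h5 := hw ω
        rw [ENNReal.ofReal_mul (by positivity), ENNReal.ofReal_pow (hz ω)]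
    _ ≤ _ := key
    _ ≤ ENNReal.ofReal (1 / y) * ENNReal.ofReal (kD d K * a * y ^ 30 + 4 * d ^ 2 * y ^ 98 * s)
          + ENNReal.ofReal (cT2 d C N * y ^ N) := by
        gcongr
        exact le_rfl
    _ = _ := by
        rw [← ENNReal.ofReal_mul (by positivity),
          ← ENNReal.ofReal_add (by positivity) (by positivity)]
        congr 1
        ring

/-- final constant -/
noncomputable def cF (d : ℕ) (K : ℝ) (C : ℕ → ℝ) (N : ℕ) : ℝ :=
  K ^ 2 * (1 + d) * (2 * kD d K + cT d C (N + 96) + 4 * d ^ 2 * cS d K C N + cT2 d C (N + 97))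

lemma cF_nonneg {K : ℝ} (hK : 1 ≤ K) (d : ℕ) (C : ℕ → ℝ) (N : ℕ) : 0 ≤ cF d K C N := by
  have h1 := kD_nonneg hK d
  have h2 := cT_nonneg d C (N + 96)
  have h3 := cT2_nonneg d C (N + 97)
  have h4 := cS_nonneg hK d C N
  unfold cF
  generalize cT d C (N + 96) = t at *
  generalize cT2 d C (N + 97) = u at *
  generalize cS d K C N = c at *
  generalize kD d K = k at *
  positivity

omit [LocallyFinite G] [DecidableEq V] [Countable V] in
lemma final_real {y κ k t c u a D : ℝ} {N : ℕ} (hy0 : 0 < y) (hy1 : y ≤ 1) (hκ : 0 ≤ κ)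
    (hk : 0 ≤ k) (ht : 0 ≤ t) (hc : 0 ≤ c) (hu : 0 ≤ u) (ha : 0 ≤ a) (hD : 0 ≤ D) :
    κ / y ^ 64 * (k * a / y + t * y ^ (N + 96)) + κ / y ^ 96 * ((k * a * y ^ 30
      + 4 * D * y ^ 98 * (c * (a / y ^ 67 + y ^ N))) / y + u * y ^ (N + 97))
    ≤ κ * (2 * k + t + 4 * D * c + u) / y ^ 80 * a + κ * (2 * k + t + 4 * D * c + u) * y ^ N := by
  have hyN : 0 < y ^ N := by positivity
  have hp : ∀ j : ℕ, y ^ j ≤ 1 := fun j => pow_le_one₀ hy0.le hy1
  have ha80 : 0 ≤ a / y ^ 80 := by positivity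
  have e : κ / y ^ 64 * (k * a / y + t * y ^ (N + 96)) + κ / y ^ 96 * ((k * a * y ^ 30
      + 4 * D * y ^ 98 * (c * (a / y ^ 67 + y ^ N))) / y + u * y ^ (N + 97))
      = κ * ((k * y ^ 15 + k * y ^ 13 + 4 * D * c * y ^ 14) * (a / y ^ 80)
        + (t * y ^ 32 + 4 * D * c * y ^ 1 + u * y ^ 1) * y ^ N) := by
    rw [pow_add y N 96, pow_add y N 97]
    field_simp
    ring
  rw [e]
  have u1 : k * y ^ 15 + k * y ^ 13 + 4 * D * c * y ^ 14 ≤ k * 1 + k * 1 + 4 * D * c * 1 := by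
    gcongr <;> exact hp _
  have u2 : t * y ^ 32 + 4 * D * c * y ^ 1 + u * y ^ 1 ≤ t * 1 + 4 * D * c * 1 + u * 1 := by
    gcongr <;> exact hp _
  have u3 : k * 1 + k * 1 + 4 * D * c * 1 ≤ 2 * k + t + 4 * D * c + u := by linarith
  have u4 : t * 1 + 4 * D * c * 1 + u * 1 ≤ 2 * k + t + 4 * D * c + u := by linarith
  calc κ * ((k * y ^ 15 + k * y ^ 13 + 4 * D * c * y ^ 14) * (a / y ^ 80)
        + (t * y ^ 32 + 4 * D * c * y ^ 1 + u * y ^ 1) * y ^ N)
      ≤ κ * ((2 * k + t + 4 * D * c + u) * (a / y ^ 80) + (2 * k + t + 4 * D * c + u) * y ^ N) := by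
        apply mul_le_mul_of_nonneg_left _ hκ
        exact add_le_add (mul_le_mul_of_nonneg_right (u1.trans u3) ha80)
          (mul_le_mul_of_nonneg_right (u2.trans u4) hyN.le)
    _ = _ := by ring

/-- abstract form of the final estimate -/
lemma final_bound (S : Setup G θ α d K C y r P m m') (v : V) (N : ℕ) (F : Ω → ℝ)
    (hF : ∀ᵐ ω ∂P, |F ω| ≤ K ^ 2 * (1 + d) * (dt G θ (m ω) (m' ω) v ^ 2
        * zt G θ d y (m ω) (m' ω) v ^ 4 / y ^ 64
      + dt G θ (m ω) (m' ω) v * (wt G θ (m ω) (m' ω) v * y ^ 64)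
        * zt G θ d y (m ω) (m' ω) v ^ 2 / y ^ 96)) :
    ∫⁻ ω, ENNReal.ofReal |F ω| ∂P
      ≤ ENNReal.ofReal (cF d K C N / y ^ 80)
          * ∫⁻ ω, ENNReal.ofReal ((mag G θ (m ω) v - mag G θ (m' ω) v) ^ 2) ∂P
        + ENNReal.ofReal (cF d K C N * y ^ N) := by
  have hprob := S.prob
  have hy0 := S.hy0
  have hy1 := S.hy1
  have hK1 := S.lip.one_le
  have hkD : 0 ≤ kD d K := kD_nonneg hK1 d
  have hcS : 0 ≤ cS d K C N := cS_nonneg hK1 d C N
  have hT := cT_nonneg d C (N + 96)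
  have hT2 := cT2_nonneg d C (N + 97)
  have hcF : 0 ≤ cF d K C N := cF_nonneg hK1 d C N
  -- the mean square difference is finite
  have hAfin : dA G θ P m m' v ≠ ⊤ := by
    have h0 := (aMag_lt_one S.hθ0.le S.hθ1 S.hα0 S.hα1).2
    have : dA G θ P m m' v ≤ ∫⁻ _, ENNReal.ofReal 4 ∂P := by
      apply lintegral_mono_ae
      filter_upwards [S.cav, S.cav'] with ω hc hc'
      apply ENNReal.ofReal_le_ofReal
      have h1 := abs_mag_le S.hθ0.le S.hθ1 S.hα0 S.hα1 hc v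
      have h2 := abs_mag_le S.hθ0.le S.hθ1 S.hα0 S.hα1 hc' v
      have h3 : |mag G θ (m ω) v - mag G θ (m' ω) v| ≤ 2 := by
        refine (abs_sub _ _).trans ?_
        linarith
      rw [← sq_abs]
      have h4 := abs_nonneg (mag G θ (m ω) v - mag G θ (m' ω) v)
      nlinarith
    rw [lintegral_const, measure_univ, mul_one] at this
    exact ne_top_of_le_ne_top ENNReal.ofReal_ne_top this
  change _ ≤ ENNReal.ofReal (cF d K C N / y ^ 80) * dA G θ P m m' v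
        + ENNReal.ofReal (cF d K C N * y ^ N)
  obtain ⟨a, ha0, hAa⟩ : ∃ a : ℝ, 0 ≤ a ∧ dA G θ P m m' v = ENNReal.ofReal a :=
    ⟨_, ENNReal.toReal_nonneg, (ENNReal.ofReal_toReal hAfin).symm⟩
  have hA : ∀ w, dA G θ P m m' w ≤ ENNReal.ofReal a := fun w => by
    rw [dA_eq S w v, hAa]
  have hs0 : 0 ≤ cS d K C N * (a / y ^ 67 + y ^ N) :=
    mul_nonneg hcS (by positivity)
  have hB := lintegral_dW_bound S ha0 hA N
  have b1 := lintegral_D_Z S ha0 v (hA v) (N + 96)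
  have b2 := lintegral_DW_Z S ha0 hs0 v (hA v) hB (N + 97)
  have hcFd : cF d K C N = K ^ 2 * (1 + d) * (2 * kD d K + cT d C (N + 96)
    + 4 * d ^ 2 * cS d K C N + cT2 d C (N + 97)) := rfl
  generalize cF d K C N = cf at *
  generalize cT d C (N + 96) = t at *
  generalize cT2 d C (N + 97) = u at *
  generalize cS d K C N = c at *
  generalize kD d K = k at *
  have hz : ∀ ω, 0 ≤ zt G θ d y (m ω) (m' ω) v := fun ω =>
    le_trans (by positivity) (zt_basic (G := G) (θ := θ) (d := d) (m := m ω) (m' := m' ω) hy0 v)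
  have mD := measurable_dt (G := G) (θ := θ) S.mm S.mm' v
  have mw := measurable_wt (G := G) (θ := θ) S.mm S.mm' v
  have mz := measurable_zt (G := G) (θ := θ) (d := d) (y := y) S.mm S.mm' v
  have m1 : Measurable (fun ω => ENNReal.ofReal
      (dt G θ (m ω) (m' ω) v ^ 2 * zt G θ d y (m ω) (m' ω) v ^ 4)) :=
    ((mD.pow_const 2).mul (mz.pow_const 4)).ennreal_ofReal
  calc ∫⁻ ω, ENNReal.ofReal |F ω| ∂P
      ≤ ∫⁻ ω, (ENNReal.ofReal (K ^ 2 * (1 + d) / y ^ 64) * ENNReal.ofReal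
            (dt G θ (m ω) (m' ω) v ^ 2 * zt G θ d y (m ω) (m' ω) v ^ 4)
          + ENNReal.ofReal (K ^ 2 * (1 + d) / y ^ 96) * ENNReal.ofReal
            (dt G θ (m ω) (m' ω) v * (wt G θ (m ω) (m' ω) v * y ^ 64)
              * zt G θ d y (m ω) (m' ω) v ^ 2)) ∂P := by
        apply lintegral_mono_ae
        filter_upwards [hF] with ω hω
        have h3 : 0 ≤ dt G θ (m ω) (m' ω) v := dt_nonneg v
        have h5 : 0 ≤ wt G θ (m ω) (m' ω) v := wt_nonneg v
        have h4 := hz ω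
        rw [← ENNReal.ofReal_mul (by positivity), ← ENNReal.ofReal_mul (by positivity),
          ← ENNReal.ofReal_add (by positivity) (by positivity)]
        apply ENNReal.ofReal_le_ofReal
        refine hω.trans (le_of_eq ?_)
        ring
    _ = ENNReal.ofReal (K ^ 2 * (1 + d) / y ^ 64) * ∫⁻ ω, ENNReal.ofReal
            (dt G θ (m ω) (m' ω) v ^ 2 * zt G θ d y (m ω) (m' ω) v ^ 4) ∂P
          + ENNReal.ofReal (K ^ 2 * (1 + d) / y ^ 96) * ∫⁻ ω, ENNReal.ofReal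
            (dt G θ (m ω) (m' ω) v * (wt G θ (m ω) (m' ω) v * y ^ 64)
              * zt G θ d y (m ω) (m' ω) v ^ 2) ∂P := by
        rw [lintegral_add_left (m1.const_mul _), lintegral_const_mul' _ _ ENNReal.ofReal_ne_top,
          lintegral_const_mul' _ _ ENNReal.ofReal_ne_top]
    _ ≤ ENNReal.ofReal (K ^ 2 * (1 + d) / y ^ 64)
            * ENNReal.ofReal (k * a / y + t * y ^ (N + 96))
          + ENNReal.ofReal (K ^ 2 * (1 + d) / y ^ 96)
            * ENNReal.ofReal ((k * a * y ^ 30 + 4 * d ^ 2 * y ^ 98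
                * (c * (a / y ^ 67 + y ^ N))) / y + u * y ^ (N + 97)) := by
        gcongr
    _ = ENNReal.ofReal (K ^ 2 * (1 + d) / y ^ 64
            * (k * a / y + t * y ^ (N + 96))
          + K ^ 2 * (1 + d) / y ^ 96
            * ((k * a * y ^ 30 + 4 * d ^ 2 * y ^ 98
                * (c * (a / y ^ 67 + y ^ N))) / y + u * y ^ (N + 97))) := by
        rw [← ENNReal.ofReal_mul (by positivity), ← ENNReal.ofReal_mul (by positivity),
          ← ENNReal.ofReal_add (by positivity) (by positivity)]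
    _ ≤ ENNReal.ofReal (cf / y ^ 80 * a + cf * y ^ N) := by
        apply ENNReal.ofReal_le_ofReal
        rw [hcFd]
        exact final_real hy0 hy1 (by positivity) hkD hT hcS hT2 ha0 (by positivity)
    _ = _ := by
        rw [hAa, ENNReal.ofReal_add (by positivity) (by positivity),
          ENNReal.ofReal_mul (by positivity)]

end Aux

/-- Truncation lemma: Markov inequality for high moments. -/
lemma trunc (C : ℕ → ℝ) (N : ℕ) :
    ∃ C' : ℝ, 0 ≤ C' ∧ ∀ {Ω : Type*} [MeasurableSpace Ω] (P : Measure Ω) [IsProbabilityMeasure P]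
      (y : ℝ) (X D : Ω → ENNReal), 0 < y → y ≤ 1 → Measurable X → Measurable D →
      (∀ q : ℕ, ∫⁻ ω, X ω ^ q ∂P ≤ ENNReal.ofReal (C q)) → (∀ᵐ ω ∂P, D ω ≤ 4) →
      ∫⁻ ω, D ω * X ω ∂P ≤ ENNReal.ofReal (1 / y) * ∫⁻ ω, D ω ∂P + ENNReal.ofReal (C' * y ^ N) := by
  refine ⟨4 * max (C (N + 1)) 0, by positivity, ?_⟩
  intro Ω _ P _ y X D hy0 hy1 hX hD hmom hD4
  calc ∫⁻ ω, D ω * X ω ∂P
      ≤ ∫⁻ ω, (ENNReal.ofReal (1 / y) * D ω + ENNReal.ofReal (y ^ N) * (4 * X ω ^ (N + 1))) ∂P := by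
        apply lintegral_mono_ae
        filter_upwards [hD4] with ω hω
        calc D ω * X ω ≤ D ω * (ENNReal.ofReal (1 / y) + ENNReal.ofReal (y ^ N) * X ω ^ (N + 1)) := by
              gcongr; exact ennreal_trunc hy0 N _
          _ = ENNReal.ofReal (1 / y) * D ω + ENNReal.ofReal (y ^ N) * (D ω * X ω ^ (N + 1)) := by ring
          _ ≤ _ := by gcongr
    _ = ENNReal.ofReal (1 / y) * ∫⁻ ω, D ω ∂P
        + ENNReal.ofReal (y ^ N) * (4 * ∫⁻ ω, X ω ^ (N + 1) ∂P) := by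
        rw [lintegral_add_left (hD.const_mul _), lintegral_const_mul _ hD,
          lintegral_const_mul _ ((hX.pow_const _).const_mul _),
          lintegral_const_mul _ (hX.pow_const _)]
    _ ≤ _ := by
        gcongr
        calc ENNReal.ofReal (y ^ N) * (4 * ∫⁻ ω, X ω ^ (N + 1) ∂P)
            ≤ ENNReal.ofReal (y ^ N) * (4 * ENNReal.ofReal (max (C (N + 1)) 0)) := by
              gcongr
              exact (hmom _).trans (ENNReal.ofReal_le_ofReal (le_max_left _ _))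
          _ = ENNReal.ofReal (4 * max (C (N + 1)) 0 * y ^ N) := by
              rw [ENNReal.ofReal_mul (by positivity), ENNReal.ofReal_mul (by norm_num)]
              rw [show ENNReal.ofReal 4 = 4 from by norm_num]
              ring

variable {V : Type*} {G : SimpleGraph V} [LocallyFinite G] [DecidableEq V] [Countable V]

/-- Bounds for the recentered terms.  Write `x = y^64`, `b = d - 1`, `b θ² = 1`,
`A = E (mag v - mag' v)²`, `δ(c,p) = |m c p - m' c p|`, `μ(c,p) = |m c p| + |m' c p|`,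
`R = (Rb2 ·).toReal`.  By `cavity_inversion`, `E δ(c,p)² ≤ K A`.
(1) `Rb2_rec`: `R(c,p) = 1 + (1/b) Σ_g phi² R(g,c)`.  Let `(𝒜 f)(c,p) = (1/b) Σ_{g ≠ p} f(g,c)` and
`U = (1 - phi²) R`.  Then `R - R' = 𝒜^n (R - R') - Σ_{k=1}^n 𝒜^k (U - U')`.
(2) `f = R - r` satisfies `E f(c,p) f(c',p') = 0` on disjoint branches and `E f² ≤ C x^{-2}`;
`𝒜` preserves the first property and divides the bound on `E f²` by `b`.  So
`E (𝒜^n (R - r))² ≤ b^{-n} C x^{-2}`.  Choose `n = ⌈M / y⌉`, so `b^{-n} ≤ y^M` and `n ≤ 2 M / y`.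
(3) `|U - U'| ≤ K μ δ R + K μ'^2 |R - R'|` pointwise.
(4) `E (R - R')² ≤ C y^{-67} A + C y^N`: from (1)-(3) and the truncation lemma, absorbing the last
term for small `y` (for `y ≥ y₀` everything is bounded).
(5) the products are bounded pointwise (`prod1_le`, `prod2_le`) and then `final_bound`. -/
theorem recenter_bound {θ α : ℝ} (hG : G.IsTree) {d : ℕ} (hd : 3 ≤ d) (hreg : ∀ v, G.degree v = d)
    (hθ0 : 0 < θ) (hθ1 : θ < 1) (hcrit : ((d : ℝ) - 1) * θ ^ 2 = 1) (hα0 : 0 ≤ α) (hα1 : α < 1)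
    (C : ℕ → ℝ) (N : ℕ) :
    ∃ C' : ℝ, 0 ≤ C' ∧ ∀ {Ω : Type*} [MeasurableSpace Ω] (P : Measure Ω) [IsProbabilityMeasure P]
      (m m' : Ω → V → V → ℝ) (y : ℝ) (r : ENNReal), 0 < y → y ≤ 1 →
      (∀ c p, Measurable (fun ω => m ω c p)) → (∀ c p, Measurable (fun ω => m' ω c p)) →
      (∀ᵐ ω ∂P, IsCavity G θ α (m ω)) → (∀ᵐ ω ∂P, IsCavity G θ α (m' ω)) →
      Homog G P m m' → EnvB G θ C y r P m → EnvB G θ C y r P m' → ∀ v : V,
      (∀ g, G.Adj v g →
        ∫⁻ ω, ENNReal.ofReal (|(Real.log (phi θ (m ω v g)) - Real.log (phi θ (m' ω v g)))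
            * (S2 G θ (m ω) g v - S2 G θ (m' ω) g v)|) ∂P
          ≤ ENNReal.ofReal (C' / y ^ 80)
              * ∫⁻ ω, ENNReal.ofReal ((mag G θ (m ω) v - mag G θ (m' ω) v) ^ 2) ∂P
            + ENNReal.ofReal (C' * y ^ N)) ∧
      ∫⁻ ω, ENNReal.ofReal (|(Real.log (1 - mag G θ (m ω) v ^ 2)
            - Real.log (1 - mag G θ (m' ω) v ^ 2)) * (T2 G θ (m ω) v - T2 G θ (m' ω) v)|) ∂P
          ≤ ENNReal.ofReal (C' / y ^ 80)
              * ∫⁻ ω, ENNReal.ofReal ((mag G θ (m ω) v - mag G θ (m' ω) v) ^ 2) ∂P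
            + ENNReal.ofReal (C' * y ^ N) := by
  obtain ⟨K, hK⟩ := exists_LipK hθ0.le hθ1 hα0 hα1
  refine ⟨cF d K C N, cF_nonneg hK.one_le d C N, ?_⟩
  intro Ω _ P hP m m' y r hy0 hy1 hm hm' hc hc' hhom henv henv' v
  have S : Setup G θ α d K C y r P m m' :=
    ⟨hP, hG, hd, hreg, hθ0, hθ1, hcrit, hα0, hα1, hK, hy0, hy1, hm, hm', hc, hc', hhom, henv, henv'⟩
  constructor
  · intro g hg
    apply final_bound S v N
    filter_upwards [hc, hc'] with ω h1 h2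
    exact prod1_le hG hθ0.le hθ1 hα0 hα1 hK h1 h2 hy0 hg
  · apply final_bound S v N
    filter_upwards [S.good] with ω hω
    exact prod2_le hG hθ0.le hθ1 hα0 hα1 hd hreg hK hω hy0 hy1 v

end Vale.Agent.P161c
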