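import Vale.Agent.P161c.StageA1

namespace Vale.Agent.P161c

open MeasureTheory SimpleGraph Vale.Agent.H13.P161

section Avg

variable {V : Type*} (G : SimpleGraph V) [LocallyFinite G] [DecidableEq V]

/-- averaging over the children of a directed edge -/
noncomputable def avgE (θ : ℝ) (f : V → V → ℝ) (c p : V) : ℝ :=
  θ ^ 2 * ∑ g ∈ (G.neighborFinset c).erase p, f g c

variable {G} {θ : ℝ}

lemma avgE_congr {f f' : V → V → ℝ} (h : ∀ c p, G.Adj c p → f c p = f' c p) (c p : V) :
    avgE G θ f c p = avgE G θ f' c p := by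
  unfold avgE
  congr 1
  apply Finset.sum_congr rfl
  intro g hg
  exact h _ _ ((G.mem_neighborFinset _ _).mp (Finset.mem_of_mem_erase hg)).symm

lemma avgE_iter_congr {f f' : V → V → ℝ} (h : ∀ c p, G.Adj c p → f c p = f' c p) (n : ℕ) :
    ∀ c p, G.Adj c p → (avgE G θ)^[n] f c p = (avgE G θ)^[n] f' c p := by
  induction n with
  | zero => exact h
  | succ n ih =>
    intro c p _
    rw [Function.iterate_succ_apply', Function.iterate_succ_apply']
    exact avgE_congr ih c p

lemma avgE_sub (f f' : V → V → ℝ) : avgE G θ (fun c p => f c p - f' c p)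
    = fun c p => avgE G θ f c p - avgE G θ f' c p := by
  funext c p
  unfold avgE
  rw [Finset.sum_sub_distrib, mul_sub]

lemma avgE_iter_sub (n : ℕ) (f f' : V → V → ℝ) : (avgE G θ)^[n] (fun c p => f c p - f' c p)
    = fun c p => (avgE G θ)^[n] f c p - (avgE G θ)^[n] f' c p := by
  induction n generalizing f f' with
  | zero => rfl
  | succ n ih =>
    rw [Function.iterate_succ_apply, avgE_sub, ih]
    rfl

/-- iterated expansion of a field satisfying `W = 𝒜 W - 𝒜 U` -/
lemma avgE_expand {W U : V → V → ℝ}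
    (h : ∀ c p, G.Adj c p → W c p = avgE G θ W c p - avgE G θ U c p) (n : ℕ) :
    ∀ c p, G.Adj c p → W c p = (avgE G θ)^[n] W c p
      - ∑ k ∈ Finset.range n, (avgE G θ)^[k + 1] U c p := by
  induction n with
  | zero => intro c p _; simp
  | succ n ih =>
    intro c p hcp
    have h1 := ih c p hcp
    have h2 := avgE_iter_congr (θ := θ) h n c p hcp
    rw [avgE_iter_sub] at h2
    rw [← Function.iterate_succ_apply, ← Function.iterate_succ_apply] at h2
    rw [Finset.sum_range_succ, h1, h2]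
    rw [Nat.succ_eq_add_one]
    ring

variable {Ω : Type*} [MeasurableSpace Ω] {P : Measure Ω} {d : ℕ}

lemma card_childrenA (hreg : ∀ v, G.degree v = d) {c p : V} (h : G.Adj c p) :
    (((G.neighborFinset c).erase p).card : ℝ) = (d : ℝ) - 1 := by
  have hp : p ∈ G.neighborFinset c := (G.mem_neighborFinset _ _).mpr h
  have hc : 0 < (G.neighborFinset c).card := Finset.card_pos.mpr ⟨p, hp⟩
  rw [Finset.card_erase_of_mem hp, Nat.cast_sub hc, G.card_neighborFinset_eq_degree, hreg]
  simp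

lemma measurable_avgE_iter {F : Ω → V → V → ℝ} (hF : ∀ c p, Measurable (fun ω => F ω c p)) (n : ℕ)
    (c p : V) : Measurable (fun ω => (avgE G θ)^[n] (F ω) c p) := by
  induction n generalizing c p with
  | zero => exact hF c p
  | succ n ih =>
    simp only [Function.iterate_succ_apply']
    unfold avgE
    exact (Finset.measurable_fun_sum _ (fun g _ => ih g c)).const_mul _

lemma avgE_sq_le (hreg : ∀ v, G.degree v = d) (hcrit : ((d : ℝ) - 1) * θ ^ 2 = 1)
    (f : V → V → ℝ) {c p : V} (h : G.Adj c p) :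
    avgE G θ f c p ^ 2 ≤ θ ^ 2 * ∑ g ∈ (G.neighborFinset c).erase p, f g c ^ 2 := by
  unfold avgE
  have h1 : (∑ g ∈ (G.neighborFinset c).erase p, f g c) ^ 2
      ≤ (((G.neighborFinset c).erase p).card : ℝ) * ∑ g ∈ (G.neighborFinset c).erase p, f g c ^ 2 :=
    sq_sum_le_card_mul_sum_sq
  rw [card_childrenA hreg h] at h1
  calc (θ ^ 2 * ∑ g ∈ (G.neighborFinset c).erase p, f g c) ^ 2
      = θ ^ 2 * (θ ^ 2 * (∑ g ∈ (G.neighborFinset c).erase p, f g c) ^ 2) := by ring
    _ ≤ θ ^ 2 * (θ ^ 2 * (((d : ℝ) - 1) * ∑ g ∈ (G.neighborFinset c).erase p, f g c ^ 2)) := by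
        gcongr
    _ = (((d : ℝ) - 1) * θ ^ 2) * (θ ^ 2 * ∑ g ∈ (G.neighborFinset c).erase p, f g c ^ 2) := by ring
    _ = _ := by rw [hcrit, one_mul]

/-- the averaging operator does not increase the bound on the second moments -/
lemma avgE_lintegral_sq (hreg : ∀ v, G.degree v = d) (hcrit : ((d : ℝ) - 1) * θ ^ 2 = 1)
    {F : Ω → V → V → ℝ} (hF : ∀ c p, Measurable (fun ω => F ω c p)) {B : ENNReal}
    (hB : ∀ c p, G.Adj c p → ∫⁻ ω, ENNReal.ofReal (F ω c p ^ 2) ∂P ≤ B) :
    ∀ c p, G.Adj c p → ∫⁻ ω, ENNReal.ofReal (avgE G θ (F ω) c p ^ 2) ∂P ≤ B := by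
  intro c p h
  calc ∫⁻ ω, ENNReal.ofReal (avgE G θ (F ω) c p ^ 2) ∂P
      ≤ ∫⁻ ω, ENNReal.ofReal (θ ^ 2) * ∑ g ∈ (G.neighborFinset c).erase p,
          ENNReal.ofReal (F ω g c ^ 2) ∂P := by
        apply lintegral_mono
        intro ω
        refine (ENNReal.ofReal_le_ofReal (avgE_sq_le hreg hcrit (F ω) h)).trans ?_
        rw [ENNReal.ofReal_mul (sq_nonneg _), ENNReal.ofReal_sum_of_nonneg (fun _ _ => sq_nonneg _)]
    _ = ENNReal.ofReal (θ ^ 2) * ∑ g ∈ (G.neighborFinset c).erase p,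
          ∫⁻ ω, ENNReal.ofReal (F ω g c ^ 2) ∂P := by
        rw [lintegral_const_mul' _ _ ENNReal.ofReal_ne_top,
          lintegral_finsetSum _ (fun g _ => ((hF g c).pow_const 2).ennreal_ofReal)]
    _ ≤ ENNReal.ofReal (θ ^ 2) * ∑ g ∈ (G.neighborFinset c).erase p, B := by
        gcongr with g hg
        exact hB _ _ ((G.mem_neighborFinset _ _).mp (Finset.mem_of_mem_erase hg)).symm
    _ = B := by
        rw [Finset.sum_const, nsmul_eq_mul, ← mul_assoc]
        have e : ENNReal.ofReal (θ ^ 2) * (((G.neighborFinset c).erase p).card : ENNReal) = 1 := by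
          have e1 : (((G.neighborFinset c).erase p).card : ENNReal)
              = ENNReal.ofReal (((G.neighborFinset c).erase p).card : ℝ) := by simp
          rw [e1, card_childrenA hreg h, ← ENNReal.ofReal_mul (sq_nonneg _), mul_comm, hcrit]
          simp
        rw [e, one_mul]

lemma avgE_iter_lintegral_sq (hreg : ∀ v, G.degree v = d) (hcrit : ((d : ℝ) - 1) * θ ^ 2 = 1)
    {F : Ω → V → V → ℝ} (hF : ∀ c p, Measurable (fun ω => F ω c p)) {B : ENNReal}
    (hB : ∀ c p, G.Adj c p → ∫⁻ ω, ENNReal.ofReal (F ω c p ^ 2) ∂P ≤ B) (n : ℕ) :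
    ∀ c p, G.Adj c p → ∫⁻ ω, ENNReal.ofReal ((avgE G θ)^[n] (F ω) c p ^ 2) ∂P ≤ B := by
  induction n with
  | zero => exact hB
  | succ n ih =>
    simp only [Function.iterate_succ_apply']
    exact avgE_lintegral_sq hreg hcrit (fun c p => measurable_avgE_iter hF n c p) ih

/-- second moment bound through the expansion -/
lemma lintegral_sq_expand (hreg : ∀ v, G.degree v = d) (hcrit : ((d : ℝ) - 1) * θ ^ 2 = 1)
    {W U : Ω → V → V → ℝ} (hW : ∀ c p, Measurable (fun ω => W ω c p))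
    (hU : ∀ c p, Measurable (fun ω => U ω c p))
    (hrec : ∀ᵐ ω ∂P, ∀ c p, G.Adj c p → W ω c p = avgE G θ (W ω) c p - avgE G θ (U ω) c p)
    (n : ℕ) {BW BU : ENNReal}
    (hBW : ∀ c p, G.Adj c p → ∫⁻ ω, ENNReal.ofReal ((avgE G θ)^[n] (W ω) c p ^ 2) ∂P ≤ BW)
    (hBU : ∀ c p, G.Adj c p → ∫⁻ ω, ENNReal.ofReal (U ω c p ^ 2) ∂P ≤ BU) :
    ∀ c p, G.Adj c p → ∫⁻ ω, ENNReal.ofReal (W ω c p ^ 2) ∂P ≤ 2 * BW + 2 * (n : ENNReal) ^ 2 * BU := by
  intro c p h
  calc ∫⁻ ω, ENNReal.ofReal (W ω c p ^ 2) ∂P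
      ≤ ∫⁻ ω, (2 * ENNReal.ofReal ((avgE G θ)^[n] (W ω) c p ^ 2)
          + 2 * (n : ENNReal) * ∑ k ∈ Finset.range n,
              ENNReal.ofReal ((avgE G θ)^[k + 1] (U ω) c p ^ 2)) ∂P := by
        apply lintegral_mono_ae
        filter_upwards [hrec] with ω hω
        have e := avgE_expand hω n c p h
        have h1 : (∑ k ∈ Finset.range n, (avgE G θ)^[k + 1] (U ω) c p) ^ 2
            ≤ (n : ℝ) * ∑ k ∈ Finset.range n, (avgE G θ)^[k + 1] (U ω) c p ^ 2 := by
          have := sq_sum_le_card_mul_sum_sq (s := Finset.range n)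
            (f := fun k => (avgE G θ)^[k + 1] (U ω) c p)
          simpa using this
        have h2 : W ω c p ^ 2 ≤ 2 * (avgE G θ)^[n] (W ω) c p ^ 2
            + 2 * (n : ℝ) * ∑ k ∈ Finset.range n, (avgE G θ)^[k + 1] (U ω) c p ^ 2 := by
          rw [e]
          nlinarith [sq_nonneg ((avgE G θ)^[n] (W ω) c p
            + ∑ k ∈ Finset.range n, (avgE G θ)^[k + 1] (U ω) c p)]
        refine (ENNReal.ofReal_le_ofReal h2).trans ?_
        rw [ENNReal.ofReal_add (by positivity) (by positivity), ENNReal.ofReal_mul (by norm_num),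
          ENNReal.ofReal_mul (by positivity), ENNReal.ofReal_mul (by norm_num),
          ENNReal.ofReal_sum_of_nonneg (fun _ _ => sq_nonneg _)]
        simp
    _ = 2 * ∫⁻ ω, ENNReal.ofReal ((avgE G θ)^[n] (W ω) c p ^ 2) ∂P
          + 2 * (n : ENNReal) * ∑ k ∈ Finset.range n,
              ∫⁻ ω, ENNReal.ofReal ((avgE G θ)^[k + 1] (U ω) c p ^ 2) ∂P := by
        rw [lintegral_add_left, lintegral_const_mul' _ _ (by simp),
          lintegral_const_mul' _ _ (by finiteness), lintegral_finsetSum]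
        · intro k _
          exact ((measurable_avgE_iter hU (k + 1) c p).pow_const 2).ennreal_ofReal
        · exact (((measurable_avgE_iter hW n c p).pow_const 2).ennreal_ofReal).const_mul _
    _ ≤ 2 * BW + 2 * (n : ENNReal) * ∑ k ∈ Finset.range n, BU := by
        gcongr with k hk
        · exact hBW c p h
        · exact avgE_iter_lintegral_sq hreg hcrit hU hBU (k + 1) c p h
    _ = _ := by
        rw [Finset.sum_const, nsmul_eq_mul, Finset.card_range]
        ring

end Avg

section Uncorrelated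

variable {V : Type*} {G : SimpleGraph V} [LocallyFinite G] [DecidableEq V] {θ : ℝ} {d : ℕ}
variable {Ω : Type*} [MeasurableSpace Ω] {P : Measure Ω}

/-- centered square integrable fields, uncorrelated on disjoint branches -/
structure Uncorr (G : SimpleGraph V) (P : Measure Ω) (F : Ω → V → V → ℝ) (B : ℝ) : Prop where
  memLp : ∀ c p, G.Adj c p → MemLp (fun ω => F ω c p) 2 P
  uncorr : ∀ c p c' p', G.Adj c p → G.Adj c' p' → Disjoint (br G c p) (br G c' p') →
    ∫ ω, F ω c p * F ω c' p' ∂P = 0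
  sqb : ∀ c p, G.Adj c p → ∫ ω, F ω c p ^ 2 ∂P ≤ B

lemma Uncorr.avgE (hG : G.IsTree) (hreg : ∀ v, G.degree v = d)
    (hcrit : ((d : ℝ) - 1) * θ ^ 2 = 1) {F : Ω → V → V → ℝ} {B : ℝ} (h : Uncorr G P F B) :
    Uncorr G P (fun ω => avgE G θ (F ω)) (θ ^ 2 * B) := by
  have hadj : ∀ {c p g : V}, g ∈ (G.neighborFinset c).erase p → G.Adj g c := fun hg =>
    ((G.mem_neighborFinset _ _).mp (Finset.mem_of_mem_erase hg)).symm
  have hint : ∀ {c p c' p' : V}, G.Adj c p → G.Adj c' p' →
      Integrable (fun ω => F ω c p * F ω c' p') P := fun h1 h2 =>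
    (h.memLp _ _ h1).integrable_mul (h.memLp _ _ h2)
  have hexp : ∀ {c p c' p' : V}, G.Adj c p → G.Adj c' p' →
      ∫ ω, Vale.Agent.P161c.avgE G θ (F ω) c p * Vale.Agent.P161c.avgE G θ (F ω) c' p' ∂P
        = θ ^ 4 * ∑ g ∈ (G.neighborFinset c).erase p, ∑ g' ∈ (G.neighborFinset c').erase p',
            ∫ ω, F ω g c * F ω g' c' ∂P := by
    intro c p c' p' h1 h2
    have e : ∀ ω, Vale.Agent.P161c.avgE G θ (F ω) c p * Vale.Agent.P161c.avgE G θ (F ω) c' p'
        = θ ^ 4 * ∑ g ∈ (G.neighborFinset c).erase p, ∑ g' ∈ (G.neighborFinset c').erase p',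
            F ω g c * F ω g' c' := by
      intro ω
      unfold Vale.Agent.P161c.avgE
      rw [← Finset.sum_mul_sum]
      ring
    simp only [e]
    rw [integral_const_mul, integral_finsetSum]
    · congr 1
      apply Finset.sum_congr rfl
      intro g hg
      rw [integral_finsetSum]
      intro g' hg'
      exact hint (hadj hg) (hadj hg')
    · intro g hg
      apply integrable_finsetSum
      intro g' hg'
      exact hint (hadj hg) (hadj hg')
  refine ⟨?_, ?_, ?_⟩
  · intro c p _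
    unfold Vale.Agent.P161c.avgE
    exact (memLp_finsetSum _ (fun g hg => h.memLp g c (hadj hg))).const_mul _
  · intro c p c' p' h1 h2 hdis
    rw [hexp h1 h2]
    rw [Finset.sum_eq_zero, mul_zero]
    intro g hg
    apply Finset.sum_eq_zero
    intro g' hg'
    apply h.uncorr _ _ _ _ (hadj hg) (hadj hg')
    apply Set.disjoint_of_subset _ _ hdis
    · exact br_subset hG h1 (hadj hg).symm (Finset.ne_of_mem_erase hg)
    · exact br_subset hG h2 (hadj hg').symm (Finset.ne_of_mem_erase hg')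
  · intro c p h1
    have e : ∫ ω, Vale.Agent.P161c.avgE G θ (F ω) c p ^ 2 ∂P
        = θ ^ 4 * ∑ g ∈ (G.neighborFinset c).erase p, ∫ ω, F ω g c ^ 2 ∂P := by
      have := hexp h1 h1
      simp only [← pow_two] at this
      rw [this]
      congr 1
      apply Finset.sum_congr rfl
      intro g hg
      rw [Finset.sum_eq_single g]
      · simp only [← pow_two]
      · intro g' hg' hne
        apply h.uncorr _ _ _ _ (hadj hg) (hadj hg')
        exact br_disjoint hG (hadj hg).symm (hadj hg').symm hne.symm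
      · intro hg'; exact absurd hg hg'
    rw [e]
    calc θ ^ 4 * ∑ g ∈ (G.neighborFinset c).erase p, ∫ ω, F ω g c ^ 2 ∂P
        ≤ θ ^ 4 * ∑ g ∈ (G.neighborFinset c).erase p, B := by
          gcongr with g hg
          exact h.sqb _ _ (hadj hg)
      _ = θ ^ 4 * (((d : ℝ) - 1) * B) := by
          rw [Finset.sum_const, nsmul_eq_mul, card_childrenA hreg h1]
      _ = (((d : ℝ) - 1) * θ ^ 2) * (θ ^ 2 * B) := by ring
      _ = θ ^ 2 * B := by rw [hcrit, one_mul]

lemma Uncorr.iter (hG : G.IsTree) (hreg : ∀ v, G.degree v = d)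
    (hcrit : ((d : ℝ) - 1) * θ ^ 2 = 1) {F : Ω → V → V → ℝ} {B : ℝ} (h : Uncorr G P F B) (n : ℕ) :
    Uncorr G P (fun ω => (Vale.Agent.P161c.avgE G θ)^[n] (F ω)) (θ ^ (2 * n) * B) := by
  induction n with
  | zero => simpa using h
  | succ n ih =>
    have := ih.avgE (θ := θ) hG hreg hcrit
    simp only [Function.iterate_succ_apply']
    have e : θ ^ (2 * (n + 1)) * B = θ ^ 2 * (θ ^ (2 * n) * B) := by ring
    rw [e]
    exact this

end Uncorrelated

end Vale.Agent.P161c
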