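import Vale.Agent.P161c.StageA2a

/-!
Deterministic estimates for a pair of cavity fields.
-/

namespace Vale.Agent.P161c

open MeasureTheory SimpleGraph Vale.Agent.H13.P161

/-- all Lipschitz constants at once -/
structure LipK (θ α K : ℝ) : Prop where
  one_le : 1 ≤ K
  phi2 : ∀ x x' : ℝ, |x| ≤ α → |x'| ≤ α →
    |phi θ x ^ 2 - phi θ x' ^ 2| ≤ K * (|x| + |x'|) * |x - x'|
  logphi : ∀ x x' : ℝ, |x| ≤ α → |x'| ≤ α →
    |Real.log (phi θ x) - Real.log (phi θ x')| ≤ K * (|x| + |x'|) * |x - x'|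
  logmag : ∀ x x' : ℝ, |x| ≤ aMag θ α → |x'| ≤ aMag θ α →
    |Real.log (1 - x ^ 2) - Real.log (1 - x' ^ 2)| ≤ K * (|x| + |x'|) * |x - x'|
  mag2 : ∀ x x' : ℝ, |x| ≤ aMag θ α → |x'| ≤ aMag θ α →
    |(1 - x ^ 2) ^ 2 - (1 - x' ^ 2) ^ 2| ≤ K * (|x| + |x'|) * |x - x'|
  edge : ∀ a c a' c' : ℝ, |a| ≤ α → |c| ≤ α → |a'| ≤ α → |c'| ≤ α →
      |(θ * ((1 - a ^ 2) * (1 - c ^ 2)) / (1 + θ * a * c) ^ 2) ^ 2
        - (θ * ((1 - a' ^ 2) * (1 - c' ^ 2)) / (1 + θ * a' * c') ^ 2) ^ 2|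
      ≤ K * (|a| + |c| + |a'| + |c'|) * (|a - a'| + |c - c'|)
  inv : ∀ a c a' c' : ℝ, |a| ≤ α → |c| ≤ α → |a'| ≤ α → |c'| ≤ α →
      |a - a'| + |c - c'| ≤ K * (|comb a (θ * c) - comb a' (θ * c')|
        + |comb c (θ * a) - comb c' (θ * a')|)

lemma exists_LipK {θ α : ℝ} (hθ0 : 0 ≤ θ) (hθ1 : θ < 1) (hα0 : 0 ≤ α) (hα1 : α < 1) :
    ∃ K : ℝ, LipK θ α K := by
  obtain ⟨K1, h1, hK1⟩ := phi_sub_le hθ0 hθ1 hα0 hα1
  obtain ⟨hm0, hm1⟩ := aMag_lt_one hθ0 hθ1 hα0 hα1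
  obtain ⟨K2, h2, hK2⟩ := log_one_sub_sq_le hm0 hm1
  obtain ⟨K3, h3, hK3⟩ := edge_cov_sub_le hθ0 hθ1 hα0 hα1
  obtain ⟨K4, h4, hK4⟩ := cavity_inversion hθ0 hθ1
  refine ⟨1 + K1 + K2 + K3 + K4, ?_, ?_, ?_, ?_, ?_, ?_, ?_⟩
  · linarith
  · intro x x' hx hx'
    refine (hK1 x x' hx hx').2.1.trans ?_
    gcongr; linarith
  · intro x x' hx hx'
    refine (hK1 x x' hx hx').2.2.1.trans ?_
    gcongr; linarith
  · intro x x' hx hx'
    refine (hK2 x x' hx hx').1.trans ?_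
    gcongr; linarith
  · intro x x' hx hx'
    refine (hK2 x x' hx hx').2.1.trans ?_
    gcongr; linarith
  · intro a c a' c' ha hc ha' hc'
    refine (hK3 a c a' c' ha hc ha' hc').trans ?_
    gcongr; linarith
  · intro a c a' c' ha hc ha' hc'
    refine (hK4 a c a' c' (ha.trans hα1.le) (hc.trans hα1.le) (ha'.trans hα1.le)
      (hc'.trans hα1.le)).trans ?_
    gcongr; linarith

section Det

variable {V : Type*} (G : SimpleGraph V)

/-- real branch susceptibility -/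
noncomputable def R2 (θ : ℝ) (m : V → V → ℝ) (c p : V) : ℝ := (Rb2 G θ m c p).toReal

/-- screening loss -/
noncomputable def U2 (θ : ℝ) (m : V → V → ℝ) (c p : V) : ℝ :=
  (1 - phi θ (m c p) ^ 2) * R2 G θ m c p

/-- two cavity fields with finite susceptibilities -/
structure GoodPair (θ α : ℝ) (m m' : V → V → ℝ) : Prop where
  cav : IsCavity G θ α m
  cav' : IsCavity G θ α m'
  fin : ∀ v, Rf G θ m v ≠ ⊤
  fin' : ∀ v, Rf G θ m' v ≠ ⊤

variable [LocallyFinite G] [DecidableEq V]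

/-- sum over the directed edges at a vertex -/
noncomputable def star2 (f : V → V → ℝ) (v : V) : ℝ := ∑ g ∈ G.neighborFinset v, (f v g + f g v)

/-- normalized majorant -/
noncomputable def zt (θ : ℝ) (d : ℕ) (y : ℝ) (m m' : V → V → ℝ) (v : V) : ℝ :=
  (2 + 4 * d) + star2 G (fun c p => (|m c p| + |m' c p|) / y ^ 32
    + (R2 G θ m c p + R2 G θ m' c p) * y ^ 64) v

/-- total difference of the magnetizations at a vertex -/
noncomputable def dt (θ : ℝ) (m m' : V → V → ℝ) (v : V) : ℝ :=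
  |mag G θ m v - mag G θ m' v| + star2 G (fun c p => |m c p - m' c p|) v

/-- total difference of the susceptibilities at a vertex -/
noncomputable def wt (θ : ℝ) (m m' : V → V → ℝ) (v : V) : ℝ :=
  star2 G (fun c p => |R2 G θ m c p - R2 G θ m' c p|) v

variable {G} {θ α K y : ℝ} {d : ℕ} {m m' : V → V → ℝ}

omit [LocallyFinite G] [DecidableEq V] in
lemma R2_nonneg (c p : V) : 0 ≤ R2 G θ m c p := ENNReal.toReal_nonneg

omit [DecidableEq V] in
lemma star2_nonneg {f : V → V → ℝ} (hf : ∀ c p, G.Adj c p → 0 ≤ f c p) (v : V) :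
    0 ≤ star2 G f v := by
  apply Finset.sum_nonneg
  intro g hg
  have h : G.Adj v g := (G.mem_neighborFinset _ _).mp hg
  exact add_nonneg (hf _ _ h) (hf _ _ h.symm)

omit [DecidableEq V] in
lemma le_star2 {f : V → V → ℝ} (hf : ∀ c p, G.Adj c p → 0 ≤ f c p) {c p : V} (h : G.Adj c p) :
    f c p + f p c ≤ star2 G f c := by
  refine Finset.single_le_sum (f := fun g => f c g + f g c) (fun g hg => ?_)
    ((G.mem_neighborFinset _ _).mpr h)
  have h : G.Adj c g := (G.mem_neighborFinset _ _).mp hg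
  exact add_nonneg (hf _ _ h) (hf _ _ h.symm)

/-- recursion for the real branch susceptibility -/
lemma R2_rec (hG : G.IsTree) (hθ0 : 0 ≤ θ) (hθ1 : θ < 1) (hα1 : α < 1)
    (hm : IsCavity G θ α m) (hfin : ∀ v, Rf G θ m v ≠ ⊤) {c p : V} (h : G.Adj c p) :
    R2 G θ m c p = 1 + avgE G θ (R2 G θ m) c p - avgE G θ (U2 G θ m) c p := by
  have hf : ∀ c p, Rb2 G θ m c p ≠ ⊤ := fun c p =>
    ne_top_of_le_ne_top (hfin c) ((Rb2_le_Rb hθ0 hθ1 hα1 hG hm c p).trans (Rb_le_Rf c p))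
  have hterm : ∀ g ∈ (G.neighborFinset c).erase p,
      ENNReal.ofReal (θ ^ 2 * phi θ (m g c) ^ 2) * Rb2 G θ m g c ≠ ⊤ := fun g _ =>
    ENNReal.mul_ne_top ENNReal.ofReal_ne_top (hf _ _)
  unfold R2
  rw [Rb2_rec hθ0 hθ1 hα1 hG hm h, ENNReal.toReal_add ENNReal.one_ne_top
    (ENNReal.sum_ne_top.mpr hterm), ENNReal.toReal_sum hterm]
  unfold avgE U2 R2
  rw [ENNReal.toReal_one, add_sub_assoc, ← mul_sub, ← Finset.sum_sub_distrib, Finset.mul_sum]
  congr 1
  apply Finset.sum_congr rfl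
  intro g _
  rw [ENNReal.toReal_mul, ENNReal.toReal_ofReal (by positivity)]
  ring

omit [LocallyFinite G] [DecidableEq V] in
lemma zt_aux_nonneg (hy0 : 0 < y) (c p : V) : 0 ≤ (|m c p| + |m' c p|) / y ^ 32
    + (R2 G θ m c p + R2 G θ m' c p) * y ^ 64 := by
  have h1 := R2_nonneg (G := G) (θ := θ) (m := m) c p
  have h2 := R2_nonneg (G := G) (θ := θ) (m := m') c p
  positivity

omit [DecidableEq V] in
lemma zt_basic (hy0 : 0 < y) (v : V) : (2 + 4 * (d : ℝ)) ≤ zt G θ d y m m' v := by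
  unfold zt
  have := star2_nonneg (G := G) (f := fun c p => (|m c p| + |m' c p|) / y ^ 32
    + (R2 G θ m c p + R2 G θ m' c p) * y ^ 64) (fun c p _ => zt_aux_nonneg hy0 c p) v
  linarith

omit [DecidableEq V] in
lemma zt_edge (hy0 : 0 < y) {v p : V} (h : G.Adj v p) :
    (|m v p| + |m' v p|) / y ^ 32 + (R2 G θ m v p + R2 G θ m' v p) * y ^ 64
      + ((|m p v| + |m' p v|) / y ^ 32 + (R2 G θ m p v + R2 G θ m' p v) * y ^ 64)
      ≤ zt G θ d y m m' v := by
  unfold zt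
  have := le_star2 (G := G) (f := fun c p => (|m c p| + |m' c p|) / y ^ 32
    + (R2 G θ m c p + R2 G θ m' c p) * y ^ 64) (fun c p _ => zt_aux_nonneg hy0 c p) h
  have hd : (0 : ℝ) ≤ d := Nat.cast_nonneg d
  linarith

omit [DecidableEq V] in
lemma zt_m (hy0 : 0 < y) {v p : V} (h : G.Adj v p) :
    |m v p| + |m' v p| + (|m p v| + |m' p v|) ≤ y ^ 32 * zt G θ d y m m' v := by
  have h1 := zt_edge (θ := θ) (d := d) (m := m) (m' := m') hy0 h
  have r1 := R2_nonneg (G := G) (θ := θ) (m := m) v p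
  have r2 := R2_nonneg (G := G) (θ := θ) (m := m') v p
  have r3 := R2_nonneg (G := G) (θ := θ) (m := m) p v
  have r4 := R2_nonneg (G := G) (θ := θ) (m := m') p v
  have hy : 0 < y ^ 32 := by positivity
  have hy' : 0 < y ^ 64 := by positivity
  have e : |m v p| + |m' v p| + (|m p v| + |m' p v|)
      = y ^ 32 * ((|m v p| + |m' v p|) / y ^ 32 + (|m p v| + |m' p v|) / y ^ 32) := by
    field_simp
  rw [e]
  apply mul_le_mul_of_nonneg_left _ hy.le
  have a1 : 0 ≤ (R2 G θ m v p + R2 G θ m' v p) * y ^ 64 := by positivity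
  have a2 : 0 ≤ (R2 G θ m p v + R2 G θ m' p v) * y ^ 64 := by positivity
  linarith

omit [DecidableEq V] in
lemma zt_R (hy0 : 0 < y) {v p : V} (h : G.Adj v p) :
    (R2 G θ m v p + R2 G θ m' v p + (R2 G θ m p v + R2 G θ m' p v)) * y ^ 64
      ≤ zt G θ d y m m' v := by
  have h1 := zt_edge (θ := θ) (d := d) (m := m) (m' := m') hy0 h
  have a1 : 0 ≤ (|m v p| + |m' v p|) / y ^ 32 := by positivity
  have a2 : 0 ≤ (|m p v| + |m' p v|) / y ^ 32 := by positivity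
  nlinarith

omit [DecidableEq V] in
/-- the sum over the incoming susceptibilities -/
lemma zt_sum_R (hy0 : 0 < y) (hy1 : y ≤ 1) (v : V) :
    (1 + ∑ g ∈ G.neighborFinset v, R2 G θ m g v) * y ^ 64 ≤ zt G θ d y m m' v := by
  unfold zt star2
  rw [add_mul, one_mul, Finset.sum_mul]
  have h1 : y ^ 64 ≤ 1 := pow_le_one₀ hy0.le hy1
  have hd : (0 : ℝ) ≤ d := Nat.cast_nonneg d
  apply add_le_add (by linarith)
  apply Finset.sum_le_sum
  intro g _
  have r1 := R2_nonneg (G := G) (θ := θ) (m := m) v g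
  have r2 := R2_nonneg (G := G) (θ := θ) (m := m') v g
  have r4 := R2_nonneg (G := G) (θ := θ) (m := m') g v
  have a1 : 0 ≤ (|m v g| + |m' v g|) / y ^ 32 := by positivity
  have a2 : 0 ≤ (|m g v| + |m' g v|) / y ^ 32 := by positivity
  have hy' : 0 < y ^ 64 := by positivity
  nlinarith [mul_nonneg r1 hy'.le, mul_nonneg r2 hy'.le, mul_nonneg r4 hy'.le]

omit [DecidableEq V] in
lemma dt_nonneg (v : V) : 0 ≤ dt G θ m m' v :=
  add_nonneg (abs_nonneg _) (star2_nonneg (fun _ _ _ => abs_nonneg _) v)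

omit [DecidableEq V] in
lemma mag_le_dt (v : V) : |mag G θ m v - mag G θ m' v| ≤ dt G θ m m' v := by
  unfold dt
  have := star2_nonneg (G := G) (f := fun c p => |m c p - m' c p|) (fun _ _ _ => abs_nonneg _) v
  linarith

omit [DecidableEq V] in
lemma edge_le_dt {v p : V} (h : G.Adj v p) :
    |m v p - m' v p| + |m p v - m' p v| ≤ dt G θ m m' v := by
  unfold dt
  have := le_star2 (G := G) (f := fun c p => |m c p - m' c p|) (fun _ _ _ => abs_nonneg _) h
  have h2 := abs_nonneg (mag G θ m v - mag G θ m' v)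
  linarith

omit [DecidableEq V] in
lemma wt_nonneg (v : V) : 0 ≤ wt G θ m m' v := star2_nonneg (fun _ _ _ => abs_nonneg _) v

omit [DecidableEq V] in
lemma edge_le_wt {v p : V} (h : G.Adj v p) :
    |R2 G θ m v p - R2 G θ m' v p| + |R2 G θ m p v - R2 G θ m' p v| ≤ wt G θ m m' v :=
  le_star2 (G := G) (f := fun c p => |R2 G θ m c p - R2 G θ m' c p|) (fun _ _ _ => abs_nonneg _) h

omit [DecidableEq V] in
lemma wt_le_zt (hy0 : 0 < y) (v : V) : wt G θ m m' v * y ^ 64 ≤ zt G θ d y m m' v := by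
  unfold wt zt star2
  rw [Finset.sum_mul]
  have hd : (0 : ℝ) ≤ d := Nat.cast_nonneg d
  refine le_trans ?_ (le_add_of_nonneg_left (by linarith))
  apply Finset.sum_le_sum
  intro g _
  have r1 := R2_nonneg (G := G) (θ := θ) (m := m) v g
  have r2 := R2_nonneg (G := G) (θ := θ) (m := m') v g
  have r3 := R2_nonneg (G := G) (θ := θ) (m := m) g v
  have r4 := R2_nonneg (G := G) (θ := θ) (m := m') g v
  have b1 : |R2 G θ m v g - R2 G θ m' v g| ≤ R2 G θ m v g + R2 G θ m' v g := by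
    rw [abs_le]; constructor <;> linarith
  have b2 : |R2 G θ m g v - R2 G θ m' g v| ≤ R2 G θ m g v + R2 G θ m' g v := by
    rw [abs_le]; constructor <;> linarith
  have a1 : 0 ≤ (|m v g| + |m' v g|) / y ^ 32 := by positivity
  have a2 : 0 ≤ (|m g v| + |m' g v|) / y ^ 32 := by positivity
  have hy' : 0 < y ^ 64 := by positivity
  have c1 := mul_le_mul_of_nonneg_right b1 hy'.le
  have c2 := mul_le_mul_of_nonneg_right b2 hy'.le
  linarith

omit [DecidableEq V] in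
lemma dt_le_zt (hθ0 : 0 ≤ θ) (hθ1 : θ < 1) (hα0 : 0 ≤ α) (hα1 : α < 1) (hreg : ∀ v, G.degree v = d)
    (hm : IsCavity G θ α m) (hm' : IsCavity G θ α m') (v : V) :
    dt G θ m m' v ≤ 2 + 4 * d := by
  unfold dt star2
  have h0 := (aMag_lt_one hθ0 hθ1 hα0 hα1).2
  have h1 := abs_mag_le hθ0 hθ1 hα0 hα1 hm v
  have h2 := abs_mag_le hθ0 hθ1 hα0 hα1 hm' v
  have h3 : |mag G θ m v - mag G θ m' v| ≤ 2 := by
    refine (abs_sub _ _).trans ?_
    linarith
  have h4 : ∑ g ∈ G.neighborFinset v, (|m v g - m' v g| + |m g v - m' g v|)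
      ≤ ∑ g ∈ G.neighborFinset v, (4 : ℝ) := by
    apply Finset.sum_le_sum
    intro g hg
    have hg' : G.Adj v g := (G.mem_neighborFinset _ _).mp hg
    have a1 := hm.bound _ _ hg'
    have a2 := hm.bound _ _ hg'.symm
    have a3 := hm'.bound _ _ hg'
    have a4 := hm'.bound _ _ hg'.symm
    have b1 := abs_sub (m v g) (m' v g)
    have b2 := abs_sub (m g v) (m' g v)
    linarith
  rw [Finset.sum_const, nsmul_eq_mul, G.card_neighborFinset_eq_degree, hreg] at h4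
  linarith

omit [DecidableEq V] in
/-- pointwise bound for the difference of the screening losses -/
lemma U2_sub_le (hθ0 : 0 ≤ θ) (hθ1 : θ < 1) (hα1 : α < 1) (hK : LipK θ α K)
    (hm : IsCavity G θ α m) (hm' : IsCavity G θ α m') (hy0 : 0 < y) {c p : V} (h : G.Adj c p) :
    |U2 G θ m c p - U2 G θ m' c p| ≤ K * (zt G θ d y m m' c ^ 2 * dt G θ m m' c) / y ^ 32
      + 2 * (zt G θ d y m m' c ^ 2 * (wt G θ m m' c * y ^ 64)) := by
  have b1 := zt_m (θ := θ) (d := d) (m := m) (m' := m') hy0 h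
  have b2 := zt_R (θ := θ) (d := d) (m := m) (m' := m') hy0 h
  have b3 := edge_le_dt (G := G) (θ := θ) (m := m) (m' := m') h
  have b4 := edge_le_wt (G := G) (θ := θ) (m := m) (m' := m') h
  have bz : 0 ≤ zt G θ d y m m' c := le_trans (by positivity) (zt_basic hy0 c)
  have hK1 := hK.one_le
  have l1 := hK.phi2 (m c p) (m' c p) (hm.bound _ _ h) (hm'.bound _ _ h)
  have l2 := one_sub_phi hθ0 hθ1 (x := m' c p) ((hm'.bound _ _ h).trans hα1.le)
  have l3 := phi_nonneg_le hθ0 hθ1 (x := m' c p) (lt_of_le_of_lt (hm'.bound _ _ h) hα1)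
  have r1 := R2_nonneg (G := G) (θ := θ) (m := m) c p
  have r2 := R2_nonneg (G := G) (θ := θ) (m := m') c p
  have r3 := R2_nonneg (G := G) (θ := θ) (m := m) p c
  have r4 := R2_nonneg (G := G) (θ := θ) (m := m') p c
  unfold U2
  set z := zt G θ d y m m' c with hz
  set D := dt G θ m m' c with hD
  set Wt' := wt G θ m m' c with hW
  set R := R2 G θ m c p with hR
  set R' := R2 G θ m' c p with hR'
  set f := phi θ (m c p) with hf
  set f' := phi θ (m' c p) with hf'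
  have hD0 : 0 ≤ D := dt_nonneg c
  have hW0 : 0 ≤ Wt' := wt_nonneg c
  have e : (1 - f ^ 2) * R - (1 - f' ^ 2) * R' = -(f ^ 2 - f' ^ 2) * R + (1 - f' ^ 2) * (R - R') := by
    ring
  have hε : 0 < y ^ 32 := by positivity
  have hRz : R * y ^ 64 ≤ z := by
    have : R ≤ R + R' + (R2 G θ m p c + R2 G θ m' p c) := by linarith
    exact (mul_le_mul_of_nonneg_right this (by positivity)).trans b2
  have hRz' : R ≤ z / y ^ 64 := by
    rw [le_div_iff₀ (by positivity)]; exact hRz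
  have ha : |m c p| + |m' c p| ≤ y ^ 32 * z := by
    have h1 := abs_nonneg (m p c)
    have h2 := abs_nonneg (m' p c)
    linarith
  have ha' : |m' c p| ≤ y ^ 32 * z := by
    have h1 := abs_nonneg (m c p)
    linarith
  have hδ : |m c p - m' c p| ≤ D := by
    have h1 := abs_nonneg (m p c - m' p c)
    linarith
  have hw : |R - R'| ≤ Wt' := by
    have h1 := abs_nonneg (R2 G θ m p c - R2 G θ m' p c)
    linarith
  have t1 : |-(f ^ 2 - f' ^ 2) * R| ≤ K * (z ^ 2 * D) / y ^ 32 := by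
    rw [abs_mul, abs_neg, abs_of_nonneg r1]
    calc |f ^ 2 - f' ^ 2| * R ≤ (K * (y ^ 32 * z) * D) * (z / y ^ 64) := by
          apply mul_le_mul _ hRz' r1 (by positivity)
          refine l1.trans ?_
          gcongr
      _ = K * (z ^ 2 * D) / y ^ 32 := by
          field_simp
  have hf0 : 0 ≤ 1 - f' ^ 2 := by nlinarith [l3.1, l3.2]
  have hf2 : 1 - f' ^ 2 ≤ 2 * (y ^ 32 * z) ^ 2 := by
    have h1 : 1 - f' ≤ m' c p ^ 2 := l2.2
    have h2 : m' c p ^ 2 ≤ (y ^ 32 * z) ^ 2 := by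
      rw [← sq_abs]
      have := abs_nonneg (m' c p)
      gcongr
    nlinarith [l3.1, l3.2]
  have t2 : |(1 - f' ^ 2) * (R - R')| ≤ 2 * (z ^ 2 * (Wt' * y ^ 64)) := by
    rw [abs_mul, abs_of_nonneg hf0]
    calc (1 - f' ^ 2) * |R - R'| ≤ (2 * (y ^ 32 * z) ^ 2) * Wt' := by
          apply mul_le_mul hf2 hw (abs_nonneg _) (by positivity)
      _ = 2 * (z ^ 2 * (Wt' * y ^ 64)) := by ring
  rw [e]
  exact (abs_add_le _ _).trans (add_le_add t1 t2)

omit [DecidableEq V] in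
lemma U2_sub_sq_le (hθ0 : 0 ≤ θ) (hθ1 : θ < 1) (hα1 : α < 1) (hK : LipK θ α K)
    (hm : IsCavity G θ α m) (hm' : IsCavity G θ α m') (hy0 : 0 < y) {c p : V} (h : G.Adj c p) :
    (U2 G θ m c p - U2 G θ m' c p) ^ 2
      ≤ 2 * K ^ 2 / y ^ 64 * (dt G θ m m' c ^ 2 * zt G θ d y m m' c ^ 4)
      + 8 * ((wt G θ m m' c * y ^ 64) ^ 2 * zt G θ d y m m' c ^ 4) := by
  have h1 := U2_sub_le (d := d) hθ0 hθ1 hα1 hK hm hm' hy0 h
  rw [← sq_abs]
  set z := zt G θ d y m m' c with hz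
  set D := dt G θ m m' c with hD
  set w := wt G θ m m' c * y ^ 64 with hW
  set u := |U2 G θ m c p - U2 G θ m' c p| with hu
  have hu0 : 0 ≤ u := abs_nonneg _
  calc u ^ 2 ≤ (K * (z ^ 2 * D) / y ^ 32 + 2 * (z ^ 2 * w)) ^ 2 := by gcongr
    _ ≤ 2 * (K * (z ^ 2 * D) / y ^ 32) ^ 2 + 2 * (2 * (z ^ 2 * w)) ^ 2 := by
        nlinarith [sq_nonneg (K * (z ^ 2 * D) / y ^ 32 - 2 * (z ^ 2 * w))]
    _ = 2 * K ^ 2 / y ^ 64 * (D ^ 2 * z ^ 4) + 8 * (w ^ 2 * z ^ 4) := by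
        field_simp
        ring

end Det

end Vale.Agent.P161c
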