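import Vale.Agent.P161c.StageA2b

/-!
Deterministic bounds for the products in the recentered inequality.
-/

namespace Vale.Agent.P161c

open MeasureTheory SimpleGraph Vale.Agent.H13.P161

section Det2

variable {V : Type*} {G : SimpleGraph V} [LocallyFinite G] [DecidableEq V]
  {θ α K y : ℝ} {d : ℕ} {m m' : V → V → ℝ}

omit [LocallyFinite G] [DecidableEq V] in
lemma Cv_le_one (hθ0 : 0 ≤ θ) (hθ1 : θ < 1) (hα1 : α < 1) (hG : G.Connected)
    (hm : IsCavity G θ α m) (v w : V) : Cv G θ m v w ≤ 1 := by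
  unfold Cv
  have hW := Wt_pos_le hθ0 hθ1 hα1 hG hm v w
  have h1 : 1 - mag G θ m v ^ 2 ≤ 1 := by nlinarith [sq_nonneg (mag G θ m v)]
  have h2 : 0 ≤ θ ^ G.dist v w := pow_nonneg hθ0 _
  have h3 : θ ^ G.dist v w ≤ 1 := pow_le_one₀ hθ0 hθ1.le
  calc (1 - mag G θ m v ^ 2) * θ ^ G.dist v w * Wt G θ m v w
      ≤ 1 * θ ^ G.dist v w * Wt G θ m v w := by
        gcongr
        exact hW.1.le
    _ ≤ 1 * 1 * 1 := by
        gcongr
        · exact hW.1.le
        · exact hW.2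
    _ = 1 := by norm_num

/-- elementary product estimate -/
lemma prod_aux {y z D W K k : ℝ} (hy0 : 0 < y) (hz : 1 ≤ z) (hD : 0 ≤ D)
    (hW : 0 ≤ W) (hK : 1 ≤ K) (hk : 0 ≤ k) {A B : ℝ}
    (hA : |A| ≤ K * (y ^ 32 * z * D))
    (hB : |B| ≤ K * (1 + k) * (z ^ 3 * D) / y ^ 96 + z * W / y ^ 128) :
    |A * B| ≤ K ^ 2 * (1 + k) * (D ^ 2 * z ^ 4 / y ^ 64 + D * W * z ^ 2 / y ^ 96) := by
  rw [abs_mul]
  have hB0 : 0 ≤ |B| := abs_nonneg B
  calc |A| * |B| ≤ K * (y ^ 32 * z * D) * (K * (1 + k) * (z ^ 3 * D) / y ^ 96 + z * W / y ^ 128) := by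
        apply mul_le_mul hA hB hB0 (by positivity)
    _ = K ^ 2 * (1 + k) * (D ^ 2 * z ^ 4 / y ^ 64) + K * (D * W * z ^ 2 / y ^ 96) := by
        field_simp
    _ ≤ K ^ 2 * (1 + k) * (D ^ 2 * z ^ 4 / y ^ 64)
          + K ^ 2 * (1 + k) * (D * W * z ^ 2 / y ^ 96) := by
        gcongr
        nlinarith [mul_nonneg (sq_nonneg K) hk]
    _ = _ := by ring

lemma diff_aux1 {y z D w K k c2 c2' R R' S S' : ℝ} (hy0 : 0 < y) (hz : 1 ≤ z) (hD : 0 ≤ D)
    (hK : 1 ≤ K) (hk : 0 ≤ k) (h1 : |c2 - c2'| ≤ K * (y ^ 32 * z) * D) (h2 : 0 ≤ c2')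
    (h3 : c2' ≤ 1) (hR : 0 ≤ R) (hS : 0 ≤ S) (hS' : 0 ≤ S') (hRz : R ≤ z / y ^ 64)
    (hSz : S ≤ z / y ^ 64) (hSz' : S' ≤ z / y ^ 64) (hw : |S - S'| + |R - R'| ≤ w) :
    |c2 * S * R - c2' * S' * R'| ≤ K * (1 + k) * (z ^ 3 * D) / y ^ 96 + z * (w * y ^ 64) / y ^ 128 := by
  have e : c2 * S * R - c2' * S' * R' = (c2 - c2') * (S * R)
      + c2' * ((S - S') * R + S' * (R - R')) := by ring
  have hzy : 0 ≤ z / y ^ 64 := by positivity
  rw [e]
  refine (abs_add_le _ _).trans (add_le_add ?_ ?_)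
  · rw [abs_mul, abs_of_nonneg (mul_nonneg hS hR)]
    calc |c2 - c2'| * (S * R) ≤ (K * (y ^ 32 * z) * D) * ((z / y ^ 64) * (z / y ^ 64)) :=
          mul_le_mul h1 (mul_le_mul hSz hRz hR hzy) (mul_nonneg hS hR) (by positivity)
      _ = K * 1 * (z ^ 3 * D) / y ^ 96 := by
          field_simp
      _ ≤ K * (1 + k) * (z ^ 3 * D) / y ^ 96 := by
          gcongr
          linarith
  · rw [abs_mul, abs_of_nonneg h2]
    calc c2' * |(S - S') * R + S' * (R - R')|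
        ≤ 1 * (|S - S'| * (z / y ^ 64) + (z / y ^ 64) * |R - R'|) := by
          apply mul_le_mul h3 _ (abs_nonneg _) (by norm_num)
          refine (abs_add_le _ _).trans ?_
          rw [abs_mul, abs_mul, abs_of_nonneg hR, abs_of_nonneg hS']
          exact add_le_add (mul_le_mul_of_nonneg_left hRz (abs_nonneg _))
            (mul_le_mul_of_nonneg_right hSz' (abs_nonneg _))
      _ = (|S - S'| + |R - R'|) * (z / y ^ 64) := by ring
      _ ≤ w * (z / y ^ 64) := mul_le_mul_of_nonneg_right hw hzy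
      _ = z * (w * y ^ 64) / y ^ 128 := by
          field_simp

omit [DecidableEq V] in
/-- first product -/
lemma prod1_le (hG : G.IsTree) (hθ0 : 0 ≤ θ) (hθ1 : θ < 1) (hα0 : 0 ≤ α) (hα1 : α < 1)
    (hK : LipK θ α K)
    (hm : IsCavity G θ α m) (hm' : IsCavity G θ α m') (hy0 : 0 < y)
    {v g : V} (h : G.Adj v g) :
    |(Real.log (phi θ (m v g)) - Real.log (phi θ (m' v g))) * (S2 G θ m g v - S2 G θ m' g v)|
      ≤ K ^ 2 * (1 + d) * (dt G θ m m' v ^ 2 * zt G θ d y m m' v ^ 4 / y ^ 64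
        + dt G θ m m' v * (wt G θ m m' v * y ^ 64) * zt G θ d y m m' v ^ 2 / y ^ 96) := by
  have b1 := zt_m (θ := θ) (d := d) (m := m) (m' := m') hy0 h
  have b2 := zt_R (θ := θ) (d := d) (m := m) (m' := m') hy0 h
  have b3 := edge_le_dt (G := G) (θ := θ) (m := m) (m' := m') h
  have b4 := edge_le_wt (G := G) (θ := θ) (m := m) (m' := m') h
  have hd0 : (0 : ℝ) ≤ d := Nat.cast_nonneg d
  have bz : 1 ≤ zt G θ d y m m' v := le_trans (by linarith) (zt_basic hy0 v)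
  have hD0 : 0 ≤ dt G θ m m' v := dt_nonneg v
  have hW0 : 0 ≤ wt G θ m m' v := wt_nonneg v
  have hK1 := hK.one_le
  have l1 := hK.logphi (m v g) (m' v g) (hm.bound _ _ h) (hm'.bound _ _ h)
  have l2 := hK.edge (m g v) (m v g) (m' g v) (m' v g) (hm.bound _ _ h.symm) (hm.bound _ _ h)
    (hm'.bound _ _ h.symm) (hm'.bound _ _ h)
  rw [← Cv_edge hθ0 hθ1 hα0 hα1 hG hm h.symm, ← Cv_edge hθ0 hθ1 hα0 hα1 hG hm' h.symm] at l2
  have c1 := Cv_le_one hθ0 hθ1 hα1 hG.connected hm' g v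
  have c0 : 0 ≤ Cv G θ m' g v := by
    rw [Cv_edge hθ0 hθ1 hα0 hα1 hG hm' h.symm]
    have a1 := hm'.bound _ _ h
    have a2 := hm'.bound _ _ h.symm
    have s1 : m' v g ^ 2 ≤ 1 := by
      rw [← sq_abs]; have := abs_nonneg (m' v g); nlinarith
    have s2 : m' g v ^ 2 ≤ 1 := by
      rw [← sq_abs]; have := abs_nonneg (m' g v); nlinarith
    have : 0 ≤ (1 - m' g v ^ 2) * (1 - m' v g ^ 2) := mul_nonneg (by linarith) (by linarith)
    positivity
  have r1 := R2_nonneg (G := G) (θ := θ) (m := m) v g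
  have r2 := R2_nonneg (G := G) (θ := θ) (m := m') v g
  have r3 := R2_nonneg (G := G) (θ := θ) (m := m) g v
  have r4 := R2_nonneg (G := G) (θ := θ) (m := m') g v
  have n1 := abs_nonneg (m g v)
  have n2 := abs_nonneg (m' g v)
  have n3 := abs_nonneg (m g v - m' g v)
  change |(Real.log (phi θ (m v g)) - Real.log (phi θ (m' v g)))
    * (Cv G θ m g v ^ 2 * R2 G θ m g v * R2 G θ m v g
      - Cv G θ m' g v ^ 2 * R2 G θ m' g v * R2 G θ m' v g)| ≤ _
  generalize zt G θ d y m m' v = z at *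
  generalize dt G θ m m' v = D at *
  generalize wt G θ m m' v = w at *
  generalize R2 G θ m v g = R at *
  generalize R2 G θ m' v g = R' at *
  generalize R2 G θ m g v = S at *
  generalize R2 G θ m' g v = S' at *
  generalize Cv G θ m' g v = c at *
  generalize Cv G θ m g v = c' at *
  have hbd : ∀ x : ℝ, x ≤ R + R' + (S + S') → x ≤ z / y ^ 64 := by
    intro x hx
    rw [le_div_iff₀ (by positivity)]
    exact (mul_le_mul_of_nonneg_right hx (by positivity)).trans b2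
  have hzy : 0 ≤ y ^ 32 * z := by positivity
  apply prod_aux hy0 bz hD0 (by positivity) hK1 hd0
  · refine l1.trans ?_
    calc K * (|m v g| + |m' v g|) * |m v g - m' v g| ≤ K * (y ^ 32 * z) * D := by
          gcongr
          · linarith
          · linarith
      _ = _ := by ring
  · apply diff_aux1 hy0 bz hD0 hK1 hd0 _ (sq_nonneg c) (by nlinarith) r1 r3 r4
      (hbd _ (by linarith)) (hbd _ (by linarith)) (hbd _ (by linarith)) (by linarith)
    refine l2.trans ?_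
    gcongr
    · linarith
    · linarith

/-- real form of the sum of squared covariances -/
lemma T2_eq (hG : G.IsTree) (hθ0 : 0 ≤ θ) (hθ1 : θ < 1) (hα0 : 0 ≤ α) (hα1 : α < 1)
    (hm : IsCavity G θ α m) (hfin : ∀ v, Rf G θ m v ≠ ⊤) (v : V) :
    T2 G θ m v = (1 - mag G θ m v ^ 2) ^ 2
      * (1 + ∑ g ∈ G.neighborFinset v, θ ^ 2 * phi θ (m g v) ^ 2 * R2 G θ m g v) := by
  have hf : ∀ c p, Rb2 G θ m c p ≠ ⊤ := fun c p =>
    ne_top_of_le_ne_top (hfin c) ((Rb2_le_Rb hθ0 hθ1 hα1 hG hm c p).trans (Rb_le_Rf c p))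
  have hterm : ∀ g ∈ G.neighborFinset v,
      ENNReal.ofReal (θ ^ 2 * phi θ (m g v) ^ 2) * Rb2 G θ m g v ≠ ⊤ := fun g _ =>
    ENNReal.mul_ne_top ENNReal.ofReal_ne_top (hf _ _)
  unfold T2 R2
  rw [tsum_Cv_sq hθ0 hθ1 hα0 hα1 hG hm v, ENNReal.toReal_mul, ENNReal.toReal_ofReal (by positivity),
    ENNReal.toReal_add ENNReal.one_ne_top (ENNReal.sum_ne_top.mpr hterm),
    ENNReal.toReal_sum hterm, ENNReal.toReal_one]
  congr 2
  apply Finset.sum_congr rfl
  intro g _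
  rw [ENNReal.toReal_mul, ENNReal.toReal_ofReal (by positivity)]

omit [LocallyFinite G] [DecidableEq V] in
lemma diff_aux2 {y z D w K k q q' T T' : ℝ} (hy0 : 0 < y) (hy1 : y ≤ 1) (hz : 1 ≤ z) (hD : 0 ≤ D)
    (hw : 0 ≤ w)
    (hK : 1 ≤ K) (hk : 1 ≤ k) (h1 : |q - q'| ≤ K * (y ^ 32 * z) * D) (h2 : 0 ≤ q')
    (h3 : q' ≤ 1) (hT : 0 ≤ T) (hTz : T ≤ z / y ^ 64)
    (hTT : |T - T'| ≤ K * (y ^ 32 * z) * D * (z / y ^ 64) + w) :
    |q * T - q' * T'| ≤ K * (1 + k) * (z ^ 3 * D) / y ^ 96 + z * (w * y ^ 64) / y ^ 128 := by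
  have e : q * T - q' * T' = (q - q') * T + q' * (T - T') := by ring
  have hzy : 0 ≤ z / y ^ 64 := by positivity
  have hyz : 0 ≤ K * (y ^ 32 * z) * D := by positivity
  have b1 : |(q - q') * T| ≤ K * (y ^ 32 * z) * D * (z / y ^ 64) := by
    rw [abs_mul, abs_of_nonneg hT]
    exact mul_le_mul h1 hTz hT hyz
  have b2 : |q' * (T - T')| ≤ K * (y ^ 32 * z) * D * (z / y ^ 64) + w := by
    rw [abs_mul, abs_of_nonneg h2]
    calc q' * |T - T'| ≤ 1 * |T - T'| := by gcongr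
      _ ≤ _ := by rw [one_mul]; exact hTT
  have b3 : K * (y ^ 32 * z) * D * (z / y ^ 64) ≤ K * (z ^ 3 * D) / y ^ 96 := by
    have hp : y ^ 64 ≤ 1 := pow_le_one₀ hy0.le hy1
    have hz3 : z ^ 2 * y ^ 64 ≤ z ^ 3 := by
      calc z ^ 2 * y ^ 64 ≤ z ^ 2 * z := by
            gcongr; linarith
        _ = z ^ 3 := by ring
    calc K * (y ^ 32 * z) * D * (z / y ^ 64) = K * (z ^ 2 * y ^ 64 * D) / y ^ 96 := by
          field_simp
      _ ≤ K * (z ^ 3 * D) / y ^ 96 := by gcongr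
  have b4 : w ≤ z * (w * y ^ 64) / y ^ 128 := by
    rw [le_div_iff₀ (by positivity)]
    have hp : y ^ 64 ≤ 1 := pow_le_one₀ hy0.le hy1
    calc w * y ^ 128 = w * y ^ 64 * y ^ 64 := by ring
      _ ≤ w * y ^ 64 * z := by
          gcongr; linarith
      _ = _ := by ring
  have b5 : K * (z ^ 3 * D) / y ^ 96 + K * (z ^ 3 * D) / y ^ 96
      ≤ K * (1 + k) * (z ^ 3 * D) / y ^ 96 := by
    rw [← add_div]
    gcongr
    have : 0 ≤ z ^ 3 * D := by positivity
    nlinarith [mul_nonneg (mul_nonneg (by linarith : 0 ≤ K) (by linarith : 0 ≤ k - 1)) this]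
  rw [e]
  refine (abs_add_le _ _).trans ?_
  linarith

/-- second product -/
lemma prod2_le (hG : G.IsTree) (hθ0 : 0 ≤ θ) (hθ1 : θ < 1) (hα0 : 0 ≤ α) (hα1 : α < 1)
    (hd : 3 ≤ d) (hreg : ∀ v, G.degree v = d)
    (hK : LipK θ α K) (hgp : GoodPair G θ α m m') (hy0 : 0 < y) (hy1 : y ≤ 1) (v : V) :
    |(Real.log (1 - mag G θ m v ^ 2) - Real.log (1 - mag G θ m' v ^ 2))
        * (T2 G θ m v - T2 G θ m' v)|
      ≤ K ^ 2 * (1 + d) * (dt G θ m m' v ^ 2 * zt G θ d y m m' v ^ 4 / y ^ 64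
        + dt G θ m m' v * (wt G θ m m' v * y ^ 64) * zt G θ d y m m' v ^ 2 / y ^ 96) := by
  have hm := hgp.cav
  have hm' := hgp.cav'
  have hd0 : (0 : ℝ) ≤ d := Nat.cast_nonneg d
  have hd1 : (1 : ℝ) ≤ d := by exact_mod_cast (by omega : 1 ≤ d)
  have bz : 1 ≤ zt G θ d y m m' v := le_trans (by linarith) (zt_basic hy0 v)
  have hD0 : 0 ≤ dt G θ m m' v := dt_nonneg v
  have hW0 : 0 ≤ wt G θ m m' v := wt_nonneg v
  have hK1 := hK.one_le
  have hmag := mag_le_dt (G := G) (θ := θ) (m := m) (m' := m') v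
  -- a neighbour
  obtain ⟨p, hp⟩ : ∃ p, G.Adj v p := by
    have hc : 0 < (G.neighborFinset v).card := by
      rw [G.card_neighborFinset_eq_degree, hreg]; omega
    obtain ⟨p, hp⟩ := Finset.card_pos.mp hc
    exact ⟨p, (G.mem_neighborFinset _ _).mp hp⟩
  have b1 := zt_m (θ := θ) (d := d) (m := m) (m' := m') hy0 hp
  have hmz : |mag G θ m v| + |mag G θ m' v| ≤ y ^ 32 * zt G θ d y m m' v := by
    have h1 := abs_mag_le_add hθ0 hθ1 hα0 hα1 hm hp
    have h2 := abs_mag_le_add hθ0 hθ1 hα0 hα1 hm' hp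
    linarith
  have l1 := hK.logmag _ _ (abs_mag_le hθ0 hθ1 hα0 hα1 hm v) (abs_mag_le hθ0 hθ1 hα0 hα1 hm' v)
  have l2 := hK.mag2 _ _ (abs_mag_le hθ0 hθ1 hα0 hα1 hm v) (abs_mag_le hθ0 hθ1 hα0 hα1 hm' v)
  have hyz : 0 ≤ y ^ 32 * zt G θ d y m m' v := by positivity
  have hL : ∀ X : ℝ, X ≤ K * (|mag G θ m v| + |mag G θ m' v|) * |mag G θ m v - mag G θ m' v| →
      X ≤ K * (y ^ 32 * zt G θ d y m m' v) * dt G θ m m' v := by
    intro X hX
    refine hX.trans ?_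
    gcongr
  -- the susceptibility sums
  have hθ2 : θ ^ 2 ≤ 1 := pow_le_one₀ hθ0 hθ1.le
  have hphi : ∀ g ∈ G.neighborFinset v, 0 ≤ phi θ (m g v) ^ 2 ∧ phi θ (m g v) ^ 2 ≤ 1 ∧
      0 ≤ phi θ (m' g v) ^ 2 ∧ phi θ (m' g v) ^ 2 ≤ 1 := by
    intro g hg
    have hg' : G.Adj v g := (G.mem_neighborFinset _ _).mp hg
    have p1 := phi_nonneg_le hθ0 hθ1 (x := m g v) (lt_of_le_of_lt (hm.bound _ _ hg'.symm) hα1)
    have p2 := phi_nonneg_le hθ0 hθ1 (x := m' g v) (lt_of_le_of_lt (hm'.bound _ _ hg'.symm) hα1)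
    exact ⟨sq_nonneg _, pow_le_one₀ p1.1.le p1.2, sq_nonneg _, pow_le_one₀ p2.1.le p2.2⟩
  have hT0 : 0 ≤ 1 + ∑ g ∈ G.neighborFinset v, θ ^ 2 * phi θ (m g v) ^ 2 * R2 G θ m g v := by
    have : 0 ≤ ∑ g ∈ G.neighborFinset v, θ ^ 2 * phi θ (m g v) ^ 2 * R2 G θ m g v :=
      Finset.sum_nonneg fun g hg =>
        mul_nonneg (mul_nonneg (sq_nonneg _) (hphi g hg).1) (R2_nonneg g v)
    linarith
  have hsR := zt_sum_R (G := G) (θ := θ) (d := d) (m := m) (m' := m') hy0 hy1 v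
  have hTz : 1 + ∑ g ∈ G.neighborFinset v, θ ^ 2 * phi θ (m g v) ^ 2 * R2 G θ m g v
      ≤ zt G θ d y m m' v / y ^ 64 := by
    rw [le_div_iff₀ (by positivity)]
    refine le_trans ?_ hsR
    gcongr with g hg
    have h0 := R2_nonneg (G := G) (θ := θ) (m := m) g v
    have h1 := hphi g hg
    calc θ ^ 2 * phi θ (m g v) ^ 2 * R2 G θ m g v ≤ 1 * 1 * R2 G θ m g v := by
          gcongr
          exact h1.2.1
      _ = R2 G θ m g v := by ring
  have hRz : ∑ g ∈ G.neighborFinset v, R2 G θ m g v ≤ zt G θ d y m m' v / y ^ 64 := by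
    rw [le_div_iff₀ (by positivity)]
    refine le_trans ?_ hsR
    gcongr
    linarith
  have hTT : |(1 + ∑ g ∈ G.neighborFinset v, θ ^ 2 * phi θ (m g v) ^ 2 * R2 G θ m g v)
      - (1 + ∑ g ∈ G.neighborFinset v, θ ^ 2 * phi θ (m' g v) ^ 2 * R2 G θ m' g v)|
      ≤ K * (y ^ 32 * zt G θ d y m m' v) * dt G θ m m' v * (zt G θ d y m m' v / y ^ 64)
        + wt G θ m m' v := by
    rw [add_sub_add_left_eq_sub, ← Finset.sum_sub_distrib]
    calc |∑ g ∈ G.neighborFinset v, (θ ^ 2 * phi θ (m g v) ^ 2 * R2 G θ m g v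
            - θ ^ 2 * phi θ (m' g v) ^ 2 * R2 G θ m' g v)|
        ≤ ∑ g ∈ G.neighborFinset v, |θ ^ 2 * phi θ (m g v) ^ 2 * R2 G θ m g v
            - θ ^ 2 * phi θ (m' g v) ^ 2 * R2 G θ m' g v| := Finset.abs_sum_le_sum_abs _ _
      _ ≤ ∑ g ∈ G.neighborFinset v,
            (K * (y ^ 32 * zt G θ d y m m' v) * dt G θ m m' v * R2 G θ m g v
              + (|R2 G θ m v g - R2 G θ m' v g| + |R2 G θ m g v - R2 G θ m' g v|)) := by
          apply Finset.sum_le_sum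
          intro g hg
          have hg' : G.Adj v g := (G.mem_neighborFinset _ _).mp hg
          have h0 := R2_nonneg (G := G) (θ := θ) (m := m) g v
          have h1 := hphi g hg
          have l3 := hK.phi2 (m g v) (m' g v) (hm.bound _ _ hg'.symm) (hm'.bound _ _ hg'.symm)
          have b2 := zt_m (θ := θ) (d := d) (m := m) (m' := m') hy0 hg'
          have b3 := edge_le_dt (G := G) (θ := θ) (m := m) (m' := m') hg'
          have n1 := abs_nonneg (m v g)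
          have n2 := abs_nonneg (m' v g)
          have n3 := abs_nonneg (m v g - m' v g)
          have n4 := abs_nonneg (R2 G θ m v g - R2 G θ m' v g)
          have l4 : |phi θ (m g v) ^ 2 - phi θ (m' g v) ^ 2|
              ≤ K * (y ^ 32 * zt G θ d y m m' v) * dt G θ m m' v := by
            refine l3.trans ?_
            gcongr
            · linarith
            · linarith
          have e : θ ^ 2 * phi θ (m g v) ^ 2 * R2 G θ m g v
              - θ ^ 2 * phi θ (m' g v) ^ 2 * R2 G θ m' g v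
              = θ ^ 2 * ((phi θ (m g v) ^ 2 - phi θ (m' g v) ^ 2) * R2 G θ m g v
                + phi θ (m' g v) ^ 2 * (R2 G θ m g v - R2 G θ m' g v)) := by ring
          rw [e, abs_mul, abs_of_nonneg (sq_nonneg θ)]
          have key : |(phi θ (m g v) ^ 2 - phi θ (m' g v) ^ 2) * R2 G θ m g v
                + phi θ (m' g v) ^ 2 * (R2 G θ m g v - R2 G θ m' g v)|
              ≤ K * (y ^ 32 * zt G θ d y m m' v) * dt G θ m m' v * R2 G θ m g v
                + |R2 G θ m g v - R2 G θ m' g v| := by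
            refine (abs_add_le _ _).trans ?_
            rw [abs_mul, abs_mul, abs_of_nonneg h0, abs_of_nonneg h1.2.2.1]
            apply add_le_add
            · exact mul_le_mul_of_nonneg_right l4 h0
            · exact mul_le_of_le_one_left (abs_nonneg _) h1.2.2.2
          calc θ ^ 2 * |(phi θ (m g v) ^ 2 - phi θ (m' g v) ^ 2) * R2 G θ m g v
                + phi θ (m' g v) ^ 2 * (R2 G θ m g v - R2 G θ m' g v)|
              ≤ 1 * |(phi θ (m g v) ^ 2 - phi θ (m' g v) ^ 2) * R2 G θ m g v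
                + phi θ (m' g v) ^ 2 * (R2 G θ m g v - R2 G θ m' g v)| := by gcongr
            _ ≤ _ := by rw [one_mul]; linarith
      _ = K * (y ^ 32 * zt G θ d y m m' v) * dt G θ m m' v
            * (∑ g ∈ G.neighborFinset v, R2 G θ m g v) + wt G θ m m' v := by
          rw [Finset.sum_add_distrib, ← Finset.mul_sum]
          rfl
      _ ≤ _ := by gcongr
  have hq1 : (1 - mag G θ m' v ^ 2) ^ 2 ≤ 1 := by
    have h1 := one_sub_mag_sq_pos hθ0 hθ1 hα0 hα1 hm' v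
    have h2 : 1 - mag G θ m' v ^ 2 ≤ 1 := by nlinarith [sq_nonneg (mag G θ m' v)]
    exact pow_le_one₀ h1.le h2
  apply prod_aux hy0 bz hD0 (by positivity) hK1 hd0
  · have := hL _ l1
    refine this.trans (le_of_eq (by ring))
  · rw [T2_eq hG hθ0 hθ1 hα0 hα1 hm hgp.fin, T2_eq hG hθ0 hθ1 hα0 hα1 hm' hgp.fin']
    exact diff_aux2 hy0 hy1 bz hD0 hW0 hK1 hd1 (hL _ l2) (sq_nonneg _) hq1 hT0 hTz hTT

end Det2

end Vale.Agent.P161c
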