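import Vale.Agent.P161c.StageA2c

/-!
Probabilistic estimates for a pair of homogeneous cavity fields.
-/

namespace Vale.Agent.P161c

open MeasureTheory SimpleGraph Vale.Agent.H13.P161

section Generic

lemma ennreal_trunc {y : ℝ} (hy0 : 0 < y) (q : ℕ) (X : ENNReal) :
    X ≤ ENNReal.ofReal (1 / y) + ENNReal.ofReal (y ^ q) * X ^ (q + 1) := by
  by_cases h : X ≤ ENNReal.ofReal (1 / y)
  · exact h.trans (le_add_right le_rfl)
  · have h' : ENNReal.ofReal (1 / y) < X := not_le.mp h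
    have h1 : (1 : ENNReal) ≤ ENNReal.ofReal y * X := by
      calc (1 : ENNReal) = ENNReal.ofReal y * ENNReal.ofReal (1 / y) := by
            rw [← ENNReal.ofReal_mul hy0.le, mul_one_div_cancel hy0.ne', ENNReal.ofReal_one]
        _ ≤ ENNReal.ofReal y * X := by gcongr
    have h2 : (1 : ENNReal) ≤ (ENNReal.ofReal y * X) ^ q := one_le_pow₀ h1
    calc X = 1 * X := (one_mul X).symm
      _ ≤ (ENNReal.ofReal y * X) ^ q * X := by gcongr
      _ = ENNReal.ofReal (y ^ q) * X ^ (q + 1) := by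
          rw [mul_pow, ENNReal.ofReal_pow hy0.le, pow_succ]; ring
      _ ≤ _ := le_add_left le_rfl

lemma ennreal_mul_le_sq (D Z : ENNReal) : D * Z ≤ D ^ 2 + Z ^ 2 := by
  rcases le_total D Z with h | h
  · calc D * Z ≤ Z * Z := by gcongr
      _ = Z ^ 2 := (sq Z).symm
      _ ≤ _ := le_add_left le_rfl
  · calc D * Z ≤ D * D := by gcongr
      _ = D ^ 2 := (sq D).symm
      _ ≤ _ := le_add_right le_rfl

variable {Ω : Type*} [MeasurableSpace Ω] {P : Measure Ω}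

/-- uniform moment bounds -/
def Mom (P : Measure Ω) (X : Ω → ENNReal) (C : ℕ → ℝ) : Prop :=
  ∀ q : ℕ, ∫⁻ ω, X ω ^ q ∂P ≤ ENNReal.ofReal (C q)

lemma lintegral_trunc {y : ℝ} (hy0 : 0 < y) (q : ℕ) {X D : Ω → ENNReal}
    (hX : Measurable X) (hD : Measurable D) :
    ∫⁻ ω, D ω * X ω ∂P ≤ ENNReal.ofReal (1 / y) * ∫⁻ ω, D ω ∂P
      + ENNReal.ofReal (y ^ q) * (∫⁻ ω, D ω ^ 2 ∂P + ∫⁻ ω, X ω ^ (2 * q + 2) ∂P) := by
  calc ∫⁻ ω, D ω * X ω ∂P
      ≤ ∫⁻ ω, (ENNReal.ofReal (1 / y) * D ω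
          + ENNReal.ofReal (y ^ q) * (D ω ^ 2 + X ω ^ (2 * q + 2))) ∂P := by
        apply lintegral_mono
        intro ω
        calc D ω * X ω ≤ D ω * (ENNReal.ofReal (1 / y) + ENNReal.ofReal (y ^ q) * X ω ^ (q + 1)) := by
              gcongr; exact ennreal_trunc hy0 q _
          _ = ENNReal.ofReal (1 / y) * D ω + ENNReal.ofReal (y ^ q) * (D ω * X ω ^ (q + 1)) := by ring
          _ ≤ ENNReal.ofReal (1 / y) * D ω + ENNReal.ofReal (y ^ q) * (D ω ^ 2 + X ω ^ (2 * q + 2)) := by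
              have e : X ω ^ (2 * q + 2) = (X ω ^ (q + 1)) ^ 2 := by rw [← pow_mul]; congr 1; ring
              rw [e]
              gcongr
              exact ennreal_mul_le_sq _ _
    _ = _ := by
        have hm : Measurable (fun ω => D ω ^ 2 + X ω ^ (2 * q + 2)) :=
          (hD.pow_const 2).add (hX.pow_const _)
        rw [lintegral_add_left (hD.const_mul _), lintegral_const_mul _ hD,
          lintegral_const_mul _ hm, lintegral_add_left (hD.pow_const 2)]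

lemma Mom.mono {X Y : Ω → ENNReal} {C : ℕ → ℝ} (h : Mom P Y C) (hXY : ∀ᵐ ω ∂P, X ω ≤ Y ω) :
    Mom P X C := by
  intro q
  refine (lintegral_mono_ae ?_).trans (h q)
  filter_upwards [hXY] with ω hω
  gcongr

/-- constants for sums -/
def cadd (C C' : ℕ → ℝ) : ℕ → ℝ := fun q => 2 ^ q * (max (C q) 0 + max (C' q) 0)

lemma Mom.add {X Y : Ω → ENNReal} {C C' : ℕ → ℝ} (hX : Mom P X C) (hY : Mom P Y C')
    (hXm : Measurable X) :
    Mom P (fun ω => X ω + Y ω) (cadd C C') := by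
  intro q
  unfold cadd
  calc ∫⁻ ω, (X ω + Y ω) ^ q ∂P ≤ ∫⁻ ω, 2 ^ q * (X ω ^ q + Y ω ^ q) ∂P := by
        apply lintegral_mono
        intro ω
        have h1 : X ω + Y ω ≤ 2 * max (X ω) (Y ω) := by
          rw [two_mul]; exact add_le_add (le_max_left _ _) (le_max_right _ _)
        calc (X ω + Y ω) ^ q ≤ (2 * max (X ω) (Y ω)) ^ q := by gcongr
          _ = 2 ^ q * max (X ω) (Y ω) ^ q := mul_pow _ _ _
          _ ≤ 2 ^ q * (X ω ^ q + Y ω ^ q) := by
              gcongr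
              rcases max_choice (X ω) (Y ω) with h | h <;> rw [h]
              · exact le_add_right le_rfl
              · exact le_add_left le_rfl
    _ = 2 ^ q * (∫⁻ ω, X ω ^ q ∂P + ∫⁻ ω, Y ω ^ q ∂P) := by
        rw [lintegral_const_mul' _ _ (by simp), lintegral_add_left (hXm.pow_const q)]
    _ ≤ 2 ^ q * (ENNReal.ofReal (max (C q) 0) + ENNReal.ofReal (max (C' q) 0)) := by
        gcongr
        · exact (hX q).trans (ENNReal.ofReal_le_ofReal (le_max_left _ _))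
        · exact (hY q).trans (ENNReal.ofReal_le_ofReal (le_max_left _ _))
    _ = ENNReal.ofReal (2 ^ q * (max (C q) 0 + max (C' q) 0)) := by
        rw [ENNReal.ofReal_mul (by positivity), ENNReal.ofReal_add (le_max_right _ _)
          (le_max_right _ _), ENNReal.ofReal_pow (by norm_num)]
        simp

lemma Mom.pow {X : Ω → ENNReal} {C : ℕ → ℝ} (hX : Mom P X C) (k : ℕ) :
    Mom P (fun ω => X ω ^ k) (fun q => C (k * q)) := by
  intro q
  simp only [← pow_mul]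
  exact hX _

lemma Mom.const [IsProbabilityMeasure P] {c : ℝ} (hc : 0 ≤ c) :
    Mom P (fun _ => ENNReal.ofReal c) (fun q => c ^ q) := by
  intro q; simp [ENNReal.ofReal_pow hc]

lemma sum_pow_le_cardE {ι : Type*} (s : Finset ι) (hs : s.Nonempty) (x : ι → ENNReal) (q : ℕ) :
    (∑ i ∈ s, x i) ^ q ≤ (s.card : ENNReal) ^ q * ∑ i ∈ s, x i ^ q := by
  obtain ⟨i, hi, hmax⟩ := s.exists_max_image x hs
  have h1 : ∑ j ∈ s, x j ≤ (s.card : ENNReal) * x i := by
    have := Finset.sum_le_card_nsmul s x (x i) hmax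
    rwa [nsmul_eq_mul] at this
  calc (∑ i ∈ s, x i) ^ q ≤ ((s.card : ENNReal) * x i) ^ q := by gcongr
    _ = (s.card : ENNReal) ^ q * x i ^ q := mul_pow _ _ _
    _ ≤ _ := by
        gcongr
        exact Finset.single_le_sum (f := fun i => x i ^ q) (fun _ _ => zero_le) hi

lemma Mom.sum {ι : Type*} (s : Finset ι) (hs : s.Nonempty) {X : ι → Ω → ENNReal} {C : ℕ → ℝ}
    (hX : ∀ i ∈ s, Mom P (X i) C) (hXm : ∀ i ∈ s, Measurable (X i)) :
    Mom P (fun ω => ∑ i ∈ s, X i ω) (fun q => (s.card : ℝ) ^ q * (s.card * max (C q) 0)) := by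
  intro q
  calc ∫⁻ ω, (∑ i ∈ s, X i ω) ^ q ∂P ≤ ∫⁻ ω, (s.card : ENNReal) ^ q * ∑ i ∈ s, X i ω ^ q ∂P :=
        lintegral_mono fun ω => sum_pow_le_cardE s hs _ q
    _ = (s.card : ENNReal) ^ q * ∑ i ∈ s, ∫⁻ ω, X i ω ^ q ∂P := by
        rw [lintegral_const_mul' _ _ (by finiteness),
          lintegral_finsetSum _ (fun i hi => (hXm i hi).pow_const q)]
    _ ≤ (s.card : ENNReal) ^ q * ∑ i ∈ s, ENNReal.ofReal (max (C q) 0) := by
        gcongr with i hi
        exact (hX i hi q).trans (ENNReal.ofReal_le_ofReal (le_max_left _ _))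
    _ = _ := by
        rw [Finset.sum_const, nsmul_eq_mul, ENNReal.ofReal_mul (by positivity),
          ENNReal.ofReal_mul (by positivity), ENNReal.ofReal_pow (by positivity)]
        simp

/-- truncation for a quantity dominated by a power of the majorant -/
lemma trunc_pow {y : ℝ} (hy0 : 0 < y) (j k N : ℕ) {Z F : Ω → ENNReal} {CZ : ℕ → ℝ}
    (hZ : Measurable Z) (hF : Measurable F) (hmom : Mom P Z CZ) (hFZ : ∀ᵐ ω ∂P, F ω ≤ Z ω ^ k) :
    ∫⁻ ω, F ω * Z ω ^ j ∂P ≤ ENNReal.ofReal (1 / y) * ∫⁻ ω, F ω ∂P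
      + ENNReal.ofReal ((max (CZ (k * 2)) 0 + max (CZ (j * (2 * N + 2))) 0) * y ^ N) := by
  refine (lintegral_trunc hy0 N (hZ.pow_const j) hF).trans ?_
  gcongr
  have h1 : ∫⁻ ω, F ω ^ 2 ∂P ≤ ENNReal.ofReal (max (CZ (k * 2)) 0) := by
    calc ∫⁻ ω, F ω ^ 2 ∂P ≤ ∫⁻ ω, Z ω ^ (k * 2) ∂P := by
          apply lintegral_mono_ae
          filter_upwards [hFZ] with ω hω
          rw [pow_mul]
          gcongr
      _ ≤ _ := (hmom _).trans (ENNReal.ofReal_le_ofReal (le_max_left _ _))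
  have h2 : ∫⁻ ω, (Z ω ^ j) ^ (2 * N + 2) ∂P ≤ ENNReal.ofReal (max (CZ (j * (2 * N + 2))) 0) := by
    simp only [← pow_mul]
    exact (hmom _).trans (ENNReal.ofReal_le_ofReal (le_max_left _ _))
  calc ENNReal.ofReal (y ^ N) * (∫⁻ ω, F ω ^ 2 ∂P + ∫⁻ ω, (Z ω ^ j) ^ (2 * N + 2) ∂P)
      ≤ ENNReal.ofReal (y ^ N) * (ENNReal.ofReal (max (CZ (k * 2)) 0)
        + ENNReal.ofReal (max (CZ (j * (2 * N + 2))) 0)) := by gcongr
    _ = _ := by
        rw [← ENNReal.ofReal_add (le_max_right _ _) (le_max_right _ _),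
          ← ENNReal.ofReal_mul (by positivity), mul_comm]

end Generic

end Vale.Agent.P161c
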