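import Vale.Agent.P161c.StageA2d

/-!
Probabilistic estimates for a pair of homogeneous cavity fields.
-/

namespace Vale.Agent.P161c

open MeasureTheory SimpleGraph Vale.Agent.H13.P161

variable {V : Type*} {Ω : Type*} [MeasurableSpace Ω]

/-- standing assumptions -/
structure Setup (G : SimpleGraph V) [LocallyFinite G] [DecidableEq V] (θ α : ℝ) (d : ℕ) (K : ℝ)
    (C : ℕ → ℝ) (y : ℝ) (r : ENNReal) (P : Measure Ω) (m m' : Ω → V → V → ℝ) : Prop where
  prob : IsProbabilityMeasure P
  tree : G.IsTree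
  hd : 3 ≤ d
  hreg : ∀ v, G.degree v = d
  hθ0 : 0 < θ
  hθ1 : θ < 1
  hcrit : ((d : ℝ) - 1) * θ ^ 2 = 1
  hα0 : 0 ≤ α
  hα1 : α < 1
  lip : LipK θ α K
  hy0 : 0 < y
  hy1 : y ≤ 1
  mm : ∀ c p, Measurable (fun ω => m ω c p)
  mm' : ∀ c p, Measurable (fun ω => m' ω c p)
  cav : ∀ᵐ ω ∂P, IsCavity G θ α (m ω)
  cav' : ∀ᵐ ω ∂P, IsCavity G θ α (m' ω)
  hom : Homog G P m m'
  env : EnvB G θ C y r P m
  env' : EnvB G θ C y r P m'

variable {G : SimpleGraph V} [LocallyFinite G] [DecidableEq V] [Countable V]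
  {θ α K y : ℝ} {d : ℕ} {C : ℕ → ℝ} {r : ENNReal} {P : Measure Ω} {m m' : Ω → V → V → ℝ}

omit [Countable V] in
lemma Setup.symm' (S : Setup G θ α d K C y r P m m')
    (h : Homog G P m' m) : Setup G θ α d K C y r P m' m where
  prob := S.prob
  tree := S.tree
  hd := S.hd
  hreg := S.hreg
  hθ0 := S.hθ0
  hθ1 := S.hθ1
  hcrit := S.hcrit
  hα0 := S.hα0
  hα1 := S.hα1
  lip := S.lip
  hy0 := S.hy0
  hy1 := S.hy1
  mm := S.mm'
  mm' := S.mm
  cav := S.cav'
  cav' := S.cav
  hom := h
  env := S.env'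
  env' := S.env

omit [LocallyFinite G] [DecidableEq V] [Countable V] in
lemma measurable_field {m : Ω → V → V → ℝ} (h : ∀ c p, Measurable (fun ω => m ω c p)) :
    Measurable m :=
  measurable_pi_iff.mpr fun c => measurable_pi_iff.mpr fun p => h c p

omit [LocallyFinite G] [DecidableEq V] in
lemma ae_fin (hm : Measurable m) (env : EnvB G θ C y r P m) :
    ∀ᵐ ω ∂P, ∀ v, Rf G θ (m ω) v ≠ ⊤ := by
  rw [ae_all_iff]
  intro v
  have h1 := env.momR 1 v
  simp only [pow_one] at h1
  have h2 : ∫⁻ ω, Rf G θ (m ω) v ∂P ≠ ⊤ := ne_top_of_le_ne_top ENNReal.ofReal_ne_top h1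
  have h3 : Measurable (fun ω => Rf G θ (m ω) v) := (measurable_Rf v).comp hm
  filter_upwards [ae_lt_top h3 h2] with ω hω
  exact hω.ne

lemma Setup.good (S : Setup G θ α d K C y r P m m') :
    ∀ᵐ ω ∂P, GoodPair G θ α (m ω) (m' ω) := by
  filter_upwards [S.cav, S.cav', ae_fin (measurable_field S.mm) S.env,
    ae_fin (measurable_field S.mm') S.env'] with ω h1 h2 h3 h4
  exact ⟨h1, h2, h3, h4⟩

/-! measurability -/

omit [LocallyFinite G] [DecidableEq V] in
lemma measurable_R2 (hm : Measurable m) (c p : V) : Measurable (fun ω => R2 G θ (m ω) c p) :=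
  ((measurable_Rb2 c p).comp hm).ennreal_toReal

omit [LocallyFinite G] [DecidableEq V] in
lemma measurable_U2 (hm : ∀ c p, Measurable (fun ω => m ω c p)) (c p : V) :
    Measurable (fun ω => U2 G θ (m ω) c p) := by
  have hphi : Measurable (phi θ) := by
    unfold phi
    fun_prop
  exact (((hphi.comp (hm c p)).pow_const 2).const_sub 1).mul (measurable_R2 (measurable_field hm) c p)

omit [DecidableEq V] [Countable V] in
lemma measurable_star2 {F : Ω → V → V → ℝ} (hF : ∀ c p, Measurable (fun ω => F ω c p)) (v : V) :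
    Measurable (fun ω => star2 G (F ω) v) := by
  unfold star2
  exact Finset.measurable_fun_sum _ (fun g _ => (hF v g).add (hF g v))

omit [DecidableEq V] in
lemma measurable_zt (hm : ∀ c p, Measurable (fun ω => m ω c p))
    (hm' : ∀ c p, Measurable (fun ω => m' ω c p)) (v : V) :
    Measurable (fun ω => zt G θ d y (m ω) (m' ω) v) := by
  unfold zt
  refine Measurable.const_add (measurable_star2 (F := fun ω c p => (|m ω c p| + |m' ω c p|) / y ^ 32
    + (R2 G θ (m ω) c p + R2 G θ (m' ω) c p) * y ^ 64) ?_ v) _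
  intro c p
  have h1 := measurable_R2 (G := G) (θ := θ) (measurable_field hm) c p
  have h2 := measurable_R2 (G := G) (θ := θ) (measurable_field hm') c p
  exact (((hm c p).abs.add (hm' c p).abs).div_const _).add ((h1.add h2).mul_const _)

omit [DecidableEq V] in
lemma measurable_dt (hm : ∀ c p, Measurable (fun ω => m ω c p))
    (hm' : ∀ c p, Measurable (fun ω => m' ω c p)) (v : V) :
    Measurable (fun ω => dt G θ (m ω) (m' ω) v) := by
  unfold dt
  have h1 : Measurable (fun ω => mag G θ (m ω) v) := (measurable_mag v).comp (measurable_field hm)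
  have h2 : Measurable (fun ω => mag G θ (m' ω) v) := (measurable_mag v).comp (measurable_field hm')
  exact (h1.sub h2).abs.add (measurable_star2 (F := fun ω c p => |m ω c p - m' ω c p|)
    (fun c p => ((hm c p).sub (hm' c p)).abs) v)

omit [DecidableEq V] in
lemma measurable_wt (hm : ∀ c p, Measurable (fun ω => m ω c p))
    (hm' : ∀ c p, Measurable (fun ω => m' ω c p)) (v : V) :
    Measurable (fun ω => wt G θ (m ω) (m' ω) v) := by
  unfold wt
  exact measurable_star2 (F := fun ω c p => |R2 G θ (m ω) c p - R2 G θ (m' ω) c p|)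
    (fun c p => ((measurable_R2 (measurable_field hm) c p).sub
      (measurable_R2 (measurable_field hm') c p)).abs) v

/-! moments of the majorant -/

/-- constants of one field and edge -/
def cA (C : ℕ → ℝ) : ℕ → ℝ := fun q => 1 + max (C q) 0

/-- constants of one directed edge -/
def cB (C : ℕ → ℝ) : ℕ → ℝ := cadd (cadd (cA C) (cA C)) (cadd (cA C) (cA C))

/-- constants of a star -/
def cE (d : ℕ) (C : ℕ → ℝ) : ℕ → ℝ :=
  fun q => (d : ℝ) ^ q * (d * max (cadd (cB C) (cB C) q) 0)

/-- constants of the majorant -/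
def cZ (d : ℕ) (C : ℕ → ℝ) : ℕ → ℝ := cadd (fun q => (2 + 4 * (d : ℝ)) ^ q) (cE d C)

omit [LocallyFinite G] [DecidableEq V] [Countable V] in
lemma mom_m [IsProbabilityMeasure P] (hy0 : 0 < y)
    (env : EnvB G θ C y r P m) {c p : V} (h : G.Adj c p) :
    Mom P (fun ω => ENNReal.ofReal (|m ω c p| / y ^ 32)) (cA C) := by
  intro q
  have h1 := env.mom q c p h
  unfold cA
  calc ∫⁻ ω, ENNReal.ofReal (|m ω c p| / y ^ 32) ^ q ∂P
      ≤ ∫⁻ ω, (1 + ENNReal.ofReal (1 / y ^ (64 * q)) * ENNReal.ofReal (|m ω c p| ^ (2 * q))) ∂P := by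
        apply lintegral_mono
        intro ω
        have ha : 0 ≤ |m ω c p| := abs_nonneg _
        dsimp only
        rw [← ENNReal.ofReal_pow (by positivity), ← ENNReal.ofReal_mul (by positivity),
          ← ENNReal.ofReal_one, ← ENNReal.ofReal_add (by norm_num) (by positivity)]
        apply ENNReal.ofReal_le_ofReal
        have e : 1 / y ^ (64 * q) * |m ω c p| ^ (2 * q) = ((|m ω c p| / y ^ 32) ^ q) ^ 2 := by
          rw [div_pow, div_pow, ← pow_mul, ← pow_mul, ← pow_mul]
          rw [show 32 * (q * 2) = 64 * q by ring, show q * 2 = 2 * q by ring]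
          ring
        rw [e]
        nlinarith [sq_nonneg ((|m ω c p| / y ^ 32) ^ q - 1)]
    _ = 1 + ENNReal.ofReal (1 / y ^ (64 * q)) * ∫⁻ ω, ENNReal.ofReal (|m ω c p| ^ (2 * q)) ∂P := by
        rw [lintegral_add_left measurable_const, lintegral_const_mul' _ _ ENNReal.ofReal_ne_top]
        simp
    _ ≤ 1 + ENNReal.ofReal (1 / y ^ (64 * q)) * ENNReal.ofReal (max (C q) 0 * y ^ (64 * q)) := by
        gcongr
        refine h1.trans (ENNReal.ofReal_le_ofReal ?_)
        gcongr
        exact le_max_left _ _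
    _ = ENNReal.ofReal (1 + max (C q) 0) := by
        rw [← ENNReal.ofReal_mul (by positivity), ENNReal.ofReal_add (by norm_num)
          (le_max_right _ _), ENNReal.ofReal_one]
        congr 2
        field_simp

omit [Countable V] in
lemma ofReal_R2_le {m : V → V → ℝ} (hθ0 : 0 ≤ θ) (hθ1 : θ < 1) (hα1 : α < 1) (hG : G.IsTree)
    (hm : IsCavity G θ α m) (c p : V) : ENNReal.ofReal (R2 G θ m c p) ≤ Rf G θ m c := by
  unfold R2
  exact ENNReal.ofReal_toReal_le.trans ((Rb2_le_Rb hθ0 hθ1 hα1 hG hm c p).trans (Rb_le_Rf c p))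

omit [Countable V] in
lemma mom_R (hθ0 : 0 ≤ θ) (hθ1 : θ < 1) (hα1 : α < 1) (hG : G.IsTree) (hy0 : 0 < y)
    (hc : ∀ᵐ ω ∂P, IsCavity G θ α (m ω))
    (env : EnvB G θ C y r P m) (c p : V) :
    Mom P (fun ω => ENNReal.ofReal (R2 G θ (m ω) c p * y ^ 64)) (cA C) := by
  intro q
  have h1 := env.momR q c
  unfold cA
  calc ∫⁻ ω, ENNReal.ofReal (R2 G θ (m ω) c p * y ^ 64) ^ q ∂P
      ≤ ∫⁻ ω, (ENNReal.ofReal (y ^ (64 * q)) * Rf G θ (m ω) c ^ q) ∂P := by
        apply lintegral_mono_ae
        filter_upwards [hc] with ω hω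
        rw [ENNReal.ofReal_mul (R2_nonneg _ _), mul_pow, ← ENNReal.ofReal_pow (p := y ^ 64)
          (by positivity), ← pow_mul, mul_comm]
        gcongr
        exact ofReal_R2_le hθ0 hθ1 hα1 hG hω c p
    _ = ENNReal.ofReal (y ^ (64 * q)) * ∫⁻ ω, Rf G θ (m ω) c ^ q ∂P :=
        lintegral_const_mul' _ _ ENNReal.ofReal_ne_top
    _ ≤ ENNReal.ofReal (y ^ (64 * q)) * ENNReal.ofReal (C q / y ^ (64 * q)) := by gcongr
    _ = ENNReal.ofReal (C q) := by
        rw [← ENNReal.ofReal_mul (by positivity)]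
        congr 1
        field_simp
    _ ≤ _ := ENNReal.ofReal_le_ofReal (by
        have := le_max_left (C q) 0
        linarith)

lemma mom_edge (S : Setup G θ α d K C y r P m m') {c p : V} (h : G.Adj c p) :
    Mom P (fun ω => ENNReal.ofReal ((|m ω c p| + |m' ω c p|) / y ^ 32
      + (R2 G θ (m ω) c p + R2 G θ (m' ω) c p) * y ^ 64)) (cB C) := by
  have := S.prob
  have hy0 := S.hy0
  have a1 := mom_m hy0 S.env h
  have a2 := mom_m hy0 S.env' h
  have a3 := mom_R S.hθ0.le S.hθ1 S.hα1 S.tree hy0 S.cav S.env c p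
  have a4 := mom_R S.hθ0.le S.hθ1 S.hα1 S.tree hy0 S.cav' S.env' c p
  have m1 : Measurable (fun ω => ENNReal.ofReal (|m ω c p| / y ^ 32)) :=
    ((S.mm c p).abs.div_const _).ennreal_ofReal
  have m2 : Measurable (fun ω => ENNReal.ofReal (|m' ω c p| / y ^ 32)) :=
    ((S.mm' c p).abs.div_const _).ennreal_ofReal
  have m3 : Measurable (fun ω => ENNReal.ofReal (R2 G θ (m ω) c p * y ^ 64)) :=
    ((measurable_R2 (measurable_field S.mm) c p).mul_const _).ennreal_ofReal
  refine ((a1.add a2 m1).add (a3.add a4 m3) (m1.add m2)).mono (Filter.Eventually.of_forall ?_)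
  intro ω
  have n1 := R2_nonneg (G := G) (θ := θ) (m := m ω) c p
  have n2 := R2_nonneg (G := G) (θ := θ) (m := m' ω) c p
  rw [← ENNReal.ofReal_add (by positivity) (by positivity),
    ← ENNReal.ofReal_add (by positivity) (by positivity),
    ← ENNReal.ofReal_add (by positivity) (by positivity)]
  apply ENNReal.ofReal_le_ofReal
  apply le_of_eq
  ring

/-- all moments of the normalized majorant are bounded -/
lemma mom_zt (S : Setup G θ α d K C y r P m m') (v : V) :
    Mom P (fun ω => ENNReal.ofReal (zt G θ d y (m ω) (m' ω) v)) (cZ d C) := by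
  have := S.prob
  have hy0 := S.hy0
  have hs : (G.neighborFinset v).Nonempty := by
    rw [← Finset.card_pos, G.card_neighborFinset_eq_degree, S.hreg]
    have := S.hd
    omega
  set X : V → V → Ω → ENNReal := fun c p ω => ENNReal.ofReal ((|m ω c p| + |m' ω c p|) / y ^ 32
      + (R2 G θ (m ω) c p + R2 G θ (m' ω) c p) * y ^ 64) with hX
  have hXm : ∀ c p, Measurable (X c p) := by
    intro c p
    have h1 := measurable_R2 (G := G) (θ := θ) (measurable_field S.mm) c p
    have h2 := measurable_R2 (G := G) (θ := θ) (measurable_field S.mm') c p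
    exact ((((S.mm c p).abs.add (S.mm' c p).abs).div_const _).add
      ((h1.add h2).mul_const _)).ennreal_ofReal
  have hmomX : ∀ c p, G.Adj c p → Mom P (X c p) (cB C) := fun c p h => mom_edge S h
  have hsum := Mom.sum (P := P) (G.neighborFinset v) hs (X := fun g ω => X v g ω + X g v ω)
    (C := cadd (cB C) (cB C)) (fun g hg => by
      have h : G.Adj v g := (G.mem_neighborFinset _ _).mp hg
      exact (hmomX v g h).add (hmomX g v h.symm) (hXm v g))
    (fun g _ => (hXm v g).add (hXm g v))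
  rw [G.card_neighborFinset_eq_degree, S.hreg] at hsum
  have hconst : Mom P (fun _ => ENNReal.ofReal (2 + 4 * (d : ℝ))) (fun q => (2 + 4 * (d : ℝ)) ^ q) :=
    Mom.const (by positivity)
  refine (hconst.add hsum measurable_const).mono (Filter.Eventually.of_forall ?_)
  intro ω
  unfold zt star2
  rw [ENNReal.ofReal_add (by positivity) (Finset.sum_nonneg fun g _ => add_nonneg
    (zt_aux_nonneg hy0 _ _) (zt_aux_nonneg hy0 _ _)), ENNReal.ofReal_sum_of_nonneg
    (fun g _ => add_nonneg (zt_aux_nonneg hy0 _ _) (zt_aux_nonneg hy0 _ _))]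
  gcongr with g _
  rw [ENNReal.ofReal_add (zt_aux_nonneg hy0 _ _) (zt_aux_nonneg hy0 _ _)]

/-! second moments of differences -/

/-- the difference of the magnetizations in mean square -/
noncomputable def dA (G : SimpleGraph V) (θ : ℝ) (P : Measure Ω) (m m' : Ω → V → V → ℝ) (v : V) :
    ENNReal := ∫⁻ ω, ENNReal.ofReal ((mag G θ (m ω) v - mag G θ (m' ω) v) ^ 2) ∂P

lemma dA_eq (S : Setup G θ α d K C y r P m m') (v w : V) : dA G θ P m m' v = dA G θ P m m' w := by
  obtain ⟨g, hg, -⟩ := exists_iso_pair S.tree (by have := S.hd; omega : 2 ≤ d) S.hreg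
    (v := v) (w := v) (v' := w) (w' := w) (by simp)
  have hF : Measurable (fun x : (V → V → ℝ) × (V → V → ℝ) =>
      ENNReal.ofReal ((mag G θ x.1 v - mag G θ x.2 v) ^ 2)) :=
    ((((measurable_mag v).comp measurable_fst).sub
      ((measurable_mag v).comp measurable_snd)).pow_const 2).ennreal_ofReal
  have hm := measurable_field S.mm
  have hm' := measurable_field S.mm'
  have hΦ : Measurable (fun ω => ((m ω, m' ω) : (V → V → ℝ) × (V → V → ℝ))) := hm.prodMk hm'
  have hΦg : Measurable (fun ω => ((fun c p => m ω (g c) (g p), fun c p => m' ω (g c) (g p)) :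
      (V → V → ℝ) × (V → V → ℝ))) :=
    (measurable_field (fun c p => S.mm (g c) (g p))).prodMk
      (measurable_field (fun c p => S.mm' (g c) (g p)))
  have h1 := S.hom g
  have h2 := congrArg (fun μ => ∫⁻ x, ENNReal.ofReal ((mag G θ x.1 v - mag G θ x.2 v) ^ 2) ∂μ) h1
  rw [lintegral_map hF hΦg, lintegral_map hF hΦ] at h2
  unfold dA
  rw [← h2]
  apply lintegral_congr_ae
  filter_upwards [S.cav, S.cav'] with ω hc hc'
  rw [mag_iso hc g, mag_iso hc' g, hg]

omit [DecidableEq V] [Countable V] in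
/-- deterministic bound for the total difference -/
lemma dt_sq_le {m m' : V → V → ℝ} (hreg : ∀ v, G.degree v = d) (hK : LipK θ α K)
    (hm : IsCavity G θ α m) (hm' : IsCavity G θ α m') (v : V) :
    dt G θ m m' v ^ 2 ≤ 2 * (1 + d * K) ^ 2 * (mag G θ m v - mag G θ m' v) ^ 2
      + 2 * K ^ 2 * d * ∑ g ∈ G.neighborFinset v, (mag G θ m g - mag G θ m' g) ^ 2 := by
  have hK1 := hK.one_le
  have hd0 : (0 : ℝ) ≤ d := Nat.cast_nonneg d
  set A := |mag G θ m v - mag G θ m' v| with hA
  set B := ∑ g ∈ G.neighborFinset v, |mag G θ m g - mag G θ m' g| with hB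
  have hcard : (∑ g ∈ G.neighborFinset v, A) = d * A := by
    rw [Finset.sum_const, nsmul_eq_mul, G.card_neighborFinset_eq_degree, hreg]
  have h1 : dt G θ m m' v ≤ (1 + d * K) * A + K * B := by
    unfold dt star2
    have : ∑ g ∈ G.neighborFinset v, (|m v g - m' v g| + |m g v - m' g v|)
        ≤ ∑ g ∈ G.neighborFinset v, (K * A + K * |mag G θ m g - mag G θ m' g|) := by
      apply Finset.sum_le_sum
      intro g hg
      have h : G.Adj v g := (G.mem_neighborFinset _ _).mp hg
      have l := hK.inv (m v g) (m g v) (m' v g) (m' g v) (hm.bound _ _ h) (hm.bound _ _ h.symm)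
        (hm'.bound _ _ h) (hm'.bound _ _ h.symm)
      have e1 : comb (m v g) (θ * m g v) = mag G θ m v := (mag_eq hm h).symm
      have e2 : comb (m g v) (θ * m v g) = mag G θ m g := (mag_eq hm h.symm).symm
      have e3 : comb (m' v g) (θ * m' g v) = mag G θ m' v := (mag_eq hm' h).symm
      have e4 : comb (m' g v) (θ * m' v g) = mag G θ m' g := (mag_eq hm' h.symm).symm
      rw [e1, e2, e3, e4] at l
      refine l.trans (le_of_eq ?_)
      rw [hA]
      ring
    have e : ∑ g ∈ G.neighborFinset v, (K * A + K * |mag G θ m g - mag G θ m' g|)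
        = K * (d * A) + K * B := by
      rw [Finset.sum_add_distrib, ← Finset.mul_sum, ← Finset.mul_sum, hcard]
    rw [e] at this
    refine (add_le_add le_rfl this).trans (le_of_eq ?_)
    rw [← hA]
    ring
  have h0 : 0 ≤ dt G θ m m' v := dt_nonneg v
  have hA0 : 0 ≤ A := abs_nonneg _
  have hB0 : 0 ≤ B := Finset.sum_nonneg fun _ _ => abs_nonneg _
  have hB2 : B ^ 2 ≤ d * ∑ g ∈ G.neighborFinset v, (mag G θ m g - mag G θ m' g) ^ 2 := by
    have := sq_sum_le_card_mul_sum_sq (s := G.neighborFinset v)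
      (f := fun g => |mag G θ m g - mag G θ m' g|)
    rw [G.card_neighborFinset_eq_degree, hreg] at this
    simpa only [sq_abs] using this
  calc dt G θ m m' v ^ 2 ≤ ((1 + d * K) * A + K * B) ^ 2 := by gcongr
    _ ≤ 2 * ((1 + d * K) * A) ^ 2 + 2 * (K * B) ^ 2 := by
        nlinarith [sq_nonneg ((1 + d * K) * A - K * B)]
    _ = 2 * (1 + d * K) ^ 2 * A ^ 2 + 2 * K ^ 2 * B ^ 2 := by ring
    _ ≤ 2 * (1 + d * K) ^ 2 * A ^ 2
        + 2 * K ^ 2 * (d * ∑ g ∈ G.neighborFinset v, (mag G θ m g - mag G θ m' g) ^ 2) := by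
        gcongr
    _ = _ := by rw [hA, sq_abs]; ring

/-- constant in the comparison of the total difference -/
noncomputable def kD (d : ℕ) (K : ℝ) : ℝ := 2 * (1 + d * K) ^ 2 + 2 * K ^ 2 * d * d

lemma lintegral_dt_sq (S : Setup G θ α d K C y r P m m') (v : V) :
    ∫⁻ ω, ENNReal.ofReal (dt G θ (m ω) (m' ω) v ^ 2) ∂P
      ≤ ENNReal.ofReal (kD d K) * dA G θ P m m' v := by
  have hK1 := S.lip.one_le
  have hmag : ∀ (m : Ω → V → V → ℝ), Measurable m → ∀ v, Measurable (fun ω => mag G θ (m ω) v) :=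
    fun m hm v => (measurable_mag v).comp hm
  have hsq : ∀ v, Measurable (fun ω =>
      ENNReal.ofReal ((mag G θ (m ω) v - mag G θ (m' ω) v) ^ 2)) := fun v =>
    (((hmag m (measurable_field S.mm) v).sub
      (hmag m' (measurable_field S.mm') v)).pow_const 2).ennreal_ofReal
  calc ∫⁻ ω, ENNReal.ofReal (dt G θ (m ω) (m' ω) v ^ 2) ∂P
      ≤ ∫⁻ ω, (ENNReal.ofReal (2 * (1 + d * K) ^ 2)
            * ENNReal.ofReal ((mag G θ (m ω) v - mag G θ (m' ω) v) ^ 2)
          + ENNReal.ofReal (2 * K ^ 2 * d) * ∑ g ∈ G.neighborFinset v,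
            ENNReal.ofReal ((mag G θ (m ω) g - mag G θ (m' ω) g) ^ 2)) ∂P := by
        apply lintegral_mono_ae
        filter_upwards [S.cav, S.cav'] with ω hc hc'
        refine (ENNReal.ofReal_le_ofReal (dt_sq_le S.hreg S.lip hc hc' v)).trans ?_
        have hs : 0 ≤ ∑ g ∈ G.neighborFinset v, (mag G θ (m ω) g - mag G θ (m' ω) g) ^ 2 :=
          Finset.sum_nonneg fun _ _ => sq_nonneg _
        rw [ENNReal.ofReal_add (by positivity) (by positivity), ENNReal.ofReal_mul (by positivity),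
          ENNReal.ofReal_mul (p := 2 * K ^ 2 * d) (by positivity),
          ENNReal.ofReal_sum_of_nonneg (fun _ _ => sq_nonneg _)]
    _ = ENNReal.ofReal (2 * (1 + d * K) ^ 2) * dA G θ P m m' v
          + ENNReal.ofReal (2 * K ^ 2 * d) * ∑ g ∈ G.neighborFinset v, dA G θ P m m' g := by
        rw [lintegral_add_left ((hsq v).const_mul _), lintegral_const_mul _ (hsq v),
          lintegral_const_mul' _ _ ENNReal.ofReal_ne_top, lintegral_finsetSum _ (fun g _ => hsq g)]
        rfl
    _ = _ := by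
        rw [Finset.sum_congr rfl (fun g _ => dA_eq S g v), Finset.sum_const, nsmul_eq_mul,
          G.card_neighborFinset_eq_degree, S.hreg]
        unfold kD
        rw [ENNReal.ofReal_add (p := 2 * (1 + d * K) ^ 2) (by positivity) (by positivity), add_mul,
          ENNReal.ofReal_mul (p := 2 * K ^ 2 * d) (q := d) (by positivity)]
        simp only [ENNReal.ofReal_natCast]
        ring

end Vale.Agent.P161c
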