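import Vale.Agent.P161c.StageA2e

/-!
Second moment of the difference of the branch susceptibilities.
-/

namespace Vale.Agent.P161c

open MeasureTheory SimpleGraph Vale.Agent.H13.P161

variable {V : Type*} {Ω : Type*} [MeasurableSpace Ω]
  {G : SimpleGraph V} [LocallyFinite G] [DecidableEq V] [Countable V]
  {θ α K y : ℝ} {d : ℕ} {C : ℕ → ℝ} {r : ENNReal} {P : Measure Ω} {m m' : Ω → V → V → ℝ}

omit [Countable V] in
lemma lintegral_R2_sq (hθ0 : 0 ≤ θ) (hθ1 : θ < 1) (hα1 : α < 1) (hG : G.IsTree)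
    (hc : ∀ᵐ ω ∂P, IsCavity G θ α (m ω)) (env : EnvB G θ C y r P m) (c p : V) :
    ∫⁻ ω, ENNReal.ofReal (R2 G θ (m ω) c p ^ 2) ∂P ≤ ENNReal.ofReal (C 2 / y ^ 128) := by
  refine le_trans ?_ (env.momR 2 c)
  apply lintegral_mono_ae
  filter_upwards [hc] with ω hω
  rw [ENNReal.ofReal_pow (R2_nonneg _ _)]
  gcongr
  exact ofReal_R2_le hθ0 hθ1 hα1 hG hω c p

/-- the centered branch susceptibilities are uncorrelated -/
lemma uncorr_R2 [IsProbabilityMeasure P] (hθ0 : 0 ≤ θ) (hθ1 : θ < 1) (hα1 : α < 1) (hG : G.IsTree)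
    (hy0 : 0 < y) (hm : Measurable m)
    (hc : ∀ᵐ ω ∂P, IsCavity G θ α (m ω)) (env : EnvB G θ C y r P m) :
    Uncorr G P (fun ω c p => R2 G θ (m ω) c p - r.toReal) (max (C 2) 0 / y ^ 128) := by
  have hfin := ae_fin hm env
  have hRm : ∀ c p, Measurable (fun ω => R2 G θ (m ω) c p) := fun c p => measurable_R2 hm c p
  have hRbm : ∀ c p, Measurable (fun ω => Rb2 G θ (m ω) c p) := fun c p => (measurable_Rb2 c p).comp hm
  have hRbfin : ∀ c p, ∀ᵐ ω ∂P, Rb2 G θ (m ω) c p < ⊤ := by
    intro c p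
    filter_upwards [hc, hfin] with ω h1 h2
    exact lt_of_le_of_lt ((Rb2_le_Rb hθ0 hθ1 hα1 hG h1 c p).trans (Rb_le_Rf c p)) (h2 c).lt_top
  have hsq := fun c p => lintegral_R2_sq hθ0 hθ1 hα1 hG hc env c p
  have hint2 : ∀ c p, Integrable (fun ω => R2 G θ (m ω) c p ^ 2) P := by
    intro c p
    refine ⟨((hRm c p).pow_const 2).aestronglyMeasurable, ?_⟩
    rw [hasFiniteIntegral_iff_ofReal (Filter.Eventually.of_forall fun ω => sq_nonneg _)]
    exact lt_of_le_of_lt (hsq c p) ENNReal.ofReal_lt_top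
  have hL2 : ∀ c p, MemLp (fun ω => R2 G θ (m ω) c p) 2 P := fun c p =>
    (memLp_two_iff_integrable_sq (hRm c p).aestronglyMeasurable).mpr (hint2 c p)
  have hint1 : ∀ c p, Integrable (fun ω => R2 G θ (m ω) c p) P := fun c p =>
    (hL2 c p).integrable (by norm_num)
  have hmean : ∀ c p, G.Adj c p → ∫ ω, R2 G θ (m ω) c p ∂P = r.toReal := by
    intro c p h
    unfold R2
    rw [integral_toReal (hRbm c p).aemeasurable (hRbfin c p), env.mean c p h]
  refine ⟨?_, ?_, ?_⟩
  · intro c p _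
    exact (hL2 c p).sub (memLp_const _)
  · intro c p c' p' h h' hdis
    have hprod : ∫ ω, R2 G θ (m ω) c p * R2 G θ (m ω) c' p' ∂P = r.toReal * r.toReal := by
      have e : ∀ ω, R2 G θ (m ω) c p * R2 G θ (m ω) c' p'
          = (Rb2 G θ (m ω) c p * Rb2 G θ (m ω) c' p').toReal := by
        intro ω
        unfold R2
        rw [ENNReal.toReal_mul]
      have hmeas : Measurable (fun ω => Rb2 G θ (m ω) c p * Rb2 G θ (m ω) c' p') :=
        (hRbm c p).mul (hRbm c' p')
      have hae : ∀ᵐ ω ∂P, Rb2 G θ (m ω) c p * Rb2 G θ (m ω) c' p' < ⊤ := by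
        filter_upwards [hRbfin c p, hRbfin c' p'] with ω h1 h2
        exact ENNReal.mul_lt_top h1 h2
      simp only [e]
      rw [integral_toReal hmeas.aemeasurable hae, env.uncorr c p c' p' h h' hdis,
        ENNReal.toReal_mul]
    have hpi : Integrable (fun ω => R2 G θ (m ω) c p * R2 G θ (m ω) c' p') P :=
      (hL2 c p).integrable_mul (hL2 c' p')
    have e : ∀ ω, (R2 G θ (m ω) c p - r.toReal) * (R2 G θ (m ω) c' p' - r.toReal)
        = (R2 G θ (m ω) c p * R2 G θ (m ω) c' p' - r.toReal * R2 G θ (m ω) c' p')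
          - (r.toReal * R2 G θ (m ω) c p - r.toReal * r.toReal) := by
      intro ω; ring
    simp only [e]
    rw [integral_sub, integral_sub, integral_sub, integral_const_mul, integral_const_mul, hprod,
      hmean c p h, hmean c' p' h']
    · simp
    · exact (hint1 c p).const_mul _
    · exact integrable_const _
    · exact hpi
    · exact (hint1 c' p').const_mul _
    · exact hpi.sub ((hint1 c' p').const_mul _)
    · exact ((hint1 c p).const_mul _).sub (integrable_const _)
  · intro c p h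
    have e : ∀ ω, (R2 G θ (m ω) c p - r.toReal) ^ 2
        = R2 G θ (m ω) c p ^ 2 - (2 * r.toReal * R2 G θ (m ω) c p - r.toReal ^ 2) := by
      intro ω; ring
    have hi : Integrable (fun ω => 2 * r.toReal * R2 G θ (m ω) c p - r.toReal ^ 2) P :=
      ((hint1 c p).const_mul _).sub (integrable_const _)
    simp only [e]
    rw [integral_sub (hint2 c p) hi,
      integral_sub ((hint1 c p).const_mul _) (integrable_const _), integral_const_mul, hmean c p h]
    have h2 : ∫ ω, R2 G θ (m ω) c p ^ 2 ∂P ≤ max (C 2) 0 / y ^ 128 := by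
      rw [integral_eq_lintegral_of_nonneg_ae (Filter.Eventually.of_forall fun ω => sq_nonneg _)
        ((hRm c p).pow_const 2).aestronglyMeasurable]
      refine ENNReal.toReal_le_of_le_ofReal (by positivity) ((hsq c p).trans ?_)
      apply ENNReal.ofReal_le_ofReal
      gcongr
      exact le_max_left _ _
    simp only [integral_const, probReal_univ, smul_eq_mul, one_mul]
    nlinarith [sq_nonneg r.toReal]

/-- second moment of the iterated average of the difference -/
lemma lintegral_avg_W (S : Setup G θ α d K C y r P m m') (n : ℕ) (c p : V) (h : G.Adj c p) :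
    ∫⁻ ω, ENNReal.ofReal ((avgE G θ)^[n] (fun c p => R2 G θ (m ω) c p - R2 G θ (m' ω) c p) c p ^ 2) ∂P
      ≤ ENNReal.ofReal (4 * (θ ^ (2 * n) * (max (C 2) 0 / y ^ 128))) := by
  have := S.prob
  have hm := measurable_field S.mm
  have hm' := measurable_field S.mm'
  have u1 := (uncorr_R2 S.hθ0.le S.hθ1 S.hα1 S.tree S.hy0 hm S.cav S.env).iter S.tree S.hreg
    S.hcrit n
  have u2 := (uncorr_R2 S.hθ0.le S.hθ1 S.hα1 S.tree S.hy0 hm' S.cav' S.env').iter S.tree S.hreg
    S.hcrit n
  have hy0 := S.hy0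
  have hB : 0 ≤ θ ^ (2 * n) * (max (C 2) 0 / y ^ 128) := by
    have := S.hθ0
    positivity
  have conv : ∀ {F : Ω → ℝ}, MemLp F 2 P → ∫ ω, F ω ^ 2 ∂P ≤ θ ^ (2 * n) * (max (C 2) 0 / y ^ 128) →
      ∫⁻ ω, ENNReal.ofReal (F ω ^ 2) ∂P
        ≤ ENNReal.ofReal (θ ^ (2 * n) * (max (C 2) 0 / y ^ 128)) := by
    intro F hF hle
    rw [← ofReal_integral_eq_lintegral_ofReal hF.integrable_sq
      (Filter.Eventually.of_forall fun ω => sq_nonneg _)]
    exact ENNReal.ofReal_le_ofReal hle
  have e : ∀ ω, (avgE G θ)^[n] (fun c p => R2 G θ (m ω) c p - R2 G θ (m' ω) c p) c p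
      = (avgE G θ)^[n] (fun c p => R2 G θ (m ω) c p - r.toReal) c p
        - (avgE G θ)^[n] (fun c p => R2 G θ (m' ω) c p - r.toReal) c p := by
    intro ω
    have h1 := congrFun (congrFun (avgE_iter_sub (G := G) (θ := θ) n
      (fun c p => R2 G θ (m ω) c p - r.toReal) (fun c p => R2 G θ (m' ω) c p - r.toReal)) c) p
    have h2 : (fun c p => R2 G θ (m ω) c p - R2 G θ (m' ω) c p)
        = (fun c p => R2 G θ (m ω) c p - r.toReal - (R2 G θ (m' ω) c p - r.toReal)) := by
      funext a b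
      ring
    rw [← h1, h2]
  have hme : ∀ (m : Ω → V → V → ℝ), Measurable m →
      Measurable (fun ω => (avgE G θ)^[n] (fun c p => R2 G θ (m ω) c p - r.toReal) c p) :=
    fun m hm => measurable_avgE_iter (F := fun ω c p => R2 G θ (m ω) c p - r.toReal)
      (fun c p => (measurable_R2 hm c p).sub_const _) n c p
  calc ∫⁻ ω, ENNReal.ofReal
        ((avgE G θ)^[n] (fun c p => R2 G θ (m ω) c p - R2 G θ (m' ω) c p) c p ^ 2) ∂P
      ≤ ∫⁻ ω, (ENNReal.ofReal 2 * ENNReal.ofReal
            ((avgE G θ)^[n] (fun c p => R2 G θ (m ω) c p - r.toReal) c p ^ 2)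
          + ENNReal.ofReal 2 * ENNReal.ofReal
            ((avgE G θ)^[n] (fun c p => R2 G θ (m' ω) c p - r.toReal) c p ^ 2)) ∂P := by
        apply lintegral_mono
        intro ω
        dsimp only
        rw [e, ← ENNReal.ofReal_mul (by norm_num), ← ENNReal.ofReal_mul (by norm_num),
          ← ENNReal.ofReal_add (by positivity) (by positivity)]
        apply ENNReal.ofReal_le_ofReal
        generalize (avgE G θ)^[n] (fun c p => R2 G θ (m ω) c p - r.toReal) c p = a
        generalize (avgE G θ)^[n] (fun c p => R2 G θ (m' ω) c p - r.toReal) c p = b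
        nlinarith [sq_nonneg (a + b)]
    _ = ENNReal.ofReal 2 * ∫⁻ ω, ENNReal.ofReal
            ((avgE G θ)^[n] (fun c p => R2 G θ (m ω) c p - r.toReal) c p ^ 2) ∂P
          + ENNReal.ofReal 2 * ∫⁻ ω, ENNReal.ofReal
            ((avgE G θ)^[n] (fun c p => R2 G θ (m' ω) c p - r.toReal) c p ^ 2) ∂P := by
        rw [lintegral_add_left (((hme m hm).pow_const 2).ennreal_ofReal.const_mul _),
          lintegral_const_mul' _ _ ENNReal.ofReal_ne_top,
          lintegral_const_mul' _ _ ENNReal.ofReal_ne_top]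
    _ ≤ ENNReal.ofReal 2 * ENNReal.ofReal (θ ^ (2 * n) * (max (C 2) 0 / y ^ 128))
          + ENNReal.ofReal 2 * ENNReal.ofReal (θ ^ (2 * n) * (max (C 2) 0 / y ^ 128)) := by
        gcongr
        · exact conv (u1.memLp c p h) (u1.sqb c p h)
        · exact conv (u2.memLp c p h) (u2.sqb c p h)
    _ = _ := by
        rw [← ENNReal.ofReal_mul (by norm_num), ← ENNReal.ofReal_add (by positivity) (by positivity)]
        congr 1
        ring

end Vale.Agent.P161c
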