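import Vale.Agent.P161c.StageA2f

/-!
Supremum bound for the second moment of the difference of the branch susceptibilities.
-/

namespace Vale.Agent.P161c

open MeasureTheory SimpleGraph Vale.Agent.H13.P161

variable {V : Type*} {Ω : Type*} [MeasurableSpace Ω]
  {G : SimpleGraph V} [LocallyFinite G] [DecidableEq V] [Countable V]
  {θ α K y : ℝ} {d : ℕ} {C : ℕ → ℝ} {r : ENNReal} {P : Measure Ω} {m m' : Ω → V → V → ℝ}

/-- the difference of the branch susceptibilities -/
noncomputable def dW (G : SimpleGraph V) (θ : ℝ) (m m' : Ω → V → V → ℝ) (ω : Ω) (c p : V) : ℝ :=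
  R2 G θ (m ω) c p - R2 G θ (m' ω) c p

omit [LocallyFinite G] [DecidableEq V] in
lemma measurable_dW (hm : Measurable m) (hm' : Measurable m') (c p : V) :
    Measurable (fun ω => dW G θ m m' ω c p) :=
  (measurable_R2 hm c p).sub (measurable_R2 hm' c p)

lemma lintegral_wt_sq (S : Setup G θ α d K C y r P m m') {s : ℝ} (hs : 0 ≤ s)
    (hB : ∀ c p, G.Adj c p → ∫⁻ ω, ENNReal.ofReal (dW G θ m m' ω c p ^ 2) ∂P ≤ ENNReal.ofReal s)
    (v : V) :
    ∫⁻ ω, ENNReal.ofReal ((wt G θ (m ω) (m' ω) v * y ^ 64) ^ 2) ∂P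
      ≤ ENNReal.ofReal (4 * d ^ 2 * y ^ 128 * s) := by
  have hy0 := S.hy0
  have hpt : ∀ ω, (wt G θ (m ω) (m' ω) v * y ^ 64) ^ 2
      ≤ (2 * d * y ^ 128) * ∑ g ∈ G.neighborFinset v,
        (dW G θ m m' ω v g ^ 2 + dW G θ m m' ω g v ^ 2) := by
    intro ω
    have h1 := sq_sum_le_card_mul_sum_sq (s := G.neighborFinset v)
      (f := fun g => |R2 G θ (m ω) v g - R2 G θ (m' ω) v g|
        + |R2 G θ (m ω) g v - R2 G θ (m' ω) g v|)
    rw [G.card_neighborFinset_eq_degree, S.hreg] at h1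
    have h2 : ∑ g ∈ G.neighborFinset v, (|R2 G θ (m ω) v g - R2 G θ (m' ω) v g|
        + |R2 G θ (m ω) g v - R2 G θ (m' ω) g v|) ^ 2
        ≤ ∑ g ∈ G.neighborFinset v, 2 * (dW G θ m m' ω v g ^ 2 + dW G θ m m' ω g v ^ 2) := by
      apply Finset.sum_le_sum
      intro g _
      unfold dW
      rw [← sq_abs (R2 G θ (m ω) v g - R2 G θ (m' ω) v g),
        ← sq_abs (R2 G θ (m ω) g v - R2 G θ (m' ω) g v)]
      nlinarith [sq_nonneg (|R2 G θ (m ω) v g - R2 G θ (m' ω) v g|
        - |R2 G θ (m ω) g v - R2 G θ (m' ω) g v|)]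
    rw [← Finset.mul_sum] at h2
    have h3 : wt G θ (m ω) (m' ω) v ^ 2 ≤ d * (2 * ∑ g ∈ G.neighborFinset v,
        (dW G θ m m' ω v g ^ 2 + dW G θ m m' ω g v ^ 2)) := by
      refine le_trans (le_of_eq ?_) (h1.trans (mul_le_mul_of_nonneg_left h2 (Nat.cast_nonneg d)))
      rfl
    calc (wt G θ (m ω) (m' ω) v * y ^ 64) ^ 2 = wt G θ (m ω) (m' ω) v ^ 2 * y ^ 128 := by ring
      _ ≤ (d * (2 * ∑ g ∈ G.neighborFinset v,
        (dW G θ m m' ω v g ^ 2 + dW G θ m m' ω g v ^ 2))) * y ^ 128 := by gcongr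
      _ = _ := by ring
  have hm : ∀ c p, Measurable (fun ω => ENNReal.ofReal (dW G θ m m' ω c p ^ 2)) := fun c p =>
    ((measurable_dW (measurable_field S.mm) (measurable_field S.mm') c p).pow_const 2).ennreal_ofReal
  have hmm : ∀ g, Measurable (fun ω => ENNReal.ofReal (dW G θ m m' ω v g ^ 2)
      + ENNReal.ofReal (dW G θ m m' ω g v ^ 2)) := fun g => (hm v g).add (hm g v)
  calc ∫⁻ ω, ENNReal.ofReal ((wt G θ (m ω) (m' ω) v * y ^ 64) ^ 2) ∂P
      ≤ ∫⁻ ω, ENNReal.ofReal (2 * d * y ^ 128) * ∑ g ∈ G.neighborFinset v,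
          (ENNReal.ofReal (dW G θ m m' ω v g ^ 2) + ENNReal.ofReal (dW G θ m m' ω g v ^ 2)) ∂P := by
        apply lintegral_mono
        intro ω
        refine (ENNReal.ofReal_le_ofReal (hpt ω)).trans (le_of_eq ?_)
        rw [ENNReal.ofReal_mul (by positivity), ENNReal.ofReal_sum_of_nonneg
          (fun g _ => by positivity)]
        congr 1
        apply Finset.sum_congr rfl
        intro g _
        rw [ENNReal.ofReal_add (sq_nonneg _) (sq_nonneg _)]
    _ = ENNReal.ofReal (2 * d * y ^ 128) * ∑ g ∈ G.neighborFinset v,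
          (∫⁻ ω, ENNReal.ofReal (dW G θ m m' ω v g ^ 2) ∂P
            + ∫⁻ ω, ENNReal.ofReal (dW G θ m m' ω g v ^ 2) ∂P) := by
        rw [lintegral_const_mul' _ _ ENNReal.ofReal_ne_top, lintegral_finsetSum _
          (fun g _ => hmm g)]
        congr 1
        apply Finset.sum_congr rfl
        intro g _
        rw [lintegral_add_left (hm v g)]
    _ ≤ ENNReal.ofReal (2 * d * y ^ 128) * ∑ g ∈ G.neighborFinset v,
          (ENNReal.ofReal s + ENNReal.ofReal s) := by
        gcongr with g hg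
        · exact hB _ _ ((G.mem_neighborFinset _ _).mp hg)
        · exact hB _ _ ((G.mem_neighborFinset _ _).mp hg).symm
    _ = _ := by
        rw [Finset.sum_const, nsmul_eq_mul, G.card_neighborFinset_eq_degree, S.hreg,
          ← ENNReal.ofReal_add hs hs, ← ENNReal.ofReal_natCast, ← ENNReal.ofReal_mul (by positivity),
          ← ENNReal.ofReal_mul (by positivity)]
        congr 1
        ring

/-- truncation constant -/
noncomputable def cT (d : ℕ) (C : ℕ → ℝ) (N : ℕ) : ℝ :=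
  max (cZ d C (2 * 2)) 0 + max (cZ d C (4 * (2 * N + 2))) 0

lemma cT_nonneg (d : ℕ) (C : ℕ → ℝ) (N : ℕ) : 0 ≤ cT d C N :=
  add_nonneg (le_max_right _ _) (le_max_right _ _)

/-- truncated bound for the weighted magnetization differences -/
lemma lintegral_D_Z (S : Setup G θ α d K C y r P m m') {a : ℝ} (ha : 0 ≤ a) (v : V)
    (hA : dA G θ P m m' v ≤ ENNReal.ofReal a) (N : ℕ) :
    ∫⁻ ω, ENNReal.ofReal (dt G θ (m ω) (m' ω) v ^ 2 * zt G θ d y (m ω) (m' ω) v ^ 4) ∂P
      ≤ ENNReal.ofReal (kD d K * a / y + cT d C N * y ^ N) := by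
  have hy0 := S.hy0
  have hK1 := S.lip.one_le
  have hkD : 0 ≤ kD d K := by unfold kD; positivity
  have hz : ∀ ω, 0 ≤ zt G θ d y (m ω) (m' ω) v := fun ω =>
    le_trans (by positivity) (zt_basic (G := G) (θ := θ) (d := d) (m := m ω) (m' := m' ω) hy0 v)
  have hD : ∀ ω, 0 ≤ dt G θ (m ω) (m' ω) v := fun ω => dt_nonneg v
  have key := trunc_pow (P := P) hy0 4 2 N
    (Z := fun ω => ENNReal.ofReal (zt G θ d y (m ω) (m' ω) v))
    (F := fun ω => ENNReal.ofReal (dt G θ (m ω) (m' ω) v ^ 2)) (CZ := cZ d C)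
    (measurable_zt S.mm S.mm' v).ennreal_ofReal
    ((measurable_dt S.mm S.mm' v).pow_const 2).ennreal_ofReal (mom_zt S v) (by
      filter_upwards [S.cav, S.cav'] with ω hc hc'
      rw [← ENNReal.ofReal_pow (hz ω)]
      apply ENNReal.ofReal_le_ofReal
      have h1 := dt_le_zt S.hθ0.le S.hθ1 S.hα0 S.hα1 S.hreg hc hc' v
      have h2 := zt_basic (G := G) (θ := θ) (d := d) (m := m ω) (m' := m' ω) hy0 v
      have h3 := hD ω
      gcongr
      exact h1.trans h2)
  have h1 := lintegral_dt_sq S v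
  calc ∫⁻ ω, ENNReal.ofReal (dt G θ (m ω) (m' ω) v ^ 2 * zt G θ d y (m ω) (m' ω) v ^ 4) ∂P
      = ∫⁻ ω, ENNReal.ofReal (dt G θ (m ω) (m' ω) v ^ 2)
          * ENNReal.ofReal (zt G θ d y (m ω) (m' ω) v) ^ 4 ∂P := by
        apply lintegral_congr
        intro ω
        rw [ENNReal.ofReal_mul (sq_nonneg _), ENNReal.ofReal_pow (hz ω)]
    _ ≤ _ := key
    _ ≤ ENNReal.ofReal (1 / y) * (ENNReal.ofReal (kD d K) * ENNReal.ofReal a)
          + ENNReal.ofReal (cT d C N * y ^ N) := by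
        gcongr
        · exact h1.trans (by gcongr)
        · exact le_rfl
    _ = _ := by
        have hT := cT_nonneg d C N
        rw [← ENNReal.ofReal_mul hkD, ← ENNReal.ofReal_mul (by positivity),
          ← ENNReal.ofReal_add (by positivity) (by positivity)]
        congr 1
        ring

/-- truncated bound for the weighted susceptibility differences -/
lemma lintegral_W_Z (S : Setup G θ α d K C y r P m m') {s : ℝ} (hs : 0 ≤ s)
    (hB : ∀ c p, G.Adj c p → ∫⁻ ω, ENNReal.ofReal (dW G θ m m' ω c p ^ 2) ∂P ≤ ENNReal.ofReal s)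
    (v : V) (N : ℕ) :
    ∫⁻ ω, ENNReal.ofReal ((wt G θ (m ω) (m' ω) v * y ^ 64) ^ 2
        * zt G θ d y (m ω) (m' ω) v ^ 4) ∂P
      ≤ ENNReal.ofReal (4 * d ^ 2 * y ^ 127 * s + cT d C N * y ^ N) := by
  have hy0 := S.hy0
  have hz : ∀ ω, 0 ≤ zt G θ d y (m ω) (m' ω) v := fun ω =>
    le_trans (by positivity) (zt_basic (G := G) (θ := θ) (d := d) (m := m ω) (m' := m' ω) hy0 v)
  have hw : ∀ ω, 0 ≤ wt G θ (m ω) (m' ω) v := fun ω => wt_nonneg v
  have key := trunc_pow (P := P) hy0 4 2 N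
    (Z := fun ω => ENNReal.ofReal (zt G θ d y (m ω) (m' ω) v))
    (F := fun ω => ENNReal.ofReal ((wt G θ (m ω) (m' ω) v * y ^ 64) ^ 2)) (CZ := cZ d C)
    (measurable_zt S.mm S.mm' v).ennreal_ofReal
    (((measurable_wt S.mm S.mm' v).mul_const _).pow_const 2).ennreal_ofReal (mom_zt S v)
    (Filter.Eventually.of_forall fun ω => by
      rw [← ENNReal.ofReal_pow (hz ω)]
      apply ENNReal.ofReal_le_ofReal
      have h1 := wt_le_zt (G := G) (θ := θ) (d := d) (m := m ω) (m' := m' ω) hy0 v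
      have h3 := hw ω
      gcongr)
  have h1 := lintegral_wt_sq S hs hB v
  calc ∫⁻ ω, ENNReal.ofReal ((wt G θ (m ω) (m' ω) v * y ^ 64) ^ 2
        * zt G θ d y (m ω) (m' ω) v ^ 4) ∂P
      = ∫⁻ ω, ENNReal.ofReal ((wt G θ (m ω) (m' ω) v * y ^ 64) ^ 2)
          * ENNReal.ofReal (zt G θ d y (m ω) (m' ω) v) ^ 4 ∂P := by
        apply lintegral_congr
        intro ω
        rw [ENNReal.ofReal_mul (sq_nonneg _), ENNReal.ofReal_pow (hz ω)]
    _ ≤ _ := key
    _ ≤ ENNReal.ofReal (1 / y) * ENNReal.ofReal (4 * d ^ 2 * y ^ 128 * s)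
          + ENNReal.ofReal (cT d C N * y ^ N) := by
        gcongr
        · exact le_rfl
    _ = _ := by
        have hT := cT_nonneg d C N
        rw [← ENNReal.ofReal_mul (by positivity),
          ← ENNReal.ofReal_add (by positivity) (by positivity)]
        congr 1
        field_simp

lemma ennreal_absorb_real {s x c : ℝ} (hc : c ≤ 1 / 2) (hs : 0 ≤ s) (h : s ≤ x + c * s) :
    s ≤ 2 * x := by
  nlinarith

/-- one step of the bootstrap for the susceptibility differences -/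
lemma lintegral_dW_step (S : Setup G θ α d K C y r P m m') {a s : ℝ} (ha : 0 ≤ a) (hs : 0 ≤ s)
    (hA : ∀ v, dA G θ P m m' v ≤ ENNReal.ofReal a)
    (hB : ∀ c p, G.Adj c p → ∫⁻ ω, ENNReal.ofReal (dW G θ m m' ω c p ^ 2) ∂P ≤ ENNReal.ofReal s)
    (n N : ℕ) : ∀ c p, G.Adj c p → ∫⁻ ω, ENNReal.ofReal (dW G θ m m' ω c p ^ 2) ∂P
      ≤ ENNReal.ofReal (2 * (4 * (θ ^ (2 * n) * (max (C 2) 0 / y ^ 128)))
        + 2 * n ^ 2 * (2 * K ^ 2 / y ^ 64 * (kD d K * a / y + cT d C N * y ^ N)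
          + 8 * (4 * d ^ 2 * y ^ 127 * s + cT d C N * y ^ N))) := by
  have hy0 := S.hy0
  have hθ0 := S.hθ0
  have hK1 := S.lip.one_le
  have hkD : 0 ≤ kD d K := by unfold kD; positivity
  have hT := cT_nonneg d C N
  have hm := measurable_field S.mm
  have hm' := measurable_field S.mm'
  have hz : ∀ ω v, 0 ≤ zt G θ d y (m ω) (m' ω) v := fun ω v =>
    le_trans (by positivity) (zt_basic (G := G) (θ := θ) (d := d) (m := m ω) (m' := m' ω) hy0 v)
  have hBU : ∀ c p, G.Adj c p →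
      ∫⁻ ω, ENNReal.ofReal ((U2 G θ (m ω) c p - U2 G θ (m' ω) c p) ^ 2) ∂P
      ≤ ENNReal.ofReal (2 * K ^ 2 / y ^ 64 * (kD d K * a / y + cT d C N * y ^ N)
          + 8 * (4 * d ^ 2 * y ^ 127 * s + cT d C N * y ^ N)) := by
    intro c p h
    have m1 : Measurable (fun ω => ENNReal.ofReal
        (dt G θ (m ω) (m' ω) c ^ 2 * zt G θ d y (m ω) (m' ω) c ^ 4)) :=
      (((measurable_dt S.mm S.mm' c).pow_const 2).mul
        ((measurable_zt S.mm S.mm' c).pow_const 4)).ennreal_ofReal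
    calc ∫⁻ ω, ENNReal.ofReal ((U2 G θ (m ω) c p - U2 G θ (m' ω) c p) ^ 2) ∂P
        ≤ ∫⁻ ω, (ENNReal.ofReal (2 * K ^ 2 / y ^ 64) * ENNReal.ofReal
              (dt G θ (m ω) (m' ω) c ^ 2 * zt G θ d y (m ω) (m' ω) c ^ 4)
            + ENNReal.ofReal 8 * ENNReal.ofReal ((wt G θ (m ω) (m' ω) c * y ^ 64) ^ 2
              * zt G θ d y (m ω) (m' ω) c ^ 4)) ∂P := by
          apply lintegral_mono_ae
          filter_upwards [S.cav, S.cav'] with ω hc hc'
          have hzz := hz ω c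
          have hww := wt_nonneg (G := G) (θ := θ) (m := m ω) (m' := m' ω) c
          rw [← ENNReal.ofReal_mul (by positivity), ← ENNReal.ofReal_mul (by positivity),
            ← ENNReal.ofReal_add (by positivity) (by positivity)]
          exact ENNReal.ofReal_le_ofReal
            (U2_sub_sq_le hθ0.le S.hθ1 S.hα1 S.lip hc hc' hy0 h)
      _ = ENNReal.ofReal (2 * K ^ 2 / y ^ 64) * ∫⁻ ω, ENNReal.ofReal
              (dt G θ (m ω) (m' ω) c ^ 2 * zt G θ d y (m ω) (m' ω) c ^ 4) ∂P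
            + ENNReal.ofReal 8 * ∫⁻ ω, ENNReal.ofReal ((wt G θ (m ω) (m' ω) c * y ^ 64) ^ 2
              * zt G θ d y (m ω) (m' ω) c ^ 4) ∂P := by
          rw [lintegral_add_left (m1.const_mul _), lintegral_const_mul' _ _ ENNReal.ofReal_ne_top,
            lintegral_const_mul' _ _ ENNReal.ofReal_ne_top]
      _ ≤ ENNReal.ofReal (2 * K ^ 2 / y ^ 64) * ENNReal.ofReal (kD d K * a / y + cT d C N * y ^ N)
            + ENNReal.ofReal 8 * ENNReal.ofReal (4 * d ^ 2 * y ^ 127 * s + cT d C N * y ^ N) := by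
          gcongr
          · exact lintegral_D_Z S ha c (hA c) N
          · exact lintegral_W_Z S hs hB c N
      _ = _ := by
          rw [← ENNReal.ofReal_mul (by positivity), ← ENNReal.ofReal_mul (by positivity),
            ← ENNReal.ofReal_add (by positivity) (by positivity)]
  have hrec : ∀ᵐ ω ∂P, ∀ c p, G.Adj c p →
      (fun c p => R2 G θ (m ω) c p - R2 G θ (m' ω) c p) c p
      = avgE G θ (fun c p => R2 G θ (m ω) c p - R2 G θ (m' ω) c p) c p
        - avgE G θ (fun c p => U2 G θ (m ω) c p - U2 G θ (m' ω) c p) c p := by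
    filter_upwards [S.good] with ω hg c p h
    have h1 := R2_rec S.tree hθ0.le S.hθ1 S.hα1 hg.cav hg.fin h
    have h2 := R2_rec S.tree hθ0.le S.hθ1 S.hα1 hg.cav' hg.fin' h
    have e1 := congrFun (congrFun (avgE_sub (G := G) (θ := θ) (R2 G θ (m ω)) (R2 G θ (m' ω))) c) p
    have e2 := congrFun (congrFun (avgE_sub (G := G) (θ := θ) (U2 G θ (m ω)) (U2 G θ (m' ω))) c) p
    rw [e1, e2, h1, h2]
    ring
  have key := lintegral_sq_expand (P := P) S.hreg S.hcrit
    (W := fun ω c p => R2 G θ (m ω) c p - R2 G θ (m' ω) c p)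
    (U := fun ω c p => U2 G θ (m ω) c p - U2 G θ (m' ω) c p)
    (fun c p => (measurable_R2 hm c p).sub (measurable_R2 hm' c p))
    (fun c p => (measurable_U2 S.mm c p).sub (measurable_U2 S.mm' c p)) hrec n
    (fun c p h => lintegral_avg_W S n c p h) hBU
  intro c p h
  refine (key c p h).trans (le_of_eq ?_)
  have hc2 := le_max_right (C 2) 0
  have e2 : (2 : ENNReal) = ENNReal.ofReal 2 := by simp
  have en : (n : ENNReal) = ENNReal.ofReal n := by simp
  rw [e2, en, ← ENNReal.ofReal_pow (by positivity), ← ENNReal.ofReal_mul (by positivity),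
    ← ENNReal.ofReal_mul (by positivity), ← ENNReal.ofReal_mul (by positivity),
    ← ENNReal.ofReal_add (by positivity) (by positivity)]

/-- trivial bound for the susceptibility differences -/
lemma lintegral_dW_trivial (S : Setup G θ α d K C y r P m m') (c p : V) :
    ∫⁻ ω, ENNReal.ofReal (dW G θ m m' ω c p ^ 2) ∂P
      ≤ ENNReal.ofReal (4 * max (C 2) 0 / y ^ 128) := by
  have hy0 := S.hy0
  have hm := measurable_field S.mm
  have hm' := measurable_field S.mm'
  have h1 := lintegral_R2_sq S.hθ0.le S.hθ1 S.hα1 S.tree S.cav S.env c p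
  have h2 := lintegral_R2_sq S.hθ0.le S.hθ1 S.hα1 S.tree S.cav' S.env' c p
  calc ∫⁻ ω, ENNReal.ofReal (dW G θ m m' ω c p ^ 2) ∂P
      ≤ ∫⁻ ω, (ENNReal.ofReal 2 * ENNReal.ofReal (R2 G θ (m ω) c p ^ 2)
          + ENNReal.ofReal 2 * ENNReal.ofReal (R2 G θ (m' ω) c p ^ 2)) ∂P := by
        apply lintegral_mono
        intro ω
        dsimp only
        rw [← ENNReal.ofReal_mul (by norm_num), ← ENNReal.ofReal_mul (by norm_num),
          ← ENNReal.ofReal_add (by positivity) (by positivity)]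
        apply ENNReal.ofReal_le_ofReal
        unfold dW
        nlinarith [sq_nonneg (R2 G θ (m ω) c p + R2 G θ (m' ω) c p)]
    _ = ENNReal.ofReal 2 * ∫⁻ ω, ENNReal.ofReal (R2 G θ (m ω) c p ^ 2) ∂P
          + ENNReal.ofReal 2 * ∫⁻ ω, ENNReal.ofReal (R2 G θ (m' ω) c p ^ 2) ∂P := by
        rw [lintegral_add_left ((((measurable_R2 hm c p).pow_const 2).ennreal_ofReal).const_mul _),
          lintegral_const_mul' _ _ ENNReal.ofReal_ne_top,
          lintegral_const_mul' _ _ ENNReal.ofReal_ne_top]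
    _ ≤ ENNReal.ofReal 2 * ENNReal.ofReal (max (C 2) 0 / y ^ 128)
          + ENNReal.ofReal 2 * ENNReal.ofReal (max (C 2) 0 / y ^ 128) := by
        gcongr
        · refine h1.trans (ENNReal.ofReal_le_ofReal ?_)
          gcongr
          exact le_max_left _ _
        · refine h2.trans (ENNReal.ofReal_le_ofReal ?_)
          gcongr
          exact le_max_left _ _
    _ = _ := by
        have hc2 := le_max_right (C 2) 0
        rw [← ENNReal.ofReal_mul (by norm_num), ← ENNReal.ofReal_add (by positivity) (by positivity)]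
        congr 1
        ring

end Vale.Agent.P161c
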