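import Vale.Agent.P161c.StageA2g

/-!
Supremum bound: closing the bootstrap.
-/

namespace Vale.Agent.P161c

open MeasureTheory SimpleGraph Vale.Agent.H13.P161

/-- number of iterations -/
lemma iter_count {θ y : ℝ} {d : ℕ} (hθ0 : 0 < θ) (hd : 3 ≤ d) (hcrit : ((d : ℝ) - 1) * θ ^ 2 = 1)
    (hy0 : 0 < y) (hy1 : y ≤ 1) (M : ℕ) :
    ∃ n : ℕ, (n : ℝ) * y ≤ 2 * M ∧ θ ^ (2 * n) ≤ y ^ M := by
  have hk1 : 1 / y ≤ (⌈1 / y⌉₊ : ℝ) := Nat.le_ceil _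
  have hk2 : (⌈1 / y⌉₊ : ℝ) < 1 / y + 1 := Nat.ceil_lt_add_one (by positivity)
  refine ⟨M * ⌈1 / y⌉₊, ?_, ?_⟩
  · have h1 : (⌈1 / y⌉₊ : ℝ) * y ≤ 2 := by
      have : (⌈1 / y⌉₊ : ℝ) * y ≤ (1 / y + 1) * y := mul_le_mul_of_nonneg_right hk2.le hy0.le
      have e : (1 / y + 1) * y = 1 + y := by field_simp
      rw [e] at this
      linarith
    push_cast
    calc (M : ℝ) * ⌈1 / y⌉₊ * y = M * (⌈1 / y⌉₊ * y) := by ring
      _ ≤ M * 2 := by gcongr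
      _ = 2 * M := by ring
  · have hθ2 : θ ^ 2 ≤ 1 / 2 := by
      have hd' : (3 : ℝ) ≤ d := by exact_mod_cast hd
      have := sq_nonneg θ
      nlinarith
    have h2 : ((1 : ℝ) / 2) ^ ⌈1 / y⌉₊ ≤ y := by
      have h3 : (⌈1 / y⌉₊ : ℝ) ≤ 2 ^ ⌈1 / y⌉₊ := by
        exact_mod_cast (Nat.lt_two_pow_self (n := ⌈1 / y⌉₊)).le
      have h4 : 1 / y ≤ (2 : ℝ) ^ ⌈1 / y⌉₊ := hk1.trans h3
      rw [one_div_pow, one_div_le (by positivity) hy0]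
      exact h4
    calc θ ^ (2 * (M * ⌈1 / y⌉₊)) = ((θ ^ 2) ^ ⌈1 / y⌉₊) ^ M := by
          rw [← pow_mul, ← pow_mul]; congr 1; ring
      _ ≤ (((1 : ℝ) / 2) ^ ⌈1 / y⌉₊) ^ M := by gcongr
      _ ≤ y ^ M := by gcongr

/-- real arithmetic of the bootstrap -/
lemma boot_real {y c t k K a s : ℝ} {d M N n : ℕ} {x : ℝ} (hy0 : 0 < y) (hy1 : y ≤ 1) (hM : M = N + 130)
    (hc : 0 ≤ c) (ht : 0 ≤ t) (hk : 0 ≤ k) (ha : 0 ≤ a) (hs : 0 ≤ s)
    (hn : (n : ℝ) * y ≤ 2 * M) (hx : x ≤ y ^ M)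
    (h1 : s ≤ 2 * (4 * (x * (c / y ^ 128))) + 2 * n ^ 2 * (2 * K ^ 2 / y ^ 64
        * (k * a / y + t * y ^ (N + 70)) + 8 * (4 * d ^ 2 * y ^ 127 * s + t * y ^ (N + 70))))
    (h2 : s ≤ 4 * c / y ^ 128) :
    s ≤ (2 * (16 * M ^ 2 * K ^ 2 * k) + 2 * (8 * c + 16 * M ^ 2 * K ^ 2 * t + 64 * M ^ 2 * t)
      + 4 * c * (2 * (256 * M ^ 2 * d ^ 2)) ^ (N + 128)) * (a / y ^ 67 + y ^ N) := by
  have hyN : 0 < y ^ N := by positivity
  have hq0 : 0 ≤ (n : ℝ) * y := by positivity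
  have hq2 : ((n : ℝ) * y) ^ 2 ≤ 4 * M ^ 2 := by
    calc ((n : ℝ) * y) ^ 2 ≤ (2 * M) ^ 2 := by gcongr
      _ = _ := by ring
  have hn2 : (n : ℝ) ^ 2 = ((n : ℝ) * y) ^ 2 / y ^ 2 := by
    field_simp
  set q := ((n : ℝ) * y) ^ 2 with hq
  have hq0' : 0 ≤ q := sq_nonneg _
  have hypow : ∀ j : ℕ, y ^ (N + j) ≤ y ^ N := fun j =>
    pow_le_pow_of_le_one hy0.le hy1 (by omega)
  have t1 : 2 * (4 * (x * (c / y ^ 128))) ≤ 8 * c * y ^ N := by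
    calc 2 * (4 * (x * (c / y ^ 128))) ≤ 2 * (4 * (y ^ M * (c / y ^ 128))) := by gcongr
      _ = 8 * c * y ^ (N + 2) := by
          rw [hM, show N + 130 = (N + 2) + 128 by ring, pow_add y (N + 2) 128]
          field_simp
          ring
      _ ≤ _ := by
          gcongr ?_ * ?_
          exact hypow 2
  have t2 : 2 * (n : ℝ) ^ 2 * (2 * K ^ 2 / y ^ 64 * (k * a / y)) ≤ 16 * M ^ 2 * K ^ 2 * k * (a / y ^ 67) := by
    calc 2 * (n : ℝ) ^ 2 * (2 * K ^ 2 / y ^ 64 * (k * a / y)) = q * (4 * K ^ 2 * k * (a / y ^ 67)) := by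
          rw [hn2]
          field_simp
          ring
      _ ≤ (4 * M ^ 2) * (4 * K ^ 2 * k * (a / y ^ 67)) := by gcongr
      _ = _ := by ring
  have t3 : 2 * (n : ℝ) ^ 2 * (2 * K ^ 2 / y ^ 64 * (t * y ^ (N + 70))) ≤ 16 * M ^ 2 * K ^ 2 * t * y ^ N := by
    calc 2 * (n : ℝ) ^ 2 * (2 * K ^ 2 / y ^ 64 * (t * y ^ (N + 70))) = q * (4 * K ^ 2 * t * y ^ (N + 4)) := by
          rw [hn2, show N + 70 = (N + 4) + 66 by ring, pow_add y (N + 4) 66]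
          field_simp
          ring
      _ ≤ (4 * M ^ 2) * (4 * K ^ 2 * t * y ^ N) := by
          gcongr ?_ * (?_ * ?_)
          exact hypow 4
      _ = _ := by ring
  have t4 : 2 * (n : ℝ) ^ 2 * (8 * (4 * d ^ 2 * y ^ 127 * s)) ≤ (256 * M ^ 2 * d ^ 2 * y) * s := by
    calc 2 * (n : ℝ) ^ 2 * (8 * (4 * d ^ 2 * y ^ 127 * s)) = q * (64 * d ^ 2 * s * y ^ 125) := by
          rw [hn2]
          field_simp
          ring
      _ ≤ (4 * M ^ 2) * (64 * d ^ 2 * s * y) := by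
          gcongr ?_ * (?_ * ?_)
          exact pow_le_of_le_one hy0.le hy1 (by norm_num)
      _ = _ := by ring
  have t5 : 2 * (n : ℝ) ^ 2 * (8 * (t * y ^ (N + 70))) ≤ 64 * M ^ 2 * t * y ^ N := by
    calc 2 * (n : ℝ) ^ 2 * (8 * (t * y ^ (N + 70))) = q * (16 * t * y ^ (N + 68)) := by
          rw [hn2, show N + 70 = (N + 68) + 2 by ring, pow_add y (N + 68) 2]
          field_simp
          ring
      _ ≤ (4 * M ^ 2) * (16 * t * y ^ N) := by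
          gcongr ?_ * (?_ * ?_)
          exact hypow 68
      _ = _ := by ring
  set A1 := 16 * (M : ℝ) ^ 2 * K ^ 2 * k with hA1
  set A2 := 8 * c + 16 * (M : ℝ) ^ 2 * K ^ 2 * t + 64 * (M : ℝ) ^ 2 * t with hA2
  set A3 := 256 * (M : ℝ) ^ 2 * d ^ 2 with hA3
  have hA1' : 0 ≤ A1 := by positivity
  have hA2' : 0 ≤ A2 := by positivity
  have hA3' : 0 ≤ A3 := by positivity
  have ha67 : 0 ≤ a / y ^ 67 := by positivity
  have h3 : s ≤ A1 * (a / y ^ 67) + A2 * y ^ N + (A3 * y) * s := by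
    have e : 2 * (4 * (x * (c / y ^ 128))) + 2 * n ^ 2 * (2 * K ^ 2 / y ^ 64
        * (k * a / y + t * y ^ (N + 70)) + 8 * (4 * d ^ 2 * y ^ 127 * s + t * y ^ (N + 70)))
        = 2 * (4 * (x * (c / y ^ 128))) + 2 * (n : ℝ) ^ 2 * (2 * K ^ 2 / y ^ 64 * (k * a / y))
          + 2 * (n : ℝ) ^ 2 * (2 * K ^ 2 / y ^ 64 * (t * y ^ (N + 70)))
          + 2 * (n : ℝ) ^ 2 * (8 * (4 * d ^ 2 * y ^ 127 * s))
          + 2 * (n : ℝ) ^ 2 * (8 * (t * y ^ (N + 70))) := by ring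
    rw [e] at h1
    have e2 : A2 * y ^ N = 8 * c * y ^ N + 16 * (M : ℝ) ^ 2 * K ^ 2 * t * y ^ N
      + 64 * (M : ℝ) ^ 2 * t * y ^ N := by rw [hA2]; ring
    linarith
  have hlast : 0 ≤ 4 * c * (2 * A3) ^ (N + 128) := by positivity
  by_cases hcase : A3 * y ≤ 1 / 2
  · have h4 : s ≤ 2 * (A1 * (a / y ^ 67) + A2 * y ^ N) := ennreal_absorb_real hcase hs h3
    have p1 : 0 ≤ (4 * c * (2 * A3) ^ (N + 128)) * (a / y ^ 67 + y ^ N) :=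
      mul_nonneg hlast (by positivity)
    have p2 : 0 ≤ A1 * y ^ N := by positivity
    have p3 : 0 ≤ A2 * (a / y ^ 67) := by positivity
    calc s ≤ 2 * (A1 * (a / y ^ 67) + A2 * y ^ N) := h4
      _ ≤ 2 * (A1 * (a / y ^ 67) + A2 * y ^ N) + (2 * (A1 * y ^ N) + 2 * (A2 * (a / y ^ 67))
          + (4 * c * (2 * A3) ^ (N + 128)) * (a / y ^ 67 + y ^ N)) := by linarith
      _ = _ := by ring
  · have hcase' : 1 ≤ 2 * A3 * y := by
      push Not at hcase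
      linarith
    have h5 : 1 ≤ (2 * A3 * y) ^ (N + 128) := one_le_pow₀ hcase'
    have h6 : 4 * c / y ^ 128 ≤ 4 * c * (2 * A3) ^ (N + 128) * y ^ N := by
      calc 4 * c / y ^ 128 = 4 * c / y ^ 128 * 1 := by ring
        _ ≤ 4 * c / y ^ 128 * (2 * A3 * y) ^ (N + 128) := by gcongr
        _ = _ := by
            rw [mul_pow, pow_add y N 128]
            field_simp
    have p1 : 0 ≤ (4 * c * (2 * A3) ^ (N + 128)) * (a / y ^ 67) := mul_nonneg hlast ha67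
    have p2 : 0 ≤ (2 * A1 + 2 * A2) * (a / y ^ 67 + y ^ N) := by positivity
    calc s ≤ 4 * c * (2 * A3) ^ (N + 128) * y ^ N := h2.trans h6
      _ ≤ 4 * c * (2 * A3) ^ (N + 128) * y ^ N + ((4 * c * (2 * A3) ^ (N + 128)) * (a / y ^ 67)
          + (2 * A1 + 2 * A2) * (a / y ^ 67 + y ^ N)) := by linarith
      _ = _ := by ring

end Vale.Agent.P161c
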