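import Vale.Agent.P161c.TreeAlg

/-!
Branches of a tree and the recursions for the screened susceptibilities.
-/

namespace Vale.Agent.P161c

open MeasureTheory SimpleGraph Vale.Agent.H13.P161

section Recursions

variable {V : Type*} {G : SimpleGraph V} [LocallyFinite G] [DecidableEq V] {θ α : ℝ}
  {m : V → V → ℝ}

/-- the neighbour of `c` in direction `w` is unique -/
lemma nbr_unique (hG : G.IsTree) {c g g' w : V} (h : G.Adj c g) (h' : G.Adj c g')
    (hw : G.dist w g < G.dist w c) (hw' : G.dist w g' < G.dist w c) : g = g' := by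
  have e := hG.dist_eq_dist_add_one_of_adj w h
  have e' := hG.dist_eq_dist_add_one_of_adj w h'
  exact parent_unique (u := w) hG h h' (by omega) (by omega)

/-- the branch of `c` away from `p` is `c` together with the branches of the other neighbours -/
lemma br_eq (hG : G.IsTree) {c p : V} (h : G.Adj c p) :
    br G c p = {c} ∪ ⋃ g ∈ (G.neighborFinset c).erase p, br G g c := by
  ext w
  simp only [br, Set.mem_setOf_eq, Set.mem_union, Set.mem_singleton_iff, Set.mem_iUnion,
    Finset.mem_erase, mem_neighborFinset, exists_prop]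
  constructor
  · intro hw
    by_cases hwc : w = c
    · exact Or.inl hwc
    · right
      obtain ⟨h1, h2⟩ := par_spec (o := w) hG.connected (Ne.symm hwc)
      refine ⟨par G w c, ⟨?_, h1⟩, by omega⟩
      intro e
      rw [e] at h2
      omega
  · rintro (rfl | ⟨g, ⟨hgp, hg⟩, hw⟩)
    · have : G.dist w p = 1 := dist_eq_one_iff_adj.mpr h
      rw [this]; simp
    · by_contra hcon
      have hne := hG.dist_ne_of_adj w h
      exact hgp (nbr_unique hG hg h hw (by omega))

/-- branches of different neighbours are disjoint -/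
lemma br_disjoint (hG : G.IsTree) {c g g' : V} (h : G.Adj c g) (h' : G.Adj c g') (hne : g ≠ g') :
    Disjoint (br G g c) (br G g' c) := by
  rw [Set.disjoint_left]
  intro w hw hw'
  exact hne (nbr_unique hG h h' hw hw')

/-- a branch contains the branches of the children -/
lemma br_subset (hG : G.IsTree) {c p g : V} (h : G.Adj c p) (hg : G.Adj c g) (hne : g ≠ p) :
    br G g c ⊆ br G c p := by
  rw [br_eq hG h]
  intro w hw
  right
  simp only [Set.mem_iUnion, Finset.mem_erase, mem_neighborFinset, exists_prop]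
  exact ⟨g, ⟨hne, hg⟩, hw⟩

/-- the complement of a branch is the opposite branch -/
lemma compl_br (hG : G.IsTree) {c p : V} (h : G.Adj c p) : (br G c p)ᶜ = br G p c := by
  ext w
  simp only [br, Set.mem_compl_iff, Set.mem_setOf_eq]
  have hne := hG.dist_ne_of_adj w h
  omega

/-- decomposition of a function according to the branches at `v` -/
lemma full_decomp (hG : G.IsTree) (v : V) (F : V → ENNReal) (w : V) :
    F w = (if w = v then F v else 0)
      + ∑ g ∈ G.neighborFinset v, (if G.dist w g < G.dist w v then F w else 0) := by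
  by_cases hwv : w = v
  · subst hwv
    rw [if_pos rfl, Finset.sum_eq_zero, add_zero]
    intro g _
    rw [if_neg (by simp)]
  · rw [if_neg hwv, zero_add]
    obtain ⟨h1, h2⟩ := par_spec (o := w) hG.connected (Ne.symm hwv)
    rw [Finset.sum_eq_single (par G w v)]
    · rw [if_pos (by omega)]
    · intro g hg hne
      rw [if_neg]
      intro hlt
      exact hne (nbr_unique hG (by simpa using hg) h1 hlt (by omega))
    · intro hcon
      exact absurd (by simpa using h1) hcon

/-- decomposition of a function on a branch -/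
lemma branch_decomp (hG : G.IsTree) {c p : V} (h : G.Adj c p) (F : V → ENNReal) (w : V) :
    (if G.dist w c < G.dist w p then F w else 0) = (if w = c then F c else 0)
      + ∑ g ∈ (G.neighborFinset c).erase p, (if G.dist w g < G.dist w c then F w else 0) := by
  have hfull := full_decomp hG c F w
  have hmem : p ∈ G.neighborFinset c := by simpa using h
  rw [← Finset.add_sum_erase _ _ hmem] at hfull
  by_cases hw : G.dist w c < G.dist w p
  · rw [if_pos hw]
    rw [if_neg (show ¬ G.dist w p < G.dist w c by omega), zero_add] at hfull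
    exact hfull
  · have hne := hG.dist_ne_of_adj w h
    have hlt : G.dist w p < G.dist w c := by omega
    have hwc : w ≠ c := by
      rintro rfl
      simp at hlt
    rw [if_neg hw, if_neg hwc, zero_add, Finset.sum_eq_zero]
    intro g hg
    have hg' := Finset.mem_erase.mp hg
    rw [if_neg]
    intro hcon
    exact hg'.1 (nbr_unique hG (by simpa using hg'.2) h hcon hlt)

lemma tsum_full_decomp (hG : G.IsTree) (v : V) (F : V → ENNReal) :
    ∑' w, F w = F v + ∑ g ∈ G.neighborFinset v,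
      ∑' w, (if G.dist w g < G.dist w v then F w else 0) := by
  rw [tsum_congr (full_decomp hG v F), ENNReal.tsum_add, tsum_ite_eq,
    Summable.tsum_finsetSum (fun i _ => ENNReal.summable)]

lemma tsum_branch_decomp (hG : G.IsTree) {c p : V} (h : G.Adj c p) (F : V → ENNReal) :
    ∑' w, (if G.dist w c < G.dist w p then F w else 0) = F c
      + ∑ g ∈ (G.neighborFinset c).erase p,
        ∑' w, (if G.dist w g < G.dist w c then F w else 0) := by
  rw [tsum_congr (branch_decomp hG h F), ENNReal.tsum_add, tsum_ite_eq,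
    Summable.tsum_finsetSum (fun i _ => ENNReal.summable)]

/-- the summand with a general power of the path product -/
noncomputable def Fk (G : SimpleGraph V) (θ : ℝ) (m : V → V → ℝ) (k : ℕ) (c w : V) : ENNReal :=
  ENNReal.ofReal (θ ^ (2 * G.dist c w) * Wt G θ m c w ^ k)

omit [LocallyFinite G] [DecidableEq V] in
lemma Fk_self (k : ℕ) (v : V) : Fk G θ m k v v = 1 := by
  simp [Fk]

omit [LocallyFinite G] [DecidableEq V] in
lemma Fk_head (hθ0 : 0 ≤ θ) (hθ1 : θ < 1) (hα1 : α < 1) (hG : G.IsTree)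
    (hm : IsCavity G θ α m) (k : ℕ) {c g : V} (h : G.Adj c g) (w : V) :
    (if G.dist w g < G.dist w c then Fk G θ m k c w else 0)
      = ENNReal.ofReal (θ ^ 2 * phi θ (m g c) ^ k)
        * (if G.dist w g < G.dist w c then Fk G θ m k g w else 0) := by
  by_cases hw : G.dist w g < G.dist w c
  · rw [if_pos hw, if_pos hw]
    have h1 := Wt_head (θ := θ) (m := m) hG h (w := w) hw
    have hph := phi_nonneg_le hθ0 hθ1 (x := m g c) (lt_of_le_of_lt (hm.bound _ _ h.symm) hα1)
    unfold Fk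
    rw [h1.1, h1.2, ← ENNReal.ofReal_mul (by have := hph.1; positivity)]
    congr 1
    rw [mul_add, pow_add, mul_pow]
    ring
  · rw [if_neg hw, if_neg hw, mul_zero]

lemma Fk_full_rec (hθ0 : 0 ≤ θ) (hθ1 : θ < 1) (hα1 : α < 1) (hG : G.IsTree)
    (hm : IsCavity G θ α m) (k : ℕ) (v : V) :
    ∑' w, Fk G θ m k v w = 1 + ∑ g ∈ G.neighborFinset v,
      ENNReal.ofReal (θ ^ 2 * phi θ (m g v) ^ k)
        * ∑' w, (if G.dist w g < G.dist w v then Fk G θ m k g w else 0) := by
  rw [tsum_full_decomp hG v, Fk_self]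
  congr 1
  apply Finset.sum_congr rfl
  intro g hg
  have hg' : G.Adj v g := by simpa using hg
  rw [tsum_congr (Fk_head hθ0 hθ1 hα1 hG hm k hg'), ENNReal.tsum_mul_left]

lemma Fk_branch_rec (hθ0 : 0 ≤ θ) (hθ1 : θ < 1) (hα1 : α < 1) (hG : G.IsTree)
    (hm : IsCavity G θ α m) (k : ℕ) {c p : V} (h : G.Adj c p) :
    ∑' w, (if G.dist w c < G.dist w p then Fk G θ m k c w else 0)
      = 1 + ∑ g ∈ (G.neighborFinset c).erase p,
        ENNReal.ofReal (θ ^ 2 * phi θ (m g c) ^ k)
          * ∑' w, (if G.dist w g < G.dist w c then Fk G θ m k g w else 0) := by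
  rw [tsum_branch_decomp hG h, Fk_self]
  congr 1
  apply Finset.sum_congr rfl
  intro g hg
  have hg' : G.Adj c g := by simpa using (Finset.mem_erase.mp hg).2
  rw [tsum_congr (Fk_head hθ0 hθ1 hα1 hG hm k hg'), ENNReal.tsum_mul_left]

omit [LocallyFinite G] [DecidableEq V] in
lemma Rb_eq_Fk (c p : V) :
    Rb G θ m c p = ∑' w, (if G.dist w c < G.dist w p then Fk G θ m 1 c w else 0) := by
  unfold Rb Fk
  simp only [pow_one]

omit [LocallyFinite G] [DecidableEq V] in
lemma Rb2_eq_Fk (c p : V) :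
    Rb2 G θ m c p = ∑' w, (if G.dist w c < G.dist w p then Fk G θ m 2 c w else 0) := by
  rfl

omit [LocallyFinite G] [DecidableEq V] in
lemma Rf_eq_Fk (v : V) : Rf G θ m v = ∑' w, Fk G θ m 1 v w := by
  unfold Rf Fk
  simp only [pow_one]

lemma Rb_rec (hθ0 : 0 ≤ θ) (hθ1 : θ < 1) (hα1 : α < 1) (hG : G.IsTree)
    (hm : IsCavity G θ α m) {c p : V} (h : G.Adj c p) :
    Rb G θ m c p = 1 + ∑ g ∈ (G.neighborFinset c).erase p,
      ENNReal.ofReal (θ ^ 2 * phi θ (m g c)) * Rb G θ m g c := by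
  rw [Rb_eq_Fk, Fk_branch_rec hθ0 hθ1 hα1 hG hm 1 h]
  simp only [pow_one, Rb_eq_Fk]

lemma Rb2_rec (hθ0 : 0 ≤ θ) (hθ1 : θ < 1) (hα1 : α < 1) (hG : G.IsTree)
    (hm : IsCavity G θ α m) {c p : V} (h : G.Adj c p) :
    Rb2 G θ m c p = 1 + ∑ g ∈ (G.neighborFinset c).erase p,
      ENNReal.ofReal (θ ^ 2 * phi θ (m g c) ^ 2) * Rb2 G θ m g c := by
  rw [Rb2_eq_Fk, Fk_branch_rec hθ0 hθ1 hα1 hG hm 2 h]
  simp only [Rb2_eq_Fk]

lemma Rf_rec (hθ0 : 0 ≤ θ) (hθ1 : θ < 1) (hα1 : α < 1) (hG : G.IsTree)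
    (hm : IsCavity G θ α m) (v : V) :
    Rf G θ m v = 1 + ∑ g ∈ G.neighborFinset v,
      ENNReal.ofReal (θ ^ 2 * phi θ (m g v)) * Rb G θ m g v := by
  rw [Rf_eq_Fk, Fk_full_rec hθ0 hθ1 hα1 hG hm 1 v]
  simp only [pow_one, Rb_eq_Fk]

lemma Rb2_le_Rb (hθ0 : 0 ≤ θ) (hθ1 : θ < 1) (hα1 : α < 1) (hG : G.IsTree)
    (hm : IsCavity G θ α m) (c p : V) : Rb2 G θ m c p ≤ Rb G θ m c p := by
  unfold Rb2 Rb
  apply ENNReal.tsum_le_tsum
  intro w
  split_ifs
  · apply ENNReal.ofReal_le_ofReal
    have hW := Wt_pos_le hθ0 hθ1 hα1 hG.connected hm c w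
    apply mul_le_mul_of_nonneg_left _ (by positivity)
    nlinarith
  · exact le_rfl

lemma Rb_le_Rf (c p : V) : Rb G θ m c p ≤ Rf G θ m c := by
  unfold Rb Rf
  apply ENNReal.tsum_le_tsum
  intro w
  split_ifs
  · exact le_rfl
  · exact zero_le

lemma one_le_Rf (v : V) : 1 ≤ Rf G θ m v := by
  rw [Rf_eq_Fk, ← Fk_self (G := G) (θ := θ) (m := m) 1 v]
  exact ENNReal.le_tsum v

lemma Rn_mono (hθ0 : 0 ≤ θ) (hθ1 : θ < 1) (hα1 : α < 1)
    (hm : IsCavity G θ α m) {c p : V} (h : G.Adj c p) (n : ℕ) :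
    0 ≤ Rn G θ m n c p ∧ Rn G θ m n c p ≤ Rn G θ m (n + 1) c p := by
  have hphi : ∀ {c g : V}, G.Adj c g → 0 ≤ phi θ (m g c) := fun hg =>
    (phi_nonneg_le hθ0 hθ1 (lt_of_le_of_lt (hm.bound _ _ hg.symm) hα1)).1.le
  induction n generalizing c p with
  | zero =>
    refine ⟨le_rfl, ?_⟩
    simp [Rn]
  | succ n ih =>
    have hterm : ∀ g ∈ (G.neighborFinset c).erase p, G.Adj c g := by
      intro g hg
      simpa using (Finset.mem_erase.mp hg).2
    constructor
    · simp only [Rn]
      have : 0 ≤ ∑ g ∈ (G.neighborFinset c).erase p, phi θ (m g c) * Rn G θ m n g c :=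
        Finset.sum_nonneg fun g hg =>
          mul_nonneg (hphi (hterm g hg)) (ih (hterm g hg).symm).1
      positivity
    · rw [Rn, Rn]
      have : ∑ g ∈ (G.neighborFinset c).erase p, phi θ (m g c) * Rn G θ m n g c
          ≤ ∑ g ∈ (G.neighborFinset c).erase p, phi θ (m g c) * Rn G θ m (n + 1) g c :=
        Finset.sum_le_sum fun g hg =>
          mul_le_mul_of_nonneg_left (ih (hterm g hg).symm).2 (hphi (hterm g hg))
      have h2 := mul_le_mul_of_nonneg_left this (sq_nonneg θ)
      linarith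

/-- the truncated susceptibility as a truncated sum -/
lemma Rn_eq_tsum (hθ0 : 0 ≤ θ) (hθ1 : θ < 1) (hα1 : α < 1) (hG : G.IsTree)
    (hm : IsCavity G θ α m) (n : ℕ) {c p : V} (h : G.Adj c p) :
    ENNReal.ofReal (Rn G θ m n c p)
      = ∑' w, (if G.dist w c < G.dist w p then
          (if G.dist c w < n then Fk G θ m 1 c w else 0) else 0) := by
  induction n generalizing c p with
  | zero =>
    simp [Rn]
  | succ n ih =>
    rw [tsum_branch_decomp hG h (fun w => if G.dist c w < n + 1 then Fk G θ m 1 c w else 0)]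
    have hterm : ∀ g ∈ (G.neighborFinset c).erase p, G.Adj c g := by
      intro g hg
      simpa using (Finset.mem_erase.mp hg).2
    have hphi : ∀ g ∈ (G.neighborFinset c).erase p, 0 ≤ phi θ (m g c) := fun g hg =>
      (phi_nonneg_le hθ0 hθ1 (lt_of_le_of_lt (hm.bound _ _ (hterm g hg).symm) hα1)).1.le
    have e0 : (if G.dist c c < n + 1 then Fk G θ m 1 c c else 0) = 1 := by
      rw [if_pos (by simp), Fk_self]
    rw [e0]
    simp only [Rn]
    have hnn : ∀ g ∈ (G.neighborFinset c).erase p,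
        0 ≤ θ ^ 2 * phi θ (m g c) * Rn G θ m n g c := fun g hg =>
      mul_nonneg (mul_nonneg (sq_nonneg θ) (hphi g hg))
        (Rn_mono hθ0 hθ1 hα1 hm (hterm g hg).symm n).1
    have e1 : θ ^ 2 * ∑ g ∈ (G.neighborFinset c).erase p, phi θ (m g c) * Rn G θ m n g c
        = ∑ g ∈ (G.neighborFinset c).erase p, θ ^ 2 * phi θ (m g c) * Rn G θ m n g c := by
      rw [Finset.mul_sum]
      exact Finset.sum_congr rfl fun g _ => by ring
    rw [e1, ENNReal.ofReal_add zero_le_one (Finset.sum_nonneg hnn), ENNReal.ofReal_one,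
      ENNReal.ofReal_sum_of_nonneg hnn]
    congr 1
    apply Finset.sum_congr rfl
    intro g hg
    have hcg := hterm g hg
    rw [ENNReal.ofReal_mul (mul_nonneg (sq_nonneg θ) (hphi g hg)), ih hcg.symm,
      ← ENNReal.tsum_mul_left]
    apply tsum_congr
    intro w
    have hhead := Fk_head hθ0 hθ1 hα1 hG hm 1 hcg w
    by_cases hw : G.dist w g < G.dist w c
    · rw [if_pos hw, if_pos hw, pow_one] at hhead
      rw [if_pos hw, if_pos hw]
      have hd := (Wt_head (θ := θ) (m := m) hG hcg (w := w) hw).2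
      by_cases hn : G.dist g w < n
      · rw [if_pos hn, if_pos (by omega), hhead]
      · rw [if_neg hn, if_neg (by omega), mul_zero]
    · rw [if_neg hw, if_neg hw, mul_zero]

/-- the truncated susceptibilities increase to the branch susceptibility -/
lemma Rb_eq_iSup (hθ0 : 0 ≤ θ) (hθ1 : θ < 1) (hα1 : α < 1) (hG : G.IsTree)
    (hm : IsCavity G θ α m) {c p : V} (h : G.Adj c p) :
    Rb G θ m c p = ⨆ n, ENNReal.ofReal (Rn G θ m n c p) := by
  apply le_antisymm
  · rw [Rb_eq_Fk, ENNReal.tsum_eq_iSup_sum]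
    apply iSup_le
    intro s
    refine le_trans ?_ (le_iSup _ (s.sup (fun w => G.dist c w) + 1))
    rw [Rn_eq_tsum hθ0 hθ1 hα1 hG hm _ h]
    refine le_trans ?_ (ENNReal.sum_le_tsum s)
    apply Finset.sum_le_sum
    intro w hw
    have hle : G.dist c w ≤ s.sup (fun w => G.dist c w) :=
      Finset.le_sup (f := fun w => G.dist c w) hw
    rw [if_pos (show G.dist c w < s.sup (fun w => G.dist c w) + 1 by omega)]
  · apply iSup_le
    intro n
    rw [Rn_eq_tsum hθ0 hθ1 hα1 hG hm _ h, Rb_eq_Fk]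
    apply ENNReal.tsum_le_tsum
    intro w
    split_ifs
    · exact le_rfl
    · exact zero_le
    · exact le_rfl

/-- product structure of the sum of squared covariances across an edge -/
lemma tsum_Cv_sq_edge (hθ0 : 0 ≤ θ) (hθ1 : θ < 1) (hα0 : 0 ≤ α) (hα1 : α < 1) (hG : G.IsTree)
    (hm : IsCavity G θ α m) {v g : V} (h : G.Adj v g) :
    (∑' x : (br G g v), ∑' w : (br G v g), ENNReal.ofReal (Cv G θ m x w ^ 2))
      = ENNReal.ofReal (Cv G θ m g v ^ 2) * Rb2 G θ m g v * Rb2 G θ m v g := by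
  have e1 : Rb2 G θ m v g = ∑' w : (br G v g), Fk G θ m 2 v w := by
    rw [Rb2_eq_Fk, tsum_subtype (br G v g) (fun w => Fk G θ m 2 v w)]
    apply tsum_congr
    intro w
    by_cases hw : G.dist w v < G.dist w g
    · rw [if_pos hw, Set.indicator_of_mem (show w ∈ br G v g from hw)]
    · rw [if_neg hw, Set.indicator_of_notMem (show w ∉ br G v g from hw)]
  have e2 : Rb2 G θ m g v = ∑' w : (br G g v), Fk G θ m 2 g w := by
    rw [Rb2_eq_Fk, tsum_subtype (br G g v) (fun w => Fk G θ m 2 g w)]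
    apply tsum_congr
    intro w
    by_cases hw : G.dist w g < G.dist w v
    · rw [if_pos hw, Set.indicator_of_mem (show w ∈ br G g v from hw)]
    · rw [if_neg hw, Set.indicator_of_notMem (show w ∉ br G g v from hw)]
  have e3 : ∀ (x : br G g v) (w : br G v g), ENNReal.ofReal (Cv G θ m x w ^ 2)
      = ENNReal.ofReal (Cv G θ m g v ^ 2) * Fk G θ m 2 g x * Fk G θ m 2 v w := by
    intro x w
    rw [Cv_factor_edge hθ0 hθ1 hα0 hα1 hG hm h x.2 w.2]
    unfold Fk
    rw [← ENNReal.ofReal_mul (sq_nonneg _), ← ENNReal.ofReal_mul (by positivity)]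
    congr 1
    rw [pow_mul', pow_mul']
    ring
  simp only [e3, ENNReal.tsum_mul_left, ENNReal.tsum_mul_right]
  rw [e1, e2]

/-- sum of squared covariances from a vertex -/
lemma tsum_Cv_sq (hθ0 : 0 ≤ θ) (hθ1 : θ < 1) (hα0 : 0 ≤ α) (hα1 : α < 1) (hG : G.IsTree)
    (hm : IsCavity G θ α m) (v : V) :
    (∑' w, ENNReal.ofReal (Cv G θ m v w ^ 2))
      = ENNReal.ofReal ((1 - mag G θ m v ^ 2) ^ 2) * (1 + ∑ g ∈ G.neighborFinset v,
          ENNReal.ofReal (θ ^ 2 * phi θ (m g v) ^ 2) * Rb2 G θ m g v) := by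
  have e3 : ∀ w, ENNReal.ofReal (Cv G θ m v w ^ 2)
      = ENNReal.ofReal ((1 - mag G θ m v ^ 2) ^ 2) * Fk G θ m 2 v w := by
    intro w
    unfold Fk Cv
    rw [← ENNReal.ofReal_mul (sq_nonneg _)]
    congr 1
    rw [pow_mul']
    ring
  simp only [e3, ENNReal.tsum_mul_left]
  rw [Fk_full_rec hθ0 hθ1 hα1 hG hm 2 v]
  simp only [Rb2_eq_Fk]

end Recursions

end Vale.Agent.P161c
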